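import Vale.Agent.P146.R3.JDefs
import Vale.Agent.P146.R3.X.B1

/-! P166, full formula: atomic measures. -/

open MeasureTheory Finset

namespace Vale.Agent.P166

/-- The measure `∑ α_b δ_{a_b}`. -/
noncomputable def atoms {B : Type} [Fintype B] (a α : B → ℝ) : Measure ℝ :=
  ∑ b, ENNReal.ofReal (α b) • Measure.dirac (a b)

end Vale.Agent.P166
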