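import Mathlib
import Vale.Agent.P146.R3.X.K_F_RtDefs
import Vale.Agent.P146.R3.X.B1
import Vale.Agent.P157.ParDefs
import Vale.Agent.P146.R3.X.K_JDefs

set_option linter.all false

section

section

/-! Task F-R: the R-transform of a compactly supported law. -/

open MeasureTheory Finset Filter Topology

namespace Vale.Agent.P166.F

variable {μ : Measure ℝ} [IsProbabilityMeasure μ]

theorem rt_pos_int {f : ℝ → ℝ} (hf : Integrable f μ) (h : ∀ᵐ x ∂μ, 0 < f x) :
    0 < ∫ x, f x ∂μ := by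
  rw [integral_pos_iff_support_of_nonneg_ae (h.mono fun x hx => hx.le) hf]
  have h1 : μ (Function.support f) = μ Set.univ := by
    apply measure_congr
    filter_upwards [h] with x hx
    have : x ∈ Function.support f := hx.ne'
    simp only [eq_iff_iff]
    exact ⟨fun _ => trivial, fun _ => this⟩
  rw [h1]
  simp

omit [IsProbabilityMeasure μ] in
theorem rt_ae_le (hμ : IsCompact μ.support) : ∀ᵐ x ∂μ, x ≤ sSup μ.support := by
  filter_upwards [Measure.support_mem_ae] with x hx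
  exact le_csSup hμ.bddAbove hx

theorem rt_int_inv (hμ : IsCompact μ.support) {z : ℝ} (hz : sSup μ.support < z) :
    Integrable (fun x => (z - x)⁻¹) μ := by
  refine Integrable.of_bound (by fun_prop) (z - sSup μ.support)⁻¹ ?_
  filter_upwards [rt_ae_le hμ] with x hx
  rw [Real.norm_eq_abs, abs_of_nonneg (by rw [inv_nonneg]; linarith)]
  apply inv_anti₀ <;> linarith

/-- The Stieltjes transform is strictly decreasing to the right of the support. -/
theorem st_anti (hμ : IsCompact μ.support) {z w : ℝ} (hz : sSup μ.support < z) (h : z < w) :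
    ∫ x, (w - x)⁻¹ ∂μ < ∫ x, (z - x)⁻¹ ∂μ := by
  have h1 : 0 < ∫ x, ((z - x)⁻¹ - (w - x)⁻¹) ∂μ := by
    apply rt_pos_int ((rt_int_inv hμ hz).sub (rt_int_inv hμ (hz.trans h)))
    filter_upwards [rt_ae_le hμ] with x hx
    simp only [Pi.sub_apply, sub_pos]
    apply inv_strictAnti₀ <;> linarith
  rw [integral_sub (rt_int_inv hμ hz) (rt_int_inv hμ (hz.trans h))] at h1
  linarith

theorem rt_st_le (hμ : IsCompact μ.support) {z : ℝ} (hz : sSup μ.support < z) :
    ∫ x, (z - x)⁻¹ ∂μ ≤ (z - sSup μ.support)⁻¹ := by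
  have h1 : ∫ x, (z - x)⁻¹ ∂μ ≤ ∫ _x, (z - sSup μ.support)⁻¹ ∂μ := by
    apply integral_mono_ae (rt_int_inv hμ hz) (integrable_const _)
    filter_upwards [rt_ae_le hμ] with x hx
    apply inv_anti₀ <;> linarith
  simpa using h1

/-- The defining set of `stInv` is nonempty. -/
theorem rt_nonempty (hμ : IsCompact μ.support) {y : ℝ} (hy : 0 < y) :
    {z : ℝ | sSup μ.support < z ∧ ∫ x, (z - x)⁻¹ ∂μ ≤ y}.Nonempty := by
  refine ⟨sSup μ.support + 1 / y, ?_, ?_⟩
  · have : 0 < 1 / y := by positivity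
    linarith
  · have h0 : sSup μ.support < sSup μ.support + 1 / y := by
      have : 0 < 1 / y := by positivity
      linarith
    refine (rt_st_le hμ h0).trans ?_
    rw [add_sub_cancel_left, one_div, inv_inv]

theorem rt_bddBelow (μ : Measure ℝ) (y : ℝ) :
    BddBelow {z : ℝ | sSup μ.support < z ∧ ∫ x, (z - x)⁻¹ ∂μ ≤ y} :=
  ⟨sSup μ.support, fun _ hz => hz.1.le⟩

/-- The inverse. -/
theorem stInv_eq (hμ : IsCompact μ.support) {y z : ℝ} (hz : sSup μ.support < z)
    (h : ∫ x, (z - x)⁻¹ ∂μ = y) : stInv μ y = z := by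
  have h1 : {z : ℝ | sSup μ.support < z ∧ ∫ x, (z - x)⁻¹ ∂μ ≤ y} = Set.Ici z := by
    ext w
    simp only [Set.mem_ofPred_eq, Set.mem_Ici]
    constructor
    · rintro ⟨hw, hwy⟩
      by_contra hlt
      push Not at hlt
      have := st_anti hμ hw hlt
      linarith
    · intro hw
      refine ⟨hz.trans_le hw, ?_⟩
      rcases hw.eq_or_lt with rfl | hlt
      · exact h.le
      · exact (st_anti hμ hz hlt).le.trans h.le
  rw [stInv, h1, csInf_Ici]

theorem le_stInv (hμ : IsCompact μ.support) {y : ℝ} (hy : 0 < y) :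
    sSup μ.support ≤ stInv μ y :=
  le_csInf (rt_nonempty hμ hy) fun _ hz => hz.1.le

theorem stInv_anti (hμ : IsCompact μ.support) {x y : ℝ} (hx : 0 < x) (h : x ≤ y) :
    stInv μ y ≤ stInv μ x :=
  csInf_le_csInf (rt_bddBelow μ y) (rt_nonempty hμ hx) fun _ hz => ⟨hz.1, hz.2.trans h⟩

omit [IsProbabilityMeasure μ] in
/-- Upper bound for the inverse. -/
theorem rt_stInv_le {y z : ℝ} (hz : sSup μ.support < z)
    (h : ∫ x, (z - x)⁻¹ ∂μ ≤ y) : stInv μ y ≤ z :=
  csInf_le (rt_bddBelow μ y) ⟨hz, h⟩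

/-- Lower bound for the inverse. -/
theorem rt_le_stInv (hμ : IsCompact μ.support) {y z : ℝ} (hy : 0 < y)
    (h : y ≤ ∫ x, (z - x)⁻¹ ∂μ) : z ≤ stInv μ y := by
  refine le_csInf (rt_nonempty hμ hy) fun w hw => ?_
  by_contra hlt
  push Not at hlt
  have := st_anti hμ hw.1 hlt
  linarith [hw.2]

/-- To the right of the inverse the transform is smaller. -/
theorem rt_lt_of_stInv_lt (hμ : IsCompact μ.support) {y z : ℝ} (hy : 0 < y)
    (h : stInv μ y < z) : ∫ x, (z - x)⁻¹ ∂μ < y := by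
  obtain ⟨w, hw, hwz⟩ := exists_lt_of_csInf_lt (rt_nonempty hμ hy) h
  exact (st_anti hμ hw.1 hwz).trans_le hw.2

omit [IsProbabilityMeasure μ] in
/-- To the left of the inverse the transform is larger. -/
theorem rt_lt_of_lt_stInv {y z : ℝ} (hz : sSup μ.support < z)
    (h : z < stInv μ y) : y < ∫ x, (z - x)⁻¹ ∂μ := by
  by_contra hle
  push Not at hle
  exact absurd (rt_stInv_le hz hle) (not_le.2 h)

theorem continuousOn_stInv (hμ : IsCompact μ.support) :
    ContinuousOn (stInv μ) (Set.Ioi 0) := by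
  intro y0 hy0
  have hy0' : 0 < y0 := hy0
  refine ContinuousAt.continuousWithinAt ?_
  rw [ContinuousAt, tendsto_order]
  constructor
  · intro a ha
    rcases lt_or_ge (sSup μ.support) (stInv μ y0) with hb | hb
    · -- a point strictly between
      obtain ⟨z, hz1, hz2⟩ := exists_between (max_lt ha hb)
      have hz : sSup μ.support < z := (le_max_right _ _).trans_lt hz1
      have haz : a < z := (le_max_left _ _).trans_lt hz1
      have hlt := rt_lt_of_lt_stInv hz hz2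
      filter_upwards [gt_mem_nhds hlt, Ioi_mem_nhds hy0'] with y hy hy1
      exact haz.trans_le (rt_le_stInv hμ hy1 (le_of_lt hy))
    · filter_upwards [Ioi_mem_nhds hy0'] with y hy
      exact (ha.trans_le hb).trans_le (le_stInv hμ hy)
  · intro a ha
    obtain ⟨z, hz1, hz2⟩ := exists_between ha
    have hlt := rt_lt_of_stInv_lt hμ hy0' hz1
    have hz : sSup μ.support < z := (le_stInv hμ hy0').trans_lt hz1
    filter_upwards [lt_mem_nhds hlt] with y hy
    exact (rt_stInv_le hz (le_of_lt hy)).trans_lt hz2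

end Vale.Agent.P166.F
end
end

section

section

/-! Task F-R2: monotonicity of the R-transform and rounding. -/

open MeasureTheory Finset Filter Topology

namespace Vale.Agent.P166.F

variable {μ : Measure ℝ} [IsProbabilityMeasure μ]

theorem rt2_ne : μ.support.Nonempty := Measure.nonempty_support (IsProbabilityMeasure.ne_zero μ)

theorem rt2_ae_le (hμ : IsCompact μ.support) : ∀ᵐ x ∂μ, x ≤ sSup μ.support := by
  filter_upwards [Measure.support_mem_ae (μ := μ)] with x hx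
  exact le_csSup hμ.bddAbove hx

theorem rt2_ae_ge (hμ : IsCompact μ.support) : ∀ᵐ x ∂μ, sInf μ.support ≤ x := by
  filter_upwards [Measure.support_mem_ae (μ := μ)] with x hx
  exact csInf_le hμ.bddBelow hx

theorem rt2_inf_le_sup (hμ : IsCompact μ.support) : sInf μ.support ≤ sSup μ.support :=
  Real.sInf_le_sSup _ hμ.bddBelow hμ.bddAbove

theorem rt2_int (hμ : IsCompact μ.support) {z : ℝ} (hz : sSup μ.support < z) :
    Integrable (fun x => (z - x)⁻¹) μ := by
  refine Integrable.of_bound (Measurable.aestronglyMeasurable (by (clear * -; fun_prop)))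
    ((z - sSup μ.support)⁻¹) ?_
  filter_upwards [rt2_ae_le hμ] with x hx
  rw [norm_inv, Real.norm_of_nonneg (by linarith only [hz, hx])]
  exact inv_anti₀ (by linarith) (by linarith)

theorem rt2_le_inv (hμ : IsCompact μ.support) {z : ℝ} (hz : sSup μ.support < z) :
    ∫ x, (z - x)⁻¹ ∂μ ≤ (z - sSup μ.support)⁻¹ := by
  have h := integral_mono_ae (rt2_int hμ hz) (integrable_const (z - sSup μ.support)⁻¹) (by
    filter_upwards [rt2_ae_le hμ] with x hx
    exact inv_anti₀ (by linarith) (by linarith only [hx]))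
  simpa only [ge_iff_le, integral_const, probReal_univ, smul_eq_mul, one_mul] using h

theorem rt2_inv_le (hμ : IsCompact μ.support) {z : ℝ} (hz : sSup μ.support < z) :
    (z - sInf μ.support)⁻¹ ≤ ∫ x, (z - x)⁻¹ ∂μ := by
  have h := integral_mono_ae (integrable_const (z - sInf μ.support)⁻¹) (rt2_int hμ hz) (by
    filter_upwards [rt2_ae_le hμ, rt2_ae_ge hμ] with x hx hx'
    exact inv_anti₀ (by linarith only [hz, hx]) (by linarith only [hx']))
  simpa only [ge_iff_le, integral_const, probReal_univ, smul_eq_mul, one_mul] using h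

theorem rt2_pos (hμ : IsCompact μ.support) {z : ℝ} (hz : sSup μ.support < z) :
    0 < ∫ x, (z - x)⁻¹ ∂μ :=
  lt_of_lt_of_le (inv_pos.2 (by have := rt2_inf_le_sup hμ; linarith only [hz, this])) (rt2_inv_le hμ hz)

/-- the concavity of `t / (1 + c t)` -/
theorem rt2_tangent {c t F : ℝ} (hc : 0 ≤ c) (ht : 0 ≤ t) (hF : 0 ≤ F) :
    t / (1 + c * t) ≤ F / (1 + c * F) + (t - F) * (1 / (1 + c * F) ^ 2) := by
  have h1 : 0 < 1 + c * t := by (clear * - hc ht; positivity)
  have h2 : 0 < 1 + c * F := by (clear * - hc hF; positivity)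
  have h3 : F / (1 + c * F) + (t - F) * (1 / (1 + c * F) ^ 2) - t / (1 + c * t) =
      c * (t - F) ^ 2 / ((1 + c * F) ^ 2 * (1 + c * t)) := by
    field_simp
    ring
  have h4 : 0 ≤ c * (t - F) ^ 2 / ((1 + c * F) ^ 2 * (1 + c * t)) := by (clear * - hc hF ht; positivity)
  linarith

/-- the key inequality `1/G(w) - 1/G(z) ≥ w - z` -/
theorem rt2_key (hμ : IsCompact μ.support) {z w : ℝ} (hz : sSup μ.support < z) (h : z ≤ w) :
    ∫ x, (w - x)⁻¹ ∂μ ≤
      (∫ x, (z - x)⁻¹ ∂μ) / (1 + (w - z) * ∫ x, (z - x)⁻¹ ∂μ) := by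
  set F := ∫ x, (z - x)⁻¹ ∂μ with hF
  have hFpos : 0 < F := rt2_pos hμ hz
  have hc : 0 ≤ w - z := by linarith only [h]
  have hi1 : Integrable (fun x => ((z - x)⁻¹ - F) * (1 / (1 + (w - z) * F) ^ 2)) μ :=
    ((rt2_int hμ hz).sub (integrable_const F)).mul_const _
  have hmono : ∫ x, (w - x)⁻¹ ∂μ ≤
      ∫ x, (F / (1 + (w - z) * F) + ((z - x)⁻¹ - F) * (1 / (1 + (w - z) * F) ^ 2)) ∂μ := by
    refine integral_mono_ae (rt2_int hμ (hz.trans_le h)) ((integrable_const _).add hi1) ?_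
    filter_upwards [rt2_ae_le hμ] with x hx
    have hzx : 0 < z - x := by linarith only [hz, hx]
    have e : (w - x)⁻¹ = (z - x)⁻¹ / (1 + (w - z) * (z - x)⁻¹) := by
      have h5 : 0 < w - x := by linarith only [hz, h, hx]
      have h6 : 1 + (w - z) * (z - x)⁻¹ = (w - x) * (z - x)⁻¹ := by
        field_simp
        ring
      rw [h6]
      (clear * - hzx h5; field_simp)
    rw [e]
    exact rt2_tangent hc (inv_nonneg.2 hzx.le) hFpos.le
  rw [integral_add (integrable_const _) hi1, integral_mul_const,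
    integral_sub (rt2_int hμ hz) (integrable_const F), ← hF] at hmono
  simpa only [ge_iff_le, integral_const, probReal_univ, smul_eq_mul, one_mul, sub_self, one_div, zero_mul,     add_zero] using hmono

theorem rt2_mem (hμ : IsCompact μ.support) {y : ℝ} (hy : 0 < y) :
    sSup μ.support + 1 / y ∈
      {z : ℝ | sSup μ.support < z ∧ ∫ x, (z - x)⁻¹ ∂μ ≤ y} := by
  have h1 : sSup μ.support < sSup μ.support + 1 / y := by
    have : 0 < 1 / y := by positivity
    linarith
  refine ⟨h1, (rt2_le_inv hμ h1).trans ?_⟩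
  rw [add_sub_cancel_left, one_div, inv_inv]

theorem rt2_bdd (μ : Measure ℝ) (y : ℝ) :
    BddBelow {z : ℝ | sSup μ.support < z ∧ ∫ x, (z - x)⁻¹ ∂μ ≤ y} :=
  ⟨sSup μ.support, fun _ hz => hz.1.le⟩

theorem rt2_stInv_le {y z : ℝ} (hz : sSup μ.support < z) (h : ∫ x, (z - x)⁻¹ ∂μ ≤ y) :
    stInv μ y ≤ z :=
  csInf_le (rt2_bdd μ y) ⟨hz, h⟩

theorem rt2_le_stInv (hμ : IsCompact μ.support) {y c : ℝ} (hy : 0 < y)
    (h : ∀ z, sSup μ.support < z → ∫ x, (z - x)⁻¹ ∂μ ≤ y → c ≤ z) : c ≤ stInv μ y :=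
  le_csInf ⟨_, rt2_mem hμ hy⟩ fun z hz => h z hz.1 hz.2

/-- The R-transform is nondecreasing. Proof: `y R(y) = y ζ - 1`; if `x < y`, `ζ_x = stInv x ≥
ζ_y = stInv y`; `R(y) - R(x) = (1/x - 1/y) - (ζ_x - ζ_y)`; if both are to the right of the edge use
`1/x = 1/∫(ζ_x - t)⁻¹` and the concavity/Lipschitz property of the harmonic mean:
`1/G(z) - 1/G(w) ≥ z - w` for `z > w` because `(1/G)' = -G'/G² ≥ 1`. -/
theorem Rt_mono (hμ : IsCompact μ.support) {x y : ℝ} (hx : 0 < x) (h : x ≤ y) :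
    Rt μ x ≤ Rt μ y := by
  have hy : 0 < y := hx.trans_le h
  have hc : 0 ≤ 1 / x - 1 / y := sub_nonneg.2 (one_div_le_one_div_of_le hx h)
  have key : stInv μ x - (1 / x - 1 / y) ≤ stInv μ y := by
    refine rt2_le_stInv hμ hy fun z hz hG => ?_
    have h1 : stInv μ x ≤ z + (1 / x - 1 / y) := by
      refine rt2_stInv_le (by linarith only [hc, hz]) ?_
      refine (rt2_key hμ hz (by linarith only [hc])).trans ?_
      rw [add_sub_cancel_left]
      have hF : 0 < ∫ x, (z - x)⁻¹ ∂μ := rt2_pos hμ hz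
      generalize (∫ x, (z - x)⁻¹ ∂μ) = F at hF hG
      have hden : 0 < 1 + (1 / x - 1 / y) * F := by (clear * - hc hF; positivity)
      rw [div_le_iff₀ hden]
      have e : x * (1 + (1 / x - 1 / y) * F) = F + x * (1 - F / y) := by
        field_simp
        ring
      rw [e]
      have h2 : F / y ≤ 1 := (div_le_one hy).2 hG
      nlinarith only [hx, h2]
    linarith
  unfold Rt
  linarith only [key]

theorem Rt_le (hμ : IsCompact μ.support) {y : ℝ} (hy : 0 < y) : Rt μ y ≤ sSup μ.support := by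
  have h := rt2_mem hμ hy
  have h2 := rt2_stInv_le h.1 h.2
  unfold Rt
  linarith

theorem le_Rt (hμ : IsCompact μ.support) {y : ℝ} (hy : 0 < y) : sInf μ.support ≤ Rt μ y := by
  have h : sInf μ.support + 1 / y ≤ stInv μ y := by
    refine rt2_le_stInv hμ hy fun z hz hG => ?_
    have h1 := rt2_inf_le_sup hμ
    have h2 : (z - sInf μ.support)⁻¹ ≤ y := (rt2_inv_le hμ hz).trans hG
    have h3 : 0 < z - sInf μ.support := by linarith only [hz, h1]
    have h4 : 1 / y ≤ z - sInf μ.support := by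
      rw [one_div]
      exact inv_le_of_inv_le₀ h3 h2
    linarith only [h4]
  unfold Rt
  linarith

theorem rt2_map_compact (hμ : IsCompact μ.support) {T : ℝ → ℝ} (hT : Measurable T) {δ : ℝ}
    (h1 : ∀ x, x ≤ T x) (h2 : ∀ x, T x ≤ x + δ) :
    IsCompact (μ.map T).support ∧ sSup μ.support ≤ sSup (μ.map T).support ∧
      sSup (μ.map T).support ≤ sSup μ.support + δ := by
  haveI : IsProbabilityMeasure (μ.map T) := Measure.isProbabilityMeasure_map hT.aemeasurable
  have hne : (μ.map T).support.Nonempty := rt2_ne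
  have hup : (μ.map T).support ⊆ Set.Iic (sSup μ.support + δ) := by
    refine Measure.support_subset_of_isClosed isClosed_Iic ?_
    have : ∀ᵐ x ∂(μ.map T), x ≤ sSup μ.support + δ := by
      rw [ae_map_iff hT.aemeasurable measurableSet_Iic]
      filter_upwards [rt2_ae_le hμ] with x hx
      have := h2 x
      linarith
    exact this
  have hlo : (μ.map T).support ⊆ Set.Ici (sInf μ.support) := by
    refine Measure.support_subset_of_isClosed isClosed_Ici ?_
    have : ∀ᵐ x ∂(μ.map T), sInf μ.support ≤ x := by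
      rw [ae_map_iff hT.aemeasurable measurableSet_Ici]
      filter_upwards [rt2_ae_ge hμ] with x hx
      exact hx.trans (h1 x)
    exact this
  have hcomp : IsCompact (μ.map T).support := by
    refine IsCompact.of_isClosed_subset (isCompact_Icc (a := sInf μ.support)
      (b := sSup μ.support + δ)) Measure.isClosed_support ?_
    intro x hx
    exact ⟨hlo hx, hup hx⟩
  refine ⟨hcomp, ?_, ?_⟩
  · have h3 : ∀ᵐ x ∂(μ.map T), x ≤ sSup (μ.map T).support := rt2_ae_le hcomp
    rw [ae_map_iff hT.aemeasurable measurableSet_Iic] at h3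
    have h4 : μ.support ⊆ Set.Iic (sSup (μ.map T).support) := by
      refine Measure.support_subset_of_isClosed isClosed_Iic ?_
      have : ∀ᵐ x ∂μ, x ≤ sSup (μ.map T).support := by
        filter_upwards [h3] with x hx
        exact (h1 x).trans hx
      exact this
    exact csSup_le rt2_ne fun x hx => h4 hx
  · exact csSup_le hne fun x hx => hup hx

/-- Comparison of the R-transforms of a law and of a rounded law. -/
theorem Rt_map (hμ : IsCompact μ.support) {T : ℝ → ℝ} (hT : Measurable T) {δ : ℝ}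
    (h1 : ∀ x, x ≤ T x) (h2 : ∀ x, T x ≤ x + δ) {y : ℝ} (hy : 0 < y) :
    Rt μ y ≤ Rt (μ.map T) y ∧ Rt (μ.map T) y ≤ Rt μ y + δ := by
  haveI : IsProbabilityMeasure (μ.map T) := Measure.isProbabilityMeasure_map hT.aemeasurable
  obtain ⟨hcomp, hb1, hb2⟩ := rt2_map_compact hμ hT h1 h2
  have hmap : ∀ z : ℝ, ∫ x, (z - x)⁻¹ ∂(μ.map T) = ∫ x, (z - T x)⁻¹ ∂μ := fun z =>
    integral_map hT.aemeasurable (Measurable.aestronglyMeasurable (by fun_prop))
  have hintm : ∀ z : ℝ, sSup (μ.map T).support < z →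
      Integrable (fun x => (z - T x)⁻¹) μ := fun z hz =>
    (integrable_map_measure (Measurable.aestronglyMeasurable (by fun_prop))
      hT.aemeasurable).1 (rt2_int hcomp hz)
  have haeT : ∀ᵐ x ∂μ, T x ≤ sSup (μ.map T).support := by
    have h3 : ∀ᵐ x ∂(μ.map T), x ≤ sSup (μ.map T).support := rt2_ae_le hcomp
    rwa [ae_map_iff hT.aemeasurable measurableSet_Iic] at h3
  have hs1 : stInv μ y ≤ stInv (μ.map T) y := by
    refine rt2_le_stInv hcomp hy fun z hz hG => ?_
    refine rt2_stInv_le (hb1.trans_lt hz) (le_trans ?_ hG)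
    rw [hmap]
    refine integral_mono_ae (rt2_int hμ (hb1.trans_lt hz)) (hintm z hz) ?_
    filter_upwards [haeT] with x hx
    have := h1 x
    exact inv_anti₀ (by linarith) (by linarith only [this])
  have hs2 : stInv (μ.map T) y - δ ≤ stInv μ y := by
    refine rt2_le_stInv hμ hy fun z hz hG => ?_
    have hz' : sSup (μ.map T).support < z + δ := by linarith only [hb2, hz]
    have h3 : stInv (μ.map T) y ≤ z + δ := by
      refine rt2_stInv_le hz' (le_trans ?_ hG)
      rw [hmap]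
      refine integral_mono_ae (hintm _ hz') (rt2_int hμ hz) ?_
      filter_upwards [rt2_ae_le hμ] with x hx
      have := h2 x
      exact inv_anti₀ (by linarith only [hz, hx]) (by linarith only [this])
    linarith only [h3]
  unfold Rt
  constructor <;> linarith only [hs1, hs2]

/-- the monotone extension of the R-transform by a constant -/
noncomputable def rt2_ext (μ : Measure ℝ) (y : ℝ) : ℝ :=
  if y ≤ 0 then sInf μ.support else Rt μ y

theorem rt2_ext_mono (hμ : IsCompact μ.support) : Monotone (rt2_ext μ) := by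
  intro x y hxy
  unfold rt2_ext
  split_ifs with h1 h2 h2
  · exact le_rfl
  · exact le_Rt hμ (not_le.1 h2)
  · exact absurd (hxy.trans h2) h1
  · exact Rt_mono hμ (not_le.1 h1) hxy

theorem rt2_ext_bound (hμ : IsCompact μ.support) (y : ℝ) :
    ‖rt2_ext μ y‖ ≤ max |sInf μ.support| |sSup μ.support| := by
  rw [Real.norm_eq_abs]
  unfold rt2_ext
  split_ifs with h1
  · exact le_max_left _ _
  · exact abs_le_max_abs_abs (le_Rt hμ (not_le.1 h1)) (Rt_le hμ (not_le.1 h1))

/-- the argument of the R-transform is positive -/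
theorem rt2_lam_pos {k : ℕ} {m q : ℕ → ℝ} (hm : Expo k m) (hq0 : q 0 = 0)
    (hq : ∀ l < k, q l ≤ q (l + 1)) (hq1 : q k ≤ 1) {s : ℝ} (hs0 : 0 < s) (hs1 : s < 1) :
    0 < 1 - s - ∑ l ∈ range (k + 1), (m (l + 1) - m l) * max (q l - s) 0 := by
  have hle : ∀ l ≤ k, q l ≤ 1 := by
    intro l hl
    have : ∀ j, l ≤ j → j ≤ k → q l ≤ q j := by
      intro j hj
      induction j, hj using Nat.le_induction with
      | base => intro _; exact le_rfl
      | succ j _ ih => intro hj; exact (ih (by omega)).trans (hq j (by omega))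
    exact (this k hl le_rfl).trans hq1
  rw [Finset.sum_range_succ']
  have h0 : max (q 0 - s) 0 = 0 := by
    rw [hq0]
    exact max_eq_right (by linarith only [hs0])
  rw [h0, mul_zero, add_zero]
  have h1 : ∑ l ∈ range k, (m (l + 1 + 1) - m (l + 1)) * max (q (l + 1) - s) 0 ≤
      ∑ l ∈ range k, (m (l + 1 + 1) - m (l + 1)) * (1 - s) := by
    refine Finset.sum_le_sum fun l hl => ?_
    have hl' := Finset.mem_range.1 hl
    refine mul_le_mul_of_nonneg_left ?_ (sub_nonneg.2 (hm.mono (l + 1) (by omega)))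
    refine max_le ?_ (by linarith only [hs1])
    have := hle (l + 1) (by omega)
    linarith only [this]
  rw [← Finset.sum_mul] at h1
  have h2 : ∑ l ∈ range k, (m (l + 1 + 1) - m (l + 1)) = 1 - m 1 := by
    have := Finset.sum_range_sub (fun l => m (l + 1)) k
    rw [this, hm.mK]
  rw [h2] at h1
  have h3 := hm.pos
  nlinarith only [h1, hs1, h3]

theorem rt2_ii (hμ : IsCompact μ.support) {β : ℝ} (hβ : 0 < β) {k : ℕ} {m q : ℕ → ℝ}
    (hm : Expo k m) (hq0 : q 0 = 0) (hq : ∀ l < k, q l ≤ q (l + 1)) (hq1 : q k ≤ 1) :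
    IntervalIntegrable (fun s => Rt μ (β * (1 - s -
      ∑ l ∈ range (k + 1), (m (l + 1) - m l) * max (q l - s) 0))) volume 0 1 := by
  rw [intervalIntegrable_iff_integrableOn_Ioo_of_le zero_le_one]
  have h1 : IntegrableOn (fun s => rt2_ext μ (β * (1 - s -
      ∑ l ∈ range (k + 1), (m (l + 1) - m l) * max (q l - s) 0))) (Set.Ioo (0 : ℝ) 1) := by
    haveI : IsFiniteMeasure (volume.restrict (Set.Ioo (0 : ℝ) 1)) :=
      ⟨by rw [Measure.restrict_apply_univ]; simp only [Real.volume_Ioo, sub_zero, ENNReal.ofReal_one, ENNReal.one_lt_top]⟩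
    refine Integrable.of_bound ?_ (max |sInf μ.support| |sSup μ.support|)
      (Filter.Eventually.of_forall fun s => rt2_ext_bound hμ _)
    refine Measurable.aestronglyMeasurable ?_
    refine (rt2_ext_mono hμ).measurable.comp ?_
    (clear * -; fun_prop)
  refine h1.congr_fun ?_ measurableSet_Ioo
  intro s hs
  have hpos := mul_pos hβ (rt2_lam_pos hm hq0 hq hq1 hs.1 hs.2)
  show rt2_ext μ _ = _
  unfold rt2_ext
  rw [if_neg (not_le.2 hpos)]

/-- The spectral parts of a law and of a rounded law. -/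
theorem specPart_map (hμ : IsCompact μ.support) {T : ℝ → ℝ} (hT : Measurable T) {δ : ℝ}
    (h1 : ∀ x, x ≤ T x) (h2 : ∀ x, T x ≤ x + δ) {β : ℝ} (hβ : 0 < β) {k : ℕ} {m q : ℕ → ℝ}
    (hm : Expo k m) (hq0 : q 0 = 0) (hq : ∀ l < k, q l ≤ q (l + 1)) (hq1 : q k ≤ 1) :
    specPart β μ k m q ≤ specPart β (μ.map T) k m q ∧
      specPart β (μ.map T) k m q ≤ specPart β μ k m q + β / 2 * δ := by
  haveI : IsProbabilityMeasure (μ.map T) := Measure.isProbabilityMeasure_map hT.aemeasurable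
  obtain ⟨hcomp, -, -⟩ := rt2_map_compact hμ hT h1 h2
  have i1 := rt2_ii hμ hβ hm hq0 hq hq1
  have i2 := rt2_ii hcomp hβ hm hq0 hq hq1
  have hβ2 : 0 ≤ β / 2 := by (clear * - hβ; positivity)
  unfold specPart
  constructor
  · refine mul_le_mul_of_nonneg_left ?_ hβ2
    refine intervalIntegral.integral_mono_on_of_le_Ioo zero_le_one i1 i2 fun s hs => ?_
    exact (Rt_map hμ hT h1 h2 (mul_pos hβ (rt2_lam_pos hm hq0 hq hq1 hs.1 hs.2))).1
  · rw [← mul_add]
    refine mul_le_mul_of_nonneg_left ?_ hβ2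
    have h3 : ∫ s in (0 : ℝ)..1, (Rt μ (β * (1 - s -
        ∑ l ∈ range (k + 1), (m (l + 1) - m l) * max (q l - s) 0)) + δ) =
        (∫ s in (0 : ℝ)..1, Rt μ (β * (1 - s -
        ∑ l ∈ range (k + 1), (m (l + 1) - m l) * max (q l - s) 0))) + δ := by
      rw [intervalIntegral.integral_add i1 intervalIntegrable_const]
      simp only [intervalIntegral.integral_const, sub_zero, smul_eq_mul, one_mul]
    rw [← h3]
    refine intervalIntegral.integral_mono_on_of_le_Ioo zero_le_one i2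
      (i1.add intervalIntegrable_const) fun s hs => ?_
    exact (Rt_map hμ hT h1 h2 (mul_pos hβ (rt2_lam_pos hm hq0 hq hq1 hs.1 hs.2))).2

end Vale.Agent.P166.F
end
end

section

section

/-! Task F-RF: the R-transform of a finite combination of point masses. -/

open MeasureTheory Finset Filter Topology

namespace Vale.Agent.P166.F

variable {B : Type} [Fintype B] [Nonempty B] {a α : B → ℝ}

theorem atoms_prob (hα : ∀ b, 0 < α b) (hα1 : ∑ b, α b = 1) : IsProbabilityMeasure (atoms a α) := by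
  constructor
  unfold atoms
  rw [Measure.finsetSum_apply]
  have h1 : ∀ b, (ENNReal.ofReal (α b) • Measure.dirac (a b)) Set.univ = ENNReal.ofReal (α b) := by
    intro b
    simp
  rw [Finset.sum_congr rfl (fun b _ => h1 b), ← ENNReal.ofReal_sum_of_nonneg (fun b _ => (hα b).le),
    hα1, ENNReal.ofReal_one]

theorem atoms_support (hα : ∀ b, 0 < α b) : (atoms a α).support = Set.range a := by
  apply Set.Subset.antisymm
  · refine Measure.support_subset_of_isClosed (Set.finite_range a).isClosed ?_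
    rw [mem_ae_iff]
    unfold atoms
    rw [Measure.finsetSum_apply]
    refine Finset.sum_eq_zero fun b _ => ?_
    rw [Measure.smul_apply, Measure.dirac_apply' _ (Set.finite_range a).measurableSet.compl]
    simp
  · rintro x ⟨b, rfl⟩
    rw [Measure.mem_support_iff_forall]
    intro U hU
    have h1 : (ENNReal.ofReal (α b) • Measure.dirac (a b)) U ≤ atoms a α U := by
      unfold atoms
      rw [Measure.finsetSum_apply]
      exact Finset.single_le_sum (f := fun c => (ENNReal.ofReal (α c) • Measure.dirac (a c)) U)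
        (fun c _ => zero_le) (Finset.mem_univ b)
    refine lt_of_lt_of_le ?_ h1
    rw [Measure.smul_apply, Measure.dirac_apply_of_mem (mem_of_mem_nhds hU), smul_eq_mul, mul_one]
    exact ENNReal.ofReal_pos.2 (hα b)

theorem atoms_integral (hα : ∀ b, 0 < α b) (f : ℝ → ℝ) :
    ∫ x, f x ∂(atoms a α) = ∑ b, α b * f (a b) := by
  unfold atoms
  rw [integral_finsetSum_measure]
  · refine Finset.sum_congr rfl fun b _ => ?_
    rw [integral_smul_measure, integral_dirac, smul_eq_mul, ENNReal.toReal_ofReal (hα b).le]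
  · intro b _
    exact (integrable_dirac (by simp)).smul_measure ENNReal.ofReal_ne_top

theorem rf_compact (hα : ∀ b, 0 < α b) : IsCompact (atoms a α).support := by
  rw [atoms_support hα]
  exact (Set.finite_range a).isCompact

theorem rf_sSup_lt (hα : ∀ b, 0 < α b) {z : ℝ} :
    sSup (atoms a α).support < z ↔ ∀ b, a b < z := by
  rw [atoms_support hα]
  constructor
  · intro h b
    exact (le_csSup (Set.finite_range a).bddAbove ⟨b, rfl⟩).trans_lt h
  · intro h
    have h1 := (Set.range_nonempty a).csSup_mem (Set.finite_range a)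
    obtain ⟨b, hb⟩ := h1
    rw [← hb]
    exact h b

theorem rf_integral (hα : ∀ b, 0 < α b) (z : ℝ) :
    ∫ x, (z - x)⁻¹ ∂(atoms a α) = ∑ b, α b / (z - a b) := by
  rw [atoms_integral hα]
  rfl

theorem rf_exists (hα : ∀ b, 0 < α b) (hα1 : ∑ b, α b = 1) {y : ℝ} (hy : 0 < y) :
    ∃ z, (∀ b, a b < z) ∧ ∑ b, α b / (z - a b) = y := by
  obtain ⟨b0, -, hb0⟩ := Finset.exists_max_image Finset.univ a Finset.univ_nonempty
  have hA : ∀ b, a b ≤ a b0 := fun b => hb0 b (Finset.mem_univ b)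
  set A := a b0 with hAdef
  have hαle : α b0 ≤ 1 := by
    rw [← hα1]
    exact Finset.single_le_sum (fun c _ => (hα c).le) (Finset.mem_univ b0)
  have hz12 : A + α b0 / y ≤ A + 1 / y := by
    have := div_le_div_of_nonneg_right hαle hy.le
    linarith
  have hz1 : A < A + α b0 / y := by
    have := div_pos (hα b0) hy
    linarith
  have hcont : ContinuousOn (fun z => ∑ b, α b / (z - a b)) (Set.Icc (A + α b0 / y) (A + 1 / y)) := by
    refine continuousOn_finsetSum _ fun b _ => ?_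
    refine ContinuousOn.div continuousOn_const (continuousOn_id.sub continuousOn_const) ?_
    intro z hz
    have h1 := hA b
    have h2 := hz.1
    show z - a b ≠ 0
    linarith
  have h1 : y ≤ ∑ b, α b / (A + α b0 / y - a b) := by
    have h2 : α b0 / (A + α b0 / y - a b0) = y := by
      rw [← hAdef, add_sub_cancel_left]
      field_simp [(hα b0).ne']
    calc y = α b0 / (A + α b0 / y - a b0) := h2.symm
      _ ≤ _ := Finset.single_le_sum (f := fun b => α b / (A + α b0 / y - a b))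
          (fun c _ => div_nonneg (hα c).le (by have := hA c; linarith)) (Finset.mem_univ b0)
  have h2 : ∑ b, α b / (A + 1 / y - a b) ≤ y := by
    calc ∑ b, α b / (A + 1 / y - a b) ≤ ∑ b, α b * y := by
          refine Finset.sum_le_sum fun b _ => ?_
          have h3 : 1 / y ≤ A + 1 / y - a b := by have := hA b; linarith
          calc α b / (A + 1 / y - a b) ≤ α b / (1 / y) :=
                div_le_div_of_nonneg_left (hα b).le (by positivity) h3
            _ = α b * y := by field_simp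
      _ = y := by rw [← Finset.sum_mul, hα1, one_mul]
  obtain ⟨z, hz, hzy⟩ := intermediate_value_Icc' hz12 hcont ⟨h2, h1⟩
  refine ⟨z, fun b => ?_, hzy⟩
  have := hA b
  have := hz.1
  linarith

/-- The defining properties of the inverse. -/
theorem rf_stInv (hα : ∀ b, 0 < α b) (hα1 : ∑ b, α b = 1) {y : ℝ} (hy : 0 < y) :
    (∀ b, a b < stInv (atoms a α) y) ∧ ∑ b, α b / (stInv (atoms a α) y - a b) = y := by
  have := atoms_prob (a := a) hα hα1
  obtain ⟨z, hz, hzy⟩ := rf_exists (a := a) hα hα1 hy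
  have h1 : stInv (atoms a α) y = z :=
    stInv_eq (rf_compact hα) ((rf_sSup_lt hα).2 hz) (by rw [rf_integral hα, hzy])
  rw [h1]
  exact ⟨hz, hzy⟩

theorem atoms_zeta (hα : ∀ b, 0 < α b) (hα1 : ∑ b, α b = 1) {β : ℝ} (hβ : 0 < β) :
    Zeta β a α (fun x => stInv (atoms a α) (β * x)) where
  lt := fun _ hx => (rf_stInv hα hα1 (mul_pos hβ hx)).1
  eq := fun _ hx => (rf_stInv hα hα1 (mul_pos hβ hx)).2

/-- The derivative of the R-transform. -/
noncomputable def Rt' (a α : B → ℝ) (y : ℝ) : ℝ :=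
  1 / y ^ 2 - 1 / ∑ b, α b / (stInv (atoms a α) y - a b) ^ 2

theorem rf_S2_pos (hα : ∀ b, 0 < α b) {z : ℝ} (hz : ∀ b, a b < z) :
    0 < ∑ b, α b / (z - a b) ^ 2 :=
  Finset.sum_pos (fun b _ => div_pos (hα b) (pow_pos (sub_pos.2 (hz b)) 2)) Finset.univ_nonempty

theorem rf_hasDerivAt_stInv (hα : ∀ b, 0 < α b) (hα1 : ∑ b, α b = 1) {y : ℝ} (hy : 0 < y) :
    HasDerivAt (stInv (atoms a α)) (-(1 / ∑ b, α b / (stInv (atoms a α) y - a b) ^ 2)) y := by
  have := atoms_prob (a := a) hα hα1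
  obtain ⟨hz, hzy⟩ := rf_stInv (a := a) hα hα1 hy
  have hcont : ContinuousAt (stInv (atoms a α)) y :=
    (continuousOn_stInv (rf_compact hα)).continuousAt (Ioi_mem_nhds hy)
  have hG : HasDerivAt (fun z => ∑ b, α b / (z - a b))
      (-∑ b, α b / (stInv (atoms a α) y - a b) ^ 2) (stInv (atoms a α) y) := by
    rw [← Finset.sum_neg_distrib]
    refine HasDerivAt.fun_sum fun b _ => ?_
    have h1 : HasDerivAt (fun z => z - a b) 1 (stInv (atoms a α) y) :=
      (hasDerivAt_id _).sub_const _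
    have h2 := (h1.inv (sub_pos.2 (hz b)).ne').const_mul (α b)
    refine h2.congr_deriv ?_
    ring
  have h3 := HasDerivAt.of_local_left_inverse hcont hG
    (neg_ne_zero.2 (rf_S2_pos hα hz).ne')
    (by filter_upwards [Ioi_mem_nhds hy] with u hu using (rf_stInv hα hα1 hu).2)
  refine h3.congr_deriv ?_
  rw [inv_neg, one_div]

theorem hasDerivAt_Rt (hα : ∀ b, 0 < α b) (hα1 : ∑ b, α b = 1) {y : ℝ} (hy : 0 < y) :
    HasDerivAt (Rt (atoms a α)) (Rt' a α y) y := by
  have h1 := rf_hasDerivAt_stInv (a := a) hα hα1 hy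
  have h2 : HasDerivAt (fun u : ℝ => 1 / u) (-(1 / y ^ 2)) y := by
    have := hasDerivAt_inv hy.ne'
    simp only [one_div]
    exact this
  have h3 := h1.sub h2
  unfold Rt'
  refine h3.congr_deriv ?_
  ring

/-- The derivative of `y R(y)` is an average of the atoms. -/
theorem rf_energy_eq (hα : ∀ b, 0 < α b) (hα1 : ∑ b, α b = 1) {y : ℝ} (hy : 0 < y) :
    Rt (atoms a α) y + y * Rt' a α y =
      (∑ b, α b / (stInv (atoms a α) y - a b) ^ 2 * a b) /
        ∑ b, α b / (stInv (atoms a α) y - a b) ^ 2 := by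
  obtain ⟨hz, hzy⟩ := rf_stInv (a := a) hα hα1 hy
  have hS := rf_S2_pos hα hz
  set z := stInv (atoms a α) y with hzdef
  set S := ∑ b, α b / (z - a b) ^ 2 with hSdef
  have h1 : ∑ b, α b / (z - a b) ^ 2 * a b = z * S - y := by
    rw [hSdef, Finset.mul_sum, ← hzy, ← Finset.sum_sub_distrib]
    refine Finset.sum_congr rfl fun b _ => ?_
    have hb : z - a b ≠ 0 := (sub_pos.2 (hz b)).ne'
    rw [eq_sub_iff_add_eq]
    rw [show α b / (z - a b) = α b / (z - a b) ^ 2 * (z - a b) by field_simp]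
    ring
  rw [h1]
  unfold Rt Rt'
  rw [← hzdef, ← hSdef]
  field_simp
  ring

theorem rf_avg_mono (hα : ∀ b, 0 < α b) {z w : ℝ} (hz : ∀ b, a b < z) (hzw : z ≤ w) :
    (∑ b, α b / (w - a b) ^ 2 * a b) / ∑ b, α b / (w - a b) ^ 2 ≤
      (∑ b, α b / (z - a b) ^ 2 * a b) / ∑ b, α b / (z - a b) ^ 2 := by
  have hw : ∀ b, a b < w := fun b => (hz b).trans_le hzw
  rw [div_le_div_iff₀ (rf_S2_pos hα hw) (rf_S2_pos hα hz)]
  have key : 0 ≤ ∑ b, ∑ c, (α b / (z - a b) ^ 2 * (α c / (w - a c) ^ 2) -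
      α c / (z - a c) ^ 2 * (α b / (w - a b) ^ 2)) * (a b - a c) := by
    refine Finset.sum_nonneg fun b _ => Finset.sum_nonneg fun c _ => ?_
    have hzb : 0 < z - a b := sub_pos.2 (hz b)
    have hzc : 0 < z - a c := sub_pos.2 (hz c)
    have hwb : 0 < w - a b := sub_pos.2 (hw b)
    have hwc : 0 < w - a c := sub_pos.2 (hw c)
    have e1 : (α b / (z - a b) ^ 2 * (α c / (w - a c) ^ 2) -
        α c / (z - a c) ^ 2 * (α b / (w - a b) ^ 2)) * (a b - a c) =
        α b * α c * (((z - a c) * (w - a b) + (z - a b) * (w - a c)) * ((w - z) *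
          (a b - a c) ^ 2)) / ((z - a b) ^ 2 * (w - a c) ^ 2 * ((z - a c) ^ 2 * (w - a b) ^ 2)) := by
      field_simp
      ring
    rw [e1]
    refine div_nonneg ?_ (by positivity)
    refine mul_nonneg (mul_pos (hα b) (hα c)).le (mul_nonneg (by positivity)
      (mul_nonneg (sub_nonneg.2 hzw) (sq_nonneg _)))
  have e2 : ∑ b, ∑ c, (α b / (z - a b) ^ 2 * (α c / (w - a c) ^ 2) -
      α c / (z - a c) ^ 2 * (α b / (w - a b) ^ 2)) * (a b - a c) =
      2 * ((∑ b, α b / (z - a b) ^ 2 * a b) * (∑ b, α b / (w - a b) ^ 2) -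
        (∑ b, α b / (w - a b) ^ 2 * a b) * (∑ b, α b / (z - a b) ^ 2)) := by
    have f1 : ∀ p q : B → ℝ, ∑ b, ∑ c, p b * q c = (∑ b, p b) * ∑ c, q c :=
      fun p q => (Finset.sum_mul_sum _ _ _ _).symm
    have f2 : ∀ b c, (α b / (z - a b) ^ 2 * (α c / (w - a c) ^ 2) -
      α c / (z - a c) ^ 2 * (α b / (w - a b) ^ 2)) * (a b - a c) =
      (α b / (z - a b) ^ 2 * a b) * (α c / (w - a c) ^ 2) -
      (α b / (z - a b) ^ 2) * (α c / (w - a c) ^ 2 * a c) -
      (α b / (w - a b) ^ 2 * a b) * (α c / (z - a c) ^ 2) +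
      (α b / (w - a b) ^ 2) * (α c / (z - a c) ^ 2 * a c) := fun b c => by ring
    simp only [f2, Finset.sum_add_distrib, Finset.sum_sub_distrib, f1]
    ring
  rw [e2] at key
  linarith

/-- `f(x) = x R(t x)` has the nondecreasing bounded derivative `R(t x) + t x R'(t x)`. -/
theorem energy_deriv (hα : ∀ b, 0 < α b) (hα1 : ∑ b, α b = 1) {t : ℝ} (ht : 0 < t) :
    (∀ x, 0 < x → HasDerivAt (fun x => x * Rt (atoms a α) (t * x))
      (Rt (atoms a α) (t * x) + t * x * Rt' a α (t * x)) x) ∧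
    MonotoneOn (fun x => Rt (atoms a α) (t * x) + t * x * Rt' a α (t * x)) (Set.Ioi 0) ∧
    ∃ C, ∀ x, 0 < x → |Rt (atoms a α) (t * x) + t * x * Rt' a α (t * x)| ≤ C := by
  have := atoms_prob (a := a) hα hα1
  refine ⟨fun x hx => ?_, fun x hx y hy hxy => ?_, ?_⟩
  · have h1 := hasDerivAt_Rt (a := a) hα hα1 (mul_pos ht hx)
    have h2 : HasDerivAt (fun x => t * x) t x := by
      simpa using (hasDerivAt_id x).const_mul t
    have h3 : HasDerivAt (fun x => Rt (atoms a α) (t * x)) (Rt' a α (t * x) * t) x :=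
      HasDerivAt.comp x h1 h2
    have h4 := (hasDerivAt_id x).mul h3
    refine h4.congr_deriv ?_
    simp only [id]
    ring
  · have hx' : 0 < t * x := mul_pos ht hx
    have hy' : 0 < t * y := mul_pos ht hy
    simp only
    rw [rf_energy_eq hα hα1 hx', rf_energy_eq hα hα1 hy']
    exact rf_avg_mono hα (rf_stInv hα hα1 hy').1
      (stInv_anti (rf_compact hα) hx' (mul_le_mul_of_nonneg_left hxy ht.le))
  · refine ⟨∑ b, |a b|, fun x hx => ?_⟩
    have hx' : 0 < t * x := mul_pos ht hx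
    rw [rf_energy_eq hα hα1 hx']
    obtain ⟨hz, hzy⟩ := rf_stInv (a := a) hα hα1 hx'
    have hS := rf_S2_pos hα hz
    rw [abs_div, abs_of_pos hS, div_le_iff₀ hS]
    refine (Finset.abs_sum_le_sum_abs _ _).trans ?_
    rw [Finset.mul_sum]
    refine Finset.sum_le_sum fun b _ => ?_
    have h5 : 0 < α b / (stInv (atoms a α) (t * x) - a b) ^ 2 :=
      div_pos (hα b) (pow_pos (sub_pos.2 (hz b)) 2)
    rw [abs_mul, abs_of_pos h5, mul_comm]
    exact mul_le_mul_of_nonneg_right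
      (Finset.single_le_sum (f := fun c => |a c|) (fun c _ => abs_nonneg _) (Finset.mem_univ b))
      h5.le

theorem rf_Rt_bound (hα : ∀ b, 0 < α b) (hα1 : ∑ b, α b = 1) {y : ℝ} (hy : 0 < y) :
    |Rt (atoms a α) y| ≤ ∑ b, |a b| := by
  have := atoms_prob (a := a) hα hα1
  have h1 := Rt_le (rf_compact (a := a) hα) hy
  have h2 := le_Rt (rf_compact (a := a) hα) hy
  rw [atoms_support hα] at h1 h2
  obtain ⟨b, hb⟩ := (Set.range_nonempty a).csSup_mem (Set.finite_range a)
  obtain ⟨c, hc⟩ := (Set.range_nonempty a).csInf_mem (Set.finite_range a)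
  rw [← hb] at h1
  rw [← hc] at h2
  have hs : ∀ d, |a d| ≤ ∑ b, |a b| := fun d =>
    Finset.single_le_sum (f := fun c => |a c|) (fun c _ => abs_nonneg _) (Finset.mem_univ d)
  rw [abs_le]
  have h3 := hs b
  have h4 := hs c
  have h5 := le_abs_self (a b)
  have h6 := neg_abs_le (a c)
  constructor <;> linarith

/-- The primitive `(1/2) ∫₀^{βx} R` and the entropy formula (used in the lower bound). -/
theorem entropy (hα : ∀ b, 0 < α b) (hα1 : ∑ b, α b = 1) {y : ℝ} (hy : 0 < y) :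
    (∫ u in (0 : ℝ)..y, Rt (atoms a α) u) - y * Rt (atoms a α) y =
      - ∑ b, α b * Real.log (y * (stInv (atoms a α) y - a b)) := by
  have := atoms_prob (a := a) hα hα1
  set ζ := stInv (atoms a α) with hζ
  set g : ℝ → ℝ := fun u => u * ζ u - 1 - ∑ b, α b * Real.log (u * (ζ u - a b)) with hg
  have hderiv : ∀ u, 0 < u → HasDerivAt g (Rt (atoms a α) u) u := by
    intro u hu
    obtain ⟨hz, hzy⟩ := rf_stInv (a := a) hα hα1 hu
    rw [← hζ] at hz hzy
    have h1 := rf_hasDerivAt_stInv (a := a) hα hα1 hu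
    rw [← hζ] at h1
    set z' := -(1 / ∑ b, α b / (ζ u - a b) ^ 2) with hz'
    have h2 : HasDerivAt (fun u => u * ζ u - 1) (1 * ζ u + u * z') u := by
      exact ((hasDerivAt_id u).mul h1).sub_const 1
    have h3 : HasDerivAt (fun u => ∑ b, α b * Real.log (u * (ζ u - a b)))
        (∑ b, α b * ((1 * (ζ u - a b) + u * z') / (u * (ζ u - a b)))) u := by
      refine HasDerivAt.fun_sum fun b _ => ?_
      have h4 : HasDerivAt (fun u => u * (ζ u - a b)) (1 * (ζ u - a b) + u * z') u := by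
        exact (hasDerivAt_id u).mul (h1.sub_const (a b))
      exact (h4.log (mul_pos hu (sub_pos.2 (hz b))).ne').const_mul (α b)
    have h5 := h2.sub h3
    have h6 : ∑ b, α b * ((1 * (ζ u - a b) + u * z') / (u * (ζ u - a b))) = 1 / u + z' * u := by
      have h7 : ∀ b, α b * ((1 * (ζ u - a b) + u * z') / (u * (ζ u - a b))) =
          α b * (1 / u) + z' * (α b / (ζ u - a b)) := by
        intro b
        have hb : ζ u - a b ≠ 0 := (sub_pos.2 (hz b)).ne'
        field_simp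
      rw [Finset.sum_congr rfl (fun b _ => h7 b), Finset.sum_add_distrib, ← Finset.sum_mul,
        ← Finset.mul_sum, hα1, hzy, one_mul]
    rw [h6] at h5
    have h8 : Rt (atoms a α) u = 1 * ζ u + u * z' - (1 / u + z' * u) := by
      unfold Rt
      rw [← hζ]
      ring
    rw [h8]
    exact h5
  have hM : ∀ u, 0 < u → |u * ζ u - 1| ≤ (∑ b, |a b|) * u := by
    intro u hu
    have h1 := rf_Rt_bound (a := a) hα hα1 hu
    unfold Rt at h1
    rw [← hζ] at h1
    have h2 : u * ζ u - 1 = (ζ u - 1 / u) * u := by field_simp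
    rw [h2, abs_mul, abs_of_pos hu]
    exact mul_le_mul_of_nonneg_right h1 hu.le
  have hlim1 : Tendsto (fun u => u * ζ u - 1) (𝓝[>] 0) (𝓝 0) := by
    have h1 : Tendsto (fun u : ℝ => (∑ b, |a b|) * u) (𝓝[>] 0) (𝓝 0) := by
      have : Tendsto (fun u : ℝ => (∑ b, |a b|) * u) (𝓝 0) (𝓝 ((∑ b, |a b|) * 0)) :=
        (continuous_const.mul continuous_id).tendsto 0
      rw [mul_zero] at this
      exact this.mono_left nhdsWithin_le_nhds
    refine squeeze_zero_norm' ?_ h1
    filter_upwards [self_mem_nhdsWithin] with u hu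
    rw [Real.norm_eq_abs]
    exact hM u hu
  have hlimg : Tendsto g (𝓝[>] 0) (𝓝 0) := by
    have h1 : ∀ b, Tendsto (fun u => α b * Real.log (u * (ζ u - a b))) (𝓝[>] 0) (𝓝 0) := by
      intro b
      have h2 : Tendsto (fun u => (u * ζ u - 1) + 1 - u * a b) (𝓝[>] 0) (𝓝 1) := by
        have h3 : Tendsto (fun u : ℝ => u * a b) (𝓝[>] 0) (𝓝 0) := by
          have : Tendsto (fun u : ℝ => u * a b) (𝓝 0) (𝓝 (0 * a b)) :=
            (continuous_id.mul continuous_const).tendsto 0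
          rw [zero_mul] at this
          exact this.mono_left nhdsWithin_le_nhds
        have h4 := (hlim1.add_const 1).sub h3
        simpa using h4
      have h5 : (fun u => (u * ζ u - 1) + 1 - u * a b) = fun u => u * (ζ u - a b) := by
        funext u; ring
      rw [h5] at h2
      have h6 := (Real.continuousAt_log one_ne_zero).tendsto.comp h2
      have h7 := h6.const_mul (α b)
      simpa using h7
    have h2 : Tendsto (fun u => ∑ b, α b * Real.log (u * (ζ u - a b))) (𝓝[>] 0) (𝓝 0) := by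
      have := tendsto_finsetSum (Finset.univ : Finset B) (fun b _ => h1 b)
      simpa using this
    have h3 := hlim1.sub h2
    simpa using h3
  have hint : IntervalIntegrable (Rt (atoms a α)) volume 0 y := by
    rw [intervalIntegrable_iff_integrableOn_Ioc_of_le hy.le]
    have hcont : ContinuousOn (Rt (atoms a α)) (Set.Ioc 0 y) := fun u hu =>
      (hasDerivAt_Rt hα hα1 hu.1).continuousAt.continuousWithinAt
    refine Integrable.of_bound (C := ∑ b, |a b|)
      (hcont.aestronglyMeasurable measurableSet_Ioc) ?_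
    rw [ae_restrict_iff' measurableSet_Ioc]
    exact ae_of_all _ fun u hu => by
      rw [Real.norm_eq_abs]
      exact rf_Rt_bound hα hα1 hu.1
  have hFTC := intervalIntegral.integral_eq_sub_of_hasDerivAt_of_tendsto hy
    (fun u hu => hderiv u hu.1) hint hlimg
    ((hderiv y hy).continuousAt.tendsto.mono_left nhdsWithin_le_nhds)
  rw [hFTC]
  have h1 : y * Rt (atoms a α) y = y * ζ y - 1 := by
    unfold Rt
    rw [← hζ]
    field_simp
  rw [h1]
  simp only [hg]
  ring

end Vale.Agent.P166.F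
end
end

section

section

/-! Task F-A1: eigenvalues of hierarchical matrices. -/

open Finset

namespace Vale.Agent.P166.F

variable {K : ℕ} {m : ℕ → ℝ}

end Vale.Agent.P166.F
end
end

section

section

/-!
P166, lower bound: the outliers. `b 0 < ... < b n` are the potentials, `γ` positive weights with
sum one, `G(z) = ∑ γ_k / (z - b_k)`; the zeros of `G` interlace with the potentials.
-/

open Finset

namespace Vale.Agent.P166.L

variable {n : ℕ} {b γ : Fin (n + 1) → ℝ} {μ : Fin n → ℝ}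

/-- The outliers: the zeros of `∑ γ_k / (z - b_k)`, one in each gap. -/
structure Outl (b γ : Fin (n + 1) → ℝ) (μ : Fin n → ℝ) : Prop where
  lo : ∀ j, b j.castSucc < μ j
  hi : ∀ j, μ j < b j.succ
  zero : ∀ j, ∑ k, γ k / (μ j - b k) = 0

theorem outA_sum_mul {z : ℝ} (hz : ∀ k, z ≠ b k) :
    (∑ k, γ k / (z - b k)) * ∏ k, (z - b k) = ∑ k, γ k * ∏ i ∈ univ.erase k, (z - b i) := by
  rw [Finset.sum_mul]
  refine Finset.sum_congr rfl fun k _ => ?_
  rw [← Finset.mul_prod_erase univ (fun i => z - b i) (Finset.mem_univ k)]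
  have : z - b k ≠ 0 := sub_ne_zero.2 (hz k)
  field_simp

theorem outA_eval_node (k : Fin (n + 1)) :
    ∑ l, γ l * ∏ i ∈ univ.erase l, (b k - b i) = γ k * ∏ i ∈ univ.erase k, (b k - b i) := by
  refine Finset.sum_eq_single k (fun l _ hl => ?_) (fun h => absurd (Finset.mem_univ k) h)
  rw [Finset.prod_eq_zero (i := k) (Finset.mem_erase.2 ⟨Ne.symm hl, Finset.mem_univ k⟩) (sub_self _),
    mul_zero]

theorem outA_sign (hb : StrictMono b) (hγ : ∀ k, 0 < γ k) (j : Fin n) :
    (∑ l, γ l * ∏ i ∈ univ.erase l, (b j.castSucc - b i)) *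
      (∑ l, γ l * ∏ i ∈ univ.erase l, (b j.succ - b i)) < 0 := by
  rw [outA_eval_node, outA_eval_node]
  have hlt : j.castSucc < j.succ := Fin.castSucc_lt_succ
  have hne : j.succ ≠ j.castSucc := hlt.ne'
  rw [← Finset.mul_prod_erase (univ.erase j.castSucc) (fun i => b j.castSucc - b i)
      (Finset.mem_erase.2 ⟨hne, Finset.mem_univ j.succ⟩),
    ← Finset.mul_prod_erase (univ.erase j.succ) (fun i => b j.succ - b i)
      (Finset.mem_erase.2 ⟨hne.symm, Finset.mem_univ j.castSucc⟩),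
    Finset.erase_right_comm (a := j.succ) (b := j.castSucc)]
  set S := (univ.erase j.castSucc).erase j.succ with hS
  have hpos : 0 < (∏ i ∈ S, (b j.castSucc - b i)) * ∏ i ∈ S, (b j.succ - b i) := by
    rw [← Finset.prod_mul_distrib]
    refine Finset.prod_pos fun i hi => ?_
    rw [hS, Finset.mem_erase, Finset.mem_erase] at hi
    obtain ⟨h1, h2, -⟩ := hi
    rcases lt_or_gt_of_ne h2 with h | h
    · have h3 : b i < b j.castSucc := hb h
      have h4 : b i < b j.succ := hb (h.trans hlt)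
      exact mul_pos (sub_pos.2 h3) (sub_pos.2 h4)
    · have h5 : j.succ ≤ i := by
        rw [Fin.le_def, Fin.val_succ]
        rw [Fin.lt_def, Fin.val_castSucc] at h
        omega
      have h6 : j.succ < i := lt_of_le_of_ne h5 (Ne.symm h1)
      have h3 : b j.castSucc < b i := hb h
      have h4 : b j.succ < b i := hb h6
      exact mul_pos_of_neg_of_neg (sub_neg.2 h3) (sub_neg.2 h4)
  have hd : 0 < b j.succ - b j.castSucc := sub_pos.2 (hb hlt)
  have h1 := hγ j.castSucc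
  have h2 := hγ j.succ
  have hkey : 0 < γ j.castSucc * γ j.succ * ((b j.succ - b j.castSucc) ^ 2) *
      ((∏ i ∈ S, (b j.castSucc - b i)) * ∏ i ∈ S, (b j.succ - b i)) := by positivity
  linarith only [hkey]

theorem outA_cont : Continuous fun z : ℝ => ∑ k, γ k * ∏ i ∈ univ.erase k, (z - b i) := by
  fun_prop

theorem outA_ne (hb : StrictMono b) {j : Fin n} {z : ℝ} (h1 : b j.castSucc < z)
    (h2 : z < b j.succ) (k : Fin (n + 1)) : z ≠ b k := by
  rcases le_or_gt k j.castSucc with h | h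
  · exact (lt_of_le_of_lt (hb.monotone h) h1).ne'
  · have h5 : j.succ ≤ k := by
      rw [Fin.le_def, Fin.val_succ]
      rw [Fin.lt_def, Fin.val_castSucc] at h
      omega
    exact (lt_of_lt_of_le h2 (hb.monotone h5)).ne

theorem exists_outl (hb : StrictMono b) (hγ : ∀ k, 0 < γ k) : ∃ μ, Outl b γ μ := by
  have key : ∀ j : Fin n, ∃ z, b j.castSucc < z ∧ z < b j.succ ∧
      ∑ k, γ k / (z - b k) = 0 := by
    intro j
    have hs := outA_sign hb hγ j
    have hle : b j.castSucc ≤ b j.succ := (hb Fin.castSucc_lt_succ).le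
    have hz : ∃ z ∈ Set.Ioo (b j.castSucc) (b j.succ),
        ∑ k, γ k * ∏ i ∈ univ.erase k, (z - b i) = 0 := by
      rcases mul_neg_iff.1 hs with ⟨h1, h2⟩ | ⟨h1, h2⟩
      · have := intermediate_value_Ioo' hle
          ((outA_cont (b := b) (γ := γ)).continuousOn) (Set.mem_Ioo.2 ⟨h2, h1⟩)
        exact this
      · have := intermediate_value_Ioo hle
          ((outA_cont (b := b) (γ := γ)).continuousOn) (Set.mem_Ioo.2 ⟨h1, h2⟩)
        exact this
    obtain ⟨z, ⟨h1, h2⟩, h3⟩ := hz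
    refine ⟨z, h1, h2, ?_⟩
    have hne := outA_ne hb h1 h2
    have h4 := outA_sum_mul (γ := γ) hne
    rw [h3] at h4
    exact (mul_eq_zero.1 h4).resolve_right
      (Finset.prod_ne_zero_iff.2 fun k _ => sub_ne_zero.2 (hne k))
  choose μ h1 h2 h3 using key
  exact ⟨μ, h1, h2, h3⟩

theorem Outl.ne (hb : StrictMono b) (h : Outl b γ μ) (j : Fin n) (k : Fin (n + 1)) :
    μ j ≠ b k :=
  outA_ne hb (h.lo j) (h.hi j) k

theorem Outl.strictMono (h : Outl b γ μ) : StrictMono μ := by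
  have hb : StrictMono b := Fin.strictMono_iff_lt_succ.2 fun i => (h.lo i).trans (h.hi i)
  intro i j hij
  have h1 : i.succ ≤ j.castSucc := by
    rw [Fin.le_def, Fin.val_succ, Fin.val_castSucc]
    exact hij
  exact (h.hi i).trans (lt_of_le_of_lt (hb.monotone h1) (h.lo j))

open Polynomial in
/-- The polynomial with the zeros `μ`. -/
theorem Outl.prod (hb : StrictMono b) (hγ1 : ∑ k, γ k = 1) (h : Outl b γ μ) (z : ℝ) :
    ∏ j, (z - μ j) = ∑ k, γ k * ∏ i ∈ univ.erase k, (z - b i) := by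
  set A : ℝ[X] := ∏ j, (X - C (μ j)) with hA
  set B : Fin (n + 1) → ℝ[X] := fun k => ∏ i ∈ univ.erase k, (X - C (b i)) with hB
  have hAm : A.Monic := monic_prod_X_sub_C _ _
  have hAd : A.degree = n := by
    rw [hA, degree_prod_of_monic _ _ (fun i _ => monic_X_sub_C _)]
    simp only [degree_X_sub_C, sum_const, card_univ, Fintype.card_fin, nsmul_eq_mul, mul_one]
  have hBm : ∀ k, (B k).Monic := fun k => monic_prod_X_sub_C _ _
  have hBd : ∀ k, (B k).degree = n := by
    intro k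
    rw [hB]
    simp only
    rw [degree_prod_of_monic _ _ (fun i _ => monic_X_sub_C _)]
    simp only [degree_X_sub_C, sum_const, mem_univ, card_erase_of_mem, card_univ, Fintype.card_fin, add_tsub_cancel_right, nsmul_eq_mul, mul_one]
  have hdiff : A - ∑ k, γ k • B k ∈ degreeLT ℝ n := by
    have : A - ∑ k, γ k • B k = ∑ k, γ k • (A - B k) := by
      simp only [smul_sub, Finset.sum_sub_distrib, ← Finset.sum_smul, hγ1, one_smul]
    rw [this]
    refine Submodule.sum_mem _ fun k _ => Submodule.smul_mem _ _ ?_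
    rw [mem_degreeLT, ← hAd]
    exact degree_sub_lt (by rw [hAd, hBd k]) hAm.ne_zero
      (by rw [hAm.leadingCoeff, (hBm k).leadingCoeff])
  have hev : ∀ x, (∑ k, γ k • B k).eval x = ∑ k, γ k * ∏ i ∈ univ.erase k, (x - b i) := by
    intro x
    simp only [hB, smul_eq_C_mul, eval_finset_sum, eval_mul, eval_C, eval_prod, eval_sub, eval_X]
  have hAe : ∀ x, A.eval x = ∏ j, (x - μ j) := by
    intro x
    simp only [hA, eval_prod, eval_sub, eval_X, eval_C]
  have heq : A = ∑ k, γ k • B k := by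
    refine eq_of_degree_sub_lt_of_eval_finset_eq (univ.image μ) ?_ ?_
    · rw [Finset.card_image_of_injective _ h.strictMono.injective, Finset.card_univ,
        Fintype.card_fin]
      exact mem_degreeLT.1 hdiff
    · intro x hx
      obtain ⟨j, -, rfl⟩ := Finset.mem_image.1 hx
      rw [hev, hAe, ← outA_sum_mul (h.ne hb j), h.zero j, zero_mul]
      exact Finset.prod_eq_zero (Finset.mem_univ j) (sub_self _)
  rw [← hAe, heq, hev]

theorem Outl.prod_eq (hb : StrictMono b) (hγ1 : ∑ k, γ k = 1) (h : Outl b γ μ) {z : ℝ}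
    (hz : ∀ k, z ≠ b k) : ∏ j, (z - μ j) = (∑ k, γ k / (z - b k)) * ∏ k, (z - b k) := by
  rw [h.prod hb hγ1, outA_sum_mul hz]

end Vale.Agent.P166.L
end
end

section

section

/-!
P166, lower bound: the value of stage 1 (Jensen inequality in the moved potentials) and the
covariance of the fields of the new spin.
-/

open Finset MeasureTheory

namespace Vale.Agent.P166.L

open Vale.Agent.P166.F
open Vale.Agent.P157.Par (Path)

/-- The resolvent parameter `A(x) = β ζ(x)`, `∑ α_k / (A - β a_k) = x`. -/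
noncomputable def Az {n : ℕ} (β : ℝ) (a α : Fin (n + 1) → ℝ) (x : ℝ) : ℝ :=
  β * stInv (atoms a α) (β * x)

theorem Az_spec {n : ℕ} {a α : Fin (n + 1) → ℝ} (hα : ∀ b, 0 < α b) (hα1 : ∑ b, α b = 1)
    {β : ℝ} (hβ : 0 < β) {x : ℝ} (hx : 0 < x) :
    (∀ k, β * a k < Az β a α x) ∧ ∑ k, α k / (Az β a α x - β * a k) = x := by
  obtain ⟨h1, h2⟩ := rf_stInv (a := a) hα hα1 (mul_pos hβ hx)
  unfold Az
  refine ⟨fun k => mul_lt_mul_of_pos_left (h1 k) hβ, ?_⟩
  have h3 : ∀ k, α k / (β * stInv (atoms a α) (β * x) - β * a k) =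
      α k / (stInv (atoms a α) (β * x) - a k) / β := by
    intro k
    rw [← mul_sub, div_div, mul_comm β]
  rw [Finset.sum_congr rfl (fun k _ => h3 k), ← Finset.sum_div, h2]
  field_simp

/-- The trace `ρ_k` of the resolvent `1 / (A - β a_k)`. -/
noncomputable def rhk {n : ℕ} (β : ℝ) (a α : Fin (n + 1) → ℝ) (K : ℕ) (m q : ℕ → ℝ)
    (k : Fin (n + 1)) : ℝ := trf K m (fun x => 1 / (Az β a α x - β * a k)) (eq' K m q)

theorem lva_opath {K : ℕ} {q : ℕ → ℝ} (hq : Path K q) (hq1 : q K < 1) : OPath K q :=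
  ⟨hq.1, hq.2, hq1.le⟩

theorem lva_pos {K : ℕ} {m q : ℕ → ℝ} (hm : Expo K m) (hq : OPath K q) (hq1 : q K < 1) {l : ℕ}
    (hl : l ≤ K) : 0 < eq' K m q l := by
  have h1 : ∀ j ∈ Ico (l + 1) (K + 1), (m (j + 1) - m j) * q j ≤ (m (j + 1) - m j) * q K := by
    intro j hj
    rw [Finset.mem_Ico] at hj
    exact mul_le_mul_of_nonneg_left (fs_mono hq j K (by omega) le_rfl)
      (hm.p_nonneg (show j ≤ K by omega))
  have h2 := Finset.sum_le_sum h1
  rw [← Finset.sum_mul, fs_tele m (by omega), hm.mK] at h2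
  have h3 := fs_mono hq l K hl le_rfl
  have h4 := fs_mpos hm l hl
  unfold eq'
  nlinarith

theorem lva_step (K : ℕ) (m q : ℕ → ℝ) {i : ℕ} (hi : i < K) :
    eq' K m q i - eq' K m q (i + 1) = m (i + 1) * (q (i + 1) - q i) := by
  unfold eq'
  rw [Finset.sum_eq_sum_Ico_succ_bot (show i + 1 < K + 1 by omega)]
  ring

theorem lva_anti {K : ℕ} {m q : ℕ → ℝ} (hm : Expo K m) (hq : Path K q) {i : ℕ} (hi : i < K) :
    eq' K m q (i + 1) ≤ eq' K m q i := by
  have h1 := lva_step K m q hi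
  have h2 := mul_nonneg (fs_mpos hm i hi.le).le (sub_nonneg.2 (hq.2 i hi))
  linarith

theorem lva_congr {K : ℕ} {m q : ℕ → ℝ} (hm : Expo K m) (hq : Path K q) (hq1 : q K < 1)
    {f g : ℝ → ℝ} (h : ∀ x, 0 < x → f x = g x) :
    trf K m f (eq' K m q) = trf K m g (eq' K m q) := by
  have h1 : ∀ l ≤ K, f (eq' K m q l) = g (eq' K m q l) := fun l hl =>
    h _ (lva_pos hm (lva_opath hq hq1) hq1 hl)
  unfold trf
  rw [h1 K le_rfl]
  congr 1
  refine Finset.sum_congr rfl fun i hi => ?_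
  rw [Finset.mem_range] at hi
  rw [h1 i hi.le, h1 (i + 1) hi]

theorem lva_sub (K : ℕ) (m x : ℕ → ℝ) (f g : ℝ → ℝ) :
    trf K m (fun y => f y - g y) x = trf K m f x - trf K m g x := by
  unfold trf
  have h : ∑ i ∈ range K, (f (x i) - g (x i) - (f (x (i + 1)) - g (x (i + 1)))) / m (i + 1) =
      ∑ i ∈ range K, (f (x i) - f (x (i + 1))) / m (i + 1) -
        ∑ i ∈ range K, (g (x i) - g (x (i + 1))) / m (i + 1) := by
    rw [← Finset.sum_sub_distrib]
    exact Finset.sum_congr rfl fun i _ => by ring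
  rw [h]
  ring

theorem lva_sum {n : ℕ} (K : ℕ) (m x : ℕ → ℝ) (c : Fin (n + 1) → ℝ)
    (f : Fin (n + 1) → ℝ → ℝ) :
    trf K m (fun y => ∑ k, c k * f k y) x = ∑ k, c k * trf K m (f k) x := by
  unfold trf
  simp only [mul_add, Finset.sum_add_distrib, Finset.mul_sum]
  congr 1
  rw [Finset.sum_comm]
  refine Finset.sum_congr rfl fun i _ => ?_
  rw [← Finset.sum_sub_distrib, Finset.sum_div]
  exact Finset.sum_congr rfl fun b _ => by ring

theorem lva_id {K : ℕ} {m q : ℕ → ℝ} (hm : Expo K m) (hq0 : q 0 = 0) :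
    trf K m (fun x => x) (eq' K m q) = 1 := by
  unfold trf
  have h1 : ∀ i ∈ range K, (eq' K m q i - eq' K m q (i + 1)) / m (i + 1) = q (i + 1) - q i := by
    intro i hi
    rw [Finset.mem_range] at hi
    rw [lva_step K m q hi]
    have := (fs_mpos hm i hi.le).ne'
    field_simp
  rw [Finset.sum_congr rfl h1, Finset.sum_range_sub]
  unfold eq'
  rw [Finset.Ico_self, Finset.sum_empty, hm.mK, hq0]
  ring

/-- A trace of a nonnegative nondecreasing function is nonnegative. -/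
theorem trf_nonneg {K : ℕ} {m q : ℕ → ℝ} (hm : Expo K m) (hq : Path K q)
    (hq1 : q K < 1) {g : ℝ → ℝ} (h0 : ∀ x, 0 < x → 0 ≤ g x) (hg : MonotoneOn g (Set.Ioi 0)) :
    0 ≤ trf K m g (eq' K m q) := by
  have hpos : ∀ l ≤ K, 0 < eq' K m q l := fun l hl => lva_pos hm (lva_opath hq hq1) hq1 hl
  unfold trf
  refine add_nonneg (h0 _ (hpos K le_rfl)) (Finset.sum_nonneg fun i hi => ?_)
  rw [Finset.mem_range] at hi
  refine div_nonneg (sub_nonneg.2 ?_) (fs_mpos hm i hi.le).le
  exact hg (hpos (i + 1) hi) (hpos i hi.le) (lva_anti hm hq hi)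

theorem lva_anti_Az {n : ℕ} {a α : Fin (n + 1) → ℝ} (hα : ∀ b, 0 < α b) (hα1 : ∑ b, α b = 1)
    {β : ℝ} (hβ : 0 < β) {x y : ℝ} (hx : 0 < x) (hxy : x ≤ y) :
    Az β a α y ≤ Az β a α x := by
  have := atoms_prob (a := a) hα hα1
  unfold Az
  exact mul_le_mul_of_nonneg_left (stInv_anti (rf_compact hα) (mul_pos hβ hx)
    (mul_le_mul_of_nonneg_left hxy hβ.le)) hβ.le

/-- The normalization `∑ α_k ρ_k = 1` and the monotonicity of `ρ`. -/
theorem rhk_props {n : ℕ} {a α : Fin (n + 1) → ℝ} (ha : StrictMono a) (hα : ∀ b, 0 < α b)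
    (hα1 : ∑ b, α b = 1) {β : ℝ} (hβ : 0 < β) {K : ℕ} {m q : ℕ → ℝ} (hm : Expo K m)
    (hq : Path K q) (hq0 : q 0 = 0) (hq1 : q K < 1) :
    (∀ k, 0 ≤ rhk β a α K m q k) ∧ Monotone (rhk β a α K m q) ∧
      ∑ k, α k * rhk β a α K m q k = 1 ∧ rhk β a α K m q (Fin.last n) ≤ 1 / α (Fin.last n) := by
  have hpos : ∀ x, 0 < x → ∀ k, 0 < Az β a α x - β * a k := fun x hx k =>
    sub_pos.2 ((Az_spec hα hα1 hβ hx).1 k)
  have hmono : ∀ k, MonotoneOn (fun x => 1 / (Az β a α x - β * a k)) (Set.Ioi 0) := by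
    intro k x hx y hy hxy
    refine one_div_le_one_div_of_le (hpos y hy k) ?_
    have := lva_anti_Az (a := a) hα hα1 hβ hx hxy
    linarith
  have hnn : ∀ k, 0 ≤ rhk β a α K m q k := fun k =>
    trf_nonneg hm hq hq1 (fun x hx => (one_div_pos.2 (hpos x hx k)).le) (hmono k)
  have hsum : ∑ k, α k * rhk β a α K m q k = 1 := by
    unfold rhk
    rw [← lva_sum K m (eq' K m q) α (fun k x => 1 / (Az β a α x - β * a k))]
    rw [lva_congr hm hq hq1 (g := fun x => x), lva_id hm hq0]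
    intro x hx
    refine Eq.trans ?_ (Az_spec (a := a) hα hα1 hβ hx).2
    exact Finset.sum_congr rfl fun k _ => mul_one_div _ _
  refine ⟨hnn, ?_, hsum, ?_⟩
  · intro k k' hkk
    rw [← sub_nonneg]
    unfold rhk
    rw [← lva_sub]
    have hb : β * a k ≤ β * a k' := mul_le_mul_of_nonneg_left (ha.monotone hkk) hβ.le
    have hrep : ∀ x, 0 < x → 1 / (Az β a α x - β * a k') - 1 / (Az β a α x - β * a k) =
        (β * a k' - β * a k) * (1 / (Az β a α x - β * a k') * (1 / (Az β a α x - β * a k))) := by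
      intro x hx
      have h1 := (hpos x hx k').ne'
      have h2 := (hpos x hx k).ne'
      field_simp
      ring
    refine trf_nonneg hm hq hq1 ?_ ?_
    · intro x hx
      rw [hrep x hx]
      have h1 := (one_div_pos.2 (hpos x hx k')).le
      have h2 := (one_div_pos.2 (hpos x hx k)).le
      exact mul_nonneg (sub_nonneg.2 hb) (mul_nonneg h1 h2)
    · intro x hx y hy hxy
      show 1 / (Az β a α x - β * a k') - 1 / (Az β a α x - β * a k) ≤
        1 / (Az β a α y - β * a k') - 1 / (Az β a α y - β * a k)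
      rw [hrep x hx, hrep y hy]
      have h1 := (one_div_pos.2 (hpos y hy k')).le
      have h2 := (one_div_pos.2 (hpos x hx k)).le
      exact mul_le_mul_of_nonneg_left (mul_le_mul (hmono k' hx hy hxy) (hmono k hx hy hxy) h2 h1)
        (sub_nonneg.2 hb)
  · rw [le_div_iff₀ (hα _), mul_comm, ← hsum]
    exact Finset.single_le_sum (f := fun k => α k * rhk β a α K m q k)
      (fun k _ => mul_nonneg (hα k).le (hnn k)) (Finset.mem_univ (Fin.last n))

end Vale.Agent.P166.L
end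
end

section

section

/-! P166, full formula: the functional and the variational formula. -/

open MeasureTheory Finset Filter Topology Matrix

namespace Vale.Agent.P166

open Vale.Agent.P157

/-- The values `sup_r J(q, r)` for all exponents `m` and all paths `q` with `q 0 = 0`,
`q k < 1`. -/
def vals (β : ℝ) (μ : Measure ℝ) : Set ℝ :=
  {y | ∃ (k : ℕ) (m q : ℕ → ℝ), Par.Exponents k m ∧ Par.Path k q ∧ q 0 = 0 ∧ q k < 1 ∧
    IsLUB {y | ∃ r, Par.Path k r ∧ y = Jf β μ k m q r} y}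

end Vale.Agent.P166
end
end

section

section

/-! Task F-G: block structures, admissible arrays, the pressure as the free energy of the model
without fields. -/

open MeasureTheory Finset Filter Topology Matrix

namespace Vale.Agent.P166.F

open Vale.Agent.P157 Vale.Agent.P157.Lv

/-- The proportion of the block `k`. -/
noncomputable def frac {N κ : ℕ} (c : Fin N → Fin κ) (k : Fin κ) : ℝ :=
  ((univ.filter fun i => c i = k).card : ℝ) / N

theorem Glue_card_le {N : ℕ} {t : ℝ} (ht0 : 0 ≤ t) (ht : t ≤ 1) :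
    (univ.filter fun i : Fin N => ((i : ℝ) + 1) ≤ N * t).card = ⌊(N : ℝ) * t⌋₊ := by
  have h1 : ⌊(N : ℝ) * t⌋₊ ≤ N := by
    refine Nat.floor_le_of_le ?_
    have : (0 : ℝ) ≤ N := Nat.cast_nonneg N
    nlinarith only [ht]
  have h2 : (univ.filter fun i : Fin N => ((i : ℝ) + 1) ≤ N * t) =
      univ.filter fun i : Fin N => (i : ℕ) < ⌊(N : ℝ) * t⌋₊ := by
    ext i
    simp only [mem_filter, mem_univ, true_and]
    rw [← Nat.succ_le_iff, Nat.le_floor_iff (by positivity)]
    push_cast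
    rfl
  rw [h2, Fin.card_filter_val_lt, min_eq_right h1]

theorem exists_blocks {n : ℕ} (α : Fin (n + 1) → ℝ) (hα : ∀ b, 0 < α b) (hα1 : ∑ b, α b = 1) :
    ∃ c : (N : ℕ) → Fin N → Fin (n + 1),
      ∀ k, Tendsto (fun N => frac (c N) k) atTop (𝓝 (α k)) := by
  set S : Fin (n + 1) → ℝ := fun k => ∑ j ∈ Finset.Iic k, α j with hS
  have hS0 : ∀ k, 0 ≤ S k := fun k => Finset.sum_nonneg fun j _ => (hα j).le
  have hS1 : ∀ k, S k ≤ 1 := fun k => by
    rw [← hα1]
    exact Finset.sum_le_sum_of_subset_of_nonneg (Finset.subset_univ _) fun j _ _ => (hα j).le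
  have hSm : Monotone S := fun k l hkl =>
    Finset.sum_le_sum_of_subset_of_nonneg (Finset.Iic_subset_Iic.2 hkl) fun j _ _ => (hα j).le
  have hSl : S (Fin.last n) = 1 := by
    rw [← hα1]
    simp only [hS]
    congr 1
    ext j
    simp only [mem_Iic, Fin.le_last, mem_univ]
  have hne : ∀ (N : ℕ) (i : Fin N),
      (univ.filter fun k : Fin (n + 1) => ((i : ℝ) + 1) ≤ N * S k).Nonempty := by
    intro N i
    refine ⟨Fin.last n, ?_⟩
    simp only [mem_filter, mem_univ, true_and, hSl, mul_one]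
    exact_mod_cast i.2
  refine ⟨fun N i => Finset.min' _ (hne N i), ?_⟩
  have hc : ∀ (N : ℕ) (i : Fin N) (k : Fin (n + 1)),
      Finset.min' _ (hne N i) ≤ k ↔ ((i : ℝ) + 1) ≤ N * S k := by
    intro N i k
    constructor
    · intro h
      have h1 := Finset.min'_mem _ (hne N i)
      simp only [mem_filter, mem_univ, true_and] at h1
      exact h1.trans (mul_le_mul_of_nonneg_left (hSm h) (Nat.cast_nonneg N))
    · intro h
      exact Finset.min'_le _ _ (by simpa only [mem_filter, mem_univ, true_and] using h)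
  have hT : ∀ k, Tendsto (fun N : ℕ => ((univ.filter fun i : Fin N =>
      Finset.min' _ (hne N i) ≤ k).card : ℝ) / N) atTop (𝓝 (S k)) := by
    intro k
    have h1 : ∀ N : ℕ, ((univ.filter fun i : Fin N =>
      Finset.min' _ (hne N i) ≤ k).card : ℝ) / N = (⌊S k * (N : ℝ)⌋₊ : ℝ) / N := by
      intro N
      simp only [hc, Glue_card_le (hS0 k) (hS1 k)]
      rw [mul_comm]
    simp only [h1]
    exact (tendsto_nat_floor_mul_div_atTop (hS0 k)).comp tendsto_natCast_atTop_atTop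
  intro k
  induction k using Fin.cases with
  | zero =>
    have h1 : S 0 = α 0 := by
      simp only [hS]
      rw [show (Finset.Iic (0 : Fin (n + 1))) = {0} from by ext j; simp]
      simp
    rw [← h1]
    refine (hT 0).congr fun N => ?_
    unfold frac
    simp only [nonpos_iff_eq_zero]
  | succ j =>
    have h1 : α j.succ = S j.succ - S j.castSucc := by
      simp only [hS]
      rw [show (Finset.Iic j.succ) = insert j.succ (Finset.Iic j.castSucc) from ?_,
        Finset.sum_insert (by simp)]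
      · ring
      · ext i
        simp only [mem_Iic, mem_insert]
        rw [Fin.le_def, Fin.le_def, Fin.ext_iff]
        simp only [Fin.val_succ, Fin.val_castSucc]
        omega
    rw [h1]
    refine ((hT j.succ).sub (hT j.castSucc)).congr fun N => ?_
    unfold frac
    rw [← sub_div]
    congr 1
    rw [sub_eq_iff_eq_add, ← Nat.cast_add, ← Finset.card_union_of_disjoint]
    · congr 2
      ext i
      simp only [mem_union, mem_filter, mem_univ, true_and]
      rw [Fin.le_def, Fin.le_def, Fin.ext_iff]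
      simp only [Fin.val_succ, Fin.val_castSucc]
      omega
    · rw [Finset.disjoint_left]
      intro i hi hi'
      simp only [mem_filter, mem_univ, true_and] at hi hi'
      rw [hi, Fin.le_def] at hi'
      simp only [Fin.val_succ, Fin.val_castSucc] at hi'
      omega

theorem Glue_fiber {N κ : ℕ} (c : Fin N → Fin κ) (f : Fin κ → ℝ) :
    (1 / (N : ℝ)) * ∑ i, f (c i) = ∑ k, frac c k * f k := by
  rw [← Finset.sum_fiberwise univ c, Finset.mul_sum]
  refine Finset.sum_congr rfl fun k _ => ?_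
  have h1 : ∑ i with c i = k, f (c i) = ((univ.filter fun i => c i = k).card : ℝ) * f k := by
    rw [Finset.sum_congr rfl (g := fun _ => f k) (fun i hi => by rw [(mem_filter.1 hi).2]),
      Finset.sum_const, nsmul_eq_mul]
  rw [h1]
  unfold frac
  ring

theorem Glue_ex {n : ℕ} {α : Fin (n + 1) → ℝ} (hα : ∀ b, 0 < α b)
    {c : (N : ℕ) → Fin N → Fin (n + 1)}
    (hc : ∀ k, Tendsto (fun N => frac (c N) k) atTop (𝓝 (α k))) (k : Fin (n + 1)) :
    ∀ᶠ N in atTop, ∃ i, c N i = k := by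
  filter_upwards [(hc k).eventually (lt_mem_nhds (hα k))] with N hN
  unfold frac at hN
  by_contra h
  push Not at h
  rw [Finset.filter_false_of_mem (fun i _ => h i)] at hN
  simp at hN

theorem admissible_blocks {n : ℕ} (a α : Fin (n + 1) → ℝ) (ha : StrictMono a)
    (hα : ∀ b, 0 < α b) (hα1 : ∑ b, α b = 1) (c : (N : ℕ) → Fin N → Fin (n + 1))
    (hc : ∀ k, Tendsto (fun N => frac (c N) k) atTop (𝓝 (α k))) :
    Admissible (fun N i => a (c N i)) (atoms a α) where
  weak := fun f => by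
    rw [atoms_integral hα]
    have h1 : ∀ N : ℕ, 1 / (N : ℝ) * ∑ i, f (a (c N i)) = ∑ k, frac (c N) k * f (a k) :=
      fun N => Glue_fiber (c N) fun k => f (a k)
    simp only [h1]
    exact tendsto_finsetSum _ fun k _ => (hc k).mul_const _
  smallest := by
    rw [atoms_support hα]
    have h1 : sInf (Set.range a) = a 0 := IsLeast.csInf_eq
      ⟨⟨0, rfl⟩, by rintro _ ⟨k, rfl⟩; exact ha.monotone (Fin.zero_le k)⟩
    rw [h1]
    refine tendsto_const_nhds.congr' ?_
    filter_upwards [Glue_ex hα hc 0] with N hN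
    obtain ⟨i, hi⟩ := hN
    have : Nonempty (Fin N) := ⟨i⟩
    refine le_antisymm (le_ciInf fun j => ha.monotone (Fin.zero_le _)) ?_
    rw [← hi]
    exact ciInf_le (Set.finite_range _).bddBelow i
  largest := by
    rw [atoms_support hα]
    have h1 : sSup (Set.range a) = a (Fin.last n) := IsGreatest.csSup_eq
      ⟨⟨Fin.last n, rfl⟩, by rintro _ ⟨k, rfl⟩; exact ha.monotone (Fin.le_last k)⟩
    rw [h1]
    refine tendsto_const_nhds.congr' ?_
    filter_upwards [Glue_ex hα hc (Fin.last n)] with N hN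
    obtain ⟨i, hi⟩ := hN
    have : Nonempty (Fin N) := ⟨i⟩
    refine le_antisymm ?_ (ciSup_le fun j => ha.monotone (Fin.le_last _))
    rw [← hi]
    exact le_ciSup (f := fun i => a (c N i)) (Set.finite_range _).bddAbove i

theorem Glue_spin {N : ℕ} (F : (Fin N → ℝ) → ℝ) :
    ∑ x : Fin N → Bool, F (spin x) = ∑ σ ∈ cube N, F σ := by
  refine Finset.sum_bij (fun x _ => spin x) ?_ ?_ ?_ ?_
  · intro x _
    refine Fintype.mem_piFinset.2 fun i => ?_
    unfold spin
    split_ifs <;> simp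
  · intro x _ y _ h
    funext i
    have h1 := congrFun h i
    unfold spin at h1
    cases hx : x i <;> cases hy : y i <;> simp_all <;> norm_num at h1
  · intro σ hσ
    refine ⟨fun i => decide (σ i = 1), mem_univ _, ?_⟩
    funext i
    have h1 := Fintype.mem_piFinset.1 hσ i
    simp only [mem_insert, mem_singleton] at h1
    unfold spin
    rcases h1 with h | h
    · norm_num [h]
    · simp [h]
  · intro x _
    rfl

/-- The model without fields. -/
theorem Fe_zero {N K κ : ℕ} [MeasurableSpace (orthogonalGroup (Fin N) ℝ)]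
    [BorelSpace (orthogonalGroup (Fin N) ℝ)]
    (ν : Measure (orthogonalGroup (Fin N) ℝ)) [IsProbabilityMeasure ν] (hN : 0 < N) {m : ℕ → ℝ}
    (hm : Expo K m) (c : Fin N → Fin κ) (a : Fin κ → ℝ) (β : ℝ) :
    Md.Fe ν K m c ⟨fun k => β * a k, fun _ => 0, fun _ _ => 0⟩ =
      ∫ U, pressure N β (U.1ᵀ * diagonal (fun i => a (c i)) * U.1) ∂ν := by
  have hen : ∀ (U : Matrix (Fin N) (Fin N) ℝ) (z : Md.Ix N K → ℝ) (x : Fin N → Bool),
      Md.en c ⟨fun k => β * a k, fun _ => 0, fun _ _ => 0⟩ U z x =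
        en 1 (fun i => β * a (c i)) U (spin x) := by
    intro U z x
    unfold Md.en en Md.ph
    simp only [zero_mul, Finset.sum_const_zero, add_zero, Finset.mul_sum]
    exact Finset.sum_congr rfl fun i _ => by ring
  have hen2 : ∀ (U : Matrix (Fin N) (Fin N) ℝ) (σ : Fin N → ℝ),
      en 1 (fun i => β * a (c i)) U σ = en β (fun i => a (c i)) U σ := by
    intro U σ
    unfold en
    simp only [Finset.mul_sum]
    exact Finset.sum_congr rfl fun i _ => by ring
  have hLZ : ∀ U : Matrix (Fin N) (Fin N) ℝ,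
      LZ 1 (fun i => β * a (c i)) U = LZ β (fun i => a (c i)) U := by
    intro U
    unfold LZ
    simp only [hen2]
  have hfe : ∀ U : Matrix (Fin N) (Fin N) ℝ,
      (Md.mdl K m c ⟨fun k => β * a k, fun _ => 0, fun _ _ => 0⟩ U).fe =
        LZ 1 (fun i => β * a (c i)) U := by
    intro U
    rw [fe_level_zero]
    · have h1 : ∀ z, (Md.mdl K m c ⟨fun k => β * a k, fun _ => 0, fun _ _ => 0⟩ U).top z =
          LZ 1 (fun i => β * a (c i)) U := by
        intro z
        unfold Sy.top LZ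
        congr 1
        rw [← Glue_spin (fun σ => Real.exp (en 1 (fun i => β * a (c i)) U σ))]
        exact Finset.sum_congr rfl fun x _ => congrArg Real.exp (hen U z x)
      simp only [h1]
      simp
    · exact ⟨hm.m0, hm.mK, hm.mono, hm.pos, fun e => Nat.lt_succ_iff.1 e.1.2, fun x =>
        ⟨0, le_rfl, fun y y' => by
          simp only [Md.mdl, hen]
          simp⟩⟩
    · intro x z w
      simp only [Md.mdl, hen]
  unfold Md.Fe Md.EU
  simp only [hfe, pressure_eq hN]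
  rw [integral_sub ((integrable_LZ ν (a := fun i => β * a (c i)) zero_le_one).congr
    (ae_of_all _ fun U => hLZ U.1) |>.const_mul _) (integrable_const _), integral_const_mul,
    integral_const]
  simp only [one_div, hLZ, probReal_univ, smul_eq_mul, one_mul]

/-- The law of independent types. -/
noncomputable def wt {N κ : ℕ} (α : Fin κ → ℝ) (c : Fin N → Fin κ) : ℝ := ∏ i, α (c i)

theorem Glue_prod {N κ : ℕ} (g : Fin N → Fin κ → ℝ) :
    ∑ c : Fin N → Fin κ, ∏ i, g i (c i) = ∏ i, ∑ b, g i b := by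
  rw [Finset.prod_univ_sum, Fintype.piFinset_univ]

theorem sum_wt {N κ : ℕ} (α : Fin κ → ℝ) (hα1 : ∑ b, α b = 1) :
    ∑ c : Fin N → Fin κ, wt α c = 1 := by
  unfold wt
  rw [Glue_prod (fun _ => α)]
  simp only [hα1, prod_const_one]

/-- Chebyshev. -/
theorem Glue_var {N κ : ℕ} (hN : 0 < N) (α : Fin κ → ℝ) (hα : ∀ b, 0 < α b)
    (hα1 : ∑ b, α b = 1) (k : Fin κ) :
    ∑ c : Fin N → Fin κ, wt α c * (frac c k - α k) ^ 2 ≤ 1 / N := by
  set x : Fin κ → ℝ := fun b => (if b = k then 1 else 0) - α k with hx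
  have hN' : (0 : ℝ) < N := Nat.cast_pos.2 hN
  have hα2 : α k ≤ 1 := by
    rw [← hα1]
    exact Finset.single_le_sum (fun b _ => (hα b).le) (Finset.mem_univ k)
  have hx1 : ∀ b, x b * x b ≤ 1 := by
    intro b
    have := hα k
    simp only [hx]
    split_ifs <;> nlinarith only [hα2, this]
  have hx0 : ∑ b, α b * x b = 0 := by
    simp only [hx, mul_sub, Finset.sum_sub_distrib, mul_ite, mul_one, mul_zero,
      Finset.sum_ite_eq', Finset.mem_univ, if_true, ← Finset.sum_mul, hα1, one_mul, sub_self]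
  have hfr : ∀ c : Fin N → Fin κ, frac c k - α k = (1 / N) * ∑ i, x (c i) := by
    intro c
    unfold frac
    simp only [hx, Finset.sum_sub_distrib, Finset.sum_const, Finset.card_univ, Fintype.card_fin,
      nsmul_eq_mul, Finset.card_filter, Nat.cast_sum, Nat.cast_ite, Nat.cast_one, Nat.cast_zero]
    field_simp
  have hwt : ∀ c : Fin N → Fin κ, 0 ≤ wt α c := fun c => Finset.prod_nonneg fun i _ => (hα _).le
  have hE : ∀ i j : Fin N, ∑ c : Fin N → Fin κ, wt α c * (x (c i) * x (c j)) ≤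
      if i = j then 1 else 0 := by
    intro i j
    split_ifs with hij
    · subst hij
      calc ∑ c : Fin N → Fin κ, wt α c * (x (c i) * x (c i)) ≤ ∑ c : Fin N → Fin κ, wt α c * 1 :=
            Finset.sum_le_sum fun c _ => mul_le_mul_of_nonneg_left (hx1 _) (hwt c)
        _ = 1 := by simp only [mul_one, sum_wt α hα1]
    · have h1 : ∀ c : Fin N → Fin κ, wt α c * (x (c i) * x (c j)) =
          ∏ l, (α (c l) * ((if l = i then x (c l) else 1) * (if l = j then x (c l) else 1))) := by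
        intro c
        rw [Finset.prod_mul_distrib, Finset.prod_mul_distrib, Finset.prod_ite_eq',
          Finset.prod_ite_eq']
        simp only [wt, mem_univ, ↓reduceIte]
      simp only [h1]
      rw [Glue_prod (fun l b => α b * ((if l = i then x b else 1) * (if l = j then x b else 1)))]
      refine (Finset.prod_eq_zero (Finset.mem_univ i) ?_).le
      simp only [if_true, hij, if_false, mul_one, hx0]
  have h2 : ∀ c : Fin N → Fin κ, wt α c * (frac c k - α k) ^ 2 =
      (1 / (N : ℝ)) ^ 2 * ∑ i, ∑ j, wt α c * (x (c i) * x (c j)) := by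
    intro c
    rw [hfr c, mul_pow, sq (∑ i, x (c i)), Finset.sum_mul_sum]
    simp only [← Finset.mul_sum]
    ring
  simp only [h2]
  rw [← Finset.mul_sum, Finset.sum_comm]
  calc (1 / (N : ℝ)) ^ 2 * ∑ i, ∑ c : Fin N → Fin κ, ∑ j, wt α c * (x (c i) * x (c j))
      = (1 / (N : ℝ)) ^ 2 * ∑ i, ∑ j, ∑ c : Fin N → Fin κ, wt α c * (x (c i) * x (c j)) := by
        congr 1
        exact Finset.sum_congr rfl fun i _ => Finset.sum_comm
    _ ≤ (1 / (N : ℝ)) ^ 2 * ∑ i : Fin N, ∑ j : Fin N, (if i = j then 1 else 0) :=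
        mul_le_mul_of_nonneg_left (Finset.sum_le_sum fun i _ => Finset.sum_le_sum fun j _ =>
          hE i j) (by positivity)
    _ = 1 / N := by
        simp only [Finset.sum_ite_eq, Finset.mem_univ, if_true, Finset.sum_const,
          Finset.card_univ, Fintype.card_fin, nsmul_eq_mul, mul_one]
        field_simp

/-- Random types can be replaced by deterministic types. -/
theorem random_types {n : ℕ} (α : Fin (n + 1) → ℝ) (hα : ∀ b, 0 < α b) (hα1 : ∑ b, α b = 1)
    (f : (N : ℕ) → (Fin N → Fin (n + 1)) → ℝ) {C : ℝ} (hC : ∀ N c, |f N c| ≤ C)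
    (hf : ∀ c c' : (N : ℕ) → Fin N → Fin (n + 1),
      (∀ k, Tendsto (fun N => frac (c N) k) atTop (𝓝 (α k))) →
      (∀ k, Tendsto (fun N => frac (c' N) k) atTop (𝓝 (α k))) →
      Tendsto (fun N => f N (c N) - f N (c' N)) atTop (𝓝 0))
    (c : (N : ℕ) → Fin N → Fin (n + 1))
    (hc : ∀ k, Tendsto (fun N => frac (c N) k) atTop (𝓝 (α k))) :
    Tendsto (fun N => ∑ c' : Fin N → Fin (n + 1), wt α c' * f N c' - f N (c N)) atTop (𝓝 0) := by
  classical
  set V : (N : ℕ) → (Fin N → Fin (n + 1)) → ℝ := fun N d => ∑ k, (frac d k - α k) ^ 2 with hV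
  have hV0 : ∀ N d, 0 ≤ V N d := fun N d => Finset.sum_nonneg fun k _ => sq_nonneg _
  have hVs : ∀ N, 0 < N → ∑ d : Fin N → Fin (n + 1), wt α d * V N d ≤ (n + 1) / N := by
    intro N hN
    simp only [hV, mul_sum]
    rw [Finset.sum_comm]
    refine (Finset.sum_le_sum fun k _ => Glue_var hN α hα hα1 k).trans ?_
    simp only [Finset.sum_const, Finset.card_univ, Fintype.card_fin, nsmul_eq_mul]
    push_cast
    exact le_of_eq (by ring)
  have hVc : Tendsto (fun N => V N (c N)) atTop (𝓝 0) := by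
    have h1 := tendsto_finsetSum (univ : Finset (Fin (n + 1)))
      (fun k _ => ((hc k).sub_const (α k)).pow 2)
    simpa only [sub_self, ne_eq, OfNat.ofNat_ne_zero, not_false_eq_true, zero_pow, sum_const_zero] using h1
  have hw : ∀ N (d : Fin N → Fin (n + 1)), 0 ≤ wt α d := fun N d =>
    Finset.prod_nonneg fun i _ => (hα _).le
  -- the worst sequence
  have hex : ∀ N, ∃ d : Fin N → Fin (n + 1), (V N d ≤ 1 / √N ∨ V N d ≤ V N (c N)) ∧
      ∀ d', V N d' ≤ 1 / √N → |f N d' - f N (c N)| ≤ |f N (c N) - f N d| := by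
    intro N
    by_cases hne : (univ.filter fun d : Fin N → Fin (n + 1) => V N d ≤ 1 / √N).Nonempty
    · obtain ⟨d, hd, hd'⟩ := Finset.exists_max_image _ (fun d => |f N (c N) - f N d|) hne
      refine ⟨d, Or.inl (mem_filter.1 hd).2, fun d' h => ?_⟩
      rw [abs_sub_comm]
      exact hd' d' (mem_filter.2 ⟨mem_univ _, h⟩)
    · refine ⟨c N, Or.inr le_rfl, fun d' h => ?_⟩
      exact absurd ⟨d', mem_filter.2 ⟨mem_univ _, h⟩⟩ hne
  choose d hd1 hd2 using hex
  have hs : Tendsto (fun N : ℕ => 1 / √(N : ℝ)) atTop (𝓝 0) := by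
    have h1 : Tendsto (fun N : ℕ => √(N : ℝ)) atTop atTop :=
      Real.tendsto_sqrt_atTop.comp tendsto_natCast_atTop_atTop
    simp only [one_div]
    exact h1.inv_tendsto_atTop
  have hVd : Tendsto (fun N => V N (d N)) atTop (𝓝 0) := by
    have h1 := hs.add hVc
    rw [add_zero] at h1
    refine squeeze_zero (fun N => hV0 _ _) (fun N => ?_) h1
    rcases hd1 N with h | h
    · exact h.trans (le_add_of_nonneg_right (hV0 _ _))
    · exact h.trans (le_add_of_nonneg_left (by (clear * -; positivity)))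
  have hdk : ∀ k, Tendsto (fun N => frac (d N) k) atTop (𝓝 (α k)) := by
    intro k
    have h1 : Tendsto (fun N => (frac (d N) k - α k) ^ 2) atTop (𝓝 0) :=
      squeeze_zero (fun N => sq_nonneg _) (fun N => Finset.single_le_sum
        (f := fun k => (frac (d N) k - α k) ^ 2) (fun _ _ => sq_nonneg _) (mem_univ k)) hVd
    have h2 : Tendsto (fun N => |frac (d N) k - α k|) atTop (𝓝 0) := by
      have h3 := (Real.continuous_sqrt.tendsto 0).comp h1
      rw [Real.sqrt_zero] at h3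
      refine h3.congr fun N => ?_
      exact Real.sqrt_sq_eq_abs _
    have h4 := (tendsto_zero_iff_abs_tendsto_zero _).2 h2
    simpa using h4.add_const (α k)
  have h0 := hf c d hc hdk
  have hC0 : 0 ≤ C := (abs_nonneg _).trans (hC 0 (c 0))
  have hlim : Tendsto (fun N : ℕ => |f N (c N) - f N (d N)| + 2 * C * ((n + 1) * (1 / √(N : ℝ))))
      atTop (𝓝 0) := by
    have h1 := h0.abs.add ((hs.const_mul ((n : ℝ) + 1)).const_mul (2 * C))
    simpa only [one_div, abs_zero, mul_zero, add_zero] using h1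
  refine squeeze_zero_norm' ?_ hlim
  filter_upwards [eventually_gt_atTop 0] with N hN
  have hN' : (0 : ℝ) < N := Nat.cast_pos.2 hN
  have hsq : 0 < √(N : ℝ) := Real.sqrt_pos.2 hN'
  have e1 : ∑ c' : Fin N → Fin (n + 1), wt α c' * f N c' - f N (c N) =
      ∑ c' : Fin N → Fin (n + 1), wt α c' * (f N c' - f N (c N)) := by
    simp only [mul_sub, Finset.sum_sub_distrib]
    rw [← Finset.sum_mul, sum_wt α hα1, one_mul]
  rw [e1, Real.norm_eq_abs]
  have h5 : ∀ c' : Fin N → Fin (n + 1), |f N c' - f N (c N)| ≤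
      |f N (c N) - f N (d N)| + 2 * C * (√N * V N c') := by
    intro c'
    by_cases h : V N c' ≤ 1 / √N
    · exact (hd2 N c' h).trans (le_add_of_nonneg_right (by
        have := hV0 N c'
        (clear * - hC0 hN; positivity)))
    · push Not at h
      have h6 : 1 ≤ √N * V N c' := by
        have := mul_le_mul_of_nonneg_left h.le hsq.le
        rwa [mul_one_div_cancel hsq.ne'] at this
      have h7 : |f N c' - f N (c N)| ≤ 2 * C := by
        refine (abs_sub _ _).trans ?_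
        linarith only [hC N c', hC N (c N)]
      have h8 := abs_nonneg (f N (c N) - f N (d N))
      nlinarith only [h7, h8, hC0, h6]
  calc |∑ c' : Fin N → Fin (n + 1), wt α c' * (f N c' - f N (c N))|
      ≤ ∑ c' : Fin N → Fin (n + 1), |wt α c' * (f N c' - f N (c N))| :=
        Finset.abs_sum_le_sum_abs _ _
    _ ≤ ∑ c' : Fin N → Fin (n + 1), wt α c' *
          (|f N (c N) - f N (d N)| + 2 * C * (√N * V N c')) := by
        refine Finset.sum_le_sum fun c' _ => ?_
        rw [abs_mul, abs_of_nonneg (hw N c')]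
        exact mul_le_mul_of_nonneg_left (h5 c') (hw N c')
    _ = |f N (c N) - f N (d N)| + 2 * C * (√N * ∑ c' : Fin N → Fin (n + 1), wt α c' * V N c') := by
        simp only [mul_add, Finset.sum_add_distrib]
        rw [← Finset.sum_mul, sum_wt α hα1, one_mul]
        congr 1
        simp only [Finset.mul_sum]
        exact Finset.sum_congr rfl fun c' _ => by ring
    _ ≤ |f N (c N) - f N (d N)| + 2 * C * ((n + 1) * (1 / √(N : ℝ))) := by
        have h6 : √(N : ℝ) * ∑ c' : Fin N → Fin (n + 1), wt α c' * V N c' ≤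
            (n + 1) * (1 / √(N : ℝ)) := by
          refine (mul_le_mul_of_nonneg_left (hVs N hN) hsq.le).trans (le_of_eq ?_)
          have h7 : √(N : ℝ) * √(N : ℝ) = N := Real.mul_self_sqrt hN'.le
          field_simp
          linarith
        have := mul_le_mul_of_nonneg_left h6 (show 0 ≤ 2 * C by (clear * - hC0; positivity))
        linarith only [this]

end Vale.Agent.P166.F
end
end

section

section

/-!
First moments and overlaps of the enriched model (module MODEL2).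
-/

open MeasureTheory ProbabilityTheory Matrix Filter Topology

namespace Vale.Agent.P166.U

open Vale.Agent.P157 (spin)
open Vale.Agent.P157.Lv Vale.Agent.P157.Par Md

/-! ### Symmetry -/

section sym

set_option linter.unusedSectionVars false

variable {ι X : Type} [Fintype ι] [Fintype X] [Nonempty X]

lemma m2_mix_neg (lev : ι → ℕ) (l : ℕ) (z w : ι → ℝ) : mix lev l (-z) (-w) = -mix lev l z w := by
  funext e
  simp only [mix, Pi.neg_apply]
  split_ifs <;> rfl

/-- The standard Gaussian measure is symmetric. -/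
lemma m2_neg_mp : MeasurePreserving (fun w : ι → ℝ => -w) (gI ι) (gI ι) := by
  have h := measurePreserving_pi (fun _ : ι => gaussianReal 0 1) (fun _ : ι => gaussianReal 0 1)
    (f := fun _ (x : ℝ) => -x) (fun _ => ⟨measurable_neg, by
      rw [gaussianReal_map_neg, neg_zero]⟩)
  exact h

lemma m2_J_neg (lev : ι → ℕ) (l : ℕ) (f : (ι → ℝ) → ℝ) (z : ι → ℝ) :
    P157.Lv.J lev l f (-z) = P157.Lv.J lev l (fun z => f (-z)) z := by
  unfold P157.Lv.J
  rw [← (m2_neg_mp (ι := ι)).integral_comp (Homeomorph.neg (ι → ℝ)).measurableEmbedding]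
  refine integral_congr_ae (Filter.Eventually.of_forall fun w => ?_)
  simp only [m2_mix_neg]

variable {S : Sy ι X} {τ : X → X}

lemma m2_lg_neg (hτ : Function.Bijective τ) (h : ∀ z x, S.H (-z) (τ x) = S.H z x) {l : ℕ}
    (hl : l ≤ S.K) : ∀ z, S.lg l (-z) = S.lg l z := by
  refine Sy.down_ind (P := fun l => ∀ z, S.lg l (-z) = S.lg l z) ?_ ?_ l hl
  · intro z
    rw [Sy.lg_top]
    unfold Sy.top
    congr 1
    rw [← hτ.sum_comp (fun x => Real.exp (S.H (-z) x))]
    exact Finset.sum_congr rfl fun x _ => by rw [h]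
  · intro l hl ih z
    rw [Sy.lg_step S hl]
    unfold Sy.stp
    rw [m2_J_neg]
    simp only [ih]

lemma m2_dn_neg (hτ : Function.Bijective τ) (h : ∀ z x, S.H (-z) (τ x) = S.H z x) (l : ℕ)
    (z : ι → ℝ) : S.dn l (-z) = S.dn l z := by
  unfold Sy.dn
  congr 1
  refine Finset.sum_congr rfl fun i hi => ?_
  have hi' := (Finset.mem_Ico.mp hi).2
  rw [m2_lg_neg hτ h (by omega : i + 1 ≤ S.K), m2_lg_neg hτ h hi'.le]

lemma m2_av_neg (hτ : Function.Bijective τ) (h : ∀ z x, S.H (-z) (τ x) = S.H z x)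
    {g : (ι → ℝ) → X → ℝ} (hg : ∀ z x, g (-z) (τ x) = -g z x) (z : ι → ℝ) :
    S.av g (-z) = -S.av g z := by
  unfold Sy.av Sy.gb
  rw [← hτ.sum_comp (fun x => Real.exp (S.H (-z) x) / (∑ x', Real.exp (S.H (-z) x')) * g (-z) x),
    ← hτ.sum_comp (fun x => Real.exp (S.H (-z) x)), ← Finset.sum_neg_distrib]
  refine Finset.sum_congr rfl fun x _ => ?_
  rw [hg, h]
  simp only [h]
  ring

lemma m2_T_neg (hτ : Function.Bijective τ) (h : ∀ z x, S.H (-z) (τ x) = S.H z x)
    {g : (ι → ℝ) → X → ℝ} (hg : ∀ z x, g (-z) (τ x) = -g z x) (l : ℕ) (z : ι → ℝ) :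
    S.T l g (-z) = -S.T l g z := by
  unfold Sy.T
  rw [m2_J_neg]
  unfold P157.Lv.J
  rw [← integral_neg]
  refine integral_congr_ae (Filter.Eventually.of_forall fun w => ?_)
  simp only [m2_dn_neg hτ h, m2_av_neg hτ h hg]
  ring

/-- Two points which differ only in the coordinates of level zero. -/
lemma m2_lg_zero (h : ∀ (x : X) (z z' : ι → ℝ), (∀ e, S.lev e ≠ 0 → z e = z' e) →
    S.H z x = S.H z' x) {l : ℕ} (hl : l ≤ S.K) :
    ∀ z z' : ι → ℝ, (∀ e, S.lev e ≠ 0 → z e = z' e) → S.lg l z = S.lg l z' := by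
  refine Sy.down_ind (P := fun l => ∀ z z' : ι → ℝ, (∀ e, S.lev e ≠ 0 → z e = z' e) →
    S.lg l z = S.lg l z') ?_ ?_ l hl
  · intro z z' hz
    rw [Sy.lg_top]
    unfold Sy.top
    congr 1
    exact Finset.sum_congr rfl fun x _ => by rw [h x z z' hz]
  · intro l hl ih z z' hz
    rw [Sy.lg_step S hl]
    unfold Sy.stp P157.Lv.J
    congr 2
    refine integral_congr_ae (Filter.Eventually.of_forall fun w => ?_)
    simp only
    rw [ih (mix S.lev l z w) (mix S.lev l z' w)]
    intro e he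
    simp only [mix]
    split_ifs
    · exact hz e he
    · rfl

lemma m2_T_zero_const (h : ∀ (x : X) (z z' : ι → ℝ), (∀ e, S.lev e ≠ 0 → z e = z' e) →
    S.H z x = S.H z' x) (g : X → ℝ) (z z' : ι → ℝ) :
    S.T 0 (fun _ x => g x) z = S.T 0 (fun _ x => g x) z' := by
  unfold Sy.T P157.Lv.J
  refine integral_congr_ae (Filter.Eventually.of_forall fun w => ?_)
  have hm : ∀ e, S.lev e ≠ 0 → mix S.lev 0 z w e = mix S.lev 0 z' w e := by
    intro e he
    simp only [mix]
    rw [if_neg (by omega), if_neg (by omega)]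
  have h1 : S.dn 0 (mix S.lev 0 z w) = S.dn 0 (mix S.lev 0 z' w) := by
    unfold Sy.dn
    congr 1
    refine Finset.sum_congr rfl fun i hi => ?_
    have hi' := (Finset.mem_Ico.mp hi).2
    rw [m2_lg_zero h (by omega : i + 1 ≤ S.K) _ _ hm, m2_lg_zero h hi'.le _ _ hm]
  have h2 : S.av (fun _ x => g x) (mix S.lev 0 z w) = S.av (fun _ x => g x) (mix S.lev 0 z' w) := by
    unfold Sy.av Sy.gb
    refine Finset.sum_congr rfl fun x _ => ?_
    rw [h x _ _ hm]
    congr 2
    exact Finset.sum_congr rfl fun x' _ => by rw [h x' _ _ hm]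
  simp only
  rw [h1, h2]

/-- Odd observables vanish at the level zero if the energy does not depend on the coordinates of
the level zero. -/
lemma m2_T_odd (hτ : Function.Bijective τ) (h : ∀ z x, S.H (-z) (τ x) = S.H z x)
    (h0 : ∀ (x : X) (z z' : ι → ℝ), (∀ e, S.lev e ≠ 0 → z e = z' e) → S.H z x = S.H z' x)
    {g : X → ℝ} (hg : ∀ x, g (τ x) = -g x) (z : ι → ℝ) : S.T 0 (fun _ x => g x) z = 0 := by
  have h1 := m2_T_neg hτ h (g := fun _ x => g x) (fun _ x => hg x) 0 z
  have h2 := m2_T_zero_const h0 g (-z) z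
  linarith only [h1, h2]

end sym

/-! ### The mean overlaps -/

set_option linter.unusedSectionVars false

variable {N K κ : ℕ} {m : ℕ → ℝ} {c : Fin N → Fin κ} {P P' : Pm κ}
  {U : Matrix (Fin N) (Fin N) ℝ}

/-- For each matrix. -/
lemma m2_Rb_abs (P : Pm κ) (hm : Exponents K m) (hN : 0 < N) (hU : U ∈ orthogonalGroup (Fin N) ℝ)
    (k : Fin κ) (x x' : Fin N → Bool) : |Rb c U k x x'| ≤ 1 := by
  rw [Rb_eq]
  exact (mdl_bfld (K := K) (m := m) (P := P) hm hN hU k).abs_Rk_le x x'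

lemma m2_Rb_self (P : Pm κ) (hm : Exponents K m) (hN : 0 < N) (hU : U ∈ orthogonalGroup (Fin N) ℝ)
    (k : Fin κ) (x : Fin N → Bool) : 0 ≤ Rb c U k x x := by
  rw [Rb_eq]
  exact (mdl_bfld (K := K) (m := m) (P := P) hm hN hU k).Rk_self_nonneg x

lemma m2_pair_abs (hm : Exponents K m) (hN : 0 < N) (hU : U ∈ orthogonalGroup (Fin N) ℝ)
    (k : Fin κ) {l : ℕ} (hl : l ≤ K) : |(mdl K m c P U).pairEx l (Rb c U k)| ≤ 1 := by
  have hS : (mdl K m c P U).Reg := (mdl_regD hm).toReg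
  have hl' : l ≤ (mdl K m c P U).K := hl
  have hb := m2_Rb_abs (K := K) (m := m) (c := c) P hm hN hU k
  rw [abs_le]
  constructor
  · rw [← hS.pairEx_const hl' (-1)]
    exact hS.pairEx_mono hl' fun x x' => (abs_le.1 (hb x x')).1
  · rw [← hS.pairEx_const hl' 1]
    exact hS.pairEx_mono hl' fun x x' => (abs_le.1 (hb x x')).2

lemma m2_self_nonneg (hm : Exponents K m) (hN : 0 < N) (hU : U ∈ orthogonalGroup (Fin N) ℝ)
    (k : Fin κ) : 0 ≤ (mdl K m c P U).Ex (fun _ x => Rb c U k x x) := by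
  have hS : (mdl K m c P U).Reg := (mdl_regD hm).toReg
  rw [← hS.Ex_const 0]
  exact hS.Ex_mono (Sy.Nh.snd fun _ => 0) (Sy.Nh.snd fun x => Rb c U k x x) fun _ x =>
    m2_Rb_self (K := K) (m := m) (c := c) P hm hN hU k x

lemma m2_self_le (hm : Exponents K m) (hN : 0 < N) (hU : U ∈ orthogonalGroup (Fin N) ℝ)
    (k : Fin κ) : (mdl K m c P U).Ex (fun _ x => Rb c U k x x) ≤ 1 := by
  have hS : (mdl K m c P U).Reg := (mdl_regD hm).toReg
  rw [← hS.Ex_const 1]
  exact hS.Ex_mono (Sy.Nh.snd fun x => Rb c U k x x) (Sy.Nh.snd fun _ => 1) fun _ x =>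
    (abs_le.1 (m2_Rb_abs (K := K) (m := m) (c := c) P hm hN hU k x x)).2

lemma m2_sum_pair (hm : Exponents K m) (hU : U ∈ orthogonalGroup (Fin N) ℝ) {l : ℕ} (hl : l ≤ K) :
    (mdl K m c P U).pairEx l (Rov spin) = ∑ k, (mdl K m c P U).pairEx l (Rb c U k) := by
  have hS : (mdl K m c P U).Reg := (mdl_regD hm).toReg
  have hl' : l ≤ (mdl K m c P U).K := hl
  unfold Sy.pairEx
  rw [← hS.Ex_sum _ fun k _ => Sy.Nh.fst (hS.nh_pair hl' (Rb c U k))]
  congr 1
  funext z _
  calc ∑ x, ∑ x', (mdl K m c P U).pr l z x * (mdl K m c P U).pr l z x' * Rov spin x x'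
      = ∑ x, ∑ x', ∑ k, (mdl K m c P U).pr l z x * (mdl K m c P U).pr l z x' *
          Rb c U k x x' := by
        refine Finset.sum_congr rfl fun x _ => Finset.sum_congr rfl fun x' _ => ?_
        rw [Rov_eq (c := c) hU, Finset.mul_sum]
    _ = ∑ x, ∑ k, ∑ x', (mdl K m c P U).pr l z x * (mdl K m c P U).pr l z x' *
          Rb c U k x x' := Finset.sum_congr rfl fun x _ => Finset.sum_comm
    _ = _ := Finset.sum_comm

lemma m2_sum_self (hm : Exponents K m) (hN : 0 < N) (hU : U ∈ orthogonalGroup (Fin N) ℝ) :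
    ∑ k, (mdl K m c P U).Ex (fun _ x => Rb c U k x x) = 1 := by
  have hS : (mdl K m c P U).Reg := (mdl_regD hm).toReg
  rw [← hS.Ex_sum _ fun k _ => Sy.Nh.snd fun x => Rb c U k x x, ← hS.Ex_const 1]
  congr 1
  funext z x
  rw [← Rov_eq hU]
  unfold Rov
  have e : ∀ i, spin x i * spin x i = 1 := fun i => by rw [← sq, spin_sq]
  simp only [e, Finset.sum_const, Finset.card_univ, Fintype.card_fin, nsmul_eq_mul, mul_one]
  have : (N : ℝ) ≠ 0 := by exact_mod_cast hN.ne'
  field_simp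

/-- The overlap of two independent configurations is less than one. -/
lemma m2_pair_lt (hm : Exponents K m) (hN : 0 < N) :
    (mdl K m c P U).pairEx K (Rov spin) < 1 := by
  set S := mdl K m c P U with hSd
  have hS : S.Reg := (mdl_regD hm).toReg
  have hK : S.K = K := rfl
  have hN' : (0 : ℝ) < N := by exact_mod_cast hN
  have h1 : S.pairEx K (Rov spin) = 1 / N * S.Ex (fun z _ => ∑ i, S.mg spin K i z ^ 2) := by
    rw [Sy.pairEx, ← Sy.Ex_const_mul]
    congr 1
    funext z _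
    exact (Fld.sum_mg_sq hS (le_of_eq hK.symm) z).symm
  have h2 : ∀ i z, S.mg spin K i z ^ 2 < 1 := by
    intro i z
    have e : S.mg spin K i z = S.av (fun _ x => spin x i) z := hS.T_top (fun _ x => spin x i) z
    rw [e, sq_lt_one_iff_abs_lt_one, abs_lt]
    have hg := S.sum_gb z
    have e1 : ∀ x : Fin N → Bool, S.gb z x * -1 ≤ S.gb z x * spin x i ∧
        S.gb z x * spin x i ≤ S.gb z x * 1 := by
      intro x
      have hp := S.gb_pos z x
      have hs : -1 ≤ spin x i ∧ spin x i ≤ 1 := by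
        unfold spin
        split_ifs <;> norm_num
      exact ⟨mul_le_mul_of_nonneg_left hs.1 hp.le, mul_le_mul_of_nonneg_left hs.2 hp.le⟩
    unfold Sy.av
    constructor
    · have : ∑ x, S.gb z x * -1 < ∑ x, S.gb z x * spin x i := by
        refine Finset.sum_lt_sum (fun x _ => (e1 x).1) ⟨fun _ => true, Finset.mem_univ _, ?_⟩
        refine mul_lt_mul_of_pos_left ?_ (S.gb_pos z _)
        simp only [spin, ↓reduceIte, neg_lt_self_iff, zero_lt_one]
      rw [← Finset.sum_mul, hg] at this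
      linarith only [this]
    · have : ∑ x, S.gb z x * spin x i < ∑ x, S.gb z x * 1 := by
        refine Finset.sum_lt_sum (fun x _ => (e1 x).2) ⟨fun _ => false, Finset.mem_univ _, ?_⟩
        refine mul_lt_mul_of_pos_left ?_ (S.gb_pos z _)
        simp only [spin, Bool.false_eq_true, ↓reduceIte, neg_lt_self_iff, zero_lt_one]
      rw [← Finset.sum_mul, hg] at this
      linarith only [this]
  have h3 : ∀ z, ∑ i, S.mg spin K i z ^ 2 < N := by
    intro z
    have : ∑ i, S.mg spin K i z ^ 2 < ∑ _i : Fin N, (1 : ℝ) := by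
      have : Nonempty (Fin N) := ⟨⟨0, hN⟩⟩
      exact Finset.sum_lt_sum_of_nonempty Finset.univ_nonempty fun i _ => h2 i z
    simpa only [gt_iff_lt, Finset.sum_const, Finset.card_univ, Fintype.card_fin, nsmul_eq_mul, mul_one] using this
  have h4 : 0 < S.Ex (fun z _ => (N : ℝ) - ∑ i, S.mg spin K i z ^ 2) := by
    have hnh : Nh (X := Fin N → Bool) fun z _ => (N : ℝ) - ∑ i, S.mg spin K i z ^ 2 :=
      Sy.Nh.fst ((P157.Lv.EG.const _).sub (P157.Lv.EG.sum _ fun i _ =>
        (Fld.eg_mg hS (le_of_eq hK.symm) i).pow 2))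
    unfold Sy.Ex
    rw [integral_pos_iff_support_of_nonneg]
    · have : Function.support (fun z => S.dn 0 z *
          S.av (fun z _ => (N : ℝ) - ∑ i, S.mg spin K i z ^ 2) z) = Set.univ := by
        refine Set.eq_univ_of_forall fun z => ?_
        rw [Function.mem_support, Sy.av_fst]
        exact (mul_pos (S.dn_pos 0 z) (by linarith only [h3 z])).ne'
      rw [this]
      simp
    · intro z
      simp only [Pi.zero_apply]
      rw [Sy.av_fst]
      exact (mul_pos (S.dn_pos 0 z) (by linarith only [h3 z])).le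
    · exact Sy.lc_int hS hnh
  have h5 : S.Ex (fun z _ => (N : ℝ) - ∑ i, S.mg spin K i z ^ 2) =
      N - S.Ex (fun z _ => ∑ i, S.mg spin K i z ^ 2) := by
    rw [hS.Ex_sub (Sy.Nh.fst (P157.Lv.EG.const _)) (Sy.Nh.fst (P157.Lv.EG.sum _ fun i _ =>
        (Fld.eg_mg hS (le_of_eq hK.symm) i).pow 2)), hS.Ex_const]
  rw [h1, one_div, inv_mul_lt_iff₀ hN', mul_one]
  linarith only [h4, h5]

/-- The symmetry of the energy. -/
lemma m2_ph_not (x : Fin N → Bool) : ph U (fun i => !x i) = -ph U x := by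
  unfold ph
  rw [← mulVec_neg]
  congr 1
  funext i
  simp only [spin, Pi.neg_apply]
  rcases Bool.eq_false_or_eq_true (x i) with h | h <;> simp [h]

lemma m2_en_neg (z : Ix N K → ℝ) (x : Fin N → Bool) :
    Md.en c P U (-z) (fun i => !x i) = Md.en c P U z x := by
  have hs : ∀ i, spin (fun i => !x i) i = -spin x i := by
    intro i
    simp only [spin]
    rcases Bool.eq_false_or_eq_true (x i) with h | h <;> simp [h]
  unfold Md.en
  rw [m2_ph_not]
  simp only [hs, Pi.neg_apply, neg_mul_neg, neg_sq]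

lemma m2_en_zero (hs : P.s 0 = 0) (hu : ∀ k, P.u k 0 = 0) (x : Fin N → Bool)
    (z z' : Ix N K → ℝ) (h : ∀ e : Ix N K, lvl e ≠ 0 → z e = z' e) :
    Md.en c P U z x = Md.en c P U z' x := by
  unfold Md.en
  congr 1
  · congr 1
    refine Finset.sum_congr rfl fun l hl => ?_
    rcases Nat.eq_zero_or_pos l with rfl | hl0
    · rw [hs, zero_mul, zero_mul]
    · congr 1
      refine Finset.sum_congr rfl fun i _ => ?_
      rw [h (sco l i)]
      simp only [Md.lvl, sco, Fin.ofNat, ne_eq]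
      rw [Nat.mod_eq_of_lt (Finset.mem_range.1 hl)]
      omega
  · refine Finset.sum_congr rfl fun l hl => Finset.sum_congr rfl fun i _ => ?_
    rcases Nat.eq_zero_or_pos l with rfl | hl0
    · rw [hu, zero_mul, zero_mul]
    · rw [h (bco l i)]
      simp only [Md.lvl, bco, Fin.ofNat, ne_eq]
      rw [Nat.mod_eq_of_lt (Finset.mem_range.1 hl)]
      omega

lemma m2_pair_zero (hm : Exponents K m) (hN : 0 < N) (hU : U ∈ orthogonalGroup (Fin N) ℝ)
    (hs : P.s 0 = 0) (hu : ∀ k, P.u k 0 = 0) (k : Fin κ) :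
    (mdl K m c P U).pairEx 0 (Rb c U k) = 0 := by
  have e : Rb c U k = Rk (ph U) (blk c k) := by
    funext x x'
    exact Rb_eq k x x'
  rw [e, (mdl_bfld (K := K) (m := m) (P := P) hm hN hU k).pairEx_Rk (Nat.zero_le _)]
  have h0 : ∀ i z, (mdl K m c P U).mg (ph U) 0 i z = 0 := by
    intro i z
    refine m2_T_odd (S := mdl K m c P U) (τ := fun x i => !x i) ?_ (m2_en_neg (c := c) (P := P))
      (fun x z z' h => m2_en_zero hs hu x z z' h) (g := fun x => ph U x i) ?_ z
    · refine Function.Involutive.bijective fun x => ?_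
      funext i
      simp
    · intro x
      rw [m2_ph_not]
      rfl
  simp only [h0]
  simp only [ne_eq, OfNat.ofNat_ne_zero, not_false_eq_true, zero_pow, Finset.sum_const_zero]
  rw [((mdl_regD hm).toReg : (mdl K m c P U).Reg).Ex_const 0, mul_zero]

section average

variable [MeasurableSpace (orthogonalGroup (Fin N) ℝ)] [BorelSpace (orthogonalGroup (Fin N) ℝ)]
  {ν : Measure (orthogonalGroup (Fin N) ℝ)} [IsProbabilityMeasure ν]

lemma m2_int_pair (hm : Exponents K m) (hN : 0 < N) (k : Fin κ) {l : ℕ} (hl : l ≤ K) :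
    Integrable (fun U : orthogonalGroup (Fin N) ℝ =>
      (mdl K m c P U.1).pairEx l (Rb c U.1 k)) ν := by
  refine integrable_of_bdd ?_ (C := 1) fun U => m2_pair_abs hm hN U.2 k hl
  exact meas_pairEx (S := (⟨lvl, K, m, fun _ _ => 0⟩ : Sy (Ix N K) (Fin N → Bool)))
    (H := fun U : orthogonalGroup (Fin N) ℝ => Md.en c P U.1) (fun x => meas_en x)
    (ψ := fun U x x' => Rb c U.1 k x x') (fun x x' => meas_Rb k x x') l

lemma m2_int_self (hm : Exponents K m) (hN : 0 < N) (k : Fin κ) :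
    Integrable (fun U : orthogonalGroup (Fin N) ℝ =>
      (mdl K m c P U.1).Ex (fun _ x => Rb c U.1 k x x)) ν := by
  refine integrable_of_bdd ?_ (C := 1) fun U => ?_
  · exact meas_Ex (S := (⟨lvl, K, m, fun _ _ => 0⟩ : Sy (Ix N K) (Fin N → Bool)))
      (H := fun U : orthogonalGroup (Fin N) ℝ => Md.en c P U.1) (fun x => meas_en x)
      (h := fun U _ x => Rb c U.1 k x x) (fun x => (meas_Rb k x x).comp measurable_fst)
  · rw [abs_of_nonneg (m2_self_nonneg hm hN U.2 k)]
    exact m2_self_le hm hN U.2 k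

/-- The mean field of the level `l`, for the site fields. -/
noncomputable def hzU (ν : Measure (orthogonalGroup (Fin N) ℝ)) (K : ℕ) (m : ℕ → ℝ)
    (c : Fin N → Fin κ) (P : Pm κ) (l : ℕ) : ℝ :=
  EU ν fun U => (mdl K m c P U).Ex (hz spin sco l)

/-- The mean field of the level `l`, for the block `k`. -/
noncomputable def hbU (ν : Measure (orthogonalGroup (Fin N) ℝ)) (K : ℕ) (m : ℕ → ℝ)
    (c : Fin N → Fin κ) (P : Pm κ) (k : Fin κ) (l : ℕ) : ℝ :=
  EU ν fun U => (mdl K m c P U).Ex (hb c U k l)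

/-- The mean overlap at the level `l`. -/
noncomputable def Ql (ν : Measure (orthogonalGroup (Fin N) ℝ)) (K : ℕ) (m : ℕ → ℝ)
    (c : Fin N → Fin κ) (P : Pm κ) (l : ℕ) : ℝ := ∑ k, Rkl ν K m c P k l

theorem hzU_eq (hm : Exponents K m) (hN : 0 < N) (hs : ∀ l ≤ K, 0 ≤ P.s l) {l : ℕ} (hl : l ≤ K) :
    hzU ν K m c P l = P.s l *
      (1 - ∑ i ∈ Finset.Ico l (K + 1), (m (i + 1) - m i) * Ql ν K m c P i) := by
  unfold hzU EU
  have e : ∀ U : orthogonalGroup (Fin N) ℝ, (mdl K m c P U.1).Ex (hz spin sco l) = P.s l *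
      (1 - ∑ i ∈ Finset.Ico l (K + 1), (m (i + 1) - m i) *
        ∑ k, (mdl K m c P U.1).pairEx i (Rb c U.1 k)) := by
    intro U
    have F : Fld (mdl K m c P U.1) (enD c P U.1) spin sco P.s := mdl_fld hm hN hs
    have hl' : l ≤ (mdl K m c P U.1).K := hl
    rw [F.Ex_hz hl']
    congr 2
    refine Finset.sum_congr rfl fun i hi => ?_
    have hi' : i ≤ K := by
      have := (Finset.mem_Ico.mp hi).2
      have hK : (mdl K m c P U.1).K = K := rfl
      omega
    rw [F.Rl_eq_pairEx hi', m2_sum_pair hm U.2 hi']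
    rfl
  simp only [e]
  have hi : ∀ i ∈ Finset.Ico l (K + 1), Integrable (fun U : orthogonalGroup (Fin N) ℝ =>
      (m (i + 1) - m i) * ∑ k, (mdl K m c P U.1).pairEx i (Rb c U.1 k)) ν := fun i hi =>
    (integrable_finsetSum _ fun k _ => m2_int_pair hm hN k
      (by have := (Finset.mem_Ico.mp hi).2; omega)).const_mul _
  rw [integral_const_mul, integral_sub (integrable_const _) (integrable_finsetSum _ hi),
    integral_const, integral_finsetSum _ hi]
  simp only [probReal_univ, smul_eq_mul, mul_one]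
  congr 2
  refine Finset.sum_congr rfl fun i hi => ?_
  rw [integral_const_mul, integral_finsetSum _ fun k _ => m2_int_pair hm hN k
      (by have := (Finset.mem_Ico.mp hi).2; omega)]
  rfl

theorem hbU_eq (hm : Exponents K m) (hN : 0 < N) (k : Fin κ) {l : ℕ} (hl : l ≤ K) :
    hbU ν K m c P k l = P.u k l * (rho ν K m c P k -
      ∑ i ∈ Finset.Ico l (K + 1), (m (i + 1) - m i) * Rkl ν K m c P k i) := by
  unfold hbU EU
  have e : ∀ U : orthogonalGroup (Fin N) ℝ, (mdl K m c P U.1).Ex (hb c U.1 k l) = P.u k l *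
      ((mdl K m c P U.1).Ex (fun _ x => Rb c U.1 k x x) -
        ∑ i ∈ Finset.Ico l (K + 1), (m (i + 1) - m i) *
          (mdl K m c P U.1).pairEx i (Rb c U.1 k)) := by
    intro U
    have F := mdl_bfld (K := K) (m := m) (P := P) (c := c) hm hN U.2 k
    have hl' : l ≤ (mdl K m c P U.1).K := hl
    have e1 : (hb c U.1 k l : (Ix N K → ℝ) → (Fin N → Bool) → ℝ) =
        hk (ph U.1) bco (blk c k) l := by
      funext z x
      exact hb_eq k l z x
    have e2 : Rb c U.1 k = Rk (ph U.1) (blk c k) := by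
      funext x x'
      exact Rb_eq k x x'
    rw [e1, e2, F.Ex_hk hl']
    rfl
  simp only [e]
  have hi : ∀ i ∈ Finset.Ico l (K + 1), Integrable (fun U : orthogonalGroup (Fin N) ℝ =>
      (m (i + 1) - m i) * (mdl K m c P U.1).pairEx i (Rb c U.1 k)) ν := fun i hi =>
    (m2_int_pair hm hN k (by have := (Finset.mem_Ico.mp hi).2; omega)).const_mul _
  rw [integral_const_mul, integral_sub (m2_int_self hm hN k) (integrable_finsetSum _ hi),
    integral_finsetSum _ hi]
  congr 2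
  refine Finset.sum_congr rfl fun i hi => ?_
  rw [integral_const_mul]
  rfl

theorem rho_nonneg (hm : Exponents K m) (hN : 0 < N) (k : Fin κ) : 0 ≤ rho ν K m c P k :=
  integral_nonneg fun U => m2_self_nonneg hm hN U.2 k

theorem sum_rho (hm : Exponents K m) (hN : 0 < N) : ∑ k, rho ν K m c P k = 1 := by
  unfold rho EU
  rw [← integral_finsetSum _ fun k _ => m2_int_self hm hN k]
  have e : ∀ U : orthogonalGroup (Fin N) ℝ,
      ∑ k, (mdl K m c P U.1).Ex (fun _ x => Rb c U.1 k x x) = 1 := fun U => m2_sum_self hm hN U.2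
  simp only [e]
  simp

theorem Rkl_nonneg (hm : Exponents K m) (hN : 0 < N) (k : Fin κ) {l : ℕ} (hl : l ≤ K) :
    0 ≤ Rkl ν K m c P k l := by
  refine integral_nonneg fun U => ?_
  have e2 : Rb c U.1 k = Rk (ph U.1) (blk c k) := by
    funext x x'
    exact Rb_eq k x x'
  have hl' : l ≤ (mdl K m c P U.1).K := hl
  simp only [Pi.zero_apply]
  rw [e2]
  exact (mdl_bfld (K := K) (m := m) (P := P) (c := c) hm hN U.2 k).pairEx_Rk_nonneg hl'

theorem Rkl_mono (hm : Exponents K m) (hN : 0 < N) (k : Fin κ) {l : ℕ} (hl : l < K) :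
    Rkl ν K m c P k l ≤ Rkl ν K m c P k (l + 1) := by
  refine integral_mono (m2_int_pair hm hN k hl.le) (m2_int_pair hm hN k hl) fun U => ?_
  have e2 : Rb c U.1 k = Rk (ph U.1) (blk c k) := by
    funext x x'
    exact Rb_eq k x x'
  have hl' : l < (mdl K m c P U.1).K := hl
  simp only
  rw [e2]
  exact (mdl_bfld (K := K) (m := m) (P := P) (c := c) hm hN U.2 k).pairEx_Rk_mono hl'

theorem Rkl_le (hm : Exponents K m) (hN : 0 < N) (k : Fin κ) {l : ℕ} (hl : l ≤ K) :
    Rkl ν K m c P k l ≤ rho ν K m c P k := by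
  refine integral_mono (m2_int_pair hm hN k hl) (m2_int_self hm hN k) fun U => ?_
  have e2 : Rb c U.1 k = Rk (ph U.1) (blk c k) := by
    funext x x'
    exact Rb_eq k x x'
  have hl' : l ≤ (mdl K m c P U.1).K := hl
  simp only
  rw [e2]
  exact (mdl_bfld (K := K) (m := m) (P := P) (c := c) hm hN U.2 k).pairEx_Rk_le hl'

/-- The total overlap of the last level is less than one (the Gibbs weights are positive). -/
theorem Ql_lt_one (hm : Exponents K m) (hN : 0 < N) : Ql ν K m c P K < 1 := by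
  unfold Ql Rkl EU
  rw [← integral_finsetSum _ fun k _ => m2_int_pair hm hN k le_rfl]
  have e : ∀ U : orthogonalGroup (Fin N) ℝ,
      ∑ k, (mdl K m c P U.1).pairEx K (Rb c U.1 k) = (mdl K m c P U.1).pairEx K (Rov spin) :=
    fun U => (m2_sum_pair hm U.2 le_rfl).symm
  have hint : Integrable (fun U : orthogonalGroup (Fin N) ℝ =>
      (mdl K m c P U.1).pairEx K (Rov spin)) ν := by
    refine (integrable_finsetSum Finset.univ fun k _ =>
      m2_int_pair (P := P) (c := c) (ν := ν) hm hN k le_rfl).congr ?_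
    exact Filter.Eventually.of_forall fun U => e U
  simp only [e]
  have hpos : 0 < ∫ U : orthogonalGroup (Fin N) ℝ,
      (1 - (mdl K m c P U.1).pairEx K (Rov spin)) ∂ν := by
    rw [integral_pos_iff_support_of_nonneg]
    · have : Function.support (fun U : orthogonalGroup (Fin N) ℝ =>
          1 - (mdl K m c P U.1).pairEx K (Rov spin)) = Set.univ := by
        refine Set.eq_univ_of_forall fun U => ?_
        rw [Function.mem_support]
        exact (sub_pos.2 (m2_pair_lt hm hN)).ne'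
      rw [this]
      simp only [measure_univ, zero_lt_one]
    · intro U
      exact (sub_pos.2 (m2_pair_lt hm hN)).le
    · exact (integrable_const _).sub hint
  rw [integral_sub (integrable_const _) hint, integral_const] at hpos
  simp only [probReal_univ, smul_eq_mul, mul_one] at hpos
  linarith only [hpos]

/-- Without fields at the level zero the overlaps of the level zero vanish (symmetry
`(z, x) ↦ (-z, -x)`). -/
theorem Rkl_zero (hm : Exponents K m) (hN : 0 < N) (hs : P.s 0 = 0) (hu : ∀ k, P.u k 0 = 0)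
    (k : Fin κ) : Rkl ν K m c P k 0 = 0 := by
  unfold Rkl EU
  have e : ∀ U : orthogonalGroup (Fin N) ℝ, (mdl K m c P U.1).pairEx 0 (Rb c U.1 k) = 0 :=
    fun U => m2_pair_zero hm hN U.2 hs hu k
  simp only [e]
  simp

end average

end Vale.Agent.P166.U
end
end

section

section

/-!
The enriched model: tangent inequality and special values.
-/

open MeasureTheory ProbabilityTheory Matrix Filter Topology

namespace Vale.Agent.P166.U

set_option linter.unusedSectionVars false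

open Vale.Agent.P157 (spin)
open Vale.Agent.P157.Lv Vale.Agent.P157.Lv.Sy Vale.Agent.P157.Par Md

variable {N K κ : ℕ} {m : ℕ → ℝ} {c : Fin N → Fin κ} {P P' : Pm κ}
  {U : Matrix (Fin N) (Fin N) ℝ}

/-- The weights of the levels have sum at most one. -/
lemma m3_sum_p {ι X : Type} [Fintype ι] [Fintype X] {S : Sy ι X} (hS : S.Reg) {l : ℕ}
    (hl : l ≤ S.K) : ∑ i ∈ Finset.Ico l (S.K + 1), S.p i = 1 - S.m l := by
  have h1 : ∀ n, l ≤ n → ∑ i ∈ Finset.Ico l n, S.p i = S.m n - S.m l := by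
    intro n hn
    induction n, hn using Nat.le_induction with
    | base => simp
    | succ n hn ih =>
      rw [Finset.sum_Ico_succ_top hn, ih, Sy.p]
      ring
  rw [h1 _ (by omega), hS.mK]

lemma m3_m_nonneg {ι X : Type} [Fintype ι] [Fintype X] {S : Sy ι X} (hS : S.Reg) :
    ∀ l ≤ S.K, 0 ≤ S.m l := by
  intro l
  induction l with
  | zero => intro _; rw [hS.m0]
  | succ l ih => intro hl; exact (ih (by omega)).trans (hS.mono l (by omega))

/-- Averages of numbers between `0` and `ρ`. -/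
lemma m3_sub_bounds {ι X : Type} [Fintype ι] [Fintype X] {S : Sy ι X} (hS : S.Reg) {l : ℕ}
    (hl : l ≤ S.K) {q : ℕ → ℝ} {ρ : ℝ} (h0 : ∀ i ≤ S.K, 0 ≤ q i) (h1 : ∀ i ≤ S.K, q i ≤ ρ) :
    0 ≤ ρ - ∑ i ∈ Finset.Ico l (S.K + 1), S.p i * q i ∧
      ρ - ∑ i ∈ Finset.Ico l (S.K + 1), S.p i * q i ≤ ρ := by
  have hp : ∀ i ∈ Finset.Ico l (S.K + 1), 0 ≤ S.p i := by
    intro i hi
    rw [Finset.mem_Ico] at hi
    rw [Sy.p]
    linarith only [hS.mono i (by omega)]
  have hρ : 0 ≤ ρ := (h0 l hl).trans (h1 l hl)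
  have h2 : 0 ≤ ∑ i ∈ Finset.Ico l (S.K + 1), S.p i * q i := Finset.sum_nonneg fun i hi =>
    mul_nonneg (hp i hi) (h0 i (by rw [Finset.mem_Ico] at hi; omega))
  have h3 : ∑ i ∈ Finset.Ico l (S.K + 1), S.p i * q i ≤ ρ := by
    calc ∑ i ∈ Finset.Ico l (S.K + 1), S.p i * q i ≤ ∑ i ∈ Finset.Ico l (S.K + 1), S.p i * ρ :=
          Finset.sum_le_sum fun i hi => mul_le_mul_of_nonneg_left
            (h1 i (by rw [Finset.mem_Ico] at hi; omega)) (hp i hi)
      _ = (1 - S.m l) * ρ := by rw [← Finset.sum_mul, m3_sum_p hS hl]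
      _ ≤ 1 * ρ := mul_le_mul_of_nonneg_right (by linarith only [m3_m_nonneg hS l hl]) hρ
      _ = ρ := one_mul ρ
  exact ⟨by linarith only [h3], by linarith only [h2]⟩

/-- The mean of a block field is bounded. -/
lemma m3_abs_Ex_hk {ι X : Type} [Fintype ι] [DecidableEq ι] [Fintype X] [DecidableEq X]
    [Nonempty X] {S : Sy ι X} {D : ι → (ι → ℝ) → X → ℝ} {φ : X → Fin N → ℝ}
    {zc : ℕ → Fin N → ι} {A : Finset (Fin N)} {u : ℕ → ℝ} (F : BFld S D φ zc A u) {j : ℕ}
    (hj : j ≤ S.K) : |S.Ex (hk φ zc A j)| ≤ |u j| := by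
  have hS := F.reg.toReg
  rw [F.Ex_hk hj, abs_mul]
  have hρ : S.Ex (fun _ x => Rk φ A x x) ≤ 1 := by
    rw [← hS.Ex_const 1]
    exact hS.Ex_mono (Nh.snd fun x => Rk φ A x x) (Nh.snd fun _ => 1)
      fun _ x => (le_abs_self _).trans (F.abs_Rk_le x x)
  have h := m3_sub_bounds hS hj (q := fun i => S.pairEx i (Rk φ A))
    (ρ := S.Ex (fun _ x => Rk φ A x x)) (fun i hi => F.pairEx_Rk_nonneg hi)
    (fun i hi => F.pairEx_Rk_le hi)
  rw [abs_of_nonneg h.1]
  calc |u j| * _ ≤ |u j| * 1 := mul_le_mul_of_nonneg_left (h.2.trans hρ) (abs_nonneg _)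
    _ = |u j| := mul_one _

/-- The site fields are fields of the full block. -/
lemma m3_site (hm : Exponents K m) (hN : 0 < N) (P : Pm κ) (U : Matrix (Fin N) (Fin N) ℝ) :
    BFld (mdl K m c P U) (enD c P U) spin sco Finset.univ P.s where
  reg := mdl_regD hm
  N0 := hN
  norm x := by simp only [spin_sq, Finset.sum_const, Finset.card_univ, Fintype.card_fin, nsmul_eq_mul, mul_one, Std.le_refl]
  lev l hl i _ := by
    have : l < K + 1 := Nat.lt_succ_of_le hl
    change ((Fin.ofNat (K + 1) l : Fin (K + 1)) : ℕ) = l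
    simp [Fin.ofNat, Nat.mod_eq_of_lt this]
  D l hl i _ z x := by
    have : l < K + 1 := Nat.lt_succ_of_le hl
    change (if (true : Bool) then P.s ((Fin.ofNat (K + 1) l : Fin (K + 1)) : ℕ) * spin x i else _) = _
    simp [Fin.ofNat, Nat.mod_eq_of_lt this]

lemma m3_nh_hz (l : ℕ) : Nh (ι := Ix N K) (hz spin sco l) :=
  Nh.const_mul _ (Nh.sum _ fun i _ => Nh.mul (Nh.fst (EG.coord _)) (Nh.snd fun x => spin x i))

lemma m3_nh_hb (k : Fin κ) (l : ℕ) : Nh (hb (K := K) c U k l) := by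
  have e : hb (K := K) c U k l = hk (ph U) bco (blk c k) l := by
    funext z x
    exact hb_eq k l z x
  rw [e]
  exact Nh.const_mul _ (Nh.sum _ fun i _ => Nh.mul (Nh.fst (EG.coord _))
    (Nh.snd fun x => ph U x i))

/-- Sums over the cube. -/
lemma m3_sum_cube (N : ℕ) (f : (Fin N → ℝ) → ℝ) :
    ∑ σ ∈ Fintype.piFinset (fun _ : Fin N => ({-1, 1} : Finset ℝ)), f σ =
      ∑ x : Fin N → Bool, f (spin x) := by
  symm
  refine Finset.sum_bij (fun s _ => spin s) ?_ ?_ ?_ ?_
  · intro s _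
    rw [Fintype.mem_piFinset]
    intro i
    unfold spin
    cases h : s i <;> simp
  · intro s _ s' _ h
    funext i
    have h1 : spin s i = spin s' i := congrFun h i
    unfold spin at h1
    cases h2 : s i <;> cases h3 : s' i
    · rfl
    · rw [h2, h3] at h1
      norm_num at h1
    · rw [h2, h3] at h1
      norm_num at h1
    · rfl
  · intro σ hσ
    rw [Fintype.mem_piFinset] at hσ
    refine ⟨fun i => decide (σ i = 1), Finset.mem_univ _, ?_⟩
    funext i
    have h1 := hσ i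
    simp only [Finset.mem_insert, Finset.mem_singleton] at h1
    change (if decide (σ i = 1) then (1 : ℝ) else -1) = σ i
    rcases h1 with h1 | h1
    · rw [h1]
      norm_num
    · rw [h1]
      simp
  · intro s _
    rfl

section average

variable [MeasurableSpace (orthogonalGroup (Fin N) ℝ)] [BorelSpace (orthogonalGroup (Fin N) ℝ)]
  {ν : Measure (orthogonalGroup (Fin N) ℝ)} [IsProbabilityMeasure ν]

lemma m3_integrable_Ex
    {h : orthogonalGroup (Fin N) ℝ → (Ix N K → ℝ) → (Fin N → Bool) → ℝ}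
    (hh : ∀ x, Measurable fun p : orthogonalGroup (Fin N) ℝ × (Ix N K → ℝ) => h p.1 p.2 x)
    {C : ℝ} (hC : ∀ U : orthogonalGroup (Fin N) ℝ, |(mdl K m c P U.1).Ex (h U)| ≤ C) :
    Integrable (fun U : orthogonalGroup (Fin N) ℝ => (mdl K m c P U.1).Ex (h U)) ν := by
  refine integrable_of_bdd ?_ hC
  have hH : ∀ x, Measurable fun p : orthogonalGroup (Fin N) ℝ × (Ix N K → ℝ) =>
      (fun (U : orthogonalGroup (Fin N) ℝ) => Md.en c P U.1) p.1 p.2 x := fun x => meas_en x
  exact meas_Ex (S := mdl K m c P (0 : Matrix (Fin N) (Fin N) ℝ))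
    (H := fun U : orthogonalGroup (Fin N) ℝ => Md.en c P U.1) hH hh

lemma m3_int_rho (hm : Exponents K m) (hN : 0 < N) (k : Fin κ) :
    Integrable (fun U : orthogonalGroup (Fin N) ℝ =>
      (mdl K m c P U.1).Ex (fun _ x => Rb c U.1 k x x)) ν := by
  refine m3_integrable_Ex (C := 1) (fun x => (meas_Rb k x x).comp measurable_fst) fun U => ?_
  have hS : (mdl K m c P U.1).Reg := (mdl_regD hm).toReg
  have F := mdl_bfld (c := c) (P := P) hm hN U.2 k
  have h1 : ∀ x, |Rb c U.1 k x x| ≤ 1 := fun x => by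
    rw [Rb_eq]
    exact F.abs_Rk_le x x
  refine (hS.abs_Ex_le (Nh.snd fun x => Rb c U.1 k x x)).trans ?_
  rw [← hS.Ex_const 1]
  exact hS.Ex_mono (Nh.abs (Nh.snd fun x => Rb c U.1 k x x)) (Nh.snd fun _ => 1) fun _ x => h1 x

lemma m3_int_hz (hm : Exponents K m) (hN : 0 < N) {l : ℕ} (hl : l ≤ K) :
    Integrable (fun U : orthogonalGroup (Fin N) ℝ => (mdl K m c P U.1).Ex (hz spin sco l)) ν := by
  refine m3_integrable_Ex (h := fun _ => hz spin sco l) (C := |P.s l|) (fun x => ?_) fun U => ?_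
  · exact (m3_nh_hz (K := K) l x).meas.comp measurable_snd
  · exact m3_abs_Ex_hk (m3_site hm hN P U.1) hl

lemma m3_int_hb (hm : Exponents K m) (hN : 0 < N) (k : Fin κ) {l : ℕ} (hl : l ≤ K) :
    Integrable (fun U : orthogonalGroup (Fin N) ℝ => (mdl K m c P U.1).Ex (hb c U.1 k l)) ν := by
  refine m3_integrable_Ex (C := |P.u k l|) (fun x => meas_hb k l x) fun U => ?_
  have e : hb (K := K) c U.1 k l = hk (ph U.1) bco (blk c k) l := by
    funext z x
    exact hb_eq k l z x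
  rw [e]
  exact m3_abs_Ex_hk (mdl_bfld hm hN U.2 k) hl

/-- **The tangent inequality.** -/
theorem Fe_tangent (hm : Exponents K m) (hN : 0 < N) (P P' : Pm κ) :
    ∑ k, (P'.b k - P.b k) / 2 * rho ν K m c P k +
      ∑ l ∈ Finset.range (K + 1), (P'.s l - P.s l) * hzU ν K m c P l +
      ∑ k, ∑ l ∈ Finset.range (K + 1), (P'.u k l - P.u k l) * hbU ν K m c P k l ≤
        Fe ν K m c P' - Fe ν K m c P := by
  have hN0 : (0 : ℝ) < N := by exact_mod_cast hN
  have hlK : ∀ l ∈ Finset.range (K + 1), l ≤ K := fun l hl => by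
    rw [Finset.mem_range] at hl; omega
  have key : ∀ U : orthogonalGroup (Fin N) ℝ,
      N * (∑ k, (P'.b k - P.b k) / 2 * (mdl K m c P U.1).Ex (fun _ x => Rb c U.1 k x x) +
        ∑ l ∈ Finset.range (K + 1), (P'.s l - P.s l) * (mdl K m c P U.1).Ex (hz spin sco l) +
        ∑ k, ∑ l ∈ Finset.range (K + 1), (P'.u k l - P.u k l) *
          (mdl K m c P U.1).Ex (hb c U.1 k l)) ≤
        (mdl K m c P' U.1).fe - (mdl K m c P U.1).fe := by
    intro U
    have hS : (mdl K m c P U.1).Reg := (mdl_regD hm).toReg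
    have hS' : ((mdl K m c P U.1).wH (Md.en c P' U.1)).Reg := (mdl_regD (P := P') hm).toReg
    have h1 := hS.jensen hS'
    refine le_trans (le_of_eq ?_) h1
    have n1 : ∀ k ∈ (Finset.univ : Finset (Fin κ)), Nh (ι := Ix N K) (fun _ x =>
        (P'.b k - P.b k) / 2 * Rb c U.1 k x x) := fun k _ =>
      Nh.const_mul _ (Nh.snd fun x => Rb c U.1 k x x)
    have n2 : ∀ l ∈ Finset.range (K + 1), Nh (ι := Ix N K) (fun z x =>
        (P'.s l - P.s l) * hz spin sco l z x) := fun l _ => Nh.const_mul _ (m3_nh_hz l)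
    have n3 : ∀ k ∈ (Finset.univ : Finset (Fin κ)), ∀ l ∈ Finset.range (K + 1),
        Nh (ι := Ix N K) (fun z x => (P'.u k l - P.u k l) * hb c U.1 k l z x) := fun k _ l _ =>
      Nh.const_mul _ (m3_nh_hb k l)
    have e : (fun z x => Md.en c P' U.1 z x - (mdl K m c P U.1).H z x) =
        fun (z : Ix N K → ℝ) x => N * (((∑ k, (P'.b k - P.b k) / 2 * Rb c U.1 k x x) +
          ∑ l ∈ Finset.range (K + 1), (P'.s l - P.s l) * hz spin sco l z x) +
          ∑ k, ∑ l ∈ Finset.range (K + 1), (P'.u k l - P.u k l) * hb c U.1 k l z x) := by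
      funext z x
      exact en_sub z x hN
    rw [e, Sy.Ex_const_mul, hS.Ex_add (Nh.add (Nh.sum _ n1) (Nh.sum _ n2))
      (Nh.sum _ fun k hk => Nh.sum _ fun l hl => n3 k hk l hl),
      hS.Ex_add (Nh.sum _ n1) (Nh.sum _ n2), hS.Ex_sum _ n1, hS.Ex_sum _ n2,
      hS.Ex_sum _ fun k hk => Nh.sum _ fun l hl => n3 k hk l hl]
    refine congrArg (fun y : ℝ => (N : ℝ) * y) (congrArg₂ (· + ·) (congrArg₂ (· + ·) ?_ ?_) ?_)
    · refine Finset.sum_congr rfl fun k _ => ?_
      rw [Sy.Ex_const_mul]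
    · refine Finset.sum_congr rfl fun l _ => ?_
      rw [Sy.Ex_const_mul]
    · refine Finset.sum_congr rfl fun k hk => ?_
      rw [hS.Ex_sum _ fun l hl => n3 k hk l hl]
      refine Finset.sum_congr rfl fun l _ => ?_
      rw [Sy.Ex_const_mul]
  have i1 : ∀ k ∈ (Finset.univ : Finset (Fin κ)), Integrable (fun U : orthogonalGroup (Fin N) ℝ =>
      (P'.b k - P.b k) / 2 * (mdl K m c P U.1).Ex (fun _ x => Rb c U.1 k x x)) ν := fun k _ =>
    (m3_int_rho hm hN k).const_mul _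
  have i2 : ∀ l ∈ Finset.range (K + 1), Integrable (fun U : orthogonalGroup (Fin N) ℝ =>
      (P'.s l - P.s l) * (mdl K m c P U.1).Ex (hz spin sco l)) ν := fun l hl =>
    (m3_int_hz hm hN (hlK l hl)).const_mul _
  have i3 : ∀ k ∈ (Finset.univ : Finset (Fin κ)), ∀ l ∈ Finset.range (K + 1),
      Integrable (fun U : orthogonalGroup (Fin N) ℝ =>
        (P'.u k l - P.u k l) * (mdl K m c P U.1).Ex (hb c U.1 k l)) ν := fun k _ l hl =>
    (m3_int_hb hm hN k (hlK l hl)).const_mul _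
  have i3' : Integrable (fun U : orthogonalGroup (Fin N) ℝ =>
      ∑ k, ∑ l ∈ Finset.range (K + 1), (P'.u k l - P.u k l) *
        (mdl K m c P U.1).Ex (hb c U.1 k l)) ν :=
    integrable_finsetSum _ fun k hk => integrable_finsetSum _ fun l hl => i3 k hk l hl
  have i1' : Integrable (fun U : orthogonalGroup (Fin N) ℝ =>
      ∑ k, (P'.b k - P.b k) / 2 * (mdl K m c P U.1).Ex (fun _ x => Rb c U.1 k x x)) ν :=
    integrable_finsetSum _ i1
  have i2' : Integrable (fun U : orthogonalGroup (Fin N) ℝ =>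
      ∑ l ∈ Finset.range (K + 1), (P'.s l - P.s l) *
        (mdl K m c P U.1).Ex (hz spin sco l)) ν := integrable_finsetSum _ i2
  have f1 := integrable_fe (ν := ν) (c := c) (P := P) hm hN
  have f2 := integrable_fe (ν := ν) (c := c) (P := P') hm hN
  have h2 := integral_mono (μ := ν) (((i1'.add i2').add i3').const_mul (N : ℝ)) (f2.sub f1) key
  rw [integral_const_mul] at h2
  have e1 : ∫ U : orthogonalGroup (Fin N) ℝ,
      (((fun U : orthogonalGroup (Fin N) ℝ => ∑ k, (P'.b k - P.b k) / 2 *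
        (mdl K m c P U.1).Ex (fun _ x => Rb c U.1 k x x)) +
      (fun U : orthogonalGroup (Fin N) ℝ => ∑ l ∈ Finset.range (K + 1), (P'.s l - P.s l) *
        (mdl K m c P U.1).Ex (hz spin sco l))) +
      (fun U : orthogonalGroup (Fin N) ℝ => ∑ k, ∑ l ∈ Finset.range (K + 1),
        (P'.u k l - P.u k l) * (mdl K m c P U.1).Ex (hb c U.1 k l))) U ∂ν =
      ∑ k, (P'.b k - P.b k) / 2 * rho ν K m c P k +
      ∑ l ∈ Finset.range (K + 1), (P'.s l - P.s l) * hzU ν K m c P l +
      ∑ k, ∑ l ∈ Finset.range (K + 1), (P'.u k l - P.u k l) * hbU ν K m c P k l := by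
    rw [integral_add' (i1'.add i2') i3', integral_add' i1' i2', integral_finsetSum _ i1,
      integral_finsetSum _ i2,
      integral_finsetSum _ fun k hk => integrable_finsetSum _ fun l hl => i3 k hk l hl]
    refine congrArg₂ (· + ·) (congrArg₂ (· + ·) ?_ ?_) ?_
    · refine Finset.sum_congr rfl fun k _ => ?_
      rw [integral_const_mul]
      rfl
    · refine Finset.sum_congr rfl fun l _ => ?_
      rw [integral_const_mul]
      rfl
    · refine Finset.sum_congr rfl fun k hk => ?_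
      rw [integral_finsetSum _ fun l hl => i3 k hk l hl]
      refine Finset.sum_congr rfl fun l _ => ?_
      rw [integral_const_mul]
      rfl
  rw [e1] at h2
  have e2 : ∫ U : orthogonalGroup (Fin N) ℝ, ((fun U : orthogonalGroup (Fin N) ℝ =>
      (mdl K m c P' U.1).fe) - fun U : orthogonalGroup (Fin N) ℝ => (mdl K m c P U.1).fe) U ∂ν =
      N * (Fe ν K m c P' - Fe ν K m c P) := by
    rw [integral_sub' f2 f1]
    unfold Md.Fe EU
    field_simp
    ring
  rw [e2] at h2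
  exact le_of_mul_le_mul_left h2 hN0

lemma m3_Ql_bounds (hm : Exponents K m) (hN : 0 < N) {l : ℕ} (hl : l ≤ K) :
    0 ≤ Ql ν K m c P l ∧ Ql ν K m c P l ≤ 1 := by
  unfold Ql
  constructor
  · exact Finset.sum_nonneg fun k _ => Rkl_nonneg hm hN k hl
  · rw [← sum_rho (ν := ν) (c := c) (P := P) hm hN]
    exact Finset.sum_le_sum fun k _ => Rkl_le hm hN k hl

lemma m3_rho_le_one (hm : Exponents K m) (hN : 0 < N) (k : Fin κ) : rho ν K m c P k ≤ 1 := by
  rw [← sum_rho (ν := ν) (c := c) (P := P) hm hN]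
  exact Finset.single_le_sum (f := fun k => rho ν K m c P k)
    (fun k _ => rho_nonneg hm hN k) (Finset.mem_univ k)

lemma m3_hzU_bounds (hm : Exponents K m) (hN : 0 < N) (hs : ∀ l ≤ K, 0 ≤ P.s l) {l : ℕ}
    (hl : l ≤ K) : 0 ≤ hzU ν K m c P l ∧ hzU ν K m c P l ≤ P.s l := by
  rw [hzU_eq hm hN hs hl]
  have hS : (mdl K m c P 1).Reg := (mdl_regD hm).toReg
  have h := m3_sub_bounds hS (l := l) hl (q := fun i => Ql ν K m c P i) (ρ := 1)
    (fun i hi => (m3_Ql_bounds hm hN hi).1) (fun i hi => (m3_Ql_bounds hm hN hi).2)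
  have h1 : 0 ≤ 1 - ∑ i ∈ Finset.Ico l (K + 1), (m (i + 1) - m i) * Ql ν K m c P i := h.1
  have h2 : 1 - ∑ i ∈ Finset.Ico l (K + 1), (m (i + 1) - m i) * Ql ν K m c P i ≤ 1 := h.2
  exact ⟨mul_nonneg (hs l hl) h1, mul_le_of_le_one_right (hs l hl) h2⟩

lemma m3_hbU_bound (hm : Exponents K m) (hN : 0 < N) (k : Fin κ) {l : ℕ} (hl : l ≤ K) :
    |hbU ν K m c P k l| ≤ |P.u k l| := by
  rw [hbU_eq hm hN k hl, abs_mul]
  have hS : (mdl K m c P 1).Reg := (mdl_regD hm).toReg
  have h := m3_sub_bounds hS (l := l) hl (q := fun i => Rkl ν K m c P k i)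
    (ρ := rho ν K m c P k) (fun i hi => Rkl_nonneg hm hN k hi) (fun i hi => Rkl_le hm hN k hi)
  have h1 : 0 ≤ rho ν K m c P k - ∑ i ∈ Finset.Ico l (K + 1), (m (i + 1) - m i) *
    Rkl ν K m c P k i := h.1
  have h2 : rho ν K m c P k - ∑ i ∈ Finset.Ico l (K + 1), (m (i + 1) - m i) *
    Rkl ν K m c P k i ≤ 1 := h.2.trans (m3_rho_le_one hm hN k)
  rw [abs_of_nonneg h1]
  exact mul_le_of_le_one_right (abs_nonneg _) h2

/-- One half of the Lipschitz bound. -/
lemma m3_lip_half (hm : Exponents K m) (hN : 0 < N) (P P' : Pm κ) (hs : ∀ l ≤ K, 0 ≤ P.s l) :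
    -(∑ k, |P'.b k - P.b k| + ∑ l ∈ Finset.range (K + 1), |P'.s l - P.s l| * P.s l +
      ∑ k, ∑ l ∈ Finset.range (K + 1), |P'.u k l - P.u k l| * |P.u k l|) ≤
      Fe ν K m c P' - Fe ν K m c P := by
  have hlK : ∀ l ∈ Finset.range (K + 1), l ≤ K := fun l hl => by
    rw [Finset.mem_range] at hl; omega
  refine le_trans ?_ (Fe_tangent hm hN P P')
  rw [neg_add, neg_add, ← Finset.sum_neg_distrib, ← Finset.sum_neg_distrib,
    ← Finset.sum_neg_distrib]
  refine add_le_add (add_le_add ?_ ?_) ?_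
  · refine Finset.sum_le_sum fun k _ => ?_
    have h0 := rho_nonneg (ν := ν) (c := c) (P := P) hm hN k
    have h1 := m3_rho_le_one (ν := ν) (c := c) (P := P) hm hN k
    have h2 : |(P'.b k - P.b k) / 2 * rho ν K m c P k| ≤ |P'.b k - P.b k| := by
      rw [abs_mul, abs_div, abs_of_nonneg h0, abs_of_pos (by norm_num : (0 : ℝ) < 2)]
      nlinarith only [h1, abs_nonneg (P'.b k - P.b k)]
    exact (abs_le.1 h2).1
  · refine Finset.sum_le_sum fun l hl => ?_
    obtain ⟨h0, h1⟩ := m3_hzU_bounds (ν := ν) (c := c) (P := P) hm hN hs (hlK l hl)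
    have h2 : |(P'.s l - P.s l) * hzU ν K m c P l| ≤ |P'.s l - P.s l| * P.s l := by
      rw [abs_mul, abs_of_nonneg h0]
      exact mul_le_mul_of_nonneg_left h1 (abs_nonneg _)
    exact (abs_le.1 h2).1
  · refine Finset.sum_le_sum fun k _ => ?_
    rw [← Finset.sum_neg_distrib]
    refine Finset.sum_le_sum fun l hl => ?_
    have h1 := m3_hbU_bound (ν := ν) (c := c) (P := P) hm hN k (hlK l hl)
    have h2 : |(P'.u k l - P.u k l) * hbU ν K m c P k l| ≤ |P'.u k l - P.u k l| * |P.u k l| := by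
      rw [abs_mul]
      exact mul_le_mul_of_nonneg_left h1 (abs_nonneg _)
    exact (abs_le.1 h2).1

/-- Continuity of the mean free energy. -/
theorem Fe_lip (hm : Exponents K m) (hN : 0 < N) (P P' : Pm κ)
    (hs : ∀ l ≤ K, 0 ≤ P.s l) (hs' : ∀ l ≤ K, 0 ≤ P'.s l) :
    |Fe ν K m c P' - Fe ν K m c P| ≤ ∑ k, |P'.b k - P.b k| +
      ∑ l ∈ Finset.range (K + 1), |P'.s l - P.s l| * (P.s l + P'.s l) +
      ∑ k, ∑ l ∈ Finset.range (K + 1), |P'.u k l - P.u k l| * (|P.u k l| + |P'.u k l|) := by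
  have hlK : ∀ l ∈ Finset.range (K + 1), l ≤ K := fun l hl => by
    rw [Finset.mem_range] at hl; omega
  have h1 := m3_lip_half (ν := ν) (c := c) hm hN P P' hs
  have h2 := m3_lip_half (ν := ν) (c := c) hm hN P' P hs'
  have e1 : ∑ l ∈ Finset.range (K + 1), |P'.s l - P.s l| * (P.s l + P'.s l) =
      ∑ l ∈ Finset.range (K + 1), |P'.s l - P.s l| * P.s l +
      ∑ l ∈ Finset.range (K + 1), |P.s l - P'.s l| * P'.s l := by
    rw [← Finset.sum_add_distrib]
    refine Finset.sum_congr rfl fun l _ => ?_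
    rw [abs_sub_comm (P.s l), mul_add]
  have e2 : ∑ k, ∑ l ∈ Finset.range (K + 1), |P'.u k l - P.u k l| * (|P.u k l| + |P'.u k l|) =
      ∑ k, ∑ l ∈ Finset.range (K + 1), |P'.u k l - P.u k l| * |P.u k l| +
      ∑ k, ∑ l ∈ Finset.range (K + 1), |P.u k l - P'.u k l| * |P'.u k l| := by
    rw [← Finset.sum_add_distrib]
    refine Finset.sum_congr rfl fun k _ => ?_
    rw [← Finset.sum_add_distrib]
    refine Finset.sum_congr rfl fun l _ => ?_
    rw [abs_sub_comm (P.u k l), mul_add]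
  have e3 : ∑ k, |P.b k - P'.b k| = ∑ k, |P'.b k - P.b k| :=
    Finset.sum_congr rfl fun k _ => abs_sub_comm _ _
  have p1 : 0 ≤ ∑ l ∈ Finset.range (K + 1), |P'.s l - P.s l| * P.s l :=
    Finset.sum_nonneg fun l hl => mul_nonneg (abs_nonneg _) (hs l (hlK l hl))
  have p2 : 0 ≤ ∑ l ∈ Finset.range (K + 1), |P.s l - P'.s l| * P'.s l :=
    Finset.sum_nonneg fun l hl => mul_nonneg (abs_nonneg _) (hs' l (hlK l hl))
  have p3 : 0 ≤ ∑ k, ∑ l ∈ Finset.range (K + 1), |P'.u k l - P.u k l| * |P.u k l| :=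
    Finset.sum_nonneg fun k _ => Finset.sum_nonneg fun l _ =>
      mul_nonneg (abs_nonneg _) (abs_nonneg _)
  have p4 : 0 ≤ ∑ k, ∑ l ∈ Finset.range (K + 1), |P.u k l - P'.u k l| * |P'.u k l| :=
    Finset.sum_nonneg fun k _ => Finset.sum_nonneg fun l _ =>
      mul_nonneg (abs_nonneg _) (abs_nonneg _)
  rw [e3] at h2
  rw [e1, e2, abs_le]
  constructor <;> linarith only [h1, p2, p4, h2, p1, p3]

/-- Removing the couplings and the block fields. -/
theorem Fe_le_site (hm : Exponents K m) (hN : 0 < N) (P : Pm κ) :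
    Fe ν K m c P ≤ Fe ν K m c ⟨0, P.s, 0⟩ + 1 / 2 * ∑ k, |P.b k| +
      ∑ k, ∑ l ∈ Finset.range (K + 1), P.u k l ^ 2 := by
  have hlK : ∀ l ∈ Finset.range (K + 1), l ≤ K := fun l hl => by
    rw [Finset.mem_range] at hl; omega
  have h := Fe_tangent (ν := ν) (c := c) hm hN P ⟨0, P.s, 0⟩
  simp only [Pi.zero_apply, zero_sub, sub_self, zero_mul, Finset.sum_const_zero, add_zero] at h
  have h1 : -(1 / 2 * ∑ k, |P.b k|) ≤ ∑ k, -P.b k / 2 * rho ν K m c P k := by
    rw [Finset.mul_sum, ← Finset.sum_neg_distrib]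
    refine Finset.sum_le_sum fun k _ => ?_
    have h0 := rho_nonneg (ν := ν) (c := c) (P := P) hm hN k
    have h1 := m3_rho_le_one (ν := ν) (c := c) (P := P) hm hN k
    have h2 : |-P.b k / 2 * rho ν K m c P k| ≤ 1 / 2 * |P.b k| := by
      rw [abs_mul, abs_div, abs_neg, abs_of_nonneg h0, abs_of_pos (by norm_num : (0 : ℝ) < 2)]
      nlinarith only [h1, abs_nonneg (P.b k)]
    exact (abs_le.1 h2).1
  have h2 : -(∑ k, ∑ l ∈ Finset.range (K + 1), P.u k l ^ 2) ≤
      ∑ k, ∑ l ∈ Finset.range (K + 1), -P.u k l * hbU ν K m c P k l := by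
    rw [← Finset.sum_neg_distrib]
    refine Finset.sum_le_sum fun k _ => ?_
    rw [← Finset.sum_neg_distrib]
    refine Finset.sum_le_sum fun l hl => ?_
    have h1 := m3_hbU_bound (ν := ν) (c := c) (P := P) hm hN k (hlK l hl)
    have h2 : |-P.u k l * hbU ν K m c P k l| ≤ P.u k l ^ 2 := by
      rw [abs_mul, abs_neg, ← sq_abs (P.u k l), sq]
      exact mul_le_mul_of_nonneg_left h1 (abs_nonneg _)
    exact (abs_le.1 h2).1
  linarith only [h, h1, h2]

/-- Fields increase the free energy. -/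
theorem Fe_zero_le (hm : Exponents K m) (hN : 0 < N) (P : Pm κ) :
    Fe ν K m c ⟨P.b, 0, 0⟩ ≤ Fe ν K m c P := by
  have hlK : ∀ l ∈ Finset.range (K + 1), l ≤ K := fun l hl => by
    rw [Finset.mem_range] at hl; omega
  have h := Fe_tangent (ν := ν) (c := c) hm hN ⟨P.b, 0, 0⟩ P
  have h1 : ∑ l ∈ Finset.range (K + 1), (P.s l - (⟨P.b, 0, 0⟩ : Pm κ).s l) *
      hzU ν K m c ⟨P.b, 0, 0⟩ l = 0 := by
    refine Finset.sum_eq_zero fun l hl => ?_
    rw [hzU_eq hm hN (fun _ _ => le_rfl) (hlK l hl)]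
    simp only [Pi.zero_apply, sub_zero, zero_mul, mul_zero]
  have h2 : ∑ k, ∑ l ∈ Finset.range (K + 1), (P.u k l - (⟨P.b, 0, 0⟩ : Pm κ).u k l) *
      hbU ν K m c ⟨P.b, 0, 0⟩ k l = 0 := by
    refine Finset.sum_eq_zero fun k _ => Finset.sum_eq_zero fun l hl => ?_
    rw [hbU_eq hm hN k (hlK l hl)]
    simp only [Pi.zero_apply, sub_zero, zero_mul, mul_zero]
  rw [h1, h2] at h
  simp only [sub_self, zero_div, zero_mul, Finset.sum_const_zero, add_zero] at h
  linarith only [h]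

/-- Without fields the free energy does not involve the fields. -/
lemma m3_fe_zero (hm : Exponents K m) (b : Fin κ → ℝ) (U : Matrix (Fin N) (Fin N) ℝ) :
    (mdl K m c ⟨b, 0, 0⟩ U).fe =
      Real.log (∑ x, Real.exp (∑ i, b (c i) / 2 * ph U x i ^ 2)) := by
  have hS : (mdl K m c ⟨b, 0, 0⟩ U).Reg := (mdl_regD hm).toReg
  have hH : ∀ z x, (mdl K m c ⟨b, 0, 0⟩ U).H z x = ∑ i, b (c i) / 2 * ph U x i ^ 2 := by
    intro z x
    change Md.en c ⟨b, 0, 0⟩ U z x = _
    unfold Md.en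
    simp only [Pi.zero_apply, zero_mul, Finset.sum_const_zero, add_zero]
  rw [fe_level_zero hS (fun x z w => (hH _ x).trans (hH _ x).symm)]
  unfold Sy.top
  simp only [hH]
  simp only [integral_const, probReal_univ, smul_eq_mul, one_mul]

/-- Without fields the mean free energy is the mean pressure. -/
theorem Fe_zero (hm : Exponents K m) (hN : 0 < N) (β : ℝ) (lam : Fin κ → ℝ) :
    Fe ν K m c ⟨fun k => β * lam k, 0, 0⟩ =
      ∫ U, pressure N β (U.1ᵀ * diagonal (fun i => lam (c i)) * U.1) ∂ν := by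
  have h1 : ∀ U : orthogonalGroup (Fin N) ℝ,
      pressure N β (U.1ᵀ * diagonal (fun i => lam (c i)) * U.1) =
        1 / N * (mdl K m c ⟨fun k => β * lam k, 0, 0⟩ U.1).fe - Real.log 2 := by
    intro U
    rw [pressure_eq hN, m3_fe_zero hm]
    congr 2
    unfold LZ
    have h2 : cube N = Fintype.piFinset (fun _ : Fin N => ({-1, 1} : Finset ℝ)) := rfl
    rw [h2, m3_sum_cube]
    congr 1
    refine Finset.sum_congr rfl fun x _ => ?_
    congr 1
    unfold Vale.Agent.P166.en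
    rw [Finset.mul_sum]
    refine Finset.sum_congr rfl fun i _ => ?_
    unfold ph
    ring
  simp_rw [h1]
  rw [integral_sub ((integrable_fe hm hN).const_mul _) (integrable_const _), integral_const_mul,
    integral_const]
  simp only [Md.Fe, one_div, EU, probReal_univ, smul_eq_mul, one_mul]

/-- A trivial lower bound. -/
theorem Fe_zero_ge (hm : Exponents K m) (hN : 0 < N) (b : Fin κ → ℝ) :
    - (1 / 2 * ∑ k, |b k|) ≤ Fe ν K m c ⟨b, 0, 0⟩ := by
  have hN0 : (0 : ℝ) < N := by exact_mod_cast hN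
  have h0 : Fe ν K m c ⟨0, 0, 0⟩ = 0 := by
    unfold Md.Fe EU
    simp_rw [m3_fe_zero hm]
    simp only [one_div, Pi.zero_apply, zero_div, zero_mul, Finset.sum_const_zero, Real.exp_zero, Finset.sum_const, Finset.card_univ, Fintype.card_pi, Fintype.card_bool, Finset.prod_const, Fintype.card_fin, nsmul_eq_mul, Nat.cast_pow, Nat.cast_ofNat, mul_one, Real.log_pow, integral_const, probReal_univ, smul_eq_mul, one_mul]
    field_simp
    ring
  have h := Fe_tangent (ν := ν) (c := c) hm hN ⟨0, 0, 0⟩ ⟨b, 0, 0⟩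
  rw [h0] at h
  simp only [Pi.zero_apply, sub_self, sub_zero, zero_mul, Finset.sum_const_zero, add_zero] at h
  refine le_trans ?_ h
  rw [Finset.mul_sum, ← Finset.sum_neg_distrib]
  refine Finset.sum_le_sum fun k _ => ?_
  have h0 := rho_nonneg (ν := ν) (c := c) (P := ⟨0, 0, 0⟩) hm hN k
  have h1 := m3_rho_le_one (ν := ν) (c := c) (P := ⟨0, 0, 0⟩) hm hN k
  have h2 : |b k / 2 * rho ν K m c ⟨0, 0, 0⟩ k| ≤ 1 / 2 * |b k| := by
    rw [abs_mul, abs_div, abs_of_nonneg h0, abs_of_pos (by norm_num : (0 : ℝ) < 2)]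
    nlinarith only [h1, abs_nonneg (b k)]
  exact (abs_le.1 h2).1

/-- Shifting the energy by a constant. -/
lemma m3_fe_shift {ι X : Type} [Fintype ι] [DecidableEq ι] [Fintype X] [Nonempty X] {S : Sy ι X}
    {D : ι → (ι → ℝ) → X → ℝ} (hS : S.RegD D) (C : ℝ) :
    (S.wH fun z x => S.H z x + C).RegD D ∧ (S.wH fun z x => S.H z x + C).fe = S.fe + C := by
  have hR : (S.wH fun z x => S.H z x + C).RegD D :=
    { m0 := hS.m0, mK := hS.mK, mono := hS.mono, pos := hS.pos, lev := hS.lev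
      lip := fun x => (hS.lip x).add (Lip.const C)
      pd := fun e x y t => (hS.pd e x y t).add_const C
      md := hS.md, bd := hS.bd }
  refine ⟨hR, ?_⟩
  have h1 := hS.toReg.jensen hR.toReg
  have e1 : (fun (z : ι → ℝ) (x : X) => S.H z x + C - S.H z x) = fun _ _ => C := by
    funext z x
    ring
  rw [e1, hS.toReg.Ex_const] at h1
  have h2 := hR.toReg.jensen (H' := S.H) hS.toReg
  have e2 : (fun (z : ι → ℝ) (x : X) => S.H z x - (S.wH fun z x => S.H z x + C).H z x) =
      fun _ _ => -C := by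
    funext z x
    change S.H z x - (S.H z x + C) = -C
    ring
  rw [e2, hR.toReg.Ex_const] at h2
  have e3 : (S.wH fun z x => S.H z x + C).wH S.H = S := rfl
  rw [e3] at h2
  linarith only [h1, h2]

/-- The site fields alone. -/
theorem Fe_site (hm : Exponents K m) (hN : 0 < N) {s : ℕ → ℝ} (hs : ∀ l ≤ K, 0 ≤ s l) :
    Fe ν K m c ⟨0, s, 0⟩ = spinPart K m (fun l => ∑ j ∈ Finset.range (l + 1), s j ^ 2) +
      1 / 2 * ∑ j ∈ Finset.range (K + 1), s j ^ 2 := by
  have hN0 : (N : ℝ) ≠ 0 := by exact_mod_cast hN.ne'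
  have key : ∀ U : Matrix (Fin N) (Fin N) ℝ, (mdl K m c ⟨0, s, 0⟩ U).fe =
      N * (spinPart K m (fun l => ∑ j ∈ Finset.range (l + 1), s j ^ 2) +
        (∑ j ∈ Finset.range (K + 1), s j ^ 2) / 2) + N * Real.log 2 := by
    intro U
    obtain ⟨hR, h1⟩ := m3_fe_shift (mdl_regD (K := K) (m := m) (c := c) (P := ⟨0, s, 0⟩) (U := U) hm)
      (-(N * Real.log 2))
    have h2 := fe_field (N := N) (φ := spin) (u := fun _ => -(N * Real.log 2)) (zc := sco)
      (s := s) hR ?_ ?_ hs ?_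
    · have h3 := topN_spin (r := fun l => ∑ j ∈ Finset.range (l + 1), s j ^ 2) hm N
      have h4 : (mdl K m c ⟨0, s, 0⟩ U).fe = topN m (fun l => ∑ j ∈ Finset.range (l + 1), s j ^ 2)
          K (lw (X := Fin N → Bool) spin 1 (fun _ => -(N * Real.log 2))) + N * Real.log 2 := by
        have h5 : topN m (fun l => ∑ j ∈ Finset.range (l + 1), s j ^ 2)
          K (lw (X := Fin N → Bool) spin 1 (fun _ => -(N * Real.log 2))) =
          (mdl K m c ⟨0, s, 0⟩ U).fe + -(N * Real.log 2) := h2.symm.trans h1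
        rw [h5]
        ring
      rw [h4, h3]
    · intro l hl i
      have : l < K + 1 := Nat.lt_succ_of_le hl
      change ((Fin.ofNat (K + 1) l : Fin (K + 1)) : ℕ) = l
      simp [Fin.ofNat, Nat.mod_eq_of_lt this]
    · intro l _ i j hij
      have := congrArg (fun e : Ix N K => e.2.2) hij
      exact this
    · intro z x
      change Md.en c ⟨0, s, 0⟩ U z x + -(N * Real.log 2) = _
      unfold Md.en
      simp only [Pi.zero_apply, zero_div, zero_mul, Finset.sum_const_zero, zero_add, add_zero]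
      rw [add_comm]
      rfl
  unfold Md.Fe EU
  simp_rw [key]
  rw [integral_const]
  simp only [one_div, probReal_univ, smul_eq_mul, one_mul]
  field_simp
  ring

end average

end Vale.Agent.P166.U
end
end

section

section

/-!
The hierarchical matrices of the overlaps, the loop errors and the total deviation.
-/

open MeasureTheory ProbabilityTheory Matrix Filter Topology

namespace Vale.Agent.P166.U

open Vale.Agent.P157.Lv Vale.Agent.P157.Par Md
open Vale.Agent.P166.F (Hm frac)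

variable {N K κ : ℕ}

variable [MeasurableSpace (orthogonalGroup (Fin N) ℝ)]

/-- The matrix of the overlaps of the block `k` (not normalized). -/
noncomputable def Mk (ν : Measure (orthogonalGroup (Fin N) ℝ)) (K : ℕ) (m : ℕ → ℝ)
    (c : Fin N → Fin κ) (P : Pm κ) (k : Fin κ) : Hm := ⟨rho ν K m c P k, Rkl ν K m c P k⟩

/-- The error of the loop equation of the blocks `k`, `k'`. -/
noncomputable def LE (ν : Measure (orthogonalGroup (Fin N) ℝ)) (K : ℕ) (m : ℕ → ℝ)
    (c : Fin N → Fin κ) (P : Pm κ) (k k' : Fin κ) : Hm where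
  d := frac c k' * (Mk ν K m c P k).d - frac c k * (Mk ν K m c P k').d +
    (P.b k' - P.b k) * (Hm.mul K m (Mk ν K m c P k) (Mk ν K m c P k')).d
  e := fun l => frac c k' * (Mk ν K m c P k).e l - frac c k * (Mk ν K m c P k').e l +
    (P.b k' - P.b k) * (Hm.mul K m (Mk ν K m c P k) (Mk ν K m c P k')).e l

/-- The deviation of the overlap of the block `k`. -/
noncomputable def Dv (ν : Measure (orthogonalGroup (Fin N) ℝ)) (K : ℕ) (m : ℕ → ℝ)
    (c : Fin N → Fin κ) (P : Pm κ) (k : Fin κ) : ℝ :=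
  EU ν (fun U => (mdl K m c P U).Ex (fun _ x => |Rb c U k x x - rho ν K m c P k|)) +
    ∑ l ∈ Finset.range (K + 1), (m (l + 1) - m l) *
      EU ν (fun U => (mdl K m c P U).pairEx l (fun x x' => |Rb c U k x x' - Rkl ν K m c P k l|))

end Vale.Agent.P166.U
end
end

section

section

open MeasureTheory ProbabilityTheory Filter Topology Finset

namespace Vale.Agent.P157.Par

set_option linter.unusedSectionVars false

variable {k : ℕ} {J : Type} [Fintype J] [DecidableEq J]

namespace Arr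

variable {w : Fin (k + 1) → ℝ} {δ : Type} [Fintype δ] [DecidableEq δ]

end Arr

end Vale.Agent.P157.Par
end
end

section

section

open MeasureTheory ProbabilityTheory Filter Topology Finset

namespace Vale.Agent.P157.Par

set_option linter.unusedSectionVars false

namespace Arr

variable {k : ℕ} {w : Fin (k + 1) → ℝ} {δ : Type} [Fintype δ] [DecidableEq δ]

variable (𝓐 : Arr k w δ) (e : ℕ) {c : Fin (k + 1) → ℝ} {l : Fin (k + 1)} (χ : LM k δ → ℝ)
  {A : δ → ℝ → ℝ} {v : ℝ → ℝ}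

end Arr

end Vale.Agent.P157.Par
end
end

section

section

/-! P166, lower bound: large deviations of the frequencies of independent types. -/

open MeasureTheory Finset Filter Topology

namespace Vale.Agent.P166.L

open Vale.Agent.P166.F

theorem types_mgf {κ : ℕ} {α x : Fin κ → ℝ} (hα : ∀ b, 0 < α b) (hα1 : ∑ b, α b = 1)
    (hx : ∀ b, |x b| ≤ 1) (hx0 : ∑ b, α b * x b = 0) {s : ℝ} (hs : 0 ≤ s) (hs1 : s ≤ 1) (η : ℝ) :
    ∑ b, α b * Real.exp (s * x b - s * η) ≤ Real.exp (-(s * (η - s))) := by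
  have h1 : ∀ b, α b * Real.exp (s * x b - s * η) ≤
      Real.exp (-(s * η)) * (α b + s * (α b * x b) + s ^ 2 * α b) := by
    intro b
    have h2 : |s * x b| ≤ 1 := by
      rw [abs_mul, abs_of_nonneg hs]
      exact mul_le_one₀ hs1 (abs_nonneg _) (hx b)
    have h3 := (abs_le.1 (Real.abs_exp_sub_one_sub_id_le h2)).2
    have h4 : (s * x b) ^ 2 ≤ s ^ 2 := by
      rw [mul_pow]
      have : x b ^ 2 ≤ 1 := (sq_le_one_iff_abs_le_one _).2 (hx b)
      nlinarith only [this]
    have h5 : Real.exp (s * x b) ≤ 1 + s * x b + s ^ 2 := by linarith only [h3, h4]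
    have h6 : Real.exp (s * x b - s * η) = Real.exp (-(s * η)) * Real.exp (s * x b) := by
      rw [← Real.exp_add]
      congr 1
      ring
    rw [h6]
    have h7 := mul_le_mul_of_nonneg_left h5
      (mul_nonneg (hα b).le (Real.exp_pos (-(s * η))).le)
    calc α b * (Real.exp (-(s * η)) * Real.exp (s * x b))
        = α b * Real.exp (-(s * η)) * Real.exp (s * x b) := by ring
      _ ≤ α b * Real.exp (-(s * η)) * (1 + s * x b + s ^ 2) := h7
      _ = _ := by ring
  refine (Finset.sum_le_sum fun b _ => h1 b).trans ?_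
  rw [← Finset.mul_sum, Finset.sum_add_distrib, Finset.sum_add_distrib, ← Finset.mul_sum,
    ← Finset.mul_sum, hα1, hx0, mul_zero, add_zero, mul_one]
  have h2 : (1 : ℝ) + s ^ 2 ≤ Real.exp (s ^ 2) := by
    have := Real.add_one_le_exp (s ^ 2)
    linarith only [this]
  calc Real.exp (-(s * η)) * (1 + s ^ 2) ≤ Real.exp (-(s * η)) * Real.exp (s ^ 2) :=
        mul_le_mul_of_nonneg_left h2 (Real.exp_pos _).le
    _ = Real.exp (-(s * (η - s))) := by
        rw [← Real.exp_add]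
        congr 1
        ring

theorem types_pow {N κ : ℕ} {α x : Fin κ → ℝ} (s η : ℝ) :
    ∑ c : Fin N → Fin κ, wt α c * Real.exp (s * ∑ i, x (c i) - N * (s * η)) =
      (∑ b, α b * Real.exp (s * x b - s * η)) ^ N := by
  have h1 : ∀ c : Fin N → Fin κ, wt α c * Real.exp (s * ∑ i, x (c i) - N * (s * η)) =
      ∏ i, (α (c i) * Real.exp (s * x (c i) - s * η)) := by
    intro c
    rw [Finset.prod_mul_distrib, ← Real.exp_sum, Finset.sum_sub_distrib, ← Finset.mul_sum,
      Finset.sum_const, Finset.card_univ, Fintype.card_fin, nsmul_eq_mul]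
    rfl
  simp only [h1]
  rw [Glue_prod (fun _ b => α b * Real.exp (s * x b - s * η))]
  simp only [prod_const, card_univ, Fintype.card_fin]

/-- Chernoff bound: the weight of the bad types is exponentially small. -/
theorem types_exp {n : ℕ} {α : Fin (n + 1) → ℝ} (hα : ∀ b, 0 < α b) (hα1 : ∑ b, α b = 1)
    {η : ℝ} (hη : 0 < η) : ∃ C θ : ℝ, 0 ≤ C ∧ 0 ≤ θ ∧ θ < 1 ∧ ∀ N : ℕ, 0 < N →
      (∑ c : Fin N → Fin (n + 1), if ∀ k, |frac c k - α k| ≤ η then 0 else wt α c) ≤ C * θ ^ N := by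
  classical
  set s : ℝ := min (η / 2) 1 with hs
  have hs0 : 0 < s := lt_min (by positivity) one_pos
  have hs1 : s ≤ 1 := min_le_right _ _
  have hs2 : s ≤ η / 2 := min_le_left _ _
  have hθ : Real.exp (-(s * (η - s))) < 1 := by
    rw [Real.exp_lt_one_iff]
    have : 0 < s * (η - s) := mul_pos hs0 (by linarith only [hs0, hs2])
    linarith only [this]
  refine ⟨2 * (n + 1), Real.exp (-(s * (η - s))), by positivity, (Real.exp_pos _).le, hθ,
    fun N hN => ?_⟩
  have hN' : (0 : ℝ) < N := Nat.cast_pos.2 hN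
  set x : Fin (n + 1) → Fin (n + 1) → ℝ := fun k b => (if b = k then 1 else 0) - α k with hx
  have hα2 : ∀ k, α k ≤ 1 := fun k => by
    rw [← hα1]
    exact Finset.single_le_sum (fun b _ => (hα b).le) (Finset.mem_univ k)
  have hx1 : ∀ k b, |x k b| ≤ 1 := by
    intro k b
    have h1 := hα k
    have h2 := hα2 k
    simp only [hx]
    rw [abs_le]
    split_ifs <;> constructor <;> linarith only [h2, h1]
  have hx0 : ∀ k, ∑ b, α b * x k b = 0 := by
    intro k
    simp only [hx, mul_sub, Finset.sum_sub_distrib, mul_ite, mul_one, mul_zero,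
      Finset.sum_ite_eq', Finset.mem_univ, if_true, ← Finset.sum_mul, hα1, one_mul, sub_self]
  have hfr : ∀ (c : Fin N → Fin (n + 1)) (k : Fin (n + 1)),
      N * (frac c k - α k) = ∑ i, x k (c i) := by
    intro c k
    unfold frac
    simp only [hx, Finset.sum_sub_distrib, Finset.sum_const, Finset.card_univ, Fintype.card_fin,
      nsmul_eq_mul, Finset.card_filter, Nat.cast_sum, Nat.cast_ite, Nat.cast_one, Nat.cast_zero]
    field_simp
  have hwt : ∀ c : Fin N → Fin (n + 1), 0 ≤ wt α c :=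
    fun c => Finset.prod_nonneg fun i _ => (hα _).le
  have hpt : ∀ c : Fin N → Fin (n + 1), (if ∀ k, |frac c k - α k| ≤ η then 0 else wt α c) ≤
      ∑ k, (wt α c * Real.exp (s * ∑ i, x k (c i) - N * (s * η)) +
        wt α c * Real.exp (s * ∑ i, (-x k (c i)) - N * (s * η))) := by
    intro c
    have hnn : ∀ k, 0 ≤ wt α c * Real.exp (s * ∑ i, x k (c i) - N * (s * η)) +
        wt α c * Real.exp (s * ∑ i, (-x k (c i)) - N * (s * η)) := fun k =>
      add_nonneg (mul_nonneg (hwt c) (Real.exp_pos _).le) (mul_nonneg (hwt c) (Real.exp_pos _).le)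
    split_ifs with h
    · exact Finset.sum_nonneg fun k _ => hnn k
    · push Not at h
      obtain ⟨k, hk⟩ := h
      refine le_trans ?_ (Finset.single_le_sum (fun k _ => hnn k) (Finset.mem_univ k))
      rw [Finset.sum_neg_distrib, ← hfr]
      have h1 : ∀ y : ℝ, 0 ≤ y → wt α c ≤ wt α c * Real.exp y := fun y hy =>
        le_mul_of_one_le_right (hwt c) (Real.one_le_exp hy)
      rcases lt_abs.1 hk with h2 | h2
      · have h3 := h1 (s * (N * (frac c k - α k)) - N * (s * η)) (by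
          have : 0 ≤ N * s * (frac c k - α k - η) :=
            mul_nonneg (by positivity) (by linarith only [h2])
          linarith only [this])
        have h4 := mul_nonneg (hwt c)
          (Real.exp_pos (s * -(N * (frac c k - α k)) - N * (s * η))).le
        linarith only [h3, h4]
      · have h3 := h1 (s * -(N * (frac c k - α k)) - N * (s * η)) (by
          have : 0 ≤ N * s * (-(frac c k - α k) - η) :=
            mul_nonneg (by positivity) (by linarith only [h2])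
          linarith only [this])
        have h4 := mul_nonneg (hwt c)
          (Real.exp_pos (s * (N * (frac c k - α k)) - N * (s * η))).le
        linarith only [h3, h4]
  refine (Finset.sum_le_sum fun c _ => hpt c).trans ?_
  rw [Finset.sum_comm]
  have hk : ∀ k : Fin (n + 1), ∑ c : Fin N → Fin (n + 1),
      (wt α c * Real.exp (s * ∑ i, x k (c i) - N * (s * η)) +
        wt α c * Real.exp (s * ∑ i, (-x k (c i)) - N * (s * η))) ≤
      2 * Real.exp (-(s * (η - s))) ^ N := by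
    intro k
    rw [Finset.sum_add_distrib, types_pow (x := x k), types_pow (x := fun b => -x k b)]
    have h1 := pow_le_pow_left₀ (Finset.sum_nonneg fun b _ =>
      mul_nonneg (hα b).le (Real.exp_pos _).le)
      (types_mgf hα hα1 (hx1 k) (hx0 k) hs0.le hs1 η) N
    have h2 := pow_le_pow_left₀ (Finset.sum_nonneg fun b _ =>
      mul_nonneg (hα b).le (Real.exp_pos _).le)
      (types_mgf hα hα1 (x := fun b => -x k b) (fun b => by rw [abs_neg]; exact hx1 k b)
        (by simp only [mul_neg, Finset.sum_neg_distrib, hx0 k, neg_zero]) hs0.le hs1 η) N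
    linarith only [h1, h2]
  refine (Finset.sum_le_sum fun k _ => hk k).trans ?_
  rw [Finset.sum_const, Finset.card_univ, Fintype.card_fin, nsmul_eq_mul]
  push_cast
  exact (by ring : ((n : ℝ) + 1) * (2 * Real.exp (-(s * (η - s))) ^ N) =
    2 * (n + 1) * Real.exp (-(s * (η - s))) ^ N).le

theorem types_ld {n : ℕ} {α : Fin (n + 1) → ℝ} (hα : ∀ b, 0 < α b) (hα1 : ∑ b, α b = 1)
    {η : ℝ} (hη : 0 < η) :
    Tendsto (fun N : ℕ => ((N : ℝ) + 1) *
      ∑ c : Fin N → Fin (n + 1), if ∀ k, |frac c k - α k| ≤ η then 0 else wt α c) atTop (𝓝 0) := by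
  obtain ⟨C, θ, hC, hθ, hθ1, h⟩ := types_exp hα hα1 hη
  have h1 : Tendsto (fun N : ℕ => C * ((N : ℝ) * θ ^ N + θ ^ N)) atTop (𝓝 0) := by
    have h2 := ((tendsto_self_mul_const_pow_of_lt_one hθ hθ1).add
      (tendsto_pow_atTop_nhds_zero_of_lt_one hθ hθ1)).const_mul C
    simpa only [add_zero, mul_zero] using h2
  refine tendsto_of_tendsto_of_tendsto_of_le_of_le' tendsto_const_nhds h1 ?_ ?_
  · filter_upwards with N
    refine mul_nonneg (by positivity) (Finset.sum_nonneg fun c _ => ?_)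
    split_ifs
    · exact le_rfl
    · exact Finset.prod_nonneg fun i _ => (hα _).le
  · filter_upwards [eventually_gt_atTop 0] with N hN
    calc ((N : ℝ) + 1) *
        ∑ c : Fin N → Fin (n + 1), (if ∀ k, |frac c k - α k| ≤ η then 0 else wt α c)
        ≤ ((N : ℝ) + 1) * (C * θ ^ N) := mul_le_mul_of_nonneg_left (h N hN) (by positivity)
      _ = C * ((N : ℝ) * θ ^ N + θ ^ N) := by ring

/-- The types of `N + 1` patterns: a type for the pattern `0` and types for the other ones. -/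
theorem sum_wt_cons {n N : ℕ} (α : Fin (n + 1) → ℝ) (f : (Fin (N + 1) → Fin (n + 1)) → ℝ) :
    ∑ c : Fin (N + 1) → Fin (n + 1), wt α c * f c =
      ∑ c : Fin N → Fin (n + 1), wt α c * ∑ k, α k * f (Fin.cons k c) := by
  have h1 : ∑ c : Fin (N + 1) → Fin (n + 1), wt α c * f c =
      ∑ p : Fin (n + 1) × (Fin N → Fin (n + 1)),
        wt α (Fin.cons p.1 p.2 : Fin (N + 1) → Fin (n + 1)) * f (Fin.cons p.1 p.2) :=
    ((Fin.consEquiv (fun _ : Fin (N + 1) => Fin (n + 1))).sum_comp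
      (fun c => wt α c * f c)).symm
  rw [h1, Fintype.sum_prod_type, Finset.sum_comm]
  refine Finset.sum_congr rfl fun c _ => ?_
  rw [Finset.mul_sum]
  refine Finset.sum_congr rfl fun k _ => ?_
  have h2 : wt α (Fin.cons k c : Fin (N + 1) → Fin (n + 1)) = α k * wt α c := by
    unfold wt
    rw [Fin.prod_univ_succ]
    simp only [Fin.cons_zero, Fin.cons_succ]
  rw [h2]
  ring

/-- Cesàro: if the increments of `N x_N` are eventually at least `v`, then `x_N ≥ v - ε`
eventually. -/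
theorem cesaro_ge {x : ℕ → ℝ} {v : ℝ} {N₀ : ℕ}
    (h : ∀ N, N₀ ≤ N → v ≤ ((N : ℝ) + 1) * x (N + 1) - N * x N) {ε : ℝ} (hε : 0 < ε) :
    ∀ᶠ N in atTop, v - ε ≤ x N := by
  have h1 : ∀ N, N₀ ≤ N → N₀ * x N₀ - N₀ * v ≤ N * x N - N * v := by
    intro N hN
    induction N, hN using Nat.le_induction with
    | base => exact le_rfl
    | succ N hN ih =>
      have := h N hN
      push_cast
      linarith only [ih, this]
  have h2 : Tendsto (fun N : ℕ => (N₀ * x N₀ - N₀ * v) / (N : ℝ)) atTop (𝓝 0) :=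
    tendsto_const_nhds.div_atTop tendsto_natCast_atTop_atTop
  filter_upwards [eventually_ge_atTop N₀, eventually_gt_atTop 0,
    h2.eventually_const_lt (show -ε < 0 by linarith)] with N hN hN0 hNε
  have hN' : (0 : ℝ) < N := Nat.cast_pos.2 hN0
  rw [lt_div_iff₀ hN'] at hNε
  have h3 := h1 N hN
  by_contra hcon
  push Not at hcon
  have : N * x N < N * (v - ε) := mul_lt_mul_of_pos_left hcon hN'
  linarith only [hNε, h3, this]

end Vale.Agent.P166.L
end
end

section

section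

/-!
The optimal parameters: existence, first and second order conditions, bounds.
-/

set_option linter.all false

open MeasureTheory ProbabilityTheory Matrix Filter Topology

namespace Vale.Agent.P166.U

open Vale.Agent.P157.Lv Vale.Agent.P157.Par Md

variable {N K κ : ℕ} {m q : ℕ → ℝ} {c : Fin N → Fin κ} {b0 : Fin κ → ℝ}
  {kap η ε u0 : ℝ}

/-- The coefficients `a_j = 1 - ∑_{l ≥ j} p_l q_l`. -/
noncomputable def aco (K : ℕ) (m q : ℕ → ℝ) (j : ℕ) : ℝ :=
  1 - ∑ l ∈ Finset.Ico j (K + 1), (m (l + 1) - m l) * q l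

/-- The penalty. -/
noncomputable def Pen (K : ℕ) (m q : ℕ → ℝ) (kap η ε u0 : ℝ) (b0 : Fin κ → ℝ) (P : Pm κ) : ℝ :=
  ∑ j ∈ Finset.Ico 1 (K + 1), (1 / 2 * (aco K m q j + kap) * P.s j ^ 2 + η / P.s j) +
    1 / ε * (∑ k, (P.b k - b0 k) ^ 2 + ∑ k, ∑ j ∈ Finset.Ico 1 (K + 1), (P.u k j - u0) ^ 2)

/-- Admissible parameters: no fields at the level zero, positive strengths of the site fields. -/
structure Adm (K : ℕ) (P : Pm κ) : Prop where
  s0 : P.s 0 = 0
  u0 : ∀ k, P.u k 0 = 0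
  pos : ∀ j, 1 ≤ j → j ≤ K → 0 < P.s j

variable [MeasurableSpace (orthogonalGroup (Fin N) ℝ)] [BorelSpace (orthogonalGroup (Fin N) ℝ)]
  {ν : Measure (orthogonalGroup (Fin N) ℝ)} [IsProbabilityMeasure ν] {P : Pm κ}

/-- Optimal parameters. -/
structure IsOpt (ν : Measure (orthogonalGroup (Fin N) ℝ)) (K : ℕ) (m q : ℕ → ℝ)
    (c : Fin N → Fin κ) (kap η ε u0 : ℝ) (b0 : Fin κ → ℝ) (P : Pm κ) : Prop where
  adm : Adm K P
  max : ∀ P' : Pm κ, Adm K P' → Fe ν K m c P' - Pen K m q kap η ε u0 b0 P' ≤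
    Fe ν K m c P - Pen K m q kap η ε u0 b0 P

/-- Summation by parts. -/
theorem sum_aco (K : ℕ) (m q s : ℕ → ℝ) (hs : s 0 = 0) :
    1 / 2 * ∑ j ∈ Finset.Ico 1 (K + 1), aco K m q j * s j ^ 2 =
      1 / 2 * ∑ j ∈ Finset.range (K + 1), s j ^ 2 - 1 / 2 * ∑ l ∈ Finset.range (K + 1),
        (m (l + 1) - m l) * (∑ j ∈ Finset.range (l + 1), s j ^ 2) * q l := by
  have h0 : ∀ f : ℕ → ℝ, f 0 = 0 → ∑ j ∈ Finset.Ico 1 (K + 1), f j =
      ∑ j ∈ Finset.range (K + 1), f j := by
    intro f hf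
    rw [Finset.range_eq_Ico, Finset.sum_eq_sum_Ico_succ_bot (by omega : 0 < K + 1), hf, zero_add]
  have h1 : ∑ j ∈ Finset.range (K + 1), (∑ l ∈ Finset.Ico j (K + 1), (m (l + 1) - m l) * q l) *
      s j ^ 2 = ∑ l ∈ Finset.range (K + 1),
        (m (l + 1) - m l) * (∑ j ∈ Finset.range (l + 1), s j ^ 2) * q l := by
    have e1 : ∀ j, (∑ l ∈ Finset.Ico j (K + 1), (m (l + 1) - m l) * q l) * s j ^ 2 =
        ∑ l ∈ Finset.Ico j (K + 1), (m (l + 1) - m l) * q l * s j ^ 2 := fun j => Finset.sum_mul _ _ _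
    have e2 : ∀ l, (m (l + 1) - m l) * (∑ j ∈ Finset.range (l + 1), s j ^ 2) * q l =
        ∑ j ∈ Finset.range (l + 1), (m (l + 1) - m l) * q l * s j ^ 2 := fun l => by
      rw [Finset.mul_sum, Finset.sum_mul]
      exact Finset.sum_congr rfl fun j _ => by ring
    simp only [e1, e2]
    refine Finset.sum_comm' ?_
    intro a b
    simp only [Finset.mem_range, Finset.mem_Ico]
    omega
  rw [h0 (fun j => aco K m q j * s j ^ 2) (by simp [hs])]
  have h2 : ∑ j ∈ Finset.range (K + 1), aco K m q j * s j ^ 2 =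
      ∑ j ∈ Finset.range (K + 1), s j ^ 2 - ∑ l ∈ Finset.range (K + 1),
        (m (l + 1) - m l) * (∑ j ∈ Finset.range (l + 1), s j ^ 2) * q l := by
    rw [← h1, ← Finset.sum_sub_distrib]
    refine Finset.sum_congr rfl fun j _ => ?_
    unfold aco
    ring
  rw [h2]
  ring

theorem opt_pos (hm : Exponents K m) {l : ℕ} (hl : l ∈ Finset.range (K + 1)) :
    0 ≤ m (l + 1) - m l := by
  have := hm.2.2 l (Nat.lt_succ_iff.1 (Finset.mem_range.1 hl))
  linarith only [this]

theorem opt_path (hq : P157.Par.Path K q) (hq1 : q K ≤ 1) {l : ℕ} (hl : l ≤ K) :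
    0 ≤ q l ∧ q l ≤ 1 := by
  constructor
  · induction l with
    | zero => exact hq.1
    | succ l ih => exact (ih (by omega)).trans (hq.2 l (by omega))
  · have h1 : ∀ n, ∀ l, l + n ≤ K → q l ≤ q (l + n) := by
      intro n
      induction n with
      | zero => intro l _; exact le_rfl
      | succ n ih => intro l h; exact (ih l (by omega)).trans (hq.2 (l + n) (by omega))
    have h2 := h1 (K - l) l (by omega)
    rw [show l + (K - l) = K by omega] at h2
    exact h2.trans hq1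

theorem aco_mem (hm : Exponents K m) (hq : P157.Par.Path K q) (hq1 : q K ≤ 1) {j : ℕ} (hj : j ≤ K) :
    0 ≤ aco K m q j ∧ aco K m q j ≤ 1 := by
  have hsub : Finset.Ico j (K + 1) ⊆ Finset.range (K + 1) := by
    intro l hl
    rw [Finset.mem_Ico] at hl
    exact Finset.mem_range.2 hl.2
  have hsum : ∑ l ∈ Finset.range (K + 1), (m (l + 1) - m l) = 1 := by
    rw [Finset.sum_range_sub, hm.1, hm.2.1, sub_zero]
  have h1 : 0 ≤ ∑ l ∈ Finset.Ico j (K + 1), (m (l + 1) - m l) * q l :=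
    Finset.sum_nonneg fun l hl => mul_nonneg (opt_pos hm (hsub hl))
      (opt_path hq hq1 (Nat.lt_succ_iff.1 (Finset.mem_Ico.1 hl).2)).1
  have h2 : ∑ l ∈ Finset.Ico j (K + 1), (m (l + 1) - m l) * q l ≤ 1 := by
    rw [← hsum]
    refine (Finset.sum_le_sum fun l hl => ?_).trans
      (Finset.sum_le_sum_of_subset_of_nonneg hsub fun l hl _ => opt_pos hm hl)
    exact mul_le_of_le_one_right (opt_pos hm (hsub hl))
      (opt_path hq hq1 (Nat.lt_succ_iff.1 (Finset.mem_Ico.1 hl).2)).2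
  unfold aco
  constructor <;> linarith only [h1, h2]

/-- The hypothesis on the product system: the value of the spin optimization is at most `C`. -/
def SpinLe (K : ℕ) (m q : ℕ → ℝ) (C : ℝ) : Prop :=
  ∀ r, P157.Par.Path K r → spinPart K m r + 1 / 2 * ∑ l ∈ Finset.range (K + 1),
    (m (l + 1) - m l) * r l * q l ≤ C

/-- The objective is bounded above, coercive. -/
theorem obj_le (hm : Exponents K m) (hN : 0 < N) {C : ℝ} (hC : SpinLe K m q C)
    (hε : 0 < ε) (hε1 : ε ≤ 1 / 4) {P : Pm κ} (hP : Adm K P) :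
    Fe ν K m c P - Pen K m q kap η ε u0 b0 P ≤ C + 1 / 2 * ∑ k, |b0 k| + 2 * κ * K * u0 ^ 2 +
      κ * ε - ∑ j ∈ Finset.Ico 1 (K + 1), (kap / 2 * P.s j ^ 2 + η / P.s j) -
      1 / (2 * ε) * (∑ k, (P.b k - b0 k) ^ 2 +
        ∑ k, ∑ j ∈ Finset.Ico 1 (K + 1), (P.u k j - u0) ^ 2) := by
  have hs : ∀ l ≤ K, 0 ≤ P.s l := by
    intro l hl
    rcases Nat.eq_zero_or_pos l with h | h
    · rw [h, hP.s0]
    · exact (hP.pos l h hl).le
  have h1 := Fe_le_site (ν := ν) (c := c) hm hN P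
  have h2 := Fe_site (ν := ν) (c := c) hm hN hs
  have h3 := sum_aco K m q P.s hP.s0
  have hr : P157.Par.Path K (fun l => ∑ j ∈ Finset.range (l + 1), P.s j ^ 2) := by
    refine ⟨by (clear * -; positivity), fun l _ => ?_⟩
    change _ ≤ ∑ j ∈ Finset.range (l + 1 + 1), P.s j ^ 2
    rw [Finset.sum_range_succ _ (l + 1)]
    have : 0 ≤ P.s (l + 1) ^ 2 := by (clear * -; positivity)
    linarith only [this]
  have h4 : spinPart K m (fun l => ∑ j ∈ Finset.range (l + 1), P.s j ^ 2) +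
      1 / 2 * ∑ l ∈ Finset.range (K + 1), (m (l + 1) - m l) *
        (∑ j ∈ Finset.range (l + 1), P.s j ^ 2) * q l ≤ C := hC _ hr
  have h5 : Fe ν K m c ⟨0, P.s, 0⟩ ≤
      C + 1 / 2 * ∑ j ∈ Finset.Ico 1 (K + 1), aco K m q j * P.s j ^ 2 := by
    rw [h2]
    linarith only [h3, h4]
  have hε2 : 2 ≤ 1 / (2 * ε) := by
    rw [le_div_iff₀ (by positivity)]
    linarith only [hε1]
  -- couplings
  have h6 : 1 / 2 * ∑ k, |P.b k| - 1 / (2 * ε) * ∑ k, (P.b k - b0 k) ^ 2 ≤
      1 / 2 * ∑ k, |b0 k| + κ * ε := by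
    have : ∀ k, 1 / 2 * |P.b k| - 1 / (2 * ε) * (P.b k - b0 k) ^ 2 ≤ 1 / 2 * |b0 k| + ε := by
      intro k
      have e1 : |P.b k| ≤ |b0 k| + |P.b k - b0 k| := by
        have := abs_add_le (b0 k) (P.b k - b0 k)
        rwa [add_sub_cancel] at this
      have e2 : 1 / 2 * |P.b k - b0 k| - 1 / (2 * ε) * (P.b k - b0 k) ^ 2 ≤ ε := by
        rw [← sq_abs (P.b k - b0 k)]
        set y := |P.b k - b0 k|
        have e3 : 1 / 2 * y - 1 / (2 * ε) * y ^ 2 =
            ε / 8 - 1 / (2 * ε) * (y - ε / 2) ^ 2 := by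
          field_simp
          ring
        rw [e3]
        have : 0 ≤ 1 / (2 * ε) * (y - ε / 2) ^ 2 := by (clear * - hε; positivity)
        linarith only [hε, this]
      linarith only [e1, e2]
    have e4 := Finset.sum_le_sum fun (k : Fin κ) (_ : k ∈ Finset.univ) => this k
    rw [Finset.sum_sub_distrib, Finset.sum_add_distrib, ← Finset.mul_sum, ← Finset.mul_sum,
      ← Finset.mul_sum, Finset.sum_const, Finset.card_univ, Fintype.card_fin, nsmul_eq_mul] at e4
    exact e4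
  -- block fields
  have h7 : ∑ k, ∑ l ∈ Finset.range (K + 1), P.u k l ^ 2 -
      1 / (2 * ε) * ∑ k, ∑ j ∈ Finset.Ico 1 (K + 1), (P.u k j - u0) ^ 2 ≤
      2 * κ * K * u0 ^ 2 := by
    have : ∀ k, ∑ l ∈ Finset.range (K + 1), P.u k l ^ 2 -
        1 / (2 * ε) * ∑ j ∈ Finset.Ico 1 (K + 1), (P.u k j - u0) ^ 2 ≤ K * (2 * u0 ^ 2) := by
      intro k
      rw [Finset.range_eq_Ico, Finset.sum_eq_sum_Ico_succ_bot (by omega : 0 < K + 1), hP.u0 k,
        Finset.mul_sum]
      have e5 : ∑ j ∈ Finset.Ico (0 + 1) (K + 1), P.u k j ^ 2 -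
          ∑ j ∈ Finset.Ico 1 (K + 1), 1 / (2 * ε) * (P.u k j - u0) ^ 2 ≤
          ∑ j ∈ Finset.Ico 1 (K + 1), 2 * u0 ^ 2 := by
        rw [zero_add, ← Finset.sum_sub_distrib]
        refine Finset.sum_le_sum fun j _ => ?_
        have e6 : 0 ≤ (1 / (2 * ε) - 2) * (P.u k j - u0) ^ 2 :=
          mul_nonneg (by linarith only [hε2]) (sq_nonneg _)
        nlinarith only [e6, sq_nonneg (P.u k j - 2 * u0)]
      rw [Finset.sum_const, Nat.card_Ico, nsmul_eq_mul, Nat.add_sub_cancel] at e5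
      have e7 : (0 : ℝ) ^ 2 = 0 := by norm_num
      linarith only [e5]
    have e8 := Finset.sum_le_sum fun (k : Fin κ) (_ : k ∈ Finset.univ) => this k
    rw [Finset.sum_sub_distrib, ← Finset.mul_sum, Finset.sum_const, Finset.card_univ,
      Fintype.card_fin, nsmul_eq_mul] at e8
    linarith only [e8]
  have h8 : Pen K m q kap η ε u0 b0 P =
      1 / 2 * ∑ j ∈ Finset.Ico 1 (K + 1), aco K m q j * P.s j ^ 2 +
      ∑ j ∈ Finset.Ico 1 (K + 1), (kap / 2 * P.s j ^ 2 + η / P.s j) +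
      2 * (1 / (2 * ε) * (∑ k, (P.b k - b0 k) ^ 2 +
        ∑ k, ∑ j ∈ Finset.Ico 1 (K + 1), (P.u k j - u0) ^ 2)) := by
    have e1 : ∑ j ∈ Finset.Ico 1 (K + 1), (1 / 2 * (aco K m q j + kap) * P.s j ^ 2 + η / P.s j) =
        1 / 2 * ∑ j ∈ Finset.Ico 1 (K + 1), aco K m q j * P.s j ^ 2 +
        ∑ j ∈ Finset.Ico 1 (K + 1), (kap / 2 * P.s j ^ 2 + η / P.s j) := by
      rw [Finset.mul_sum, ← Finset.sum_add_distrib]
      exact Finset.sum_congr rfl fun j _ => by ring
    unfold Pen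
    rw [e1]
    congr 1
    rw [← mul_assoc]
    congr 1
    field_simp
  rw [h8]
  rw [mul_add (1 / (2 * ε))]
  linarith only [h1, h2, h3, h4, h6, h7]

/-- the compact set of parameters. -/
def optK (κ K : ℕ) (σ R : ℝ) : Set ((Fin κ → ℝ) × (ℕ → ℝ) × (Fin κ → ℕ → ℝ)) :=
  (Set.univ.pi fun _ => Set.Icc (-R) R) ×ˢ
    ((Set.univ.pi fun l => if 1 ≤ l ∧ l ≤ K then Set.Icc σ R else {0}) ×ˢ
      (Set.univ.pi fun _ => Set.univ.pi fun l => if 1 ≤ l ∧ l ≤ K then Set.Icc (-R) R else {0}))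

theorem mem_optK {σ R : ℝ} (p : (Fin κ → ℝ) × (ℕ → ℝ) × (Fin κ → ℕ → ℝ)) : p ∈ optK κ K σ R ↔
    (∀ k, p.1 k ∈ Set.Icc (-R) R) ∧
    (∀ l, p.2.1 l ∈ (if 1 ≤ l ∧ l ≤ K then Set.Icc σ R else ({0} : Set ℝ))) ∧
    (∀ k l, p.2.2 k l ∈ (if 1 ≤ l ∧ l ≤ K then Set.Icc (-R) R else ({0} : Set ℝ))) := by
  simp only [optK, Set.mem_prod, Set.mem_univ_pi]

theorem optK_compact (κ K : ℕ) (σ R : ℝ) : IsCompact (optK κ K σ R) := by
  refine (isCompact_univ_pi fun _ => isCompact_Icc).prod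
    ((isCompact_univ_pi fun l => ?_).prod
      (isCompact_univ_pi fun _ => isCompact_univ_pi fun l => ?_))
  · split_ifs
    · exact isCompact_Icc
    · exact isCompact_singleton
  · split_ifs
    · exact isCompact_Icc
    · exact isCompact_singleton

theorem optK_nonneg {σ R : ℝ} (hσ : 0 < σ) (p : (Fin κ → ℝ) × (ℕ → ℝ) × (Fin κ → ℕ → ℝ))
    (hp : p ∈ optK κ K σ R) (l : ℕ) : 0 ≤ p.2.1 l := by
  have := ((mem_optK p).1 hp).2.1 l
  split_ifs at this with h
  · exact hσ.le.trans this.1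
  · rw [Set.mem_singleton_iff.1 this]

theorem opt_contFe (hm : Exponents K m) (hN : 0 < N) {σ R : ℝ} (hσ : 0 < σ) :
    ContinuousOn (fun p : (Fin κ → ℝ) × (ℕ → ℝ) × (Fin κ → ℕ → ℝ) =>
      Fe ν K m c ⟨p.1, p.2.1, p.2.2⟩) (optK κ K σ R) := by
  intro p0 hp0
  rw [ContinuousWithinAt, tendsto_iff_norm_sub_tendsto_zero]
  refine squeeze_zero' (g := fun p : (Fin κ → ℝ) × (ℕ → ℝ) × (Fin κ → ℕ → ℝ) =>
    ∑ k, |p.1 k - p0.1 k| +
    ∑ l ∈ Finset.range (K + 1), |p.2.1 l - p0.2.1 l| * (p0.2.1 l + p.2.1 l) +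
    ∑ k, ∑ l ∈ Finset.range (K + 1), |p.2.2 k l - p0.2.2 k l| *
      (|p0.2.2 k l| + |p.2.2 k l|))
    (Eventually.of_forall fun p => norm_nonneg _) ?_ ?_
  · filter_upwards [self_mem_nhdsWithin] with p hp
    exact Fe_lip (ν := ν) (c := c) hm hN ⟨p0.1, p0.2.1, p0.2.2⟩ ⟨p.1, p.2.1, p.2.2⟩
      (fun l _ => optK_nonneg hσ p0 hp0 l) (fun l _ => optK_nonneg hσ p hp l)
  · refine (Continuous.tendsto' ?_ p0 0 (by simp only [sub_self, abs_zero, Finset.sum_const_zero, zero_mul, add_zero])).mono_left nhdsWithin_le_nhds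
    fun_prop

theorem opt_contPen (K : ℕ) (m q : ℕ → ℝ) (kap η ε u0 : ℝ) (b0 : Fin κ → ℝ) {σ R : ℝ}
    (hσ : 0 < σ) : ContinuousOn (fun p : (Fin κ → ℝ) × (ℕ → ℝ) × (Fin κ → ℕ → ℝ) =>
      Pen K m q kap η ε u0 b0 ⟨p.1, p.2.1, p.2.2⟩) (optK κ K σ R) := by
  unfold Pen
  refine ContinuousOn.add (continuousOn_finset_sum _ fun j hj => ?_) ?_
  · refine ContinuousOn.add (Continuous.continuousOn (by fun_prop)) ?_
    refine ContinuousOn.div continuousOn_const (Continuous.continuousOn (by fun_prop)) ?_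
    intro p hp
    rw [Finset.mem_Ico] at hj
    have := ((mem_optK p).1 hp).2.1 j
    rw [if_pos ⟨hj.1, by omega⟩] at this
    exact (hσ.trans_le this.1).ne'
  · exact Continuous.continuousOn (by fun_prop)

/-- truncated parameters. -/
def optT (K : ℕ) (P : Pm κ) : Pm κ :=
  ⟨P.b, fun l => if 1 ≤ l ∧ l ≤ K then P.s l else 0,
    fun k l => if 1 ≤ l ∧ l ≤ K then P.u k l else 0⟩

theorem opt_trunc (hm : Exponents K m) (hN : 0 < N) {P : Pm κ} (hP : Adm K P) :
    Fe ν K m c (optT K P) - Pen K m q kap η ε u0 b0 (optT K P) =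
      Fe ν K m c P - Pen K m q kap η ε u0 b0 P := by
  have hs : ∀ l ≤ K, 0 ≤ P.s l := by
    intro l hl
    rcases Nat.eq_zero_or_pos l with h0 | h0
    · rw [h0, hP.s0]
    · exact (hP.pos l h0 hl).le
  have e1 : ∀ l ≤ K, (optT K P).s l = P.s l := by
    intro l hl
    change (if 1 ≤ l ∧ l ≤ K then P.s l else 0) = P.s l
    split_ifs with h
    · rfl
    · rw [show l = 0 by omega, hP.s0]
  have e2 : ∀ k, ∀ l ≤ K, (optT K P).u k l = P.u k l := by
    intro k l hl
    change (if 1 ≤ l ∧ l ≤ K then P.u k l else 0) = P.u k l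
    split_ifs with h
    · rfl
    · rw [show l = 0 by omega, hP.u0]
  have e3 : (optT K P).b = P.b := rfl
  have h1 := Fe_lip (ν := ν) (c := c) hm hN P (optT K P) hs (fun l hl => by
    rw [e1 l hl]
    exact hs l hl)
  have h2 : ∑ k, |(optT K P).b k - P.b k| = 0 := Finset.sum_eq_zero fun k _ => by rw [e3]; simp
  have h3 : ∑ l ∈ Finset.range (K + 1), |(optT K P).s l - P.s l| * (P.s l + (optT K P).s l) = 0 :=
    Finset.sum_eq_zero fun l hl => by
      rw [e1 l (Nat.lt_succ_iff.1 (Finset.mem_range.1 hl)), sub_self, abs_zero, zero_mul]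
  have h4 : ∑ k, ∑ l ∈ Finset.range (K + 1), |(optT K P).u k l - P.u k l| *
      (|P.u k l| + |(optT K P).u k l|) = 0 :=
    Finset.sum_eq_zero fun k _ => Finset.sum_eq_zero fun l hl => by
      rw [e2 k l (Nat.lt_succ_iff.1 (Finset.mem_range.1 hl)), sub_self, abs_zero, zero_mul]
  rw [h2, h3, h4] at h1
  have h5 := abs_nonpos_iff.1 (h1.trans (by norm_num))
  have h6 : Pen K m q kap η ε u0 b0 (optT K P) = Pen K m q kap η ε u0 b0 P := by
    have f1 : ∑ j ∈ Finset.Ico 1 (K + 1), (1 / 2 * (aco K m q j + kap) * (optT K P).s j ^ 2 +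
        η / (optT K P).s j) = ∑ j ∈ Finset.Ico 1 (K + 1),
        (1 / 2 * (aco K m q j + kap) * P.s j ^ 2 + η / P.s j) :=
      Finset.sum_congr rfl fun j hj => by rw [e1 j (by rw [Finset.mem_Ico] at hj; omega)]
    have f2 : ∑ k, ∑ j ∈ Finset.Ico 1 (K + 1), ((optT K P).u k j - u0) ^ 2 =
        ∑ k, ∑ j ∈ Finset.Ico 1 (K + 1), (P.u k j - u0) ^ 2 :=
      Finset.sum_congr rfl fun k _ => Finset.sum_congr rfl fun j hj => by
        rw [e2 k j (by rw [Finset.mem_Ico] at hj; omega)]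
    unfold Pen
    rw [f1, f2, e3]
  rw [h6]
  linarith only [h5]

/-- the coordinates of good parameters. -/
theorem opt_coords {P : Pm κ} (hP : Adm K P) (hkap : 0 < kap) (hη : 0 < η) (hε : 0 < ε) {B : ℝ}
    (hB0 : 0 ≤ B) (h1 : ∑ j ∈ Finset.Ico 1 (K + 1), (kap / 2 * P.s j ^ 2 + η / P.s j) +
      1 / (2 * ε) * (∑ k, (P.b k - b0 k) ^ 2 +
        ∑ k, ∑ j ∈ Finset.Ico 1 (K + 1), (P.u k j - u0) ^ 2) ≤ B) {R : ℝ}
    (hR : 1 + 2 * B / kap + 2 * ε * B + ∑ k, |b0 k| + |u0| ≤ R) :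
    (∀ j, 1 ≤ j → j ≤ K → P.s j ∈ Set.Icc (η / (B + η)) R) ∧
    (∀ k, P.b k ∈ Set.Icc (-R) R) ∧
    (∀ k j, 1 ≤ j → j ≤ K → P.u k j ∈ Set.Icc (-R) R) := by
  have hn1 : ∀ j ∈ Finset.Ico 1 (K + 1), 0 ≤ kap / 2 * P.s j ^ 2 + η / P.s j := by
    intro j hj
    rw [Finset.mem_Ico] at hj
    have := hP.pos j hj.1 (by omega)
    (clear * - hkap this hη; positivity)
  have hn2 : 0 ≤ ∑ k, (P.b k - b0 k) ^ 2 := by (clear * -; positivity)
  have hn3 : 0 ≤ ∑ k, ∑ j ∈ Finset.Ico 1 (K + 1), (P.u k j - u0) ^ 2 :=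
    Finset.sum_nonneg fun k _ => Finset.sum_nonneg fun j _ => sq_nonneg _
  have hi : 0 < 1 / (2 * ε) := by positivity
  have hBη : 0 < B + η := by linarith only [hη, hB0]
  have hkB : 0 ≤ 2 * B / kap := by (clear * - hB0 hkap; positivity)
  have hεB : 0 ≤ 2 * ε * B := by positivity
  have hbs : 0 ≤ ∑ k, |b0 k| := by (clear * -; positivity)
  have hbk : ∀ k, |b0 k| ≤ ∑ k, |b0 k| := fun k =>
    Finset.single_le_sum (f := fun k => |b0 k|) (fun i _ => abs_nonneg _) (Finset.mem_univ k)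
  have hu : 0 ≤ |u0| := abs_nonneg _
  have hs1 := Finset.sum_nonneg hn1
  have hs2 := mul_nonneg hi.le (add_nonneg hn2 hn3)
  have hsq : ∀ x : ℝ, |x| ≤ 1 + x ^ 2 := fun x => by
    rw [← sq_abs x]
    nlinarith only []
  refine ⟨fun j hj hjK => ?_, fun k => ?_, fun k j hj hjK => ?_⟩
  · have h3 : kap / 2 * P.s j ^ 2 + η / P.s j ≤ B :=
      (Finset.single_le_sum hn1 (Finset.mem_Ico.2 ⟨hj, by omega⟩)).trans (by linarith only [h1, hs2])
    have hs := hP.pos j hj hjK
    have h4 : 0 < η / P.s j := by (clear * - hη hs; positivity)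
    have h5 : 0 ≤ kap / 2 * P.s j ^ 2 := by positivity
    constructor
    · rw [div_le_iff₀ hBη]
      have h6 : η ≤ B * P.s j := by
        have : η / P.s j ≤ B := by linarith only [h3, h5]
        rwa [div_le_iff₀ hs] at this
      nlinarith only [h6, hη, hs]
    · have h7 : P.s j ^ 2 ≤ 2 * B / kap := by
        rw [le_div_iff₀ hkap]
        linarith only [h3, h4]
      have h8 := (le_abs_self _).trans (hsq (P.s j))
      linarith only [hR, hεB, hbs, hu, h7, h8]
  · have h3 : (P.b k - b0 k) ^ 2 ≤ ∑ k, (P.b k - b0 k) ^ 2 :=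
      Finset.single_le_sum (f := fun k => (P.b k - b0 k) ^ 2) (fun i _ => sq_nonneg _)
        (Finset.mem_univ k)
    have h4 : 1 / (2 * ε) * (P.b k - b0 k) ^ 2 ≤ B := by
      have := mul_le_mul_of_nonneg_left (h3.trans (le_add_of_nonneg_right hn3)) hi.le
      linarith only [h1, hs1, this]
    have h5 : (P.b k - b0 k) ^ 2 ≤ 2 * ε * B := by
      rw [one_div, inv_mul_le_iff₀ (by positivity)] at h4
      exact h4
    have h6 := hsq (P.b k - b0 k)
    have h7 : |P.b k| ≤ R := by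
      have := abs_add_le (b0 k) (P.b k - b0 k)
      rw [add_sub_cancel] at this
      have := hbk k
      linarith
    exact ⟨by linarith only [h7, neg_abs_le (P.b k)], by linarith only [h7, le_abs_self (P.b k)]⟩
  · have h3 : (P.u k j - u0) ^ 2 ≤ ∑ k, ∑ j ∈ Finset.Ico 1 (K + 1), (P.u k j - u0) ^ 2 :=
      (Finset.single_le_sum (f := fun j => (P.u k j - u0) ^ 2) (fun i _ => sq_nonneg _)
        (Finset.mem_Ico.2 ⟨hj, by omega⟩)).trans
      (Finset.single_le_sum (f := fun k => ∑ j ∈ Finset.Ico 1 (K + 1), (P.u k j - u0) ^ 2)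
        (fun i _ => Finset.sum_nonneg fun j _ => sq_nonneg _) (Finset.mem_univ k))
    have h4 : 1 / (2 * ε) * (P.u k j - u0) ^ 2 ≤ B := by
      have := mul_le_mul_of_nonneg_left (h3.trans (le_add_of_nonneg_left hn2)) hi.le
      linarith only [h1, hs1, this]
    have h5 : (P.u k j - u0) ^ 2 ≤ 2 * ε * B := by
      rw [one_div, inv_mul_le_iff₀ (by positivity)] at h4
      exact h4
    have h6 := hsq (P.u k j - u0)
    have h7 : |P.u k j| ≤ R := by
      have := abs_add_le u0 (P.u k j - u0)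
      rw [add_sub_cancel] at this
      linarith only [hR, hkB, hbs, h5, h6, this]
    exact ⟨by linarith only [h7, neg_abs_le (P.u k j)], by linarith only [h7, le_abs_self (P.u k j)]⟩

/-- the coordinates of the truncated good parameters are in the compact set. -/
theorem optT_mem {P : Pm κ} {σ R : ℝ} (h : (∀ j, 1 ≤ j → j ≤ K → P.s j ∈ Set.Icc σ R) ∧
    (∀ k, P.b k ∈ Set.Icc (-R) R) ∧ (∀ k j, 1 ≤ j → j ≤ K → P.u k j ∈ Set.Icc (-R) R)) :
    (((optT K P).b, (optT K P).s, (optT K P).u) : (Fin κ → ℝ) × (ℕ → ℝ) × (Fin κ → ℕ → ℝ)) ∈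
      optK κ K σ R := by
  rw [mem_optK]
  refine ⟨fun k => h.2.1 k, fun l => ?_, fun k l => ?_⟩
  · unfold optT
    by_cases hl : 1 ≤ l ∧ l ≤ K
    · simp only [if_pos hl]
      exact h.1 l hl.1 hl.2
    · simp only [if_neg hl]
      rfl
  · unfold optT
    by_cases hl : 1 ≤ l ∧ l ≤ K
    · simp only [if_pos hl]
      exact h.2.2 k l hl.1 hl.2
    · simp only [if_neg hl]
      rfl

theorem opt_max (f g : Pm κ → ℝ) {σ R : ℝ}
    (hf : ContinuousOn (fun p : (Fin κ → ℝ) × (ℕ → ℝ) × (Fin κ → ℕ → ℝ) =>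
      f ⟨p.1, p.2.1, p.2.2⟩) (optK κ K σ R))
    (hg : ContinuousOn (fun p : (Fin κ → ℝ) × (ℕ → ℝ) × (Fin κ → ℕ → ℝ) =>
      g ⟨p.1, p.2.1, p.2.2⟩) (optK κ K σ R))
    {P1 : Pm κ} (h1 : ((P1.b, P1.s, P1.u) : (Fin κ → ℝ) × (ℕ → ℝ) × (Fin κ → ℕ → ℝ)) ∈
      optK κ K σ R) :
    ∃ P0 : Pm κ, ((P0.b, P0.s, P0.u) : (Fin κ → ℝ) × (ℕ → ℝ) × (Fin κ → ℕ → ℝ)) ∈
      optK κ K σ R ∧ ∀ P : Pm κ,
        ((P.b, P.s, P.u) : (Fin κ → ℝ) × (ℕ → ℝ) × (Fin κ → ℕ → ℝ)) ∈ optK κ K σ R →
        f P - g P ≤ f P0 - g P0 := by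
  obtain ⟨p, hp, hpm⟩ := (optK_compact κ K σ R).exists_isMaxOn ⟨_, h1⟩ (hf.sub hg)
  refine ⟨⟨p.1, p.2.1, p.2.2⟩, hp, fun P hP => ?_⟩
  exact hpm hP

/-- **Existence.** -/
theorem exists_opt (hm : Exponents K m) (hN : 0 < N) {C : ℝ} (hC : SpinLe K m q C)
    (hkap : 0 < kap) (hη : 0 < η) (hε : 0 < ε) (hε1 : ε ≤ 1 / 4) :
    ∃ P, IsOpt ν K m q c kap η ε u0 b0 P := by
  obtain ⟨Pr, hPr⟩ : ∃ P : Pm κ, Adm K P :=
    ⟨⟨0, fun l => if l = 0 then 0 else 1, 0⟩, ⟨rfl, fun _ => rfl, fun j hj _ => by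
      change (0 : ℝ) < if j = 0 then 0 else 1
      rw [if_neg (by omega)]
      exact one_pos⟩⟩
  obtain ⟨B0, hB0⟩ : ∃ B0 : ℝ, ∀ P : Pm κ, Adm K P →
      Fe ν K m c Pr - Pen K m q kap η ε u0 b0 Pr ≤ Fe ν K m c P - Pen K m q kap η ε u0 b0 P →
      ∑ j ∈ Finset.Ico 1 (K + 1), (kap / 2 * P.s j ^ 2 + η / P.s j) +
      1 / (2 * ε) * (∑ k, (P.b k - b0 k) ^ 2 +
        ∑ k, ∑ j ∈ Finset.Ico 1 (K + 1), (P.u k j - u0) ^ 2) ≤ B0 := by
    refine ⟨C + 1 / 2 * ∑ k, |b0 k| + 2 * κ * K * u0 ^ 2 + κ * ε -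
      (Fe ν K m c Pr - Pen K m q kap η ε u0 b0 Pr), fun P hP h => ?_⟩
    have := obj_le (ν := ν) (c := c) (kap := kap) (η := η) (u0 := u0) (b0 := b0) hm hN hC hε hε1 hP
    linarith
  set B := max B0 0 with hB
  have hBn : 0 ≤ B := le_max_right _ _
  set R := 1 + 2 * B / kap + 2 * ε * B + ∑ k, |b0 k| + |u0| with hR
  have hσ : 0 < η / (B + η) := by (clear * - hη; positivity)
  have hmem : ∀ P : Pm κ, Adm K P → Fe ν K m c Pr - Pen K m q kap η ε u0 b0 Pr ≤
      Fe ν K m c P - Pen K m q kap η ε u0 b0 P →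
      (((optT K P).b, (optT K P).s, (optT K P).u) : (Fin κ → ℝ) × (ℕ → ℝ) × (Fin κ → ℕ → ℝ)) ∈
      optK κ K (η / (B + η)) R := fun P hP h =>
    optT_mem (opt_coords hP hkap hη hε hBn ((hB0 P hP h).trans (le_max_left _ _)) le_rfl)
  obtain ⟨P0, hp, hpm⟩ := opt_max (Fe ν K m c) (Pen K m q kap η ε u0 b0)
    (opt_contFe (ν := ν) (c := c) hm hN hσ) (opt_contPen K m q kap η ε u0 b0 hσ)
    (hmem Pr hPr le_rfl)
  have hp' := (mem_optK _).1 hp
  refine ⟨P0, ⟨?_, fun k => ?_, fun j hj hjK => ?_⟩, fun P' hP' => ?_⟩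
  · have := hp'.2.1 0
    rw [if_neg (by omega)] at this
    exact this
  · have := hp'.2.2 k 0
    rw [if_neg (by omega)] at this
    exact this
  · have := hp'.2.1 j
    rw [if_pos ⟨hj, hjK⟩] at this
    exact hσ.trans_le this.1
  · by_cases hv : Fe ν K m c Pr - Pen K m q kap η ε u0 b0 Pr ≤
        Fe ν K m c P' - Pen K m q kap η ε u0 b0 P'
    · rw [← opt_trunc (ν := ν) (c := c) hm hN hP']
      exact hpm _ (hmem P' hP' hv)
    · have h2 := hpm _ (hmem Pr hPr le_rfl)
      rw [opt_trunc (ν := ν) (c := c) hm hN hPr] at h2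
      linarith only [hv, h2]

/-- The value at the optimum is above the free energy without fields. -/
theorem IsOpt.ge (hm : Exponents K m) (hq : P157.Par.Path K q) (hq1 : q K ≤ 1) (hN : 0 < N)
    (h : IsOpt ν K m q c kap η ε u0 b0 P) (hkap : 0 < kap) (hkap1 : kap ≤ 1) (hη : 0 < η)
    {σ : ℝ} (hσ : 0 < σ) :
    Fe ν K m c ⟨b0, 0, 0⟩ - K * (σ ^ 2 + η / σ) ≤
      Fe ν K m c P - Pen K m q kap η ε u0 b0 P := by
  set P' : Pm κ := ⟨b0, fun l => if l = 0 then 0 else σ, fun _ l => if l = 0 then 0 else u0⟩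
    with hP'
  have ha : Adm K P' := by
    refine ⟨by simp [hP'], fun k => by simp [hP'], fun j hj _ => ?_⟩
    simp only [hP']
    rw [if_neg (by omega)]
    exact hσ
  have h1 := h.max P' ha
  have h2 := Fe_zero_le (ν := ν) (c := c) hm hN P'
  have h3 : Pen K m q kap η ε u0 b0 P' ≤ K * (σ ^ 2 + η / σ) := by
    unfold Pen
    have e1 : ∑ k, (P'.b k - b0 k) ^ 2 = 0 := Finset.sum_eq_zero fun k _ => by simp [hP']
    have e2 : ∑ k, ∑ j ∈ Finset.Ico 1 (K + 1), (P'.u k j - u0) ^ 2 = 0 := by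
      refine Finset.sum_eq_zero fun k _ => Finset.sum_eq_zero fun j hj => ?_
      rw [Finset.mem_Ico] at hj
      simp only [hP']
      rw [if_neg (by omega)]
      ring
    rw [e1, e2, add_zero, mul_zero, add_zero]
    have e3 : ∑ j ∈ Finset.Ico 1 (K + 1), (1 / 2 * (aco K m q j + kap) * P'.s j ^ 2 + η / P'.s j) ≤
        ∑ j ∈ Finset.Ico 1 (K + 1), (σ ^ 2 + η / σ) := by
      refine Finset.sum_le_sum fun j hj => ?_
      rw [Finset.mem_Ico] at hj
      have e4 : P'.s j = σ := by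
        simp only [hP']
        rw [if_neg (by omega)]
      rw [e4]
      have e5 := (aco_mem hm hq hq1 (j := j) (by omega)).2
      have e6 : 1 / 2 * (aco K m q j + kap) * σ ^ 2 ≤ 1 * σ ^ 2 :=
        mul_le_mul_of_nonneg_right (by linarith only [hkap1, e5]) (sq_nonneg σ)
      linarith only [e6]
    rw [Finset.sum_const, Nat.card_Ico, nsmul_eq_mul, Nat.add_sub_cancel] at e3
    exact e3
  have h4 : Fe ν K m c ⟨b0, 0, 0⟩ ≤ Fe ν K m c P' := h2
  linarith only [h1, h2, h3]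

/-- Bounds on the optimum. -/
theorem IsOpt.bounds (hm : Exponents K m) (hq : P157.Par.Path K q) (hq1 : q K ≤ 1) (hN : 0 < N)
    {C : ℝ} (hC : SpinLe K m q C) (h : IsOpt ν K m q c kap η ε u0 b0 P)
    (hkap : 0 < kap) (hkap1 : kap ≤ 1) (hη : 0 < η) (hη1 : η ≤ 1) (hε : 0 < ε)
    (hε1 : ε ≤ 1 / 4) (hu0 : 0 ≤ u0) (hu1 : u0 ≤ 1) :
    ∑ j ∈ Finset.Ico 1 (K + 1), kap / 2 * P.s j ^ 2 +
      1 / (2 * ε) * (∑ k, (P.b k - b0 k) ^ 2 +
        ∑ k, ∑ j ∈ Finset.Ico 1 (K + 1), (P.u k j - u0) ^ 2) ≤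
      C + ∑ k, |b0 k| + (2 * κ + 2) * (K + 1) := by
  have h1 := obj_le (ν := ν) (c := c) (kap := kap) (η := η) (u0 := u0) (b0 := b0) hm hN hC hε hε1
    h.adm
  have h2 := h.ge hm hq hq1 hN hkap hkap1 hη one_pos
  have h3 := Fe_zero_ge (ν := ν) (c := c) hm hN b0
  have h4 : ∑ j ∈ Finset.Ico 1 (K + 1), kap / 2 * P.s j ^ 2 ≤
      ∑ j ∈ Finset.Ico 1 (K + 1), (kap / 2 * P.s j ^ 2 + η / P.s j) := by
    refine Finset.sum_le_sum fun j hj => ?_
    rw [Finset.mem_Ico] at hj
    have := div_pos hη (h.adm.pos j hj.1 (by omega))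
    linarith only [this]
  have hK : (0 : ℝ) ≤ K := Nat.cast_nonneg K
  have hκ : (0 : ℝ) ≤ κ := Nat.cast_nonneg κ
  have h5 : 2 * κ * K * u0 ^ 2 ≤ 2 * κ * K * 1 := by
    refine mul_le_mul_of_nonneg_left ?_ (by (clear * -; positivity))
    nlinarith only [hu1, hu0]
  have h6 : (κ : ℝ) * ε ≤ κ * 1 := mul_le_mul_of_nonneg_left (by linarith only [hε1]) hκ
  have h7 : (K : ℝ) * (1 ^ 2 + η / 1) ≤ K * 2 := mul_le_mul_of_nonneg_left (by linarith only [hη1]) hK
  linarith

/-- First order condition for the site fields. -/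
theorem IsOpt.tails (hm : Exponents K m) (hN : 0 < N) (h : IsOpt ν K m q c kap η ε u0 b0 P)
    {j : ℕ} (hj : 1 ≤ j) (hjK : j ≤ K) :
    ∑ l ∈ Finset.Ico j (K + 1), (m (l + 1) - m l) * (Ql ν K m c P l - q l) =
      η / P.s j ^ 3 - kap := by
  have hs : ∀ l ≤ K, 0 ≤ P.s l := by
    intro l hl
    rcases Nat.eq_zero_or_pos l with h0 | h0
    · rw [h0, h.adm.s0]
    · exact (h.adm.pos l h0 hl).le
  have hpos := h.adm.pos j hj hjK
  set a := P.s j with ha
  set A := 1 / 2 * (aco K m q j + kap) with hA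
  set H := hzU ν K m c P j with hH
  -- the inequality for small shifts
  have key : ∀ t : ℝ, 0 < a + t → t * H ≤ (A * (a + t) ^ 2 + η / (a + t)) - (A * a ^ 2 + η / a) := by
    intro t ht
    set P' : Pm κ := ⟨P.b, Function.update P.s j (a + t), P.u⟩ with hP'
    have had : Adm K P' := by
      refine ⟨?_, h.adm.u0, fun i hi hiK => ?_⟩
      · change Function.update P.s j (a + t) 0 = 0
        rw [Function.update_of_ne (by omega)]
        exact h.adm.s0
      · change 0 < Function.update P.s j (a + t) i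
        by_cases hij : i = j
        · rw [hij, Function.update_self]
          exact ht
        · rw [Function.update_of_ne hij]
          exact h.adm.pos i hi hiK
    have e1 := h.max P' had
    have e2 := Fe_tangent (ν := ν) (c := c) hm hN P P'
    have e3 : ∑ k, (P'.b k - P.b k) / 2 * rho ν K m c P k = 0 :=
      Finset.sum_eq_zero fun k _ => by simp [hP']
    have e4 : ∑ k, ∑ l ∈ Finset.range (K + 1), (P'.u k l - P.u k l) * hbU ν K m c P k l = 0 :=
      Finset.sum_eq_zero fun k _ => Finset.sum_eq_zero fun l _ => by simp [hP']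
    have e5 : ∑ l ∈ Finset.range (K + 1), (P'.s l - P.s l) * hzU ν K m c P l = t * H := by
      rw [Finset.sum_eq_single j]
      · change (Function.update P.s j (a + t) j - P.s j) * hzU ν K m c P j = t * H
        rw [Function.update_self, ← ha, add_sub_cancel_left]
      · intro l _ hlj
        change (Function.update P.s j (a + t) l - P.s l) * _ = 0
        rw [Function.update_of_ne hlj, sub_self, zero_mul]
      · intro hj'
        exact absurd (Finset.mem_range.2 (by omega)) hj'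
    rw [e3, e4, e5, zero_add, add_zero] at e2
    have e6 : Pen K m q kap η ε u0 b0 P' - Pen K m q kap η ε u0 b0 P =
        (A * (a + t) ^ 2 + η / (a + t)) - (A * a ^ 2 + η / a) := by
      unfold Pen
      have e7 : ∑ i ∈ Finset.Ico 1 (K + 1), (1 / 2 * (aco K m q i + kap) * P'.s i ^ 2 + η / P'.s i) -
          ∑ i ∈ Finset.Ico 1 (K + 1), (1 / 2 * (aco K m q i + kap) * P.s i ^ 2 + η / P.s i) =
          (A * (a + t) ^ 2 + η / (a + t)) - (A * a ^ 2 + η / a) := by
        rw [← Finset.sum_sub_distrib, Finset.sum_eq_single j]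
        · change 1 / 2 * (aco K m q j + kap) * (Function.update P.s j (a + t) j) ^ 2 +
            η / (Function.update P.s j (a + t) j) - _ = _
          rw [Function.update_self]
        · intro l _ hlj
          change 1 / 2 * (aco K m q l + kap) * (Function.update P.s j (a + t) l) ^ 2 +
            η / (Function.update P.s j (a + t) l) - _ = _
          rw [Function.update_of_ne hlj, sub_self]
        · intro hj'
          exact absurd (Finset.mem_Ico.2 ⟨hj, by omega⟩) hj'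
      have e8 : P'.b = P.b := rfl
      have e9 : P'.u = P.u := rfl
      rw [e8, e9]
      linarith only [e7]
    linarith only [e1, e2, e6]
  -- the derivative at zero
  have hd : HasDerivAt (fun t : ℝ => (A * (a + t) ^ 2 + η / (a + t)) - t * H)
      (A * (2 * a) - η / a ^ 2 - H) 0 := by
    have d1 : HasDerivAt (fun t : ℝ => a + t) 1 0 := (hasDerivAt_id (0 : ℝ)).const_add a
    have d2 : HasDerivAt (fun t : ℝ => (a + t) ^ 2) (2 * a) 0 := by
      simpa only [Nat.cast_ofNat, add_zero, Nat.add_one_sub_one, pow_one, mul_one] using d1.fun_pow 2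
    have d3 : HasDerivAt (fun t : ℝ => η / (a + t)) ((0 * (a + 0) - η * 1) / (a + 0) ^ 2) 0 :=
      (hasDerivAt_const (0 : ℝ) η).div d1 (by simpa using hpos.ne')
    have d4 := ((d2.const_mul A).add d3).sub ((hasDerivAt_id (0 : ℝ)).mul_const H)
    refine d4.congr_deriv ?_
    rw [add_zero, one_mul, zero_mul, zero_sub, mul_one, neg_div]
    ring
  have hmin : IsLocalMin (fun t : ℝ => (A * (a + t) ^ 2 + η / (a + t)) - t * H) 0 := by
    have hev : ∀ᶠ t : ℝ in 𝓝 0, 0 < a + t := by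
      have : Continuous fun t : ℝ => a + t := by fun_prop
      exact this.continuousAt.eventually (lt_mem_nhds (by simpa using hpos))
    filter_upwards [hev] with t ht
    have := key t ht
    simp only [add_zero, zero_mul, sub_zero]
    linarith only [this]
  have h0 := hmin.hasDerivAt_eq_zero hd
  have h1 : H = a * (1 - ∑ i ∈ Finset.Ico j (K + 1), (m (i + 1) - m i) * Ql ν K m c P i) :=
    hzU_eq hm hN hs hjK
  have h2 : ∑ l ∈ Finset.Ico j (K + 1), (m (l + 1) - m l) * (Ql ν K m c P l - q l) =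
      ∑ i ∈ Finset.Ico j (K + 1), (m (i + 1) - m i) * Ql ν K m c P i -
      ∑ l ∈ Finset.Ico j (K + 1), (m (l + 1) - m l) * q l := by
    rw [← Finset.sum_sub_distrib]
    exact Finset.sum_congr rfl fun l _ => by ring
  have h3 : aco K m q j = 1 - ∑ l ∈ Finset.Ico j (K + 1), (m (l + 1) - m l) * q l := rfl
  rw [h2]
  rw [h1, hA, h3] at h0
  have ha0 : a ≠ 0 := hpos.ne'
  have h4 : a * (∑ i ∈ Finset.Ico j (K + 1), (m (i + 1) - m i) * Ql ν K m c P i -
      ∑ l ∈ Finset.Ico j (K + 1), (m (l + 1) - m l) * q l + kap) = η / a ^ 2 := by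
    linarith only [h0]
  have h5 : η / a ^ 3 = η / a ^ 2 / a := by
    (clear * - ha0; field_simp)
  rw [h5, ← h4, mul_div_cancel_left₀ _ ha0]
  ring

/-- The parameters with the coupling of the block `k` shifted by `t`. -/
def Pm.addb (P : Pm κ) (k : Fin κ) (t : ℝ) : Pm κ :=
  ⟨Function.update P.b k (P.b k + t), P.s, P.u⟩

/-- The parameters with the strength of the block field `(k, j)` shifted by `t`. -/
def Pm.addu (P : Pm κ) (k : Fin κ) (j : ℕ) (t : ℝ) : Pm κ :=
  ⟨P.b, P.s, Function.update P.u k (Function.update (P.u k) j (P.u k j + t))⟩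

/-- Second order condition for the couplings. -/
theorem IsOpt.second_b (h : IsOpt ν K m q c kap η ε u0 b0 P) (k : Fin κ) (t : ℝ) :
    Fe ν K m c (Pm.addb P k t) + Fe ν K m c (Pm.addb P k (-t)) - 2 * Fe ν K m c P ≤
      2 / ε * t ^ 2 := by
  have had : ∀ r, Adm K (Pm.addb P k r) := fun r => ⟨h.adm.s0, h.adm.u0, h.adm.pos⟩
  have h1 := h.max _ (had t)
  have h2 := h.max _ (had (-t))
  have h3 : ∀ r, Pen K m q kap η ε u0 b0 (Pm.addb P k r) - Pen K m q kap η ε u0 b0 P =
      1 / ε * (2 * (P.b k - b0 k) * r + r ^ 2) := by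
    intro r
    unfold Pen
    have e1 : ∑ k', ((Pm.addb P k r).b k' - b0 k') ^ 2 - ∑ k', (P.b k' - b0 k') ^ 2 =
        2 * (P.b k - b0 k) * r + r ^ 2 := by
      rw [← Finset.sum_sub_distrib, Finset.sum_eq_single k]
      · change (Function.update P.b k (P.b k + r) k - b0 k) ^ 2 - _ = _
        rw [Function.update_self]
        ring
      · intro l _ hlj
        change (Function.update P.b k (P.b k + r) l - b0 l) ^ 2 - _ = _
        rw [Function.update_of_ne hlj, sub_self]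
      · intro hj'
        exact absurd (Finset.mem_univ k) hj'
    have e2 : (Pm.addb P k r).s = P.s := rfl
    have e3 : (Pm.addb P k r).u = P.u := rfl
    rw [e2, e3, ← e1]
    ring
  have h4 := h3 t
  have h5 := h3 (-t)
  have h6 : 2 / ε * t ^ 2 = 1 / ε * (2 * (P.b k - b0 k) * t + t ^ 2) +
      1 / ε * (2 * (P.b k - b0 k) * (-t) + (-t) ^ 2) := by ring
  linarith

/-- Second order condition for the block fields. -/
theorem IsOpt.second_u (h : IsOpt ν K m q c kap η ε u0 b0 P) (k : Fin κ) {j : ℕ} (hj : 1 ≤ j)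
    (hjK : j ≤ K) (t : ℝ) :
    Fe ν K m c (Pm.addu P k j t) + Fe ν K m c (Pm.addu P k j (-t)) - 2 * Fe ν K m c P ≤
      2 / ε * t ^ 2 := by
  have had : ∀ r, Adm K (Pm.addu P k j r) := fun r => by
    refine ⟨h.adm.s0, fun k' => ?_, h.adm.pos⟩
    change Function.update P.u k (Function.update (P.u k) j (P.u k j + r)) k' 0 = 0
    by_cases hk : k' = k
    · rw [hk, Function.update_self, Function.update_of_ne (by omega)]
      exact h.adm.u0 k
    · rw [Function.update_of_ne hk]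
      exact h.adm.u0 k'
  have h1 := h.max _ (had t)
  have h2 := h.max _ (had (-t))
  have h3 : ∀ r, Pen K m q kap η ε u0 b0 (Pm.addu P k j r) - Pen K m q kap η ε u0 b0 P =
      1 / ε * (2 * (P.u k j - u0) * r + r ^ 2) := by
    intro r
    unfold Pen
    have e1 : ∑ k', ∑ i ∈ Finset.Ico 1 (K + 1), ((Pm.addu P k j r).u k' i - u0) ^ 2 -
        ∑ k', ∑ i ∈ Finset.Ico 1 (K + 1), (P.u k' i - u0) ^ 2 =
        2 * (P.u k j - u0) * r + r ^ 2 := by
      rw [← Finset.sum_sub_distrib, Finset.sum_eq_single k]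
      · rw [← Finset.sum_sub_distrib, Finset.sum_eq_single j]
        · change (Function.update P.u k (Function.update (P.u k) j (P.u k j + r)) k j - u0) ^ 2 -
            _ = _
          rw [Function.update_self, Function.update_self]
          ring
        · intro i _ hij
          change (Function.update P.u k (Function.update (P.u k) j (P.u k j + r)) k i - u0) ^ 2 -
            _ = _
          rw [Function.update_self, Function.update_of_ne hij, sub_self]
        · intro hj'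
          exact absurd (Finset.mem_Ico.2 ⟨hj, by omega⟩) hj'
      · intro l _ hlj
        rw [← Finset.sum_sub_distrib]
        refine Finset.sum_eq_zero fun i _ => ?_
        change (Function.update P.u k (Function.update (P.u k) j (P.u k j + r)) l i - u0) ^ 2 -
          _ = _
        rw [Function.update_of_ne hlj, sub_self]
      · intro hj'
        exact absurd (Finset.mem_univ k) hj'
    have e2 : (Pm.addu P k j r).s = P.s := rfl
    have e3 : (Pm.addu P k j r).b = P.b := rfl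
    rw [e2, e3, ← e1]
    ring
  have h4 := h3 t
  have h5 := h3 (-t)
  have h6 : 2 / ε * t ^ 2 = 1 / ε * (2 * (P.u k j - u0) * t + t ^ 2) +
      1 / ε * (2 * (P.u k j - u0) * (-t) + (-t) ^ 2) := by ring
  linarith only [h1, h2, h4, h5, h6]

/-- The step in the couplings: the optimal value at `b1` minus the value of the same parameters
with the couplings shifted back by `b1 - b0`. -/
theorem opt_step (hm : Exponents K m) (hN : 0 < N) {b1 : Fin κ → ℝ} {P0 P1 : Pm κ}
    (h0 : IsOpt ν K m q c kap η ε u0 b0 P0) (h1 : IsOpt ν K m q c kap η ε u0 b1 P1) :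
    (Fe ν K m c P1 - Pen K m q kap η ε u0 b1 P1) -
      (Fe ν K m c P0 - Pen K m q kap η ε u0 b0 P0) ≤
      ∑ k, (b1 k - b0 k) / 2 * rho ν K m c P1 k := by
  set P' : Pm κ := ⟨fun k => P1.b k - b1 k + b0 k, P1.s, P1.u⟩ with hP'
  have had : Adm K P' := ⟨h1.adm.s0, h1.adm.u0, h1.adm.pos⟩
  have e1 := h0.max P' had
  have e2 := Fe_tangent (ν := ν) (c := c) hm hN P1 P'
  have e3 : ∑ l ∈ Finset.range (K + 1), (P'.s l - P1.s l) * hzU ν K m c P1 l = 0 :=
    Finset.sum_eq_zero fun k _ => by simp [hP']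
  have e4 : ∑ k, ∑ l ∈ Finset.range (K + 1), (P'.u k l - P1.u k l) * hbU ν K m c P1 k l = 0 :=
    Finset.sum_eq_zero fun k _ => Finset.sum_eq_zero fun l _ => by simp [hP']
  have e5 : ∑ k, (P'.b k - P1.b k) / 2 * rho ν K m c P1 k =
      - ∑ k, (b1 k - b0 k) / 2 * rho ν K m c P1 k := by
    rw [← Finset.sum_neg_distrib]
    refine Finset.sum_congr rfl fun k _ => ?_
    simp only [hP']
    ring
  have e6 : Pen K m q kap η ε u0 b0 P' = Pen K m q kap η ε u0 b1 P1 := by
    unfold Pen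
    have e7 : ∑ k, (P'.b k - b0 k) ^ 2 = ∑ k, (P1.b k - b1 k) ^ 2 :=
      Finset.sum_congr rfl fun k _ => by simp only [hP']; ring
    have e8 : P'.s = P1.s := rfl
    have e9 : P'.u = P1.u := rfl
    rw [e7, e8, e9]
  rw [e3, e4, e5, add_zero, add_zero] at e2
  rw [e6] at e1
  linarith only [e1, e2]

end Vale.Agent.P166.U
end
end

section

section

open MeasureTheory ProbabilityTheory Filter Topology Finset

namespace Vale.Agent.P157.Par

set_option linter.unusedSectionVars false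

section

variable {m v : ℕ → ℝ} {k : ℕ} {W : ℝ → ℝ}

variable {V : ℕ → ℝ → ℝ} {s : ℕ} {h : ℝ → ℝ}

end

section

variable {k : ℕ} {v : ℕ → ℝ}

end

namespace Arr

variable {k : ℕ} {w : Fin (k + 1) → ℝ} {δ : Type} [Fintype δ] [DecidableEq δ]

end Arr

end Vale.Agent.P157.Par
end
end

section

section

open MeasureTheory ProbabilityTheory Filter Topology Finset

namespace Vale.Agent.P157.Par

/-! ### The cascade in terms of the weights -/

/-! ### Pair values -/

section

variable {m v : ℕ → ℝ} {k : ℕ} {V : ℕ → ℝ → ℝ} {s : ℕ}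

end

section

variable {m v : ℕ → ℝ} {k : ℕ} {a : ℝ} {W h : ℝ → ℝ}

end

end Vale.Agent.P157.Par
end
end

section

section

/-!
The interpolation inequality.
-/

open MeasureTheory ProbabilityTheory Filter Topology

namespace Vale.Agent.P157.Lv

set_option linter.unusedSectionVars false

section unif

variable {ι X : Type} [Fintype ι] [Fintype X] [Nonempty X] {S : Sy ι X}

end unif

variable {ι X : Type} [Fintype ι] [DecidableEq ι] [Fintype X] [DecidableEq X] [Nonempty X]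
  {S : Sy ι X} {D : ι → (ι → ℝ) → X → ℝ} {f f' f'' : ℝ → ℝ} {C₁ C₂ : ℝ} {α β : X → ι → ℝ}

section taylor

end taylor

end Vale.Agent.P157.Lv
end
end

section

section

/-!
The step from the field of a pattern to a tree field.
-/

open MeasureTheory ProbabilityTheory Filter Topology

namespace Vale.Agent.P157.Lv

set_option linter.unusedSectionVars false

open Par (incr)

open Sy

variable {ι X : Type} [Fintype ι] [DecidableEq ι] [Fintype X] [DecidableEq X] [Nonempty X]
  {S : Sy ι X} {D : ι → (ι → ℝ) → X → ℝ} {f f' f'' : ℝ → ℝ} {C₁ C₂ : ℝ} {α β : X → ι → ℝ}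

/-! ### One pattern -/

variable {N : ℕ}

/-! ### The coefficients -/

end Vale.Agent.P157.Lv
end
end

section

section

/-!
Free energies of tree fields and of the fields of the spins, in terms of the cascades.
-/

open MeasureTheory ProbabilityTheory Filter Topology

namespace Vale.Agent.P157.Lv

set_option linter.unusedSectionVars false

open Par (incr Path cascade gstep)

variable {ι X : Type} [Fintype ι] [DecidableEq ι] [Fintype X] [Nonempty X]
  {S : Sy ι X} {D : ι → (ι → ℝ) → X → ℝ}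

/-! ### Independence of a coordinate -/

/-! ### The tree field -/

end Vale.Agent.P157.Lv
end
end

section

section

/-!
Schur monotonicity of the pattern part and of the spin part.
-/

open MeasureTheory ProbabilityTheory Filter Topology

namespace Vale.Agent.P157.Lv

set_option linter.unusedSectionVars false

open Par (incr Path Exponents cascade spinPart)

variable {ι X : Type} [Fintype ι] [DecidableEq ι] [Fintype X] [Nonempty X]
  {S : Sy ι X} {D : ι → (ι → ℝ) → X → ℝ}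

/-! ### Auxiliary lemmas -/

namespace Sy

end Sy

end Vale.Agent.P157.Lv
end
end

section

section

/-!
Refinement of the exponents: each level is split into `n` levels. Block averages of paths.
-/

open MeasureTheory ProbabilityTheory Filter Topology

namespace Vale.Agent.P157.Lv

set_option linter.unusedSectionVars false

open Par (Path Exponents cascade gstep spinPart)

variable {n k : ℕ} {m q r : ℕ → ℝ}

end Vale.Agent.P157.Lv
end
end

section

section

/-!
P166, lower bound: second differences of the free energy.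
-/

open MeasureTheory ProbabilityTheory Matrix Filter Topology

namespace Vale.Agent.P166.L

open Vale.Agent.P157.Lv Vale.Agent.P157.Par Md H U

variable {κ : ℕ}

/-- The parameters with the potential of the type `k` increased by `t`. -/
noncomputable def pmb (P : Pm κ) (k : Fin κ) (t : ℝ) : Pm κ :=
  ⟨Function.update P.b k (P.b k + t), P.s, P.u⟩

/-- The parameters with the strength of the field of the type `k` and of the level `l` increased by
`t`. -/
noncomputable def pmu (P : Pm κ) (k : Fin κ) (l : ℕ) (t : ℝ) : Pm κ :=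
  ⟨P.b, P.s, Function.update P.u k (Function.update (P.u k) l (P.u k l + t))⟩

variable {N K : ℕ} {m : ℕ → ℝ} [MeasurableSpace (orthogonalGroup (Fin N) ℝ)]

/-- The sum of the second differences of the (extensive) free energy. -/
noncomputable def SD (ν : Measure (orthogonalGroup (Fin N) ℝ)) (K : ℕ) (m : ℕ → ℝ)
    (c : Fin N → Fin κ) (P : Pm κ) (t : ℝ) : ℝ :=
  ∑ k, (Ph ν K m c (pmb P k t) + Ph ν K m c (pmb P k (-t)) - 2 * Ph ν K m c P) +
    ∑ k, ∑ l ∈ Finset.Ico 1 (K + 1),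
      (Ph ν K m c (pmu P k l t) + Ph ν K m c (pmu P k l (-t)) - 2 * Ph ν K m c P)

section

variable [BorelSpace (orthogonalGroup (Fin N) ℝ)] {ν : Measure (orthogonalGroup (Fin N) ℝ)}
  [IsProbabilityMeasure ν]

lemma dd_sum_b (P : Pm κ) (k : Fin κ) (t : ℝ) (f : Fin κ → ℝ) :
    ∑ j, ((pmb P k t).b j - P.b j) / 2 * f j = t / 2 * f k := by
  rw [Finset.sum_eq_single k]
  · simp only [pmb, Function.update_self, add_sub_cancel_left]
  · intro j _ hj
    simp [pmb, Function.update_of_ne hj]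
  · intro h
    exact absurd (Finset.mem_univ _) h

lemma dd_sum_u (P : Pm κ) (k : Fin κ) (l : ℕ) (t : ℝ) (f : Fin κ → ℕ → ℝ) :
    ∑ j, ∑ i ∈ Finset.range (K + 1), ((pmu P k l t).u j i - P.u j i) * f j i =
      t * (if l ∈ Finset.range (K + 1) then f k l else 0) := by
  have h0 : ∀ i, (pmu P k l t).u k i = Function.update (P.u k) l (P.u k l + t) i := by
    intro i
    simp [pmu]
  rw [Finset.sum_eq_single k]
  · have h1 : ∀ i ∈ Finset.range (K + 1), i ≠ l →
        ((pmu P k l t).u k i - P.u k i) * f k i = 0 := by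
      intro i _ hi
      rw [h0, Function.update_of_ne hi, sub_self, zero_mul]
    by_cases hl : l ∈ Finset.range (K + 1)
    · rw [Finset.sum_eq_single_of_mem l hl h1, h0, Function.update_self, if_pos hl]
      ring
    · rw [if_neg hl, mul_zero]
      refine Finset.sum_eq_zero fun i hi => h1 i hi ?_
      rintro rfl
      exact hl hi
  · intro j _ hj
    refine Finset.sum_eq_zero fun i _ => ?_
    have h2 : (pmu P k l t).u j = P.u j := by
      simp [pmu, Function.update_of_ne hj]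
    rw [h2, sub_self, zero_mul]
  · intro h
    exact absurd (Finset.mem_univ _) h

omit [BorelSpace (orthogonalGroup (Fin N) ℝ)] [IsProbabilityMeasure ν] in
lemma dd_Ph (hN : 0 < N) (c : Fin N → Fin κ) (P : Pm κ) :
    Ph ν K m c P = N * (Fe ν K m c P + Real.log 2) := by
  have hN0 : (N : ℝ) ≠ 0 := by exact_mod_cast hN.ne'
  unfold Ph Md.Fe
  field_simp
  ring

lemma dd_tan_b (hm : Exponents K m) (hN : 0 < N) (c : Fin N → Fin κ) (P : Pm κ) (k : Fin κ)
    (t : ℝ) : Ph ν K m c P + N * (t / 2 * rho ν K m c P k) ≤ Ph ν K m c (pmb P k t) := by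
  have hN0 : (0 : ℝ) < N := by exact_mod_cast hN
  have h := Fe_tangent (ν := ν) (c := c) hm hN P (pmb P k t)
  rw [dd_sum_b] at h
  have e1 : ∑ l ∈ Finset.range (K + 1), ((pmb P k t).s l - P.s l) * hzU ν K m c P l = 0 := by
    refine Finset.sum_eq_zero fun l _ => ?_
    simp [pmb]
  have e2 : ∑ j, ∑ l ∈ Finset.range (K + 1), ((pmb P k t).u j l - P.u j l) *
      hbU ν K m c P j l = 0 := by
    refine Finset.sum_eq_zero fun j _ => Finset.sum_eq_zero fun l _ => ?_
    simp [pmb]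
  rw [e1, e2, add_zero, add_zero] at h
  rw [dd_Ph hN, dd_Ph hN]
  linarith only [mul_le_mul_of_nonneg_left h hN0.le]

lemma dd_tan_u (hm : Exponents K m) (hN : 0 < N) (c : Fin N → Fin κ) (P : Pm κ) (k : Fin κ)
    (l : ℕ) (t : ℝ) : Ph ν K m c P + N * (t * (if l ∈ Finset.range (K + 1) then
      hbU ν K m c P k l else 0)) ≤ Ph ν K m c (pmu P k l t) := by
  have hN0 : (0 : ℝ) < N := by exact_mod_cast hN
  have h := Fe_tangent (ν := ν) (c := c) hm hN P (pmu P k l t)
  rw [dd_sum_u P k l t (fun k l => hbU ν K m c P k l)] at h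
  have e1 : ∑ j, ((pmu P k l t).b j - P.b j) / 2 * rho ν K m c P j = 0 := by
    refine Finset.sum_eq_zero fun j _ => ?_
    simp only [pmu, sub_self, zero_div, zero_mul]
  have e2 : ∑ i ∈ Finset.range (K + 1), ((pmu P k l t).s i - P.s i) * hzU ν K m c P i = 0 := by
    refine Finset.sum_eq_zero fun i _ => ?_
    simp [pmu]
  rw [e1, e2, zero_add, zero_add] at h
  rw [dd_Ph hN, dd_Ph hN]
  linarith only [mul_le_mul_of_nonneg_left h hN0.le]

theorem sd_b_nonneg (hm : Exponents K m) (hN : 0 < N) (c : Fin N → Fin κ) (P : Pm κ) (k : Fin κ)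
    (t : ℝ) : 0 ≤ Ph ν K m c (pmb P k t) + Ph ν K m c (pmb P k (-t)) - 2 * Ph ν K m c P := by
  have h1 := dd_tan_b (ν := ν) hm hN c P k t
  have h2 := dd_tan_b (ν := ν) hm hN c P k (-t)
  have e : (N : ℝ) * (-t / 2 * rho ν K m c P k) = -(N * (t / 2 * rho ν K m c P k)) := by ring
  rw [e] at h2
  linarith only [h1, h2]

theorem sd_u_nonneg (hm : Exponents K m) (hN : 0 < N) (c : Fin N → Fin κ) (P : Pm κ) (k : Fin κ)
    (l : ℕ) (t : ℝ) :
    0 ≤ Ph ν K m c (pmu P k l t) + Ph ν K m c (pmu P k l (-t)) - 2 * Ph ν K m c P := by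
  have h1 := dd_tan_u (ν := ν) hm hN c P k l t
  have h2 := dd_tan_u (ν := ν) hm hN c P k l (-t)
  rw [neg_mul, mul_neg] at h2
  linarith only [h1, h2]

/-- The free energy is above its tangents. -/
theorem Ph_tangent_b (hm : Exponents K m) (hN : 0 < N) (c : Fin N → Fin κ) (P : Pm κ) (k : Fin κ)
    (t : ℝ) : Ph ν K m c P + N * t / 2 * rho ν K m c P k ≤ Ph ν K m c (pmb P k t) := by
  have h1 := dd_tan_b (ν := ν) hm hN c P k t
  have e : (N : ℝ) * (t / 2 * rho ν K m c P k) = N * t / 2 * rho ν K m c P k := by ring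
  rwa [e] at h1

theorem Ph_tangent_u (hm : Exponents K m) (hN : 0 < N) (c : Fin N → Fin κ) (P : Pm κ) (k : Fin κ)
    {l : ℕ} (hl : l ≤ K) (t : ℝ) :
    Ph ν K m c P + N * t * (P.u k l * (rho ν K m c P k -
      ∑ i ∈ Finset.Ico l (K + 1), (m (i + 1) - m i) * Rkl ν K m c P k i)) ≤
      Ph ν K m c (pmu P k l t) := by
  have h1 := dd_tan_u (ν := ν) hm hN c P k l t
  rw [if_pos (Finset.mem_range.mpr (Nat.lt_succ_of_le hl)), hbU_eq hm hN k hl, ← mul_assoc] at h1
  exact h1

end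

end Vale.Agent.P166.L
end
end

section

section

/-! Task F-RD: rounding a compactly supported law. -/

open MeasureTheory Finset Filter Topology

namespace Vale.Agent.P166.F

theorem round_le {δ : ℝ} (hδ : 0 < δ) (x : ℝ) : x ≤ δ * ⌈x / δ⌉ := by
  have h := Int.le_ceil (x / δ)
  rw [div_le_iff₀ hδ] at h
  linarith

theorem round_ge {δ : ℝ} (hδ : 0 < δ) (x : ℝ) : δ * ⌈x / δ⌉ ≤ x + δ := by
  have h := (Int.ceil_lt_add_one (x / δ)).le
  have h2 : δ * (⌈x / δ⌉ : ℝ) ≤ δ * (x / δ + 1) := mul_le_mul_of_nonneg_left h hδ.le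
  have h3 : δ * (x / δ + 1) = x + δ := by field_simp
  linarith

theorem round_meas (δ : ℝ) : Measurable fun x : ℝ => δ * (⌈x / δ⌉ : ℝ) := by
  have h1 : Measurable fun x : ℝ => ⌈x / δ⌉ := Int.measurable_ceil.comp (measurable_id.div_const δ)
  have h2 : Measurable fun z : ℤ => (z : ℝ) := measurable_from_top
  exact (h2.comp h1).const_mul δ

theorem map_compact {μ : Measure ℝ} [IsProbabilityMeasure μ] (hμ : IsCompact μ.support)
    {T : ℝ → ℝ} (hT : Measurable T) {δ : ℝ} (h1 : ∀ x, x ≤ T x) (h2 : ∀ x, T x ≤ x + δ) :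
    IsCompact (μ.map T).support :=
  (rt2_map_compact hμ hT h1 h2).1

theorem round_int {μ : Measure ℝ} [IsProbabilityMeasure μ] (hμ : IsCompact μ.support) (t : ℝ) :
    Integrable (fun x => max (x - t) 0) μ := by
  apply Integrable.of_bound (C := |sSup μ.support| + |t|)
  · exact (by fun_prop : Continuous fun x : ℝ => max (x - t) 0).measurable.aestronglyMeasurable
  · filter_upwards [rt2_ae_le hμ] with x hx
    rw [Real.norm_eq_abs, abs_of_nonneg (le_max_right _ _)]
    apply max_le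
    · have h1 := le_abs_self (sSup μ.support)
      have h2 : -t ≤ |t| := neg_le_abs t
      linarith
    · positivity

/-- Increasing convex order. -/
theorem map_icx {μ : Measure ℝ} [IsProbabilityMeasure μ] (hμ : IsCompact μ.support)
    {T : ℝ → ℝ} (hT : Measurable T) {δ : ℝ} (h1 : ∀ x, x ≤ T x) (h2 : ∀ x, T x ≤ x + δ) (t : ℝ) :
    ∫ x, max (x - t) 0 ∂μ ≤ ∫ x, max (x + 0 - t) 0 ∂(μ.map T) ∧
      ∫ x, max (x - t) 0 ∂(μ.map T) ≤ ∫ x, max (x + δ - t) 0 ∂μ := by
  have : IsProbabilityMeasure (μ.map T) := Measure.isProbabilityMeasure_map hT.aemeasurable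
  have hc := map_compact hμ hT h1 h2
  have hm : AEStronglyMeasurable (fun x : ℝ => max (x - t) 0) (μ.map T) :=
    (by fun_prop : Continuous fun x : ℝ => max (x - t) 0).measurable.aestronglyMeasurable
  have hi : Integrable (fun x => max (T x - t) 0) μ :=
    (integrable_map_measure hm hT.aemeasurable).1 (round_int hc t)
  have e : ∫ x, max (x - t) 0 ∂(μ.map T) = ∫ x, max (T x - t) 0 ∂μ :=
    integral_map hT.aemeasurable hm
  constructor
  · simp only [add_zero]
    rw [e]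
    exact integral_mono (round_int hμ t) hi fun x =>
      max_le_max (by have := h1 x; linarith) le_rfl
  · rw [e]
    have e2 : (fun x : ℝ => max (x + δ - t) 0) = fun x => max (x - (t - δ)) 0 := by
      funext x
      congr 1
      ring
    rw [e2]
    exact integral_mono hi (round_int hμ (t - δ)) fun x =>
      max_le_max (by have := h2 x; linarith) le_rfl

end Vale.Agent.P166.F
end
end

section

section

/-! Task F-A2: approximate loop equations determine the matrices. -/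

open Finset

namespace Vale.Agent.P166.F

variable {B : Type} [Fintype B]

/-- The exact solution `h_b = 1 / (β (ζ(Q) - a_b))` of the loop equations. -/
noncomputable def Rzero (K : ℕ) (m : ℕ → ℝ) (β : ℝ) (a : B → ℝ) (ζ : ℝ → ℝ) (x : ℕ → ℝ)
    (b : B) : Hm := Hm.ofEv K m (fun l => 1 / (β * (ζ (x l) - a b)))

namespace St

/-! ### bounded variation with respect to a decreasing sequence -/

/-- `u` is bounded by `C` and its variation is at most `C` times that of `x`. -/
def Bd (K : ℕ) (x : ℕ → ℝ) (C : ℝ) (u : ℕ → ℝ) : Prop :=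
  (∀ l ≤ K, |u l| ≤ C) ∧ ∀ l < K, |u l - u (l + 1)| ≤ C * (x l - x (l + 1))

variable {K : ℕ} {m x : ℕ → ℝ}

lemma Bd.nonneg {C : ℝ} {u : ℕ → ℝ} (h : Bd K x C u) : 0 ≤ C :=
  (abs_nonneg _).trans (h.1 0 (Nat.zero_le _))

lemma Bd.mul (hx : ∀ l < K, 0 ≤ x l - x (l + 1)) {C C' : ℝ} {u v : ℕ → ℝ} (h : Bd K x C u)
    (h' : Bd K x C' v) : Bd K x (2 * (C * C')) (fun l => u l * v l) := by
  have c0 := h.nonneg
  have c0' := h'.nonneg
  constructor
  · intro l hl
    rw [abs_mul]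
    have : |u l| * |v l| ≤ C * C' := mul_le_mul (h.1 l hl) (h'.1 l hl) (abs_nonneg _) c0
    have : 0 ≤ C * C' := mul_nonneg c0 c0'
    linarith
  · intro l hl
    have e : u l * v l - u (l + 1) * v (l + 1) =
        u l * (v l - v (l + 1)) + (u l - u (l + 1)) * v (l + 1) := by ring
    rw [e]
    refine (abs_add_le _ _).trans ?_
    rw [abs_mul, abs_mul]
    have a1 : |u l| * |v l - v (l + 1)| ≤ C * (C' * (x l - x (l + 1))) :=
      mul_le_mul (h.1 l hl.le) (h'.2 l hl) (abs_nonneg _) c0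
    have a2 : |u l - u (l + 1)| * |v (l + 1)| ≤ (C * (x l - x (l + 1))) * C' :=
      mul_le_mul (h.2 l hl) (h'.1 (l + 1) hl) (abs_nonneg _) (mul_nonneg c0 (hx l hl))
    linarith only [a1, a2]

lemma Bd.const_mul {C : ℝ} {u : ℕ → ℝ} (k : ℝ) (hk : 0 ≤ k) (h : Bd K x C u) :
    Bd K x (k * C) (fun l => k * u l) := by
  constructor
  · intro l hl
    rw [abs_mul, abs_of_nonneg hk]
    exact mul_le_mul_of_nonneg_left (h.1 l hl) hk
  · intro l hl
    rw [← mul_sub, abs_mul, abs_of_nonneg hk, mul_assoc]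
    exact mul_le_mul_of_nonneg_left (h.2 l hl) hk

lemma Bd.sum {C : B → ℝ} {u : B → ℕ → ℝ} (h : ∀ b, Bd K x (C b) (u b)) :
    Bd K x (∑ b, C b) (fun l => ∑ b, u b l) := by
  constructor
  · intro l hl
    exact (Finset.abs_sum_le_sum_abs _ _).trans (Finset.sum_le_sum fun b _ => (h b).1 l hl)
  · intro l hl
    rw [← Finset.sum_sub_distrib, Finset.sum_mul]
    exact (Finset.abs_sum_le_sum_abs _ _).trans (Finset.sum_le_sum fun b _ => (h b).2 l hl)

lemma Bd.inv {C δ : ℝ} {u : ℕ → ℝ} (hx : ∀ l < K, 0 ≤ x l - x (l + 1)) (hδ : 0 < δ)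
    (hu : ∀ l ≤ K, δ ≤ u l) (h : Bd K x C u) :
    Bd K x (1 / δ + C / δ ^ 2) (fun l => 1 / u l) := by
  have c0 := h.nonneg
  have c1 : 0 ≤ C / δ ^ 2 := by positivity
  have c2 : 0 < 1 / δ := by (clear * - hδ; positivity)
  constructor
  · intro l hl
    have h1 := hu l hl
    have h2 : 0 < u l := hδ.trans_le h1
    rw [abs_of_pos (by positivity)]
    have : 1 / u l ≤ 1 / δ := one_div_le_one_div_of_le hδ h1
    linarith only [c1, this]
  · intro l hl
    have h1 := hu l hl.le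
    have h2 : 0 < u l := hδ.trans_le h1
    have h1' := hu (l + 1) hl
    have h2' : 0 < u (l + 1) := hδ.trans_le h1'
    have e : 1 / u l - 1 / u (l + 1) = - (u l - u (l + 1)) / (u l * u (l + 1)) := by
      field_simp
      ring
    have h3 : δ ^ 2 ≤ u l * u (l + 1) := by
      rw [pow_two]
      exact mul_le_mul h1 h1' hδ.le h2.le
    rw [e, abs_div, abs_neg, abs_of_pos (mul_pos h2 h2')]
    have h4 := h.2 l hl
    have h5 := hx l hl
    calc |u l - u (l + 1)| / (u l * u (l + 1)) ≤ (C * (x l - x (l + 1))) / δ ^ 2 := by (clear * - c0 h5 h4 hδ h3; gcongr)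
      _ = C / δ ^ 2 * (x l - x (l + 1)) := by ring
      _ ≤ (1 / δ + C / δ ^ 2) * (x l - x (l + 1)) := by
        apply mul_le_mul_of_nonneg_right _ h5
        linarith only [c2]

/-- entries of `ofEv u` -/
lemma Bd.entries (h : Expo K m) {q : ℕ → ℝ} (hq0 : q 0 = 0)
    (hqm : ∀ l < K, q l ≤ q (l + 1)) (hqK : q K ≤ 1)
    (hxq : ∀ l < K, x l - x (l + 1) = m (l + 1) * (q (l + 1) - q l)) {C : ℝ} {u : ℕ → ℝ}
    (hu : Bd K x C u) :
    |(Hm.ofEv K m u).d| ≤ 2 * C ∧ ∀ l ≤ K, |(Hm.ofEv K m u).e l| ≤ 2 * C := by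
  have c0 := hu.nonneg
  have key : ∀ l ≤ K, |∑ i ∈ range l, (u i - u (i + 1)) / m (i + 1)| ≤ C := by
    intro l hl
    have h1 : ∀ i ∈ range l, |(u i - u (i + 1)) / m (i + 1)| ≤ C * (q (i + 1) - q i) := by
      intro i hi
      rw [Finset.mem_range] at hi
      have hm : 0 < m (i + 1) := h.pos' (by omega) (by omega)
      rw [abs_div, abs_of_pos hm, div_le_iff₀ hm]
      have := hu.2 i (by omega)
      rw [hxq i (by omega)] at this
      linarith only [this]
    have h2 : ∑ i ∈ range l, C * (q (i + 1) - q i) = C * q l := by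
      rw [← Finset.mul_sum, Finset.sum_range_sub, hq0, sub_zero]
    have h3 : q l ≤ q K := by
      have : ∀ j, l ≤ j → j ≤ K → q l ≤ q j := by
        intro j hj
        induction j, hj using Nat.le_induction with
        | base => intro _; exact le_rfl
        | succ j _ ih => intro hj; exact (ih (by omega)).trans (hqm j (by omega))
      exact this K hl le_rfl
    calc |∑ i ∈ range l, (u i - u (i + 1)) / m (i + 1)| ≤
        ∑ i ∈ range l, |(u i - u (i + 1)) / m (i + 1)| := Finset.abs_sum_le_sum_abs _ _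
      _ ≤ ∑ i ∈ range l, C * (q (i + 1) - q i) := Finset.sum_le_sum h1
      _ = C * q l := h2
      _ ≤ C * 1 := mul_le_mul_of_nonneg_left (h3.trans hqK) c0
      _ = C := mul_one C
  constructor
  · have h1 := key K le_rfl
    have h2 := hu.1 K le_rfl
    have h3 := abs_add_le (u K) (∑ i ∈ range K, (u i - u (i + 1)) / m (i + 1))
    change |u K + ∑ i ∈ range K, (u i - u (i + 1)) / m (i + 1)| ≤ 2 * C
    linarith only [h1, h2, h3]
  · intro l hl
    have h1 := key l hl
    change |∑ i ∈ range l, (u i - u (i + 1)) / m (i + 1)| ≤ 2 * C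
    linarith only [c0, h1]

/-! ### linearity -/

lemma ev_comb (K : ℕ) (m : ℕ → ℝ) (M1 M2 M3 M4 : Hm) (k1 k2 k3 k4 : ℝ) (l : ℕ) :
    Hm.ev K m ⟨k1 * M1.d + k2 * M2.d + k3 * M3.d + k4 * M4.d,
      fun l => k1 * M1.e l + k2 * M2.e l + k3 * M3.e l + k4 * M4.e l⟩ l =
      k1 * Hm.ev K m M1 l + k2 * Hm.ev K m M2 l + k3 * Hm.ev K m M3 l + k4 * Hm.ev K m M4 l := by
  simp only [Hm.ev]
  have e : ∑ j ∈ Ico (l + 1) (K + 1), (m (j + 1) - m j) *
      (k1 * M1.e j + k2 * M2.e j + k3 * M3.e j + k4 * M4.e j) =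
      k1 * ∑ j ∈ Ico (l + 1) (K + 1), (m (j + 1) - m j) * M1.e j +
      k2 * ∑ j ∈ Ico (l + 1) (K + 1), (m (j + 1) - m j) * M2.e j +
      k3 * ∑ j ∈ Ico (l + 1) (K + 1), (m (j + 1) - m j) * M3.e j +
      k4 * ∑ j ∈ Ico (l + 1) (K + 1), (m (j + 1) - m j) * M4.e j := by
    simp only [Finset.mul_sum, ← Finset.sum_add_distrib]
    apply Finset.sum_congr rfl
    intro j _
    ring
  rw [e]
  ring

lemma ev_sub' (K : ℕ) (m : ℕ → ℝ) (M N : Hm) (l : ℕ) :
    Hm.ev K m (Hm.sub M N) l = Hm.ev K m M l - Hm.ev K m N l := by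
  have h := ev_comb K m M N M N 1 (-1) 0 0 l
  have e : Hm.sub M N = ⟨1 * M.d + (-1) * N.d + 0 * M.d + 0 * N.d,
      fun l => 1 * M.e l + (-1) * N.e l + 0 * M.e l + 0 * N.e l⟩ := by
    unfold Hm.sub
    congr 1
    · ring
    · funext l
      ring
  rw [e, h]
  ring

lemma ev_loop (K : ℕ) (m : ℕ → ℝ) (c : ℝ) (M N : Hm) (l : ℕ) :
    Hm.ev K m (Hm.loop K m c M N) l =
      Hm.ev K m N l - Hm.ev K m M l + c * Hm.ev K m (Hm.mul K m M N) l := by
  have h := ev_comb K m N M (Hm.mul K m M N) M 1 (-1) c 0 l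
  have e : Hm.loop K m c M N = ⟨1 * N.d + (-1) * M.d + c * (Hm.mul K m M N).d + 0 * M.d,
      fun l => 1 * N.e l + (-1) * M.e l + c * (Hm.mul K m M N).e l + 0 * M.e l⟩ := by
    unfold Hm.loop
    congr 1
    · ring
    · funext l
      ring
  rw [e, h]
  ring

/-- `M + k N` -/
def addmul (M : Hm) (k : ℝ) (N : Hm) : Hm := ⟨M.d + k * N.d, fun l => M.e l + k * N.e l⟩

lemma ev_addmul (K : ℕ) (m : ℕ → ℝ) (M : Hm) (k : ℝ) (N : Hm) (l : ℕ) :
    Hm.ev K m (addmul M k N) l = Hm.ev K m M l + k * Hm.ev K m N l := by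
  have h := ev_comb K m M N M N 1 k 0 0 l
  have e : addmul M k N = ⟨1 * M.d + k * N.d + 0 * M.d + 0 * N.d,
      fun l => 1 * M.e l + k * N.e l + 0 * M.e l + 0 * N.e l⟩ := by
    unfold addmul
    congr 1
    · ring
    · funext l
      ring
  rw [e, h]
  ring

lemma pl (h : Expo K m) {l : ℕ} (hl : l ∈ range (K + 1)) : 0 ≤ m (l + 1) - m l := by
  have := h.mono l (by rw [Finset.mem_range] at hl; omega)
  linarith

lemma nrm_nonneg (h : Expo K m) (M : Hm) : 0 ≤ Hm.nrm K m M :=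
  add_nonneg (abs_nonneg _) (Finset.sum_nonneg fun _ hl => mul_nonneg (pl h hl) (abs_nonneg _))

lemma nrm_addmul (h : Expo K m) (M : Hm) (k : ℝ) (N : Hm) :
    Hm.nrm K m (addmul M k N) ≤ Hm.nrm K m M + |k| * Hm.nrm K m N := by
  unfold Hm.nrm addmul
  have e1 : ∑ l ∈ range (K + 1), (m (l + 1) - m l) * |M.e l + k * N.e l| ≤
      ∑ l ∈ range (K + 1), (m (l + 1) - m l) * |M.e l| +
      |k| * ∑ l ∈ range (K + 1), (m (l + 1) - m l) * |N.e l| := by
    rw [Finset.mul_sum, ← Finset.sum_add_distrib]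
    apply Finset.sum_le_sum
    intro l hl
    have h1 : |M.e l + k * N.e l| ≤ |M.e l| + |k| * |N.e l| := by
      rw [← abs_mul]
      exact abs_add_le _ _
    have := mul_le_mul_of_nonneg_left h1 (pl h hl)
    linarith
  have e2 : |M.d + k * N.d| ≤ |M.d| + |k| * |N.d| := by
    rw [← abs_mul]
    exact abs_add_le _ _
  simp only
  linarith only [e1, e2]

lemma nrm_lin_le (h : Expo K m) (a : B → ℝ) (N : B → Hm) :
    Hm.nrm K m (Hm.lin a N) ≤ ∑ b, |a b| * Hm.nrm K m (N b) := by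
  unfold Hm.nrm Hm.lin
  simp only [mul_add, mul_sum]
  rw [Finset.sum_add_distrib, Finset.sum_comm]
  apply add_le_add
  · refine (Finset.abs_sum_le_sum_abs _ _).trans (le_of_eq ?_)
    exact Finset.sum_congr rfl fun b _ => abs_mul _ _
  · apply Finset.sum_le_sum
    intro l hl
    have h1 : |∑ b, a b * (N b).e l| ≤ ∑ b, |a b| * |(N b).e l| :=
      (Finset.abs_sum_le_sum_abs _ _).trans
        (le_of_eq (Finset.sum_congr rfl fun b _ => abs_mul _ _))
    refine (mul_le_mul_of_nonneg_left h1 (pl h hl)).trans (le_of_eq ?_)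
    rw [Finset.mul_sum]
    apply Finset.sum_congr rfl
    intro b _
    ring

lemma nrm_congr {M N : Hm} (hx : M.d = N.d ∧ ∀ l ≤ K, M.e l = N.e l) :
    Hm.nrm K m M = Hm.nrm K m N := by
  unfold Hm.nrm
  rw [hx.1]
  congr 1
  apply Finset.sum_congr rfl
  intro l hl
  rw [hx.2 l (by rw [Finset.mem_range] at hl; omega)]

lemma Bd.mono (hx : ∀ l < K, 0 ≤ x l - x (l + 1)) {C C' : ℝ} (hC : C ≤ C') {u : ℕ → ℝ}
    (h : Bd K x C u) : Bd K x C' u :=
  ⟨fun l hl => (h.1 l hl).trans hC,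
    fun l hl => (h.2 l hl).trans (mul_le_mul_of_nonneg_right hC (hx l hl))⟩

/-- `1 + k u` -/
lemma Bd.affine (hx : ∀ l < K, 0 ≤ x l - x (l + 1)) {C k Λ : ℝ} (hk : 0 ≤ k) (hkΛ : k ≤ Λ)
    {u : ℕ → ℝ} (h : Bd K x C u) : Bd K x (1 + Λ * C) (fun l => 1 + k * u l) := by
  have c0 := h.nonneg
  have h1 : k * C ≤ Λ * C := mul_le_mul_of_nonneg_right hkΛ c0
  constructor
  · intro l hl
    have h2 := mul_le_mul_of_nonneg_left (h.1 l hl) hk
    have h3 : |1 + k * u l| ≤ 1 + k * |u l| := by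
      refine (abs_add_le _ _).trans ?_
      rw [abs_one, abs_mul, abs_of_nonneg hk]
    linarith only [h1, h2, h3]
  · intro l hl
    have e : 1 + k * u l - (1 + k * u (l + 1)) = k * (u l - u (l + 1)) := by ring
    rw [e, abs_mul, abs_of_nonneg hk]
    have h2 := mul_le_mul_of_nonneg_left (h.2 l hl) hk
    have h3 := mul_le_mul_of_nonneg_right h1 (hx l hl)
    have h4 := hx l hl
    linarith only [h2, h3, h4]

/-- functions with a convex combination equal to `x` -/
lemma bd_of_sum {α : B → ℝ} {α0 : ℝ} (hα0p : 0 < α0) (hα0 : ∀ b, α0 ≤ α b) (u : B → ℕ → ℝ)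
    (h0 : ∀ b, ∀ l ≤ K, 0 ≤ u b l) (h1 : ∀ b, ∀ l < K, 0 ≤ u b l - u b (l + 1))
    (hs : ∀ l ≤ K, ∑ b, α b * u b l = x l) (hx1 : ∀ l ≤ K, x l ≤ 1) (b : B) :
    Bd K x (1 / α0) (u b) := by
  have hα : ∀ b, 0 < α b := fun b => hα0p.trans_le (hα0 b)
  constructor
  · intro l hl
    rw [abs_of_nonneg (h0 b l hl), le_div_iff₀ hα0p]
    have h2 : α b * u b l ≤ ∑ b, α b * u b l :=
      Finset.single_le_sum (f := fun b => α b * u b l)
        (fun b _ => mul_nonneg (hα b).le (h0 b l hl)) (Finset.mem_univ b)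
    rw [hs l hl] at h2
    have h3 : α0 * u b l ≤ α b * u b l := mul_le_mul_of_nonneg_right (hα0 b) (h0 b l hl)
    have := hx1 l hl
    linarith only [h2, h3, this]
  · intro l hl
    rw [abs_of_nonneg (h1 b l hl), one_div, inv_mul_eq_div, le_div_iff₀ hα0p]
    have h2 : α b * (u b l - u b (l + 1)) ≤ ∑ b, α b * (u b l - u b (l + 1)) :=
      Finset.single_le_sum (f := fun b => α b * (u b l - u b (l + 1)))
        (fun b _ => mul_nonneg (hα b).le (h1 b l hl)) (Finset.mem_univ b)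
    have h3 : ∑ b, α b * (u b l - u b (l + 1)) = x l - x (l + 1) := by
      simp only [mul_sub, Finset.sum_sub_distrib]
      rw [hs l hl.le, hs (l + 1) hl]
    have h4 : α0 * (u b l - u b (l + 1)) ≤ α b * (u b l - u b (l + 1)) :=
      mul_le_mul_of_nonneg_right (hα0 b) (h1 b l hl)
    linarith only [h2, h3, h4]

/-! ### the function `ζ` -/

section zeta

variable {β : ℝ} {a α : B → ℝ} {ζ : ℝ → ℝ}

/-- the exact solution -/
noncomputable def hh (β : ℝ) (a : B → ℝ) (ζ : ℝ → ℝ) (b : B) (y : ℝ) : ℝ :=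
  1 / (β * (ζ y - a b))

lemma hh_pos (hβ : 0 < β) (hζ : Zeta β a α ζ) {y : ℝ} (hy : 0 < y) (b : B) :
    0 < hh β a ζ b y := by
  have := sub_pos.2 (hζ.lt y hy b)
  unfold hh
  positivity

lemma hh_sum (hβ : 0 < β) (hζ : Zeta β a α ζ) {y : ℝ} (hy : 0 < y) :
    ∑ b, α b * hh β a ζ b y = y := by
  have h1 := hζ.eq y hy
  have h2 : ∀ b, α b * hh β a ζ b y = 1 / β * (α b / (ζ y - a b)) := by
    intro b
    have := sub_pos.2 (hζ.lt y hy b)
    unfold hh
    field_simp
  simp only [h2]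
  rw [← Finset.mul_sum, h1]
  field_simp

lemma zeta_anti [Nonempty B] (hβ : 0 < β) (hα : ∀ b, 0 < α b) (hζ : Zeta β a α ζ) {y z : ℝ}
    (hy : 0 < y) (hyz : y ≤ z) : ζ z ≤ ζ y := by
  by_contra hcon
  push Not at hcon
  have hz : 0 < z := hy.trans_le hyz
  have h1 : ∑ b, α b / (ζ z - a b) < ∑ b, α b / (ζ y - a b) := by
    apply Finset.sum_lt_sum_of_nonempty Finset.univ_nonempty
    intro b _
    have h2 := sub_pos.2 (hζ.lt y hy b)
    apply div_lt_div_of_pos_left (hα b) h2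
    linarith
  rw [hζ.eq y hy, hζ.eq z hz] at h1
  have := mul_le_mul_of_nonneg_left hyz hβ.le
  linarith only [h1, this]

lemma hh_mono [Nonempty B] (hβ : 0 < β) (hα : ∀ b, 0 < α b) (hζ : Zeta β a α ζ) {y z : ℝ}
    (hy : 0 < y) (hyz : y ≤ z) (b : B) : hh β a ζ b y ≤ hh β a ζ b z := by
  have h1 := zeta_anti hβ hα hζ hy hyz
  have h2 := sub_pos.2 (hζ.lt z (hy.trans_le hyz) b)
  unfold hh
  apply one_div_le_one_div_of_le (by positivity)
  apply mul_le_mul_of_nonneg_left _ hβ.le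
  linarith only [h1]

/-- `h_j / h_k = 1 + (b_j - b_k) h_j` -/
lemma hh_div (hβ : 0 < β) (hζ : Zeta β a α ζ) {y : ℝ} (hy : 0 < y) (k j : B) :
    (1 + β * (a j - a k) * hh β a ζ j y) * hh β a ζ k y = hh β a ζ j y := by
  have h1 := sub_pos.2 (hζ.lt y hy j)
  have h2 := sub_pos.2 (hζ.lt y hy k)
  unfold hh
  field_simp
  ring

end zeta

/-! ### the blocks -/

section blocks

variable {R : B → Hm} {α : B → ℝ}

/-- overlap path -/
noncomputable def qq (α : B → ℝ) (R : B → Hm) (l : ℕ) : ℝ := ∑ b, α b * (R b).e l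

lemma ev_one (hB : Blocks K α R) (l : ℕ) :
    Hm.ev K m (Hm.lin α R) l = eq' K m (qq α R) l := by
  unfold Hm.ev eq' Hm.lin qq
  simp only
  rw [hB.one]

lemma xx_sum (hB : Blocks K α R) (l : ℕ) :
    eq' K m (qq α R) l = ∑ b, α b * Hm.ev K m (R b) l := by
  rw [← ev_one hB, Hm.ev_lin]

lemma r_diff (h : Expo K m) (hB : Blocks K α R) (b : B) {l : ℕ} (hl : l < K) :
    0 ≤ Hm.ev K m (R b) l - Hm.ev K m (R b) (l + 1) := by
  rw [Hm.ev_sub h _ hl]
  exact mul_nonneg (h.pos' (by omega) (by omega)).le (sub_nonneg.2 (hB.mono b l hl))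

lemma r_nonneg (h : Expo K m) (hB : Blocks K α R) (b : B) {l : ℕ} (hl : l ≤ K) :
    0 ≤ Hm.ev K m (R b) l := by
  induction hl using Nat.decreasingInduction with
  | self =>
    rw [Hm.ev_K h]
    exact sub_nonneg.2 (hB.le b)
  | of_succ k hk ih =>
    have := r_diff h hB b hk
    linarith only [ih, this]

lemma xx_diff (h : Expo K m) (hB : Blocks K α R) {l : ℕ} (hl : l < K) :
    eq' K m (qq α R) l - eq' K m (qq α R) (l + 1) =
      m (l + 1) * (qq α R (l + 1) - qq α R l) := by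
  rw [xx_sum hB, xx_sum hB, ← Finset.sum_sub_distrib, qq, qq, ← Finset.sum_sub_distrib,
    Finset.mul_sum]
  refine Finset.sum_congr rfl fun b _ => ?_
  have := Hm.ev_sub h (R b) hl
  linear_combination (α b) * this

variable (hα : ∀ b, 0 < α b)
include hα

lemma xx_diff_nonneg (h : Expo K m) (hB : Blocks K α R) {l : ℕ} (hl : l < K) :
    0 ≤ eq' K m (qq α R) l - eq' K m (qq α R) (l + 1) := by
  rw [xx_sum hB, xx_sum hB, ← Finset.sum_sub_distrib]
  refine Finset.sum_nonneg fun b _ => ?_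
  rw [← mul_sub]
  exact mul_nonneg (hα b).le (r_diff h hB b hl)

lemma qq_mono (hB : Blocks K α R) {l : ℕ} (hl : l < K) : qq α R l ≤ qq α R (l + 1) :=
  Finset.sum_le_sum fun b _ => mul_le_mul_of_nonneg_left (hB.mono b l hl) (hα b).le

omit hα in
lemma qq_zero (hB : Blocks K α R) : qq α R 0 = 0 := by
  unfold qq
  exact Finset.sum_eq_zero fun b _ => by rw [hB.zero b, mul_zero]

lemma qq_nonneg (hB : Blocks K α R) {l : ℕ} (hl : l ≤ K) : 0 ≤ qq α R l := by
  induction l with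
  | zero => rw [qq_zero hB]
  | succ l ih => exact (ih (by omega)).trans (qq_mono hα hB hl)

lemma xx_le (h : Expo K m) (hB : Blocks K α R) {l : ℕ} (hl : l ≤ K) :
    eq' K m (qq α R) l ≤ 1 := by
  unfold eq'
  have h1 : 0 ≤ m (l + 1) * qq α R l :=
    mul_nonneg (h.pos' (by omega) (by omega)).le (qq_nonneg hα hB hl)
  have h2 : 0 ≤ ∑ j ∈ Ico (l + 1) (K + 1), (m (j + 1) - m j) * qq α R j := by
    apply Finset.sum_nonneg
    intro j hj
    rw [Finset.mem_Ico] at hj
    exact mul_nonneg (sub_nonneg.2 (h.mono j (by omega))) (qq_nonneg hα hB (by omega))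
  linarith only [h1, h2]

lemma xx_pos (h : Expo K m) (hB : Blocks K α R) {l : ℕ} (hl : l ≤ K) :
    0 < eq' K m (qq α R) l := by
  induction hl using Nat.decreasingInduction with
  | self =>
    have : eq' K m (qq α R) K = 1 - ∑ b, α b * (R b).e K := by
      rw [← ev_one hB, Hm.ev_K h]
      unfold Hm.lin
      simp only
      rw [hB.one]
    rw [this]
    have := hB.lt
    linarith
  | of_succ k hk ih =>
    have := xx_diff_nonneg hα h hB hk
    linarith only [ih, this]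

lemma bd_r {α0 : ℝ} (hα0p : 0 < α0) (hα0 : ∀ b, α0 ≤ α b) (h : Expo K m) (hB : Blocks K α R)
    (b : B) : Bd K (eq' K m (qq α R)) (1 / α0) (fun l => Hm.ev K m (R b) l) :=
  bd_of_sum hα0p hα0 (fun b l => Hm.ev K m (R b) l) (fun b _ hl => r_nonneg h hB b hl)
    (fun b _ hl => r_diff h hB b hl) (fun l _ => (xx_sum hB l).symm)
    (fun _ hl => xx_le hα h hB hl) b

lemma bd_h [Nonempty B] {α0 β : ℝ} {a : B → ℝ} {ζ : ℝ → ℝ} (hα0p : 0 < α0)
    (hα0 : ∀ b, α0 ≤ α b) (hβ : 0 < β) (hζ : Zeta β a α ζ) (h : Expo K m)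
    (hB : Blocks K α R) (b : B) :
    Bd K (eq' K m (qq α R)) (1 / α0) (fun l => hh β a ζ b (eq' K m (qq α R) l)) :=
  bd_of_sum hα0p hα0 (fun b l => hh β a ζ b (eq' K m (qq α R) l))
    (fun b _ hl => (hh_pos hβ hζ (xx_pos hα h hB hl) b).le)
    (fun b l hl => sub_nonneg.2 (hh_mono hβ hα hζ (xx_pos hα h hB (by omega))
      (sub_nonneg.1 (xx_diff_nonneg hα h hB hl)) b))
    (fun _ hl => hh_sum hβ hζ (xx_pos hα h hB hl)) (fun _ hl => xx_le hα h hB hl) b

/-- norm of a product with `ofEv u` -/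
lemma nrm_ofEv_mul (h : Expo K m) (hB : Blocks K α R) {C : ℝ}
    {u : ℕ → ℝ} (hu : Bd K (eq' K m (qq α R)) C u) (N : Hm) :
    Hm.nrm K m (Hm.mul K m (Hm.ofEv K m u) N) ≤ 10 * C * Hm.nrm K m N := by
  have h1 := Bd.entries h (qq_zero hB) (fun _ hl => qq_mono hα hB hl)
    (by have := hB.lt; unfold qq; linarith) (fun _ hl => xx_diff h hB hl) hu
  refine (Hm.nrm_mul_le h _ N h1.1 h1.2).trans (le_of_eq ?_)
  ring

end blocks

lemma ofEv_zero (K : ℕ) (m f : ℕ → ℝ) : (Hm.ofEv K m f).e 0 = 0 := by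
  simp [Hm.ofEv]

lemma mul_e0 (h : Expo K m) (M N : Hm) (hM : M.e 0 = 0) (hN : N.e 0 = 0) :
    (Hm.mul K m M N).e 0 = 0 := by
  rw [Hm.mul_zero_level h, hN, hM, mul_zero, zero_mul, add_zero]

section main

variable {β α0 Λ : ℝ} {a α : B → ℝ} {ζ : ℝ → ℝ} {R : B → Hm}

/-- difference of the block matrix and the exact solution -/
noncomputable def DD (K : ℕ) (m : ℕ → ℝ) (β : ℝ) (a α : B → ℝ) (ζ : ℝ → ℝ) (R : B → Hm)
    (b : B) : Hm := Hm.sub (R b) (Rzero K m β a ζ (eq' K m (qq α R)) b)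

lemma DD_zero (hB : Blocks K α R) (b : B) : (DD K m β a α ζ R b).e 0 = 0 := by
  unfold DD Hm.sub Rzero
  simp only
  rw [hB.zero, ofEv_zero, sub_zero]

lemma DD_ev (h : Expo K m) (b : B) {l : ℕ} (hl : l ≤ K) :
    Hm.ev K m (DD K m β a α ζ R b) l =
      Hm.ev K m (R b) l - hh β a ζ b (eq' K m (qq α R) l) := by
  unfold DD Rzero
  rw [ev_sub', Hm.ev_ofEv h _ hl]
  rfl

lemma loop_zero (h : Expo K m) (hB : Blocks K α R) (c : ℝ) (b b' : B) :
    (Hm.loop K m c (R b) (R b')).e 0 = 0 := by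
  unfold Hm.loop
  simp only
  rw [mul_e0 h _ _ (hB.zero b) (hB.zero b'), hB.zero, hB.zero]
  ring

/-- the function `g_{kj} = h_j / h_k` -/
noncomputable def gg (K : ℕ) (m : ℕ → ℝ) (β : ℝ) (a α : B → ℝ) (ζ : ℝ → ℝ) (R : B → Hm)
    (k j : B) (l : ℕ) : ℝ := 1 + β * (a j - a k) * hh β a ζ j (eq' K m (qq α R) l)

/-- the function `1 + (b_j - b_k) r_j` -/
noncomputable def g2 (K : ℕ) (m : ℕ → ℝ) (β : ℝ) (a : B → ℝ) (R : B → Hm)
    (k j : B) (l : ℕ) : ℝ := 1 + β * (a j - a k) * Hm.ev K m (R j) l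

/-- `S_k` -/
noncomputable def SS (K : ℕ) (m : ℕ → ℝ) (β : ℝ) (a α : B → ℝ) (ζ : ℝ → ℝ) (R : B → Hm)
    (k : B) (l : ℕ) : ℝ := ∑ j, α j * (gg K m β a α ζ R k j l * g2 K m β a R k j l)

/-- `D_j = g_{kj} (D_k (1 + (b_j - b_k) r_j) + loop_{kj})` -/
lemma ident (hβ : 0 < β) (hα : ∀ b, 0 < α b) (hζ : Zeta β a α ζ) (h : Expo K m)
    (hB : Blocks K α R) (k j : B) {l : ℕ} (hl : l ≤ K) :
    Hm.ev K m (DD K m β a α ζ R j) l = gg K m β a α ζ R k j l *
      (g2 K m β a R k j l * Hm.ev K m (DD K m β a α ζ R k) l +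
        Hm.ev K m (Hm.loop K m (β * (a k - a j)) (R k) (R j)) l) := by
  rw [DD_ev h j hl, DD_ev h k hl, ev_loop, Hm.ev_mul h _ _ hl]
  have y0 := xx_pos hα h hB hl
  have hd := hh_div hβ hζ y0 k j
  have hp := hh_pos hβ hζ y0 k
  unfold gg g2
  generalize Hm.ev K m (R k) l = r
  generalize Hm.ev K m (R j) l = s
  generalize hh β a ζ k (eq' K m (qq α R) l) = u at *
  generalize hh β a ζ j (eq' K m (qq α R) l) = v at *
  linear_combination (β * (a j - a k) * s + 1) * hd

lemma ident2 (hβ : 0 < β) (hα : ∀ b, 0 < α b) (hζ : Zeta β a α ζ) (h : Expo K m)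
    (hB : Blocks K α R) (k : B) {l : ℕ} (hl : l ≤ K) :
    SS K m β a α ζ R k l * Hm.ev K m (DD K m β a α ζ R k) l =
      -∑ j, α j * (gg K m β a α ζ R k j l *
        Hm.ev K m (Hm.loop K m (β * (a k - a j)) (R k) (R j)) l) := by
  have y0 := xx_pos hα h hB hl
  have h1 : ∑ j, α j * Hm.ev K m (DD K m β a α ζ R j) l = 0 := by
    simp only [DD_ev h _ hl, mul_sub]
    rw [Finset.sum_sub_distrib, hh_sum hβ hζ y0, ← xx_sum hB, sub_self]
  have h2 : ∑ j, α j * Hm.ev K m (DD K m β a α ζ R j) l =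
      SS K m β a α ζ R k l * Hm.ev K m (DD K m β a α ζ R k) l +
      ∑ j, α j * (gg K m β a α ζ R k j l *
        Hm.ev K m (Hm.loop K m (β * (a k - a j)) (R k) (R j)) l) := by
    rw [SS, Finset.sum_mul, ← Finset.sum_add_distrib]
    apply Finset.sum_congr rfl
    intro j _
    rw [ident hβ hα hζ h hB k j hl]
    ring
  rw [h1] at h2
  linarith only [h2]

/-- constant of `g` -/
noncomputable def CG (Λ α0 : ℝ) : ℝ := 1 + Λ * (1 / α0)

lemma bd_gg [Nonempty B] (hβ : 0 < β) (hα : ∀ b, 0 < α b) (hα0p : 0 < α0) (hα0 : ∀ b, α0 ≤ α b)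
    (hζ : Zeta β a α ζ) (h : Expo K m) (hB : Blocks K α R) {k j : B}
    (hk : 0 ≤ β * (a j - a k)) (hΛ : β * (a j - a k) ≤ Λ) :
    Bd K (eq' K m (qq α R)) (CG Λ α0) (gg K m β a α ζ R k j) :=
  Bd.affine (K := K) (x := eq' K m (qq α R)) (fun _ hl => xx_diff_nonneg hα h hB hl) hk hΛ
    (bd_h hα hα0p hα0 hβ hζ h hB j)

lemma bd_g2 (hα : ∀ b, 0 < α b) (hα0p : 0 < α0) (hα0 : ∀ b, α0 ≤ α b)
    (h : Expo K m) (hB : Blocks K α R) {k j : B}
    (hk : 0 ≤ β * (a j - a k)) (hΛ : β * (a j - a k) ≤ Λ) :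
    Bd K (eq' K m (qq α R)) (CG Λ α0) (g2 K m β a R k j) :=
  Bd.affine (K := K) (x := eq' K m (qq α R)) (fun _ hl => xx_diff_nonneg hα h hB hl) hk hΛ
    (bd_r hα hα0p hα0 h hB j)

lemma bd_SS [Nonempty B] (hβ : 0 < β) (hα : ∀ b, 0 < α b) (hα1 : ∑ b, α b = 1)
    (hα0p : 0 < α0) (hα0 : ∀ b, α0 ≤ α b)
    (hζ : Zeta β a α ζ) (h : Expo K m) (hB : Blocks K α R) {k : B}
    (hk : ∀ j, 0 ≤ β * (a j - a k)) (hΛ : ∀ j, β * (a j - a k) ≤ Λ) :
    Bd K (eq' K m (qq α R)) (2 * (CG Λ α0 * CG Λ α0)) (SS K m β a α ζ R k) := by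
  have hx := fun l (hl : l < K) => xx_diff_nonneg hα h hB hl
  have h1 := Bd.sum (K := K) (x := eq' K m (qq α R))
    (C := fun j => α j * (2 * (CG Λ α0 * CG Λ α0)))
    (u := fun j l => α j * (gg K m β a α ζ R k j l * g2 K m β a R k j l))
    (fun j => Bd.const_mul (α j) (hα j).le (Bd.mul hx (bd_gg hβ hα hα0p hα0 hζ h hB (hk j) (hΛ j))
      (bd_g2 hα hα0p hα0 h hB (hk j) (hΛ j))))
  rw [← Finset.sum_mul, hα1, one_mul] at h1
  exact h1

lemma SS_ge (hβ : 0 < β) (hα : ∀ b, 0 < α b) (hα1 : ∑ b, α b = 1)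
    (hζ : Zeta β a α ζ) (h : Expo K m) (hB : Blocks K α R) {k : B}
    (hk : ∀ j, 0 ≤ β * (a j - a k)) {l : ℕ} (hl : l ≤ K) : 1 ≤ SS K m β a α ζ R k l := by
  unfold SS
  rw [← hα1]
  apply Finset.sum_le_sum
  intro j _
  have h1 : 1 ≤ gg K m β a α ζ R k j l := by
    have := mul_nonneg (hk j) (hh_pos hβ hζ (xx_pos hα h hB hl) j).le
    unfold gg
    linarith only [this]
  have h2 : 1 ≤ g2 K m β a R k j l := by
    have := mul_nonneg (hk j) (r_nonneg h hB j hl)
    unfold g2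
    linarith only [this]
  have h3 : 1 ≤ gg K m β a α ζ R k j l * g2 K m β a R k j l := one_le_mul_of_one_le_of_one_le h1 h2
  have h4 := hα j
  nlinarith only [h3, h4]

/-- constant for `1 / S` -/
noncomputable def CS (Λ α0 : ℝ) : ℝ := 1 / 1 + 2 * (CG Λ α0 * CG Λ α0) / 1 ^ 2

lemma bd_SSinv [Nonempty B] (hβ : 0 < β) (hα : ∀ b, 0 < α b) (hα1 : ∑ b, α b = 1)
    (hα0p : 0 < α0) (hα0 : ∀ b, α0 ≤ α b)
    (hζ : Zeta β a α ζ) (h : Expo K m) (hB : Blocks K α R) {k : B}
    (hk : ∀ j, 0 ≤ β * (a j - a k)) (hΛ : ∀ j, β * (a j - a k) ≤ Λ) :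
    Bd K (eq' K m (qq α R)) (CS Λ α0) (fun l => 1 / SS K m β a α ζ R k l) :=
  Bd.inv (fun _ hl => xx_diff_nonneg hα h hB hl) one_pos
    (fun _ hl => SS_ge hβ hα hα1 hζ h hB hk hl) (bd_SS hβ hα hα1 hα0p hα0 hζ h hB hk hΛ)

lemma nrm_min [Nonempty B] (hβ : 0 < β) (hα : ∀ b, 0 < α b) (hα1 : ∑ b, α b = 1)
    (hα0p : 0 < α0) (hα0 : ∀ b, α0 ≤ α b)
    (hζ : Zeta β a α ζ) (h : Expo K m) (hB : Blocks K α R) {k : B}
    (hk : ∀ j, 0 ≤ β * (a j - a k)) (hΛ : ∀ j, β * (a j - a k) ≤ Λ) :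
    Hm.nrm K m (DD K m β a α ζ R k) ≤ ∑ j, α j *
      (10 * (2 * (CS Λ α0 * CG Λ α0)) *
        Hm.nrm K m (Hm.loop K m (β * (a k - a j)) (R k) (R j))) := by
  have hx := fun l (hl : l < K) => xx_diff_nonneg hα h hB hl
  have e := Hm.ext_ev h (DD K m β a α ζ R k) (Hm.lin (fun j => -α j) fun j =>
    Hm.mul K m (Hm.ofEv K m fun l => 1 / SS K m β a α ζ R k l * gg K m β a α ζ R k j l)
      (Hm.loop K m (β * (a k - a j)) (R k) (R j))) (DD_zero hB k)
    (by
      unfold Hm.lin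
      exact Finset.sum_eq_zero fun j _ => by
        rw [mul_e0 h _ _ (ofEv_zero _ _ _) (loop_zero h hB _ _ _), mul_zero])
    (by
      intro l hl
      rw [Hm.ev_lin]
      have h1 := ident2 hβ hα hζ h hB k hl
      have h2 : SS K m β a α ζ R k l ≠ 0 :=
        (lt_of_lt_of_le one_pos (SS_ge hβ hα hα1 hζ h hB hk hl)).ne'
      have h3 : Hm.ev K m (DD K m β a α ζ R k) l =
          1 / SS K m β a α ζ R k l * (SS K m β a α ζ R k l *
            Hm.ev K m (DD K m β a α ζ R k) l) := by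
        (clear * - h2; field_simp)
      rw [h3, h1, ← Finset.sum_neg_distrib, Finset.mul_sum]
      apply Finset.sum_congr rfl
      intro j _
      rw [Hm.ev_mul h _ _ hl, Hm.ev_ofEv h _ hl]
      ring)
  rw [nrm_congr e]
  refine (nrm_lin_le h _ _).trans (Finset.sum_le_sum fun j _ => ?_)
  rw [abs_neg, abs_of_pos (hα j)]
  apply mul_le_mul_of_nonneg_left _ (hα j).le
  exact nrm_ofEv_mul hα h hB (Bd.mul hx (bd_SSinv hβ hα hα1 hα0p hα0 hζ h hB hk hΛ)
    (bd_gg hβ hα hα0p hα0 hζ h hB (hk j) (hΛ j))) _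

lemma nrm_other [Nonempty B] (hβ : 0 < β) (hα : ∀ b, 0 < α b)
    (hα0p : 0 < α0) (hα0 : ∀ b, α0 ≤ α b)
    (hζ : Zeta β a α ζ) (h : Expo K m) (hB : Blocks K α R) {k : B}
    (hk : ∀ j, 0 ≤ β * (a j - a k)) (hΛ : ∀ j, β * (a j - a k) ≤ Λ) (j : B) :
    Hm.nrm K m (DD K m β a α ζ R j) ≤
      10 * (2 * (CG Λ α0 * CG Λ α0)) * Hm.nrm K m (DD K m β a α ζ R k) +
      10 * CG Λ α0 * Hm.nrm K m (Hm.loop K m (β * (a k - a j)) (R k) (R j)) := by
  have hx := fun l (hl : l < K) => xx_diff_nonneg hα h hB hl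
  have e := Hm.ext_ev h (DD K m β a α ζ R j)
    (addmul (Hm.mul K m (Hm.ofEv K m fun l => gg K m β a α ζ R k j l * g2 K m β a R k j l)
      (DD K m β a α ζ R k)) 1 (Hm.mul K m (Hm.ofEv K m fun l => gg K m β a α ζ R k j l)
      (Hm.loop K m (β * (a k - a j)) (R k) (R j)))) (DD_zero hB j)
    (by
      unfold addmul
      simp only
      rw [mul_e0 h _ _ (ofEv_zero _ _ _) (loop_zero h hB _ _ _),
        mul_e0 h _ _ (ofEv_zero _ _ _) (DD_zero hB k), mul_zero, add_zero])
    (by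
      intro l hl
      rw [ev_addmul, Hm.ev_mul h _ _ hl, Hm.ev_ofEv h _ hl, Hm.ev_mul h _ _ hl,
        Hm.ev_ofEv h _ hl, ident hβ hα hζ h hB k j hl]
      ring)
  rw [nrm_congr e]
  refine (nrm_addmul h _ _ _).trans ?_
  rw [abs_one, one_mul]
  exact add_le_add (nrm_ofEv_mul hα h hB (Bd.mul hx (bd_gg hβ hα hα0p hα0 hζ h hB (hk j) (hΛ j))
    (bd_g2 hα hα0p hα0 h hB (hk j) (hΛ j))) _)
    (nrm_ofEv_mul hα h hB (bd_gg hβ hα hα0p hα0 hζ h hB (hk j) (hΛ j)) _)

end main

end St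

/-- **Stability of the loop equations** `R_c - R_b + β (a_b - a_c) R_b R_c = 0`. -/
theorem stab [Nonempty B] {β : ℝ} (hβ : 0 < β) (a α : B → ℝ) (hα : ∀ b, 0 < α b)
    (hα1 : ∑ b, α b = 1) {ζ : ℝ → ℝ} (hζ : Zeta β a α ζ) :
    ∃ C : ℝ, 0 ≤ C ∧ ∀ (K : ℕ) (m : ℕ → ℝ) (R : B → Hm), Expo K m → Blocks K α R →
      ∑ b, Hm.nrm K m (Hm.sub (R b)
          (Rzero K m β a ζ (eq' K m (fun l => ∑ b, α b * (R b).e l)) b)) ≤
        C * ∑ b, ∑ c, Hm.nrm K m (Hm.loop K m (β * (a b - a c)) (R b) (R c)) := by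
  obtain ⟨b0, hb0⟩ := Finite.exists_min α
  obtain ⟨k, hk0⟩ := Finite.exists_min a
  have hk : ∀ j, 0 ≤ β * (a j - a k) := fun j => mul_nonneg hβ.le (sub_nonneg.2 (hk0 j))
  set Λ := ∑ j, β * (a j - a k) with hΛd
  have hΛ : ∀ j, β * (a j - a k) ≤ Λ := fun j =>
    Finset.single_le_sum (f := fun j => β * (a j - a k)) (fun j _ => hk j) (Finset.mem_univ j)
  have hΛ0 : 0 ≤ Λ := Finset.sum_nonneg fun j _ => hk j
  have a0 := hα b0
  have cg : 0 ≤ St.CG Λ (α b0) := by
    unfold St.CG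
    (clear * - hΛ0 a0; positivity)
  have cs : 0 ≤ St.CS Λ (α b0) := by
    unfold St.CS
    (clear * - cg; positivity)
  refine ⟨(∑ _j : B, 10 * (2 * (St.CG Λ (α b0) * St.CG Λ (α b0)))) *
      (10 * (2 * (St.CS Λ (α b0) * St.CG Λ (α b0)))) + 10 * St.CG Λ (α b0), by (clear * - cg cs; positivity), ?_⟩
  intro K m R h hB
  have h1 := St.nrm_min hβ hα hα1 a0 hb0 hζ h hB hk hΛ
  have h2 := St.nrm_other hβ hα a0 hb0 hζ h hB hk hΛ
  have hN : ∀ b c, 0 ≤ Hm.nrm K m (Hm.loop K m (β * (a b - a c)) (R b) (R c)) := fun b c =>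
    St.nrm_nonneg h _
  have h3 : ∑ j, Hm.nrm K m (Hm.loop K m (β * (a k - a j)) (R k) (R j)) ≤
      ∑ b, ∑ c, Hm.nrm K m (Hm.loop K m (β * (a b - a c)) (R b) (R c)) :=
    Finset.single_le_sum
      (f := fun b => ∑ c, Hm.nrm K m (Hm.loop K m (β * (a b - a c)) (R b) (R c)))
      (fun b _ => Finset.sum_nonneg fun c _ => hN b c) (Finset.mem_univ k)
  have h4 : ∀ j, Hm.nrm K m (Hm.loop K m (β * (a k - a j)) (R k) (R j)) ≤
      ∑ j, Hm.nrm K m (Hm.loop K m (β * (a k - a j)) (R k) (R j)) := fun j =>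
    Finset.single_le_sum (f := fun j => Hm.nrm K m (Hm.loop K m (β * (a k - a j)) (R k) (R j)))
      (fun c _ => hN k c) (Finset.mem_univ j)
  set S := ∑ j, Hm.nrm K m (Hm.loop K m (β * (a k - a j)) (R k) (R j)) with hS
  have h5 : Hm.nrm K m (St.DD K m β a α ζ R k) ≤
      10 * (2 * (St.CS Λ (α b0) * St.CG Λ (α b0))) * S := by
    refine h1.trans ?_
    have h6 : ∀ j ∈ Finset.univ, α j * (10 * (2 * (St.CS Λ (α b0) * St.CG Λ (α b0))) *
        Hm.nrm K m (Hm.loop K m (β * (a k - a j)) (R k) (R j))) ≤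
        α j * (10 * (2 * (St.CS Λ (α b0) * St.CG Λ (α b0))) * S) := by
      intro j _
      apply mul_le_mul_of_nonneg_left _ (hα j).le
      exact mul_le_mul_of_nonneg_left (h4 j) (by (clear * - cs cg; positivity))
    refine (Finset.sum_le_sum h6).trans (le_of_eq ?_)
    rw [← Finset.sum_mul, hα1, one_mul]
  have h7 : ∑ b, Hm.nrm K m (St.DD K m β a α ζ R b) ≤
      ∑ b, (10 * (2 * (St.CG Λ (α b0) * St.CG Λ (α b0))) *
        (10 * (2 * (St.CS Λ (α b0) * St.CG Λ (α b0))) * S) +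
      10 * St.CG Λ (α b0) * Hm.nrm K m (Hm.loop K m (β * (a k - a b)) (R k) (R b))) := by
    apply Finset.sum_le_sum
    intro b _
    have h8 := mul_le_mul_of_nonneg_left h5
      (by (clear * - cg; positivity) : 0 ≤ 10 * (2 * (St.CG Λ (α b0) * St.CG Λ (α b0))))
    have h9 := h2 b
    linarith only [h8, h9]
  have e7 : ∑ b, (10 * (2 * (St.CG Λ (α b0) * St.CG Λ (α b0))) *
        (10 * (2 * (St.CS Λ (α b0) * St.CG Λ (α b0))) * S) +
      10 * St.CG Λ (α b0) * Hm.nrm K m (Hm.loop K m (β * (a k - a b)) (R k) (R b))) =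
      (∑ _j : B, 10 * (2 * (St.CG Λ (α b0) * St.CG Λ (α b0)))) *
        (10 * (2 * (St.CS Λ (α b0) * St.CG Λ (α b0))) * S) + 10 * St.CG Λ (α b0) * S := by
    rw [Finset.sum_add_distrib]
    congr 1
    · rw [Finset.sum_mul]
    · rw [hS, Finset.mul_sum]
  rw [e7] at h7
  change ∑ b, Hm.nrm K m (St.DD K m β a α ζ R b) ≤ _
  refine h7.trans ?_
  have h10 := mul_le_mul_of_nonneg_left h3 (by (clear * - cg cs; positivity) :
    0 ≤ (∑ _j : B, 10 * (2 * (St.CG Λ (α b0) * St.CG Λ (α b0)))) *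
      (10 * (2 * (St.CS Λ (α b0) * St.CG Λ (α b0)))) + 10 * St.CG Λ (α b0))
  refine le_trans (le_of_eq ?_) h10
  ring

/-- The energy. -/
theorem stab_energy [Nonempty B] {β : ℝ} (hβ : 0 < β) (a α : B → ℝ) (hα : ∀ b, 0 < α b)
    (hα1 : ∑ b, α b = 1) {ζ : ℝ → ℝ} (hζ : Zeta β a α ζ) :
    ∃ C : ℝ, 0 ≤ C ∧ ∀ (K : ℕ) (m : ℕ → ℝ) (R : B → Hm), Expo K m → Blocks K α R →
      |∑ b, α b * a b * (R b).d - trf K m (fun x => x * ζ x - 1 / β)
          (eq' K m (fun l => ∑ b, α b * (R b).e l))| ≤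
        C * ∑ b, ∑ c, Hm.nrm K m (Hm.loop K m (β * (a b - a c)) (R b) (R c)) := by
  obtain ⟨C, hC, hst⟩ := stab hβ a α hα hα1 hζ
  refine ⟨(∑ b, |α b * a b|) * C, by (clear * - hC; positivity), ?_⟩
  intro K m R h hB
  have h1 := hst K m R h hB
  have hpos : ∀ l ≤ K, 0 < eq' K m (St.qq α R) l := fun l hl => St.xx_pos hα h hB hl
  have hf : ∀ y, 0 < y → y * ζ y - 1 / β = ∑ b, α b * a b * (1 / (β * (ζ y - a b))) := by
    intro y hy
    have e1 : ∀ b, α b * a b * (1 / (β * (ζ y - a b))) =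
        ζ y / β * (α b / (ζ y - a b)) - α b / β := by
      intro b
      have := sub_pos.2 (hζ.lt y hy b)
      field_simp
      ring
    simp only [e1]
    rw [Finset.sum_sub_distrib, ← Finset.mul_sum, hζ.eq y hy, ← Finset.sum_div, hα1]
    (clear * - hβ; field_simp)
  have h2 : trf K m (fun x => x * ζ x - 1 / β) (eq' K m (St.qq α R)) =
      ∑ b, α b * a b * (Rzero K m β a ζ (eq' K m (St.qq α R)) b).d := by
    have e0 : ∀ l ≤ K, eq' K m (St.qq α R) l * ζ (eq' K m (St.qq α R) l) - 1 / β =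
        ∑ b, α b * a b * (1 / (β * (ζ (eq' K m (St.qq α R) l) - a b))) := fun l hl =>
      hf _ (hpos l hl)
    unfold trf Rzero Hm.ofEv
    simp only [mul_add, Finset.sum_add_distrib]
    rw [e0 K le_rfl]
    congr 1
    have e1 : ∀ i ∈ range K, (eq' K m (St.qq α R) i * ζ (eq' K m (St.qq α R) i) - 1 / β -
        (eq' K m (St.qq α R) (i + 1) * ζ (eq' K m (St.qq α R) (i + 1)) - 1 / β)) / m (i + 1) =
        ∑ b, α b * a b * ((1 / (β * (ζ (eq' K m (St.qq α R) i) - a b)) -
          1 / (β * (ζ (eq' K m (St.qq α R) (i + 1)) - a b))) / m (i + 1)) := by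
      intro i hi
      rw [Finset.mem_range] at hi
      rw [e0 i hi.le, e0 (i + 1) hi, ← Finset.sum_sub_distrib, Finset.sum_div]
      apply Finset.sum_congr rfl
      intro b _
      ring
    rw [Finset.sum_congr rfl e1, Finset.sum_comm]
    simp only [mul_sum]
  have h3 : |∑ b, α b * a b * (R b).d - trf K m (fun x => x * ζ x - 1 / β)
      (eq' K m (St.qq α R))| ≤ (∑ b, |α b * a b|) *
        ∑ b, Hm.nrm K m (Hm.sub (R b) (Rzero K m β a ζ (eq' K m (St.qq α R)) b)) := by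
    rw [h2, ← Finset.sum_sub_distrib, Finset.sum_mul]
    refine (Finset.abs_sum_le_sum_abs _ _).trans (Finset.sum_le_sum fun b _ => ?_)
    rw [← mul_sub, abs_mul]
    apply mul_le_mul_of_nonneg_left _ (abs_nonneg _)
    have h4 : |(R b).d - (Rzero K m β a ζ (eq' K m (St.qq α R)) b).d| ≤
        Hm.nrm K m (Hm.sub (R b) (Rzero K m β a ζ (eq' K m (St.qq α R)) b)) := by
      have : 0 ≤ ∑ l ∈ range (K + 1), (m (l + 1) - m l) *
          |(Hm.sub (R b) (Rzero K m β a ζ (eq' K m (St.qq α R)) b)).e l| :=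
        Finset.sum_nonneg fun _ hl => mul_nonneg (St.pl h hl) (abs_nonneg _)
      change |(Hm.sub (R b) (Rzero K m β a ζ (eq' K m (St.qq α R)) b)).d| ≤
        |(Hm.sub (R b) (Rzero K m β a ζ (eq' K m (St.qq α R)) b)).d| + _
      linarith only [this]
    exact h4.trans (Finset.single_le_sum
      (f := fun b => Hm.nrm K m (Hm.sub (R b) (Rzero K m β a ζ (eq' K m (St.qq α R)) b)))
      (fun b _ => St.nrm_nonneg h _) (Finset.mem_univ b))
  refine h3.trans ?_
  rw [mul_assoc]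
  exact mul_le_mul_of_nonneg_left h1 (Finset.sum_nonneg fun _ _ => abs_nonneg _)

end Vale.Agent.P166.F
end
end

section

section

/-! Task F-VA: the R-transform of a finite law is Lipschitz; the path `r`. -/

open MeasureTheory Finset Filter Topology

namespace Vale.Agent.P166.F

variable {B : Type} [Fintype B] [Nonempty B] {a α : B → ℝ}

/-- a bound for the differences of the atoms -/
noncomputable def vaD (a : B → ℝ) : ℝ := 2 * ∑ b, |a b|

omit [Nonempty B] in
theorem va_sq_le (b c : B) : (a b - a c) ^ 2 ≤ vaD a ^ 2 := by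
  have hs : ∀ d, |a d| ≤ ∑ b, |a b| := fun d =>
    Finset.single_le_sum (f := fun c => |a c|) (fun c _ => abs_nonneg _) (Finset.mem_univ d)
  refine sq_le_sq' ?_ ?_
  · unfold vaD
    linarith [hs b, hs c, neg_abs_le (a b), le_abs_self (a c)]
  · unfold vaD
    linarith [hs b, hs c, neg_abs_le (a c), le_abs_self (a b)]

theorem va_min (hα : ∀ b, 0 < α b) : ∃ α0 : ℝ, 0 < α0 ∧ ∀ b, α0 ≤ α b := by
  obtain ⟨b0, -, hb0⟩ := Finset.exists_min_image Finset.univ α Finset.univ_nonempty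
  exact ⟨α b0, hα b0, fun b => hb0 b (Finset.mem_univ b)⟩

omit [Nonempty B] in
/-- the covariance of `1 / (z - a)` and `1 / (w - a)` -/
theorem va_cov (hα1 : ∑ b, α b = 1) {z w : ℝ} (hz : ∀ b, a b < z) (hw : ∀ b, a b < w) :
    ∑ b, α b * ((z - a b)⁻¹ * (w - a b)⁻¹) -
      (∑ b, α b * (z - a b)⁻¹) * ∑ b, α b * (w - a b)⁻¹ =
    1 / 2 * ∑ b, ∑ c, (a b - a c) ^ 2 * ((α b * ((z - a b)⁻¹ * (w - a b)⁻¹)) *
      (α c * ((z - a c)⁻¹ * (w - a c)⁻¹))) := by
  have e1 : ∀ b c, (a b - a c) ^ 2 * ((α b * ((z - a b)⁻¹ * (w - a b)⁻¹)) *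
      (α c * ((z - a c)⁻¹ * (w - a c)⁻¹))) =
      (α b * ((z - a b)⁻¹ * (w - a b)⁻¹)) * α c + α b * (α c * ((z - a c)⁻¹ * (w - a c)⁻¹)) -
      (α b * (z - a b)⁻¹) * (α c * (w - a c)⁻¹) -
      (α b * (w - a b)⁻¹) * (α c * (z - a c)⁻¹) := by
    intro b c
    have hzb : z - a b ≠ 0 := (sub_pos.2 (hz b)).ne'
    have hzc : z - a c ≠ 0 := (sub_pos.2 (hz c)).ne'
    have hwb : w - a b ≠ 0 := (sub_pos.2 (hw b)).ne'
    have hwc : w - a c ≠ 0 := (sub_pos.2 (hw c)).ne'
    field_simp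
    ring
  have f1 : ∀ p q : B → ℝ, ∑ b, ∑ c, p b * q c = (∑ b, p b) * ∑ c, q c :=
    fun p q => (Finset.sum_mul_sum _ _ _ _).symm
  simp only [e1, Finset.sum_add_distrib, Finset.sum_sub_distrib, f1, hα1]
  ring

omit [Nonempty B] in
theorem va_prod_ge (hα : ∀ b, 0 < α b) {α0 : ℝ} (hα0 : ∀ b, α0 ≤ α b) {z w : ℝ}
    (hz : ∀ b, a b < z) (hw : ∀ b, a b < w) :
    α0 * ∑ b, α b * ((z - a b)⁻¹ * (w - a b)⁻¹) ≤
      (∑ b, α b * (z - a b)⁻¹) * ∑ b, α b * (w - a b)⁻¹ := by
  have hX : ∀ b, 0 < α b * (z - a b)⁻¹ := fun b => mul_pos (hα b) (inv_pos.2 (sub_pos.2 (hz b)))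
  have hW : ∀ b, 0 < α b * (w - a b)⁻¹ := fun b => mul_pos (hα b) (inv_pos.2 (sub_pos.2 (hw b)))
  rw [Finset.mul_sum, Finset.sum_mul]
  refine Finset.sum_le_sum fun b _ => ?_
  calc α0 * (α b * ((z - a b)⁻¹ * (w - a b)⁻¹))
      ≤ α b * (α b * ((z - a b)⁻¹ * (w - a b)⁻¹)) := by
        refine mul_le_mul_of_nonneg_right (hα0 b) (mul_nonneg (hα b).le (mul_nonneg ?_ ?_))
        · exact (inv_pos.2 (sub_pos.2 (hz b))).le
        · exact (inv_pos.2 (sub_pos.2 (hw b))).le
    _ = (α b * (z - a b)⁻¹) * (α b * (w - a b)⁻¹) := by ring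
    _ ≤ (α b * (z - a b)⁻¹) * ∑ c, α c * (w - a c)⁻¹ := by
        refine mul_le_mul_of_nonneg_left ?_ (hX b).le
        exact Finset.single_le_sum (f := fun c => α c * (w - a c)⁻¹) (fun c _ => (hW c).le)
          (Finset.mem_univ b)

/-- the main estimate -/
theorem va_main (hα : ∀ b, 0 < α b) (hα1 : ∑ b, α b = 1) {α0 : ℝ} (hα0p : 0 < α0)
    (hα0 : ∀ b, α0 ≤ α b) {z w : ℝ} (hz : ∀ b, a b < z) (hw : ∀ b, a b < w) :
    0 ≤ 1 / ((∑ b, α b * (z - a b)⁻¹) * ∑ b, α b * (w - a b)⁻¹) -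
        1 / ∑ b, α b * ((z - a b)⁻¹ * (w - a b)⁻¹) ∧
      1 / ((∑ b, α b * (z - a b)⁻¹) * ∑ b, α b * (w - a b)⁻¹) -
        1 / ∑ b, α b * ((z - a b)⁻¹ * (w - a b)⁻¹) ≤ vaD a ^ 2 / (2 * α0) := by
  have hX : ∀ b, 0 < (z - a b)⁻¹ := fun b => inv_pos.2 (sub_pos.2 (hz b))
  have hW : ∀ b, 0 < (w - a b)⁻¹ := fun b => inv_pos.2 (sub_pos.2 (hw b))
  have hcov := va_cov (α := α) hα1 hz hw
  have hge := va_prod_ge hα hα0 hz hw
  set p := (∑ b, α b * (z - a b)⁻¹) * ∑ b, α b * (w - a b)⁻¹ with hp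
  set s := ∑ b, α b * ((z - a b)⁻¹ * (w - a b)⁻¹) with hs
  have hspos : 0 < s :=
    Finset.sum_pos (fun b _ => mul_pos (hα b) (mul_pos (hX b) (hW b))) Finset.univ_nonempty
  have hppos : 0 < p := mul_pos
    (Finset.sum_pos (fun b _ => mul_pos (hα b) (hX b)) Finset.univ_nonempty)
    (Finset.sum_pos (fun b _ => mul_pos (hα b) (hW b)) Finset.univ_nonempty)
  have hT : ∀ b c, 0 ≤ (α b * ((z - a b)⁻¹ * (w - a b)⁻¹)) *
      (α c * ((z - a c)⁻¹ * (w - a c)⁻¹)) := fun b c =>
    (mul_pos (mul_pos (hα b) (mul_pos (hX b) (hW b)))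
      (mul_pos (hα c) (mul_pos (hX c) (hW c)))).le
  have h0 : 0 ≤ s - p := by
    rw [hcov]
    exact mul_nonneg (by norm_num) (Finset.sum_nonneg fun b _ => Finset.sum_nonneg fun c _ =>
      mul_nonneg (sq_nonneg _) (hT b c))
  have h1 : s - p ≤ vaD a ^ 2 / 2 * s ^ 2 := by
    rw [hcov]
    have h2 : ∑ b, ∑ c, (a b - a c) ^ 2 * ((α b * ((z - a b)⁻¹ * (w - a b)⁻¹)) *
        (α c * ((z - a c)⁻¹ * (w - a c)⁻¹))) ≤ vaD a ^ 2 * s ^ 2 := by
      have h3 : s ^ 2 = ∑ b, ∑ c, (α b * ((z - a b)⁻¹ * (w - a b)⁻¹)) *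
          (α c * ((z - a c)⁻¹ * (w - a c)⁻¹)) := by
        rw [sq, hs, Finset.sum_mul_sum]
      rw [h3, Finset.mul_sum]
      refine Finset.sum_le_sum fun b _ => ?_
      rw [Finset.mul_sum]
      refine Finset.sum_le_sum fun c _ => ?_
      exact mul_le_mul_of_nonneg_right (va_sq_le b c) (hT b c)
    linarith
  have e : 1 / p - 1 / s = (s - p) / (p * s) := by
    field_simp
  rw [e]
  refine ⟨div_nonneg h0 (mul_pos hppos hspos).le, ?_⟩
  rw [div_le_div_iff₀ (mul_pos hppos hspos) (by positivity)]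
  have h4 : (s - p) * (2 * α0) ≤ vaD a ^ 2 / 2 * s ^ 2 * (2 * α0) :=
    mul_le_mul_of_nonneg_right h1 (by positivity)
  have h5 : vaD a ^ 2 / 2 * s ^ 2 * (2 * α0) = vaD a ^ 2 * s * (α0 * s) := by ring
  have h6 : vaD a ^ 2 * s * (α0 * s) ≤ vaD a ^ 2 * s * p :=
    mul_le_mul_of_nonneg_left hge (mul_nonneg (sq_nonneg _) hspos.le)
  linarith

theorem va_St (hα : ∀ b, 0 < α b) (hα1 : ∑ b, α b = 1) {y : ℝ} (hy : 0 < y) :
    (∀ b, a b < stInv (atoms a α) y) ∧ ∑ b, α b * (stInv (atoms a α) y - a b)⁻¹ = y := by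
  obtain ⟨h1, h2⟩ := rf_stInv (a := a) hα hα1 hy
  exact ⟨h1, by simpa [div_eq_mul_inv] using h2⟩

omit [Nonempty B] in
/-- `w - z` in terms of the transforms -/
theorem va_diff {z w : ℝ} (hz : ∀ b, a b < z) (hw : ∀ b, a b < w) :
    (∑ b, α b * (z - a b)⁻¹) - ∑ b, α b * (w - a b)⁻¹ =
      (w - z) * ∑ b, α b * ((z - a b)⁻¹ * (w - a b)⁻¹) := by
  rw [← Finset.sum_sub_distrib, Finset.mul_sum]
  refine Finset.sum_congr rfl fun b _ => ?_
  have hzb : z - a b ≠ 0 := (sub_pos.2 (hz b)).ne'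
  have hwb : w - a b ≠ 0 := (sub_pos.2 (hw b)).ne'
  field_simp
  ring

/-- `R' ≤ (range)² / (2 α_min)`: the R-transform of a finite law is Lipschitz. -/
theorem Rt_lip (hα : ∀ b, 0 < α b) (hα1 : ∑ b, α b = 1) :
    ∃ C : ℝ, 0 ≤ C ∧ (∀ y, 0 < y → 0 ≤ Rt' a α y ∧ Rt' a α y ≤ C) ∧
      ∀ x y, 0 < x → 0 < y → |Rt (atoms a α) x - Rt (atoms a α) y| ≤ C * |x - y| := by
  obtain ⟨α0, hα0p, hα0⟩ := va_min hα
  refine ⟨vaD a ^ 2 / (2 * α0), by positivity, ?_, ?_⟩
  · intro y hy
    obtain ⟨hz, hzy⟩ := va_St (a := a) hα hα1 hy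
    have h1 := va_main hα hα1 hα0p hα0 hz hz
    rw [hzy] at h1
    have h2 : Rt' a α y = 1 / (y * y) -
        1 / ∑ b, α b * ((stInv (atoms a α) y - a b)⁻¹ * (stInv (atoms a α) y - a b)⁻¹) := by
      unfold Rt'
      have h3 : ∑ b, α b / (stInv (atoms a α) y - a b) ^ 2 =
          ∑ b, α b * ((stInv (atoms a α) y - a b)⁻¹ * (stInv (atoms a α) y - a b)⁻¹) := by
        refine Finset.sum_congr rfl fun b _ => ?_
        rw [div_eq_mul_inv, ← sq, inv_pow]
      rw [h3, ← sq y]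
    rw [h2]
    exact h1
  · have key : ∀ x y, 0 < x → 0 < y → Rt (atoms a α) x - Rt (atoms a α) y =
        (x - y) * (1 / (x * y) - 1 / ∑ b, α b * ((stInv (atoms a α) x - a b)⁻¹ *
          (stInv (atoms a α) y - a b)⁻¹)) := by
      intro x y hx hy
      obtain ⟨hz, hzx⟩ := va_St (a := a) hα hα1 hx
      obtain ⟨hw, hwy⟩ := va_St (a := a) hα hα1 hy
      have h1 := va_diff (α := α) hz hw
      rw [hzx, hwy] at h1
      have hs : 0 < ∑ b, α b * ((stInv (atoms a α) x - a b)⁻¹ * (stInv (atoms a α) y - a b)⁻¹) :=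
        Finset.sum_pos (fun b _ => mul_pos (hα b) (mul_pos (inv_pos.2 (sub_pos.2 (hz b)))
          (inv_pos.2 (sub_pos.2 (hw b))))) Finset.univ_nonempty
      set s := ∑ b, α b * ((stInv (atoms a α) x - a b)⁻¹ * (stInv (atoms a α) y - a b)⁻¹)
      unfold Rt
      rw [mul_sub, h1]
      have h2 : (stInv (atoms a α) y - stInv (atoms a α) x) * s * (1 / s) =
          stInv (atoms a α) y - stInv (atoms a α) x := by
        field_simp
      rw [h2, ← h1]
      field_simp
      ring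
    intro x y hx hy
    obtain ⟨hz, hzx⟩ := va_St (a := a) hα hα1 hx
    obtain ⟨hw, hwy⟩ := va_St (a := a) hα hα1 hy
    have h1 := va_main hα hα1 hα0p hα0 hz hw
    rw [hzx, hwy] at h1
    rw [key x y hx hy, abs_mul, abs_of_nonneg h1.1, mul_comm]
    exact mul_le_mul_of_nonneg_right h1.2 (abs_nonneg _)

theorem Rt_abs_le (hα : ∀ b, 0 < α b) (hα1 : ∑ b, α b = 1) :
    ∃ C : ℝ, 0 ≤ C ∧ ∀ y, 0 < y → |Rt (atoms a α) y| ≤ C :=
  ⟨∑ b, |a b|, Finset.sum_nonneg fun _ _ => abs_nonneg _, fun _ hy => rf_Rt_bound hα hα1 hy⟩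

/-- The levels of the matrix `β R(β Q)`, `Q` the overlap matrix with the path `q`. -/
noncomputable def rPath (β : ℝ) (μ : Measure ℝ) (K : ℕ) (m q : ℕ → ℝ) : ℕ → ℝ :=
  (Hm.ofEv K m (fun l => β * Rt μ (β * eq' K m q l))).e

/-- The diagonal entry of the matrix `β R(β Q)`. -/
noncomputable def rDiag (β : ℝ) (μ : Measure ℝ) (K : ℕ) (m q : ℕ → ℝ) : ℝ :=
  (Hm.ofEv K m (fun l => β * Rt μ (β * eq' K m q l))).d

theorem rPath_props (hα : ∀ b, 0 < α b) (hα1 : ∑ b, α b = 1) {β : ℝ} (hβ : 0 < β) :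
    ∃ C : ℝ, 0 ≤ C ∧ ∀ (K : ℕ) (m q : ℕ → ℝ), Expo K m → OPath K q → q 0 = 0 → q K < 1 →
      rPath β (atoms a α) K m q 0 = 0 ∧
      (∀ l < K, rPath β (atoms a α) K m q l ≤ rPath β (atoms a α) K m q (l + 1)) ∧
      rPath β (atoms a α) K m q K ≤ C ∧ |rDiag β (atoms a α) K m q| ≤ C := by
  have hprob := atoms_prob (a := a) hα hα1
  have hcpt := rf_compact (a := a) hα
  obtain ⟨C0, hC0, -, hlip⟩ := Rt_lip (a := a) hα hα1
  obtain ⟨C1, hC1, hbd⟩ := Rt_abs_le (a := a) hα hα1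
  refine ⟨β * C1 + C0 * β ^ 2, by positivity, ?_⟩
  intro K m q hm hq hq0 hqK
  -- the eigenvalues
  have hdiff : ∀ l < K, eq' K m q l - eq' K m q (l + 1) = m (l + 1) * (q (l + 1) - q l) :=
    fun l hl => Hm.ev_sub hm ⟨1, q⟩ hl
  have hK : eq' K m q K = 1 - q K := Hm.ev_K hm ⟨1, q⟩
  have hmpos : ∀ l < K, 0 < m (l + 1) := fun l hl => fs_mpos hm l hl.le
  have hdec : ∀ l < K, eq' K m q (l + 1) ≤ eq' K m q l := by
    intro l hl
    have h1 := mul_nonneg (hmpos l hl).le (sub_nonneg.2 (hq.mono l hl))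
    linarith [hdiff l hl]
  have hpos : ∀ l ≤ K, 0 < eq' K m q l := by
    refine alg1_down_ind (Q := fun l => 0 < eq' K m q l) ?_ ?_
    · rw [hK]
      linarith
    · intro l hl h1
      exact h1.trans_le (hdec l hl)
  have hinc0 : ∀ l < K, 0 ≤ (β * Rt (atoms a α) (β * eq' K m q l) -
      β * Rt (atoms a α) (β * eq' K m q (l + 1))) / m (l + 1) := by
    intro l hl
    refine div_nonneg ?_ (hmpos l hl).le
    rw [← mul_sub]
    refine mul_nonneg hβ.le (sub_nonneg.2 ?_)
    exact Rt_mono hcpt (mul_pos hβ (hpos (l + 1) hl))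
      (mul_le_mul_of_nonneg_left (hdec l hl) hβ.le)
  have hinc1 : ∀ l < K, (β * Rt (atoms a α) (β * eq' K m q l) -
      β * Rt (atoms a α) (β * eq' K m q (l + 1))) / m (l + 1) ≤
        C0 * β ^ 2 * (q (l + 1) - q l) := by
    intro l hl
    rw [div_le_iff₀ (hmpos l hl), ← mul_sub]
    have h1 := hlip _ _ (mul_pos hβ (hpos l hl.le)) (mul_pos hβ (hpos (l + 1) hl))
    rw [← mul_sub, abs_mul β, abs_of_pos hβ,
      abs_of_nonneg (sub_nonneg.2 (hdec l hl)), hdiff l hl] at h1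
    calc β * (Rt (atoms a α) (β * eq' K m q l) - Rt (atoms a α) (β * eq' K m q (l + 1)))
        ≤ β * (C0 * (β * (m (l + 1) * (q (l + 1) - q l)))) :=
          mul_le_mul_of_nonneg_left ((le_abs_self _).trans h1) hβ.le
      _ = C0 * β ^ 2 * (q (l + 1) - q l) * m (l + 1) := by ring
  have hle : rPath β (atoms a α) K m q K ≤ C0 * β ^ 2 := by
    calc rPath β (atoms a α) K m q K
        = ∑ i ∈ range K, (β * Rt (atoms a α) (β * eq' K m q i) -
          β * Rt (atoms a α) (β * eq' K m q (i + 1))) / m (i + 1) := rfl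
      _ ≤ ∑ i ∈ range K, C0 * β ^ 2 * (q (i + 1) - q i) :=
          Finset.sum_le_sum fun i hi => hinc1 i (Finset.mem_range.1 hi)
      _ = C0 * β ^ 2 * (q K - q 0) := by rw [← Finset.mul_sum, Finset.sum_range_sub]
      _ ≤ C0 * β ^ 2 * 1 := by
          refine mul_le_mul_of_nonneg_left ?_ (by positivity)
          linarith
      _ = C0 * β ^ 2 := mul_one _
  have hge : 0 ≤ rPath β (atoms a α) K m q K :=
    Finset.sum_nonneg fun i hi => hinc0 i (Finset.mem_range.1 hi)
  refine ⟨?_, ?_, ?_, ?_⟩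
  · simp [rPath, Hm.ofEv]
  · intro l hl
    have h1 : rPath β (atoms a α) K m q (l + 1) = rPath β (atoms a α) K m q l +
        (β * Rt (atoms a α) (β * eq' K m q l) -
          β * Rt (atoms a α) (β * eq' K m q (l + 1))) / m (l + 1) :=
      Finset.sum_range_succ _ _
    rw [h1]
    linarith [hinc0 l hl]
  · have : 0 ≤ β * C1 := by positivity
    linarith
  · have h1 : rDiag β (atoms a α) K m q =
        β * Rt (atoms a α) (β * eq' K m q K) + rPath β (atoms a α) K m q K := rfl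
    rw [h1]
    refine (abs_add_le _ _).trans (add_le_add ?_ ?_)
    · rw [abs_mul, abs_of_pos hβ]
      exact mul_le_mul_of_nonneg_left (hbd _ (mul_pos hβ (hpos K le_rfl))) hβ.le
    · rw [abs_of_nonneg hge]
      exact hle

omit [Nonempty B] in
/-- the difference of two averages of the atoms -/
theorem va_avg {z w : ℝ} (hz : ∀ b, a b < z) (hw : ∀ b, a b < w) :
    (∑ b, α b * (z - a b)⁻¹ ^ 2 * a b) * (∑ b, α b * (w - a b)⁻¹ ^ 2) -
      (∑ b, α b * (w - a b)⁻¹ ^ 2 * a b) * (∑ b, α b * (z - a b)⁻¹ ^ 2) =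
    (w - z) * ∑ b, ∑ c, (a b - a c) ^ 2 * ((α b * ((z - a b)⁻¹ ^ 2 * (w - a b)⁻¹)) *
      (α c * ((z - a c)⁻¹ * (w - a c)⁻¹ ^ 2))) := by
  have f1 : ∀ p q : B → ℝ, (∑ b, p b) * ∑ c, q c = ∑ b, ∑ c, p b * q c :=
    fun p q => (Finset.sum_mul_sum _ _ _ _)
  have hswap : ∑ b, ∑ c, (a b - a c) ^ 2 * ((α b * ((z - a b)⁻¹ ^ 2 * (w - a b)⁻¹)) *
      (α c * ((z - a c)⁻¹ * (w - a c)⁻¹ ^ 2))) =
      ∑ b, ∑ c, (a c - a b) ^ 2 * ((α c * ((z - a c)⁻¹ ^ 2 * (w - a c)⁻¹)) *
      (α b * ((z - a b)⁻¹ * (w - a b)⁻¹ ^ 2))) := Finset.sum_comm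
  have hswap2 : (∑ b, α b * (z - a b)⁻¹ ^ 2 * a b) * (∑ b, α b * (w - a b)⁻¹ ^ 2) -
      (∑ b, α b * (w - a b)⁻¹ ^ 2 * a b) * (∑ b, α b * (z - a b)⁻¹ ^ 2) =
      ∑ b, ∑ c, (α b * (z - a b)⁻¹ ^ 2 * a b * (α c * (w - a c)⁻¹ ^ 2) -
        α b * (z - a b)⁻¹ ^ 2 * (α c * (w - a c)⁻¹ ^ 2 * a c)) := by
    rw [mul_comm (∑ b, α b * (w - a b)⁻¹ ^ 2 * a b), f1, f1, ← Finset.sum_sub_distrib]
    exact Finset.sum_congr rfl fun b _ => (Finset.sum_sub_distrib _ _).symm
  have hswap3 : ∑ b, ∑ c, (α b * (z - a b)⁻¹ ^ 2 * a b * (α c * (w - a c)⁻¹ ^ 2) -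
        α b * (z - a b)⁻¹ ^ 2 * (α c * (w - a c)⁻¹ ^ 2 * a c)) =
      ∑ b, ∑ c, (α c * (z - a c)⁻¹ ^ 2 * a c * (α b * (w - a b)⁻¹ ^ 2) -
        α c * (z - a c)⁻¹ ^ 2 * (α b * (w - a b)⁻¹ ^ 2 * a b)) := Finset.sum_comm
  have key : ∀ b c, (α b * (z - a b)⁻¹ ^ 2 * a b * (α c * (w - a c)⁻¹ ^ 2) -
        α b * (z - a b)⁻¹ ^ 2 * (α c * (w - a c)⁻¹ ^ 2 * a c)) +
      (α c * (z - a c)⁻¹ ^ 2 * a c * (α b * (w - a b)⁻¹ ^ 2) -
        α c * (z - a c)⁻¹ ^ 2 * (α b * (w - a b)⁻¹ ^ 2 * a b)) =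
      (w - z) * ((a b - a c) ^ 2 * ((α b * ((z - a b)⁻¹ ^ 2 * (w - a b)⁻¹)) *
        (α c * ((z - a c)⁻¹ * (w - a c)⁻¹ ^ 2))) +
      (a c - a b) ^ 2 * ((α c * ((z - a c)⁻¹ ^ 2 * (w - a c)⁻¹)) *
        (α b * ((z - a b)⁻¹ * (w - a b)⁻¹ ^ 2)))) := by
    intro b c
    have hzb : z - a b ≠ 0 := (sub_pos.2 (hz b)).ne'
    have hzc : z - a c ≠ 0 := (sub_pos.2 (hz c)).ne'
    have hwb : w - a b ≠ 0 := (sub_pos.2 (hw b)).ne'
    have hwc : w - a c ≠ 0 := (sub_pos.2 (hw c)).ne'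
    field_simp
    ring
  have h2 : (∑ b, ∑ c, (α b * (z - a b)⁻¹ ^ 2 * a b * (α c * (w - a c)⁻¹ ^ 2) -
        α b * (z - a b)⁻¹ ^ 2 * (α c * (w - a c)⁻¹ ^ 2 * a c))) +
      (∑ b, ∑ c, (α c * (z - a c)⁻¹ ^ 2 * a c * (α b * (w - a b)⁻¹ ^ 2) -
        α c * (z - a c)⁻¹ ^ 2 * (α b * (w - a b)⁻¹ ^ 2 * a b))) =
      (w - z) * ((∑ b, ∑ c, (a b - a c) ^ 2 * ((α b * ((z - a b)⁻¹ ^ 2 * (w - a b)⁻¹)) *
        (α c * ((z - a c)⁻¹ * (w - a c)⁻¹ ^ 2)))) +
      ∑ b, ∑ c, (a c - a b) ^ 2 * ((α c * ((z - a c)⁻¹ ^ 2 * (w - a c)⁻¹)) *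
        (α b * ((z - a b)⁻¹ * (w - a b)⁻¹ ^ 2)))) := by
    rw [← Finset.sum_add_distrib, ← Finset.sum_add_distrib, Finset.mul_sum]
    refine Finset.sum_congr rfl fun b _ => ?_
    rw [← Finset.sum_add_distrib, ← Finset.sum_add_distrib, Finset.mul_sum]
    exact Finset.sum_congr rfl fun c _ => key b c
  rw [← hswap3, ← hswap] at h2
  rw [hswap2]
  linarith

/-- the ratio of the sums -/
theorem va_ratio (hα : ∀ b, 0 < α b) {α0 : ℝ} (hα0p : 0 < α0) (hα0 : ∀ b, α0 ≤ α b) {z w : ℝ}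
    (hz : ∀ b, a b < z) (hw : ∀ b, a b < w) :
    α0 * ((∑ b, α b * ((z - a b)⁻¹ ^ 2 * (w - a b)⁻¹)) *
      ∑ b, α b * ((z - a b)⁻¹ * (w - a b)⁻¹ ^ 2)) ≤
      (∑ b, α b * ((z - a b)⁻¹ * (w - a b)⁻¹)) *
        ((∑ b, α b * (z - a b)⁻¹ ^ 2) * ∑ b, α b * (w - a b)⁻¹ ^ 2) := by
  have hX : ∀ b, 0 < (z - a b)⁻¹ := fun b => inv_pos.2 (sub_pos.2 (hz b))
  have hW : ∀ b, 0 < (w - a b)⁻¹ := fun b => inv_pos.2 (sub_pos.2 (hw b))
  obtain ⟨b0, -, hb0⟩ := Finset.exists_max_image Finset.univ a Finset.univ_nonempty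
  have hX0 : ∀ b, (z - a b)⁻¹ ≤ (z - a b0)⁻¹ := fun b =>
    inv_anti₀ (sub_pos.2 (hz b0)) (sub_le_sub_left (hb0 b (Finset.mem_univ b)) z)
  have hW0 : ∀ b, (w - a b)⁻¹ ≤ (w - a b0)⁻¹ := fun b =>
    inv_anti₀ (sub_pos.2 (hw b0)) (sub_le_sub_left (hb0 b (Finset.mem_univ b)) w)
  have h1 : ∑ b, α b * ((z - a b)⁻¹ ^ 2 * (w - a b)⁻¹) ≤
      (w - a b0)⁻¹ * ∑ b, α b * (z - a b)⁻¹ ^ 2 := by
    rw [Finset.mul_sum]
    refine Finset.sum_le_sum fun b _ => ?_
    calc α b * ((z - a b)⁻¹ ^ 2 * (w - a b)⁻¹) ≤ α b * ((z - a b)⁻¹ ^ 2 * (w - a b0)⁻¹) :=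
          mul_le_mul_of_nonneg_left (mul_le_mul_of_nonneg_left (hW0 b) (sq_nonneg _)) (hα b).le
      _ = (w - a b0)⁻¹ * (α b * (z - a b)⁻¹ ^ 2) := by ring
  have h2 : ∑ b, α b * ((z - a b)⁻¹ * (w - a b)⁻¹ ^ 2) ≤
      (z - a b0)⁻¹ * ∑ b, α b * (w - a b)⁻¹ ^ 2 := by
    rw [Finset.mul_sum]
    refine Finset.sum_le_sum fun b _ => ?_
    calc α b * ((z - a b)⁻¹ * (w - a b)⁻¹ ^ 2) ≤ α b * ((z - a b0)⁻¹ * (w - a b)⁻¹ ^ 2) :=
          mul_le_mul_of_nonneg_left (mul_le_mul_of_nonneg_right (hX0 b) (sq_nonneg _)) (hα b).le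
      _ = (z - a b0)⁻¹ * (α b * (w - a b)⁻¹ ^ 2) := by ring
  have h3 : α0 * ((z - a b0)⁻¹ * (w - a b0)⁻¹) ≤ ∑ b, α b * ((z - a b)⁻¹ * (w - a b)⁻¹) :=
    (mul_le_mul_of_nonneg_right (hα0 b0) (mul_pos (hX b0) (hW b0)).le).trans
      (Finset.single_le_sum (f := fun b => α b * ((z - a b)⁻¹ * (w - a b)⁻¹))
        (fun b _ => (mul_pos (hα b) (mul_pos (hX b) (hW b))).le) (Finset.mem_univ b0))
  have hSz : 0 ≤ ∑ b, α b * (z - a b)⁻¹ ^ 2 :=
    Finset.sum_nonneg fun b _ => mul_nonneg (hα b).le (sq_nonneg _)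
  have hSw : 0 ≤ ∑ b, α b * (w - a b)⁻¹ ^ 2 :=
    Finset.sum_nonneg fun b _ => mul_nonneg (hα b).le (sq_nonneg _)
  have h4 : (∑ b, α b * ((z - a b)⁻¹ ^ 2 * (w - a b)⁻¹)) *
      ∑ b, α b * ((z - a b)⁻¹ * (w - a b)⁻¹ ^ 2) ≤
      ((w - a b0)⁻¹ * ∑ b, α b * (z - a b)⁻¹ ^ 2) *
        ((z - a b0)⁻¹ * ∑ b, α b * (w - a b)⁻¹ ^ 2) := by
    refine mul_le_mul h1 h2 ?_ (mul_nonneg (hW b0).le hSz)
    exact Finset.sum_nonneg fun b _ => mul_nonneg (hα b).le
      (mul_nonneg (hX b).le (sq_nonneg _))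
  calc α0 * ((∑ b, α b * ((z - a b)⁻¹ ^ 2 * (w - a b)⁻¹)) *
      ∑ b, α b * ((z - a b)⁻¹ * (w - a b)⁻¹ ^ 2))
      ≤ α0 * (((w - a b0)⁻¹ * ∑ b, α b * (z - a b)⁻¹ ^ 2) *
        ((z - a b0)⁻¹ * ∑ b, α b * (w - a b)⁻¹ ^ 2)) := mul_le_mul_of_nonneg_left h4 hα0p.le
    _ = (α0 * ((z - a b0)⁻¹ * (w - a b0)⁻¹)) *
        ((∑ b, α b * (z - a b)⁻¹ ^ 2) * ∑ b, α b * (w - a b)⁻¹ ^ 2) := by ring
    _ ≤ _ := mul_le_mul_of_nonneg_right h3 (mul_nonneg hSz hSw)

/-- The derivative `R + y R'` of `y R(y)` is Lipschitz and nondecreasing. -/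
theorem phi_lip (hα : ∀ b, 0 < α b) (hα1 : ∑ b, α b = 1) :
    ∃ C : ℝ, 0 ≤ C ∧ ∀ x y, 0 < x → 0 < y →
      |(Rt (atoms a α) x + x * Rt' a α x) - (Rt (atoms a α) y + y * Rt' a α y)| ≤ C * |x - y| := by
  have hprob := atoms_prob (a := a) hα hα1
  obtain ⟨α0, hα0p, hα0⟩ := va_min hα
  have hmain : ∀ x y, 0 < x → 0 < y →
      (Rt (atoms a α) x + x * Rt' a α x) - (Rt (atoms a α) y + y * Rt' a α y) ≤
        vaD a ^ 2 / α0 * |x - y| := by
    intro x y hx hy
    obtain ⟨hz, hzx⟩ := va_St (a := a) hα hα1 hx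
    obtain ⟨hw, hwy⟩ := va_St (a := a) hα hα1 hy
    have hd := va_diff (α := α) hz hw
    rw [hzx, hwy] at hd
    rw [rf_energy_eq hα hα1 hx, rf_energy_eq hα hα1 hy]
    set z := stInv (atoms a α) x with hzdef
    set w := stInv (atoms a α) y with hwdef
    have hX : ∀ b, 0 < (z - a b)⁻¹ := fun b => inv_pos.2 (sub_pos.2 (hz b))
    have hW : ∀ b, 0 < (w - a b)⁻¹ := fun b => inv_pos.2 (sub_pos.2 (hw b))
    have hdiv : ∀ (u : ℝ) (b : B), α b / (u - a b) ^ 2 = α b * (u - a b)⁻¹ ^ 2 := by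
      intro u b
      rw [div_eq_mul_inv, inv_pow]
    simp only [hdiv]
    have hSz : 0 < ∑ b, α b * (z - a b)⁻¹ ^ 2 :=
      Finset.sum_pos (fun b _ => mul_pos (hα b) (pow_pos (hX b) 2)) Finset.univ_nonempty
    have hSw : 0 < ∑ b, α b * (w - a b)⁻¹ ^ 2 :=
      Finset.sum_pos (fun b _ => mul_pos (hα b) (pow_pos (hW b) 2)) Finset.univ_nonempty
    have hs : 0 < ∑ b, α b * ((z - a b)⁻¹ * (w - a b)⁻¹) :=
      Finset.sum_pos (fun b _ => mul_pos (hα b) (mul_pos (hX b) (hW b))) Finset.univ_nonempty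
    rw [div_sub_div _ _ hSz.ne' hSw.ne', div_le_iff₀ (mul_pos hSz hSw),
      mul_comm (∑ b, α b * (z - a b)⁻¹ ^ 2) (∑ b, α b * (w - a b)⁻¹ ^ 2 * a b), va_avg hz hw]
    have hT : ∀ b c, 0 ≤ (α b * ((z - a b)⁻¹ ^ 2 * (w - a b)⁻¹)) *
      (α c * ((z - a c)⁻¹ * (w - a c)⁻¹ ^ 2)) := fun b c =>
      (mul_pos (mul_pos (hα b) (mul_pos (pow_pos (hX b) 2) (hW b)))
        (mul_pos (hα c) (mul_pos (hX c) (pow_pos (hW c) 2)))).le
    have h1 : ∑ b, ∑ c, (a b - a c) ^ 2 * ((α b * ((z - a b)⁻¹ ^ 2 * (w - a b)⁻¹)) *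
      (α c * ((z - a c)⁻¹ * (w - a c)⁻¹ ^ 2))) ≤
      vaD a ^ 2 * ((∑ b, α b * ((z - a b)⁻¹ ^ 2 * (w - a b)⁻¹)) *
      ∑ b, α b * ((z - a b)⁻¹ * (w - a b)⁻¹ ^ 2)) := by
      rw [Finset.sum_mul_sum, Finset.mul_sum]
      refine Finset.sum_le_sum fun b _ => ?_
      rw [Finset.mul_sum]
      refine Finset.sum_le_sum fun c _ => ?_
      exact mul_le_mul_of_nonneg_right (va_sq_le b c) (hT b c)
    have h2 := va_ratio hα hα0p hα0 hz hw
    have h0 : 0 ≤ ∑ b, ∑ c, (a b - a c) ^ 2 * ((α b * ((z - a b)⁻¹ ^ 2 * (w - a b)⁻¹)) *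
      (α c * ((z - a c)⁻¹ * (w - a c)⁻¹ ^ 2))) :=
      Finset.sum_nonneg fun b _ => Finset.sum_nonneg fun c _ => mul_nonneg (sq_nonneg _) (hT b c)
    set T := ∑ b, ∑ c, (a b - a c) ^ 2 * ((α b * ((z - a b)⁻¹ ^ 2 * (w - a b)⁻¹)) *
      (α c * ((z - a c)⁻¹ * (w - a c)⁻¹ ^ 2)))
    set s := ∑ b, α b * ((z - a b)⁻¹ * (w - a b)⁻¹)
    set Sz := ∑ b, α b * (z - a b)⁻¹ ^ 2
    set Sw := ∑ b, α b * (w - a b)⁻¹ ^ 2
    set U := (∑ b, α b * ((z - a b)⁻¹ ^ 2 * (w - a b)⁻¹)) *
      ∑ b, α b * ((z - a b)⁻¹ * (w - a b)⁻¹ ^ 2)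
    have h3 : T ≤ vaD a ^ 2 / α0 * (s * (Sz * Sw)) := by
      have h4 : vaD a ^ 2 * U ≤ vaD a ^ 2 / α0 * (s * (Sz * Sw)) := by
        have h5 : vaD a ^ 2 * U = vaD a ^ 2 / α0 * (α0 * U) := by
          field_simp
        rw [h5]
        exact mul_le_mul_of_nonneg_left h2 (by positivity)
      exact h1.trans h4
    calc (w - z) * T ≤ |w - z| * T := mul_le_mul_of_nonneg_right (le_abs_self _) h0
      _ ≤ |w - z| * (vaD a ^ 2 / α0 * (s * (Sz * Sw))) :=
          mul_le_mul_of_nonneg_left h3 (abs_nonneg _)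
      _ = vaD a ^ 2 / α0 * (|w - z| * s) * (Sz * Sw) := by ring
      _ = vaD a ^ 2 / α0 * |x - y| * (Sz * Sw) := by
          rw [hd, abs_mul, abs_of_pos hs]
  refine ⟨vaD a ^ 2 / α0, by positivity, fun x y hx hy => abs_le.2 ⟨?_, hmain x y hx hy⟩⟩
  have h1 := hmain y x hy hx
  rw [abs_sub_comm] at h1
  linarith

end Vale.Agent.P166.F
end
end

section

section

/-! Task F-VB: the spectral part and the value of the cavity computation. -/

open MeasureTheory Finset Filter Topology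

namespace Vale.Agent.P166.F

variable {B : Type} [Fintype B] [Nonempty B] {a α : B → ℝ}

theorem vb_ii (hα : ∀ b, 0 < α b) (hα1 : ∑ b, α b = 1) (y : ℝ) :
    IntegrableOn (Rt (atoms a α)) (Set.Ioc 0 y) := by
  have hcont : ContinuousOn (Rt (atoms a α)) (Set.Ioc 0 y) := fun u hu =>
    (hasDerivAt_Rt hα hα1 hu.1).continuousAt.continuousWithinAt
  refine Integrable.of_bound (C := ∑ b, |a b|)
    (hcont.aestronglyMeasurable measurableSet_Ioc) ?_
  rw [ae_restrict_iff' measurableSet_Ioc]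
  exact ae_of_all _ fun u hu => by
    rw [Real.norm_eq_abs]
    exact rf_Rt_bound hα hα1 hu.1

/-- The hypotheses of `trf_eq_integral` for `f(x) = (1/2) ∫_0^{βx} R`. -/
theorem vb_hyp (hα : ∀ b, 0 < α b) (hα1 : ∑ b, α b = 1) {β : ℝ} (hβ : 0 < β) :
    ContinuousOn (fun x => 1 / 2 * ∫ u in (0 : ℝ)..(β * x), Rt (atoms a α) u) (Set.Icc 0 1) ∧
    (∀ x ∈ Set.Ioo (0 : ℝ) 1, HasDerivAt
      (fun x => 1 / 2 * ∫ u in (0 : ℝ)..(β * x), Rt (atoms a α) u)
      (β / 2 * Rt (atoms a α) (β * x)) x) ∧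
    IntegrableOn (fun x => β / 2 * Rt (atoms a α) (β * x)) (Set.Ioo 0 1) := by
  refine ⟨?_, ?_, ?_⟩
  · have h1 : ContinuousOn (fun y => ∫ u in (0 : ℝ)..y, Rt (atoms a α) u) (Set.uIcc 0 β) := by
      refine intervalIntegral.continuousOn_primitive_interval ?_
      rw [Set.uIcc_of_le hβ.le, integrableOn_Icc_iff_integrableOn_Ioc]
      exact vb_ii hα hα1 _
    refine ContinuousOn.mul continuousOn_const (h1.comp (by fun_prop) ?_)
    intro x hx
    rw [Set.uIcc_of_le hβ.le]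
    exact ⟨mul_nonneg hβ.le hx.1, by nlinarith [hx.2]⟩
  · intro x hx
    have hy : 0 < β * x := mul_pos hβ hx.1
    have hc : ∀ u ∈ Set.Ioi (0 : ℝ), ContinuousAt (Rt (atoms a α)) u := fun u hu =>
      (hasDerivAt_Rt hα hα1 hu).continuousAt
    have h1 : HasDerivAt (fun y => ∫ u in (0 : ℝ)..y, Rt (atoms a α) u)
        (Rt (atoms a α) (β * x)) (β * x) := by
      refine intervalIntegral.integral_hasDerivAt_right ?_
        (ContinuousAt.stronglyMeasurableAtFilter isOpen_Ioi hc _ hy) (hc _ hy)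
      rw [intervalIntegrable_iff_integrableOn_Ioc_of_le hy.le]
      exact vb_ii hα hα1 _
    have h2 : HasDerivAt (fun x => β * x) β x := by
      simpa using (hasDerivAt_id x).const_mul β
    have h3 := (h1.comp x h2).const_mul (1 / 2)
    refine h3.congr_deriv ?_
    ring
  · have hcont : ContinuousOn (fun x => β / 2 * Rt (atoms a α) (β * x)) (Set.Ioo 0 1) := by
      intro x hx
      have h1 := (hasDerivAt_Rt (a := a) hα hα1 (mul_pos hβ hx.1)).continuousAt
      have h2 : ContinuousAt (fun x => β * x) x := by fun_prop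
      exact (continuousAt_const.mul
        (ContinuousAt.comp (g := Rt (atoms a α)) (f := fun x => β * x) h1 h2)).continuousWithinAt
    have hfin : IsFiniteMeasure (volume.restrict (Set.Ioo (0 : ℝ) 1)) :=
      ⟨by rw [Measure.restrict_apply_univ]; simp⟩
    refine Integrable.of_bound (hcont.aestronglyMeasurable measurableSet_Ioo)
      (β / 2 * ∑ b, |a b|) ?_
    rw [ae_restrict_iff' measurableSet_Ioo]
    refine ae_of_all _ fun x hx => ?_
    rw [Real.norm_eq_abs, abs_mul, abs_of_pos (half_pos hβ)]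
    exact mul_le_mul_of_nonneg_left (rf_Rt_bound hα hα1 (mul_pos hβ hx.1)) (half_pos hβ).le

/-- The spectral part is a trace. -/
theorem specPart_eq_trf (hα : ∀ b, 0 < α b) (hα1 : ∑ b, α b = 1) {β : ℝ} (hβ : 0 < β) {K : ℕ}
    {m q : ℕ → ℝ} (hm : Expo K m) (hq : OPath K q) (hq0 : q 0 = 0) :
    specPart β (atoms a α) K m q =
      trf K m (fun x => 1 / 2 * ∫ u in (0 : ℝ)..(β * x), Rt (atoms a α) u) (eq' K m q) := by
  obtain ⟨h1, h2, h3⟩ := vb_hyp (a := a) hα hα1 hβ
  rw [(trf_eq_integral hm hq hq0 h1 (by simp) h2 h3).2, intervalIntegral.integral_const_mul]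
  rfl

theorem vb_Lam_one {K : ℕ} {m q : ℕ → ℝ} (hq : OPath K q) : Lam K m q 1 = 0 := by
  unfold Lam
  rw [Finset.sum_eq_zero]
  · ring
  · intro l hl
    rw [Finset.mem_range] at hl
    rw [max_eq_right, mul_zero]
    linarith [fs_le_one hq (show l ≤ K by omega)]

theorem vb_Lam_lip {K : ℕ} {m q q' : ℕ → ℝ} (hm : Expo K m) (s : ℝ) :
    |Lam K m q s - Lam K m q' s| ≤ ∑ l ∈ range (K + 1), (m (l + 1) - m l) * |q l - q' l| := by
  have e : Lam K m q s - Lam K m q' s =
      ∑ l ∈ range (K + 1), (m (l + 1) - m l) * (max (q' l - s) 0 - max (q l - s) 0) := by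
    unfold Lam
    simp only [mul_sub, Finset.sum_sub_distrib]
    ring
  rw [e]
  refine (Finset.abs_sum_le_sum_abs _ _).trans (Finset.sum_le_sum fun l hl => ?_)
  rw [Finset.mem_range] at hl
  rw [abs_mul, abs_of_nonneg (hm.p_nonneg (show l ≤ K by omega))]
  refine mul_le_mul_of_nonneg_left ?_ (hm.p_nonneg (show l ≤ K by omega))
  refine (abs_max_sub_max_le_abs _ _ _).trans ?_
  rw [abs_sub_comm]
  exact le_of_eq (congrArg _ (by ring))

/-- The spectral part is Lipschitz in the path. -/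
theorem specPart_lip (hα : ∀ b, 0 < α b) (hα1 : ∑ b, α b = 1) {β : ℝ} (hβ : 0 < β) :
    ∃ C : ℝ, 0 ≤ C ∧ ∀ (K : ℕ) (m q q' : ℕ → ℝ), Expo K m → OPath K q → OPath K q' → q 0 = 0 →
      q' 0 = 0 → |specPart β (atoms a α) K m q - specPart β (atoms a α) K m q'| ≤
        C * ∑ l ∈ range (K + 1), (m (l + 1) - m l) * |q l - q' l| := by
  obtain ⟨C, hC, -, hlip⟩ := Rt_lip (a := a) hα hα1
  refine ⟨β / 2 * (C * β), by positivity, fun K m q q' hm hq hq' h0 h0' => ?_⟩
  obtain ⟨h1, h2, h3⟩ := vb_hyp (a := a) hα hα1 hβ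
  obtain ⟨i1, e1⟩ := trf_eq_integral hm hq h0 h1 (by simp) h2 h3
  obtain ⟨i2, e2⟩ := trf_eq_integral hm hq' h0' h1 (by simp) h2 h3
  rw [specPart_eq_trf hα hα1 hβ hm hq h0, specPart_eq_trf hα hα1 hβ hm hq' h0', e1, e2,
    ← intervalIntegral.integral_sub i1 i2]
  have hS : 0 ≤ ∑ l ∈ range (K + 1), (m (l + 1) - m l) * |q l - q' l| :=
    Finset.sum_nonneg fun l hl => by
      rw [Finset.mem_range] at hl
      exact mul_nonneg (hm.p_nonneg (show l ≤ K by omega)) (abs_nonneg _)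
  have hb := intervalIntegral.norm_integral_le_of_norm_le_const (a := (0 : ℝ)) (b := 1)
    (f := fun s => β / 2 * Rt (atoms a α) (β * Lam K m q s) -
      β / 2 * Rt (atoms a α) (β * Lam K m q' s))
    (C := β / 2 * (C * β) * ∑ l ∈ range (K + 1), (m (l + 1) - m l) * |q l - q' l|) ?_
  · rw [Real.norm_eq_abs] at hb
    refine hb.trans (le_of_eq ?_)
    norm_num
  · intro s hs
    rw [Set.uIoc_of_le zero_le_one] at hs
    rw [Real.norm_eq_abs]
    rcases hs.2.lt_or_eq with hlt | heq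
    · have hm1 := Lam_mem hm hq h0 ⟨hs.1, hlt⟩
      have hm2 := Lam_mem hm hq' h0' ⟨hs.1, hlt⟩
      have h4 := hlip _ _ (mul_pos hβ hm1.1) (mul_pos hβ hm2.1)
      have h5 := vb_Lam_lip (q := q) (q' := q') hm s
      rw [← mul_sub, abs_mul, abs_of_pos (half_pos hβ), mul_assoc]
      refine mul_le_mul_of_nonneg_left (h4.trans ?_) (half_pos hβ).le
      rw [← mul_sub, abs_mul, abs_of_pos hβ, ← mul_assoc]
      exact mul_le_mul_of_nonneg_left h5 (by positivity)
    · rw [heq, vb_Lam_one hq, vb_Lam_one hq', sub_self, abs_zero]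
      positivity

theorem vb_ev_pos {K : ℕ} {m q : ℕ → ℝ} (hm : Expo K m) (hq : OPath K q) (hq1 : q K < 1) {l : ℕ}
    (hl : l ≤ K) : 0 < eq' K m q l := by
  have h1 : ∀ j ∈ Ico (l + 1) (K + 1), (m (j + 1) - m j) * q j ≤ (m (j + 1) - m j) * q K := by
    intro j hj
    rw [Finset.mem_Ico] at hj
    exact mul_le_mul_of_nonneg_left (fs_mono hq j K (by omega) le_rfl)
      (hm.p_nonneg (show j ≤ K by omega))
  have h2 := Finset.sum_le_sum h1
  rw [← Finset.sum_mul, fs_tele m (by omega), hm.mK] at h2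
  have h3 := fs_mono hq l K hl le_rfl
  have h4 := fs_mpos hm l hl
  unfold eq'
  nlinarith

theorem vb_T_congr {K : ℕ} {m u v : ℕ → ℝ} (h : ∀ l ≤ K, u l = v l) :
    (Hm.ofEv K m u).d = (Hm.ofEv K m v).d := by
  simp only [Hm.ofEv]
  rw [h K le_rfl]
  congr 1
  refine Finset.sum_congr rfl fun i hi => ?_
  rw [Finset.mem_range] at hi
  rw [h i (by omega), h (i + 1) (by omega)]

theorem vb_T_add (K : ℕ) (m u v : ℕ → ℝ) :
    (Hm.ofEv K m (fun l => u l + v l)).d = (Hm.ofEv K m u).d + (Hm.ofEv K m v).d := by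
  simp only [Hm.ofEv]
  have h : ∑ i ∈ range K, (u i + v i - (u (i + 1) + v (i + 1))) / m (i + 1) =
      ∑ i ∈ range K, (u i - u (i + 1)) / m (i + 1) +
        ∑ i ∈ range K, (v i - v (i + 1)) / m (i + 1) := by
    rw [← Finset.sum_add_distrib]
    exact Finset.sum_congr rfl fun i _ => by ring
  rw [h]
  ring

theorem vb_T_mul (K : ℕ) (m u : ℕ → ℝ) (c : ℝ) :
    (Hm.ofEv K m (fun l => c * u l)).d = c * (Hm.ofEv K m u).d := by
  simp only [Hm.ofEv]
  rw [mul_add, Finset.mul_sum]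
  congr 1
  exact Finset.sum_congr rfl fun i _ => by ring

omit [Nonempty B] in
theorem vb_T_sum (K : ℕ) (m : ℕ → ℝ) (u : B → ℕ → ℝ) (c : B → ℝ) :
    (Hm.ofEv K m (fun l => ∑ b, c b * u b l)).d = ∑ b, c b * (Hm.ofEv K m (u b)).d := by
  simp only [Hm.ofEv, mul_add, Finset.sum_add_distrib, Finset.mul_sum]
  congr 1
  rw [Finset.sum_comm]
  refine Finset.sum_congr rfl fun i _ => ?_
  rw [← Finset.sum_sub_distrib, Finset.sum_div]
  exact Finset.sum_congr rfl fun b _ => by ring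

/-- **The value of the cavity computation** (lower bound):
`-(1/2) ∑_b α_b tr log(β Q (ζ(Q) - a_b)) + (1/2) r_d = specPart + (1/2) ∑ p_l r_l q_l`. -/
theorem value_identity (hα : ∀ b, 0 < α b) (hα1 : ∑ b, α b = 1) {β : ℝ} (hβ : 0 < β) {K : ℕ}
    {m q : ℕ → ℝ} (hm : Expo K m) (hq : OPath K q) (hq0 : q 0 = 0) (hq1 : q K < 1) :
    -(1 / 2) * ∑ b, α b * trf K m
        (fun x => Real.log (β * x * (stInv (atoms a α) (β * x) - a b))) (eq' K m q) +
      1 / 2 * rDiag β (atoms a α) K m q =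
    specPart β (atoms a α) K m q +
      1 / 2 * ∑ l ∈ range (K + 1), (m (l + 1) - m l) * rPath β (atoms a α) K m q l * q l := by
  rw [specPart_eq_trf hα hα1 hβ hm hq hq0]
  -- the trace of the product
  have hprod : (Hm.ofEv K m (fun l => eq' K m q l *
      (β * Rt (atoms a α) (β * eq' K m q l)))).d = rDiag β (atoms a α) K m q -
      ∑ l ∈ range (K + 1), (m (l + 1) - m l) * rPath β (atoms a α) K m q l * q l := by
    set N : Hm := Hm.ofEv K m (fun l => β * Rt (atoms a α) (β * eq' K m q l)) with hN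
    set Q : Hm := ⟨1, q⟩ with hQ
    have h0 : (Hm.mul K m Q N).e 0 = 0 := by
      rw [Hm.mul_zero_level hm]
      have e1 : N.e 0 = 0 := by simp [hN, Hm.ofEv]
      have e2 : Q.e 0 = 0 := hq0
      rw [e1, e2]
      ring
    have h1 := (Hm.eq_ofEv hm (Hm.mul K m Q N) h0).1
    have h2 : (Hm.ofEv K m (Hm.ev K m (Hm.mul K m Q N))).d = (Hm.ofEv K m (fun l => eq' K m q l *
        (β * Rt (atoms a α) (β * eq' K m q l)))).d := by
      refine vb_T_congr fun l hl => ?_
      rw [Hm.ev_mul hm _ _ hl, hN, Hm.ev_ofEv hm _ hl]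
      rfl
    rw [← h2, ← h1]
    simp only [Hm.mul]
    have e3 : Q.d = 1 := rfl
    rw [e3, one_mul]
    unfold rDiag rPath
    rw [← hN]
    congr 1
    refine Finset.sum_congr rfl fun l _ => ?_
    show (m (l + 1) - m l) * (q l * N.e l) = _
    ring
  -- the trace of the logarithms
  have hlog : ∑ b, α b * trf K m
      (fun x => Real.log (β * x * (stInv (atoms a α) (β * x) - a b))) (eq' K m q) =
      (Hm.ofEv K m (fun l => (-2) * (1 / 2 * ∫ u in (0 : ℝ)..(β * eq' K m q l),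
        Rt (atoms a α) u) + eq' K m q l * (β * Rt (atoms a α) (β * eq' K m q l)))).d := by
    have h1 : ∑ b, α b * trf K m
        (fun x => Real.log (β * x * (stInv (atoms a α) (β * x) - a b))) (eq' K m q) =
        (Hm.ofEv K m (fun l => ∑ b, α b * Real.log (β * eq' K m q l *
          (stInv (atoms a α) (β * eq' K m q l) - a b)))).d :=
      (vb_T_sum K m (fun b l => Real.log (β * eq' K m q l *
          (stInv (atoms a α) (β * eq' K m q l) - a b))) α).symm
    rw [h1]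
    refine vb_T_congr fun l hl => ?_
    have h2 := entropy (a := a) hα hα1 (mul_pos hβ (vb_ev_pos hm hq hq1 hl))
    linear_combination h2
  rw [hlog, vb_T_add, vb_T_mul, hprod]
  have h3 : trf K m (fun x => 1 / 2 * ∫ u in (0 : ℝ)..(β * x), Rt (atoms a α) u) (eq' K m q) =
      (Hm.ofEv K m (fun l => 1 / 2 * ∫ u in (0 : ℝ)..(β * eq' K m q l), Rt (atoms a α) u)).d := rfl
  rw [h3]
  ring

end Vale.Agent.P166.F
end
end

section

section

/-!
From the loop equations to the energy (`F.stab_energy`).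
-/

open MeasureTheory ProbabilityTheory Matrix Filter Topology

namespace Vale.Agent.P166.U

open Vale.Agent.P157.Lv Vale.Agent.P157.Par Md
open Vale.Agent.P166.F (Hm frac trf eq' Zeta)

/-- The loop equations hold up to `C` times the deviations. -/
def LoopBound (κ : ℕ) (B C : ℝ) : Prop :=
  ∀ (N K : ℕ) (m : ℕ → ℝ) (c : Fin N → Fin κ) (P : Pm κ)
    [MeasurableSpace (orthogonalGroup (Fin N) ℝ)] [BorelSpace (orthogonalGroup (Fin N) ℝ)]
    (ν : Measure (orthogonalGroup (Fin N) ℝ)) [IsProbabilityMeasure ν] [ν.IsMulLeftInvariant]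
    (dl : ℝ), 0 < N → Exponents K m → (∀ k, |P.b k| ≤ B) → (∀ k, ∀ l ≤ K, |P.u k l| ≤ dl) →
    dl ≤ 1 → ∀ k k', k ≠ k' → Hm.nrm K m (LE ν K m c P k k') ≤
      C * (Dv ν K m c P k + Dv ν K m c P k' + (K + 1) * dl)

lemma egy1_expo {K : ℕ} {m : ℕ → ℝ} (h : Exponents K m) : F.Expo K m := by
  obtain ⟨h0, h1, h2⟩ := h
  refine ⟨h0, h1, fun l hl => (h2 l hl).le, ?_⟩
  have := h2 0 (Nat.zero_le _)
  rw [h0] at this
  exact this

lemma egy1_nrm_nonneg {K : ℕ} {m : ℕ → ℝ} (h : F.Expo K m) (M : Hm) : 0 ≤ Hm.nrm K m M := by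
  unfold Hm.nrm
  refine add_nonneg (abs_nonneg _) (Finset.sum_nonneg fun l hl => ?_)
  have := Finset.mem_range.1 hl
  exact mul_nonneg (h.p_nonneg (by omega)) (abs_nonneg _)

/-- scalar multiples in the product -/
lemma egy1_mul_smul (K : ℕ) (m : ℕ → ℝ) (x y : ℝ) (M N : Hm) :
    (Hm.mul K m ⟨x * M.d, fun l => x * M.e l⟩ ⟨y * N.d, fun l => y * N.e l⟩).d =
      x * y * (Hm.mul K m M N).d ∧
    ∀ l, (Hm.mul K m ⟨x * M.d, fun l => x * M.e l⟩ ⟨y * N.d, fun l => y * N.e l⟩).e l =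
      x * y * (Hm.mul K m M N).e l := by
  unfold Hm.mul
  simp only
  constructor
  · have e : ∑ j ∈ Finset.range (K + 1), (m (j + 1) - m j) * (x * M.e j * (y * N.e j)) =
        x * y * ∑ j ∈ Finset.range (K + 1), (m (j + 1) - m j) * (M.e j * N.e j) := by
      rw [Finset.mul_sum]
      exact Finset.sum_congr rfl fun j _ => by ring
    rw [e]
    ring
  · intro l
    have e1 : ∑ j ∈ Finset.Ico (l + 1) (K + 1), (m (j + 1) - m j) *
        (x * M.e j * (y * N.e l) + x * M.e l * (y * N.e j)) =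
        x * y * ∑ j ∈ Finset.Ico (l + 1) (K + 1), (m (j + 1) - m j) *
          (M.e j * N.e l + M.e l * N.e j) := by
      rw [Finset.mul_sum]
      exact Finset.sum_congr rfl fun j _ => by ring
    have e2 : ∑ j ∈ Finset.range l, (m (j + 1) - m j) * (x * M.e j * (y * N.e j)) =
        x * y * ∑ j ∈ Finset.range l, (m (j + 1) - m j) * (M.e j * N.e j) := by
      rw [Finset.mul_sum]
      exact Finset.sum_congr rfl fun j _ => by ring
    rw [e1, e2]
    ring

/-- one entry -/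
lemma egy1_entry {α α' x x' y L f f' b b' t dl A B : ℝ} (hα : 0 < α) (hα' : 0 < α')
    (hL : L = f' * x - f * x' + (b' - b) * y) (hf : |f - α| ≤ dl) (hf' : |f' - α'| ≤ dl)
    (hb : |b - A| ≤ dl) (hb' : |b' - B| ≤ dl) (ht : t = A - B) :
    |x' / α' - x / α + t * (1 / α * (1 / α') * y)| ≤
      1 / (α * α') * (|L| + dl * |x| + dl * |x'| + 2 * dl * |y|) := by
  have e : x' / α' - x / α + t * (1 / α * (1 / α') * y) =
      1 / (α * α') * (-(L + (α' - f') * x - (α - f) * x' + ((B - A) - (b' - b)) * y)) := by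
    rw [hL, ht]
    field_simp
    ring
  rw [e, abs_mul, abs_of_pos (by positivity : 0 < 1 / (α * α')), abs_neg]
  refine mul_le_mul_of_nonneg_left ?_ (by positivity)
  have h1 : |(α' - f') * x| ≤ dl * |x| := by
    rw [abs_mul, abs_sub_comm]
    exact mul_le_mul_of_nonneg_right hf' (abs_nonneg _)
  have h2 : |(α - f) * x'| ≤ dl * |x'| := by
    rw [abs_mul, abs_sub_comm]
    exact mul_le_mul_of_nonneg_right hf (abs_nonneg _)
  have h3 : |((B - A) - (b' - b)) * y| ≤ 2 * dl * |y| := by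
    rw [abs_mul]
    refine mul_le_mul_of_nonneg_right ?_ (abs_nonneg _)
    have e3 : (B - A) - (b' - b) = (b - A) - (b' - B) := by ring
    rw [e3]
    refine (abs_sub _ _).trans ?_
    linarith only [hb, hb']
  have h4 := abs_add_le (L + (α' - f') * x - (α - f) * x') (((B - A) - (b' - b)) * y)
  have h5 := abs_sub (L + (α' - f') * x) ((α - f) * x')
  have h6 := abs_add_le L ((α' - f') * x)
  linarith only [h1, h2, h3, h4, h5, h6]

section dev

set_option linter.unusedSectionVars false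

variable {N K κ : ℕ} {m : ℕ → ℝ} {c : Fin N → Fin κ} {P : Pm κ}
  [MeasurableSpace (orthogonalGroup (Fin N) ℝ)] [BorelSpace (orthogonalGroup (Fin N) ℝ)]
  {ν : Measure (orthogonalGroup (Fin N) ℝ)} [IsProbabilityMeasure ν]

lemma egy1_Dv_nonneg (hm : Exponents K m) (k : Fin κ) :
    0 ≤ Dv ν K m c P k := by
  unfold Dv
  refine add_nonneg (integral_nonneg fun U => ?_) (Finset.sum_nonneg fun l hl => ?_)
  · have hS : (mdl K m c P U.1).Reg := (mdl_regD hm).toReg
    simp only [Pi.zero_apply]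
    rw [← hS.Ex_const 0]
    exact hS.Ex_mono (Sy.Nh.snd fun _ => 0)
      (Sy.Nh.snd fun x => |Rb c U.1 k x x - rho ν K m c P k|) fun _ x => abs_nonneg _
  · have hl' := Finset.mem_range.1 hl
    refine mul_nonneg ((egy1_expo hm).p_nonneg (by omega)) (integral_nonneg fun U => ?_)
    have hS : (mdl K m c P U.1).Reg := (mdl_regD hm).toReg
    have hlK : l ≤ (mdl K m c P U.1).K := by
      have : (mdl K m c P U.1).K = K := rfl
      omega
    simp only [Pi.zero_apply]
    rw [← hS.pairEx_const hlK 0]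
    exact hS.pairEx_mono hlK fun x x' => abs_nonneg _

lemma egy1_rho_le (hm : Exponents K m) (hN : 0 < N) (k : Fin κ) : rho ν K m c P k ≤ 1 := by
  rw [← sum_rho (ν := ν) (c := c) (P := P) hm hN]
  exact Finset.single_le_sum (f := fun k => rho ν K m c P k)
    (fun k _ => rho_nonneg hm hN k) (Finset.mem_univ k)

lemma egy1_abs_d (hm : Exponents K m) (hN : 0 < N) (k : Fin κ) :
    |(Mk ν K m c P k).d| ≤ 1 := by
  change |rho ν K m c P k| ≤ 1
  rw [abs_of_nonneg (rho_nonneg hm hN k)]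
  exact egy1_rho_le hm hN k

lemma egy1_abs_e (hm : Exponents K m) (hN : 0 < N) (k : Fin κ) {l : ℕ} (hl : l ≤ K) :
    |(Mk ν K m c P k).e l| ≤ 1 := by
  change |Rkl ν K m c P k l| ≤ 1
  rw [abs_of_nonneg (Rkl_nonneg hm hN k hl)]
  exact (Rkl_le hm hN k hl).trans (egy1_rho_le hm hN k)

lemma egy1_sum_p {m : ℕ → ℝ} (h : F.Expo K m) :
    ∑ l ∈ Finset.range (K + 1), (m (l + 1) - m l) = 1 := by
  rw [Finset.sum_range_sub, h.m0, h.mK, sub_zero]

lemma egy1_nrm_Mk (hm : Exponents K m) (hN : 0 < N) (k : Fin κ) :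
    Hm.nrm K m (Mk ν K m c P k) ≤ 2 := by
  unfold Hm.nrm
  have h1 := egy1_abs_d (ν := ν) (c := c) (P := P) hm hN k
  have h2 : ∑ l ∈ Finset.range (K + 1), (m (l + 1) - m l) * |(Mk ν K m c P k).e l| ≤ 1 := by
    rw [← egy1_sum_p (egy1_expo hm)]
    refine Finset.sum_le_sum fun l hl => ?_
    have hl' := Finset.mem_range.1 hl
    exact mul_le_of_le_one_right ((egy1_expo hm).p_nonneg (by omega))
      (egy1_abs_e hm hN k (by omega))
  linarith only [h1, h2]

lemma egy1_nrm_mul (hm : Exponents K m) (hN : 0 < N) (k k' : Fin κ) :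
    Hm.nrm K m (Hm.mul K m (Mk ν K m c P k) (Mk ν K m c P k')) ≤ 10 := by
  have h := Hm.nrm_mul_le (egy1_expo hm) (Mk ν K m c P k) (Mk ν K m c P k') (C := 1)
    (egy1_abs_d hm hN k) (fun l hl => egy1_abs_e hm hN k hl)
  have h2 := egy1_nrm_Mk (ν := ν) (c := c) (P := P) hm hN k'
  linarith only [h, h2]

/-- the normalized overlaps -/
noncomputable def egy1R (ν : Measure (orthogonalGroup (Fin N) ℝ)) (K : ℕ) (m : ℕ → ℝ)
    (c : Fin N → Fin κ) (P : Pm κ) (α : Fin κ → ℝ) (k : Fin κ) : Hm :=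
  ⟨1 / α k * (Mk ν K m c P k).d, fun l => 1 / α k * (Mk ν K m c P k).e l⟩

lemma egy1_loop_le (hm : Exponents K m) (hN : 0 < N) {α a : Fin κ → ℝ} (hα : ∀ k, 0 < α k)
    {θ dl : ℝ} (hb : ∀ k, |P.b k - θ * a k| ≤ dl) (hf : ∀ k, |frac c k - α k| ≤ dl)
    (k k' : Fin κ) :
    Hm.nrm K m (Hm.loop K m (θ * (a k - a k')) (egy1R ν K m c P α k) (egy1R ν K m c P α k')) ≤
      1 / (α k * α k') * (Hm.nrm K m (LE ν K m c P k k') + 24 * dl) := by
  have hx := egy1_expo hm
  have hdl : 0 ≤ dl := (abs_nonneg _).trans (hf k)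
  set M := Mk ν K m c P k with hM
  set M' := Mk ν K m c P k' with hM'
  set Y := Hm.mul K m M M' with hY
  obtain ⟨s1, s2⟩ := egy1_mul_smul K m (1 / α k) (1 / α k') M M'
  have hd : |(Hm.loop K m (θ * (a k - a k')) (egy1R ν K m c P α k)
      (egy1R ν K m c P α k')).d| ≤ 1 / (α k * α k') *
      (|(LE ν K m c P k k').d| + dl * |M.d| + dl * |M'.d| + 2 * dl * |Y.d|) := by
    have h := egy1_entry (hα k) (hα k') (x := M.d) (x' := M'.d) (y := Y.d)
      (L := (LE ν K m c P k k').d) (f := frac c k) (f' := frac c k') (b := P.b k)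
      (b' := P.b k') (t := θ * (a k - a k')) (A := θ * a k) (B := θ * a k') rfl (hf k) (hf k')
      (hb k) (hb k') (by ring)
    refine le_trans (le_of_eq ?_) h
    congr 1
    change 1 / α k' * M'.d - 1 / α k * M.d + θ * (a k - a k') *
      (Hm.mul K m ⟨1 / α k * M.d, fun l => 1 / α k * M.e l⟩
        ⟨1 / α k' * M'.d, fun l => 1 / α k' * M'.e l⟩).d = _
    rw [s1]
    ring
  have he : ∀ l, |(Hm.loop K m (θ * (a k - a k')) (egy1R ν K m c P α k)
      (egy1R ν K m c P α k')).e l| ≤ 1 / (α k * α k') *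
      (|(LE ν K m c P k k').e l| + dl * |M.e l| + dl * |M'.e l| + 2 * dl * |Y.e l|) := by
    intro l
    have h := egy1_entry (hα k) (hα k') (x := M.e l) (x' := M'.e l) (y := Y.e l)
      (L := (LE ν K m c P k k').e l) (f := frac c k) (f' := frac c k') (b := P.b k)
      (b' := P.b k') (t := θ * (a k - a k')) (A := θ * a k) (B := θ * a k') rfl (hf k) (hf k')
      (hb k) (hb k') (by ring)
    refine le_trans (le_of_eq ?_) h
    congr 1
    change 1 / α k' * M'.e l - 1 / α k * M.e l + θ * (a k - a k') *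
      (Hm.mul K m ⟨1 / α k * M.d, fun l => 1 / α k * M.e l⟩
        ⟨1 / α k' * M'.d, fun l => 1 / α k' * M'.e l⟩).e l = _
    rw [s2]
    ring
  have n1 : Hm.nrm K m (Hm.loop K m (θ * (a k - a k')) (egy1R ν K m c P α k)
      (egy1R ν K m c P α k')) ≤ 1 / (α k * α k') *
      (Hm.nrm K m (LE ν K m c P k k') + dl * Hm.nrm K m M + dl * Hm.nrm K m M' +
        2 * dl * Hm.nrm K m Y) := by
    have e : 1 / (α k * α k') *
      (Hm.nrm K m (LE ν K m c P k k') + dl * Hm.nrm K m M + dl * Hm.nrm K m M' +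
        2 * dl * Hm.nrm K m Y) = 1 / (α k * α k') *
      (|(LE ν K m c P k k').d| + dl * |M.d| + dl * |M'.d| + 2 * dl * |Y.d|) +
      ∑ l ∈ Finset.range (K + 1), (m (l + 1) - m l) * (1 / (α k * α k') *
      (|(LE ν K m c P k k').e l| + dl * |M.e l| + dl * |M'.e l| + 2 * dl * |Y.e l|)) := by
      have e1 : ∑ l ∈ Finset.range (K + 1), (m (l + 1) - m l) * (1 / (α k * α k') *
          (|(LE ν K m c P k k').e l| + dl * |M.e l| + dl * |M'.e l| + 2 * dl * |Y.e l|)) =
          1 / (α k * α k') * (∑ l ∈ Finset.range (K + 1), (m (l + 1) - m l) *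
            |(LE ν K m c P k k').e l| +
          dl * ∑ l ∈ Finset.range (K + 1), (m (l + 1) - m l) * |M.e l| +
          dl * ∑ l ∈ Finset.range (K + 1), (m (l + 1) - m l) * |M'.e l| +
          2 * dl * ∑ l ∈ Finset.range (K + 1), (m (l + 1) - m l) * |Y.e l|) := by
        rw [Finset.mul_sum, Finset.mul_sum, Finset.mul_sum, ← Finset.sum_add_distrib,
          ← Finset.sum_add_distrib, ← Finset.sum_add_distrib, Finset.mul_sum]
        exact Finset.sum_congr rfl fun l _ => by ring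
      rw [e1]
      unfold Hm.nrm
      ring
    rw [e]
    unfold Hm.nrm
    refine add_le_add hd (Finset.sum_le_sum fun l hl => ?_)
    have hl' := Finset.mem_range.1 hl
    exact mul_le_mul_of_nonneg_left (he l) (hx.p_nonneg (by omega))
  refine n1.trans (mul_le_mul_of_nonneg_left ?_ (by
    have h1 := hα k
    have h2 := hα k'
    (clear * - h1 h2; positivity)))
  have h1 := egy1_nrm_Mk (ν := ν) (c := c) (P := P) hm hN k
  have h2 := egy1_nrm_Mk (ν := ν) (c := c) (P := P) hm hN k'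
  have h3 := egy1_nrm_mul (ν := ν) (c := c) (P := P) hm hN k k'
  have h4 := mul_le_mul_of_nonneg_left h1 hdl
  have h5 := mul_le_mul_of_nonneg_left h2 hdl
  have h6 := mul_le_mul_of_nonneg_left h3 (by linarith only [hdl] : 0 ≤ 2 * dl)
  linarith only [h4, h5, h6]

lemma egy1_loop_self {α : Fin κ → ℝ} (θ : ℝ) (k : Fin κ) :
    Hm.nrm K m (Hm.loop K m (θ * (0 : ℝ)) (egy1R ν K m c P α k) (egy1R ν K m c P α k)) = 0 := by
  unfold Hm.nrm Hm.loop
  simp

lemma egy1_blocks (hm : Exponents K m) (hN : 0 < N) (hs : P.s 0 = 0) (hu : ∀ k, P.u k 0 = 0)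
    {α : Fin κ → ℝ} (hα : ∀ k, 0 < α k) : F.Blocks K α (egy1R ν K m c P α) where
  zero k := by
    change 1 / α k * Rkl ν K m c P k 0 = 0
    rw [Rkl_zero hm hN hs hu k, mul_zero]
  mono k l hl := by
    change 1 / α k * Rkl ν K m c P k l ≤ 1 / α k * Rkl ν K m c P k (l + 1)
    have := hα k
    exact mul_le_mul_of_nonneg_left (Rkl_mono hm hN k hl) (by positivity)
  le k := by
    change 1 / α k * Rkl ν K m c P k K ≤ 1 / α k * rho ν K m c P k
    have := hα k
    exact mul_le_mul_of_nonneg_left (Rkl_le hm hN k le_rfl) (by positivity)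
  one := by
    rw [← sum_rho (ν := ν) (c := c) (P := P) hm hN]
    refine Finset.sum_congr rfl fun k _ => ?_
    change α k * (1 / α k * rho ν K m c P k) = _
    have := (hα k).ne'
    field_simp
  lt := by
    refine lt_of_eq_of_lt ?_ (Ql_lt_one (ν := ν) (c := c) (P := P) hm hN)
    unfold Ql
    refine Finset.sum_congr rfl fun k _ => ?_
    change α k * (1 / α k * Rkl ν K m c P k K) = _
    have := (hα k).ne'
    field_simp

end dev

/-- **The energy in terms of the overlaps.** -/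
theorem egy_loop {n : ℕ} (a α : Fin (n + 1) → ℝ) (hα : ∀ b, 0 < α b) (hα1 : ∑ b, α b = 1)
    {θ : ℝ} (hθ : 0 < θ) {ζ : ℝ → ℝ} (hζ : Zeta θ a α ζ)
    (hloop : ∀ B, 0 ≤ B → ∃ C, 0 ≤ C ∧ LoopBound (n + 1) B C) :
    ∃ C : ℝ, 0 ≤ C ∧ ∀ (N K : ℕ) (m : ℕ → ℝ) (c : Fin N → Fin (n + 1)) (P : Pm (n + 1))
      [MeasurableSpace (orthogonalGroup (Fin N) ℝ)] [BorelSpace (orthogonalGroup (Fin N) ℝ)]
      (ν : Measure (orthogonalGroup (Fin N) ℝ)) [IsProbabilityMeasure ν] [ν.IsMulLeftInvariant]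
      (dl : ℝ), 0 < N → Exponents K m → P.s 0 = 0 → (∀ k, P.u k 0 = 0) →
      (∀ k, |P.b k - θ * a k| ≤ dl) → (∀ k, ∀ l ≤ K, |P.u k l| ≤ dl) →
      (∀ k, |frac c k - α k| ≤ dl) → dl ≤ 1 →
      |∑ k, a k * rho ν K m c P k -
          trf K m (fun x => x * ζ x - 1 / θ) (eq' K m (Ql ν K m c P))| ≤
        C * (∑ k, Dv ν K m c P k + (K + 1) * dl) := by
  obtain ⟨C1, hC1, hst⟩ := F.stab_energy hθ a α hα hα1 hζ
  obtain ⟨C0, hC0, hl⟩ := hloop (∑ k, |θ * a k| + 1) (by (clear * -; positivity))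
  have hA0 : 0 ≤ ∑ b, ∑ c, 1 / (α b * α c) :=
    Finset.sum_nonneg fun b _ => Finset.sum_nonneg fun c _ => by
      have h1 := hα b
      have h2 := hα c
      (clear * - h1 h2; positivity)
  refine ⟨C1 * ((∑ b, ∑ c, 1 / (α b * α c)) * (2 * C0 + 24)), by positivity, ?_⟩
  intro N K m c P _ _ ν _ _ dl hN hm hs hu hb hul hf hdl1
  have hdl : 0 ≤ dl := (abs_nonneg _).trans (hf 0)
  have hx := egy1_expo hm
  have h1 := hst K m (egy1R ν K m c P α) hx (egy1_blocks hm hN hs hu hα)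
  have e1 : ∑ b, α b * a b * (egy1R ν K m c P α b).d = ∑ k, a k * rho ν K m c P k := by
    refine Finset.sum_congr rfl fun k _ => ?_
    change α k * a k * (1 / α k * rho ν K m c P k) = _
    have := (hα k).ne'
    (clear * - this; field_simp)
  have e2 : (fun l => ∑ b, α b * (egy1R ν K m c P α b).e l) = Ql ν K m c P := by
    funext l
    unfold Ql
    refine Finset.sum_congr rfl fun k _ => ?_
    change α k * (1 / α k * Rkl ν K m c P k l) = _
    have := (hα k).ne'
    (clear * - this; field_simp)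
  rw [e1, e2] at h1
  refine h1.trans ?_
  rw [mul_assoc]
  refine mul_le_mul_of_nonneg_left ?_ hC1
  have hD : ∀ k, 0 ≤ Dv ν K m c P k := fun k => egy1_Dv_nonneg hm k
  have hDs : ∀ k, Dv ν K m c P k ≤ ∑ k, Dv ν K m c P k := fun k =>
    Finset.single_le_sum (f := fun k => Dv ν K m c P k) (fun k _ => hD k) (Finset.mem_univ k)
  have hD0 : 0 ≤ ∑ k, Dv ν K m c P k := Finset.sum_nonneg fun k _ => hD k
  have hK : 0 ≤ ((K : ℝ) + 1) * dl := by (clear * - hdl; positivity)
  have hK1 : dl ≤ ((K : ℝ) + 1) * dl := by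
    have : 0 ≤ (K : ℝ) * dl := by (clear * - hdl; positivity)
    linarith only [this]
  have hB : ∀ k, |P.b k| ≤ ∑ k, |θ * a k| + 1 := by
    intro k
    have h2 : |θ * a k| ≤ ∑ k, |θ * a k| :=
      Finset.single_le_sum (f := fun k => |θ * a k|) (fun k _ => abs_nonneg _)
        (Finset.mem_univ k)
    have h3 : P.b k = (P.b k - θ * a k) + θ * a k := by ring
    rw [h3]
    refine (abs_add_le _ _).trans ?_
    linarith only [hdl1, h2, hb k]
  rw [Finset.sum_mul, Finset.sum_mul]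
  refine Finset.sum_le_sum fun k _ => ?_
  rw [Finset.sum_mul, Finset.sum_mul]
  refine Finset.sum_le_sum fun k' _ => ?_
  have hk := hα k
  have hk' := hα k'
  have hpos : 0 ≤ 1 / (α k * α k') := by (clear * - hk hk'; positivity)
  by_cases hkk : k = k'
  · subst hkk
    rw [sub_self, egy1_loop_self]
    (clear * - hk hC0 hD0 hdl; positivity)
  · refine (egy1_loop_le hm hN hα hb hf k k').trans ?_
    rw [mul_assoc]
    refine mul_le_mul_of_nonneg_left ?_ hpos
    have h4 := hl N K m c P ν dl hN hm hB hul hdl1 k k' hkk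
    have h5 : C0 * (Dv ν K m c P k + Dv ν K m c P k' + (K + 1) * dl) ≤
        C0 * (2 * (∑ k, Dv ν K m c P k) + (K + 1) * dl) := by
      refine mul_le_mul_of_nonneg_left ?_ hC0
      linarith only [hDs k, hDs k']
    nlinarith only [hD0, hK1, h4, h5, hC0, hK]

end Vale.Agent.P166.U
end
end

section

section

namespace Vale.Agent.P166.Conc

open Matrix MeasureTheory ProbabilityTheory

variable {n : ℕ}

lemma int_rot {Ψ : (Fin n → ℝ) → ℝ} (hΨ : Measurable Ψ) (h : OG n) :
    ∫ y, Ψ ((h : Matrix (Fin n) (Fin n) ℝ) *ᵥ y) ∂(gam n) = ∫ y, Ψ y ∂(gam n) := by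
  have hmm : Measurable fun x : Fin n → ℝ => (h : Matrix (Fin n) (Fin n) ℝ) *ᵥ x :=
    (Continuous.matrix_mulVec continuous_const continuous_id).measurable
  nth_rewrite 2 [← gam_map h]
  rw [integral_map hmm.aemeasurable hΨ.aestronglyMeasurable]

/-- diagonal sign matrix -/
lemma diag_mem {s : Fin n → ℝ} (hs : s ∈ cube n) :
    Matrix.diagonal s ∈ Matrix.orthogonalGroup (Fin n) ℝ := by
  rw [Matrix.mem_orthogonalGroup_iff, Matrix.diagonal_transpose, Matrix.diagonal_mul_diagonal]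
  have : (fun i => s i * s i) = fun _ => (1 : ℝ) := by
    funext i
    have := cube_sq hs i
    rw [← this]; ring
  rw [this, Matrix.diagonal_one]

lemma int_sign {Ψ : (Fin n → ℝ) → ℝ} (hΨ : Measurable Ψ) {s : Fin n → ℝ} (hs : s ∈ cube n) :
    ∫ y, Ψ (fun i => s i * y i) ∂(gam n) = ∫ y, Ψ y ∂(gam n) := by
  have h := int_rot hΨ ⟨Matrix.diagonal s, diag_mem hs⟩
  have h2 : ∀ y : Fin n → ℝ, Matrix.diagonal s *ᵥ y = fun i => s i * y i := by
    intro y; funext i; rw [Matrix.mulVec_diagonal]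
  simp only [h2] at h
  exact h

lemma nv_sign (m : ℕ) {s : Fin n → ℝ} (hs : s ∈ cube n) (x : Fin n → ℝ) :
    nv m (fun i => s i * x i) = fun i => s i * nv m x i := by
  have h1 : tr m (fun i => s i * x i) = fun i => s i * tr m x i := by
    funext i; unfold tr; split_ifs <;> simp
  have h2 : (fun i => s i * tr m x i) ⬝ᵥ (fun i => s i * tr m x i) = tr m x ⬝ᵥ tr m x := by
    unfold dotProduct
    refine Finset.sum_congr rfl fun i _ => ?_
    have := cube_sq hs i
    calc s i * tr m x i * (s i * tr m x i) = s i ^ 2 * (tr m x i * tr m x i) := by ring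
      _ = _ := by rw [this, one_mul]
  unfold nv
  rw [h1, h2]
  funext i
  simp only [Pi.smul_apply, smul_eq_mul, mul_left_comm]

lemma nv_le_one (m : ℕ) (x : Fin n → ℝ) : nv m x ⬝ᵥ nv m x ≤ 1 := by
  by_cases hx : tr m x = 0
  · simp only [nv, hx, dotProduct_zero, Real.sqrt_zero, _root_.inv_zero, smul_zero, zero_le_one]
  · exact (nv_unit hx).le

lemma nv_abs_le (m : ℕ) (x : Fin n → ℝ) (i : Fin n) : |nv m x i| ≤ 1 := by
  have h := nv_le_one m x
  have h1 : nv m x i * nv m x i ≤ nv m x ⬝ᵥ nv m x :=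
    Finset.single_le_sum (f := fun i => nv m x i * nv m x i) (fun i _ => mul_self_nonneg _)
      (Finset.mem_univ i)
  have h2 : |nv m x i| ^ 2 ≤ 1 := by rw [sq_abs]; linarith
  exact (sq_le_one_iff₀ (abs_nonneg _)).1 h2

lemma nv_dot_abs_le (m : ℕ) (x a : Fin n → ℝ) : |nv m x ⬝ᵥ a| ≤ ∑ i, |a i| := by
  unfold dotProduct
  refine (Finset.abs_sum_le_sum_abs _ _).trans (Finset.sum_le_sum fun i _ => ?_)
  rw [abs_mul]
  have := nv_abs_le m x i
  nlinarith only [this, abs_nonneg (a i)]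

lemma meas_nv_coord (m : ℕ) (i : Fin n) : Measurable fun x : Fin n → ℝ => nv m x i :=
  (measurable_pi_apply i).comp (measurable_nv m)

lemma intg' {α : Type*} [MeasurableSpace α] (μ : Measure α) [IsFiniteMeasure μ] {f : α → ℝ}
    (hf : Measurable f) (C : ℝ) (hC : ∀ a, |f a| ≤ C) : Integrable f μ :=
  Integrable.of_bound hf.aestronglyMeasurable C (Filter.Eventually.of_forall fun a => by
    simpa using hC a)

/-- averaging over signs. -/
lemma sign_avg {Ψ : (Fin n → ℝ) → ℝ} (hΨ : Measurable Ψ) (m : ℕ) (C : ℝ)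
    (hC : ∀ x, |Ψ (nv m x)| ≤ C) (Φ : (Fin n → ℝ) → ℝ) (hΦ : Measurable Φ) (C' : ℝ)
    (hC' : ∀ x, |Φ (nv m x)| ≤ C')
    (hle : ∀ v : Fin n → ℝ, ∑ s ∈ cube n, Ψ (fun i => s i * v i) ≤ 2 ^ n * Φ v) :
    ∫ x, Ψ (nv m x) ∂(gam n) ≤ ∫ x, Φ (nv m x) ∂(gam n) := by
  have hm : Measurable (nv m : (Fin n → ℝ) → (Fin n → ℝ)) := measurable_nv m
  have h1 : ∀ s ∈ cube n, ∫ x, Ψ (fun i => s i * nv m x i) ∂(gam n) = ∫ x, Ψ (nv m x) ∂(gam n) := by
    intro s hs
    have hsg := int_sign (hΨ.comp hm) hs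
    simp only [Function.comp_def] at hsg
    rw [← hsg]
    refine integral_congr_ae (Filter.Eventually.of_forall fun x => ?_)
    show Ψ (fun i => s i * nv m x i) = Ψ (nv m (fun i => s i * x i))
    rw [nv_sign m hs]
  have hms : ∀ s : Fin n → ℝ, Measurable fun x : Fin n → ℝ => Ψ (fun i => s i * nv m x i) := by
    intro s
    exact hΨ.comp (measurable_pi_iff.2 fun i => measurable_const.mul (meas_nv_coord m i))
  have hint : ∀ s ∈ cube n, Integrable (fun x => Ψ (fun i => s i * nv m x i)) (gam n) := by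
    intro s hs
    refine intg' _ (hms s) C fun x => ?_
    rw [← nv_sign m hs]
    exact hC _
  have h2 : ∫ x, ∑ s ∈ cube n, Ψ (fun i => s i * nv m x i) ∂(gam n) =
      2 ^ n * ∫ x, Ψ (nv m x) ∂(gam n) := by
    rw [integral_finsetSum _ hint, Finset.sum_congr rfl h1, Finset.sum_const, nsmul_eq_mul,
      card_cube]
  have h3 : ∫ x, ∑ s ∈ cube n, Ψ (fun i => s i * nv m x i) ∂(gam n) ≤
      ∫ x, 2 ^ n * Φ (nv m x) ∂(gam n) := by
    apply integral_mono
    · exact integrable_finsetSum _ hint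
    · exact (intg' _ (hΦ.comp hm) C' hC').const_mul _
    · intro x
      exact hle _
  rw [h2, integral_const_mul] at h3
  have : (0 : ℝ) < 2 ^ n := by positivity
  exact le_of_mul_le_mul_left h3 this

lemma sum_sq_coord_le (m : ℕ) (x a : Fin n → ℝ) :
    ∑ i, (nv m x i * a i) ^ 2 ≤ ∑ i, a i ^ 2 := by
  refine Finset.sum_le_sum fun i _ => ?_
  rw [mul_pow]
  have h := nv_abs_le m x i
  have h2 : nv m x i ^ 2 ≤ 1 := by rw [← sq_abs]; exact pow_le_one₀ (abs_nonneg _) h
  nlinarith only [h2]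

lemma mom22 (m : ℕ) (a b : Fin n → ℝ) :
    ∫ x, (nv m x ⬝ᵥ a) ^ 2 * (nv m x ⬝ᵥ b) ^ 2 ∂(gam n) ≤
      ∫ x, 24 * ((∑ i, (nv m x i * a i) ^ 2) * (∑ i, (nv m x i * b i) ^ 2)) ∂(gam n) := by
  refine sign_avg (Ψ := fun v => (v ⬝ᵥ a) ^ 2 * (v ⬝ᵥ b) ^ 2) ?_ m
    ((∑ i, |a i|) ^ 2 * (∑ i, |b i|) ^ 2) ?_
    (fun v => 24 * ((∑ i, (v i * a i) ^ 2) * (∑ i, (v i * b i) ^ 2))) ?_
    (24 * ((∑ i, a i ^ 2) * (∑ i, b i ^ 2))) ?_ ?_
  · exact ((measurable_dot measurable_id measurable_const).pow_const 2).mul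
      ((measurable_dot measurable_id measurable_const).pow_const 2)
  · intro x
    rw [abs_mul, abs_pow, abs_pow]
    exact mul_le_mul (pow_le_pow_left₀ (abs_nonneg _) (nv_dot_abs_le m x a) 2)
      (pow_le_pow_left₀ (abs_nonneg _) (nv_dot_abs_le m x b) 2) (by positivity) (by positivity)
  · refine measurable_const.mul (Measurable.mul ?_ ?_)
    · exact Finset.measurable_sum _ fun i _ =>
        ((measurable_pi_apply i).mul measurable_const).pow_const 2
    · exact Finset.measurable_sum _ fun i _ =>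
        ((measurable_pi_apply i).mul measurable_const).pow_const 2
  · intro x
    have h1 := sum_sq_coord_le m x a
    have h2 := sum_sq_coord_le m x b
    have h3 : 0 ≤ ∑ i, (nv m x i * a i) ^ 2 := Finset.sum_nonneg fun i _ => sq_nonneg _
    have h4 : 0 ≤ ∑ i, (nv m x i * b i) ^ 2 := Finset.sum_nonneg fun i _ => sq_nonneg _
    rw [abs_of_nonneg (by (clear * -; positivity))]
    have := mul_le_mul h1 h2 h4 (h3.trans h1)
    (clear * - this; linarith)
  · intro v
    have h := rad22 (fun i => v i * a i) (fun i => v i * b i)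
    have e : ∀ s : Fin n → ℝ, ((fun i => s i * v i) ⬝ᵥ a) ^ 2 * ((fun i => s i * v i) ⬝ᵥ b) ^ 2 =
        (∑ i, s i * (v i * a i)) ^ 2 * (∑ i, s i * (v i * b i)) ^ 2 := by
      intro s
      simp only [dotProduct, mul_assoc]
    simp only [e]
    linarith

lemma mom2 (m : ℕ) (a : Fin n → ℝ) :
    ∫ x, (nv m x ⬝ᵥ a) ^ 2 ∂(gam n) ≤ ∫ x, 5 * (∑ i, (nv m x i * a i) ^ 2) ∂(gam n) := by
  refine sign_avg (Ψ := fun v => (v ⬝ᵥ a) ^ 2) ?_ m ((∑ i, |a i|) ^ 2) ?_
    (fun v => 5 * (∑ i, (v i * a i) ^ 2)) ?_ (5 * (∑ i, a i ^ 2)) ?_ ?_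
  · exact (measurable_dot measurable_id measurable_const).pow_const 2
  · intro x
    rw [abs_pow]
    exact pow_le_pow_left₀ (abs_nonneg _) (nv_dot_abs_le m x a) 2
  · refine measurable_const.mul ?_
    exact Finset.measurable_sum _ fun i _ =>
        ((measurable_pi_apply i).mul measurable_const).pow_const 2
  · intro x
    have h1 := sum_sq_coord_le m x a
    have h3 : 0 ≤ ∑ i, (nv m x i * a i) ^ 2 := Finset.sum_nonneg fun i _ => sq_nonneg _
    rw [abs_of_nonneg (by (clear * -; positivity))]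
    linarith
  · intro v
    have h := rad2 (fun i => v i * a i)
    have e : ∀ s : Fin n → ℝ, ((fun i => s i * v i) ⬝ᵥ a) ^ 2 =
        (∑ i, s i * (v i * a i)) ^ 2 := by
      intro s
      simp only [dotProduct, mul_assoc]
    simp only [e]
    linarith only [h]

lemma swap_coord {i j : Fin n} (hij : i ≠ j) (v : Fin n → ℝ) :
    ((rflG (Pi.single i 1 - Pi.single j 1) : OG n) : Matrix (Fin n) (Fin n) ℝ) *ᵥ v =
      fun l => v (Equiv.swap i j l) := by
  show rfl' _ *ᵥ v = _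
  rw [rfl'_mulVec]
  have h1 : (Pi.single i 1 - Pi.single j 1 : Fin n → ℝ) ⬝ᵥ (Pi.single i 1 - Pi.single j 1) = 2 := by
    rw [sub_dotProduct, dotProduct_sub, dotProduct_sub]
    simp only [dotProduct_single, Pi.single_eq_same, mul_one, ne_eq, hij.symm, not_false_eq_true, Pi.single_eq_of_ne, sub_zero, hij, zero_sub, sub_neg_eq_add]; norm_num
  have h2 : (Pi.single i 1 - Pi.single j 1 : Fin n → ℝ) ⬝ᵥ v = v i - v j := by
    rw [sub_dotProduct, single_dot, single_dot]
  rw [h1, h2]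
  funext l
  simp only [Pi.sub_apply, Pi.smul_apply, smul_eq_mul, div_self (two_ne_zero' ℝ), one_mul]
  by_cases hi : l = i
  · subst hi
    simp [hij]
  · by_cases hj : l = j
    · subst hj
      simp [hi]
    · rw [Equiv.swap_apply_of_ne_of_ne hi hj]
      simp only [ne_eq, hi, not_false_eq_true, Pi.single_eq_of_ne, hj, sub_self, mul_zero, sub_zero]

lemma coord_sq (k i : Fin n) (hi : k ≤ i) :
    ∫ x, nv (k : ℕ) x i ^ 2 ∂(gam n) = 1 / ((n : ℝ) - (k : ℕ)) := by
  have hint : ∀ j : Fin n, Integrable (fun x => nv (k : ℕ) x j ^ 2) (gam n) := by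
    intro j
    refine intg' _ ((meas_nv_coord _ j).pow_const 2) 1 fun x => ?_
    rw [abs_pow]; exact pow_le_one₀ (abs_nonneg _) (nv_abs_le _ x j)
  have heq : ∀ j : Fin n, k ≤ j →
      ∫ x, nv (k : ℕ) x j ^ 2 ∂(gam n) = ∫ x, nv (k : ℕ) x i ^ 2 ∂(gam n) := by
    intro j hj
    by_cases hij : i = j
    · rw [hij]
    · have hmem : rflG (Pi.single i 1 - Pi.single j 1) ∈ Fx n (k : ℕ) := by
        apply rflG_mem_Fx
        intro l hl
        have h1 : l ≠ i := by rintro rfl; exact absurd hi (not_le.2 hl)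
        have h2 : l ≠ j := by rintro rfl; exact absurd hj (not_le.2 hl)
        simp [h1, h2]
      have h := int_rot (Ψ := fun x => nv (k : ℕ) x i ^ 2) ((meas_nv_coord _ i).pow_const 2)
        (rflG (Pi.single i 1 - Pi.single j 1))
      rw [← h]
      refine integral_congr_ae (Filter.Eventually.of_forall fun x => ?_)
      show nv (k : ℕ) x j ^ 2 = nv (k : ℕ) (((rflG (Pi.single i 1 - Pi.single j 1) : OG n) :
        Matrix (Fin n) (Fin n) ℝ) *ᵥ x) i ^ 2
      rw [nv_mulVec hmem, swap_coord hij]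
      simp
  have hsum : ∑ j : Fin n, ∫ x, nv (k : ℕ) x j ^ 2 ∂(gam n) = 1 := by
    rw [← integral_finsetSum _ fun j _ => hint j]
    have : ∀ᵐ x ∂(gam n), ∑ j : Fin n, nv (k : ℕ) x j ^ 2 = 1 := by
      filter_upwards [nv_ae_unit k] with x hx
      rw [← hx]
      unfold dotProduct
      refine Finset.sum_congr rfl fun j _ => by ring
    rw [integral_congr_ae this]
    simp
  have hval : ∀ j : Fin n, ∫ x, nv (k : ℕ) x j ^ 2 ∂(gam n) =
      if k ≤ j then ∫ x, nv (k : ℕ) x i ^ 2 ∂(gam n) else 0 := by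
    intro j
    split_ifs with hj
    · exact heq j hj
    · have : ∀ x : Fin n → ℝ, nv (k : ℕ) x j = 0 := fun x => nv_zero_of_lt (not_le.1 hj)
      simp [this]
  rw [Finset.sum_congr rfl fun j _ => hval j] at hsum
  rw [Finset.sum_ite, Finset.sum_const_zero, add_zero, Finset.sum_const, nsmul_eq_mul] at hsum
  have hcard : ((Finset.univ.filter fun j : Fin n => k ≤ j).card : ℝ) = (n : ℝ) - (k : ℕ) := by
    have : (Finset.univ.filter fun j : Fin n => k ≤ j) = Finset.Ici k := by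
      ext j; simp only [Finset.mem_filter, Finset.mem_univ, true_and, Finset.mem_Ici]
    rw [this, Fin.card_Ici, Nat.cast_sub k.2.le]
  rw [hcard] at hsum
  have hpos : (0 : ℝ) < (n : ℝ) - (k : ℕ) := by
    have : ((k : ℕ) : ℝ) < n := by exact_mod_cast k.2
    linarith only [this]
  field_simp
  linarith only [hsum]

/-- average of `y²` over coordinates `≥ k`. -/
noncomputable def Yk (k : Fin n) (y : Fin n → ℝ) : ℝ :=
  (∑ i : Fin n, if k ≤ i then y i ^ 2 else 0) / ((n : ℝ) - (k : ℕ))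

lemma int_weighted (k : Fin n) (y : Fin n → ℝ) :
    ∫ x, (∑ i, (nv (k : ℕ) x i * y i) ^ 2) ∂(gam n) = Yk k y := by
  have hint : ∀ j : Fin n, Integrable (fun x => (nv (k : ℕ) x j * y j) ^ 2) (gam n) := by
    intro j
    have : ∀ x, (nv (k : ℕ) x j * y j) ^ 2 = y j ^ 2 * nv (k : ℕ) x j ^ 2 := fun x => by ring
    simp_rw [this]
    refine (intg' _ ((meas_nv_coord _ j).pow_const 2) 1 fun x => ?_).const_mul _
    rw [abs_pow]; exact pow_le_one₀ (abs_nonneg _) (nv_abs_le _ x j)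
  rw [integral_finsetSum _ fun j _ => hint j]
  unfold Yk
  rw [Finset.sum_div]
  refine Finset.sum_congr rfl fun i _ => ?_
  have h1 : ∀ x : Fin n → ℝ, (nv (k : ℕ) x i * y i) ^ 2 = y i ^ 2 * nv (k : ℕ) x i ^ 2 :=
    fun x => by ring
  simp_rw [h1]
  rw [integral_const_mul]
  split_ifs with hi
  · rw [coord_sq k i hi]; ring
  · have : ∀ x : Fin n → ℝ, nv (k : ℕ) x i = 0 := fun x => nv_zero_of_lt (not_le.1 hi)
    simp only [this, ne_eq, OfNat.ofNat_ne_zero, not_false_eq_true, zero_pow, integral_zero, mul_zero, zero_div]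

end Vale.Agent.P166.Conc
end
end

section

section

namespace Vale.Agent.P166.Conc

open Matrix MeasureTheory ProbabilityTheory

variable {n : ℕ}

lemma dot_comm_abs_bd (m : ℕ) (x a : Fin n → ℝ) : (nv m x ⬝ᵥ a) ^ 2 ≤ (∑ i, |a i|) ^ 2 := by
  rw [← sq_abs]
  exact pow_le_pow_left₀ (abs_nonneg _) (nv_dot_abs_le m x a) 2

lemma meas_nv_dot (m : ℕ) (a : Fin n → ℝ) : Measurable fun x : Fin n → ℝ => nv m x ⬝ᵥ a :=
  measurable_dot (measurable_nv m) measurable_const

lemma Yk_cube (k : Fin n) {s : Fin n → ℝ} (hs : s ∈ cube n) : Yk k s = 1 := by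
  unfold Yk
  have hpos : (0 : ℝ) < (n : ℝ) - (k : ℕ) := by
    have : ((k : ℕ) : ℝ) < n := by exact_mod_cast k.2
    linarith only [this]
  have h1 : ∑ i : Fin n, (if k ≤ i then s i ^ 2 else 0) = (n : ℝ) - (k : ℕ) := by
    have : ∀ i : Fin n, (if k ≤ i then s i ^ 2 else 0) = if k ≤ i then (1 : ℝ) else 0 := by
      intro i; rw [cube_sq hs i]
    simp_rw [this]
    rw [Finset.sum_boole]
    have : (Finset.univ.filter fun j : Fin n => k ≤ j) = Finset.Ici k := by
      ext j; simp only [Finset.mem_filter, Finset.mem_univ, true_and, Finset.mem_Ici]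
    rw [this, Fin.card_Ici, Nat.cast_sub k.2.le]
  rw [h1, div_self hpos.ne']

/-- integrals of the moments. -/
lemma int_s (k : Fin n) {s : Fin n → ℝ} (hs : s ∈ cube n) :
    ∫ x, (nv (k : ℕ) x ⬝ᵥ s) ^ 2 ∂(gam n) ≤ 5 := by
  refine (mom2 (k : ℕ) s).trans ?_
  rw [integral_const_mul, int_weighted, Yk_cube k hs]; norm_num

lemma int_t (k : Fin n) (y : Fin n → ℝ) :
    ∫ x, (nv (k : ℕ) x ⬝ᵥ y) ^ 2 ∂(gam n) ≤ 5 * Yk k y := by
  refine (mom2 (k : ℕ) y).trans ?_
  rw [integral_const_mul, int_weighted]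

lemma sum_cube_le (m : ℕ) (x : Fin n → ℝ) {s : Fin n → ℝ} (hs : s ∈ cube n) :
    ∑ i, (nv m x i * s i) ^ 2 ≤ 1 := by
  refine le_trans (le_of_eq ?_) (nv_le_one m x)
  unfold dotProduct
  refine Finset.sum_congr rfl fun i _ => ?_
  rw [mul_pow, cube_sq hs i]; ring

lemma int_st (k : Fin n) {s : Fin n → ℝ} (hs : s ∈ cube n) (y : Fin n → ℝ) :
    ∫ x, (nv (k : ℕ) x ⬝ᵥ s) ^ 2 * (nv (k : ℕ) x ⬝ᵥ y) ^ 2 ∂(gam n) ≤ 24 * Yk k y := by
  refine (mom22 (k : ℕ) s y).trans ?_
  rw [← int_weighted, ← integral_const_mul]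
  have hm : ∀ a : Fin n → ℝ, Measurable fun x : Fin n → ℝ => ∑ i, (nv (k : ℕ) x i * a i) ^ 2 :=
    fun a => Finset.measurable_sum _ fun i _ =>
        ((meas_nv_coord _ i).mul measurable_const).pow_const 2
  have hn : ∀ (a x : Fin n → ℝ), 0 ≤ ∑ i, (nv (k : ℕ) x i * a i) ^ 2 :=
    fun a x => Finset.sum_nonneg fun i _ => sq_nonneg _
  apply integral_mono
  · refine intg' _ (measurable_const.mul ((hm s).mul (hm y))) (24 * (1 * ∑ i, y i ^ 2)) fun x => ?_
    rw [abs_of_nonneg (by have := hn s x; have := hn y x; (clear * -; positivity))]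
    apply mul_le_mul_of_nonneg_left _ (by norm_num)
    exact mul_le_mul (sum_cube_le _ x hs) (sum_sq_coord_le _ x y) (hn y x) zero_le_one
  · refine intg' _ (measurable_const.mul (hm y)) (24 * (∑ i, y i ^ 2)) fun x => ?_
    rw [abs_of_nonneg (by have := hn y x; (clear * -; positivity))]
    apply mul_le_mul_of_nonneg_left _ (by norm_num)
    exact sum_sq_coord_le _ x y
  · intro x
    show 24 * _ ≤ 24 * _
    apply mul_le_mul_of_nonneg_left _ (by norm_num)
    have := mul_le_mul_of_nonneg_right (sum_cube_le (k : ℕ) x hs) (hn y x)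
    linarith

lemma int_ss (k : Fin n) {s : Fin n → ℝ} (hs : s ∈ cube n) :
    ∫ x, (nv (k : ℕ) x ⬝ᵥ s) ^ 2 * (nv (k : ℕ) x ⬝ᵥ s) ^ 2 ∂(gam n) ≤ 24 := by
  have := int_st k hs s
  rw [Yk_cube k hs] at this
  linarith only [this]

/-- second moment of the energy change -/
lemma int_X (β : ℝ) {K : ℝ} {J : Matrix (Fin n) (Fin n) ℝ} (hJ : Nice K J) (k : Fin n)
    {s : Fin n → ℝ} (hs : s ∈ cube n) :
    ∫ x, Xf β J (Wv k (nv (k : ℕ) x)) s ^ 2 ∂(gam n) ≤
      8 * β ^ 2 * (6 * (J *ᵥ s) k ^ 2 + 29 * Yk k (J *ᵥ s) + 35 * K ^ 2) := by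
  set y := J *ᵥ s with hy
  have ms : Measurable fun x : Fin n → ℝ => (nv (k : ℕ) x ⬝ᵥ s) ^ 2 := (meas_nv_dot _ s).pow_const 2
  have mt : Measurable fun x : Fin n → ℝ => (nv (k : ℕ) x ⬝ᵥ y) ^ 2 := (meas_nv_dot _ y).pow_const 2
  have is : Integrable (fun x => (nv (k : ℕ) x ⬝ᵥ s) ^ 2) (gam n) :=
    intg' _ ms _ fun x => by rw [abs_of_nonneg (sq_nonneg _)]; exact dot_comm_abs_bd _ x s
  have it : Integrable (fun x => (nv (k : ℕ) x ⬝ᵥ y) ^ 2) (gam n) :=
    intg' _ mt _ fun x => by rw [abs_of_nonneg (sq_nonneg _)]; exact dot_comm_abs_bd _ x y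
  have ist : Integrable (fun x => (nv (k : ℕ) x ⬝ᵥ s) ^ 2 * (nv (k : ℕ) x ⬝ᵥ y) ^ 2) (gam n) :=
    intg' _ (ms.mul mt) ((∑ i, |s i|) ^ 2 * (∑ i, |y i|) ^ 2) fun x => by
      rw [abs_of_nonneg (by (clear * -; positivity))]
      exact mul_le_mul (dot_comm_abs_bd _ x s) (dot_comm_abs_bd _ x y) (sq_nonneg _) (sq_nonneg _)
  have iss : Integrable (fun x => (nv (k : ℕ) x ⬝ᵥ s) ^ 2 * (nv (k : ℕ) x ⬝ᵥ s) ^ 2) (gam n) :=
    intg' _ (ms.mul ms) ((∑ i, |s i|) ^ 2 * (∑ i, |s i|) ^ 2) fun x => by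
      rw [abs_of_nonneg (by (clear * -; positivity))]
      exact mul_le_mul (dot_comm_abs_bd _ x s) (dot_comm_abs_bd _ x s) (sq_nonneg _) (sq_nonneg _)
  -- the dominating function
  set R : (Fin n → ℝ) → ℝ := fun x => y k ^ 2 + K ^ 2 + (y k ^ 2 + 2 * K ^ 2) * (nv (k : ℕ) x ⬝ᵥ s) ^ 2
    + (nv (k : ℕ) x ⬝ᵥ y) ^ 2 + (nv (k : ℕ) x ⬝ᵥ s) ^ 2 * (nv (k : ℕ) x ⬝ᵥ y) ^ 2
    + K ^ 2 * ((nv (k : ℕ) x ⬝ᵥ s) ^ 2 * (nv (k : ℕ) x ⬝ᵥ s) ^ 2) with hR
  have iR1 : Integrable (fun x => y k ^ 2 + K ^ 2 + (y k ^ 2 + 2 * K ^ 2) * (nv (k : ℕ) x ⬝ᵥ s) ^ 2)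
      (gam n) := (integrable_const _).add (is.const_mul _)
  have iR2 : Integrable (fun x => y k ^ 2 + K ^ 2 + (y k ^ 2 + 2 * K ^ 2) * (nv (k : ℕ) x ⬝ᵥ s) ^ 2
    + (nv (k : ℕ) x ⬝ᵥ y) ^ 2) (gam n) := iR1.add it
  have iR3 : Integrable (fun x => y k ^ 2 + K ^ 2 + (y k ^ 2 + 2 * K ^ 2) * (nv (k : ℕ) x ⬝ᵥ s) ^ 2
    + (nv (k : ℕ) x ⬝ᵥ y) ^ 2 + (nv (k : ℕ) x ⬝ᵥ s) ^ 2 * (nv (k : ℕ) x ⬝ᵥ y) ^ 2) (gam n) :=
    iR2.add ist
  have iR : Integrable R (gam n) := iR3.add (iss.const_mul _)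
  have hRint : ∫ x, R x ∂(gam n) ≤ 6 * y k ^ 2 + 29 * Yk k y + 35 * K ^ 2 := by
    have e : ∫ x, R x ∂(gam n) = y k ^ 2 + K ^ 2 +
        (y k ^ 2 + 2 * K ^ 2) * ∫ x, (nv (k : ℕ) x ⬝ᵥ s) ^ 2 ∂(gam n)
        + ∫ x, (nv (k : ℕ) x ⬝ᵥ y) ^ 2 ∂(gam n)
        + ∫ x, (nv (k : ℕ) x ⬝ᵥ s) ^ 2 * (nv (k : ℕ) x ⬝ᵥ y) ^ 2 ∂(gam n)
        + K ^ 2 * ∫ x, (nv (k : ℕ) x ⬝ᵥ s) ^ 2 * (nv (k : ℕ) x ⬝ᵥ s) ^ 2 ∂(gam n) := by
      simp only [hR]
      rw [integral_add iR3 (iss.const_mul _), integral_add iR2 ist, integral_add iR1 it,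
        integral_add (integrable_const _) (is.const_mul _), integral_const_mul, integral_const_mul]
      simp only [integral_const, probReal_univ, smul_eq_mul, one_mul]
    rw [e]
    have h1 := int_s k hs
    have h2 := int_t k y
    have h3 := int_st k hs y
    have h4 := int_ss k hs
    have h5 : (y k ^ 2 + 2 * K ^ 2) * ∫ x, (nv (k : ℕ) x ⬝ᵥ s) ^ 2 ∂(gam n) ≤
        (y k ^ 2 + 2 * K ^ 2) * 5 := mul_le_mul_of_nonneg_left h1 (by (clear * -; positivity))
    have h6 : K ^ 2 * ∫ x, (nv (k : ℕ) x ⬝ᵥ s) ^ 2 * (nv (k : ℕ) x ⬝ᵥ s) ^ 2 ∂(gam n) ≤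
        K ^ 2 * 24 := mul_le_mul_of_nonneg_left h4 (sq_nonneg _)
    linarith
  have hdom : ∀ᵐ x ∂(gam n), Xf β J (Wv k (nv (k : ℕ) x)) s ^ 2 ≤ 8 * β ^ 2 * R x := by
    filter_upwards [nv_ae_unit k] with x hx
    refine (Xf_sq_le (β := β) hJ k hx hs).trans (le_of_eq ?_)
    simp only [hR, ← hy]; ring
  calc ∫ x, Xf β J (Wv k (nv (k : ℕ) x)) s ^ 2 ∂(gam n) ≤ ∫ x, 8 * β ^ 2 * R x ∂(gam n) := by
        apply integral_mono_ae _ (iR.const_mul _) hdom
        refine Integrable.mono' (iR.const_mul (8 * β ^ 2)) ?_ ?_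
        · exact (((measurable_Xf β J s).comp ((measurable_Wv k).comp
            (measurable_nv (k : ℕ)))).pow_const 2).aestronglyMeasurable
        · filter_upwards [hdom] with x hx
          rw [Real.norm_eq_abs, abs_of_nonneg (sq_nonneg _)]
          exact hx
    _ = 8 * β ^ 2 * ∫ x, R x ∂(gam n) := integral_const_mul _ _
    _ ≤ _ := mul_le_mul_of_nonneg_left hRint (by (clear * -; positivity))

end Vale.Agent.P166.Conc
end
end

section

section

namespace Vale.Agent.P166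

open MeasureTheory Matrix Filter Topology ProbabilityTheory Conc

variable {N : ℕ}

variable [MeasurableSpace (OG N)] [BorelSpace (OG N)]
  (ν : Measure (OG N)) [IsProbabilityMeasure ν] [ν.IsMulLeftInvariant]

end Vale.Agent.P166
end
end

section

section

/-! Task F-MIX: small mixtures with a law carried by `[A, sup supp μ]`. -/

open MeasureTheory Finset Filter Topology

namespace Vale.Agent.P166.F

/-- The mixture `(1 - ε) μ + ε σ`. -/
noncomputable def mixm (ε : ℝ) (μ σ : Measure ℝ) : Measure ℝ :=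
  ENNReal.ofReal (1 - ε) • μ + ENNReal.ofReal ε • σ

variable {μ σ : Measure ℝ} [IsProbabilityMeasure μ] [IsProbabilityMeasure σ]

theorem mixm_prob {ε : ℝ} (h0 : 0 ≤ ε) (h1 : ε ≤ 1) : IsProbabilityMeasure (mixm ε μ σ) := by
  constructor
  unfold mixm
  rw [Measure.add_apply, Measure.smul_apply, Measure.smul_apply, measure_univ, measure_univ,
    smul_eq_mul, smul_eq_mul, mul_one, mul_one, ← ENNReal.ofReal_add (by linarith only [h1]) h0]
  simp

omit [IsProbabilityMeasure μ] [IsProbabilityMeasure σ] in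
theorem mixm_ae {ε : ℝ} {p : ℝ → Prop} (h : ∀ᵐ x ∂μ, p x) (h' : ∀ᵐ x ∂σ, p x) :
    ∀ᵐ x ∂(mixm ε μ σ), p x := by
  unfold mixm
  rw [ae_add_measure_iff]
  exact ⟨Measure.ae_smul_measure h _, Measure.ae_smul_measure h' _⟩

omit [IsProbabilityMeasure μ] [IsProbabilityMeasure σ] in
theorem mixm_ae_left {ε : ℝ} (h1 : ε < 1) {p : ℝ → Prop} (h : ∀ᵐ x ∂(mixm ε μ σ), p x) :
    ∀ᵐ x ∂μ, p x := by
  unfold mixm at h
  rw [ae_add_measure_iff] at h
  have h2 := h.1
  rwa [Measure.ae_ennreal_smul_measure_iff] at h2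
  have : 0 < ENNReal.ofReal (1 - ε) := ENNReal.ofReal_pos.2 (by linarith)
  exact this.ne'

omit [IsProbabilityMeasure μ] [IsProbabilityMeasure σ] in
theorem mixm_integral {ε : ℝ} (h0 : 0 ≤ ε) (h1 : ε ≤ 1) {f : ℝ → ℝ} (hf : Integrable f μ)
    (hf' : Integrable f σ) :
    ∫ x, f x ∂(mixm ε μ σ) = (1 - ε) * ∫ x, f x ∂μ + ε * ∫ x, f x ∂σ := by
  unfold mixm
  rw [integral_add_measure (hf.smul_measure ENNReal.ofReal_ne_top)
    (hf'.smul_measure ENNReal.ofReal_ne_top), integral_smul_measure, integral_smul_measure,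
    ENNReal.toReal_ofReal (by linarith), ENNReal.toReal_ofReal h0]
  rfl

theorem mixm_compact (hμ : IsCompact μ.support) {A : ℝ} (hσ : ∀ᵐ x ∂σ, x ∈ Set.Icc A (sSup μ.support))
    {ε : ℝ} (h0 : 0 < ε) (h1 : ε < 1) : IsCompact (mixm ε μ σ).support ∧
      sSup (mixm ε μ σ).support = sSup μ.support := by
  have : IsProbabilityMeasure (mixm ε μ σ) := mixm_prob h0.le h1.le
  have hsub : (mixm ε μ σ).support ⊆ Set.Icc (min A (sInf μ.support)) (sSup μ.support) := by
    refine Measure.support_subset_of_isClosed isClosed_Icc ?_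
    refine mixm_ae ?_ ?_
    · filter_upwards [rt2_ae_le hμ, rt2_ae_ge hμ] with x hx hx'
      exact ⟨(min_le_right _ _).trans hx', hx⟩
    · filter_upwards [hσ] with x hx
      exact ⟨(min_le_left _ _).trans hx.1, hx.2⟩
  have hcomp : IsCompact (mixm ε μ σ).support :=
    IsCompact.of_isClosed_subset isCompact_Icc Measure.isClosed_support hsub
  refine ⟨hcomp, le_antisymm ?_ ?_⟩
  · exact csSup_le rt2_ne fun x hx => (hsub hx).2
  · have h3 : ∀ᵐ x ∂μ, x ≤ sSup (mixm ε μ σ).support := mixm_ae_left h1 (rt2_ae_le hcomp)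
    have h4 : μ.support ⊆ Set.Iic (sSup (mixm ε μ σ).support) :=
      Measure.support_subset_of_isClosed isClosed_Iic h3
    exact csSup_le rt2_ne fun x hx => h4 hx

/-- Behaviour of the R-transform near zero. -/
theorem mix_near {ν : Measure ℝ} [IsProbabilityMeasure ν] (hν : IsCompact ν.support) {L : ℝ}
    (hL : 0 < L) (hb : ∀ᵐ x ∂ν, sSup ν.support - L ≤ x) {y : ℝ} (hy : 0 < y)
    (hyL : y * (8 * L) ≤ 1) : |Rt ν y - ∫ x, x ∂ν| ≤ 4 * L ^ 2 * y := by
  have hle := rt2_ae_le hν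
  set b := sSup ν.support with hbdef
  have hix : Integrable (fun x : ℝ => x) ν := by
    refine Integrable.of_bound (Measurable.aestronglyMeasurable measurable_id) (|b| + L) ?_
    filter_upwards [hle, hb] with x h1 h2
    rw [Real.norm_eq_abs, abs_le]
    have := le_abs_self b
    have := neg_abs_le b
    constructor <;> linarith
  set M := ∫ x, x ∂ν with hM
  have hM1 : M ≤ b := by
    have := integral_mono_ae hix (integrable_const b) hle
    simpa only [ge_iff_le, integral_const, probReal_univ, smul_eq_mul, one_mul] using this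
  have hM2 : b - L ≤ M := by
    have := integral_mono_ae (integrable_const (b - L)) hix hb
    simpa only [tsub_le_iff_right, ge_iff_le, integral_const, probReal_univ, smul_eq_mul, one_mul] using this
  have hyb : 8 * L ≤ 1 / y := by
    rw [le_div_iff₀ hy]; linarith only [hyL]
  have hyi : y * (1 / y) = 1 := by field_simp
  -- lower bound
  have hlow : M + 1 / y ≤ stInv ν y := by
    have hz : b < M + 1 / y := by linarith only [hL, hM2, hyb]
    refine rt_le_stInv hν hy ?_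
    have h1 : ∫ x, (y - y * y * (M - x)) ∂ν = y := by
      have e : (fun x : ℝ => y - y * y * (M - x)) = fun x => (y - y * y * M) + (y * y) * x := by
        funext x; ring
      rw [e, integral_add (integrable_const _) (hix.const_mul _), integral_const_mul, ← hM]
      simp
    refine h1.symm.le.trans ?_
    refine integral_mono_ae ?_ (rt2_int hν hz) ?_
    · have e : (fun x : ℝ => y - y * y * (M - x)) = fun x => (y - y * y * M) + (y * y) * x := by
        funext x; ring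
      rw [e]
      exact (integrable_const _).add (hix.const_mul _)
    · filter_upwards [hle, hb] with x hx1 hx2
      have hpos : 0 < M + 1 / y - x := by linarith only [hL, hM2, hyb, hx1]
      have hfac : M + 1 / y - x = (1 + y * (M - x)) / y := by field_simp; ring
      rw [inv_eq_one_div, le_div_iff₀ hpos, hfac]
      have : (y - y * y * (M - x)) * ((1 + y * (M - x)) / y) = 1 - (y * (M - x)) ^ 2 := by
        field_simp; ring
      rw [this]
      have := sq_nonneg (y * (M - x))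
      linarith only [this]
  -- upper bound
  have hup : stInv ν y ≤ M + 4 * L ^ 2 * y + 1 / y := by
    have hc0 : 0 ≤ 4 * L ^ 2 * y := by positivity
    have hz : b < M + 4 * L ^ 2 * y + 1 / y := by linarith only [hL, hM2, hyb, hc0]
    refine rt_stInv_le hz ?_
    set c := 4 * L ^ 2 * y with hc
    have iu : Integrable (fun x : ℝ => (x - M) ^ 2) ν := by
      refine Integrable.of_bound (Measurable.aestronglyMeasurable (by fun_prop)) (L ^ 2) ?_
      filter_upwards [hle, hb] with x h1 h2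
      rw [Real.norm_eq_abs, abs_of_nonneg (sq_nonneg _)]
      exact sq_le_sq' (by linarith only [hM1, h2]) (by linarith only [hM2, h1])
    have hvar : ∫ x, (x - M) ^ 2 ∂ν ≤ L ^ 2 := by
      have := integral_mono_ae iu (integrable_const (L ^ 2)) (by
        filter_upwards [hle, hb] with x h1 h2
        exact sq_le_sq' (by linarith only [hM1, h2]) (by linarith only [hM2, h1]))
      simpa only [ge_iff_le, integral_const, probReal_univ, smul_eq_mul, one_mul] using this
    -- pointwise bound of `y (1 - t + 2 t²)` with `t = y (c - (x - M))`, and `t² ≤ 2 y² (c² + (x-M)²)`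
    have hpt : ∀ᵐ x ∂ν, (M + c + 1 / y - x)⁻¹ ≤
        y * (1 - y * c - y * M + 2 * (y * c) ^ 2) + (y * y) * (1 - 0) * x
          + (8 / 7 : ℝ) * y ^ 3 * (x - M) ^ 2 + y * (8 / 7 * (-2) * (y * c) * y) * (x - M) := by
      filter_upwards [hle, hb] with x hx1 hx2
      have hpos : 0 < M + c + 1 / y - x := by linarith only [hL, hM2, hyb, hc0, hx1]
      have ht1 : -(1 / 8 : ℝ) ≤ y * (c - (x - M)) := by
        have h1 : y * L ≤ 1 / 8 := by linarith only [hyL]
        have h2 : y * (x - M) ≤ y * L := by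
          apply mul_le_mul_of_nonneg_left _ hy.le
          linarith only [hM2, hx1]
        have h3 : 0 ≤ y * c := by positivity
        have h4 : y * (c - (x - M)) = y * c - y * (x - M) := by ring
        linarith only [hyL, h2, h3]
      have hfac : M + c + 1 / y - x = (1 + y * (c - (x - M))) / y := by field_simp; ring
      rw [hfac, inv_div]
      have hp1 : 0 < 1 + y * (c - (x - M)) := by linarith only [ht1]
      rw [div_le_iff₀ hp1]
      set t := y * (c - (x - M)) with ht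
      have hmain : (1 : ℝ) ≤ (1 - t + 8 / 7 * t ^ 2) * (1 + t) := by
        have : (1 - t + 8 / 7 * t ^ 2) * (1 + t) = 1 + t ^ 2 * (1 / 7 + 8 / 7 * t) := by ring
        rw [this]
        have h5 : 0 ≤ 1 / 7 + 8 / 7 * t := by linarith only [ht1]
        have := mul_nonneg (sq_nonneg t) h5
        linarith only [this]
      have hexp : y * (1 - y * c - y * M + 2 * (y * c) ^ 2) + (y * y) * (1 - 0) * x
          + (8 / 7 : ℝ) * y ^ 3 * (x - M) ^ 2 + y * (8 / 7 * (-2) * (y * c) * y) * (x - M) =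
          y * (1 - t + 8 / 7 * t ^ 2) + y * ((2 - 8 / 7) * (y * c) ^ 2) := by
        rw [ht]; ring
      rw [hexp]
      have h6 : 0 ≤ y * ((2 - 8 / 7) * (y * c) ^ 2) := by (clear * - hy hL; positivity)
      calc y = y * 1 := by ring
        _ ≤ y * ((1 - t + 8 / 7 * t ^ 2) * (1 + t)) := mul_le_mul_of_nonneg_left hmain hy.le
        _ = (y * (1 - t + 8 / 7 * t ^ 2)) * (1 + t) := by ring
        _ ≤ (y * (1 - t + 8 / 7 * t ^ 2) + y * ((2 - 8 / 7) * (y * c) ^ 2)) * (1 + t) := by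
          apply mul_le_mul_of_nonneg_right _ hp1.le
          linarith only [h6]
    have i1 : Integrable (fun x : ℝ => y * (1 - y * c - y * M + 2 * (y * c) ^ 2)
        + (y * y) * (1 - 0) * x) ν := (integrable_const _).add (hix.const_mul _)
    have i2 : Integrable (fun x : ℝ => (8 / 7 : ℝ) * y ^ 3 * (x - M) ^ 2) ν := iu.const_mul _
    have i3 : Integrable (fun x : ℝ => y * (8 / 7 * (-2) * (y * c) * y) * (x - M)) ν :=
      (hix.sub (integrable_const _)).const_mul _
    have hI := integral_mono_ae (rt2_int hν hz) ((i1.add i2).add i3) hpt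
    simp only [Pi.add_apply] at hI
    refine hI.trans ?_
    have hzero : ∫ x, (x - M) ∂ν = 0 := by
      rw [integral_sub hix (integrable_const _), ← hM]; simp
    have e1 : ∫ x, (y * (1 - y * c - y * M + 2 * (y * c) ^ 2) + (y * y) * (1 - 0) * x
          + (8 / 7 : ℝ) * y ^ 3 * (x - M) ^ 2 + y * (8 / 7 * (-2) * (y * c) * y) * (x - M)) ∂ν =
        y * (1 - y * c - y * M + 2 * (y * c) ^ 2) + (y * y) * (1 - 0) * M +
          (8 / 7 : ℝ) * y ^ 3 * (∫ x, (x - M) ^ 2 ∂ν) := by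
      have j1 := integral_add (i1.add i2) i3
      have j2 := integral_add i1 i2
      simp only [Pi.add_apply] at j1
      rw [j1, j2, integral_const_mul _ (fun x => x - M), hzero,
        integral_const_mul _ (fun x => (x - M) ^ 2),
        integral_add (integrable_const _) (hix.const_mul _),
        integral_const_mul _ (fun x : ℝ => x), ← hM]
      simp only [integral_const, probReal_univ, smul_eq_mul, one_mul, sub_zero, mul_one, mul_neg, neg_mul, mul_zero, add_zero]
    rw [e1]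
    have h7 : (8 / 7 : ℝ) * y ^ 3 * (∫ x, (x - M) ^ 2 ∂ν) ≤ (8 / 7 : ℝ) * y ^ 3 * L ^ 2 := by
      (clear * - hvar hy; gcongr)
    have h8 : y * c = 4 * (y * L) ^ 2 := by rw [hc]; ring
    have h9 : 0 ≤ y * L := by positivity
    have h10 : y * L ≤ 1 / 8 := by linarith only [hyL]
    have h11 : 2 * (y * c) ^ 2 + 8 / 7 * (y * L) ^ 2 ≤ y * c := by
      rw [h8]
      have h14 : (y * L) ^ 2 ≤ (1 / 8) ^ 2 := pow_le_pow_left₀ h9 h10 2
      have h15 : (y * L) ^ 2 * (y * L) ^ 2 ≤ (y * L) ^ 2 * (1 / 8) ^ 2 :=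
        mul_le_mul_of_nonneg_left h14 (sq_nonneg _)
      have h16 : (4 * (y * L) ^ 2) ^ 2 = 16 * ((y * L) ^ 2 * (y * L) ^ 2) := by ring
      have := sq_nonneg (y * L)
      linarith only [h15, this]
    have h12 : y * (1 - y * c - y * M + 2 * (y * c) ^ 2) + (y * y) * (1 - 0) * M +
        (8 / 7 : ℝ) * y ^ 3 * L ^ 2 = y + y * (2 * (y * c) ^ 2 + 8 / 7 * (y * L) ^ 2 - y * c) := by
      ring
    have h13 : y * (2 * (y * c) ^ 2 + 8 / 7 * (y * L) ^ 2 - y * c) ≤ 0 :=
      mul_nonpos_of_nonneg_of_nonpos hy.le (by linarith only [h11])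
    linarith only [h7, h13]
  unfold Rt
  rw [abs_le]
  have hc0 : 0 ≤ 4 * L ^ 2 * y := by positivity
  constructor <;> linarith only [hlow, hup]

theorem mx_r1 {y F δ : ℝ} (hy : 0 < y) (hF : 0 < F) (hδ : 0 < δ) (h : F ≤ y) :
    F / (1 + δ / 2 * F) ≤ y / (1 + δ / 2 * y) := by
  rw [div_le_div_iff₀ (by positivity) (by positivity)]
  linarith only [h]

theorem mx_r2 {ε y y0 T δ G Gs : ℝ} (h0 : 0 < ε) (hy0 : 0 < y0) (hyy : y0 ≤ y)
    (hyT : y ≤ T) (hδ : 0 < δ) (he : ε ≤ δ ^ 2 * y0 ^ 2 / (2 + δ * T)) (hG0 : 0 ≤ G)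
    (hG : G ≤ y / (1 + δ / 2 * y)) (hGs : Gs ≤ δ⁻¹) : (1 - ε) * G + ε * Gs ≤ y := by
  have hy : 0 < y := hy0.trans_le hyy
  have h1 : (1 - ε) * G ≤ G := by
    have := mul_nonneg h0.le hG0
    linarith only [this]
  have h8 : ε * Gs ≤ ε * δ⁻¹ := mul_le_mul_of_nonneg_left hGs h0.le
  have h10 : y - y / (1 + δ / 2 * y) = δ * y ^ 2 / (2 + δ * y) := by
    field_simp
    ring
  have h11 : ε * δ⁻¹ ≤ δ ^ 2 * y0 ^ 2 / (2 + δ * T) * δ⁻¹ := by gcongr
  have hT : 0 < T := hy.trans_le hyT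
  have h12 : δ ^ 2 * y0 ^ 2 / (2 + δ * T) * δ⁻¹ = δ * y0 ^ 2 / (2 + δ * T) := by
    field_simp
  have h13 : δ * y0 ^ 2 / (2 + δ * T) ≤ δ * y ^ 2 / (2 + δ * y) := by (clear * - hδ hy hy0 hyy hyT; gcongr)
  linarith only [hG, h1, h8, h10, h11, h12, h13]

theorem mx_r3 {ε y y0 T δ F Gs : ℝ} (h0 : 0 < ε) (h1 : ε ≤ 1) (hy0 : 0 < y0) (hyy : y0 ≤ y)
    (hyT : y ≤ T) (hδ : 0 < δ) (he : ε ≤ δ * y0 / (2 + δ * T)) (hF0 : 0 < F)
    (hF : y * (1 + δ / 2 * F) ≤ F) (hGs : 0 ≤ Gs) : y ≤ (1 - ε) * F + ε * Gs := by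
  have hy : 0 < y := hy0.trans_le hyy
  have hT : 0 < T := hy.trans_le hyT
  have h5 : y ≤ F := by
    have : 0 ≤ y * (δ / 2 * F) := by positivity
    linarith only [hF, this]
  have h6 : y * (1 + δ / 2 * y) ≤ F := by
    have : y * (δ / 2 * y) ≤ y * (δ / 2 * F) := by gcongr
    linarith only [hF, this]
  have h7 : ε * (1 + δ / 2 * y) ≤ δ / 2 * y := by
    have h8 : ε * (2 + δ * T) ≤ δ * y0 := by
      rwa [le_div_iff₀ (by positivity)] at he
    have h9 : ε * (2 + δ * y) ≤ ε * (2 + δ * T) := by (clear * - hyT hδ h0; gcongr)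
    have h10 : δ * y0 ≤ δ * y := by (clear * - hyy hδ; gcongr)
    linarith only [h8, h9, h10]
  have h8 : (1 - ε) * (y * (1 + δ / 2 * y)) ≤ (1 - ε) * F :=
    mul_le_mul_of_nonneg_left h6 (by linarith only [h1])
  have h9 : (1 - ε) * (y * (1 + δ / 2 * y)) - y = y * (δ / 2 * y - ε * (1 + δ / 2 * y)) := by
    ring
  have h10 : 0 ≤ y * (δ / 2 * y - ε * (1 + δ / 2 * y)) := mul_nonneg hy.le (by linarith only [h7])
  have h11 : 0 ≤ ε * Gs := mul_nonneg h0.le hGs
  linarith only [h8, h10, h11]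

/-- The R-transforms are uniformly close on `(0, T]`. -/
theorem Rt_mix (hμ : IsCompact μ.support) {A : ℝ} (hσ : ∀ᵐ x ∂σ, x ∈ Set.Icc A (sSup μ.support))
    {T δ : ℝ} (hT : 0 < T) (hδ : 0 < δ) :
    ∃ ε₀ : ℝ, 0 < ε₀ ∧ ε₀ < 1 ∧ ∀ ε, 0 < ε → ε ≤ ε₀ → ∀ y, 0 < y → y ≤ T →
      |Rt (mixm ε μ σ) y - Rt μ y| ≤ δ := by
  set b := sSup μ.support with hb
  obtain ⟨L, hL, hL1, hL2⟩ : ∃ L : ℝ, 0 < L ∧ (∀ᵐ x ∂μ, b - L ≤ x) ∧ (∀ᵐ x ∂σ, b - L ≤ x) := by
    refine ⟨max (b - A) (b - sInf μ.support) + 1, ?_, ?_, ?_⟩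
    · have h1 := rt2_inf_le_sup hμ
      have h2 := le_max_right (b - A) (b - sInf μ.support)
      linarith
    · filter_upwards [rt2_ae_ge hμ] with x hx
      have h2 := le_max_right (b - A) (b - sInf μ.support)
      linarith only [hx, h2]
    · filter_upwards [hσ] with x hx
      have h2 := le_max_left (b - A) (b - sInf μ.support)
      linarith [hx.1]
  -- the threshold `y₀`
  set y0 := min (1 / (8 * L)) (δ / (16 * L ^ 2)) with hy0
  have hy0pos : 0 < y0 := lt_min (by positivity) (by positivity)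
  have hy01 : y0 * (8 * L) ≤ 1 := by
    have := min_le_left (1 / (8 * L)) (δ / (16 * L ^ 2))
    calc y0 * (8 * L) ≤ 1 / (8 * L) * (8 * L) := by (clear * - this hL; gcongr)
      _ = 1 := by (clear * - hL; field_simp)
  have hy02 : 8 * L ^ 2 * y0 ≤ δ / 2 := by
    have := min_le_right (1 / (8 * L)) (δ / (16 * L ^ 2))
    calc 8 * L ^ 2 * y0 ≤ 8 * L ^ 2 * (δ / (16 * L ^ 2)) := by (clear * - this hL; gcongr)
      _ = δ / 2 := by field_simp; ring
  set ε₀ := min (1 / 2) (min (δ / (2 * L)) (min (δ ^ 2 * y0 ^ 2 / (2 + δ * T))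
    (δ * y0 / (2 + δ * T)))) with hε₀
  have hε₀pos : 0 < ε₀ := by
    refine lt_min (by norm_num) (lt_min (by positivity) (lt_min (by positivity) (by positivity)))
  refine ⟨ε₀, hε₀pos, lt_of_le_of_lt (min_le_left _ _) (by norm_num), ?_⟩
  intro ε hε0 hε y hy hyT
  have he1 : ε ≤ 1 / 2 := hε.trans (min_le_left _ _)
  have he2 : ε ≤ δ / (2 * L) := hε.trans ((min_le_right _ _).trans (min_le_left _ _))
  have he3 : ε ≤ δ ^ 2 * y0 ^ 2 / (2 + δ * T) :=
    hε.trans ((min_le_right _ _).trans ((min_le_right _ _).trans (min_le_left _ _)))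
  have he4 : ε ≤ δ * y0 / (2 + δ * T) :=
    hε.trans ((min_le_right _ _).trans ((min_le_right _ _).trans (min_le_right _ _)))
  have hε1 : ε < 1 := by linarith only [he1]
  have : IsProbabilityMeasure (mixm ε μ σ) := mixm_prob hε0.le hε1.le
  obtain ⟨hcomp, hsup⟩ := mixm_compact hμ hσ hε0 hε1
  have hσle : ∀ᵐ x ∂σ, x ≤ b := hσ.mono fun x hx => hx.2
  rcases le_or_gt y y0 with hyy | hyy
  · -- small `y`
    have hyL : y * (8 * L) ≤ 1 := by
      calc y * (8 * L) ≤ y0 * (8 * L) := by gcongr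
        _ ≤ 1 := hy01
    have h1 := mix_near hμ hL hL1 hy hyL
    have h2 := mix_near (ν := mixm ε μ σ) hcomp hL (by
      rw [hsup]
      exact mixm_ae hL1 hL2) hy hyL
    have hixμ : Integrable (fun x : ℝ => x) μ := by
      refine Integrable.of_bound (Measurable.aestronglyMeasurable measurable_id) (|b| + L) ?_
      filter_upwards [rt2_ae_le hμ, hL1] with x h1 h2
      rw [Real.norm_eq_abs, abs_le]
      have := le_abs_self b
      have := neg_abs_le b
      constructor <;> linarith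
    have hixσ : Integrable (fun x : ℝ => x) σ := by
      refine Integrable.of_bound (Measurable.aestronglyMeasurable measurable_id) (|b| + L) ?_
      filter_upwards [hσle, hL2] with x h1 h2
      rw [Real.norm_eq_abs, abs_le]
      have := le_abs_self b
      have := neg_abs_le b
      constructor <;> linarith
    have h3 : ∫ x, x ∂(mixm ε μ σ) = (1 - ε) * ∫ x, x ∂μ + ε * ∫ x, x ∂σ :=
      mixm_integral hε0.le hε1.le hixμ hixσ
    have hm1 : ∫ x, x ∂μ ≤ b := by
      have := integral_mono_ae hixμ (integrable_const b) (rt2_ae_le hμ)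
      simpa only [ge_iff_le, integral_const, probReal_univ, smul_eq_mul, one_mul] using this
    have hm2 : b - L ≤ ∫ x, x ∂μ := by
      have := integral_mono_ae (integrable_const (b - L)) hixμ hL1
      simpa only [tsub_le_iff_right, ge_iff_le, integral_const, probReal_univ, smul_eq_mul, one_mul] using this
    have hm3 : ∫ x, x ∂σ ≤ b := by
      have := integral_mono_ae hixσ (integrable_const b) hσle
      simpa only [ge_iff_le, integral_const, probReal_univ, smul_eq_mul, one_mul] using this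
    have hm4 : b - L ≤ ∫ x, x ∂σ := by
      have := integral_mono_ae (integrable_const (b - L)) hixσ hL2
      simpa only [tsub_le_iff_right, ge_iff_le, integral_const, probReal_univ, smul_eq_mul, one_mul] using this
    have h4 : ε * L ≤ δ / 2 := by
      calc ε * L ≤ δ / (2 * L) * L := by (clear * - he2 hL; gcongr)
        _ = δ / 2 := by field_simp
    have h5 : 4 * L ^ 2 * y ≤ 4 * L ^ 2 * y0 := by (clear * - hyy hL; gcongr)
    rw [abs_le] at h1 h2 ⊢
    have h6 : ε * (∫ x, x ∂σ - ∫ x, x ∂μ) ≤ ε * L := by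
      apply mul_le_mul_of_nonneg_left _ hε0.le; linarith only [hm2, hm3]
    have h7 : ε * (∫ x, x ∂μ - ∫ x, x ∂σ) ≤ ε * L := by
      apply mul_le_mul_of_nonneg_left _ hε0.le; linarith only [hm1, hm4]
    have h8 : ∫ x, x ∂(mixm ε μ σ) - ∫ x, x ∂μ = ε * (∫ x, x ∂σ - ∫ x, x ∂μ) := by
      rw [h3]; ring
    have h9 : ε * (∫ x, x ∂μ - ∫ x, x ∂σ) = -(ε * (∫ x, x ∂σ - ∫ x, x ∂μ)) := by ring
    obtain ⟨h11, h12⟩ := h1
    obtain ⟨h21, h22⟩ := h2
    constructor <;> linarith only [hy02, h3, h4, h5, h6, h11, h22, h7, h12, h21]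
  · -- larger `y`
    have hiσ : ∀ z, b < z → Integrable (fun x => (z - x)⁻¹) σ := by
      intro z hz
      refine Integrable.of_bound (Measurable.aestronglyMeasurable (by fun_prop)) ((z - b)⁻¹) ?_
      filter_upwards [hσle] with x hx
      rw [norm_inv, Real.norm_of_nonneg (by linarith only [hz, hx])]
      exact inv_anti₀ (by linarith only [hz]) (by linarith only [hx])
    have hσ1 : ∀ z, b < z → ∫ x, (z - x)⁻¹ ∂σ ≤ (z - b)⁻¹ := by
      intro z hz
      have h := integral_mono_ae (hiσ z hz) (integrable_const (z - b)⁻¹) (by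
        filter_upwards [hσle] with x hx
        exact inv_anti₀ (by linarith only [hz]) (by linarith only [hx]))
      simpa only [ge_iff_le, integral_const, probReal_univ, smul_eq_mul, one_mul] using h
    have hσ2 : ∀ z, b < z → 0 ≤ ∫ x, (z - x)⁻¹ ∂σ := by
      intro z hz
      refine integral_nonneg_of_ae ?_
      filter_upwards [hσle] with x hx
      exact inv_nonneg.2 (by linarith only [hz, hx])
    have hG : ∀ z, b < z → ∫ x, (z - x)⁻¹ ∂(mixm ε μ σ) =
        (1 - ε) * ∫ x, (z - x)⁻¹ ∂μ + ε * ∫ x, (z - x)⁻¹ ∂σ := fun z hz =>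
      mixm_integral hε0.le hε1.le (rt2_int hμ hz) (hiσ z hz)
    have hKb : b ≤ stInv μ y := le_stInv hμ hy
    have hup : stInv (mixm ε μ σ) y ≤ stInv μ y + δ := by
      have hz : b < stInv μ y + δ := by linarith only [hδ, hKb]
      refine rt_stInv_le (by rw [hsup]; exact hz) ?_
      rw [hG _ hz]
      have hz1 : b < stInv μ y + δ / 2 := by linarith only [hδ, hKb]
      have h1 := rt_lt_of_stInv_lt hμ hy (show stInv μ y < stInv μ y + δ / 2 by linarith only [hδ])
      have h2 := rt2_key hμ hz1 (show stInv μ y + δ / 2 ≤ stInv μ y + δ by linarith only [hδ])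
      rw [show stInv μ y + δ - (stInv μ y + δ / 2) = δ / 2 by ring] at h2
      have h3 := rt2_pos hμ hz1
      exact mx_r2 hε0 hy0pos hyy.le hyT hδ he3 (rt2_pos hμ hz).le
        (h2.trans (mx_r1 hy h3 hδ h1.le))
        ((hσ1 _ hz).trans (inv_anti₀ hδ (by linarith only [hKb])))
    have hlow : stInv μ y - δ ≤ stInv (mixm ε μ σ) y := by
      rcases le_or_gt (stInv μ y - δ) b with hc | hc
      · refine hc.trans ?_
        have := le_stInv hcomp hy
        rwa [hsup] at this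
      · refine rt_le_stInv hcomp hy ?_
        rw [hG _ hc]
        have hz1 : b < stInv μ y - δ / 2 := by linarith only [hδ, hc]
        have h1 := rt_lt_of_lt_stInv hz1 (show stInv μ y - δ / 2 < stInv μ y by linarith only [hδ])
        have h2 := rt2_key hμ hc (show stInv μ y - δ ≤ stInv μ y - δ / 2 by linarith only [hδ])
        rw [show stInv μ y - δ / 2 - (stInv μ y - δ) = δ / 2 by ring] at h2
        have h3 := rt2_pos hμ hc
        refine mx_r3 hε0 hε1.le hy0pos hyy.le hyT hδ he4 h3 ?_ (hσ2 _ hc)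
        have h5 := h1.le.trans h2
        rwa [le_div_iff₀ (by (clear * - hδ h3; positivity))] at h5
    unfold Rt
    rw [abs_le]
    constructor <;> linarith only [hlow, hup]

/-- The laws are close in the increasing convex order. -/
theorem icx_mix (hμ : IsCompact μ.support) {A : ℝ} (hσ : ∀ᵐ x ∂σ, x ∈ Set.Icc A (sSup μ.support))
    {δ : ℝ} (hδ : 0 < δ) :
    ∃ ε₀ : ℝ, 0 < ε₀ ∧ ε₀ < 1 ∧ ∀ ε, 0 < ε → ε ≤ ε₀ → ∀ t : ℝ,
      ∫ x, max (x - t) 0 ∂μ ≤ ∫ x, max (x + δ - t) 0 ∂(mixm ε μ σ) ∧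
      ∫ x, max (x - t) 0 ∂(mixm ε μ σ) ≤ ∫ x, max (x + δ - t) 0 ∂μ := by
  set b := sSup μ.support with hb
  obtain ⟨L, hL, hL1, hL2⟩ : ∃ L : ℝ, 0 < L ∧ (∀ᵐ x ∂μ, b - L ≤ x) ∧ (∀ᵐ x ∂σ, b - L ≤ x) := by
    refine ⟨max (b - A) (b - sInf μ.support) + 1, ?_, ?_, ?_⟩
    · have h1 := rt2_inf_le_sup hμ
      have h2 := le_max_right (b - A) (b - sInf μ.support)
      linarith only [h1, h2]
    · filter_upwards [rt2_ae_ge hμ] with x hx
      have h2 := le_max_right (b - A) (b - sInf μ.support)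
      linarith only [hx, h2]
    · filter_upwards [hσ] with x hx
      have h2 := le_max_left (b - A) (b - sInf μ.support)
      linarith [hx.1]
  have hμle := rt2_ae_le hμ
  rw [← hb] at hμle
  have hσle : ∀ᵐ x ∂σ, x ≤ b := hσ.mono fun x hx => hx.2
  -- mass near the edge
  have hmass : 0 < μ.real (Set.Ioi (b - δ / 2)) := by
    rw [measureReal_def]
    refine ENNReal.toReal_pos ?_ (measure_ne_top _ _)
    intro h0
    have h1 : ∀ᵐ x ∂μ, x ∈ Set.Iic (b - δ / 2) := by
      rw [ae_iff]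
      convert h0 using 2
      ext x; simp only [Set.mem_Iic, not_le, Set.mem_ofPred_eq, Set.mem_Ioi]
    have h2 : μ.support ⊆ Set.Iic (b - δ / 2) := Measure.support_subset_of_isClosed isClosed_Iic h1
    have h3 : b ≤ b - δ / 2 := csSup_le rt2_ne fun x hx => h2 hx
    linarith only [hδ, h3]
  set c := δ / 2 * μ.real (Set.Ioi (b - δ / 2)) with hc
  have hcpos : 0 < c := by positivity
  refine ⟨min (1 / 2) (c / (c + L)), lt_min (by norm_num) (by positivity),
    lt_of_le_of_lt (min_le_left _ _) (by norm_num), ?_⟩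
  intro ε hε0 hε t
  have he1 : ε ≤ 1 / 2 := hε.trans (min_le_left _ _)
  have he2 : ε ≤ c / (c + L) := hε.trans (min_le_right _ _)
  have he3 : ε * (c + L) ≤ c := by rwa [le_div_iff₀ (by positivity)] at he2
  have hε1 : ε ≤ 1 := by linarith only [he1]
  -- integrability
  have hint : ∀ {ν : Measure ℝ} [IsProbabilityMeasure ν], (∀ᵐ x ∂ν, x ≤ b) →
      (∀ᵐ x ∂ν, b - L ≤ x) → ∀ s : ℝ, Integrable (fun x => max (x - s) 0) ν := by
    intro ν _ h1 h2 s
    refine Integrable.of_bound (Measurable.aestronglyMeasurable (by fun_prop)) (|b - s|) ?_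
    filter_upwards [h1, h2] with x hx1 hx2
    rw [Real.norm_eq_abs, abs_of_nonneg (le_max_right _ _)]
    refine max_le ?_ (abs_nonneg _)
    exact (by linarith only [hx1] : x - s ≤ b - s).trans (le_abs_self _)
  have hs : ∀ x : ℝ, max (x + δ - t) 0 = max (x - (t - δ)) 0 := fun x => by
    rw [show x + δ - t = x - (t - δ) by ring]
  have hiμ := hint hμle hL1
  have hiσ := hint hσle hL2
  have hsμ : Integrable (fun x => max (x + δ - t) 0) μ := by simpa only [hs] using hiμ (t - δ)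
  have hsσ : Integrable (fun x => max (x + δ - t) 0) σ := by simpa only [hs] using hiσ (t - δ)
  rw [mixm_integral hε0.le hε1 hsμ hsσ, mixm_integral hε0.le hε1 (hiμ t) (hiσ t)]
  have hmonoσ : ∫ x, max (x - t) 0 ∂σ ≤ ∫ x, max (x + δ - t) 0 ∂σ :=
    integral_mono (hiσ t) hsσ fun x => max_le_max (by linarith only [hδ]) le_rfl
  rcases le_or_gt t b with htb | htb
  · have hD : c ≤ ∫ x, max (x + δ - t) 0 ∂μ - ∫ x, max (x - t) 0 ∂μ := by
      rw [← integral_sub hsμ (hiμ t)]
      have h1 : c = ∫ x, (Set.Ioi (b - δ / 2)).indicator (fun _ => δ / 2) x ∂μ := by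
        rw [integral_indicator measurableSet_Ioi, setIntegral_const, hc, smul_eq_mul, mul_comm]
      rw [h1]
      refine integral_mono ((integrable_const _).indicator measurableSet_Ioi)
        (hsμ.sub (hiμ t)) fun x => ?_
      simp only [Set.indicator]
      split_ifs with hx
      · have hx' : b - δ / 2 < x := hx
        rcases le_total (x - t) 0 with h2 | h2
        · rw [max_eq_right h2, sub_zero]
          exact (by linarith only [htb, hx'] : δ / 2 ≤ x + δ - t).trans (le_max_left _ _)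
        · rw [max_eq_left h2]
          have := le_max_left (x + δ - t) 0
          linarith only [hδ, this]
      · exact sub_nonneg.2 (max_le_max (by linarith only [hδ]) le_rfl)
    have hval : ∀ {ν : Measure ℝ} [IsProbabilityMeasure ν], (∀ᵐ x ∂ν, x ≤ b) →
        (∀ᵐ x ∂ν, b - L ≤ x) → max (b - L - t) 0 ≤ ∫ x, max (x - t) 0 ∂ν ∧
          ∫ x, max (x - t) 0 ∂ν ≤ max (b - L - t) 0 + L := by
      intro ν _ h1 h2
      constructor
      · have := integral_mono_ae (integrable_const (max (b - L - t) 0)) (hint h1 h2 t) (by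
          filter_upwards [h2] with x hx
          exact max_le_max (by linarith only [hx]) le_rfl)
        simpa only [sup_le_iff, tsub_le_iff_right, integral_const, probReal_univ, smul_eq_mul, one_mul] using this
      · have := integral_mono_ae (hint h1 h2 t) (integrable_const (max (b - L - t) 0 + L)) (by
          filter_upwards [h1] with x hx
          refine max_le ?_ ?_
          · have := le_max_left (b - L - t) 0
            linarith only [hx, this]
          · have := le_max_right (b - L - t) 0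
            linarith only [hL, this])
        simpa only [ge_iff_le, integral_const, probReal_univ, smul_eq_mul, one_mul] using this
    obtain ⟨hv1, hv2⟩ := hval hμle hL1
    obtain ⟨hv3, hv4⟩ := hval hσle hL2
    generalize (∫ x, max (x - t) 0 ∂μ) = a1 at *
    generalize (∫ x, max (x + δ - t) 0 ∂μ) = a2 at *
    generalize (∫ x, max (x - t) 0 ∂σ) = a3 at *
    generalize (∫ x, max (x + δ - t) 0 ∂σ) = a4 at *
    have hL3 : a1 - a3 ≤ L := by linarith only [hv2, hv3]
    have hL4 : a3 - a1 ≤ L := by linarith only [hv1, hv4]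
    constructor
    · have h1 : ε * (a1 - a4) ≤ ε * L := by
        apply mul_le_mul_of_nonneg_left _ hε0.le; linarith only [hv2, hv3, hmonoσ]
      have h2 : (1 - ε) * c ≤ (1 - ε) * (a2 - a1) :=
        mul_le_mul_of_nonneg_left hD (by linarith only [he1])
      have h3 : (1 - ε) * a2 + ε * a4 - a1 = (1 - ε) * (a2 - a1) - ε * (a1 - a4) := by ring
      have h4 : (1 - ε) * c - ε * L = c - ε * (c + L) := by ring
      linarith only [he3, h1, h2]
    · have h1 : ε * (a3 - a1) ≤ ε * L := by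
        apply mul_le_mul_of_nonneg_left _ hε0.le; linarith only [hv1, hv4]
      have h2 : (1 - ε) * a1 + ε * a3 - a1 = ε * (a3 - a1) := by ring
      have h3 : ε * (c + L) = ε * c + ε * L := by ring
      have h4 : 0 < ε * c := mul_pos hε0 hcpos
      linarith only [he3, hD, h1, h4]
  · have hz : ∀ {ν : Measure ℝ}, (∀ᵐ x ∂ν, x ≤ b) → ∫ x, max (x - t) 0 ∂ν = 0 := by
      intro ν h1
      have h3 : (fun x => max (x - t) 0) =ᵐ[ν] fun _ => 0 := by
        filter_upwards [h1] with x hx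
        exact max_eq_right (sub_nonpos.2 (hx.trans htb.le))
      rw [integral_congr_ae h3, integral_zero]
    rw [hz hμle, hz hσle]
    have h1 : 0 ≤ ∫ x, max (x + δ - t) 0 ∂μ := integral_nonneg fun x => le_max_right _ _
    have h2 : 0 ≤ ∫ x, max (x + δ - t) 0 ∂σ := integral_nonneg fun x => le_max_right _ _
    constructor
    · have := mul_nonneg (by linarith only [he1] : 0 ≤ 1 - ε) h1
      have := mul_nonneg hε0.le h2
      (clear hμ A hδ hσ hb hL hL1 hL2 hμle hσle hmass hc hcpos he2 he3 hε1 hint hs hiμ hiσ hsμ hsσ hmonoσ htb hz; linarith)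
    · simpa only [mul_zero, add_zero] using h1

/-- Spectral parts are close if the R-transforms are close on `(0, β]`. -/
theorem specPart_close {μ μ' : Measure ℝ} [IsProbabilityMeasure μ] [IsProbabilityMeasure μ']
    (hμ : IsCompact μ.support) (hμ' : IsCompact μ'.support) {β δ : ℝ} (hβ : 0 < β)
    (h : ∀ y, 0 < y → y ≤ β → |Rt μ' y - Rt μ y| ≤ δ) {k : ℕ} {m q : ℕ → ℝ}
    (hm : Expo k m) (hq0 : q 0 = 0) (hq : ∀ l < k, q l ≤ q (l + 1)) (hq1 : q k ≤ 1) :
    |specPart β μ' k m q - specPart β μ k m q| ≤ β / 2 * δ := by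
  have i1 := rt2_ii hμ hβ hm hq0 hq hq1
  have i2 := rt2_ii hμ' hβ hm hq0 hq hq1
  have hβ2 : 0 ≤ β / 2 := by (clear * - hβ; positivity)
  have hle : ∀ s : ℝ, s ∈ Set.Ioo (0 : ℝ) 1 → β * (1 - s -
      ∑ l ∈ range (k + 1), (m (l + 1) - m l) * max (q l - s) 0) ≤ β := by
    intro s hs
    have h1 : 0 ≤ ∑ l ∈ range (k + 1), (m (l + 1) - m l) * max (q l - s) 0 := by
      refine Finset.sum_nonneg fun l hl => mul_nonneg ?_ (le_max_right _ _)
      exact sub_nonneg.2 (hm.mono l (by have := Finset.mem_range.1 hl; omega))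
    have h2 : (1 - s - ∑ l ∈ range (k + 1), (m (l + 1) - m l) * max (q l - s) 0) ≤ 1 := by
      have := hs.1
      linarith only [h1, this]
    nlinarith only [hβ, h2]
  have key : ∀ {ν ν' : Measure ℝ} [IsProbabilityMeasure ν] [IsProbabilityMeasure ν'],
      IsCompact ν.support → IsCompact ν'.support →
      (∀ y, 0 < y → y ≤ β → Rt ν' y ≤ Rt ν y + δ) →
      specPart β ν' k m q ≤ specPart β ν k m q + β / 2 * δ := by
    intro ν ν' _ _ hν hν' hh
    have i1 := rt2_ii hν hβ hm hq0 hq hq1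
    have i2 := rt2_ii hν' hβ hm hq0 hq hq1
    unfold specPart
    rw [← mul_add]
    refine mul_le_mul_of_nonneg_left ?_ hβ2
    have h3 : ∫ s in (0 : ℝ)..1, (Rt ν (β * (1 - s -
        ∑ l ∈ range (k + 1), (m (l + 1) - m l) * max (q l - s) 0)) + δ) =
        (∫ s in (0 : ℝ)..1, Rt ν (β * (1 - s -
        ∑ l ∈ range (k + 1), (m (l + 1) - m l) * max (q l - s) 0))) + δ := by
      rw [intervalIntegral.integral_add i1 intervalIntegrable_const]
      simp only [intervalIntegral.integral_const, sub_zero, smul_eq_mul, one_mul]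
    rw [← h3]
    refine intervalIntegral.integral_mono_on_of_le_Ioo zero_le_one i2
      (i1.add intervalIntegrable_const) fun s hs => ?_
    exact hh _ (mul_pos hβ (rt2_lam_pos hm hq0 hq hq1 hs.1 hs.2)) (hle s hs)
  rw [abs_le]
  constructor
  · have := key hμ' hμ (fun y h1 h2 => by
      have := (abs_le.1 (h y h1 h2)).1
      linarith only [this])
    linarith only [this]
  · have := key hμ hμ' (fun y h1 h2 => by
      have := (abs_le.1 (h y h1 h2)).2
      linarith only [this])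
    linarith only [this]

end Vale.Agent.P166.F
end
end

section

section

/-! Rounding a mixture up to a grid: all the points of the grid are charged. -/

open MeasureTheory Finset Filter Topology

namespace Vale.Agent.P166.F

/-- Half a point mass at `t`, half the uniform law on `[A, t]`. -/
noncomputable def grd (A t : ℝ) : Measure ℝ :=
  ENNReal.ofReal (1 / 2) • Measure.dirac t +
    ENNReal.ofReal (1 / (2 * (t - A))) • volume.restrict (Set.Icc A t)

theorem grd_prob {A t : ℝ} (h : A < t) : IsProbabilityMeasure (grd A t) := by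
  constructor
  have h0 : 0 < t - A := sub_pos.2 h
  unfold grd
  rw [Measure.add_apply, Measure.smul_apply, Measure.smul_apply, Measure.restrict_apply_univ,
    measure_univ, Real.volume_Icc, smul_eq_mul, smul_eq_mul, mul_one,
    ← ENNReal.ofReal_mul (by positivity), ← ENNReal.ofReal_add (by norm_num) (by positivity)]
  have e : 1 / 2 + 1 / (2 * (t - A)) * (t - A) = 1 := by field_simp; norm_num
  rw [e, ENNReal.ofReal_one]

theorem grd_mem {A t : ℝ} (h : A < t) : ∀ᵐ x ∂(grd A t), x ∈ Set.Icc A t := by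
  unfold grd
  rw [ae_add_measure_iff]
  refine ⟨Measure.ae_smul_measure ?_ _, Measure.ae_smul_measure ?_ _⟩
  · rw [ae_dirac_eq, eventually_pure]
    exact ⟨h.le, le_rfl⟩
  · exact ae_restrict_mem measurableSet_Icc

theorem grd_mem_Ioc {A t : ℝ} (h : A < t) : ∀ᵐ x ∂(grd A t), x ∈ Set.Ioc A t := by
  unfold grd
  rw [ae_add_measure_iff]
  refine ⟨Measure.ae_smul_measure ?_ _, Measure.ae_smul_measure ?_ _⟩
  · rw [ae_dirac_eq, eventually_pure]
    exact ⟨h, le_rfl⟩
  · rw [restrict_Ioc_eq_restrict_Icc.symm]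
    exact ae_restrict_mem measurableSet_Ioc

/-- A probability measure carried by the range of an injective finite family. -/
theorem grid_carried {ν : Measure ℝ} [IsProbabilityMeasure ν] {N : ℕ} (a : Fin N → ℝ)
    (ha : Function.Injective a) (h : ∀ᵐ x ∂ν, x ∈ Set.range a) :
    ν = atoms a (fun k => (ν {a k}).toReal) ∧ ∑ k, (ν {a k}).toReal = 1 := by
  have e1 : ν = ∑ k, ν {a k} • Measure.dirac (a k) := by
    have h1 := Measure.restrict_eq_self_of_ae_mem h
    have h2 : Set.range a = ⋃ k, {a k} := (Set.iUnion_singleton_eq_range a).symm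
    rw [h2, Measure.restrict_iUnion ?_ (fun k => measurableSet_singleton _),
      Measure.sum_fintype] at h1
    · conv_lhs => rw [← h1]
      exact Finset.sum_congr rfl fun k _ => Measure.restrict_singleton ν (a k)
    · intro i j hij
      exact Set.disjoint_singleton.2 fun hh => hij (ha hh)
  have e2 : ν = atoms a (fun k => (ν {a k}).toReal) := by
    unfold atoms
    conv_lhs => rw [e1]
    exact Finset.sum_congr rfl fun k _ => by rw [ENNReal.ofReal_toReal (measure_ne_top _ _)]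
  refine ⟨e2, ?_⟩
  have h3 : ν Set.univ = ∑ k, ν {a k} := by
    conv_lhs => rw [e1]
    rw [Measure.finsetSum_apply]
    exact Finset.sum_congr rfl fun k _ => by simp only [Measure.smul_apply, measure_univ, smul_eq_mul, mul_one]
  rw [← ENNReal.toReal_sum (fun k _ => measure_ne_top _ _), ← h3, measure_univ]
  simp

theorem grid_meas (A h : ℝ) : Measurable fun x : ℝ => A + h * (⌈(x - A) / h⌉ : ℝ) := by
  have h1 : Measurable fun x : ℝ => ⌈(x - A) / h⌉ :=
    Int.measurable_ceil.comp ((measurable_id.sub_const A).div_const h)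
  have h2 : Measurable fun z : ℤ => (z : ℝ) := measurable_from_top
  exact ((h2.comp h1).const_mul h).const_add A

/-- The rounded mixture is carried by the grid `A + h (k + 1)`, `k ≤ n`, with positive weights. -/
theorem grid_atoms {μ : Measure ℝ} [IsProbabilityMeasure μ] (hμ : IsCompact μ.support) {A : ℝ}
    (hA : A < sInf μ.support) (n : ℕ) {ε : ℝ} (hε : 0 < ε) (hε1 : ε < 1) {h : ℝ}
    (hh : h = (sSup μ.support - A) / (n + 1)) :
    ∃ α : Fin (n + 1) → ℝ, (∀ b, 0 < α b) ∧ ∑ b, α b = 1 ∧ ε / 2 ≤ α (Fin.last n) ∧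
      (mixm ε μ (grd A (sSup μ.support))).map (fun x => A + h * (⌈(x - A) / h⌉ : ℝ)) =
        atoms (fun k : Fin (n + 1) => A + h * ((k : ℝ) + 1)) α := by
  set t := sSup μ.support with ht
  have hAt : A < t := hA.trans_le (rt2_inf_le_sup hμ)
  have hn : (0 : ℝ) < (n : ℝ) + 1 := by (clear * -; positivity)
  have hh0 : 0 < h := by
    rw [hh]
    exact div_pos (sub_pos.2 hAt) hn
  have hht : A + h * (n + 1) = t := by
    rw [hh]
    field_simp
    ring
  have hgp : IsProbabilityMeasure (grd A t) := grd_prob hAt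
  have hνp : IsProbabilityMeasure (mixm ε μ (grd A t)) := mixm_prob hε.le hε1.le
  set ν := mixm ε μ (grd A t) with hν
  set T : ℝ → ℝ := fun x => A + h * (⌈(x - A) / h⌉ : ℝ) with hT
  have hTm : Measurable T := grid_meas A h
  have hν'p : IsProbabilityMeasure (ν.map T) := Measure.isProbabilityMeasure_map hTm.aemeasurable
  set a : Fin (n + 1) → ℝ := fun k => A + h * ((k : ℝ) + 1) with ha
  have hainj : Function.Injective a := by
    intro i j hij
    have h1 : h * ((i : ℝ) + 1) = h * ((j : ℝ) + 1) := add_left_cancel hij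
    have h2 := mul_left_cancel₀ hh0.ne' h1
    have h3 : ((i : ℕ) : ℝ) = ((j : ℕ) : ℝ) := by linarith only [h2]
    exact Fin.ext (by exact_mod_cast h3)
  -- the values of `T`
  have hTval : ∀ k : ℕ, ∀ x ∈ Set.Ioc (A + h * k) (A + h * (k + 1)), T x = A + h * (k + 1) := by
    intro k x hx
    have h1 : ⌈(x - A) / h⌉ = (k : ℤ) + 1 := by
      rw [Int.ceil_eq_iff]
      push_cast
      constructor
      · rw [lt_div_iff₀ hh0]
        linarith only [hx.1]
      · rw [div_le_iff₀ hh0]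
        linarith only [hx.2]
    simp only [hT, h1]
    push_cast
    ring
  have hTIoc : ∀ x ∈ Set.Ioc A t, T x ∈ Set.range a := by
    intro x hx
    have h1 : 0 < (x - A) / h := div_pos (by linarith only [hx.1]) hh0
    have h2 : (x - A) / h ≤ (n : ℝ) + 1 := by
      rw [div_le_iff₀ hh0]
      linarith only [hht, hx.2]
    have h3 : 0 < ⌈(x - A) / h⌉ := Int.ceil_pos.2 h1
    have h4 : ⌈(x - A) / h⌉ ≤ (n : ℤ) + 1 := by
      rw [Int.ceil_le]
      push_cast
      exact h2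
    obtain ⟨k, hk⟩ : ∃ k : ℕ, ⌈(x - A) / h⌉ = (k : ℤ) + 1 :=
      ⟨(⌈(x - A) / h⌉ - 1).toNat, by omega⟩
    refine ⟨⟨k, by omega⟩, ?_⟩
    simp only [ha, hT, hk]
    push_cast
    ring
  have hcar : ∀ᵐ x ∂(ν.map T), x ∈ Set.range a := by
    have hms : MeasurableSet {x : ℝ | x ∈ Set.range a} := (Set.finite_range a).measurableSet
    rw [ae_map_iff hTm.aemeasurable hms]
    refine mixm_ae ?_ ?_
    · filter_upwards [rt2_ae_le hμ, rt2_ae_ge hμ] with x hx hx'
      exact hTIoc x ⟨hA.trans_le hx', hx⟩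
    · filter_upwards [grd_mem_Ioc hAt] with x hx
      exact hTIoc x hx
  obtain ⟨e1, e2⟩ := grid_carried (ν := ν.map T) a hainj hcar
  -- lower bounds
  have hgrd : ∀ s : Set ℝ, ENNReal.ofReal ε * grd A t s ≤ ν s := by
    intro s
    rw [hν, mixm, Measure.add_apply, Measure.smul_apply, Measure.smul_apply, smul_eq_mul,
      smul_eq_mul]
    exact le_add_self
  have hmap : ∀ k : Fin (n + 1), (ν.map T) {a k} = ν (T ⁻¹' {a k}) := fun k =>
    Measure.map_apply hTm (measurableSet_singleton _)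
  refine ⟨fun k => ((ν.map T) {a k}).toReal, fun k => ?_, e2, ?_, e1⟩
  · refine ENNReal.toReal_pos (ne_of_gt ?_) (measure_ne_top _ _)
    rw [hmap]
    have h1 : Set.Ioc (A + h * (k : ℕ)) (A + h * ((k : ℕ) + 1)) ⊆ T ⁻¹' {a k} := fun x hx => by
      rw [Set.mem_preimage, Set.mem_singleton_iff]
      exact hTval k x hx
    refine lt_of_lt_of_le ?_ ((hgrd _).trans (measure_mono h1))
    have h2 : ENNReal.ofReal (1 / (2 * (t - A))) *
        volume (Set.Ioc (A + h * (k : ℕ)) (A + h * ((k : ℕ) + 1))) ≤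
        grd A t (Set.Ioc (A + h * (k : ℕ)) (A + h * ((k : ℕ) + 1))) := by
      rw [grd, Measure.add_apply, Measure.smul_apply, Measure.smul_apply, smul_eq_mul, smul_eq_mul,
        Measure.restrict_apply measurableSet_Ioc, Set.inter_eq_left.2]
      · exact le_add_self
      · intro x hx
        have hk : ((k : ℕ) : ℝ) + 1 ≤ n + 1 := by
          have : (k : ℕ) ≤ n := Nat.lt_succ_iff.1 k.2
          have h' : ((k : ℕ) : ℝ) ≤ n := by exact_mod_cast this
          linarith only [h']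
        have hk0 : (0 : ℝ) ≤ h * (k : ℕ) := mul_nonneg hh0.le (Nat.cast_nonneg _)
        have hk1 : h * (((k : ℕ) : ℝ) + 1) ≤ h * (n + 1) := mul_le_mul_of_nonneg_left hk hh0.le
        exact ⟨by linarith only [hk0, hx.1], by linarith only [hht, hk1, hx.2]⟩
    refine lt_of_lt_of_le ?_ (mul_le_mul_right h2 _)
    rw [Real.volume_Ioc]
    have h3 : A + h * (((k : ℕ) : ℝ) + 1) - (A + h * (k : ℕ)) = h := by ring
    rw [h3]
    have h4 : 0 < t - A := sub_pos.2 hAt
    have h5 : 0 < 1 / (2 * (t - A)) := by positivity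
    exact ENNReal.mul_pos (ENNReal.ofReal_pos.2 hε).ne'
      (ENNReal.mul_pos (ENNReal.ofReal_pos.2 h5).ne' (ENNReal.ofReal_pos.2 hh0).ne').ne'
  · have h1 : t ∈ T ⁻¹' {a (Fin.last n)} := by
      rw [Set.mem_preimage, Set.mem_singleton_iff]
      have h2 := hTval n t ⟨by rw [← hht]; linarith only [hh0], by rw [hht]⟩
      rw [h2]
      simp [ha]
    have h3 : ENNReal.ofReal (1 / 2) ≤ grd A t {t} := by
      rw [grd, Measure.add_apply, Measure.smul_apply, Measure.smul_apply, smul_eq_mul, smul_eq_mul,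
        Measure.dirac_apply_of_mem (Set.mem_singleton t), mul_one]
      exact le_self_add
    have h4 : ENNReal.ofReal (ε / 2) ≤ (ν.map T) {a (Fin.last n)} := by
      rw [hmap]
      calc ENNReal.ofReal (ε / 2) = ENNReal.ofReal ε * ENNReal.ofReal (1 / 2) := by
            rw [← ENNReal.ofReal_mul hε.le]
            congr 1
            ring
        _ ≤ ENNReal.ofReal ε * grd A t {t} := mul_le_mul_right h3 _
        _ ≤ ν {t} := hgrd _
        _ ≤ _ := measure_mono (Set.singleton_subset_iff.2 h1)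
    exact (ENNReal.ofReal_le_iff_le_toReal (measure_ne_top _ _)).1 h4

end Vale.Agent.P166.F
end
end

section

section

/-!
P166, lower bound: the value of stage 1 (Jensen inequality in the moved potentials) and the
covariance of the fields of the new spin.
-/

set_option linter.all false

open Finset MeasureTheory

namespace Vale.Agent.P166.L

open Vale.Agent.P166.F
open Vale.Agent.P157.Par (Path)

section vb

/-- The function of the resolvent parameter whose trace is nonnegative. -/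
noncomputable def vbG (b b' μ c A : ℝ) : ℝ :=
  (μ - c) / (A - c) + Real.log ((A - μ) / (A - c)) + (b' - b) * (1 / (A - b') - 1 / (A - b))

variable {b b' μ c A : ℝ}

theorem vbG_nonneg (h1 : b < μ) (h2 : μ < b') (hc : c = b ∨ c = b') (hA : b' < A) :
    0 ≤ vbG b b' μ c A := by
  have a1 : 0 < A - b' := by linarith
  have a2 : 0 < A - μ := by linarith only [h2, hA]
  have a3 : 0 < A - b := by linarith
  have a4 : 1 / (A - b) ≤ 1 / (A - b') := one_div_le_one_div_of_le a1 (by linarith only [h1, h2])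
  have a5 : 1 / (A - μ) ≤ 1 / (A - b') := one_div_le_one_div_of_le a1 (by linarith only [h2])
  have a6 : 1 / (A - b) ≤ 1 / (A - μ) := one_div_le_one_div_of_le a2 (by linarith only [h1])
  unfold vbG
  rcases hc with rfl | rfl
  · have hl := Real.one_sub_inv_le_log_of_pos (div_pos a2 a3)
    rw [inv_div] at hl
    have e1 : (A - c) / (A - μ) = 1 + (μ - c) * (1 / (A - μ)) := by
      field_simp
      ring
    rw [e1] at hl
    have e2 : (μ - c) / (A - c) = (μ - c) * (1 / (A - c)) := by ring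
    rw [e2]
    have e3 : (μ - c) * (1 / (A - μ)) ≤ (μ - c) * (1 / (A - b')) :=
      mul_le_mul_of_nonneg_left a5 (by linarith only [h1])
    have e4 : 0 ≤ (b' - μ) * (1 / (A - b') - 1 / (A - c)) :=
      mul_nonneg (by linarith only [h2]) (by linarith only [a4])
    linarith only [hl, e3, e4]
  · have hl := Real.one_sub_inv_le_log_of_pos (div_pos a2 a1)
    rw [inv_div] at hl
    have e1 : (A - c) / (A - μ) = 1 - (c - μ) * (1 / (A - μ)) := by
      field_simp
      ring
    rw [e1] at hl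
    have e2 : (μ - c) / (A - c) = -((c - μ) * (1 / (A - c))) := by ring
    rw [e2]
    have e3 : (c - μ) * (1 / (A - b)) ≤ (c - μ) * (1 / (A - μ)) :=
      mul_le_mul_of_nonneg_left a6 (by linarith only [h2])
    have e4 : 0 ≤ (μ - b) * (1 / (A - c) - 1 / (A - b)) :=
      mul_nonneg (by linarith only [h1]) (by linarith only [a4])
    linarith only [hl, e3, e4]

theorem vbG_deriv (h1 : b < μ) (h2 : μ < b') (hc : c = b ∨ c = b') (hA : b' < A) :
    HasDerivAt (vbG b b' μ c) (-((μ - c) / (A - c) ^ 2) + (1 / (A - μ) - 1 / (A - c)) -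
      (b' - b) * (1 / (A - b') ^ 2 - 1 / (A - b) ^ 2)) A := by
  have a1 : 0 < A - b' := by linarith
  have a2 : 0 < A - μ := by linarith only [h2, hA]
  have a3 : 0 < A - b := by linarith only [h1, h2, hA]
  have a4 : 0 < A - c := by rcases hc with rfl | rfl <;> assumption
  have hd : ∀ t : ℝ, HasDerivAt (fun A => A - t) 1 A := fun t => (hasDerivAt_id A).sub_const t
  have hi : ∀ t : ℝ, 0 < A - t → HasDerivAt (fun A => 1 / (A - t)) (-(1 / (A - t) ^ 2)) A := by
    intro t ht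
    have h := (hd t).inv ht.ne'
    simp only [one_div]
    refine h.congr_deriv ?_
    ring
  have d1 : HasDerivAt (fun A => (μ - c) / (A - c)) (-((μ - c) / (A - c) ^ 2)) A := by
    have h := (hi c a4).const_mul (μ - c)
    have e : (fun A => (μ - c) / (A - c)) = fun A => (μ - c) * (1 / (A - c)) := by
      funext A
      ring
    rw [e]
    refine h.congr_deriv ?_
    ring
  have d2 : HasDerivAt (fun A => Real.log ((A - μ) / (A - c))) (1 / (A - μ) - 1 / (A - c)) A := by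
    have h := (((hd μ).div (hd c) a4.ne').log (div_pos a2 a4).ne')
    refine h.congr_deriv ?_
    rw [Pi.div_apply]
    field_simp
  have d3 := ((hi b' a1).sub (hi b a3)).const_mul (b' - b)
  have h := (d1.add d2).add d3
  refine h.congr_deriv ?_
  ring

theorem vbG_anti (h1 : b < μ) (h2 : μ < b') (hc : c = b ∨ c = b') :
    AntitoneOn (vbG b b' μ c) (Set.Ioi b') := by
  have hd := fun A (hA : b' < A) => vbG_deriv h1 h2 hc hA
  refine antitoneOn_of_deriv_nonpos (convex_Ioi b')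
    (fun A hA => (hd A hA).continuousAt.continuousWithinAt) ?_ ?_
  · intro A hA
    rw [interior_Ioi] at hA
    exact (hd A hA).differentiableAt.differentiableWithinAt
  · intro A hA
    rw [interior_Ioi] at hA
    rw [(hd A hA).deriv]
    have hA' : b' < A := hA
    have a1 : 0 < A - b' := by linarith
    have a2 : 0 < A - μ := by linarith only [h2, hA']
    have a3 : 0 < A - b := by linarith
    have p1 : 1 / (A - b) ≤ 1 / (A - b') := one_div_le_one_div_of_le a1 (by linarith)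
    have p2 : 1 / (A - μ) ≤ 1 / (A - b') := one_div_le_one_div_of_le a1 (by linarith only [h2])
    have p3 : 1 / (A - b) ≤ 1 / (A - μ) := one_div_le_one_div_of_le a2 (by linarith only [h1])
    have q1 : 0 < 1 / (A - b') := by positivity
    have q2 : 0 < 1 / (A - μ) := by positivity
    have q3 : 0 < 1 / (A - b) := by positivity
    rcases hc with rfl | rfl
    · -- c = b
      have e1 : 1 / (A - μ) - 1 / (A - c) = (μ - c) * (1 / (A - μ) * (1 / (A - c))) := by
        field_simp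
        ring
      have e2 : (μ - c) / (A - c) ^ 2 = (μ - c) * (1 / (A - c)) ^ 2 := by
        field_simp
      have e3 : 1 / (A - b') ^ 2 = (1 / (A - b')) ^ 2 := by rw [one_div_pow]
      have e4 : 1 / (A - c) ^ 2 = (1 / (A - c)) ^ 2 := by rw [one_div_pow]
      rw [e1, e2, e3, e4]
      set u := 1 / (A - b')
      set v := 1 / (A - μ)
      set w := 1 / (A - c)
      have f1 : 0 ≤ v * w - w ^ 2 := by nlinarith only [q3, p3]
      have f2 : v * w - w ^ 2 ≤ u ^ 2 - w ^ 2 := by nlinarith only [p2, q2, p1]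
      have f3 : (μ - c) * (v * w - w ^ 2) ≤ (b' - c) * (v * w - w ^ 2) :=
        mul_le_mul_of_nonneg_right (by linarith only [h2]) f1
      have f4 : (b' - c) * (v * w - w ^ 2) ≤ (b' - c) * (u ^ 2 - w ^ 2) :=
        mul_le_mul_of_nonneg_left f2 (by linarith only [h2, h1])
      linarith only [f3, f4]
    · -- c = b'
      have e1 : 1 / (A - μ) - 1 / (A - c) = -((c - μ) * (1 / (A - μ) * (1 / (A - c)))) := by
        field_simp
        ring
      have e2 : (μ - c) / (A - c) ^ 2 = -((c - μ) * (1 / (A - c)) ^ 2) := by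
        field_simp
        ring
      have e3 : 1 / (A - b) ^ 2 = (1 / (A - b)) ^ 2 := by rw [one_div_pow]
      have e4 : 1 / (A - c) ^ 2 = (1 / (A - c)) ^ 2 := by rw [one_div_pow]
      rw [e1, e2, e3, e4]
      set u := 1 / (A - c)
      set v := 1 / (A - μ)
      set w := 1 / (A - b)
      have f1 : 0 ≤ u ^ 2 - v * u := by nlinarith only [q1, p2]
      have f2 : u ^ 2 - v * u ≤ u ^ 2 - w ^ 2 := by nlinarith only [p3, q3, p1]
      have f3 : (c - μ) * (u ^ 2 - v * u) ≤ (c - b) * (u ^ 2 - v * u) :=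
        mul_le_mul_of_nonneg_right (by linarith only [h1]) f1
      have f4 : (c - b) * (u ^ 2 - v * u) ≤ (c - b) * (u ^ 2 - w ^ 2) :=
        mul_le_mul_of_nonneg_left f2 (by linarith only [h1, h2])
      linarith only [f3, f4]

theorem vb_trf_sum {ι : Type} (s : Finset ι) {K : ℕ} {m : ℕ → ℝ} {x : ℕ → ℝ} (F : ι → ℝ → ℝ) :
    trf K m (fun y => ∑ j ∈ s, F j y) x = ∑ j ∈ s, trf K m (F j) x := by
  unfold trf
  rw [Finset.sum_add_distrib]
  congr 1
  rw [Finset.sum_comm]
  refine Finset.sum_congr rfl fun i _ => ?_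
  rw [← Finset.sum_sub_distrib, Finset.sum_div]

theorem vb_trf_congr {K : ℕ} {m : ℕ → ℝ} {f g : ℝ → ℝ} {x : ℕ → ℝ}
    (h : ∀ l ≤ K, f (x l) = g (x l)) : trf K m f x = trf K m g x := by
  unfold trf
  rw [h K le_rfl]
  congr 1
  refine Finset.sum_congr rfl fun i hi => ?_
  have := Finset.mem_range.1 hi
  rw [h i (by omega), h (i + 1) (by omega)]

theorem vb_trf_comb {K : ℕ} {m : ℕ → ℝ} {x : ℕ → ℝ} (f1 f2 f3 f4 : ℝ → ℝ) (s t : ℝ) :
    trf K m (fun y => s * f1 y + f2 y + t * (f3 y - f4 y)) x =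
      s * trf K m f1 x + trf K m f2 x + t * (trf K m f3 x - trf K m f4 x) := by
  unfold trf
  have h : ∑ i ∈ range K, (s * f1 (x i) + f2 (x i) + t * (f3 (x i) - f4 (x i)) -
      (s * f1 (x (i + 1)) + f2 (x (i + 1)) + t * (f3 (x (i + 1)) - f4 (x (i + 1))))) / m (i + 1) =
      s * (∑ i ∈ range K, (f1 (x i) - f1 (x (i + 1))) / m (i + 1)) +
      (∑ i ∈ range K, (f2 (x i) - f2 (x (i + 1))) / m (i + 1)) +
      t * ((∑ i ∈ range K, (f3 (x i) - f3 (x (i + 1))) / m (i + 1)) -
        ∑ i ∈ range K, (f4 (x i) - f4 (x (i + 1))) / m (i + 1)) := by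
    rw [Finset.mul_sum, ← Finset.sum_sub_distrib, Finset.mul_sum, ← Finset.sum_add_distrib,
      ← Finset.sum_add_distrib]
    refine Finset.sum_congr rfl fun i _ => ?_
    ring
  rw [h]
  ring

theorem vb_eq_pos {K : ℕ} {m q : ℕ → ℝ} (hm : Expo K m) (hq : Path K q) (hqK : q K < 1) :
    ∀ l ≤ K, 0 < eq' K m q l := by
  have hdiff : ∀ l < K, eq' K m q l - eq' K m q (l + 1) = m (l + 1) * (q (l + 1) - q l) :=
    fun l hl => Hm.ev_sub hm ⟨1, q⟩ hl
  have hK : eq' K m q K = 1 - q K := Hm.ev_K hm ⟨1, q⟩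
  have hmpos : ∀ l < K, 0 < m (l + 1) := fun l hl => fs_mpos hm l hl.le
  have hdec : ∀ l < K, eq' K m q (l + 1) ≤ eq' K m q l := by
    intro l hl
    have h1 := mul_nonneg (hmpos l hl).le (sub_nonneg.2 (hq.2 l hl))
    linarith only [h1, hdiff l hl]
  refine alg1_down_ind (Q := fun l => 0 < eq' K m q l) ?_ ?_
  · rw [hK]
    linarith only [hqK]
  · intro l hl h1
    exact h1.trans_le (hdec l hl)

theorem vb_Az_anti {n : ℕ} {a α : Fin (n + 1) → ℝ} (hα : ∀ b, 0 < α b)
    (hα1 : ∑ b, α b = 1) {β : ℝ} (hβ : 0 < β) {x y : ℝ} (hx : 0 < x) (hxy : x ≤ y) :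
    Az β a α y ≤ Az β a α x := by
  obtain ⟨h1, h2⟩ := Az_spec (a := a) hα hα1 hβ hx
  obtain ⟨h3, h4⟩ := Az_spec (a := a) hα hα1 hβ (hx.trans_le hxy)
  by_contra hlt
  push Not at hlt
  have h5 : ∑ k, α k / (Az β a α y - β * a k) < ∑ k, α k / (Az β a α x - β * a k) := by
    refine Finset.sum_lt_sum_of_nonempty Finset.univ_nonempty fun k _ => ?_
    exact div_lt_div_of_pos_left (hα k) (sub_pos.2 (h1 k)) (by linarith only [hlt])
  rw [h2, h4] at h5
  linarith only [hxy, h5]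

end vb

/-- **The value of stage 1.** `k0` is the type of the added pattern; the potentials
`β a_{k0.succAbove j}` are moved to the outliers `μ_j`. -/
theorem stage_one_value {n : ℕ} {a α : Fin (n + 1) → ℝ} {μ : Fin n → ℝ} (ha : StrictMono a)
    (hα : ∀ b, 0 < α b) (hα1 : ∑ b, α b = 1) {β : ℝ} (hβ : 0 < β)
    (hμ : Outl (fun k => β * a k) α μ) {h : ℝ}
    (hh : ∀ j : Fin n, β * a j.succ - β * a j.castSucc ≤ h) (hh0 : 0 ≤ h) {K : ℕ}
    {m q : ℕ → ℝ} (hm : Expo K m) (hq : Path K q) (hq0 : q 0 = 0)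
    (hq1 : q K < 1) (k0 : Fin (n + 1)) :
    -trf K m (fun x => Real.log (x * (Az β a α x - β * a k0))) (eq' K m q) -
      h * rhk β a α K m q (Fin.last n) ≤
    ∑ j : Fin n, (μ j - β * a (k0.succAbove j)) * rhk β a α K m q (k0.succAbove j) := by
  have hb : StrictMono fun k => β * a k := fun i j hij => mul_lt_mul_of_pos_left (ha hij) hβ
  obtain ⟨hρ0, hρmono, -, -⟩ := rhk_props ha hα hα1 hβ hm hq hq0 hq1
  have hpos := vb_eq_pos hm hq hq1
  -- the logarithm
  have hlog : trf K m (fun x => Real.log (x * (Az β a α x - β * a k0))) (eq' K m q) =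
      ∑ j : Fin n, trf K m (fun x => Real.log ((Az β a α x - μ j) /
        (Az β a α x - β * a (k0.succAbove j)))) (eq' K m q) := by
    rw [← vb_trf_sum]
    refine vb_trf_congr fun l hl => ?_
    have hx := hpos l hl
    obtain ⟨h1, h2⟩ := Az_spec (a := a) hα hα1 hβ hx
    set x := eq' K m q l
    set A := Az β a α x
    have h3 : ∀ j, 0 < A - μ j := fun j => sub_pos.2 ((hμ.hi j).trans (h1 j.succ))
    have h4 : ∀ k, 0 < A - β * a k := fun k => sub_pos.2 (h1 k)
    have h5 := hμ.prod_eq hb hα1 (z := A) fun k => (h1 k).ne'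
    rw [h2, Fin.prod_univ_succAbove _ k0] at h5
    rw [← Real.log_prod (fun j _ => (div_pos (h3 j) (h4 _)).ne')]
    congr 1
    rw [Finset.prod_div_distrib, h5, ← mul_assoc, mul_div_assoc,
      div_self (Finset.prod_pos fun j _ => h4 _).ne', mul_one]
  rw [hlog]
  -- each term
  have hterm : ∀ j : Fin n, 0 ≤ (μ j - β * a (k0.succAbove j)) *
      rhk β a α K m q (k0.succAbove j) +
      trf K m (fun x => Real.log ((Az β a α x - μ j) /
        (Az β a α x - β * a (k0.succAbove j)))) (eq' K m q) +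
      (β * a j.succ - β * a j.castSucc) *
        (rhk β a α K m q j.succ - rhk β a α K m q j.castSucc) := by
    intro j
    have hc : β * a (k0.succAbove j) = β * a j.castSucc ∨
        β * a (k0.succAbove j) = β * a j.succ := by
      rcases lt_or_ge j.castSucc k0 with h1 | h1
      · left
        rw [Fin.succAbove_of_castSucc_lt _ _ h1]
      · right
        rw [Fin.succAbove_of_le_castSucc _ _ h1]
    unfold rhk
    rw [← vb_trf_comb]
    have hg : ∀ x, 0 < x → 0 ≤ vbG (β * a j.castSucc) (β * a j.succ) (μ j)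
        (β * a (k0.succAbove j)) (Az β a α x) := fun x hx =>
      vbG_nonneg (hμ.lo j) (hμ.hi j) hc ((Az_spec (a := a) hα hα1 hβ hx).1 _)
    have hmon : MonotoneOn (fun x => vbG (β * a j.castSucc) (β * a j.succ) (μ j)
        (β * a (k0.succAbove j)) (Az β a α x)) (Set.Ioi 0) := by
      intro x hx y hy hxy
      exact vbG_anti (hμ.lo j) (hμ.hi j) hc ((Az_spec (a := a) hα hα1 hβ hy).1 _)
        ((Az_spec (a := a) hα hα1 hβ hx).1 _) (vb_Az_anti hα hα1 hβ hx hxy)
    have hkey := trf_nonneg hm hq hq1 hg hmon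
    refine hkey.trans_eq (vb_trf_congr fun l _ => ?_)
    unfold vbG
    ring
  have hsum := Finset.sum_nonneg fun j (_ : j ∈ (Finset.univ : Finset (Fin n))) => hterm j
  rw [Finset.sum_add_distrib, Finset.sum_add_distrib] at hsum
  have htel : ∑ j : Fin n, (rhk β a α K m q j.succ - rhk β a α K m q j.castSucc) =
      rhk β a α K m q (Fin.last n) - rhk β a α K m q 0 := by
    rw [Finset.sum_sub_distrib]
    have e1 := Fin.sum_univ_succ (rhk β a α K m q)
    have e2 := Fin.sum_univ_castSucc (rhk β a α K m q)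
    linarith only [e1, e2]
  have hstep : ∑ j : Fin n, (β * a j.succ - β * a j.castSucc) *
        (rhk β a α K m q j.succ - rhk β a α K m q j.castSucc) ≤
      h * (rhk β a α K m q (Fin.last n) - rhk β a α K m q 0) := by
    rw [← htel, Finset.mul_sum]
    refine Finset.sum_le_sum fun j _ => ?_
    refine mul_le_mul_of_nonneg_right (hh j) (sub_nonneg.2 (hρmono ?_))
    exact (Fin.castSucc_lt_succ).le
  have hlast : h * (rhk β a α K m q (Fin.last n) - rhk β a α K m q 0) ≤
      h * rhk β a α K m q (Fin.last n) := by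
    have h3 := mul_nonneg hh0 (hρ0 0)
    linarith only [h3]
  linarith

end Vale.Agent.P166.L
end
end

section

section

/-!
Stability: the overlaps of the blocks are functions of the total overlap, up to the deviations.
-/

open MeasureTheory ProbabilityTheory Matrix Filter Topology

namespace Vale.Agent.P166.U

open Vale.Agent.P157.Lv Vale.Agent.P157.Par Md
open Vale.Agent.P166.F (Hm frac eq' Zeta)

/-- The loop equations and their stability. -/
theorem stab_loop {n : ℕ} (a α : Fin (n + 1) → ℝ) (hα : ∀ b, 0 < α b) (hα1 : ∑ b, α b = 1)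
    {θ : ℝ} (hθ : 0 < θ) {ζ : ℝ → ℝ} (hζ : Zeta θ a α ζ)
    (hloop : ∀ B, 0 ≤ B → ∃ C, 0 ≤ C ∧ LoopBound (n + 1) B C) :
    ∃ C : ℝ, 0 ≤ C ∧ ∀ (N K : ℕ) (m : ℕ → ℝ) (c : Fin N → Fin (n + 1)) (P : Pm (n + 1))
      [MeasurableSpace (orthogonalGroup (Fin N) ℝ)] [BorelSpace (orthogonalGroup (Fin N) ℝ)]
      (ν : Measure (orthogonalGroup (Fin N) ℝ)) [IsProbabilityMeasure ν] [ν.IsMulLeftInvariant]
      (dl : ℝ), 0 < N → Exponents K m → P.s 0 = 0 → (∀ k, P.u k 0 = 0) →
      (∀ k, |P.b k - θ * a k| ≤ dl) → (∀ k, ∀ l ≤ K, |P.u k l| ≤ dl) →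
      (∀ k, |frac c k - α k| ≤ dl) → dl ≤ 1 →
      ∑ b, Hm.nrm K m (Hm.sub (egy1R ν K m c P α b)
          (F.Rzero K m θ a ζ (eq' K m (Ql ν K m c P)) b)) ≤
        C * (∑ k, Dv ν K m c P k + (K + 1) * dl) := by
  obtain ⟨C1, hC1, hst⟩ := F.stab hθ a α hα hα1 hζ
  obtain ⟨C0, hC0, hl⟩ := hloop (∑ k, |θ * a k| + 1) (by (clear * -; positivity))
  have hA0 : 0 ≤ ∑ b, ∑ c, 1 / (α b * α c) :=
    Finset.sum_nonneg fun b _ => Finset.sum_nonneg fun c _ => by
      have h1 := hα b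
      have h2 := hα c
      (clear * - h1 h2; positivity)
  refine ⟨C1 * ((∑ b, ∑ c, 1 / (α b * α c)) * (2 * C0 + 24)), by (clear * - hC1 hA0 hC0; positivity), ?_⟩
  intro N K m c P _ _ ν _ _ dl hN hm hs hu hb hul hf hdl1
  have hdl : 0 ≤ dl := (abs_nonneg _).trans (hf 0)
  have hx := egy1_expo hm
  have h1 := hst K m (egy1R ν K m c P α) hx (egy1_blocks hm hN hs hu hα)
  have e2 : (fun l => ∑ b, α b * (egy1R ν K m c P α b).e l) = Ql ν K m c P := by
    funext l
    unfold Ql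
    refine Finset.sum_congr rfl fun k _ => ?_
    change α k * (1 / α k * Rkl ν K m c P k l) = _
    have := (hα k).ne'
    (clear * - this; field_simp)
  rw [e2] at h1
  refine h1.trans ?_
  rw [mul_assoc]
  refine mul_le_mul_of_nonneg_left ?_ hC1
  have hD : ∀ k, 0 ≤ Dv ν K m c P k := fun k => egy1_Dv_nonneg hm k
  have hDs : ∀ k, Dv ν K m c P k ≤ ∑ k, Dv ν K m c P k := fun k =>
    Finset.single_le_sum (f := fun k => Dv ν K m c P k) (fun k _ => hD k) (Finset.mem_univ k)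
  have hD0 : 0 ≤ ∑ k, Dv ν K m c P k := Finset.sum_nonneg fun k _ => hD k
  have hK : 0 ≤ ((K : ℝ) + 1) * dl := by (clear * - hdl; positivity)
  have hK1 : dl ≤ ((K : ℝ) + 1) * dl := by
    have : 0 ≤ (K : ℝ) * dl := by (clear * - hdl; positivity)
    linarith only [this]
  have hB : ∀ k, |P.b k| ≤ ∑ k, |θ * a k| + 1 := by
    intro k
    have h2 : |θ * a k| ≤ ∑ k, |θ * a k| :=
      Finset.single_le_sum (f := fun k => |θ * a k|) (fun k _ => abs_nonneg _)
        (Finset.mem_univ k)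
    have h3 : P.b k = (P.b k - θ * a k) + θ * a k := by ring
    rw [h3]
    refine (abs_add_le _ _).trans ?_
    linarith only [hdl1, h2, hb k]
  rw [Finset.sum_mul, Finset.sum_mul]
  refine Finset.sum_le_sum fun k _ => ?_
  rw [Finset.sum_mul, Finset.sum_mul]
  refine Finset.sum_le_sum fun k' _ => ?_
  have hk := hα k
  have hk' := hα k'
  have hpos : 0 ≤ 1 / (α k * α k') := by (clear * - hk hk'; positivity)
  by_cases hkk : k = k'
  · subst hkk
    rw [sub_self, egy1_loop_self]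
    (clear * - hk hC0 hD0 hdl; positivity)
  · refine (egy1_loop_le hm hN hα hb hf k k').trans ?_
    rw [mul_assoc]
    refine mul_le_mul_of_nonneg_left ?_ hpos
    have h4 := hl N K m c P ν dl hN hm hB hul hdl1 k k' hkk
    have h5 : C0 * (Dv ν K m c P k + Dv ν K m c P k' + (K + 1) * dl) ≤
        C0 * (2 * (∑ k, Dv ν K m c P k) + (K + 1) * dl) := by
      refine mul_le_mul_of_nonneg_left ?_ hC0
      linarith only [hDs k, hDs k']
    nlinarith only [hD0, hK1, h4, h5, hC0, hK]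

end Vale.Agent.P166.U
end
end

section

section

open MeasureTheory ProbabilityTheory

namespace Vale.Agent.P157

end Vale.Agent.P157
end
end

section

section

/-! P166, lower bound: averages of second differences over a discrete box of parameters. -/

open Finset

namespace Vale.Agent.P166.L

/-- Telescoping of second differences. -/
theorem sum_second_diff (f : ℕ → ℝ) (M : ℕ) :
    ∑ x ∈ range M, (f (x + 2) + f x - 2 * f (x + 1)) = (f (M + 1) - f M) - (f 1 - f 0) := by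
  induction M with
  | zero => simp
  | succ M ih =>
    rw [Finset.sum_range_succ, ih]
    ring

variable {ι : Type} [Fintype ι] [DecidableEq ι]

/-- The points of the box: `base j + t (θ j + 1)`. -/
def bpt {M : ℕ} (base : ι → ℝ) (t : ℝ) (θ : ι → Fin M) : ι → ℝ := fun j =>
  base j + t * (((θ j : ℕ) : ℝ) + 1)

omit [Fintype ι] [DecidableEq ι] in
theorem bpt_mem {M : ℕ} {base : ι → ℝ} {t : ℝ} (ht : 0 ≤ t) (θ : ι → Fin M) (j : ι) :
    base j + t ≤ bpt base t θ j ∧ bpt base t θ j ≤ base j + t * M := by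
  unfold bpt
  have h1 : (0 : ℝ) ≤ ((θ j : ℕ) : ℝ) := Nat.cast_nonneg _
  have h2 : ((θ j : ℕ) : ℝ) + 1 ≤ M := by exact_mod_cast (θ j).2
  constructor <;> nlinarith only [ht, h2]

/-- **The sum of the second differences in one direction over the box.** -/
theorem box_avg (F : (ι → ℝ) → ℝ) (base : ι → ℝ) {t L : ℝ} (ht : 0 ≤ t) (hL0 : 0 ≤ L)
    (M : ℕ) (i : ι) (hL : ∀ p : ι → ℝ, (∀ j, base j ≤ p j ∧ p j ≤ base j + t * (M + 1)) → ∀ x, base i ≤ x →
      x ≤ base i + t * (M + 1) → |F (Function.update p i x) - F p| ≤ L * |x - p i|) :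
    ∑ θ : ι → Fin M, (F (Function.update (bpt base t θ) i (bpt base t θ i + t)) +
        F (Function.update (bpt base t θ) i (bpt base t θ i - t)) - 2 * F (bpt base t θ)) ≤
      2 * L * t * (M : ℝ) ^ (Fintype.card ι - 1) := by
  rw [← (Equiv.funSplitAt i (Fin M)).symm.sum_comp, Fintype.sum_prod_type_right]
  have hcard : ((Finset.univ : Finset ({j // j ≠ i} → Fin M)).card : ℝ) =
      (M : ℝ) ^ (Fintype.card ι - 1) := by
    rw [Finset.card_univ, Fintype.card_fun, Fintype.card_fin]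
    push_cast
    congr 1
    rw [Fintype.card_subtype_compl, Fintype.card_subtype_eq]
  have hb : ∀ η : {j // j ≠ i} → Fin M, ∑ x : Fin M,
      (F (Function.update (bpt base t ((Equiv.funSplitAt i (Fin M)).symm (x, η))) i
        (bpt base t ((Equiv.funSplitAt i (Fin M)).symm (x, η)) i + t)) +
        F (Function.update (bpt base t ((Equiv.funSplitAt i (Fin M)).symm (x, η))) i
          (bpt base t ((Equiv.funSplitAt i (Fin M)).symm (x, η)) i - t)) -
        2 * F (bpt base t ((Equiv.funSplitAt i (Fin M)).symm (x, η)))) ≤ 2 * L * t := by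
    intro η
    set P0 : ι → ℝ := fun j => if h : j = i then base i else
      base j + t * (((η ⟨j, h⟩ : ℕ) : ℝ) + 1) with hP0
    have hpt : ∀ x : Fin M, bpt base t ((Equiv.funSplitAt i (Fin M)).symm (x, η)) =
        Function.update P0 i (base i + t * (((x : ℕ) : ℝ) + 1)) := by
      intro x
      funext j
      by_cases h : j = i
      · subst h
        simp only [bpt, ne_eq, Equiv.funSplitAt, Equiv.piSplitAt_symm_apply, ↓reduceDIte, Function.update_self]
      · rw [Function.update_of_ne h]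
        simp only [bpt, ne_eq, Equiv.funSplitAt, Equiv.piSplitAt_symm_apply, h, ↓reduceDIte, hP0]
    set f : ℕ → ℝ := fun x => F (Function.update P0 i (base i + t * x)) with hf
    have hsum : ∀ x : Fin M,
        F (Function.update (bpt base t ((Equiv.funSplitAt i (Fin M)).symm (x, η))) i
          (bpt base t ((Equiv.funSplitAt i (Fin M)).symm (x, η)) i + t)) +
        F (Function.update (bpt base t ((Equiv.funSplitAt i (Fin M)).symm (x, η))) i
          (bpt base t ((Equiv.funSplitAt i (Fin M)).symm (x, η)) i - t)) -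
        2 * F (bpt base t ((Equiv.funSplitAt i (Fin M)).symm (x, η))) =
        f ((x : ℕ) + 2) + f (x : ℕ) - 2 * f ((x : ℕ) + 1) := by
      intro x
      rw [hpt x]
      simp only [Function.update_idem, Function.update_self, hf]
      push_cast
      congr 3
      · congr 1
        ring
      · congr 1
        ring
    rw [Finset.sum_congr rfl fun x _ => hsum x,
      Fin.sum_univ_eq_sum_range (fun x => f (x + 2) + f x - 2 * f (x + 1)) M, sum_second_diff]
    rcases Nat.eq_zero_or_pos M with rfl | hM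
    · have e0 : (f (0 + 1) - f 0) - (f 1 - f 0) = 0 := by simp
      rw [e0]
      positivity
    · have hM' : (1 : ℝ) ≤ M := by exact_mod_cast hM
      have hmem : ∀ y : ℝ, 0 ≤ y → y ≤ M + 1 →
          ∀ j, base j ≤ Function.update P0 i (base i + t * y) j ∧
            Function.update P0 i (base i + t * y) j ≤ base j + t * (M + 1) := by
        intro y hy hy1 j
        by_cases h : j = i
        · subst h
          rw [Function.update_self]
          constructor <;> nlinarith only [ht, hy, hy1]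
        · rw [Function.update_of_ne h]
          simp only [hP0, h, dif_neg, not_false_iff]
          have h1 : (0 : ℝ) ≤ ((η ⟨j, h⟩ : ℕ) : ℝ) := Nat.cast_nonneg _
          have h2 : ((η ⟨j, h⟩ : ℕ) : ℝ) + 1 ≤ M := by exact_mod_cast (η ⟨j, h⟩).2
          constructor <;> nlinarith only [h, ht, h2]
      have hstep : ∀ x : ℕ, x ≤ M → |f (x + 1) - f x| ≤ L * t := by
        intro x hx
        have hx' : (x : ℝ) ≤ M := by exact_mod_cast hx
        have hx0 : (0 : ℝ) ≤ x := Nat.cast_nonneg _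
        have h1 := hL (Function.update P0 i (base i + t * x)) (hmem x hx0 (by linarith only [hx']))
          (base i + t * ((x : ℝ) + 1)) (by nlinarith only [ht]) (by nlinarith only [ht, hx'])
        rw [Function.update_idem, Function.update_self] at h1
        have e1 : base i + t * ((x : ℝ) + 1) - (base i + t * x) = t := by ring
        rw [e1, abs_of_nonneg ht] at h1
        simp only [hf]
        push_cast
        exact h1
      have h1 := (abs_le.1 (hstep M le_rfl)).2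
      have h2 := (abs_le.1 (hstep 0 (Nat.zero_le M))).1
      linarith only [h1, h2]
  refine (Finset.sum_le_sum fun η _ => hb η).trans ?_
  rw [Finset.sum_const, nsmul_eq_mul, hcard]
  linarith

end Vale.Agent.P166.L
end
end
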