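import Mathlib
import Vale.Agent.P146.R3.X.B1
import Vale.Agent.P146.R3.X.B2
import Vale.Agent.P146.R3.X.K_JDefs
import Vale.Agent.P157.ParDefs
import Vale.Agent.P146.R3.X.B3

set_option linter.all false

section

section

/-!
Concentration of an observable from the second difference of the free energy, in one shot, with
an exterior average.
-/

open MeasureTheory ProbabilityTheory

namespace Vale.Agent.P166.U

open Vale.Agent.P157.Lv

variable {ι X : Type} [Fintype ι] [Fintype X] [Nonempty X] {S : Sy ι X} {V : (ι → ℝ) → X → ℝ}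

/-- The system with the energy `H + t V`. -/
def ptV (S : Sy ι X) (V : (ι → ℝ) → X → ℝ) (t : ℝ) : Sy ι X :=
  S.wH fun z x => S.H z x + t * V z x

lemma conc_nh_exp (hS : S.Reg) {t : ℝ} (hp : (ptV S V t).Reg) (m : ℝ) :
    Nh fun z x => Real.exp (m * (t * V z x)) := by
  intro x
  have h1 := (hS.lip_diff (H' := fun z x => S.H z x + t * V z x) hp x).exp_eg m
  have h2 : (fun z => Real.exp (m * (S.H z x + t * V z x - S.H z x))) =
      fun z => Real.exp (m * (t * V z x)) := by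
    funext z
    rw [add_sub_cancel_left]
  rw [← h2]
  exact h1

lemma conc_T_exp_le (hS : S.Reg) {t : ℝ} (hp : (ptV S V t).Reg) (z : ι → ℝ) :
    S.T 0 (fun z x => Real.exp (S.m 1 * (t * V z x))) z ≤
      Real.exp (S.m 1 * ((ptV S V t).lg 0 z - S.lg 0 z)) := by
  have h1 := hS.thermal (H' := fun z x => S.H z x + t * V z x) hp z
  have h2 : (fun z x => Real.exp (S.m 1 * (S.H z x + t * V z x - S.H z x))) =
      fun (z : ι → ℝ) (x : X) => Real.exp (S.m 1 * (t * V z x)) := by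
    funext z x
    rw [add_sub_cancel_left]
  simp only [add_sub_cancel_left] at h1
  have hm1 : 0 < S.m 1 := hS.pos
  rcases le_or_gt (S.T 0 (fun z x => Real.exp (S.m 1 * (t * V z x))) z) 0 with h | h
  · exact h.trans (Real.exp_pos _).le
  · rw [← Real.log_le_iff_le_exp h]
    have h3 : Real.log (S.T 0 (fun z x => Real.exp (S.m 1 * (t * V z x))) z) =
        S.m 1 * (1 / S.m 1 *
          Real.log (S.T 0 (fun z x => Real.exp (S.m 1 * (t * V z x))) z)) := by
      rw [← mul_assoc, mul_one_div_cancel hm1.ne', one_mul]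
    rw [h3]
    exact mul_le_mul_of_nonneg_left h1 hm1.le

lemma conc_abs_le (w C : ℝ) (hC : 0 < C) :
    |w| ≤ Real.log C - 1 + 1 / C * (Real.exp w + Real.exp (-w)) := by
  have h1 : Real.exp |w| ≤ Real.exp w + Real.exp (-w) := by
    rcases abs_cases w with ⟨h, _⟩ | ⟨h, _⟩
    · rw [h]
      linarith [Real.exp_pos (-w)]
    · rw [h]
      linarith [Real.exp_pos w]
  have h2 := Real.add_one_le_exp (|w| - Real.log C)
  have h3 : Real.exp (|w| - Real.log C) = 1 / C * Real.exp |w| := by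
    rw [Real.exp_sub, Real.exp_log hC]
    ring
  rw [h3] at h2
  have h4 : 1 / C * Real.exp |w| ≤ 1 / C * (Real.exp w + Real.exp (-w)) :=
    mul_le_mul_of_nonneg_left h1 (by positivity)
  linarith

lemma conc_exp_add_le (p q : ℝ) :
    Real.exp p + Real.exp q ≤ 2 * Real.exp ((p + q) / 2 + |p - q| / 2) := by
  have h1 : p ≤ (p + q) / 2 + |p - q| / 2 := by linarith [le_abs_self (p - q)]
  have h2 : q ≤ (p + q) / 2 + |p - q| / 2 := by linarith [neg_abs_le (p - q)]
  have h3 := Real.exp_le_exp.2 h1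
  have h4 := Real.exp_le_exp.2 h2
  linarith

lemma conc_T_abs_le (hS : S.Reg) (hV : Nh V) {t : ℝ} (hp : (ptV S V t).Reg)
    (hm : (ptV S V (-t)).Reg) (a : ℝ) (z : ι → ℝ) :
    S.T 0 (fun z x => |t * V z x - a|) z ≤ Real.log 2 / S.m 1 +
      ((ptV S V t).lg 0 z + (ptV S V (-t)).lg 0 z - 2 * S.lg 0 z) / 2 +
      |((ptV S V t).lg 0 z - (ptV S V (-t)).lg 0 z) / 2 - a| := by
  have hm1 : 0 < S.m 1 := hS.pos
  set Fp : ℝ := (ptV S V t).lg 0 z - S.lg 0 z with hFp
  set Fm : ℝ := (ptV S V (-t)).lg 0 z - S.lg 0 z with hFm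
  set C : ℝ := 2 * Real.exp (S.m 1 * ((Fp + Fm) / 2 + |(Fp - Fm) / 2 - a|)) with hCdef
  have hC : 0 < C := by positivity
  have hlogC : Real.log C = Real.log 2 + S.m 1 * ((Fp + Fm) / 2 + |(Fp - Fm) / 2 - a|) := by
    rw [hCdef, Real.log_mul two_ne_zero (Real.exp_pos _).ne', Real.log_exp]
  have hNp := conc_nh_exp hS hp (S.m 1)
  have hNm := conc_nh_exp hS hm (S.m 1)
  have hTp := conc_T_exp_le hS hp z
  have hTm := conc_T_exp_le hS hm z
  rw [← hFp] at hTp
  rw [← hFm] at hTm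
  -- pointwise inequality
  have hpt : ∀ (y : ι → ℝ) (x : X), |t * V y x - a| ≤
      (1 / S.m 1 * (Real.log C - 1) +
        1 / S.m 1 * (1 / C) * Real.exp (-(S.m 1 * a)) * Real.exp (S.m 1 * (t * V y x))) +
        1 / S.m 1 * (1 / C) * Real.exp (S.m 1 * a) * Real.exp (S.m 1 * (-t * V y x)) := by
    intro y x
    have h1 := conc_abs_le (S.m 1 * (t * V y x - a)) C hC
    rw [abs_mul, abs_of_pos hm1] at h1
    have h2 : Real.exp (S.m 1 * (t * V y x - a)) =
        Real.exp (-(S.m 1 * a)) * Real.exp (S.m 1 * (t * V y x)) := by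
      rw [← Real.exp_add]
      congr 1
      ring
    have h3 : Real.exp (-(S.m 1 * (t * V y x - a))) =
        Real.exp (S.m 1 * a) * Real.exp (S.m 1 * (-t * V y x)) := by
      rw [← Real.exp_add]
      congr 1
      ring
    rw [h2, h3] at h1
    have h4 := mul_le_mul_of_nonneg_left h1 (by positivity : 0 ≤ 1 / S.m 1)
    rw [← mul_assoc, one_div_mul_cancel hm1.ne', one_mul] at h4
    refine h4.trans (le_of_eq ?_)
    ring
  have hN1 : Nh (fun (_ : ι → ℝ) (_ : X) => 1 / S.m 1 * (Real.log C - 1)) :=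
    fun _ => EG.const _
  have hN2 : Nh (fun (y : ι → ℝ) (x : X) => 1 / S.m 1 * (1 / C) * Real.exp (-(S.m 1 * a)) *
      Real.exp (S.m 1 * (t * V y x))) := fun x => (hNp x).const_mul _
  have hN3 : Nh (fun (y : ι → ℝ) (x : X) => 1 / S.m 1 * (1 / C) * Real.exp (S.m 1 * a) *
      Real.exp (S.m 1 * (-t * V y x))) := fun x => (hNm x).const_mul _
  have hN0 : Nh (fun (y : ι → ℝ) (x : X) => |t * V y x - a|) :=
    fun x => (((hV x).const_mul t).sub (EG.const a)).abs
  have h0 : (0 : ℕ) ≤ S.K := Nat.zero_le _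
  have hmono := hS.T_mono h0 hN0 (fun x => ((hN1 x).add (hN2 x)).add (hN3 x)) hpt z
  rw [hS.T_add h0 (fun x => (hN1 x).add (hN2 x)) hN3, hS.T_add h0 hN1 hN2,
    hS.T_const h0, Sy.T_const_mul, Sy.T_const_mul] at hmono
  have h5 : 1 / S.m 1 * (1 / C) * Real.exp (-(S.m 1 * a)) *
      S.T 0 (fun z x => Real.exp (S.m 1 * (t * V z x))) z ≤
      1 / S.m 1 * (1 / C) * Real.exp (-(S.m 1 * a)) * Real.exp (S.m 1 * Fp) :=
    mul_le_mul_of_nonneg_left hTp (by positivity)
  have h6 : 1 / S.m 1 * (1 / C) * Real.exp (S.m 1 * a) *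
      S.T 0 (fun z x => Real.exp (S.m 1 * (-t * V z x))) z ≤
      1 / S.m 1 * (1 / C) * Real.exp (S.m 1 * a) * Real.exp (S.m 1 * Fm) :=
    mul_le_mul_of_nonneg_left hTm (by positivity)
  have h7 : Real.exp (S.m 1 * (Fp - a)) + Real.exp (S.m 1 * (Fm + a)) ≤ C := by
    refine (conc_exp_add_le _ _).trans (le_of_eq ?_)
    rw [hCdef]
    congr 2
    have e1 : S.m 1 * (Fp - a) - S.m 1 * (Fm + a) = S.m 1 * (2 * ((Fp - Fm) / 2 - a)) := by ring
    rw [e1, abs_mul, abs_of_pos hm1, abs_mul, abs_of_pos (two_pos (α := ℝ))]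
    ring
  have h8 : 1 / S.m 1 * (1 / C) * Real.exp (-(S.m 1 * a)) * Real.exp (S.m 1 * Fp) +
      1 / S.m 1 * (1 / C) * Real.exp (S.m 1 * a) * Real.exp (S.m 1 * Fm) ≤ 1 / S.m 1 := by
    have e1 : Real.exp (-(S.m 1 * a)) * Real.exp (S.m 1 * Fp) = Real.exp (S.m 1 * (Fp - a)) := by
      rw [← Real.exp_add]
      congr 1
      ring
    have e2 : Real.exp (S.m 1 * a) * Real.exp (S.m 1 * Fm) = Real.exp (S.m 1 * (Fm + a)) := by
      rw [← Real.exp_add]
      congr 1
      ring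
    rw [mul_assoc _ (Real.exp (-(S.m 1 * a))), mul_assoc _ (Real.exp (S.m 1 * a)), e1, e2,
      ← mul_add]
    have h9 : 1 / C * (Real.exp (S.m 1 * (Fp - a)) + Real.exp (S.m 1 * (Fm + a))) ≤ 1 := by
      rw [one_div, inv_mul_le_iff₀ hC, mul_one]
      exact h7
    rw [mul_assoc]
    calc 1 / S.m 1 * (1 / C * (Real.exp (S.m 1 * (Fp - a)) + Real.exp (S.m 1 * (Fm + a)))) ≤
        1 / S.m 1 * 1 := mul_le_mul_of_nonneg_left h9 (by positivity)
      _ = 1 / S.m 1 := mul_one _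
  have h10 : 1 / S.m 1 * (Real.log C - 1) + 1 / S.m 1 = Real.log 2 / S.m 1 +
      ((Fp + Fm) / 2 + |(Fp - Fm) / 2 - a|) := by
    rw [hlogC]
    field_simp
    ring
  have e3 : (ptV S V t).lg 0 z + (ptV S V (-t)).lg 0 z - 2 * S.lg 0 z = Fp + Fm := by
    rw [hFp, hFm]
    ring
  have e4 : (ptV S V t).lg 0 z - (ptV S V (-t)).lg 0 z = Fp - Fm := by
    rw [hFp, hFm]
    ring
  rw [e3, e4]
  linarith

/-- **Concentration, one system.** -/
theorem conc_point (hS : S.Reg) (hV : Nh V) {t : ℝ} (ht : 0 < t) (hp : (ptV S V t).Reg)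
    (hm : (ptV S V (-t)).Reg) (a : ℝ) :
    S.Ex (fun z x => |t * V z x - a|) ≤ Real.log 2 / S.m 1 +
      ((ptV S V t).fe + (ptV S V (-t)).fe - 2 * S.fe) / 2 +
      ∫ z, |((ptV S V t).lg 0 z - (ptV S V (-t)).lg 0 z) / 2 - a| ∂(gI ι) := by
  have hN0 : Nh (fun (y : ι → ℝ) (x : X) => |t * V y x - a|) :=
    fun x => (((hV x).const_mul t).sub (EG.const a)).abs
  rw [hS.Ex_eq_T hN0]
  have i1 := hp.integrable_lg (Nat.zero_le _)
  have i2 := hm.integrable_lg (Nat.zero_le _)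
  have i3 := hS.integrable_lg (Nat.zero_le _)
  have i4 : Integrable (fun z => ((ptV S V t).lg 0 z + (ptV S V (-t)).lg 0 z -
      2 * S.lg 0 z) / 2) (gI ι) := ((i1.add i2).sub (i3.const_mul 2)).div_const 2
  have i5 : Integrable (fun z => |((ptV S V t).lg 0 z - (ptV S V (-t)).lg 0 z) / 2 - a|)
      (gI ι) := (((i1.sub i2).div_const 2).sub (integrable_const a)).abs
  have i6 : Integrable (fun _ : ι → ℝ => Real.log 2 / S.m 1) (gI ι) := integrable_const _
  have h1 : ∫ z, S.T 0 (fun z x => |t * V z x - a|) z ∂(gI ι) ≤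
      ∫ z, (Real.log 2 / S.m 1 +
      ((ptV S V t).lg 0 z + (ptV S V (-t)).lg 0 z - 2 * S.lg 0 z) / 2 +
      |((ptV S V t).lg 0 z - (ptV S V (-t)).lg 0 z) / 2 - a|) ∂(gI ι) :=
    integral_mono (hS.eg_T (Nat.zero_le _) hN0).integrable ((i6.add i4).add i5)
      (fun z => conc_T_abs_le hS hV hp hm a z)
  refine h1.trans (le_of_eq ?_)
  have i7 : Integrable (fun z => Real.log 2 / S.m 1 + ((ptV S V t).lg 0 z +
      (ptV S V (-t)).lg 0 z - 2 * S.lg 0 z) / 2) (gI ι) := i6.add i4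
  have i8 : Integrable (fun z => (ptV S V t).lg 0 z + (ptV S V (-t)).lg 0 z) (gI ι) := i1.add i2
  have e : ∫ _ : ι → ℝ, Real.log 2 / S.m 1 ∂(gI ι) = Real.log 2 / S.m 1 := by simp
  rw [integral_add i7 i5, integral_add i6 i4, e, integral_div, integral_sub i8 (i3.const_mul 2),
    integral_add i1 i2, integral_const_mul]
  rfl

/-- If the energy does not depend on the coordinates of level zero, the value `lg 0` is
constant. -/
theorem lg_zero_const (hS : S.Reg) (h : ∀ (x : X) (z z' : ι → ℝ),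
    (∀ e, S.lev e ≠ 0 → z e = z' e) → S.H z x = S.H z' x) (z : ι → ℝ) :
    S.lg 0 z = S.fe := by
  have key : ∀ l ≤ S.K, ∀ z z' : ι → ℝ, (∀ e, S.lev e ≠ 0 → z e = z' e) →
      S.lg l z = S.lg l z' := by
    refine Sy.down_ind ?_ ?_
    · intro z z' hz
      rw [Sy.lg_top]
      unfold Sy.top
      congr 1
      exact Finset.sum_congr rfl fun x _ => by rw [h x z z' hz]
    · intro l hl ih z z' hz
      rw [Sy.lg_step S hl]
      unfold Sy.stp J
      congr 2
      refine integral_congr_ae (Filter.Eventually.of_forall fun w => ?_)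
      dsimp only
      rw [ih (mix S.lev l z w) (mix S.lev l z' w) fun e he => ?_]
      unfold mix
      rw [hz e he]
  have h0 : (0 : ℕ) ≤ S.K := Nat.zero_le _
  have h1 : ∀ z', S.lg 0 z' = S.lg 0 z := by
    intro z'
    have h2 := hS.dep_lg h0 z' 0
    have h3 := hS.dep_lg h0 z 0
    rw [← h2, ← h3]
    refine key 0 h0 _ _ fun e he => ?_
    unfold mix
    rw [if_neg (by omega), if_neg (by omega)]
  unfold Sy.fe
  simp only [h1]
  simp

/-- **Concentration with an exterior average.** `fp`, `fm`, `f0` are the mean free energies of the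
systems `H + t V`, `H - t V`, `H`; `A` bounds the mean absolute deviations. -/
theorem conc_avg {Ω : Type} [MeasurableSpace Ω] {μ : Measure Ω} [IsProbabilityMeasure μ]
    {S : Ω → Sy ι X} {V : Ω → (ι → ℝ) → X → ℝ} {m1 : ℝ} (hm1 : ∀ ω, (S ω).m 1 = m1)
    (hS : ∀ ω, (S ω).Reg) (hV : ∀ ω, Nh (V ω)) {t : ℝ} (ht : 0 < t)
    (hp : ∀ ω, (ptV (S ω) (V ω) t).Reg) (hm : ∀ ω, (ptV (S ω) (V ω) (-t)).Reg)
    (h0 : Integrable (fun ω => (S ω).fe) μ)
    (h1 : Integrable (fun ω => (ptV (S ω) (V ω) t).fe) μ)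
    (h2 : Integrable (fun ω => (ptV (S ω) (V ω) (-t)).fe) μ) {A : ℝ}
    (h3 : Integrable (fun ω => ∫ z, |(ptV (S ω) (V ω) t).lg 0 z -
      ∫ ω, (ptV (S ω) (V ω) t).fe ∂μ| ∂(gI ι)) μ)
    (h4 : Integrable (fun ω => ∫ z, |(ptV (S ω) (V ω) (-t)).lg 0 z -
      ∫ ω, (ptV (S ω) (V ω) (-t)).fe ∂μ| ∂(gI ι)) μ)
    (h5 : ∫ ω, ∫ z, |(ptV (S ω) (V ω) t).lg 0 z -
      ∫ ω, (ptV (S ω) (V ω) t).fe ∂μ| ∂(gI ι) ∂μ ≤ A)
    (h6 : ∫ ω, ∫ z, |(ptV (S ω) (V ω) (-t)).lg 0 z -
      ∫ ω, (ptV (S ω) (V ω) (-t)).fe ∂μ| ∂(gI ι) ∂μ ≤ A) :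
    ∫ ω, (S ω).Ex (fun z x => |V ω z x - (∫ ω, (ptV (S ω) (V ω) t).fe ∂μ -
      ∫ ω, (ptV (S ω) (V ω) (-t)).fe ∂μ) / (2 * t)|) ∂μ ≤
      1 / t * (Real.log 2 / m1 + (∫ ω, (ptV (S ω) (V ω) t).fe ∂μ +
        ∫ ω, (ptV (S ω) (V ω) (-t)).fe ∂μ - 2 * ∫ ω, (S ω).fe ∂μ) / 2 + A) := by
  set fp : ℝ := ∫ ω, (ptV (S ω) (V ω) t).fe ∂μ with hfp
  set fm : ℝ := ∫ ω, (ptV (S ω) (V ω) (-t)).fe ∂μ with hfm
  set a : ℝ := (fp - fm) / 2 with ha
  set P : Ω → ℝ := fun ω => ∫ z, |(ptV (S ω) (V ω) t).lg 0 z - fp| ∂(gI ι) with hP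
  set M : Ω → ℝ := fun ω => ∫ z, |(ptV (S ω) (V ω) (-t)).lg 0 z - fm| ∂(gI ι) with hM
  have hNV : ∀ ω (b : ℝ), Nh (fun (y : ι → ℝ) (x : X) => |V ω y x - b|) :=
    fun ω b x => ((hV ω x).sub (EG.const b)).abs
  have hpt : ∀ ω, (S ω).Ex (fun z x => |V ω z x - (fp - fm) / (2 * t)|) ≤
      1 / t * (Real.log 2 / m1 + ((ptV (S ω) (V ω) t).fe + (ptV (S ω) (V ω) (-t)).fe -
        2 * (S ω).fe) / 2 + (P ω + M ω) / 2) := by
    intro ω
    have e1 : (fun (z : ι → ℝ) (x : X) => |V ω z x - (fp - fm) / (2 * t)|) =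
        fun z x => 1 / t * |t * V ω z x - a| := by
      funext z x
      rw [← abs_of_pos (by positivity : 0 < 1 / t), ← abs_mul]
      congr 1
      rw [ha]
      field_simp
    rw [e1, Sy.Ex_const_mul]
    refine mul_le_mul_of_nonneg_left ?_ (by positivity)
    have h7 := conc_point (hS ω) (hV ω) ht (hp ω) (hm ω) a
    rw [hm1 ω] at h7
    refine h7.trans (add_le_add le_rfl ?_)
    have i1 := (hp ω).integrable_lg (Nat.zero_le _)
    have i2 := (hm ω).integrable_lg (Nat.zero_le _)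
    have i3 : Integrable (fun z => |(ptV (S ω) (V ω) t).lg 0 z - fp|) (gI ι) :=
      (i1.sub (integrable_const fp)).abs
    have i4 : Integrable (fun z => |(ptV (S ω) (V ω) (-t)).lg 0 z - fm|) (gI ι) :=
      (i2.sub (integrable_const fm)).abs
    have i5 : Integrable (fun z => |((ptV (S ω) (V ω) t).lg 0 z -
      (ptV (S ω) (V ω) (-t)).lg 0 z) / 2 - a|) (gI ι) :=
      (((i1.sub i2).div_const 2).sub (integrable_const a)).abs
    have h8 : ∫ z, |((ptV (S ω) (V ω) t).lg 0 z - (ptV (S ω) (V ω) (-t)).lg 0 z) / 2 - a|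
        ∂(gI ι) ≤ ∫ z, (|(ptV (S ω) (V ω) t).lg 0 z - fp| +
          |(ptV (S ω) (V ω) (-t)).lg 0 z - fm|) / 2 ∂(gI ι) := by
      refine integral_mono i5 ((i3.add i4).div_const 2) fun z => ?_
      have e2 : ((ptV (S ω) (V ω) t).lg 0 z - (ptV (S ω) (V ω) (-t)).lg 0 z) / 2 - a =
          ((ptV (S ω) (V ω) t).lg 0 z - fp) / 2 -
            ((ptV (S ω) (V ω) (-t)).lg 0 z - fm) / 2 := by
        rw [ha]
        ring
      dsimp only
      rw [e2]
      refine (abs_sub _ _).trans (le_of_eq ?_)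
      rw [abs_div, abs_div, abs_of_pos (two_pos (α := ℝ))]
      ring
    refine h8.trans (le_of_eq ?_)
    rw [integral_div, integral_add i3 i4]
  have ig : Integrable (fun ω => 1 / t * (Real.log 2 / m1 + ((ptV (S ω) (V ω) t).fe +
      (ptV (S ω) (V ω) (-t)).fe - 2 * (S ω).fe) / 2 + (P ω + M ω) / 2)) μ :=
    (((integrable_const _).add (((h1.add h2).sub (h0.const_mul 2)).div_const 2)).add
      ((h3.add h4).div_const 2)).const_mul _
  have hmono := integral_mono_of_nonneg (μ := μ)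
    (f := fun ω => (S ω).Ex (fun z x => |V ω z x - (fp - fm) / (2 * t)|))
    (g := fun ω => 1 / t * (Real.log 2 / m1 + ((ptV (S ω) (V ω) t).fe +
      (ptV (S ω) (V ω) (-t)).fe - 2 * (S ω).fe) / 2 + (P ω + M ω) / 2))
    (Filter.Eventually.of_forall fun ω => by
      have h9 := (hS ω).Ex_mono (f := fun _ _ => 0) (fun _ => EG.const _)
        (hNV ω ((fp - fm) / (2 * t))) (fun z x => abs_nonneg _)
      rw [(hS ω).Ex_const] at h9
      exact h9) ig (Filter.Eventually.of_forall hpt)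
  refine hmono.trans ?_
  rw [integral_const_mul]
  refine mul_le_mul_of_nonneg_left ?_ (by positivity)
  have i1 : Integrable (fun ω => ((ptV (S ω) (V ω) t).fe + (ptV (S ω) (V ω) (-t)).fe -
      2 * (S ω).fe) / 2) μ := ((h1.add h2).sub (h0.const_mul 2)).div_const 2
  have i2 : Integrable (fun ω => (P ω + M ω) / 2) μ := (h3.add h4).div_const 2
  have i3 : Integrable (fun _ : Ω => Real.log 2 / m1) μ := integrable_const _
  have i4 : Integrable (fun ω => Real.log 2 / m1 + ((ptV (S ω) (V ω) t).fe +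
      (ptV (S ω) (V ω) (-t)).fe - 2 * (S ω).fe) / 2) μ := i3.add i1
  have i5 : Integrable (fun ω => (ptV (S ω) (V ω) t).fe + (ptV (S ω) (V ω) (-t)).fe) μ :=
    h1.add h2
  have e : ∫ _ : Ω, Real.log 2 / m1 ∂μ = Real.log 2 / m1 := by simp
  rw [integral_add i4 i2, integral_add i3 i1, e, integral_div, integral_sub i5 (h0.const_mul 2),
    integral_add h1 h2, integral_const_mul, integral_div, integral_add h3 h4]
  have h10 : ∫ ω, P ω ∂μ ≤ A := h5
  have h11 : ∫ ω, M ω ∂μ ≤ A := h6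
  linarith

end Vale.Agent.P166.U
end
end

section

section

/-!
From concentrated fields and self-overlaps to the deviations (synchronization with an
exterior average).
-/

open MeasureTheory ProbabilityTheory Matrix Filter Topology

namespace Vale.Agent.P166.U

open Vale.Agent.P157.Lv Vale.Agent.P157.Par Md

set_option linter.unusedSectionVars false

/-- The fields are bounded in mean, by a number which only depends on their strength. -/
theorem d1_abs_hk {ι X : Type} [Fintype ι] [DecidableEq ι] [Fintype X] [DecidableEq X]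
    [Nonempty X] {S : Sy ι X} {D : ι → (ι → ℝ) → X → ℝ} {N : ℕ} {φ : X → Fin N → ℝ}
    {zc : ℕ → Fin N → ι} {A : Finset (Fin N)} {u : ℕ → ℝ} (F : BFld S D φ zc A u) {j : ℕ}
    (hj : j ≤ S.K) : S.Ex (fun z x => |hk φ zc A j z x|) ≤ 1 + 2 * |u j| := by
  have hS := F.sy_reg
  have hN := F.sy_Npos
  set a := S.Ex (fun z x => |hk φ zc A j z x|) with ha
  have nh : Nh (hk φ zc A j) := BFld.sy_nh_hk j
  have n0 : Nh (ι := ι) (X := X) (fun _ _ => (0 : ℝ)) := Sy.Nh.snd fun _ => 0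
  have a0 : 0 ≤ a := by
    rw [ha, ← hS.Ex_const 0]
    exact hS.Ex_mono n0 (Sy.Nh.abs nh) fun z x => abs_nonneg _
  have nw : ∀ i : Fin N, Nh (ι := ι) (X := X) (fun _ x => 1 / (N : ℝ) * ∑ b ∈ A,
      (if zc j b = zc j i then 1 else 0) * φ x b) := fun i => Sy.Nh.snd fun x => _
  have h1 := F.sy_Ex_hk_mul hj (w := hk φ zc A j)
    (w' := fun i _ x => 1 / N * ∑ b ∈ A, (if zc j b = zc j i then 1 else 0) * φ x b)
    (fun i _ x => ((PD.sum A fun b _ => (PD.coord (zc j b)).mul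
      (PD.const (φ x b))).const_mul (1 / (N : ℝ))).congr fun y => by simp only [one_div, ite_mul, one_mul, zero_mul, mul_zero, add_zero]) nh nw
  have t1 : S.Ex (fun z x => 1 / N * ∑ i ∈ A, φ x i *
      ((fun (i : Fin N) (_ : ι → ℝ) (x : X) => 1 / (N : ℝ) * ∑ b ∈ A,
        (if zc j b = zc j i then 1 else 0) * φ x b) i z x)) ≤ 1 := by
    refine (hS.Ex_mono (Sy.Nh.snd fun x => _) (Sy.Nh.snd fun _ => 1) fun z x => ?_).trans
      (hS.Ex_const 1).le
    have hb : ∀ i ∈ A, φ x i * (1 / (N : ℝ) * ∑ b ∈ A,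
        (if zc j b = zc j i then 1 else 0) * φ x b) ≤ |φ x i| * (1 / N * ∑ b ∈ A, |φ x b|) := by
      intro i _
      refine (le_abs_self _).trans ?_
      rw [abs_mul, abs_mul, abs_of_nonneg (by (clear * - hN; positivity) : (0 : ℝ) ≤ 1 / N)]
      refine mul_le_mul_of_nonneg_left (mul_le_mul_of_nonneg_left ?_ (by (clear * - hN; positivity)))
        (abs_nonneg _)
      refine (Finset.abs_sum_le_sum_abs _ _).trans (Finset.sum_le_sum fun b _ => ?_)
      rw [abs_mul]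
      refine mul_le_of_le_one_left (abs_nonneg _) ?_
      split_ifs <;> simp
    have hs := Finset.sum_le_sum hb
    have hq : (∑ b ∈ A, |φ x b|) ^ 2 ≤ N * N := by
      refine (sq_sum_le_card_mul_sum_sq).trans ?_
      have c1 : (A.card : ℝ) ≤ N := by
        have := Finset.card_le_univ A
        rw [Fintype.card_fin] at this
        exact_mod_cast this
      have c2 : ∑ b ∈ A, |φ x b| ^ 2 ≤ N := by
        simp only [sq_abs]
        exact F.norm x
      exact mul_le_mul c1 c2 (Finset.sum_nonneg fun b _ => sq_nonneg _) hN.le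
    rw [← Finset.sum_mul] at hs
    calc 1 / (N : ℝ) * ∑ i ∈ A, φ x i * (1 / (N : ℝ) * ∑ b ∈ A,
          (if zc j b = zc j i then 1 else 0) * φ x b)
        ≤ 1 / (N : ℝ) * ((∑ i ∈ A, |φ x i|) * (1 / N * ∑ b ∈ A, |φ x b|)) :=
          mul_le_mul_of_nonneg_left hs (by positivity)
      _ = (∑ b ∈ A, |φ x b|) ^ 2 / (N * N) := by
          (clear * - hN; field_simp)
      _ ≤ 1 := by
          rw [div_le_one (by positivity)]
          exact hq
  have t2 : |S.Ex (fun z x => hk φ zc A j z x * Rk φ A x x)| ≤ a := by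
    have n1 : Nh (fun z x => hk φ zc A j z x * Rk φ A x x) := Sy.Nh.mul nh BFld.sy_nh_Rk
    refine (hS.abs_Ex_le n1).trans (hS.Ex_mono (Sy.Nh.abs n1) (Sy.Nh.abs nh) fun z x => ?_)
    rw [abs_mul]
    exact mul_le_of_le_one_right (abs_nonneg _) (F.abs_Rk_le x x)
  have t3 : ∀ i ∈ Finset.Ico j (S.K + 1),
      |S.Ex (fun z x => hk φ zc A j z x * ov S φ A i z x)| ≤ a := by
    intro i hi
    have hiK : i ≤ S.K := by
      have := (Finset.mem_Ico.mp hi).2
      omega
    have n1 : Nh (fun z x => hk φ zc A j z x * ov S φ A i z x) :=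
      Sy.Nh.mul nh (BFld.sy_nh_ov hS hiK)
    refine (hS.abs_Ex_le n1).trans (hS.Ex_mono (Sy.Nh.abs n1) (Sy.Nh.abs nh) fun z x => ?_)
    rw [abs_mul]
    exact mul_le_of_le_one_right (abs_nonneg _) (F.sy_abs_ov_le hiK z x)
  have t4 : |∑ i ∈ Finset.Ico j (S.K + 1), S.p i *
      S.Ex (fun z x => hk φ zc A j z x * ov S φ A i z x)| ≤ a := by
    have hp : ∀ i ∈ Finset.Ico j (S.K + 1), 0 ≤ S.p i := by
      intro i hi
      have := (Finset.mem_Ico.mp hi).2
      rw [Sy.p]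
      linarith only [hS.mono i (by omega)]
    calc |∑ i ∈ Finset.Ico j (S.K + 1), S.p i *
          S.Ex (fun z x => hk φ zc A j z x * ov S φ A i z x)|
        ≤ ∑ i ∈ Finset.Ico j (S.K + 1), |S.p i *
          S.Ex (fun z x => hk φ zc A j z x * ov S φ A i z x)| := Finset.abs_sum_le_sum_abs _ _
      _ ≤ ∑ i ∈ Finset.Ico j (S.K + 1), S.p i * a := Finset.sum_le_sum fun i hi => by
          rw [abs_mul, abs_of_nonneg (hp i hi)]
          exact mul_le_mul_of_nonneg_left (t3 i hi) (hp i hi)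
      _ = (1 - S.m j) * a := by rw [← Finset.sum_mul, m3_sum_p hS hj]
      _ ≤ a := mul_le_of_le_one_left a0 (by linarith only [m3_m_nonneg hS j hj])
  have t5 : S.Ex (fun z x => hk φ zc A j z x * hk φ zc A j z x) ≤ 1 + |u j| * (a + a) := by
    rw [h1]
    refine add_le_add t1 ((le_abs_self _).trans ?_)
    rw [abs_mul]
    refine mul_le_mul_of_nonneg_left ?_ (abs_nonneg _)
    exact (abs_sub _ _).trans (add_le_add t2 t4)
  have t6 : a ^ 2 ≤ S.Ex (fun z x => hk φ zc A j z x * hk φ zc A j z x) := by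
    have h2 := hS.Ex_cs (Sy.Nh.abs nh) (g := fun _ _ => 1) (Sy.Nh.snd fun _ => 1)
    simp only [mul_one, one_pow, hS.Ex_const, sq_abs] at h2
    have e : (fun (z : ι → ℝ) (x : X) => hk φ zc A j z x * hk φ zc A j z x) =
        fun z x => hk φ zc A j z x ^ 2 := by
      funext z x
      ring
    rw [e]
    exact h2
  by_contra hcon
  push Not at hcon
  have hu0 := abs_nonneg (u j)
  nlinarith only [t5, t6, hcon, hu0]

section point

variable {N K κ : ℕ} {m : ℕ → ℝ} {c : Fin N → Fin κ} {P : Pm κ}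
  {U : Matrix (Fin N) (Fin N) ℝ}

theorem d1_Rb (k : Fin κ) : Rb c U k = Rk (ph U) (blk c k) := by
  funext x x'
  exact Rb_eq k x x'

theorem d1_hb (k : Fin κ) (l : ℕ) :
    (hb c U k l : (Ix N K → ℝ) → (Fin N → Bool) → ℝ) = hk (ph U) bco (blk c k) l := by
  funext z x
  exact hb_eq k l z x

/-- The deviation of the overlap for one matrix. -/
theorem d1_point (hN : 0 < N) (hm : Exponents K m) (hU : U ∈ orthogonalGroup (Fin N) ℝ)
    {σ π : ℝ} (hσ : 0 < σ) (hσ1 : σ ≤ 1) (hπ : 0 < π) (hp : ∀ l ≤ K, π ≤ m (l + 1) - m l)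
    (k : Fin κ) (hu : ∀ l, 1 ≤ l → l ≤ K → σ ≤ P.u k l) {e ρ : ℝ} {C : ℕ → ℝ} (he : 0 ≤ e)
    (hρ : (mdl K m c P U).Ex (fun _ x => |Rb c U k x x - ρ|) ≤ e)
    (hc : ∀ l, 1 ≤ l → l ≤ K → (mdl K m c P U).Ex (fun z x => |hb c U k l z x - C l|) ≤ e)
    {l : ℕ} (hl0 : 1 ≤ l) (hl : l < K) (r : ℝ) :
    (mdl K m c P U).pairEx l (fun x x' => |Rb c U k x x' - r|) ≤
      √(2 * ((mdl K m c P U).pairEx (l + 1) (Rb c U k) - (mdl K m c P U).pairEx l (Rb c U k)) +
        100 * e / (σ * π)) + |(mdl K m c P U).pairEx l (Rb c U k) - r| := by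
  have F := mdl_bfld (c := c) (P := P) hm hN hU k
  have hS : (mdl K m c P U).Reg := (mdl_regD hm).toReg
  have hlK : l ≤ (mdl K m c P U).K := hl.le
  simp only [d1_hb] at hc
  rw [d1_Rb] at hρ ⊢
  have h1 := F.sync he hσ hσ1 hu hπ hp hρ (fun l h1 h2 => ⟨C l, hc l h1 h2⟩) hl0 hl
  set R := (mdl K m c P U).pairEx l (Rk (ph U) (blk c k)) with hR
  have h2 := (hS.pairEx_abs_le hlK (fun x x' => Rk (ph U) (blk c k) x x' - R)).trans
    (Real.sqrt_le_sqrt h1)
  have h3 : (mdl K m c P U).pairEx l (fun x x' => |Rk (ph U) (blk c k) x x' - r|) ≤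
      (mdl K m c P U).pairEx l (fun x x' => |Rk (ph U) (blk c k) x x' - R| + |R - r|) :=
    hS.pairEx_mono hlK fun x x' => abs_sub_le _ _ _
  rw [hS.pairEx_add hlK (fun x x' => |Rk (ph U) (blk c k) x x' - R|) (fun _ _ => |R - r|),
    hS.pairEx_const hlK] at h3
  linarith only [h2, h3]

theorem d1_close (hN : 0 < N) (hm : Exponents K m) (hU : U ∈ orthogonalGroup (Fin N) ℝ)
    {σ π : ℝ} (hσ : 0 < σ) (hπ : 0 < π) (hp : ∀ l ≤ K, π ≤ m (l + 1) - m l)
    (k : Fin κ) (hu : ∀ l, 1 ≤ l → l ≤ K → σ ≤ P.u k l) {e : ℝ} {C : ℕ → ℝ}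
    (hc : ∀ l, 1 ≤ l → l ≤ K → (mdl K m c P U).Ex (fun z x => |hb c U k l z x - C l|) ≤ e)
    {l : ℕ} (hl0 : 1 ≤ l) (hl : l < K) :
    |(mdl K m c P U).pairEx l (Rb c U k) -
      (C (l + 1) / P.u k (l + 1) - C l / P.u k l) / (m (l + 1) - m l)| ≤ 2 * e / (σ * π) := by
  have F := mdl_bfld (c := c) (P := P) hm hN hU k
  simp only [d1_hb] at hc
  rw [d1_Rb]
  exact F.pairEx_close hσ hπ hp hu hc hl0 hl

end point

section average

variable {N K κ : ℕ} {m : ℕ → ℝ} {c : Fin N → Fin κ} {P : Pm κ}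
  [MeasurableSpace (orthogonalGroup (Fin N) ℝ)] [BorelSpace (orthogonalGroup (Fin N) ℝ)]
  {ν : Measure (orthogonalGroup (Fin N) ℝ)} [IsProbabilityMeasure ν]

theorem d1_self_bound (hm : Exponents K m) (hN : 0 < N) (U : orthogonalGroup (Fin N) ℝ)
    (k : Fin κ) (C : ℝ) :
    (mdl K m c P U.1).Ex (fun _ x => |Rb c U.1 k x x - C|) ≤ 1 + |C| := by
  have hS : (mdl K m c P U.1).Reg := (mdl_regD hm).toReg
  rw [← hS.Ex_const (1 + |C|)]
  refine hS.Ex_mono (Sy.Nh.snd fun x => |Rb c U.1 k x x - C|) (Sy.Nh.snd fun _ => 1 + |C|)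
    fun _ x => ?_
  exact (abs_sub _ _).trans (add_le_add
    (m2_Rb_abs (K := K) (m := m) (c := c) P hm hN U.2 k x x) le_rfl)

theorem d1_self_nonneg (hm : Exponents K m) (U : orthogonalGroup (Fin N) ℝ)
    (k : Fin κ) (C : ℝ) : 0 ≤ (mdl K m c P U.1).Ex (fun _ x => |Rb c U.1 k x x - C|) := by
  have hS : (mdl K m c P U.1).Reg := (mdl_regD hm).toReg
  rw [← hS.Ex_const 0]
  exact hS.Ex_mono (Sy.Nh.snd fun _ => 0) (Sy.Nh.snd fun x => |Rb c U.1 k x x - C|)
    fun _ x => abs_nonneg _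

theorem d1_int_self (hm : Exponents K m) (hN : 0 < N) (k : Fin κ) (C : ℝ) :
    Integrable (fun U : orthogonalGroup (Fin N) ℝ =>
      (mdl K m c P U.1).Ex (fun _ x => |Rb c U.1 k x x - C|)) ν := by
  refine m3_integrable_Ex (h := fun U _ x => |Rb c U.1 k x x - C|) (C := 1 + |C|) (fun x => ?_)
    fun U => ?_
  · exact (((meas_Rb k x x).comp measurable_fst).sub_const C).abs
  · rw [abs_of_nonneg (d1_self_nonneg hm U k C)]
    exact d1_self_bound hm hN U k C

theorem d1_hb_nonneg (hm : Exponents K m) (U : orthogonalGroup (Fin N) ℝ)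
    (k : Fin κ) (l : ℕ) (C : ℝ) :
    0 ≤ (mdl K m c P U.1).Ex (fun z x => |hb c U.1 k l z x - C|) := by
  have hS : (mdl K m c P U.1).Reg := (mdl_regD hm).toReg
  rw [← hS.Ex_const 0]
  exact hS.Ex_mono (Sy.Nh.snd fun _ => 0)
    (Sy.Nh.abs (Sy.Nh.sub (mdl_nh_hb k l) (Sy.Nh.snd fun _ => C))) fun z x => abs_nonneg _

theorem d1_int_hb (hm : Exponents K m) (hN : 0 < N) (k : Fin κ) {l : ℕ} (hl : l ≤ K) (C : ℝ) :
    Integrable (fun U : orthogonalGroup (Fin N) ℝ =>
      (mdl K m c P U.1).Ex (fun z x => |hb c U.1 k l z x - C|)) ν := by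
  refine m3_integrable_Ex (h := fun U z x => |hb c U.1 k l z x - C|)
    (C := 1 + 2 * |P.u k l| + |C|) (fun x => ((meas_hb k l x).sub_const C).abs) fun U => ?_
  rw [abs_of_nonneg (d1_hb_nonneg hm U k l C)]
  have hS : (mdl K m c P U.1).Reg := (mdl_regD hm).toReg
  have F := mdl_bfld (c := c) (P := P) hm hN U.2 k
  have nh : Nh (hb c U.1 k l : (Ix N K → ℝ) → (Fin N → Bool) → ℝ) := mdl_nh_hb k l
  have h1 := d1_abs_hk F (j := l) hl
  rw [← d1_hb] at h1
  have h2 : (mdl K m c P U.1).Ex (fun z x => |hb c U.1 k l z x - C|) ≤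
      (mdl K m c P U.1).Ex (fun z x => |hb c U.1 k l z x| + |C|) :=
    hS.Ex_mono (Sy.Nh.abs (Sy.Nh.sub nh (Sy.Nh.snd fun _ => C)))
      (Sy.Nh.add (Sy.Nh.abs nh) (Sy.Nh.snd fun _ => |C|)) fun z x => abs_sub _ _
  rw [hS.Ex_add (Sy.Nh.abs nh) (Sy.Nh.snd fun _ => |C|), hS.Ex_const] at h2
  linarith only [h1, h2]

theorem d1_pair_nonneg (hm : Exponents K m) (U : orthogonalGroup (Fin N) ℝ)
    (k : Fin κ) {l : ℕ} (hl : l ≤ K) (r : ℝ) :
    0 ≤ (mdl K m c P U.1).pairEx l (fun x x' => |Rb c U.1 k x x' - r|) := by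
  have hS : (mdl K m c P U.1).Reg := (mdl_regD hm).toReg
  exact hS.pairEx_nonneg hl fun x x' => abs_nonneg _

theorem d1_pair_bound (hm : Exponents K m) (hN : 0 < N) (U : orthogonalGroup (Fin N) ℝ)
    (k : Fin κ) {l : ℕ} (hl : l ≤ K) (r : ℝ) :
    (mdl K m c P U.1).pairEx l (fun x x' => |Rb c U.1 k x x' - r|) ≤ 1 + |r| := by
  have hS : (mdl K m c P U.1).Reg := (mdl_regD hm).toReg
  have hl' : l ≤ (mdl K m c P U.1).K := hl
  rw [← hS.pairEx_const hl' (1 + |r|)]
  exact hS.pairEx_mono hl' fun x x' => (abs_sub _ _).trans (add_le_add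
    (m2_Rb_abs (K := K) (m := m) (c := c) P hm hN U.2 k x x') le_rfl)

theorem d1_int_pair (hm : Exponents K m) (hN : 0 < N) (k : Fin κ) {l : ℕ} (hl : l ≤ K) (r : ℝ) :
    Integrable (fun U : orthogonalGroup (Fin N) ℝ =>
      (mdl K m c P U.1).pairEx l (fun x x' => |Rb c U.1 k x x' - r|)) ν := by
  refine integrable_of_bdd ?_ (C := 1 + |r|) fun U => ?_
  · exact meas_pairEx (S := (⟨lvl, K, m, fun _ _ => 0⟩ : Sy (Ix N K) (Fin N → Bool)))
      (H := fun U : orthogonalGroup (Fin N) ℝ => Md.en c P U.1) (fun x => meas_en x)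
      (ψ := fun U x x' => |Rb c U.1 k x x' - r|)
      (fun x x' => ((meas_Rb k x x').sub_const r).abs) l
  · rw [abs_of_nonneg (d1_pair_nonneg hm U k hl r)]
    exact d1_pair_bound hm hN U k hl r

/-- Jensen for the square root. -/
theorem d1_jensen {Ω : Type} [MeasurableSpace Ω] {μ : Measure Ω} [IsProbabilityMeasure μ]
    {f : Ω → ℝ} (hf : Integrable f μ) (h0 : ∀ ω, 0 ≤ f ω) (hs : Integrable (fun ω => √(f ω)) μ) :
    ∫ ω, √(f ω) ∂μ ≤ √(∫ ω, f ω ∂μ) :=
  Real.strictConcaveOn_sqrt.concaveOn.le_map_integral Real.continuous_sqrt.continuousOn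
    isClosed_Ici (Eventually.of_forall h0) hf hs

end average

/-- Sums of square roots with small weights. -/
theorem d1_sum_sqrt {n : ℕ} {p r : ℕ → ℝ} {δ : ℝ} (hδ : 0 < δ) (hp : ∀ i < n, 0 ≤ p i)
    (hpδ : ∀ i < n, p i ≤ δ) (hs : ∑ i ∈ Finset.range n, p i ≤ 1)
    (hr : ∀ i < n, r i ≤ r (i + 1)) (h1 : r n - r 0 ≤ 1) :
    ∑ i ∈ Finset.range n, p i * √(2 * (r (i + 1) - r i)) ≤ √(2 * δ) := by
  set s := √(2 * δ) with hs'
  have s0 : 0 < s := Real.sqrt_pos.2 (by linarith only [hδ])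
  have s2 : s ^ 2 = 2 * δ := Real.sq_sqrt (by linarith only [hδ])
  have key : ∀ i ∈ Finset.range n, p i * √(2 * (r (i + 1) - r i)) ≤
      p i * (s / 2) + δ / s * (r (i + 1) - r i) := by
    intro i hi
    have hi' := Finset.mem_range.1 hi
    have d0 : 0 ≤ r (i + 1) - r i := sub_nonneg.2 (hr i hi')
    have h2 : √(2 * (r (i + 1) - r i)) ≤ s / 2 + (r (i + 1) - r i) / s := by
      have h3 : √(2 * (r (i + 1) - r i)) ^ 2 = 2 * (r (i + 1) - r i) :=
        Real.sq_sqrt (by linarith only [d0])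
      have h4 := sq_nonneg (√(2 * (r (i + 1) - r i)) - s)
      have h5 : s / 2 + (r (i + 1) - r i) / s = (s ^ 2 + 2 * (r (i + 1) - r i)) / (2 * s) := by
        (clear * - s0 d0; field_simp)
      rw [h5, le_div_iff₀ (by positivity)]
      linarith
    have h6 := mul_le_mul_of_nonneg_left h2 (hp i hi')
    have h7 : p i * ((r (i + 1) - r i) / s) ≤ δ * ((r (i + 1) - r i) / s) :=
      mul_le_mul_of_nonneg_right (hpδ i hi') (div_nonneg d0 s0.le)
    have h8 : δ * ((r (i + 1) - r i) / s) = δ / s * (r (i + 1) - r i) := by ring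
    rw [mul_add] at h6
    linarith only [h6, h7, h8]
  refine (Finset.sum_le_sum key).trans ?_
  rw [Finset.sum_add_distrib, ← Finset.sum_mul, ← Finset.mul_sum, Finset.sum_range_sub]
  have h9 : δ / s = s / 2 := by
    rw [div_eq_div_iff s0.ne' two_ne_zero]
    linarith only [s2]
  rw [h9]
  have h10 : (∑ i ∈ Finset.range n, p i) * (s / 2) ≤ 1 * (s / 2) :=
    mul_le_mul_of_nonneg_right hs (by linarith only [s0])
  have h11 : s / 2 * (r n - r 0) ≤ s / 2 * 1 := mul_le_mul_of_nonneg_left h1 (by linarith only [s0])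
  linarith

/-- From concentrated fields and self-overlaps to the deviations. -/
theorem dev_of_conc {N K κ : ℕ} {m : ℕ → ℝ} {c : Fin N → Fin κ} {P : Pm κ}
    [MeasurableSpace (orthogonalGroup (Fin N) ℝ)] [BorelSpace (orthogonalGroup (Fin N) ℝ)]
    {ν : Measure (orthogonalGroup (Fin N) ℝ)} [IsProbabilityMeasure ν]
    (hN : 0 < N) (hm : Exponents K m) {σ π δ ε : ℝ} (hσ : 0 < σ) (hσ1 : σ ≤ 1) (hπ : 0 < π)
    (hp : ∀ l ≤ K, π ≤ m (l + 1) - m l) (hδ : ∀ l ≤ K, m (l + 1) - m l ≤ δ) (hε : 0 ≤ ε)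
    (k : Fin κ) (hu : ∀ l, 1 ≤ l → l ≤ K → σ ≤ P.u k l)
    (hρ : ∃ C, EU ν (fun U => (mdl K m c P U).Ex (fun _ x => |Rb c U k x x - C|)) ≤ ε)
    (hc : ∀ l, 1 ≤ l → l ≤ K →
      ∃ C, EU ν (fun U => (mdl K m c P U).Ex (fun z x => |hb c U k l z x - C|)) ≤ ε) :
    Dv ν K m c P k ≤ √(2 * δ) + 4 * δ + 10 * √((K + 1) * ε / (σ * π)) +
      6 * ((K + 1) * ε / (σ * π)) := by
  obtain ⟨Cρ, hCρ⟩ := hρ
  choose! C hC using hc
  have hσπ : 0 < σ * π := mul_pos hσ hπ
  have hreg : ∀ U : Matrix (Fin N) (Fin N) ℝ, (mdl K m c P U).Reg := fun U => (mdl_regD hm).toReg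
  have hm0 : ∀ l ≤ K, 0 ≤ m l := m3_m_nonneg (hreg 0)
  have hδ0 : 0 < δ := lt_of_lt_of_le hπ ((hp 0 (Nat.zero_le K)).trans (hδ 0 (Nat.zero_le K)))
  have hmK : m (K + 1) = 1 := hm.2.1
  have hπ1 : π ≤ 1 := by
    have h1 := hp K le_rfl
    have h2 := hm0 K le_rfl
    linarith only [hmK, h1, h2]
  set x : ℝ := (K + 1) * ε / (σ * π) with hx
  have hx0 : 0 ≤ x := by (clear * - hε hσ hπ; positivity)
  have hεx : ε ≤ x := by
    rw [hx, le_div_iff₀ hσπ]
    have h1 : σ * π ≤ 1 := mul_le_one₀ hσ1 hπ.le hπ1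
    have h2 : ε * (σ * π) ≤ ε * 1 := mul_le_mul_of_nonneg_left h1 hε
    have h3 : 0 ≤ (K : ℝ) * ε := by (clear * - hε; positivity)
    linarith only [h2, h3]
  -- the self-overlap
  have hdiag : EU ν (fun U => (mdl K m c P U).Ex
      (fun _ x => |Rb c U k x x - rho ν K m c P k|)) ≤ 2 * x := by
    set ρ := rho ν K m c P k with hρ'
    have i0 := m2_int_self (c := c) (P := P) (ν := ν) hm hN k
    have h1 : |Cρ - ρ| ≤ ε := by
      have e1 : Cρ - ρ = ∫ U : orthogonalGroup (Fin N) ℝ,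
          (Cρ - (mdl K m c P U.1).Ex (fun _ x => Rb c U.1 k x x)) ∂ν := by
        rw [integral_sub (integrable_const _) i0]
        simp only [integral_const, probReal_univ, smul_eq_mul, one_mul]
        rfl
      rw [e1]
      refine (abs_integral_le_integral_abs).trans (le_trans ?_ hCρ)
      refine integral_mono ((integrable_const _).sub i0).abs (d1_int_self hm hN k Cρ) fun U => ?_
      have n1 : Nh (ι := Ix N K) fun _ x => Rb c U.1 k x x := Sy.Nh.snd fun x => Rb c U.1 k x x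
      have h2 := (hreg U.1).abs_Ex_le (Sy.Nh.sub n1 (Sy.Nh.snd fun _ => Cρ))
      rw [(hreg U.1).Ex_sub n1 (Sy.Nh.snd fun _ => Cρ), (hreg U.1).Ex_const] at h2
      simp only
      rw [abs_sub_comm]
      exact h2
    have h2 : EU ν (fun U => (mdl K m c P U).Ex (fun _ x => |Rb c U k x x - ρ|)) ≤
        EU ν (fun U => (mdl K m c P U).Ex (fun _ x => |Rb c U k x x - Cρ|) + |Cρ - ρ|) := by
      refine integral_mono (d1_int_self hm hN k ρ)
        ((d1_int_self hm hN k Cρ).add (integrable_const _)) fun U => ?_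
      have n1 : Nh (ι := Ix N K) fun _ x => |Rb c U.1 k x x - Cρ| :=
        Sy.Nh.snd fun x => |Rb c U.1 k x x - Cρ|
      have n2 : Nh (ι := Ix N K) (X := Fin N → Bool) fun _ _ => |Cρ - ρ| :=
        Sy.Nh.snd fun _ => |Cρ - ρ|
      have h3 : (mdl K m c P U.1).Ex (fun _ x => |Rb c U.1 k x x - ρ|) ≤
          (mdl K m c P U.1).Ex (fun _ x => |Rb c U.1 k x x - Cρ| + |Cρ - ρ|) :=
        (hreg U.1).Ex_mono (Sy.Nh.snd fun x => |Rb c U.1 k x x - ρ|) (Sy.Nh.add n1 n2)
          fun _ x => abs_sub_le _ _ _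
      rw [(hreg U.1).Ex_add n1 n2, (hreg U.1).Ex_const] at h3
      exact h3
    have h3 : EU ν (fun U => (mdl K m c P U).Ex (fun _ x => |Rb c U k x x - Cρ|) + |Cρ - ρ|) =
        EU ν (fun U => (mdl K m c P U).Ex (fun _ x => |Rb c U k x x - Cρ|)) + |Cρ - ρ| := by
      unfold EU
      rw [integral_add (d1_int_self hm hN k Cρ) (integrable_const _)]
      simp only [integral_const, probReal_univ, smul_eq_mul, one_mul]
    linarith only [hCρ, hεx, h1, h2, h3]
  -- crude bound of the levels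
  have hρ1 : rho ν K m c P k ≤ 1 := m3_rho_le_one hm hN k
  have hR0 : ∀ l ≤ K, 0 ≤ Rkl ν K m c P k l := fun l hl => Rkl_nonneg hm hN k hl
  have hR1 : ∀ l ≤ K, Rkl ν K m c P k l ≤ 1 := fun l hl => (Rkl_le hm hN k hl).trans hρ1
  have hlev : ∀ l ≤ K, EU ν (fun U => (mdl K m c P U).pairEx l
      (fun x x' => |Rb c U k x x' - Rkl ν K m c P k l|)) ≤ 2 := by
    intro l hl
    have h1 : EU ν (fun U => (mdl K m c P U).pairEx l
      (fun x x' => |Rb c U k x x' - Rkl ν K m c P k l|)) ≤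
        ∫ _U : orthogonalGroup (Fin N) ℝ, (2 : ℝ) ∂ν := by
      refine integral_mono (d1_int_pair hm hN k hl _) (integrable_const _) fun U => ?_
      refine (d1_pair_bound hm hN U k hl _).trans ?_
      rw [abs_of_nonneg (hR0 l hl)]
      linarith only [hR1 l hl]
    simpa only [ge_iff_le, integral_const, probReal_univ, smul_eq_mul, one_mul] using h1
  -- the sum of the errors
  set e : orthogonalGroup (Fin N) ℝ → ℝ := fun U =>
    (mdl K m c P U.1).Ex (fun _ x => |Rb c U.1 k x x - Cρ|) +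
      ∑ j ∈ Finset.Icc 1 K, (mdl K m c P U.1).Ex (fun z x => |hb c U.1 k j z x - C j|) with he
  have ihb : ∀ j ∈ Finset.Icc 1 K, Integrable (fun U : orthogonalGroup (Fin N) ℝ =>
      (mdl K m c P U.1).Ex (fun z x => |hb c U.1 k j z x - C j|)) ν := fun j hj =>
    d1_int_hb hm hN k (Finset.mem_Icc.1 hj).2 (C j)
  have ie : Integrable e ν := (d1_int_self hm hN k Cρ).add (integrable_finsetSum _ ihb)
  have he1 : ∀ U, (mdl K m c P U.1).Ex (fun _ x => |Rb c U.1 k x x - Cρ|) ≤ e U := fun U =>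
    le_add_of_nonneg_right (Finset.sum_nonneg fun j _ => d1_hb_nonneg hm U k j (C j))
  have he0 : ∀ U, 0 ≤ e U := fun U => (d1_self_nonneg hm U k Cρ).trans (he1 U)
  have he2 : ∀ U, ∀ j, 1 ≤ j → j ≤ K →
      (mdl K m c P U.1).Ex (fun z x => |hb c U.1 k j z x - C j|) ≤ e U := by
    intro U j h1 h2
    have h3 := Finset.single_le_sum (f := fun j =>
      (mdl K m c P U.1).Ex (fun z x => |hb c U.1 k j z x - C j|))
      (fun j _ => d1_hb_nonneg hm U k j (C j)) (Finset.mem_Icc.2 ⟨h1, h2⟩)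
    exact h3.trans (le_add_of_nonneg_left (d1_self_nonneg hm U k Cρ))
  have hEe : ∫ U, e U ∂ν ≤ (K + 1) * ε := by
    have h1 : ∫ U, e U ∂ν = (∫ U : orthogonalGroup (Fin N) ℝ,
        (mdl K m c P U.1).Ex (fun _ x => |Rb c U.1 k x x - Cρ|) ∂ν) +
        ∑ j ∈ Finset.Icc 1 K, ∫ U : orthogonalGroup (Fin N) ℝ,
          (mdl K m c P U.1).Ex (fun z x => |hb c U.1 k j z x - C j|) ∂ν := by
      rw [he, integral_add (d1_int_self hm hN k Cρ) (integrable_finsetSum _ ihb),
        integral_finsetSum _ ihb]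
    rw [h1]
    have h2 : ∑ j ∈ Finset.Icc 1 K, ∫ U : orthogonalGroup (Fin N) ℝ,
        (mdl K m c P U.1).Ex (fun z x => |hb c U.1 k j z x - C j|) ∂ν ≤
        ∑ j ∈ Finset.Icc 1 K, ε := Finset.sum_le_sum fun j hj =>
      hC j (Finset.mem_Icc.1 hj).1 (Finset.mem_Icc.1 hj).2
    have h3 : ∑ j ∈ Finset.Icc 1 K, ε = K * ε := by
      rw [Finset.sum_const, Nat.card_Icc, nsmul_eq_mul, Nat.add_sub_cancel]
    have h4 : (∫ U : orthogonalGroup (Fin N) ℝ,
        (mdl K m c P U.1).Ex (fun _ x => |Rb c U.1 k x x - Cρ|) ∂ν) ≤ ε := hCρ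
    linarith only [h2, h3, h4]
  have hEx : (∫ U, e U ∂ν) / (σ * π) ≤ x := div_le_div_of_nonneg_right hEe hσπ.le
  -- the middle levels
  have hmid : ∀ l, 1 ≤ l → l < K → EU ν (fun U => (mdl K m c P U).pairEx l
      (fun x x' => |Rb c U k x x' - Rkl ν K m c P k l|)) ≤
      √(2 * (Rkl ν K m c P k (l + 1) - Rkl ν K m c P k l)) + 10 * √x + 4 * x := by
    intro l hl0 hl
    have ip0 := m2_int_pair (c := c) (P := P) (ν := ν) hm hN k hl.le
    have ip1 := m2_int_pair (c := c) (P := P) (ν := ν) hm hN k (show l + 1 ≤ K from hl)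
    set R := Rkl ν K m c P k l with hR
    set R' := Rkl ν K m c P k (l + 1) with hR'
    set Dl := (C (l + 1) / P.u k (l + 1) - C l / P.u k l) / (m (l + 1) - m l) with hDl
    -- the mean overlap given the matrix is close to a constant
    have hcl : ∀ U : orthogonalGroup (Fin N) ℝ,
        |(mdl K m c P U.1).pairEx l (Rb c U.1 k) - Dl| ≤ 2 / (σ * π) * e U := fun U => by
      have h1 := d1_close (c := c) (P := P) hN hm U.2 hσ hπ hp k hu (he2 U) hl0 hl
      have h2 : 2 / (σ * π) * e U = 2 * e U / (σ * π) := by ring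
      rw [h2]
      exact h1
    have ie2 : Integrable (fun U => 2 / (σ * π) * e U) ν := ie.const_mul _
    have hDR : |Dl - R| ≤ 2 * x := by
      have e1 : R - Dl = ∫ U : orthogonalGroup (Fin N) ℝ,
          ((mdl K m c P U.1).pairEx l (Rb c U.1 k) - Dl) ∂ν := by
        rw [integral_sub ip0 (integrable_const _)]
        simp only [integral_const, probReal_univ, smul_eq_mul, one_mul]
        rfl
      rw [abs_sub_comm, e1]
      refine (abs_integral_le_integral_abs).trans ?_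
      refine (integral_mono (ip0.sub (integrable_const _)).abs ie2 hcl).trans ?_
      rw [integral_const_mul]
      have h3 : 2 / (σ * π) * ∫ U, e U ∂ν = 2 * ((∫ U, e U ∂ν) / (σ * π)) := by ring
      rw [h3]
      linarith only [hEx]
    -- the bound for each matrix
    have hpt : ∀ U : orthogonalGroup (Fin N) ℝ, (mdl K m c P U.1).pairEx l
        (fun x x' => |Rb c U.1 k x x' - R|) ≤
        √(2 * ((mdl K m c P U.1).pairEx (l + 1) (Rb c U.1 k) -
          (mdl K m c P U.1).pairEx l (Rb c U.1 k)) + 100 / (σ * π) * e U) +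
          (2 / (σ * π) * e U + 2 * x) := fun U => by
      have h1 := d1_point (c := c) (P := P) hN hm U.2 hσ hσ1 hπ hp k hu (he0 U) (he1 U) (he2 U)
        hl0 hl R
      have h2 : 100 * e U / (σ * π) = 100 / (σ * π) * e U := by ring
      rw [h2] at h1
      have h3 : |(mdl K m c P U.1).pairEx l (Rb c U.1 k) - R| ≤
          |(mdl K m c P U.1).pairEx l (Rb c U.1 k) - Dl| + |Dl - R| := abs_sub_le _ _ _
      linarith only [hDR, h1, h3, hcl U]
    set f : orthogonalGroup (Fin N) ℝ → ℝ := fun U =>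
      2 * ((mdl K m c P U.1).pairEx (l + 1) (Rb c U.1 k) -
          (mdl K m c P U.1).pairEx l (Rb c U.1 k)) + 100 / (σ * π) * e U with hf
    have if' : Integrable f ν := ((ip1.sub ip0).const_mul 2).add (ie.const_mul _)
    have hf0 : ∀ U, 0 ≤ f U := fun U => by
      have h1 : (mdl K m c P U.1).pairEx l (Rb c U.1 k) ≤
          (mdl K m c P U.1).pairEx (l + 1) (Rb c U.1 k) := by
        rw [d1_Rb]
        exact (mdl_bfld (K := K) (m := m) (P := P) (c := c) hm hN U.2 k).pairEx_Rk_mono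
          (show l < (mdl K m c P U.1).K from hl)
      have h2 : 0 ≤ 100 / (σ * π) * e U := mul_nonneg (by positivity) (he0 U)
      simp only [hf]
      linarith only [h1, h2]
    have isf : Integrable (fun U => √(f U)) ν := by
      refine (if'.add (integrable_const 1)).mono
        (Real.continuous_sqrt.comp_aestronglyMeasurable if'.aestronglyMeasurable)
        (Eventually.of_forall fun U => ?_)
      have h0 := hf0 U
      have h1 : √(f U) ≤ f U + 1 := by
        rw [Real.sqrt_le_left (by linarith only [h0])]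
        (clear * - h0; nlinarith)
      simp only [Pi.add_apply]
      rw [Real.norm_eq_abs, Real.norm_eq_abs, abs_of_nonneg (Real.sqrt_nonneg _),
        abs_of_nonneg (by linarith only [h0])]
      exact h1
    have hEf : ∫ U, f U ∂ν ≤ 2 * (R' - R) + 100 * x := by
      have i1 : Integrable (fun U : orthogonalGroup (Fin N) ℝ =>
          2 * ((mdl K m c P U.1).pairEx (l + 1) (Rb c U.1 k) -
            (mdl K m c P U.1).pairEx l (Rb c U.1 k))) ν := (ip1.sub ip0).const_mul 2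
      have i2 : Integrable (fun U => 100 / (σ * π) * e U) ν := ie.const_mul _
      have h1 : ∫ U, f U ∂ν = 2 * (R' - R) + 100 / (σ * π) * ∫ U, e U ∂ν := by
        simp only [hf]
        rw [integral_add i1 i2, integral_const_mul, integral_const_mul, integral_sub ip1 ip0]
        rfl
      have h3 : 100 / (σ * π) * ∫ U, e U ∂ν = 100 * ((∫ U, e U ∂ν) / (σ * π)) := by ring
      rw [h1, h3]
      linarith only [hEx]
    have hRR : 0 ≤ R' - R := sub_nonneg.2 (Rkl_mono hm hN k hl)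
    have hsq : √(2 * (R' - R) + 100 * x) ≤ √(2 * (R' - R)) + 10 * √x := by
      have h1 : √(100 * x) = 10 * √x := by
        rw [Real.sqrt_mul (by norm_num)]
        congr 1
        rw [show (100 : ℝ) = 10 ^ 2 by norm_num]
        exact Real.sqrt_sq (by norm_num)
      have h2 : 0 ≤ 2 * (R' - R) := by linarith only [hRR]
      have h3 : 0 ≤ 100 * x := by linarith only [hx0]
      rw [← h1, Real.sqrt_le_left (by (clear * -; positivity)), add_sq, Real.sq_sqrt h2, Real.sq_sqrt h3]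
      have h4 := mul_nonneg (Real.sqrt_nonneg (2 * (R' - R))) (Real.sqrt_nonneg (100 * x))
      linarith only [h4]
    have i3 : Integrable (fun U => 2 / (σ * π) * e U + 2 * x) ν :=
      ie2.add (integrable_const _)
    calc EU ν (fun U => (mdl K m c P U).pairEx l (fun x x' => |Rb c U k x x' - R|))
        ≤ ∫ U, (√(f U) + (2 / (σ * π) * e U + 2 * x)) ∂ν :=
          integral_mono (d1_int_pair hm hN k hl.le R) (isf.add i3) hpt
      _ = (∫ U, √(f U) ∂ν) + (2 * ((∫ U, e U ∂ν) / (σ * π)) + 2 * x) := by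
          rw [integral_add isf i3, integral_add ie2 (integrable_const _), integral_const_mul]
          simp only [integral_const, probReal_univ, smul_eq_mul, one_mul]
          ring
      _ ≤ √(∫ U, f U ∂ν) + (2 * x + 2 * x) :=
          add_le_add (d1_jensen if' hf0 isf) (by linarith only [hEx])
      _ ≤ √(2 * (R' - R) + 100 * x) + (2 * x + 2 * x) :=
          add_le_add (Real.sqrt_le_sqrt hEf) le_rfl
      _ ≤ _ := by linarith only [hsq]
  -- the sum
  have hpn : ∀ l ≤ K, 0 ≤ m (l + 1) - m l := fun l hl => hπ.le.trans (hp l hl)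
  have hsum : ∑ l ∈ Finset.range (K + 1), (m (l + 1) - m l) *
      EU ν (fun U => (mdl K m c P U).pairEx l (fun x x' => |Rb c U k x x' - Rkl ν K m c P k l|)) ≤
      √(2 * δ) + 4 * δ + 10 * √x + 4 * x := by
    have hsx := Real.sqrt_nonneg x
    have hsδ := Real.sqrt_nonneg (2 * δ)
    rcases K with _ | n
    · rw [Finset.sum_range_one]
      have h1 := mul_le_mul_of_nonneg_left (hlev 0 le_rfl) (hpn 0 le_rfl)
      have h2 := hδ 0 le_rfl
      linarith only [hδ0, hsδ, hx0, hsx, h1, h2]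
    · rw [Finset.sum_range_succ, Finset.sum_range_succ']
      have h1 := mul_le_mul_of_nonneg_left (hlev 0 (Nat.zero_le _)) (hpn 0 (Nat.zero_le _))
      have h2 := hδ 0 (Nat.zero_le _)
      have h3 := mul_le_mul_of_nonneg_left (hlev (n + 1) le_rfl) (hpn (n + 1) le_rfl)
      have h4 := hδ (n + 1) le_rfl
      have h5 : ∑ i ∈ Finset.range n, (m (i + 1 + 1) - m (i + 1)) *
          EU ν (fun U => (mdl (n + 1) m c P U).pairEx (i + 1)
            (fun x x' => |Rb c U k x x' - Rkl ν (n + 1) m c P k (i + 1)|)) ≤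
          ∑ i ∈ Finset.range n, ((m (i + 1 + 1) - m (i + 1)) *
            √(2 * (Rkl ν (n + 1) m c P k (i + 1 + 1) - Rkl ν (n + 1) m c P k (i + 1))) +
            (m (i + 1 + 1) - m (i + 1)) * (10 * √x + 4 * x)) := by
        refine Finset.sum_le_sum fun i hi => ?_
        have hi' := Finset.mem_range.1 hi
        have h6 := mul_le_mul_of_nonneg_left (hmid (i + 1) (by (clear * -; omega)) (by omega))
          (hpn (i + 1) (by omega))
        refine h6.trans (le_of_eq ?_)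
        ring
      rw [Finset.sum_add_distrib, ← Finset.sum_mul] at h5
      have h7 : ∑ i ∈ Finset.range n, (m (i + 1 + 1) - m (i + 1)) ≤ 1 := by
        rw [Finset.sum_range_sub (fun i => m (i + 1))]
        have h8 := hm0 (0 + 1) (by omega)
        have h9 := hpn (n + 1) le_rfl
        linarith only [hmK, h8, h9]
      have h10 := d1_sum_sqrt (n := n) (p := fun i => m (i + 1 + 1) - m (i + 1))
        (r := fun i => Rkl ν (n + 1) m c P k (i + 1)) hδ0 (fun i hi => hpn (i + 1) (by omega))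
        (fun i hi => hδ (i + 1) (by omega)) h7
        (fun i hi => Rkl_mono hm hN k (by omega)) (by
          have h11 := hR1 (n + 1) le_rfl
          have h12 := hR0 (0 + 1) (by omega)
          linarith only [h11, h12])
      have h13 : (∑ i ∈ Finset.range n, (m (i + 1 + 1) - m (i + 1))) * (10 * √x + 4 * x) ≤
          1 * (10 * √x + 4 * x) := mul_le_mul_of_nonneg_right h7 (by linarith only [hx0, hsx])
      linarith only [h1, h2, h3, h4, h5, h10, h13]
  unfold Dv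
  linarith only [hdiag, hsum]

end Vale.Agent.P166.U
end
end

section

section

/-!
Concentration at the optimal parameters.
-/

open MeasureTheory ProbabilityTheory Matrix Filter Topology

namespace Vale.Agent.P166.U

open Vale.Agent.P157 (spin)
open Vale.Agent.P157.Lv Vale.Agent.P157.Par Md

/-- The free energy is concentrated: `B` bounds the parameters. -/
def VarBound (κ : ℕ) (B C : ℝ) : Prop :=
  ∀ (N K : ℕ) (m : ℕ → ℝ) (c : Fin N → Fin κ) (P : Pm κ)
    [MeasurableSpace (orthogonalGroup (Fin N) ℝ)] [BorelSpace (orthogonalGroup (Fin N) ℝ)]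
    (ν : Measure (orthogonalGroup (Fin N) ℝ)) [IsProbabilityMeasure ν] [ν.IsMulLeftInvariant],
    0 < N → Exponents K m → P.s 0 = 0 → (∀ k, P.u k 0 = 0) → (∀ k, |P.b k| ≤ B) →
    (∑ l ∈ Finset.range (K + 1), P.s l ^ 2 ≤ B) →
    (∀ k, ∑ l ∈ Finset.range (K + 1), P.u k l ^ 2 ≤ B) →
    EU ν (fun U => |(mdl K m c P U).fe - EU ν (fun V => (mdl K m c P V).fe)|) ≤ C * √N

section pt

variable {N K κ : ℕ} {m : ℕ → ℝ} {c : Fin N → Fin κ} {P : Pm κ}
  {U : Matrix (Fin N) (Fin N) ℝ}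

/-- Shift of a coupling as a perturbation of the energy. -/
theorem d2_pt_b (hN : 0 < N) (k : Fin κ) (t : ℝ) :
    ptV (mdl K m c P U) (fun _ x => (N : ℝ) / 2 * Rb c U k x x) t =
      mdl K m c (Pm.addb P k t) U := by
  have h : (fun z x => Md.en c P U z x + t * ((N : ℝ) / 2 * Rb c U k x x)) =
      (Md.en c (Pm.addb P k t) U : (Ix N K → ℝ) → (Fin N → Bool) → ℝ) := by
    funext z x
    have h1 := en_sub (K := K) (c := c) (P := P) (P' := Pm.addb P k t) (U := U) z x hN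
    have e1 : ∑ k', ((Pm.addb P k t).b k' - P.b k') / 2 * Rb c U k' x x =
        t / 2 * Rb c U k x x := by
      rw [Finset.sum_eq_single k]
      · change (Function.update P.b k (P.b k + t) k - P.b k) / 2 * _ = _
        rw [Function.update_self, add_sub_cancel_left]
      · intro l _ hlj
        change (Function.update P.b k (P.b k + t) l - P.b l) / 2 * _ = _
        rw [Function.update_of_ne hlj, sub_self, zero_div, zero_mul]
      · intro h
        exact absurd (Finset.mem_univ k) h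
    have e2 : ∑ l ∈ Finset.range (K + 1), ((Pm.addb P k t).s l - P.s l) *
        hz spin sco l z x = 0 :=
      Finset.sum_eq_zero fun l _ => by
        change (P.s l - P.s l) * _ = 0
        rw [sub_self, zero_mul]
    have e3 : ∑ k', ∑ l ∈ Finset.range (K + 1), ((Pm.addb P k t).u k' l - P.u k' l) *
        hb c U k' l z x = 0 :=
      Finset.sum_eq_zero fun k' _ => Finset.sum_eq_zero fun l _ => by
        change (P.u k' l - P.u k' l) * _ = 0
        rw [sub_self, zero_mul]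
    rw [e1, e2, e3] at h1
    linarith only [h1]
  exact congrArg (fun H => (⟨lvl, K, m, H⟩ : Sy (Ix N K) (Fin N → Bool))) h

/-- Shift of the strength of a block field as a perturbation of the energy. -/
theorem d2_pt_u (hN : 0 < N) (k : Fin κ) {j : ℕ} (hj : j ≤ K) (t : ℝ) :
    ptV (mdl K m c P U) (fun z x => (N : ℝ) * hb c U k j z x) t =
      mdl K m c (Pm.addu P k j t) U := by
  have h : (fun z x => Md.en c P U z x + t * ((N : ℝ) * hb c U k j z x)) =
      (Md.en c (Pm.addu P k j t) U : (Ix N K → ℝ) → (Fin N → Bool) → ℝ) := by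
    funext z x
    have h1 := en_sub (K := K) (c := c) (P := P) (P' := Pm.addu P k j t) (U := U) z x hN
    have e1 : ∑ k', ((Pm.addu P k j t).b k' - P.b k') / 2 * Rb c U k' x x = 0 :=
      Finset.sum_eq_zero fun k' _ => by
        change (P.b k' - P.b k') / 2 * _ = 0
        rw [sub_self, zero_div, zero_mul]
    have e2 : ∑ l ∈ Finset.range (K + 1), ((Pm.addu P k j t).s l - P.s l) *
        hz spin sco l z x = 0 :=
      Finset.sum_eq_zero fun l _ => by
        change (P.s l - P.s l) * _ = 0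
        rw [sub_self, zero_mul]
    have e3 : ∑ k', ∑ l ∈ Finset.range (K + 1), ((Pm.addu P k j t).u k' l - P.u k' l) *
        hb c U k' l z x = t * hb c U k j z x := by
      rw [Finset.sum_eq_single k, Finset.sum_eq_single j]
      · change (Function.update P.u k (Function.update (P.u k) j (P.u k j + t)) k j - P.u k j) *
          _ = _
        rw [Function.update_self, Function.update_self, add_sub_cancel_left]
      · intro l _ hlj
        change (Function.update P.u k (Function.update (P.u k) j (P.u k j + t)) k l - P.u k l) *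
          _ = _
        rw [Function.update_self, Function.update_of_ne hlj, sub_self, zero_mul]
      · intro h
        exact absurd (Finset.mem_range.2 (by omega)) h
      · intro k' _ hk
        refine Finset.sum_eq_zero fun l _ => ?_
        change (Function.update P.u k (Function.update (P.u k) j (P.u k j + t)) k' l -
          P.u k' l) * _ = _
        rw [Function.update_of_ne hk, sub_self, zero_mul]
      · intro h
        exact absurd (Finset.mem_univ k) h
    rw [e1, e2, e3] at h1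
    linarith only [h1]
  exact congrArg (fun H => (⟨lvl, K, m, H⟩ : Sy (Ix N K) (Fin N → Bool))) h

/-- Without fields at the level zero, `lg 0` is constant. -/
theorem d2_lg0 (hm : Exponents K m) (hs : P.s 0 = 0) (hu : ∀ k, P.u k 0 = 0)
    (z : Ix N K → ℝ) : (mdl K m c P U).lg 0 z = (mdl K m c P U).fe := by
  refine lg_zero_const (mdl_regD hm).toReg (fun x z z' h => ?_) z
  change Md.en c P U z x = Md.en c P U z' x
  unfold Md.en
  have e1 : ∑ l ∈ Finset.range (K + 1), P.s l * ∑ i, z (sco l i) * spin x i =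
      ∑ l ∈ Finset.range (K + 1), P.s l * ∑ i, z' (sco l i) * spin x i := by
    refine Finset.sum_congr rfl fun l hl => ?_
    rcases Nat.eq_zero_or_pos l with h0 | h0
    · rw [h0, hs, zero_mul, zero_mul]
    · have hlK : l ≤ K := Nat.lt_succ_iff.1 (Finset.mem_range.1 hl)
      congr 1
      refine Finset.sum_congr rfl fun i _ => ?_
      rw [h (sco l i) ?_]
      change lvl (sco l i) ≠ 0
      rw [show lvl (sco (K := K) l i) = l from mdl_ofNat hlK]
      omega
  have e2 : ∑ l ∈ Finset.range (K + 1), ∑ i, P.u (c i) l * (z (bco l i) * ph U x i) =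
      ∑ l ∈ Finset.range (K + 1), ∑ i, P.u (c i) l * (z' (bco l i) * ph U x i) := by
    refine Finset.sum_congr rfl fun l hl => ?_
    rcases Nat.eq_zero_or_pos l with h0 | h0
    · refine Finset.sum_congr rfl fun i _ => ?_
      rw [h0, hu, zero_mul, zero_mul]
    · have hlK : l ≤ K := Nat.lt_succ_iff.1 (Finset.mem_range.1 hl)
      refine Finset.sum_congr rfl fun i _ => ?_
      rw [h (bco l i) ?_]
      change lvl (bco l i) ≠ 0
      rw [show lvl (bco (K := K) l i) = l from mdl_ofNat hlK]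
      omega
  rw [e1, e2]

end pt

section key

variable {N K κ : ℕ} {m : ℕ → ℝ} {c : Fin N → Fin κ} {P P1 P2 : Pm κ}
  [MeasurableSpace (orthogonalGroup (Fin N) ℝ)] [BorelSpace (orthogonalGroup (Fin N) ℝ)]
  {ν : Measure (orthogonalGroup (Fin N) ℝ)} [IsProbabilityMeasure ν]

/-- The concentration of one observable. -/
theorem d2_key (hm : Exponents K m) (hN : 0 < N)
    {V : Matrix (Fin N) (Fin N) ℝ → (Ix N K → ℝ) → (Fin N → Bool) → ℝ} (hV : ∀ U, Nh (V U))
    {t : ℝ} (ht : 0 < t) (e1 : ∀ U, ptV (mdl K m c P U) (V U) t = mdl K m c P1 U)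
    (e2 : ∀ U, ptV (mdl K m c P U) (V U) (-t) = mdl K m c P2 U)
    (h1s : P1.s 0 = 0) (h1u : ∀ k, P1.u k 0 = 0) (h2s : P2.s 0 = 0) (h2u : ∀ k, P2.u k 0 = 0)
    {A G : ℝ} (hG : Fe ν K m c P1 + Fe ν K m c P2 - 2 * Fe ν K m c P ≤ G)
    (hA1 : EU ν (fun U => |(mdl K m c P1 U).fe - EU ν (fun V => (mdl K m c P1 V).fe)|) ≤ A)
    (hA2 : EU ν (fun U => |(mdl K m c P2 U).fe - EU ν (fun V => (mdl K m c P2 V).fe)|) ≤ A)
    {r : ℝ} (hr : 0 ≤ r) :
    ∃ a, EU ν (fun U => (mdl K m c P U).Ex (fun z x => |r * V U z x - a|)) ≤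
      r * (1 / t * (Real.log 2 / m 1 + N * G / 2 + A)) := by
  have hN' : (0 : ℝ) < N := by exact_mod_cast hN
  have hi : ∀ Q : Pm κ, Integrable (fun U : orthogonalGroup (Fin N) ℝ =>
      |(mdl K m c Q U.1).fe - ∫ W : orthogonalGroup (Fin N) ℝ, (mdl K m c Q W.1).fe ∂ν|) ν :=
    fun Q => ((integrable_fe hm hN).sub (integrable_const _)).abs
  have hc : ∀ (Q : Pm κ) (U : orthogonalGroup (Fin N) ℝ), Q.s 0 = 0 → (∀ k, Q.u k 0 = 0) →
      ∀ y : ℝ, ∫ z, |(mdl K m c Q U.1).lg 0 z - y| ∂(gI (Ix N K)) =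
        |(mdl K m c Q U.1).fe - y| := by
    intro Q U hs hu y
    simp only [d2_lg0 hm hs hu]
    rw [integral_const, probReal_univ, one_smul]
  have h := conc_avg (μ := ν) (S := fun U : orthogonalGroup (Fin N) ℝ => mdl K m c P U.1)
    (V := fun U => V U.1) (m1 := m 1) (fun _ => rfl) (fun _ => (mdl_regD hm).toReg)
    (fun U => hV U.1) ht (fun U => by rw [e1]; exact (mdl_regD hm).toReg)
    (fun U => by rw [e2]; exact (mdl_regD hm).toReg) (integrable_fe hm hN)
    (by simp only [e1]; exact integrable_fe hm hN) (by simp only [e2]; exact integrable_fe hm hN)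
    (A := A)
    (by simp only [e1, hc P1 _ h1s h1u]; exact hi P1)
    (by simp only [e2, hc P2 _ h2s h2u]; exact hi P2)
    (by simp only [e1, hc P1 _ h1s h1u]; exact hA1)
    (by simp only [e2, hc P2 _ h2s h2u]; exact hA2)
  simp only [e1, e2] at h
  set a := (∫ U : orthogonalGroup (Fin N) ℝ, (mdl K m c P1 U.1).fe ∂ν -
      ∫ U : orthogonalGroup (Fin N) ℝ, (mdl K m c P2 U.1).fe ∂ν) / (2 * t) with ha
  refine ⟨r * a, ?_⟩
  have h2 : EU ν (fun U => (mdl K m c P U).Ex (fun z x => |r * V U z x - r * a|)) =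
      r * ∫ U : orthogonalGroup (Fin N) ℝ, (mdl K m c P U.1).Ex
        (fun z x => |V U.1 z x - a|) ∂ν := by
    unfold EU
    rw [← integral_const_mul]
    refine integral_congr_ae (Filter.Eventually.of_forall fun U => ?_)
    change (mdl K m c P U.1).Ex (fun z x => |r * V U.1 z x - r * a|) =
      r * (mdl K m c P U.1).Ex (fun z x => |V U.1 z x - a|)
    rw [← Sy.Ex_const_mul]
    congr 1
    funext z x
    rw [← mul_sub, abs_mul, abs_of_nonneg hr]
  rw [h2]
  refine mul_le_mul_of_nonneg_left (h.trans ?_) hr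
  refine mul_le_mul_of_nonneg_left ?_ (by positivity)
  unfold Md.Fe EU at hG
  have h3 : 1 / (N : ℝ) * ∫ U : orthogonalGroup (Fin N) ℝ, (mdl K m c P1 U.1).fe ∂ν +
      1 / (N : ℝ) * ∫ U : orthogonalGroup (Fin N) ℝ, (mdl K m c P2 U.1).fe ∂ν -
      2 * (1 / (N : ℝ) * ∫ U : orthogonalGroup (Fin N) ℝ, (mdl K m c P U.1).fe ∂ν) ≤ G := by
    linarith only [hG]
  have h4 : 1 / (N : ℝ) * (∫ U : orthogonalGroup (Fin N) ℝ, (mdl K m c P1 U.1).fe ∂ν +
      ∫ U : orthogonalGroup (Fin N) ℝ, (mdl K m c P2 U.1).fe ∂ν -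
      2 * ∫ U : orthogonalGroup (Fin N) ℝ, (mdl K m c P U.1).fe ∂ν) ≤ G := by
    linarith only [hG]
  rw [one_div, inv_mul_le_iff₀ hN'] at h4
  linarith only [h4]

end key

/-- The choice of the scale. -/
theorem d2_num {a b C e : ℝ} (ha : 0 ≤ a) (hb : 0 ≤ b) (hC : 0 ≤ C) (he : 0 < e) :
    ∃ N₀ : ℕ, ∀ N : ℕ, N₀ ≤ N → 0 < N ∧ ∃ t : ℝ, 0 < t ∧ t ≤ 1 ∧
      2 / N * (1 / t * (a + N * (b * t ^ 2) / 2 + C * √N)) ≤ e := by
  refine ⟨⌈((2 * a + b + 2 * C) / e) ^ 4⌉₊ + 1, fun N hN => ?_⟩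
  have hN1 : 0 < N := by omega
  have hN' : (1 : ℝ) ≤ N := by exact_mod_cast hN1
  have h0 : ((2 * a + b + 2 * C) / e) ^ 4 ≤ N :=
    (Nat.le_ceil _).trans (by exact_mod_cast (by omega : ⌈((2 * a + b + 2 * C) / e) ^ 4⌉₊ ≤ N))
  refine ⟨hN1, ?_⟩
  set x := √√(N : ℝ) with hx
  have hx2 : x ^ 2 = √(N : ℝ) := Real.sq_sqrt (Real.sqrt_nonneg _)
  have hx4 : x ^ 4 = N := by
    rw [show x ^ 4 = (x ^ 2) ^ 2 by ring, hx2]
    exact Real.sq_sqrt (by linarith only [])
  have hx1 : 1 ≤ x := by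
    rw [hx]
    exact Real.one_le_sqrt.2 (Real.one_le_sqrt.2 hN')
  have hx0 : 0 < x := by linarith only [hx1]
  have hD : 0 ≤ 2 * a + b + 2 * C := by (clear * - ha hb hC; positivity)
  have hDx : (2 * a + b + 2 * C) / e ≤ x := by
    refine le_of_pow_le_pow_left₀ (n := 4) (by norm_num) hx0.le ?_
    rw [hx4]
    exact h0
  refine ⟨1 / x, by positivity, (div_le_one hx0).2 hx1, ?_⟩
  rw [← hx2, ← hx4]
  have h1 : 2 / x ^ 4 * (1 / (1 / x) * (a + x ^ 4 * (b * (1 / x) ^ 2) / 2 + C * x ^ 2)) =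
      2 * a / x ^ 3 + (b + 2 * C) / x := by
    field_simp
    ring
  rw [h1]
  have h2 : 2 * a / x ^ 3 ≤ 2 * a / x := by
    refine div_le_div_of_nonneg_left (by positivity) hx0 ?_
    nlinarith only [hx1, mul_pos hx0 hx0]
  have h3 : (2 * a + b + 2 * C) / x ≤ e := by
    rw [div_le_iff₀ hx0]
    rw [div_le_iff₀ he] at hDx
    linarith only [hDx]
  have h4 : 2 * a / x + (b + 2 * C) / x = (2 * a + b + 2 * C) / x := by
    rw [← add_div]
    ring
  linarith only [h2, h3, h4]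

section bd

variable {N K κ : ℕ} {m q : ℕ → ℝ} {c : Fin N → Fin κ} {b0 : Fin κ → ℝ}
  {kap η ε u0 : ℝ} [MeasurableSpace (orthogonalGroup (Fin N) ℝ)]
  [BorelSpace (orthogonalGroup (Fin N) ℝ)]
  {ν : Measure (orthogonalGroup (Fin N) ℝ)} [IsProbabilityMeasure ν] {P : Pm κ}

/-- Bounds on the optimal parameters. -/
theorem d2_bd (hm : Exponents K m) (hq : P157.Par.Path K q) (hq1 : q K ≤ 1) (hN : 0 < N)
    {C : ℝ} (hC : SpinLe K m q C) (h : IsOpt ν K m q c kap η ε u0 b0 P)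
    (hkap : 0 < kap) (hkap1 : kap ≤ 1) (hη : 0 < η) (hη1 : η ≤ 1) (hε : 0 < ε)
    (hε1 : ε ≤ 1 / 4) (hu0 : 0 ≤ u0) (hu1 : u0 ≤ 1) {D : ℝ}
    (hD : C + ∑ k, |b0 k| + (2 * κ + 2) * (K + 1) ≤ D) :
    0 ≤ D ∧ (∀ k, |P.b k| ≤ ∑ k, |b0 k| + 1 + 2 * ε * D) ∧
    (∑ l ∈ Finset.range (K + 1), P.s l ^ 2 ≤ 2 / kap * D) ∧
    (∀ k, ∑ l ∈ Finset.range (K + 1), P.u k l ^ 2 ≤ 4 * ε * D + 2 * K) := by
  have hb := (h.bounds hm hq hq1 hN hC hkap hkap1 hη hη1 hε hε1 hu0 hu1).trans hD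
  rw [← Finset.mul_sum] at hb
  have n1 : 0 ≤ ∑ j ∈ Finset.Ico 1 (K + 1), P.s j ^ 2 := Finset.sum_nonneg fun _ _ => sq_nonneg _
  have n2 : 0 ≤ ∑ k, (P.b k - b0 k) ^ 2 := Finset.sum_nonneg fun _ _ => sq_nonneg _
  have n3 : 0 ≤ ∑ k, ∑ j ∈ Finset.Ico 1 (K + 1), (P.u k j - u0) ^ 2 :=
    Finset.sum_nonneg fun k _ => Finset.sum_nonneg fun j _ => sq_nonneg _
  have hi : 0 < 1 / (2 * ε) := by positivity
  have m1 : 0 ≤ kap / 2 * ∑ j ∈ Finset.Ico 1 (K + 1), P.s j ^ 2 := by (clear * - hkap; positivity)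
  have m2 : 0 ≤ 1 / (2 * ε) * ∑ k, (P.b k - b0 k) ^ 2 := by (clear * - hε; positivity)
  have m3 : 0 ≤ 1 / (2 * ε) * ∑ k, ∑ j ∈ Finset.Ico 1 (K + 1), (P.u k j - u0) ^ 2 := by
    (clear * - hε; positivity)
  rw [mul_add] at hb
  have h2ε : (0 : ℝ) < 2 * ε := by positivity
  have hb2 : ∑ k, (P.b k - b0 k) ^ 2 ≤ 2 * ε * D := by
    have : 1 / (2 * ε) * ∑ k, (P.b k - b0 k) ^ 2 ≤ D := by linarith only [hb, m1, m3]
    rwa [one_div, inv_mul_le_iff₀ h2ε] at this
  have hb3 : ∑ k, ∑ j ∈ Finset.Ico 1 (K + 1), (P.u k j - u0) ^ 2 ≤ 2 * ε * D := by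
    have : 1 / (2 * ε) * ∑ k, ∑ j ∈ Finset.Ico 1 (K + 1), (P.u k j - u0) ^ 2 ≤ D := by linarith only [hb, m1, m2]
    rwa [one_div, inv_mul_le_iff₀ h2ε] at this
  have e0 : ∀ f : ℕ → ℝ, f 0 = 0 → ∑ l ∈ Finset.range (K + 1), f l ^ 2 =
      ∑ l ∈ Finset.Ico 1 (K + 1), f l ^ 2 := by
    intro f hf
    rw [Finset.range_eq_Ico, Finset.sum_eq_sum_Ico_succ_bot (by omega : 0 < K + 1), hf]
    norm_num
  refine ⟨by linarith only [hb, m1, m2, m3], fun k => ?_, ?_, fun k => ?_⟩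
  · have h1 : (P.b k - b0 k) ^ 2 ≤ ∑ k, (P.b k - b0 k) ^ 2 :=
      Finset.single_le_sum (f := fun k => (P.b k - b0 k) ^ 2) (fun i _ => sq_nonneg _)
        (Finset.mem_univ k)
    have h2 : |b0 k| ≤ ∑ k, |b0 k| :=
      Finset.single_le_sum (f := fun k => |b0 k|) (fun i _ => abs_nonneg _) (Finset.mem_univ k)
    have h3 : |P.b k| ≤ |b0 k| + |P.b k - b0 k| := by
      have := abs_add_le (b0 k) (P.b k - b0 k)
      rwa [add_sub_cancel] at this
    have h4 : |P.b k - b0 k| ≤ 1 + (P.b k - b0 k) ^ 2 := by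
      rw [← sq_abs (P.b k - b0 k)]
      nlinarith only []
    linarith only [hb2, h1, h2, h3, h4]
  · rw [e0 P.s h.adm.s0]
    have h1 : kap / 2 * ∑ j ∈ Finset.Ico 1 (K + 1), P.s j ^ 2 ≤ D := by linarith only [hb, m2, m3]
    have h2 := mul_le_mul_of_nonneg_left h1 (by positivity : 0 ≤ 2 / kap)
    have h3 : 2 / kap * (kap / 2 * ∑ j ∈ Finset.Ico 1 (K + 1), P.s j ^ 2) =
        ∑ j ∈ Finset.Ico 1 (K + 1), P.s j ^ 2 := by
      (clear * - hkap; field_simp)
    rwa [h3] at h2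
  · rw [e0 (P.u k) (h.adm.u0 k)]
    have h1 : ∑ j ∈ Finset.Ico 1 (K + 1), P.u k j ^ 2 ≤
        ∑ j ∈ Finset.Ico 1 (K + 1), (2 * (P.u k j - u0) ^ 2 + 2) := by
      refine Finset.sum_le_sum fun j _ => ?_
      nlinarith only [hu1, hu0, sq_nonneg (P.u k j - 2 * u0)]
    have h2 : ∑ j ∈ Finset.Ico 1 (K + 1), (P.u k j - u0) ^ 2 ≤
        ∑ k, ∑ j ∈ Finset.Ico 1 (K + 1), (P.u k j - u0) ^ 2 :=
      Finset.single_le_sum (f := fun k => ∑ j ∈ Finset.Ico 1 (K + 1), (P.u k j - u0) ^ 2)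
        (fun i _ => Finset.sum_nonneg fun j _ => sq_nonneg _) (Finset.mem_univ k)
    rw [Finset.sum_add_distrib, ← Finset.mul_sum, Finset.sum_const, Nat.card_Ico,
      nsmul_eq_mul, Nat.add_sub_cancel] at h1
    linarith only [hb3, h1, h2]

end bd

/-- Concentration of the self-overlaps and of the fields at the optimum. -/
theorem conc_opt {K κ : ℕ} {m q : ℕ → ℝ} {b0 : Fin κ → ℝ} {kap η ε u0 C : ℝ}
    (hm : Exponents K m) (hq : P157.Par.Path K q) (hq1 : q K ≤ 1) (hC : SpinLe K m q C)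
    (hkap : 0 < kap) (hkap1 : kap ≤ 1) (hη : 0 < η) (hη1 : η ≤ 1) (hε : 0 < ε)
    (hε1 : ε ≤ 1 / 4) (hu0 : 0 ≤ u0) (hu1 : u0 ≤ 1)
    (hvar : ∀ B, 0 ≤ B → ∃ C, 0 ≤ C ∧ VarBound κ B C) {e : ℝ} (he : 0 < e) :
    ∃ N₀ : ℕ, ∀ N : ℕ, N₀ ≤ N →
      ∀ [MeasurableSpace (orthogonalGroup (Fin N) ℝ)] [BorelSpace (orthogonalGroup (Fin N) ℝ)]
        (ν : Measure (orthogonalGroup (Fin N) ℝ)) [IsProbabilityMeasure ν] [ν.IsMulLeftInvariant]
        (c : Fin N → Fin κ) (P : Pm κ), IsOpt ν K m q c kap η ε u0 b0 P → ∀ k,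
        (∃ C, EU ν (fun U => (mdl K m c P U).Ex (fun _ x => |Rb c U k x x - C|)) ≤ e) ∧
        ∀ l, 1 ≤ l → l ≤ K →
          ∃ C, EU ν (fun U => (mdl K m c P U).Ex (fun z x => |hb c U k l z x - C|)) ≤ e := by
  set D := |C + ∑ k, |b0 k| + (2 * κ + 2) * (K + 1)| with hD
  have hD0 : 0 ≤ D := abs_nonneg _
  have hS0 : 0 ≤ ∑ k, |b0 k| := Finset.sum_nonneg fun _ _ => abs_nonneg _
  have hεD : 0 ≤ ε * D := by (clear * - hε; positivity)
  have hkD : 0 ≤ 2 / kap * D := by (clear * - hkap; positivity)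
  have hK0 : (0 : ℝ) ≤ K := Nat.cast_nonneg K
  set B := ∑ k, |b0 k| + 8 * (ε * D) + 2 / kap * D + 4 * K + 4 with hB
  obtain ⟨CV, hCV, hvb⟩ := hvar B (by (clear * - hε hkap; positivity))
  have hm1 : 0 < m 1 := by
    have := hm.2.2 0 (Nat.zero_le _)
    rwa [hm.1] at this
  obtain ⟨N₀, hN₀⟩ := d2_num (a := Real.log 2 / m 1) (b := 2 / ε) (C := CV) (e := e)
    (div_nonneg (Real.log_nonneg (by norm_num)) hm1.le) (by positivity) hCV he
  refine ⟨N₀, fun N hN _ _ ν _ _ c P hP k => ?_⟩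
  obtain ⟨hN1, t, ht, ht1, hle⟩ := hN₀ N hN
  have hN' : (0 : ℝ) < N := by exact_mod_cast hN1
  obtain ⟨-, hb1, hb2, hb3⟩ := d2_bd hm hq hq1 hN1 hC hP hkap hkap1 hη hη1 hε hε1 hu0 hu1
    (le_abs_self (C + ∑ k, |b0 k| + (2 * κ + 2) * (K + 1)))
  rw [← hD] at hb1 hb2 hb3
  -- bounds of the shifted parameters
  have vb : ∀ r : ℝ, |r| ≤ 1 → EU ν (fun U => |(mdl K m c (Pm.addb P k r) U).fe -
      EU ν (fun V => (mdl K m c (Pm.addb P k r) V).fe)|) ≤ CV * √N := by
    intro r hr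
    refine hvb N K m c (Pm.addb P k r) ν hN1 hm hP.adm.s0 hP.adm.u0 (fun k' => ?_)
      (hb2.trans (by linarith)) (fun k' => (hb3 k').trans (by linarith only [hS0, hεD, hkD]))
    have h1 : (Pm.addb P k r).b k' = Function.update P.b k (P.b k + r) k' := rfl
    rw [h1]
    by_cases hk : k' = k
    · rw [hk, Function.update_self]
      have := abs_add_le (P.b k) r
      have := hb1 k
      linarith
    · rw [Function.update_of_ne hk]
      have := hb1 k'
      linarith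
  have vu : ∀ l, 1 ≤ l → l ≤ K → ∀ r : ℝ, |r| ≤ 1 →
      (∀ k', (Pm.addu P k l r).u k' 0 = 0) ∧
      EU ν (fun U => |(mdl K m c (Pm.addu P k l r) U).fe -
      EU ν (fun V => (mdl K m c (Pm.addu P k l r) V).fe)|) ≤ CV * √N := by
    intro l hl hlK r hr
    have h0 : ∀ k', (Pm.addu P k l r).u k' 0 = 0 := by
      intro k'
      change Function.update P.u k (Function.update (P.u k) l (P.u k l + r)) k' 0 = 0
      by_cases hk : k' = k
      · rw [hk, Function.update_self, Function.update_of_ne (by omega)]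
        exact hP.adm.u0 k
      · rw [Function.update_of_ne hk]
        exact hP.adm.u0 k'
    refine ⟨h0, hvb N K m c (Pm.addu P k l r) ν hN1 hm hP.adm.s0 h0
      (fun k' => (hb1 k').trans (by linarith)) (hb2.trans (by linarith)) (fun k' => ?_)⟩
    have h1 : (Pm.addu P k l r).u k' =
        Function.update P.u k (Function.update (P.u k) l (P.u k l + r)) k' := rfl
    rw [h1]
    by_cases hk : k' = k
    · rw [hk, Function.update_self]
      have h2 : ∀ i ∈ Finset.range (K + 1), Function.update (P.u k) l (P.u k l + r) i ^ 2 ≤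
          2 * P.u k i ^ 2 + (if i = l then 2 else 0) := by
        intro i _
        by_cases hi : i = l
        · rw [hi, Function.update_self, if_pos rfl]
          have h3 : r ^ 2 ≤ 1 := by
            rw [← sq_abs]
            nlinarith only [hr, abs_nonneg r]
          nlinarith only [h3, sq_nonneg (P.u k l - r)]
        · rw [Function.update_of_ne hi, if_neg hi]
          nlinarith only []
      have h4 := Finset.sum_le_sum h2
      rw [Finset.sum_add_distrib, ← Finset.mul_sum, Finset.sum_ite_eq',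
        if_pos (Finset.mem_range.2 (by omega))] at h4
      have := hb3 k
      linarith only [hS0, hkD, h4, this]
    · rw [Function.update_of_ne hk]
      have := hb3 k'
      linarith only [hS0, hεD, hkD, this]
  have ht' : |t| ≤ 1 := by rwa [abs_of_pos ht]
  have ht'' : |(-t)| ≤ 1 := by rwa [abs_neg]
  constructor
  · obtain ⟨a, ha⟩ := d2_key (P1 := Pm.addb P k t) (P2 := Pm.addb P k (-t)) hm hN1
      (V := fun U _ x => (N : ℝ) / 2 * Rb c U k x x)
      (fun U => Sy.Nh.snd fun x => (N : ℝ) / 2 * Rb c U k x x) ht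
      (fun U => d2_pt_b hN1 k t) (fun U => d2_pt_b hN1 k (-t)) hP.adm.s0 hP.adm.u0
      hP.adm.s0 hP.adm.u0 (hP.second_b k t) (vb t ht') (vb (-t) ht'') (r := 2 / N) (by positivity)
    refine ⟨a, le_trans (le_of_eq ?_) (ha.trans hle)⟩
    congr 1
    funext U
    congr 1
    funext z x
    congr 2
    (clear * - hN1; field_simp)
  · intro l hl hlK
    obtain ⟨a, ha⟩ := d2_key (P1 := Pm.addu P k l t) (P2 := Pm.addu P k l (-t)) hm hN1
      (V := fun U z x => (N : ℝ) * hb c U k l z x)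
      (fun U => Sy.Nh.const_mul _ (mdl_nh_hb k l)) ht
      (fun U => d2_pt_u hN1 k hlK t) (fun U => d2_pt_u hN1 k hlK (-t)) hP.adm.s0
      (vu l hl hlK t ht').1 hP.adm.s0 (vu l hl hlK (-t) ht'').1 (hP.second_u k hl hlK t)
      (vu l hl hlK t ht').2 (vu l hl hlK (-t) ht'').2 (r := 1 / N) (by (clear * - hN1; positivity))
    refine ⟨a, le_trans (le_of_eq ?_) ((ha.trans ?_).trans hle)⟩
    · congr 1
      funext U
      congr 1
      funext z x
      congr 2
      (clear * - hN1; field_simp)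
    · refine mul_le_mul_of_nonneg_right ?_ ?_
      · exact div_le_div_of_nonneg_right (by norm_num) hN'.le
      · have : 0 ≤ Real.log 2 / m 1 := div_nonneg (Real.log_nonneg (by norm_num)) hm1.le
        (clear * - ht hm1 hN1 hε hCV; positivity)

end Vale.Agent.P166.U
end
end

section

section

/-! Task F-REF: refinement of the exponents. -/

open MeasureTheory Finset Filter Topology

namespace Vale.Agent.P166.F

open Vale.Agent.P157 Vale.Agent.P157.Lv

/-- A sum against the increments of the refined exponents. -/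
theorem sum_rf {n k : ℕ} {m : ℕ → ℝ} (q : ℕ → ℝ) (f : ℝ → ℝ) (hn : 0 < n) :
    ∑ l ∈ range (rfk n k + 1), (rfm n m (l + 1) - rfm n m l) * f (rfp n q l) =
      ∑ l ∈ range (k + 1), (m (l + 1) - m l) * f (q l) := by
  have hn' : (n : ℝ) ≠ 0 := by exact_mod_cast hn.ne'
  rw [rf_rfk_succ hn, rf_blk_sum]
  refine Finset.sum_congr rfl fun b _ => ?_
  have h1 : ∀ i ∈ Finset.range n, (rfm n m (b * n + i + 1) - rfm n m (b * n + i)) *
      f (rfp n q (b * n + i)) = 1 / n * (m (b + 1) - m b) * f (q b) := by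
    intro i hi
    rw [Finset.mem_range] at hi
    rw [rf_sub_block b hi]
    unfold rfp
    rw [rf_div b hi]
  rw [Finset.sum_congr rfl h1, Finset.sum_const, Finset.card_range, nsmul_eq_mul]
  field_simp

theorem specPart_rf {n k : ℕ} {m q : ℕ → ℝ} (β : ℝ) (μ : Measure ℝ) (hn : 0 < n)
    (hm : Par.Exponents k m) :
    specPart β μ (rfk n k) (rfm n m) (rfp n q) = specPart β μ k m q := by
  unfold specPart
  have h : ∀ s : ℝ, ∑ l ∈ range (rfk n k + 1),
      (rfm n m (l + 1) - rfm n m l) * max (rfp n q l - s) 0 =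
      ∑ l ∈ range (k + 1), (m (l + 1) - m l) * max (q l - s) 0 := fun s =>
    sum_rf q (fun x => max (x - s) 0) hn
  simp only [h]

theorem Jf_bav {n k : ℕ} {m q r : ℕ → ℝ} (β : ℝ) (μ : Measure ℝ) (hn : 0 < n)
    (hm : Par.Exponents k m) (hr : Par.Path (rfk n k) r) :
    Jf β μ (rfk n k) (rfm n m) (rfp n q) r ≤ Jf β μ k m q (bav n r) := by
  unfold Jf
  rw [specPart_rf β μ hn hm, sum_bav hn hm]
  have h := spinPart_bav hn hm hr
  linarith

end Vale.Agent.P166.F
end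
end

section

section

/-!
The tangent inequality for functions on the cone of strictly increasing paths whose gradient is
nonincreasing in the other coordinates and nondecreasing along the diagonal.
-/

open Set Filter Topology

namespace Vale.Agent.P157.Par

variable {k : ℕ} {w : ℕ → ℝ} {G : (ℕ → ℝ) → ℝ} {R : (ℕ → ℝ) → ℕ → ℝ}

end Vale.Agent.P157.Par
end
end

section

section

/-!
The enriched model of P166 as a general system with Haar patterns, and its loop equations.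
-/

open MeasureTheory ProbabilityTheory Filter Topology Matrix
open Vale.Agent.P157.Lv Vale.Agent.P157.Lv.Sy Vale.Agent.P157.Par
open Vale.Agent.P157 (spin)
open Vale.Agent.P166.Conc (OG)
open Vale.Agent.P166.F (Hm frac)

namespace Vale.Agent.P166.H

open Vale.Agent Md

set_option linter.unusedSectionVars false

variable {N K κ : ℕ}

/-- The enriched model as a system with Haar patterns. -/
noncomputable def mG (K : ℕ) (m : ℕ → ℝ) (c : Fin N → Fin κ) (P : Pm κ) :
    GS N (Ix N K) (Fin N → Bool) where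
  lev := lvl
  K := K
  m := m
  sg := spin
  E0 := fun z x => ∑ l ∈ Finset.range (K + 1), P.s l * ∑ i, z (sco l i) * spin x i
  lam := fun i => P.b (c i)
  kap := fun _ _ => 0
  u := fun i l => P.u (c i) l
  bc := bco

lemma mG_sy (K : ℕ) (m : ℕ → ℝ) (c : Fin N → Fin κ) (P : Pm κ) (U : Matrix (Fin N) (Fin N) ℝ) :
    mdl K m c P U = (mG K m c P).sy U := by
  unfold Md.mdl GS.sy
  have : Md.en c P U = (mG K m c P).en U := by
    funext z x
    simp only [Md.en, GS.en, GS.ev, mG, GS.y, ph, zero_mul, Finset.sum_const_zero, add_zero]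
    ring
  rw [this]
  rfl

lemma ofNat_val {K l : ℕ} (hl : l ≤ K) : ((Fin.ofNat (K + 1) l : Fin (K + 1)) : ℕ) = l :=
  Nat.mod_eq_of_lt (Nat.lt_succ_of_le hl)

lemma mG_ok {m : ℕ → ℝ} (hm : Exponents K m) (c : Fin N → Fin κ) (P : Pm κ) :
    (mG K m c P).Ok := by
  obtain ⟨h0, h1, h2⟩ := hm
  refine ⟨h0, h1, fun l hl => (h2 l hl).le, ?_, fun e => Nat.lt_succ_iff.1 e.1.2, fun x => ?_,
    fun x => ?_, fun x z w h => ?_, ?_, fun l hl i => ofNat_val hl⟩
  · have := h2 0 (Nat.zero_le _)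
    rwa [h0] at this
  · show ∑ i, spin x i ^ 2 = (N : ℝ)
    have : ∀ i, spin x i ^ 2 = 1 := fun i => by
      unfold spin
      split_ifs <;> norm_num
    simp only [this, Finset.sum_const, Finset.card_univ, Fintype.card_fin, nsmul_eq_mul, mul_one]
  · show Lip fun z : Ix N K → ℝ => ∑ l ∈ Finset.range (K + 1),
      P.s l * ∑ i, z (sco l i) * spin x i
    refine Lip.sum _ fun l _ => Lip.const_mul (Lip.sum _ fun i _ => ?_) _
    have h := (Lip.coord (ι := Ix N K) (sco l i)).const_mul (spin x i)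
    have e : (fun z : Ix N K → ℝ => z (sco l i) * spin x i) =
        fun z => spin x i * z (sco l i) := by funext z; ring
    rw [e]
    exact h
  · show ∑ l ∈ Finset.range (K + 1), P.s l * ∑ i, z (sco l i) * spin x i =
      ∑ l ∈ Finset.range (K + 1), P.s l * ∑ i, w (sco l i) * spin x i
    refine Finset.sum_congr rfl fun l _ => ?_
    congr 1
    refine Finset.sum_congr rfl fun i _ => ?_
    rw [h (sco l i) fun l' _ i' he => ?_]
    have := congrArg (fun e : Ix N K => e.2.1) he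
    simp only [sco, Fin.ofNat_eq_cast, mG, bco, Bool.true_eq_false] at this
  · intro l hl l' hl' i i' h
    have h1 := congrArg (fun e : Ix N K => (e.1 : ℕ)) h
    have h2 := congrArg (fun e : Ix N K => e.2.2) h
    simp only [mG, bco] at h1 h2
    have e1 : ((Fin.ofNat (K + 1) l : Fin (K + 1)) : ℕ) = l := ofNat_val hl
    have e2 : ((Fin.ofNat (K + 1) l' : Fin (K + 1)) : ℕ) = l' := ofNat_val hl'
    rw [← e1, ← e2]
    exact ⟨h1, h2⟩

/-- The block `k`. -/
def hblk (c : Fin N → Fin κ) (k : Fin κ) : Finset (Fin N) := Finset.univ.filter fun i => c i = k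

lemma Rb_R (K : ℕ) (m : ℕ → ℝ) (c : Fin N → Fin κ) (P : Pm κ) (U : Matrix (Fin N) (Fin N) ℝ)
    (k : Fin κ) (x x' : Fin N → Bool) : Rb c U k x x' = (mG K m c P).R (hblk c k) U x x' := by
  unfold Rb GS.R hblk
  rw [Finset.sum_filter]
  rfl

variable [MeasurableSpace (OG N)] [BorelSpace (OG N)]
  (ν : Measure (OG N)) [IsProbabilityMeasure ν]

lemma dS_eq (m : ℕ → ℝ) (c : Fin N → Fin κ) (P : Pm κ) (k : Fin κ) (ρ : ℝ) :
    GS.dS ν (mG K m c P) (hblk c k) ρ =
      EU ν (fun U => (mdl K m c P U).Ex (fun _ x => |Rb c U k x x - ρ|)) := by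
  unfold GS.dS GS.eS EU
  simp only [mG_sy K m c P, Rb_R K m c P]

lemma dP_eq (m : ℕ → ℝ) (c : Fin N → Fin κ) (P : Pm κ) (k : Fin κ) (r : ℕ → ℝ) (l : ℕ) :
    GS.dP ν (mG K m c P) (hblk c k) r l =
      EU ν (fun U => (mdl K m c P U).pairEx l (fun x x' => |Rb c U k x x' - r l|)) := by
  unfold GS.dP GS.eP EU
  simp only [mG_sy K m c P, Rb_R K m c P]

lemma Rb_le {m : ℕ → ℝ} (hm : Exponents K m) (hN : 0 < N) (c : Fin N → Fin κ) (P : Pm κ)
    (U : OG N) (k : Fin κ) (x x' : Fin N → Bool) : |Rb c U.1 k x x'| ≤ 1 := by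
  rw [Rb_R K m c P]
  exact (mG_ok hm c P).R_le hN _ U x x'

lemma rho_abs_le {m : ℕ → ℝ} (hm : Exponents K m) (hN : 0 < N) (c : Fin N → Fin κ) (P : Pm κ)
    (k : Fin κ) : |rho ν K m c P k| ≤ 1 := by
  have h : ∀ U : OG N, |(mdl K m c P U.1).Ex (fun _ x => Rb c U.1 k x x)| ≤ 1 := fun U => by
    have hG : RegG (mdl K m c P U.1) := by rw [mG_sy]; exact (mG_ok hm c P).regG U.1
    exact hG.abs_Ex_le_const (Nh.snd _) fun _ x => Rb_le hm hN c P U k x x
  unfold rho EU
  have := norm_integral_le_of_norm_le_const (μ := ν) (C := 1)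
    (f := fun U : OG N => (mdl K m c P U.1).Ex (fun _ x => Rb c U.1 k x x))
    (Eventually.of_forall h)
  simpa only [ge_iff_le, Real.norm_eq_abs, probReal_univ, mul_one] using this

lemma Rkl_abs_le {m : ℕ → ℝ} (hm : Exponents K m) (hN : 0 < N) (c : Fin N → Fin κ) (P : Pm κ)
    (k : Fin κ) {l : ℕ} (hl : l ≤ K) : |Rkl ν K m c P k l| ≤ 1 := by
  have h : ∀ U : OG N, |(mdl K m c P U.1).pairEx l (Rb c U.1 k)| ≤ 1 := fun U => by
    have hR : (mdl K m c P U.1).Reg := by rw [mG_sy]; exact (mG_ok hm c P).reg U.1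
    rw [abs_le]
    constructor
    · have h1 := hR.pairEx_mono (l := l) hl (ψ := fun _ _ => -1) (ψ' := Rb c U.1 k)
        fun x x' => (abs_le.1 (Rb_le hm hN c P U k x x')).1
      rwa [hR.pairEx_const (l := l) hl] at h1
    · have h1 := hR.pairEx_mono (l := l) hl (ψ := Rb c U.1 k) (ψ' := fun _ _ => 1)
        fun x x' => (abs_le.1 (Rb_le hm hN c P U k x x')).2
      rwa [hR.pairEx_const (l := l) hl] at h1
  unfold Rkl EU
  have := norm_integral_le_of_norm_le_const (μ := ν) (C := 1)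
    (f := fun U : OG N => (mdl K m c P U.1).pairEx l (Rb c U.1 k))
    (Eventually.of_forall h)
  simpa only [ge_iff_le, Real.norm_eq_abs, probReal_univ, mul_one] using this

variable [ν.IsMulLeftInvariant]

open Vale.Agent.P166.U (Mk LE Dv)

omit [BorelSpace (OG N)] [IsProbabilityMeasure ν] [ν.IsMulLeftInvariant] in
lemma LE_d (m : ℕ → ℝ) (c : Fin N → Fin κ) (P : Pm κ) (k k' : Fin κ) :
    (LE ν K m c P k k').d = -(GS.al N (hblk c k) * rho ν K m c P k' -
        GS.al N (hblk c k') * rho ν K m c P k + (P.b k - P.b k') *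
          GS.md ((mG K m c P).sy 0) (rho ν K m c P k) (rho ν K m c P k') (Rkl ν K m c P k)
            (Rkl ν K m c P k')) := by
  have e : GS.md ((mG K m c P).sy 0) (rho ν K m c P k) (rho ν K m c P k') (Rkl ν K m c P k)
      (Rkl ν K m c P k') = (Hm.mul K m (Mk ν K m c P k) (Mk ν K m c P k')).d := rfl
  rw [e]
  have e1 : GS.al N (hblk c k) = frac c k := rfl
  have e2 : GS.al N (hblk c k') = frac c k' := rfl
  rw [e1, e2]
  have e3 : ∀ M : Hm, frac c k' * (Mk ν K m c P k).d - frac c k * (Mk ν K m c P k').d +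
    (P.b k' - P.b k) * M.d = -(frac c k * rho ν K m c P k' - frac c k' * rho ν K m c P k +
      (P.b k - P.b k') * M.d) := fun M => by
    simp only [Mk]
    ring
  exact e3 _

omit [BorelSpace (OG N)] [IsProbabilityMeasure ν] [ν.IsMulLeftInvariant] in
lemma LE_e (m : ℕ → ℝ) (c : Fin N → Fin κ) (P : Pm κ) (k k' : Fin κ) (l : ℕ) :
    (LE ν K m c P k k').e l = -(GS.al N (hblk c k) * Rkl ν K m c P k' l -
        GS.al N (hblk c k') * Rkl ν K m c P k l + (P.b k - P.b k') *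
          GS.me ((mG K m c P).sy 0) (rho ν K m c P k) (rho ν K m c P k') (Rkl ν K m c P k)
            (Rkl ν K m c P k') l) := by
  have e : GS.me ((mG K m c P).sy 0) (rho ν K m c P k) (rho ν K m c P k') (Rkl ν K m c P k)
      (Rkl ν K m c P k') l = (Hm.mul K m (Mk ν K m c P k) (Mk ν K m c P k')).e l := by
    have h : ∀ (a b c d x y z : ℝ), a + b - c + (x - 2 * y) * z - d =
      a + b - (2 * y - x) * z - c - d := fun a b c d x y z => by ring
    exact h _ _ _ _ _ _ _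
  rw [e]
  have e1 : GS.al N (hblk c k) = frac c k := rfl
  have e2 : GS.al N (hblk c k') = frac c k' := rfl
  rw [e1, e2]
  have e3 : ∀ M : Hm, frac c k' * (Mk ν K m c P k).e l - frac c k * (Mk ν K m c P k').e l +
    (P.b k' - P.b k) * M.e l = -(frac c k * Rkl ν K m c P k' l - frac c k' * Rkl ν K m c P k l +
      (P.b k - P.b k') * M.e l) := fun M => by
    simp only [Mk]
    ring
  exact e3 _

/-- The sum of the errors. -/
lemma loop_num {K : ℕ} {m : ℕ → ℝ} {s s' T B b dl x0 : ℝ} {d d' x : ℕ → ℝ}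
    (hp0 : ∀ l ∈ Finset.range (K + 1), 0 ≤ m (l + 1) - m l)
    (hsum : ∑ l ∈ Finset.range (K + 1), (m (l + 1) - m l) = 1) (hs0 : 0 ≤ s) (hs0' : 0 ≤ s')
    (hd0 : ∀ l ∈ Finset.range (K + 1), 0 ≤ d l) (hd0' : ∀ l ∈ Finset.range (K + 1), 0 ≤ d' l)
    (hb : |b| ≤ 2 * B) (hdl : 0 ≤ dl)
    (eT : T = s + s' + 2 * ∑ l ∈ Finset.range (K + 1), (m (l + 1) - m l) * (d l + d' l))
    (h1 : |x0| ≤ (s + s') + |b| * T + 32 * (K + 1) * dl)
    (h2 : ∀ l ∈ Finset.range (K + 1), |x l| ≤ (d l + d' l) + |b| * (T + 4 * (d l + d' l)) +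
      112 * (K + 1) * dl) :
    |x0| + ∑ l ∈ Finset.range (K + 1), (m (l + 1) - m l) * |x l| ≤
      (144 + 16 * B) * ((s + ∑ l ∈ Finset.range (K + 1), (m (l + 1) - m l) * d l) +
        (s' + ∑ l ∈ Finset.range (K + 1), (m (l + 1) - m l) * d' l) + (K + 1) * dl) := by
  obtain ⟨E, hE⟩ : ∃ E, E = ∑ l ∈ Finset.range (K + 1), (m (l + 1) - m l) * d l := ⟨_, rfl⟩
  obtain ⟨E', hE'⟩ : ∃ E', E' = ∑ l ∈ Finset.range (K + 1), (m (l + 1) - m l) * d' l := ⟨_, rfl⟩
  have hEE : ∑ l ∈ Finset.range (K + 1), (m (l + 1) - m l) * (d l + d' l) = E + E' := by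
    rw [hE, hE', ← Finset.sum_add_distrib]
    exact Finset.sum_congr rfl fun l _ => by ring
  have hE0 : 0 ≤ E := by
    rw [hE]; exact Finset.sum_nonneg fun l hl => mul_nonneg (hp0 l hl) (hd0 l hl)
  have hE0' : 0 ≤ E' := by
    rw [hE']; exact Finset.sum_nonneg fun l hl => mul_nonneg (hp0 l hl) (hd0' l hl)
  rw [hEE] at eT
  have hB0 : 0 ≤ B := by have := abs_nonneg b; linarith only [hb, this]
  have hT0 : 0 ≤ T := by rw [eT]; positivity
  have hbT : |b| * T ≤ 2 * B * T := mul_le_mul_of_nonneg_right hb hT0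
  have h3 : ∑ l ∈ Finset.range (K + 1), (m (l + 1) - m l) * |x l| ≤
      (1 + 8 * B) * (E + E') + 2 * B * T + 112 * (K + 1) * dl := by
    have h4 : ∑ l ∈ Finset.range (K + 1), (m (l + 1) - m l) * |x l| ≤
        ∑ l ∈ Finset.range (K + 1), (m (l + 1) - m l) *
          ((1 + 8 * B) * (d l + d' l) + 2 * B * T + 112 * (K + 1) * dl) := by
      refine Finset.sum_le_sum fun l hl => mul_le_mul_of_nonneg_left ((h2 l hl).trans ?_)
        (hp0 l hl)
      have hdd : 0 ≤ d l + d' l := add_nonneg (hd0 l hl) (hd0' l hl)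
      have h5 := mul_le_mul_of_nonneg_right hb (by positivity : 0 ≤ T + 4 * (d l + d' l))
      linarith only [h5]
    refine h4.trans (le_of_eq ?_)
    have h5 : ∀ l ∈ Finset.range (K + 1), (m (l + 1) - m l) *
          ((1 + 8 * B) * (d l + d' l) + 2 * B * T + 112 * (K + 1) * dl) =
        (1 + 8 * B) * ((m (l + 1) - m l) * (d l + d' l)) +
          (2 * B * T + 112 * (K + 1) * dl) * (m (l + 1) - m l) := fun l _ => by ring
    rw [Finset.sum_congr rfl h5, Finset.sum_add_distrib, ← Finset.mul_sum, ← Finset.mul_sum,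
      hEE, hsum]
    ring
  rw [← hE, ← hE']
  have hK0 : (0 : ℝ) ≤ K := Nat.cast_nonneg K
  have h6 : |x0| + ∑ l ∈ Finset.range (K + 1), (m (l + 1) - m l) * |x l| ≤
      (s + s') + (1 + 8 * B) * (E + E') + 4 * B * T + 144 * (K + 1) * dl := by linarith only [h1, hbT, h3]
  refine h6.trans ?_
  rw [eT]
  have q1 : 0 ≤ B * (s + s') := by positivity
  have q2 : 0 ≤ B * (E + E') := by positivity
  have q3 : 0 ≤ B * ((K + 1) * dl) := by positivity
  linarith only [hs0, hs0', hE0, hE0', q1, q3]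

/-- **The loop equations of the enriched model.** -/
theorem loop_mdl {m : ℕ → ℝ} (hm : Exponents K m) (hN : 0 < N) (c : Fin N → Fin κ) (P : Pm κ)
    {B dl : ℝ} (hB : ∀ k, |P.b k| ≤ B) (hu : ∀ k, ∀ l ≤ K, |P.u k l| ≤ dl) (hdl0 : 0 ≤ dl)
    (hdl : dl ≤ 1) {k k' : Fin κ} (hk : k ≠ k') : Hm.nrm K m (LE ν K m c P k k') ≤
      (144 + 16 * B) * (Dv ν K m c P k + Dv ν K m c P k' + (K + 1) * dl) := by
  have hA := mG_ok hm c P
  have hBk : (mG K m c P).Blk (hblk c k) (hblk c k') (P.b k) (P.b k') dl := by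
    refine ⟨fun p hp q hq h => ?_, fun p hp => ?_, fun q hq => ?_, fun _ _ _ => rfl,
      fun _ _ _ => rfl, fun i l hl => hu _ l hl, hdl0, hdl⟩
    · simp only [hblk, Finset.mem_filter, Finset.mem_univ, true_and] at hp hq
      exact hk (by rw [← hp, ← hq, h])
    · simp only [hblk, Finset.mem_filter, Finset.mem_univ, true_and] at hp
      show P.b (c p) = P.b k
      rw [hp]
    · simp only [hblk, Finset.mem_filter, Finset.mem_univ, true_and] at hq
      show P.b (c q) = P.b k'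
      rw [hq]
  have hρ := rho_abs_le ν hm hN c P k'
  have hr : ∀ i ≤ (mG K m c P).K, |Rkl ν K m c P k' i| ≤ 1 := fun i hi =>
    Rkl_abs_le ν hm hN c P k' hi
  have L1 := hA.loop_one_block ν hN hBk (ρ := rho ν K m c P k) (r := Rkl ν K m c P k) hρ hr
  have L2 := fun l (hl : l ≤ K) => hA.loop_pair_block ν hN hBk (l := l) hl
    (ρ := rho ν K m c P k) (r := Rkl ν K m c P k) hρ hr
  have hp0 : ∀ l ∈ Finset.range (K + 1), 0 ≤ m (l + 1) - m l := fun l hl =>
    sub_nonneg.2 (hm.2.2 l (Nat.lt_succ_iff.1 (Finset.mem_range.1 hl))).le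
  have hsum : ∑ l ∈ Finset.range (K + 1), (m (l + 1) - m l) = 1 := by
    rw [Finset.sum_range_sub, hm.1, hm.2.1, sub_zero]
  have hs0 : 0 ≤ GS.dS ν (mG K m c P) (hblk c k) (rho ν K m c P k) :=
    integral_nonneg fun U => (hA.regG U.1).Ex_nonneg
    (Nh.snd fun x => |(mG K m c P).R (hblk c k) U.1 x x - rho ν K m c P k|)
    fun _ _ => abs_nonneg _
  have hs0' : 0 ≤ GS.dS ν (mG K m c P) (hblk c k') (rho ν K m c P k') :=
    integral_nonneg fun U => (hA.regG U.1).Ex_nonneg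
    (Nh.snd fun x => |(mG K m c P).R (hblk c k') U.1 x x - rho ν K m c P k'|)
    fun _ _ => abs_nonneg _
  have hd0 : ∀ l ∈ Finset.range (K + 1),
      0 ≤ GS.dP ν (mG K m c P) (hblk c k) (Rkl ν K m c P k) l := fun l hl =>
    integral_nonneg fun U => hA.eP_nonneg _ _ (Nat.lt_succ_iff.1 (Finset.mem_range.1 hl)) U.1
  have hd0' : ∀ l ∈ Finset.range (K + 1),
      0 ≤ GS.dP ν (mG K m c P) (hblk c k') (Rkl ν K m c P k') l := fun l hl =>
    integral_nonneg fun U => hA.eP_nonneg _ _ (Nat.lt_succ_iff.1 (Finset.mem_range.1 hl)) U.1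
  -- the total deviations
  have eD : ∀ k, Dv ν K m c P k = GS.dS ν (mG K m c P) (hblk c k) (rho ν K m c P k) +
      ∑ l ∈ Finset.range (K + 1), (m (l + 1) - m l) *
        GS.dP ν (mG K m c P) (hblk c k) (Rkl ν K m c P k) l := by
    intro k
    unfold Dv
    rw [dS_eq]
    congr 1
    refine Finset.sum_congr rfl fun l _ => ?_
    rw [dP_eq]
  have hbb : |P.b k - P.b k'| ≤ 2 * B := by
    have h1 := abs_sub (P.b k) (P.b k')
    have h2 := hB k
    have h3 := hB k'
    linarith only [h1, h2, h3]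
  have hK : (((mG K m c P).K : ℕ) : ℝ) = K := rfl
  rw [eD k, eD k']
  unfold Hm.nrm
  refine loop_num hp0 hsum hs0 hs0' hd0 hd0' hbb hdl0 (T := GS.dT ν (mG K m c P) (hblk c k)
    (hblk c k') (rho ν K m c P k) (rho ν K m c P k') (Rkl ν K m c P k) (Rkl ν K m c P k')) rfl
    ?_ fun l hl => ?_
  · rw [LE_d, abs_neg]
    rw [hK] at L1
    exact L1
  · rw [LE_e, abs_neg]
    have h3 := L2 l (Nat.lt_succ_iff.1 (Finset.mem_range.1 hl))
    rw [hK] at h3
    exact h3

end Vale.Agent.P166.H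
end
end

section

section

/-!
The loop equations, in the form used for the upper bound.
-/

open MeasureTheory ProbabilityTheory Filter Topology Matrix

namespace Vale.Agent.P166.H

/-- **The loop equations hold up to the deviations.** -/
theorem loop_bound (κ : ℕ) (B : ℝ) (hB : 0 ≤ B) : ∃ C, 0 ≤ C ∧ U.LoopBound κ B C := by
  refine ⟨144 + 16 * B, by positivity, ?_⟩
  intro N K m c P _ _ ν _ _ dl hN hm hb hu hdl k k' hk
  exact loop_mdl ν hm hN c P hb hu ((abs_nonneg _).trans (hu k 0 (Nat.zero_le _))) hdl hk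

end Vale.Agent.P166.H
end
end

section

section

namespace Vale.Agent.P166

open MeasureTheory Matrix Filter Topology

/-- Empirical mean of the positive part. -/
noncomputable def pp {N : ℕ} (a : Fin N → ℝ) (t : ℝ) : ℝ := (1 / (N : ℝ)) * ∑ i, max (a i - t) 0

theorem pp_anti {N : ℕ} (a : Fin N → ℝ) {s t : ℝ} (h : s ≤ t) : pp a t ≤ pp a s := by
  unfold pp
  (clear * - h; gcongr with i)

theorem pp_lip {N : ℕ} (a : Fin N → ℝ) {s t : ℝ} (h : s ≤ t) : pp a s ≤ pp a t + (t - s) := by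
  unfold pp
  rcases Nat.eq_zero_or_pos N with hN | hN
  · subst hN; simp only [CharP.cast_eq_zero, div_zero, Finset.univ_eq_empty, Finset.sum_empty, mul_zero, zero_add, sub_nonneg]; exact h
  have hN' : (0 : ℝ) < N := by exact_mod_cast hN
  have h1 : ∑ i, max (a i - s) 0 ≤ ∑ i, (max (a i - t) 0 + (t - s)) := by
    apply Finset.sum_le_sum
    intro i _
    rcases le_total (a i - s) 0 with h1 | h1
    · rw [max_eq_right h1]
      have := le_max_right (a i - t) 0
      linarith only [h, this]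
    · rw [max_eq_left h1]
      have := le_max_left (a i - t) 0
      linarith only [this]
  rw [Finset.sum_add_distrib, Finset.sum_const, Finset.card_univ, Fintype.card_fin,
    nsmul_eq_mul] at h1
  calc 1 / (N : ℝ) * ∑ i, max (a i - s) 0 ≤
      1 / (N : ℝ) * (∑ i, max (a i - t) 0 + N * (t - s)) := by (clear * - h1 hN; gcongr)
    _ = 1 / (N : ℝ) * ∑ i, max (a i - t) 0 + (t - s) := by field_simp

theorem pp_zero {N : ℕ} (a : Fin N → ℝ) {R t : ℝ} (ha : ∀ i, a i ≤ R) (ht : R ≤ t) :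
    pp a t = 0 := by
  unfold pp
  have : ∀ i ∈ Finset.univ, max (a i - t) 0 = 0 := by
    intro i _
    apply max_eq_right
    linarith only [ht, ha i]
  rw [Finset.sum_congr rfl this]
  simp only [one_div, Finset.sum_const_zero, mul_zero]

theorem pp_low {N : ℕ} (hN : 0 < N) (a : Fin N → ℝ) {R t : ℝ} (ha : ∀ i, -R ≤ a i)
    (ht : t ≤ -R) : pp a t = pp a (-R) + (-R - t) := by
  unfold pp
  have h1 : ∀ i ∈ Finset.univ, max (a i - t) 0 = max (a i - (-R)) 0 + (-R - t) := by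
    intro i _
    rw [max_eq_left (by (clear * - ht ha; linarith [ha i])), max_eq_left (by linarith only [ha i])]
    ring
  rw [Finset.sum_congr rfl h1, Finset.sum_add_distrib, Finset.sum_const, Finset.card_univ,
    Fintype.card_fin, nsmul_eq_mul]
  have hN' : (0 : ℝ) < N := by exact_mod_cast hN
  field_simp

/-- Uniform domination from pointwise convergence. -/
theorem pp_unif (A B : (N : ℕ) → Fin N → ℝ) (f g : ℝ → ℝ) (R : ℝ)
    (hA : ∀ᶠ N in atTop, ∀ i, |A N i| ≤ R) (hB : ∀ᶠ N in atTop, ∀ i, |B N i| ≤ R)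
    (hf : ∀ t, Tendsto (fun N => pp (A N) t) atTop (𝓝 (f t)))
    (hg : ∀ t, Tendsto (fun N => pp (B N) t) atTop (𝓝 (g t)))
    (hfg : ∀ t, f t ≤ g t) (δ : ℝ) (hδ : 0 < δ) :
    ∀ᶠ N in atTop, ∀ t, pp (A N) t ≤ pp (B N) t + δ := by
  obtain ⟨K, hK⟩ := exists_nat_gt (2 * R / (δ / 2))
  have hgrid : ∀ᶠ N in atTop, ∀ k ∈ Finset.range (K + 1),
      pp (A N) (-R + k * (δ / 2)) ≤ pp (B N) (-R + k * (δ / 2)) + δ / 2 := by
    rw [Filter.eventually_all_finset]
    intro k _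
    have h1 := (hf (-R + k * (δ / 2))).eventually_lt_const
      (show f (-R + k * (δ / 2)) < f (-R + k * (δ / 2)) + δ / 4 by linarith only [hδ])
    have h2 := (hg (-R + k * (δ / 2))).eventually_const_lt
      (show g (-R + k * (δ / 2)) - δ / 4 < g (-R + k * (δ / 2)) by linarith only [hδ])
    filter_upwards [h1, h2] with N h1 h2
    have := hfg (-R + k * (δ / 2))
    linarith
  filter_upwards [hgrid, hA, hB, eventually_gt_atTop 0] with N hgrid hA hB hN t
  rcases le_total t (-R) with ht | ht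
  · rw [pp_low hN (A N) (fun i => (abs_le.mp (hA i)).1) ht,
      pp_low hN (B N) (fun i => (abs_le.mp (hB i)).1) ht]
    have := hgrid 0 (by simp)
    simp only [Nat.cast_zero, zero_mul, add_zero] at this
    linarith only [hδ, this]
  rcases le_total R t with ht2 | ht2
  · rw [pp_zero (A N) (fun i => (abs_le.mp (hA i)).2) ht2,
      pp_zero (B N) (fun i => (abs_le.mp (hB i)).2) ht2]
    linarith only [hδ]
  · set k := ⌊(t + R) / (δ / 2)⌋₊ with hk
    have hnn : 0 ≤ (t + R) / (δ / 2) := by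
      apply div_nonneg <;> linarith only [ht, hδ]
    have hk1 : (k : ℝ) ≤ (t + R) / (δ / 2) := Nat.floor_le hnn
    have hk2 : (t + R) / (δ / 2) < k + 1 := Nat.lt_floor_add_one _
    have hk1' : (k : ℝ) * (δ / 2) ≤ t + R := by
      rwa [le_div_iff₀ (by linarith only [hδ])] at hk1
    have hk2' : t + R < (k + 1) * (δ / 2) := by
      rwa [div_lt_iff₀ (by linarith only [hδ])] at hk2
    have hkK : k ∈ Finset.range (K + 1) := by
      rw [Finset.mem_range]
      have : (k : ℝ) < K := by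
        calc (k : ℝ) ≤ (t + R) / (δ / 2) := hk1
          _ ≤ 2 * R / (δ / 2) := by gcongr; linarith only [ht2]
          _ < K := hK
      have : k < K := by exact_mod_cast this
      omega
    have h1 := hgrid k hkK
    have h2 := pp_anti (A N) (show -R + k * (δ / 2) ≤ t by linarith only [hk1'])
    have h3 := pp_lip (B N) (show -R + k * (δ / 2) ≤ t by linarith only [hk1'])
    have h4 : t - (-R + k * (δ / 2)) ≤ δ / 2 := by linarith only [hk2']
    linarith only [hk2', h1, h2, h3]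

section Adm

variable {Λ : (N : ℕ) → Fin N → ℝ} {μ : Measure ℝ}

theorem le_iSup_fin {N : ℕ} (a : Fin N → ℝ) (i : Fin N) : a i ≤ ⨆ j, a j :=
  le_ciSup (Set.finite_range a).bddAbove i

theorem iInf_le_fin {N : ℕ} (a : Fin N → ℝ) (i : Fin N) : ⨅ j, a j ≤ a i :=
  ciInf_le (Set.finite_range a).bddBelow i

theorem Admissible.eventually_le (h : Admissible Λ μ) {ε : ℝ} (hε : 0 < ε) :
    ∀ᶠ N in atTop, ∀ i, Λ N i ≤ sSup μ.support + ε := by
  filter_upwards [h.largest.eventually_lt_const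
    (show sSup μ.support < sSup μ.support + ε by linarith)] with N hN i
  exact (le_iSup_fin (Λ N) i).trans hN.le

theorem Admissible.eventually_ge (h : Admissible Λ μ) {ε : ℝ} (hε : 0 < ε) :
    ∀ᶠ N in atTop, ∀ i, sInf μ.support - ε ≤ Λ N i := by
  filter_upwards [h.smallest.eventually_const_lt
    (show sInf μ.support - ε < sInf μ.support by linarith)] with N hN i
  exact hN.le.trans (iInf_le_fin (Λ N) i)

theorem ae_le_sSup [IsProbabilityMeasure μ] (hμ : IsCompact μ.support) :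
    ∀ᵐ x ∂μ, x ≤ sSup μ.support := by
  filter_upwards [Measure.support_mem_ae (μ := μ)] with x hx
  exact le_csSup hμ.bddAbove hx

theorem support_nonempty [IsProbabilityMeasure μ] : μ.support.Nonempty := by
  by_contra h
  rw [Set.not_nonempty_iff_eq_empty] at h
  have h1 := Measure.support_mem_ae (μ := μ)
  rw [h] at h1
  have h2 := mem_ae_iff.mp h1
  simp at h2

theorem tendsto_pp [IsProbabilityMeasure μ] (hμ : IsCompact μ.support)
    (h : Admissible Λ μ) (t : ℝ) :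
    Tendsto (fun N => pp (Λ N) t) atTop (𝓝 (∫ x, max (x - t) 0 ∂μ)) := by
  set R := sSup μ.support + 1 with hR
  let f : BoundedContinuousFunction ℝ ℝ :=
    BoundedContinuousFunction.mkOfBound ⟨fun x => max (min x R - t) 0, by (clear * -; fun_prop)⟩
      (2 * (|R| + |t|)) (by
        intro x y
        simp only [ContinuousMap.coe_mk]
        have hb : ∀ x : ℝ, |max (min x R - t) 0| ≤ |R| + |t| := by
          intro x
          rw [abs_of_nonneg (le_max_right _ _)]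
          apply max_le
          · have h1 : min x R ≤ |R| := (min_le_right _ _).trans (le_abs_self _)
            have h2 : -t ≤ |t| := neg_le_abs t
            linarith
          · (clear * -; positivity)
        rw [Real.dist_eq]
        calc |max (min x R - t) 0 - max (min y R - t) 0| ≤
            |max (min x R - t) 0| + |max (min y R - t) 0| := abs_sub _ _
          _ ≤ (|R| + |t|) + (|R| + |t|) := add_le_add (hb x) (hb y)
          _ = 2 * (|R| + |t|) := by ring)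
  have hf := h.weak f
  have hfx : ∀ x, f x = max (min x R - t) 0 := fun x => rfl
  have h1 : ∫ x, f x ∂μ = ∫ x, max (x - t) 0 ∂μ := by
    apply integral_congr_ae
    filter_upwards [ae_le_sSup hμ] with x hx
    rw [hfx, min_eq_left (by linarith)]
  rw [h1] at hf
  apply hf.congr'
  filter_upwards [h.eventually_le (show (0 : ℝ) < 1 by norm_num)] with N hN
  unfold pp
  congr 1
  apply Finset.sum_congr rfl
  intro i _
  rw [hfx, min_eq_left (hN i)]

theorem integrable_max [IsProbabilityMeasure μ] (hμ : IsCompact μ.support) (t : ℝ) :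
    Integrable (fun x => max (x - t) 0) μ := by
  apply Integrable.of_bound (C := |sSup μ.support| + |t|)
  · exact (by fun_prop : Continuous fun x : ℝ => max (x - t) 0).measurable.aestronglyMeasurable
  · filter_upwards [ae_le_sSup hμ] with x hx
    rw [Real.norm_eq_abs, abs_of_nonneg (le_max_right _ _)]
    apply max_le
    · have h1 := le_abs_self (sSup μ.support)
      have h2 : -t ≤ |t| := neg_le_abs t
      linarith
    · positivity

theorem integral_max_pos [IsProbabilityMeasure μ] (hμ : IsCompact μ.support) {t : ℝ}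
    (ht : t < sSup μ.support) : 0 < ∫ x, max (x - t) 0 ∂μ := by
  refine (integral_pos_iff_support_of_nonneg (f := fun x : ℝ => max (x - t) 0)
    (fun x => le_max_right _ _) (integrable_max hμ t)).mpr ?_
  have h1 : sSup μ.support ∈ μ.support := hμ.sSup_mem support_nonempty
  have h2 := (Measure.mem_support_iff_forall _).mp h1 (Set.Ioi t) (Ioi_mem_nhds ht)
  have h3 : Set.Ioi t ⊆ Function.support (fun x : ℝ => max (x - t) 0) := by
    intro x hx
    rw [Function.mem_support]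
    have : 0 < x - t := by
      have := Set.mem_Ioi.mp hx
      linarith
    rw [max_eq_left this.le]
    exact this.ne'
  exact h2.trans_le (measure_mono h3)

end Adm

section Compare

theorem pp_shift {N : ℕ} (a : Fin N → ℝ) (s t : ℝ) :
    pp (fun i => a i + s) t = pp a (t - s) := by
  unfold pp
  congr 1
  apply Finset.sum_congr rfl
  intro i _
  congr 1
  ring

variable [∀ N, MeasurableSpace (Matrix.orthogonalGroup (Fin N) ℝ)]
  [∀ N, BorelSpace (Matrix.orthogonalGroup (Fin N) ℝ)]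
  (ν : (N : ℕ) → Measure (Matrix.orthogonalGroup (Fin N) ℝ)) [∀ N, IsProbabilityMeasure (ν N)]
  [∀ N, (ν N).IsMulLeftInvariant]

/-- Asymptotic comparison principle (increasing convex order up to a shift). -/
theorem asym_compare {β : ℝ} (hβ : 0 ≤ β) (μ μ' : Measure ℝ) [IsProbabilityMeasure μ]
    [IsProbabilityMeasure μ'] (hμ : IsCompact μ.support) (hμ' : IsCompact μ'.support)
    (Λ Λ' : (N : ℕ) → Fin N → ℝ) (hΛ : Admissible Λ μ) (hΛ' : Admissible Λ' μ') (s : ℝ)
    (hicx : ∀ t, ∫ x, max (x - t) 0 ∂μ' ≤ ∫ x, max (x + s - t) 0 ∂μ) (ε : ℝ) (hε : 0 < ε) :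
    ∀ᶠ N : ℕ in atTop, (1 / (N : ℝ)) * FZ (ν N) β (Λ' N) ≤
      (1 / (N : ℝ)) * FZ (ν N) β (Λ N) + β / 2 * s + ε := by
  have hβ1 : 0 < β + 1 := by linarith
  set κ := ε / (2 * (β + 1)) with hκ
  have hκ0 : 0 < κ := by positivity
  set m' := sSup μ'.support with hm'
  set L := m' - κ with hL
  have hc0 : 0 < ∫ x, max (x - L) 0 ∂μ' := integral_max_pos hμ' (by linarith only [hκ0])
  set c0 := ∫ x, max (x - L) 0 ∂μ' with hc0def
  -- bounds for both arrays
  set R := |sSup μ.support| + |sInf μ.support| + |sSup μ'.support| + |sInf μ'.support| + |s| + 1 + |L|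
    with hR
  have hΛb : ∀ᶠ N in atTop, ∀ i, |Λ N i + s| ≤ R := by
    filter_upwards [hΛ.eventually_le one_pos, hΛ.eventually_ge one_pos] with N h1 h2 i
    rw [abs_le]
    have e1 := le_abs_self (sSup μ.support)
    have e2 := neg_abs_le (sInf μ.support)
    have e3 := neg_abs_le s
    have e4 := le_abs_self s
    have e5 := abs_nonneg (sSup μ.support)
    have e6 := abs_nonneg (sInf μ.support)
    have e7 := abs_nonneg (sSup μ'.support)
    have e8 := abs_nonneg (sInf μ'.support)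
    have e9 := abs_nonneg L
    constructor
    · have := h2 i; linarith only [e2, e3, e5, e7, e8, e9, this]
    · have := h1 i; linarith only [e1, e4, e6, e7, e8, e9, this]
  have hΛb' : ∀ᶠ N in atTop, ∀ i, |Λ' N i| ≤ R := by
    filter_upwards [hΛ'.eventually_le one_pos, hΛ'.eventually_ge one_pos] with N h1 h2 i
    rw [abs_le]
    have e1 := le_abs_self (sSup μ'.support)
    have e2 := neg_abs_le (sInf μ'.support)
    have e3 := abs_nonneg s
    have e5 := abs_nonneg (sSup μ.support)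
    have e6 := abs_nonneg (sInf μ.support)
    have e7 := abs_nonneg (sSup μ'.support)
    have e8 := abs_nonneg (sInf μ'.support)
    have e9 := abs_nonneg L
    constructor
    · have := h2 i; linarith only [e2, e3, e5, e6, e7, e9, this]
    · have := h1 i; linarith only [e1, e3, e5, e6, e8, e9, this]
  have hLR : L ≤ R := by
    have e1 := le_abs_self L
    have e5 := abs_nonneg (sSup μ.support)
    have e6 := abs_nonneg (sInf μ.support)
    have e7 := abs_nonneg (sSup μ'.support)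
    have e8 := abs_nonneg (sInf μ'.support)
    have e3 := abs_nonneg s
    linarith only [e1, e5, e6, e7, e8, e3]
  set c := c0 / (2 * (R - L + 1)) with hc
  have hcpos : 0 < c := by
    apply div_pos hc0
    linarith only [hLR]
  set δ := κ * c with hδ
  have hδ0 : 0 < δ := by (clear * - hε hβ hc0 hLR; positivity)
  have hu := pp_unif Λ' (fun N i => Λ N i + s) (fun t => ∫ x, max (x - t) 0 ∂μ')
    (fun t => ∫ x, max (x + s - t) 0 ∂μ) R hΛb' hΛb (fun t => tendsto_pp hμ' hΛ' t)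
    (fun t => by
      have := tendsto_pp hμ hΛ (t - s)
      have e : (fun x : ℝ => max (x - (t - s)) 0) = fun x => max (x + s - t) 0 := by
        ext x; congr 1; ring
      rw [e] at this
      simpa only [pp_shift] using this) hicx δ hδ0
  have hcnt : ∀ᶠ N in atTop, c0 / 2 ≤ pp (fun i => Λ N i + s) L := by
    have h1 := tendsto_pp hμ hΛ (L - s)
    have e : (fun x : ℝ => max (x - (L - s)) 0) = fun x => max (x + s - L) 0 := by
      ext x; congr 1; ring
    rw [e] at h1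
    have h2 := h1.eventually_const_lt (show c0 / 2 < ∫ x, max (x + s - L) 0 ∂μ by
      have := hicx L
      linarith only [hc0, this])
    filter_upwards [h2] with N h2
    rw [pp_shift]
    exact h2.le
  filter_upwards [hu, hcnt, hΛb, hΛb', hΛ'.eventually_le hκ0, eventually_gt_atTop 0] with
    N hu hcnt hb hb' htop hN
  have hN' : (0 : ℝ) < N := by exact_mod_cast hN
  -- the comparison at finite N
  have hmain : FZ (ν N) β (fun i => min (Λ' N i) L) ≤ FZ (ν N) β (fun i => (Λ N i + s) + κ) := by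
    apply FZ_icx (ν N) hβ
    intro t
    rcases le_total L t with hLt | htL
    · have : ∀ i ∈ Finset.univ, max (min (Λ' N i) L - t) 0 = 0 := by
        intro i _
        apply max_eq_right
        have := min_le_right (Λ' N i) L
        linarith only [hLt, this]
      rw [Finset.sum_congr rfl this]
      simp only [Finset.sum_const_zero]
      apply Finset.sum_nonneg
      intro i _
      exact le_max_right _ _
    · have h1 : ∑ i, max (min (Λ' N i) L - t) 0 ≤ ∑ i, max (Λ' N i - t) 0 := by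
        gcongr with i
        exact min_le_left _ _
      have h2 : ∑ i, max (Λ' N i - t) 0 ≤ ∑ i, max (Λ N i + s - t) 0 + δ * N := by
        have := hu t
        unfold pp at this
        have h3 := mul_le_mul_of_nonneg_left this hN'.le
        have e1 : (N : ℝ) * (1 / (N : ℝ) * ∑ i, max (Λ' N i - t) 0) =
          ∑ i, max (Λ' N i - t) 0 := by (clear * - hN; field_simp)
        have e2 : (N : ℝ) * (1 / (N : ℝ) * ∑ i, max (Λ N i + s - t) 0 + δ) =
          ∑ i, max (Λ N i + s - t) 0 + δ * N := by (clear * - hN hδ0; field_simp)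
        rw [e1, e2] at h3
        exact h3
      -- the count
      have h4 : δ * N ≤ κ * ((Finset.univ.filter (fun i => L ≤ Λ N i + s)).card : ℝ) := by
        have h5 : ∑ i, max (Λ N i + s - L) 0 ≤
            ∑ i, if L ≤ Λ N i + s then (R - L) else 0 := by
          apply Finset.sum_le_sum
          intro i _
          split_ifs with h
          · apply max_le
            · have := (abs_le.mp (hb i)).2
              linarith only [this]
            · linarith only [hLR]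
          · rw [max_eq_right]
            push Not at h
            linarith only [h]
        rw [← Finset.sum_filter, Finset.sum_const, nsmul_eq_mul] at h5
        unfold pp at hcnt
        have h6 : c0 / 2 * N ≤ ∑ i, max (Λ N i + s - L) 0 := by
          have h3 := mul_le_mul_of_nonneg_left hcnt hN'.le
          have e1 : (N : ℝ) * (1 / (N : ℝ) * ∑ i, max (Λ N i + s - L) 0) =
            ∑ i, max (Λ N i + s - L) 0 := by (clear * - hN; field_simp)
          rw [e1] at h3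
          linarith only [h3]
        have h7 : c0 / 2 * N ≤
            ((Finset.univ.filter (fun i => L ≤ Λ N i + s)).card : ℝ) * (R - L + 1) := by
          have : ((Finset.univ.filter (fun i => L ≤ Λ N i + s)).card : ℝ) * (R - L) ≤
            ((Finset.univ.filter (fun i => L ≤ Λ N i + s)).card : ℝ) * (R - L + 1) := by
            gcongr
            linarith only []
          linarith only [h5, h6]
        have h8 : c * N ≤ ((Finset.univ.filter (fun i => L ≤ Λ N i + s)).card : ℝ) := by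
          rw [hc, div_mul_eq_mul_div, div_le_iff₀ (by linarith only [hLR])]
          linarith only [h5, h6]
        calc δ * N = κ * (c * N) := by rw [hδ]; ring
          _ ≤ _ := by (clear * - h8 hε hβ; gcongr)
      have h9 : ∑ i, max (Λ N i + s - t) 0 +
          κ * ((Finset.univ.filter (fun i => L ≤ Λ N i + s)).card : ℝ) ≤
          ∑ i, max ((Λ N i + s) + κ - t) 0 := by
        have e : κ * ((Finset.univ.filter (fun i => L ≤ Λ N i + s)).card : ℝ) =
            ∑ i, if L ≤ Λ N i + s then κ else 0 := by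
          rw [← Finset.sum_filter, Finset.sum_const, nsmul_eq_mul]
          ring
        rw [e, ← Finset.sum_add_distrib]
        apply Finset.sum_le_sum
        intro i _
        split_ifs with h
        · rw [max_eq_left (by linarith only [htL, h]), max_eq_left (by linarith only [hκ0, htL, h])]
          linarith only []
        · rw [add_zero]
          apply max_le_max _ le_rfl
          linarith only [hκ0]
      linarith only [h1, h2, h4, h9]
  have h1 : FZ (ν N) β (Λ' N) ≤ FZ (ν N) β (fun i => min (Λ' N i) L + 2 * κ) := by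
    apply FZ_mono (ν N) hβ
    intro i
    have := htop i
    rcases le_total (Λ' N i) L with h | h
    · rw [min_eq_left h]; linarith only [hκ0]
    · rw [min_eq_right h]; linarith only [this]
  rw [FZ_shift (ν N) hβ] at h1
  have h2 : FZ (ν N) β (fun i => (Λ N i + s) + κ) =
      FZ (ν N) β (Λ N) + β / 2 * s * N + β / 2 * κ * N := by
    rw [FZ_shift (ν N) hβ, FZ_shift (ν N) hβ]
  rw [h2] at hmain
  have h3 : FZ (ν N) β (Λ' N) ≤
      FZ (ν N) β (Λ N) + β / 2 * s * N + β / 2 * κ * N + β / 2 * (2 * κ) * N := by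
    linarith only [hmain, h1]
  have h4 : (1 / (N : ℝ)) * FZ (ν N) β (Λ' N) ≤ (1 / (N : ℝ)) * (FZ (ν N) β (Λ N) +
      β / 2 * s * N + β / 2 * κ * N + β / 2 * (2 * κ) * N) := by (clear * - h3 hN; gcongr)
  have h5 : (1 / (N : ℝ)) * (FZ (ν N) β (Λ N) +
      β / 2 * s * N + β / 2 * κ * N + β / 2 * (2 * κ) * N) =
      (1 / (N : ℝ)) * FZ (ν N) β (Λ N) + β / 2 * s + 3 / 2 * (β * κ) := by
    field_simp
    ring
  have h6 : β * κ ≤ ε / 2 := by
    rw [hκ, mul_div_assoc', div_le_iff₀ (by (clear * - hβ; positivity))]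
    nlinarith only [hε]
  linarith only [hε, h4, h5, h6]

end Compare

end Vale.Agent.P166
end
end

section

section

namespace Vale.Agent.P166.Conc

open Matrix MeasureTheory ProbabilityTheory

variable {n : ℕ}

/-- sums over the cube are invariant under an involution preserving the cube -/
lemma sum_cube_invol {P : (Fin n → ℝ) → (Fin n → ℝ)} (hP : ∀ s ∈ cube n, P s ∈ cube n)
    (hPP : ∀ s, P (P s) = s) (g : (Fin n → ℝ) → ℝ) :
    ∑ s ∈ cube n, g (P s) = ∑ s ∈ cube n, g s := by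
  refine Finset.sum_bij' (fun s _ => P s) (fun s _ => P s) (fun s hs => hP s hs)
    (fun s hs => hP s hs) (fun s _ => hPP s) (fun s _ => hPP s) (fun s _ => rfl)

lemma en_conj (J : Matrix (Fin n) (Fin n) ℝ) (w s : Fin n → ℝ) :
    en (rfl' w * J * rfl' w) s = en J (rfl' w *ᵥ s) := by
  unfold en
  rw [← Matrix.mulVec_mulVec, ← Matrix.mulVec_mulVec, Matrix.dotProduct_mulVec s (rfl' w)]
  congr 1
  rw [← Matrix.mulVec_transpose, rfl'_transpose]

lemma rfl_invol (w s : Fin n → ℝ) : rfl' w *ᵥ (rfl' w *ᵥ s) = s := by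
  rw [Matrix.mulVec_mulVec, rfl'_mul_self, Matrix.one_mulVec]

lemma Zf_conj (β : ℝ) (J : Matrix (Fin n) (Fin n) ℝ) (w : Fin n → ℝ)
    (hw : ∀ s ∈ cube n, rfl' w *ᵥ s ∈ cube n) : Zf β (rfl' w * J * rfl' w) = Zf β J := by
  unfold Zf
  simp_rw [en_conj]
  exact sum_cube_invol hw (rfl_invol w) fun s => Real.exp (β / 2 * en J s)

/-- flipping a coordinate -/
lemma rfl_single (k : Fin n) (s : Fin n → ℝ) :
    rfl' (Pi.single k 1 : Fin n → ℝ) *ᵥ s = fun i => if i = k then - s i else s i := by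
  rw [rfl'_mulVec]
  funext i
  by_cases h : i = k
  · subst h; simp only [dotProduct_single, Pi.single_eq_same, mul_one, div_one, single_dotProduct, one_mul, Pi.sub_apply, Pi.smul_apply, smul_eq_mul, ↓reduceIte]; ring
  · simp only [dotProduct_single, Pi.single_eq_same, mul_one, div_one, single_dotProduct, one_mul, Pi.sub_apply, Pi.smul_apply, ne_eq, h, not_false_eq_true, Pi.single_eq_of_ne, smul_eq_mul, mul_zero, sub_zero, ↓reduceIte]

lemma flip_cube (k : Fin n) : ∀ s ∈ cube n, rfl' (Pi.single k 1 : Fin n → ℝ) *ᵥ s ∈ cube n := by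
  intro s hs
  rw [rfl_single, mem_cube]
  intro i
  split_ifs
  · rcases mem_cube.1 hs i with h | h <;> rw [h]
    · right; norm_num
    · left; rfl
  · exact mem_cube.1 hs i

lemma fU_gauge (β : ℝ) (lam : Fin n → ℝ) (U : OG n) (k : Fin n) :
    fU β lam (U * rflG (Pi.single k 1)) = fU β lam U := by
  unfold fU
  rw [JU_rfl, Zf_conj β _ _ (flip_cube k)]

lemma fU_Hx (β : ℝ) (lam : Fin n → ℝ) (U : OG n) (k : Fin n) (v : Fin n → ℝ) :
    fU β lam (U * hk k v) = fU β lam (U * rflG (Wv k v)) := by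
  unfold hk Wv
  split_ifs
  · rfl
  · rw [← mul_assoc, fU_gauge]

/-- swapping two coordinates -/
lemma swap_cube {i j : Fin n} (hij : i ≠ j) :
    ∀ s ∈ cube n, rfl' (Pi.single i 1 - Pi.single j 1 : Fin n → ℝ) *ᵥ s ∈ cube n := by
  intro s hs
  have h := swap_coord hij s
  change rfl' _ *ᵥ s = _ at h
  rw [h, mem_cube]
  intro l
  exact mem_cube.1 hs _

/-- Gibbs average of the squared local field -/
noncomputable def loc (β : ℝ) (J : Matrix (Fin n) (Fin n) ℝ) (i : Fin n) : ℝ :=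
  ∑ s ∈ cube n, gw β J s * (J *ᵥ s) i ^ 2

lemma loc_swap (β : ℝ) (J : Matrix (Fin n) (Fin n) ℝ) {i j : Fin n} (hij : i ≠ j) :
    loc β (rfl' (Pi.single i 1 - Pi.single j 1) * J * rfl' (Pi.single i 1 - Pi.single j 1)) i =
      loc β J j := by
  set w : Fin n → ℝ := Pi.single i 1 - Pi.single j 1 with hw
  have h := sum_cube_invol (P := fun s => rfl' w *ᵥ s) (swap_cube hij) (rfl_invol w)
    fun s => gw β J s * (J *ᵥ s) j ^ 2
  unfold loc
  rw [← h]
  refine Finset.sum_congr rfl fun s _ => ?_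
  unfold gw
  rw [en_conj, Zf_conj β J w (swap_cube hij)]
  congr 2
  rw [← Matrix.mulVec_mulVec, ← Matrix.mulVec_mulVec]
  have h2 : rfl' w *ᵥ (J *ᵥ (rfl' w *ᵥ s)) =
      fun l => (J *ᵥ (rfl' w *ᵥ s)) (Equiv.swap i j l) := swap_coord hij _
  rw [h2]
  show (J *ᵥ (rfl' w *ᵥ s)) (Equiv.swap i j i) = _
  rw [Equiv.swap_apply_left]

variable [MeasurableSpace (OG n)] [BorelSpace (OG n)]
variable (ν : Measure (OG n)) [IsProbabilityMeasure ν] [ν.IsMulRightInvariant]

omit [MeasurableSpace (OG n)] [BorelSpace (OG n)] in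
lemma continuous_loc (β : ℝ) (lam : Fin n → ℝ) (i : Fin n) :
    Continuous fun U : OG n => loc β (JU lam U) i := by
  unfold loc
  refine continuous_finsetSum _ fun s _ => (continuous_gw β (continuous_JU lam) s).mul ?_
  refine Continuous.pow ?_ 2
  exact (continuous_apply i).comp ((continuous_JU lam).matrix_mulVec continuous_const)

omit [MeasurableSpace (OG n)] [BorelSpace (OG n)] in
lemma loc_nonneg (β : ℝ) (J : Matrix (Fin n) (Fin n) ℝ) (i : Fin n) : 0 ≤ loc β J i :=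
  Finset.sum_nonneg fun s _ => mul_nonneg (gw_nonneg _ _ _) (sq_nonneg _)

omit [MeasurableSpace (OG n)] [BorelSpace (OG n)] in
lemma loc_sum (β : ℝ) {K : ℝ} {J : Matrix (Fin n) (Fin n) ℝ} (hJ : Nice K J) :
    ∑ i, loc β J i ≤ K ^ 2 * n := by
  unfold loc
  rw [Finset.sum_comm]
  calc ∑ s ∈ cube n, ∑ i, gw β J s * (J *ᵥ s) i ^ 2 ≤ ∑ s ∈ cube n, gw β J s * (K ^ 2 * n) := by
        refine Finset.sum_le_sum fun s hs => ?_
        rw [← Finset.mul_sum]
        apply mul_le_mul_of_nonneg_left _ (gw_nonneg _ _ _)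
        have h := hJ.norm s
        rw [cube_dot hs] at h
        refine le_trans (le_of_eq ?_) h
        unfold dotProduct
        exact Finset.sum_congr rfl fun i _ => sq _
    _ = K ^ 2 * n := by rw [← Finset.sum_mul, gw_sum, one_mul]

omit [MeasurableSpace (OG n)] [BorelSpace (OG n)] in
lemma loc_le (β : ℝ) {K : ℝ} {J : Matrix (Fin n) (Fin n) ℝ} (hJ : Nice K J) (i : Fin n) :
    loc β J i ≤ K ^ 2 * n :=
  (Finset.single_le_sum (f := fun i => loc β J i) (fun i _ => loc_nonneg β J i)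
    (Finset.mem_univ i)).trans (loc_sum β hJ)

lemma int_loc_eq (β : ℝ) (lam : Fin n → ℝ) (i j : Fin n) :
    ∫ U, loc β (JU lam U) i ∂ν = ∫ U, loc β (JU lam U) j ∂ν := by
  by_cases hij : i = j
  · rw [hij]
  · have h := integral_mul_right_eq_self (μ := ν) (fun U => loc β (JU lam U) i)
      (rflG (Pi.single i 1 - Pi.single j 1))
    rw [← h]
    refine integral_congr_ae (Filter.Eventually.of_forall fun U => ?_)
    show loc β (JU lam (U * rflG _)) i = _
    rw [JU_rfl, loc_swap β _ hij]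

lemma int_loc_le (β : ℝ) {lam : Fin n → ℝ} {K : ℝ} (hK : 0 ≤ K) (hlam : ∀ i, |lam i| ≤ K)
    (i : Fin n) : ∫ U, loc β (JU lam U) i ∂ν ≤ K ^ 2 := by
  have hint : ∀ j : Fin n, Integrable (fun U => loc β (JU lam U) j) ν := fun j =>
    intg' _ (continuous_loc β lam j).measurable (K ^ 2 * n) fun U => by
      rw [abs_of_nonneg (loc_nonneg _ _ _)]; exact loc_le β (JU_nice hK hlam U) j
  have h1 : ∑ j : Fin n, ∫ U, loc β (JU lam U) j ∂ν ≤ K ^ 2 * n := by
    rw [← integral_finsetSum _ fun j _ => hint j]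
    calc ∫ U, ∑ j : Fin n, loc β (JU lam U) j ∂ν ≤ ∫ U, K ^ 2 * n ∂ν := by
          apply integral_mono (integrable_finsetSum _ fun j _ => hint j) (integrable_const _)
          intro U
          exact loc_sum β (JU_nice hK hlam U)
      _ = K ^ 2 * n := by simp only [integral_const, probReal_univ, smul_eq_mul, one_mul]
  have h2 : ∑ j : Fin n, ∫ U, loc β (JU lam U) j ∂ν = n * ∫ U, loc β (JU lam U) i ∂ν := by
    rw [Finset.sum_congr rfl fun j _ => int_loc_eq ν β lam j i]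
    simp only [Finset.sum_const, Finset.card_univ, Fintype.card_fin, nsmul_eq_mul]
  rw [h2] at h1
  have hn : (0 : ℝ) < n := by
    have := i.pos
    exact_mod_cast this
  have h3 : n * ∫ U, loc β (JU lam U) i ∂ν ≤ n * K ^ 2 := by linarith
  exact le_of_mul_le_mul_left h3 hn

lemma BM_fU (β : ℝ) {lam : Fin n → ℝ} {K : ℝ} (hK : 0 ≤ K) (hlam : ∀ i, |lam i| ≤ K) :
    BM (n * Real.log 2 + |β| / 2 * (K * n)) (fU β lam) where
  meas := (continuous_fU β lam).measurable
  bd := fun U => log_Zf_bd β (JU_nice hK hlam U)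

lemma meas_Q (β : ℝ) (lam : Fin n → ℝ) :
    Measurable fun p : OG n × (Fin n → ℝ) => Qf β (JU lam p.1) p.2 := by
  unfold Qf
  refine Finset.measurable_sum _ fun s _ => ?_
  have hJ : Continuous fun p : OG n × (Fin n → ℝ) => JU lam p.1 :=
    (continuous_JU lam).comp continuous_fst
  refine (continuous_gw β hJ s).measurable.mul (Measurable.pow_const ?_ 2)
  unfold Xf
  have h1 : Measurable fun p : OG n × (Fin n → ℝ) => p.2 ⬝ᵥ p.2 :=
    measurable_dot measurable_snd measurable_snd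
  have h2 : Measurable fun p : OG n × (Fin n → ℝ) => p.2 ⬝ᵥ s :=
    measurable_dot measurable_snd measurable_const
  have h3 : Measurable fun p : OG n × (Fin n → ℝ) => p.2 ⬝ᵥ (JU lam p.1 *ᵥ s) :=
    (Continuous.dotProduct continuous_snd (hJ.matrix_mulVec continuous_const)).measurable
  have h4 : Measurable fun p : OG n × (Fin n → ℝ) => p.2 ⬝ᵥ (JU lam p.1 *ᵥ p.2) :=
    (Continuous.dotProduct continuous_snd (hJ.matrix_mulVec continuous_snd)).measurable
  have h5 : Measurable fun p : OG n × (Fin n → ℝ) => 2 / (p.2 ⬝ᵥ p.2) * (p.2 ⬝ᵥ s) :=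
    (measurable_const.div h1).mul h2
  exact measurable_const.mul ((((h5.const_mul 2).neg).mul h3).add ((h5.pow_const 2).mul h4))

/-- the reflection direction as a function of the Gaussian vector -/
noncomputable def Wx (k : Fin n) (x : Fin n → ℝ) : Fin n → ℝ := Wv k (nv (k : ℕ) x)

omit [MeasurableSpace (OG n)] [BorelSpace (OG n)] in
lemma measurable_Wx (k : Fin n) : Measurable (Wx k) :=
  (measurable_Wv k).comp (measurable_nv _)

lemma D_fU_le (β : ℝ) {lam : Fin n → ℝ} {K : ℝ} (hK : 0 ≤ K) (hlam : ∀ i, |lam i| ≤ K)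
    (k : Fin n) :
    D ν k (fU β lam) ≤ 2 * ∫ U, ∫ x, Qf β (JU lam U) (Wx k x) ∂(gam n) ∂ν := by
  have hf := BM_fU (n := n) β hK hlam
  have hmQ : Measurable fun p : OG n × (Fin n → ℝ) => Qf β (JU lam p.1) (Wx k p.2) := by
    have h := (meas_Q (n := n) β lam).comp (measurable_fst.prodMk
      ((measurable_Wx k).comp (measurable_snd (α := OG n) (β := Fin n → ℝ))))
    exact h
  have hmQ2 : Measurable fun p : OG n × (Fin n → ℝ) =>
      Qf β (JU lam (p.1 * rflG (Wx k p.2))) (Wx k p.2) := by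
    have h := (meas_Q (n := n) β lam).comp
      ((measurable_fst.mul (measurable_rflG ((measurable_Wx k).comp
        (measurable_snd (α := OG n) (β := Fin n → ℝ))))).prodMk
      ((measurable_Wx k).comp (measurable_snd (α := OG n) (β := Fin n → ℝ))))
    exact h
  have hiQ : Integrable (fun p : OG n × (Fin n → ℝ) => Qf β (JU lam p.1) (Wx k p.2))
      (ν.prod (gam n)) := intg' _ hmQ _ fun p => Qf_bd β hK hlam _ _
  have hiQ2 : Integrable (fun p : OG n × (Fin n → ℝ) =>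
      Qf β (JU lam (p.1 * rflG (Wx k p.2))) (Wx k p.2))
      (ν.prod (gam n)) := intg' _ hmQ2 _ fun p => Qf_bd β hK hlam _ _
  have hD : D ν k (fU β lam) = ∫ p, (fU β lam (p.1 * Hx k p.2) - fU β lam p.1) ^ 2
      ∂(ν.prod (gam n)) := by
    rw [integral_prod]
    · rfl
    · exact intg _ (meas_diff k hf.meas) _ fun p => sq_diff_bd hf _ _
  have h2 : ∫ p, Qf β (JU lam (p.1 * rflG (Wx k p.2))) (Wx k p.2) ∂(ν.prod (gam n)) =
      ∫ p, Qf β (JU lam p.1) (Wx k p.2) ∂(ν.prod (gam n)) := by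
    rw [integral_prod_symm _ hiQ2, integral_prod_symm _ hiQ]
    refine integral_congr_ae (Filter.Eventually.of_forall fun x => ?_)
    exact integral_mul_right_eq_self (μ := ν) (fun U => Qf β (JU lam U) (Wx k x)) (rflG (Wx k x))
  have h3 : ∫ U, ∫ x, Qf β (JU lam U) (Wx k x) ∂(gam n) ∂ν =
      ∫ p, Qf β (JU lam p.1) (Wx k p.2) ∂(ν.prod (gam n)) := by
    rw [integral_prod _ hiQ]
  rw [h3, hD, two_mul]
  nth_rewrite 1 [← h2]
  rw [add_comm, ← integral_add hiQ hiQ2]
  apply integral_mono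
  · exact intg _ (meas_diff k hf.meas) _ fun p => sq_diff_bd hf _ _
  · exact hiQ.add hiQ2
  · intro p
    have h := diff_sq_le β lam p.1 (Wx k p.2)
    show (fU β lam (p.1 * hk k (nv (k : ℕ) p.2)) - fU β lam p.1) ^ 2 ≤ _
    rw [fU_Hx]
    exact h

lemma int_Yloc (β : ℝ) {lam : Fin n → ℝ} {K : ℝ} (hK : 0 ≤ K) (hlam : ∀ i, |lam i| ≤ K)
    (k : Fin n) :
    ∫ U, ∑ s ∈ cube n, gw β (JU lam U) s * Yk k (JU lam U *ᵥ s) ∂ν ≤ K ^ 2 := by
  have hpos : (0 : ℝ) < (n : ℝ) - (k : ℕ) := by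
    have : ((k : ℕ) : ℝ) < n := by exact_mod_cast k.2
    linarith
  have hint : ∀ j : Fin n, Integrable (fun U => loc β (JU lam U) j) ν := fun j =>
    intg' _ (continuous_loc β lam j).measurable (K ^ 2 * n) fun U => by
      rw [abs_of_nonneg (loc_nonneg _ _ _)]; exact loc_le β (JU_nice hK hlam U) j
  have e : ∀ U : OG n, ∑ s ∈ cube n, gw β (JU lam U) s * Yk k (JU lam U *ᵥ s) =
      (∑ i : Fin n, if k ≤ i then loc β (JU lam U) i else 0) / ((n : ℝ) - (k : ℕ)) := by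
    intro U
    unfold Yk loc
    rw [Finset.sum_div]
    simp_rw [mul_div_assoc', Finset.mul_sum, mul_ite, mul_zero]
    rw [← Finset.sum_div, Finset.sum_comm, Finset.sum_div]
    refine Finset.sum_congr rfl fun i _ => ?_
    split_ifs <;> simp
  simp_rw [e]
  rw [integral_div, integral_finsetSum]
  · rw [div_le_iff₀ hpos]
    have h1 : ∀ i : Fin n, ∫ U, (if k ≤ i then loc β (JU lam U) i else 0) ∂ν ≤
        if k ≤ i then K ^ 2 else 0 := by
      intro i
      split_ifs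
      · exact int_loc_le ν β hK hlam i
      · simp
    refine (Finset.sum_le_sum fun i _ => h1 i).trans (le_of_eq ?_)
    rw [Finset.sum_ite, Finset.sum_const_zero, add_zero, Finset.sum_const, nsmul_eq_mul]
    have : (Finset.univ.filter fun j : Fin n => k ≤ j) = Finset.Ici k := by
      ext j; simp only [Finset.mem_filter, Finset.mem_univ, true_and, Finset.mem_Ici]
    rw [this, Fin.card_Ici, Nat.cast_sub k.2.le]
    ring
  · intro i _
    split_ifs
    · exact hint i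
    · exact integrable_const _

lemma D_fU_le' (β : ℝ) {lam : Fin n → ℝ} {K : ℝ} (hK : 0 ≤ K) (hlam : ∀ i, |lam i| ≤ K)
    (k : Fin n) : D ν k (fU β lam) ≤ 1120 * β ^ 2 * K ^ 2 := by
  refine (D_fU_le ν β hK hlam k).trans ?_
  have hpt : ∀ U : OG n, ∫ x, Qf β (JU lam U) (Wx k x) ∂(gam n) ≤
      8 * β ^ 2 * (6 * loc β (JU lam U) k +
        29 * (∑ s ∈ cube n, gw β (JU lam U) s * Yk k (JU lam U *ᵥ s)) + 35 * K ^ 2) := by
    intro U
    have hN := JU_nice hK hlam U
    have hms : ∀ s : Fin n → ℝ, Measurable fun x => Xf β (JU lam U) (Wx k x) s ^ 2 := fun s =>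
      ((measurable_Xf β _ s).comp (measurable_Wx k)).pow_const 2
    have hXi : ∀ s ∈ cube n, Integrable (fun x => Xf β (JU lam U) (Wx k x) s ^ 2) (gam n) := by
      intro s hs
      refine intg' _ (hms s) ((|β| * (K * n)) ^ 2) fun x => ?_
      rw [abs_of_nonneg (sq_nonneg _), ← sq_abs]
      exact pow_le_pow_left₀ (abs_nonneg _) (Xf_JU_abs β hK hlam U _ hs) 2
    unfold Qf
    rw [integral_finsetSum _ fun s hs => (hXi s hs).const_mul _]
    simp_rw [integral_const_mul]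
    calc ∑ s ∈ cube n, gw β (JU lam U) s * ∫ x, Xf β (JU lam U) (Wx k x) s ^ 2 ∂(gam n) ≤
        ∑ s ∈ cube n, gw β (JU lam U) s * (8 * β ^ 2 * (6 * (JU lam U *ᵥ s) k ^ 2 +
          29 * Yk k (JU lam U *ᵥ s) + 35 * K ^ 2)) :=
          Finset.sum_le_sum fun s hs =>
            mul_le_mul_of_nonneg_left (int_X β hN k hs) (gw_nonneg _ _ _)
      _ = 8 * β ^ 2 * (6 * loc β (JU lam U) k +
        29 * (∑ s ∈ cube n, gw β (JU lam U) s * Yk k (JU lam U *ᵥ s)) +
          35 * K ^ 2 * ∑ s ∈ cube n, gw β (JU lam U) s) := by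
          unfold loc
          simp_rw [Finset.mul_sum]
          rw [← Finset.sum_add_distrib, ← Finset.sum_add_distrib, Finset.mul_sum]
          refine Finset.sum_congr rfl fun s _ => by ring
      _ = _ := by rw [gw_sum, mul_one]
  have hintL : Integrable (fun U => loc β (JU lam U) k) ν :=
    intg' _ (continuous_loc β lam k).measurable (K ^ 2 * n) fun U => by
      rw [abs_of_nonneg (loc_nonneg _ _ _)]; exact loc_le β (JU_nice hK hlam U) k
  have hcY : Continuous fun U : OG n => ∑ s ∈ cube n, gw β (JU lam U) s * Yk k (JU lam U *ᵥ s) := by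
    refine continuous_finsetSum _ fun s _ => (continuous_gw β (continuous_JU lam) s).mul ?_
    unfold Yk
    refine Continuous.div_const ?_ _
    refine continuous_finsetSum _ fun i _ => ?_
    split_ifs
    · refine Continuous.pow ?_ 2
      exact (continuous_apply i).comp ((continuous_JU lam).matrix_mulVec continuous_const)
    · exact continuous_const
  have hYbd : ∀ U : OG n, |∑ s ∈ cube n, gw β (JU lam U) s * Yk k (JU lam U *ᵥ s)| ≤ K ^ 2 * n := by
    intro U
    have hN := JU_nice hK hlam U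
    have hpos : (1 : ℝ) ≤ (n : ℝ) - (k : ℕ) := by
      have h : (k : ℕ) + 1 ≤ n := k.2
      have : ((k : ℕ) : ℝ) + 1 ≤ n := by exact_mod_cast h
      linarith only [this]
    have hY0 : ∀ y : Fin n → ℝ, 0 ≤ Yk k y := fun y => by
      unfold Yk
      refine div_nonneg (Finset.sum_nonneg fun i _ => ?_) (by linarith)
      split_ifs
      · exact sq_nonneg _
      · exact le_rfl
    have hY1 : ∀ y : Fin n → ℝ, Yk k y ≤ y ⬝ᵥ y := fun y => by
      unfold Yk
      rw [div_le_iff₀ (by linarith only [hpos])]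
      have h0 : 0 ≤ y ⬝ᵥ y := Finset.sum_nonneg fun i _ => mul_self_nonneg _
      have h1 : ∑ i : Fin n, (if k ≤ i then y i ^ 2 else 0) ≤ y ⬝ᵥ y := by
        unfold dotProduct
        refine Finset.sum_le_sum fun i _ => ?_
        split_ifs
        · rw [sq]
        · exact mul_self_nonneg _
      nlinarith only [h1, hpos, h0]
    rw [abs_of_nonneg (Finset.sum_nonneg fun s _ => mul_nonneg (gw_nonneg _ _ _) (hY0 _))]
    calc ∑ s ∈ cube n, gw β (JU lam U) s * Yk k (JU lam U *ᵥ s) ≤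
        ∑ s ∈ cube n, gw β (JU lam U) s * (K ^ 2 * n) := by
          refine Finset.sum_le_sum fun s hs => mul_le_mul_of_nonneg_left ?_ (gw_nonneg _ _ _)
          refine (hY1 _).trans ?_
          have h := hN.norm s
          rwa [cube_dot hs] at h
      _ = K ^ 2 * n := by rw [← Finset.sum_mul, gw_sum, one_mul]
  have hintY : Integrable (fun U => ∑ s ∈ cube n, gw β (JU lam U) s * Yk k (JU lam U *ᵥ s)) ν :=
    intg' _ hcY.measurable _ hYbd
  have hI1 : Integrable (fun U => 6 * loc β (JU lam U) k +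
        29 * (∑ s ∈ cube n, gw β (JU lam U) s * Yk k (JU lam U *ᵥ s))) ν :=
    (hintL.const_mul _).add (hintY.const_mul _)
  have hI : Integrable (fun U => 8 * β ^ 2 * (6 * loc β (JU lam U) k +
        29 * (∑ s ∈ cube n, gw β (JU lam U) s * Yk k (JU lam U *ᵥ s)) + 35 * K ^ 2)) ν :=
    (hI1.add (integrable_const _)).const_mul _
  have hmQ : Measurable fun p : OG n × (Fin n → ℝ) => Qf β (JU lam p.1) (Wx k p.2) := by
    have h := (meas_Q (n := n) β lam).comp (measurable_fst.prodMk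
      ((measurable_Wx k).comp (measurable_snd (α := OG n) (β := Fin n → ℝ))))
    exact h
  have hiQ : Integrable (fun p : OG n × (Fin n → ℝ) => Qf β (JU lam p.1) (Wx k p.2))
      (ν.prod (gam n)) := intg' _ hmQ _ fun p => Qf_bd β hK hlam _ _
  have h1 : ∫ U, ∫ x, Qf β (JU lam U) (Wx k x) ∂(gam n) ∂ν ≤ 560 * β ^ 2 * K ^ 2 := by
    calc ∫ U, ∫ x, Qf β (JU lam U) (Wx k x) ∂(gam n) ∂ν ≤
        ∫ U, 8 * β ^ 2 * (6 * loc β (JU lam U) k +
        29 * (∑ s ∈ cube n, gw β (JU lam U) s * Yk k (JU lam U *ᵥ s)) + 35 * K ^ 2) ∂ν :=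
          integral_mono hiQ.integral_prod_left hI hpt
      _ = 8 * β ^ 2 * (6 * ∫ U, loc β (JU lam U) k ∂ν +
        29 * (∫ U, ∑ s ∈ cube n, gw β (JU lam U) s * Yk k (JU lam U *ᵥ s) ∂ν) + 35 * K ^ 2) := by
          rw [integral_const_mul, integral_add hI1 (integrable_const _),
            integral_add (hintL.const_mul _) (hintY.const_mul _), integral_const_mul,
            integral_const_mul]
          simp only [integral_const, probReal_univ, smul_eq_mul, one_mul]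
      _ ≤ 8 * β ^ 2 * (6 * K ^ 2 + 29 * K ^ 2 + 35 * K ^ 2) := by
          apply mul_le_mul_of_nonneg_left _ (by (clear * -; positivity))
          have a1 := int_loc_le ν β hK hlam k
          have a2 := int_Yloc ν β hK hlam k
          linarith only [a1, a2]
      _ = 560 * β ^ 2 * K ^ 2 := by ring
  linarith

/-- **Variance bound for the log-partition function.** -/
theorem variance_fU (β : ℝ) {lam : Fin n → ℝ} {K : ℝ} (hK : 0 ≤ K) (hlam : ∀ i, |lam i| ≤ K) :
    ∫ U, (fU β lam U - ∫ V, fU β lam V ∂ν) ^ 2 ∂ν ≤ 1120 * β ^ 2 * K ^ 2 * n := by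
  refine (efron_stein ν (BM_fU (n := n) β hK hlam)).trans ?_
  calc ∑ k : Fin n, D ν k (fU β lam) ≤ ∑ _k : Fin n, 1120 * β ^ 2 * K ^ 2 :=
        Finset.sum_le_sum fun k _ => D_fU_le' ν β hK hlam k
    _ = _ := by simp only [Finset.sum_const, Finset.card_univ, Fintype.card_fin, nsmul_eq_mul]; ring

end Vale.Agent.P166.Conc
end
end

section

section

namespace Vale.Agent.P166

open MeasureTheory Matrix

variable {N : ℕ}

theorem LZ_eq_fU (β : ℝ) (a : Fin N → ℝ) (U : Matrix.orthogonalGroup (Fin N) ℝ) :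
    LZ β a U.1 = Conc.fU β a U := by
  unfold LZ Conc.fU Conc.Zf
  congr 1
  refine Finset.sum_congr rfl fun σ _ => ?_
  congr 1
  unfold en Conc.en
  rw [Conc.dot_JU]
  congr 1
  refine Finset.sum_congr rfl fun i _ => by ring

variable [MeasurableSpace (Matrix.orthogonalGroup (Fin N) ℝ)]
  [BorelSpace (Matrix.orthogonalGroup (Fin N) ℝ)]
  (ν : Measure (Matrix.orthogonalGroup (Fin N) ℝ)) [IsProbabilityMeasure ν]

/-- Self-averaging: the variance of `log Z` is at most `1120 β² K² N`. -/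
theorem LZ_variance [ν.IsMulLeftInvariant] (β : ℝ) {K : ℝ} (hK : 0 ≤ K) {a : Fin N → ℝ}
    (ha : ∀ i, |a i| ≤ K) :
    ∫ U, (LZ β a U.1 - FZ ν β a) ^ 2 ∂ν ≤ 1120 * β ^ 2 * K ^ 2 * N := by
  have := Conc.haar_right_inv ν
  have h := Conc.variance_fU ν β hK ha
  unfold FZ
  simp_rw [LZ_eq_fU]
  exact h

end Vale.Agent.P166
end
end

section

section

namespace Vale.Agent.P166

open MeasureTheory Matrix Filter Topology ProbabilityTheory Conc

section LogLimit

variable {Λ : (N : ℕ) → Fin N → ℝ} {μ : Measure ℝ}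

end LogLimit

section Fin

variable {N : ℕ} [MeasurableSpace (OG N)] [BorelSpace (OG N)]
  (ν : Measure (OG N)) [IsProbabilityMeasure ν] [ν.IsMulLeftInvariant]

omit [ν.IsMulLeftInvariant] in
theorem mean_pressure (hN : 0 < N) {β : ℝ} (hβ : 0 ≤ β) (a : Fin N → ℝ) :
    ∫ U : OG N, pressure N β (U.1ᵀ * diagonal a * U.1) ∂ν =
      (1 / (N : ℝ)) * FZ ν β a - Real.log 2 := by
  simp_rw [pressure_eq hN]
  rw [integral_sub ((integrable_LZ ν hβ a).const_mul _) (integrable_const _),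
    integral_const_mul]
  simp only [one_div, integral_const, probReal_univ, smul_eq_mul, one_mul, FZ]

theorem var_pressure (hN : 0 < N) {β : ℝ} (hβ : 0 ≤ β) {K : ℝ} (hK : 0 ≤ K) (a : Fin N → ℝ)
    (ha : ∀ i, |a i| ≤ K) :
    ∫ U : OG N, (pressure N β (U.1ᵀ * diagonal a * U.1) -
      ∫ V : OG N, pressure N β (V.1ᵀ * diagonal a * V.1) ∂ν) ^ 2 ∂ν ≤
        1120 * β ^ 2 * K ^ 2 / N := by
  have hN' : (0 : ℝ) < N := by exact_mod_cast hN
  rw [mean_pressure ν hN hβ a]
  simp_rw [pressure_eq hN]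
  have h1 : ∀ U : OG N, (1 / (N : ℝ) * LZ β a U.1 - Real.log 2 -
      (1 / (N : ℝ) * FZ ν β a - Real.log 2)) ^ 2 =
        (1 / (N : ℝ)) ^ 2 * (LZ β a U.1 - FZ ν β a) ^ 2 := fun U => by ring
  simp_rw [h1]
  rw [integral_const_mul]
  have h2 := LZ_variance ν β hK ha
  calc (1 / (N : ℝ)) ^ 2 * ∫ U : OG N, (LZ β a U.1 - FZ ν β a) ^ 2 ∂ν ≤
      (1 / (N : ℝ)) ^ 2 * (1120 * β ^ 2 * K ^ 2 * N) :=
        mul_le_mul_of_nonneg_left h2 (sq_nonneg _)
    _ = 1120 * β ^ 2 * K ^ 2 / N := by field_simp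

end Fin

section Main

variable [∀ N, MeasurableSpace (OG N)] [∀ N, BorelSpace (OG N)]
  (ν : (N : ℕ) → Measure (OG N)) [∀ N, IsProbabilityMeasure (ν N)]
  [∀ N, (ν N).IsMulLeftInvariant]

open Classical in
/-- The reference sequence: mean pressures of one admissible array. -/
noncomputable def refP (β : ℝ) (μ : Measure ℝ) (N : ℕ) : ℝ :=
  if h : ∃ Λ, Admissible Λ μ then
    ∫ U, pressure N β (U.1ᵀ * diagonal (h.choose N) * U.1) ∂(ν N)
  else 0

omit [∀ (N : ℕ), BorelSpace (OG N)] [∀ (N : ℕ), IsProbabilityMeasure (ν N)]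
  [∀ (N : ℕ), (ν N).IsMulLeftInvariant] in
theorem refP_spec (β : ℝ) (μ : Measure ℝ) (h : ∃ Λ, Admissible Λ μ) :
    ∃ Λ, Admissible Λ μ ∧ ∀ N, refP ν β μ N =
      ∫ U, pressure N β (U.1ᵀ * diagonal (Λ N) * U.1) ∂(ν N) := by
  refine ⟨h.choose, h.choose_spec, fun N => ?_⟩
  unfold refP
  rw [dif_pos h]

/-- Comparison of mean pressures along two admissible arrays. -/
theorem mean_compare {β : ℝ} (hβ : 0 ≤ β) (μ μ' : Measure ℝ) [IsProbabilityMeasure μ]
    [IsProbabilityMeasure μ'] (hμ : IsCompact μ.support) (hμ' : IsCompact μ'.support)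
    (Λ Λ' : (N : ℕ) → Fin N → ℝ) (hΛ : Admissible Λ μ) (hΛ' : Admissible Λ' μ') (s : ℝ)
    (hicx : ∀ t, ∫ x, max (x - t) 0 ∂μ' ≤ ∫ x, max (x + s - t) 0 ∂μ) (ε : ℝ) (hε : 0 < ε) :
    ∀ᶠ N : ℕ in atTop, ∫ U, pressure N β (U.1ᵀ * diagonal (Λ' N) * U.1) ∂(ν N) ≤
      ∫ U, pressure N β (U.1ᵀ * diagonal (Λ N) * U.1) ∂(ν N) + β / 2 * s + ε := by
  filter_upwards [asym_compare ν hβ μ μ' hμ hμ' Λ Λ' hΛ hΛ' s hicx ε hε,
    eventually_gt_atTop 0] with N h1 hN
  rw [mean_pressure (ν N) hN hβ, mean_pressure (ν N) hN hβ]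
  linarith only [h1]

theorem mean_universal {β : ℝ} (hβ : 0 ≤ β) (μ : Measure ℝ) [IsProbabilityMeasure μ]
    (hμ : IsCompact μ.support)
    (Λ Λ' : (N : ℕ) → Fin N → ℝ) (hΛ : Admissible Λ μ) (hΛ' : Admissible Λ' μ) :
    Tendsto (fun N => ∫ U, pressure N β (U.1ᵀ * diagonal (Λ' N) * U.1) ∂(ν N) -
      ∫ U, pressure N β (U.1ᵀ * diagonal (Λ N) * U.1) ∂(ν N)) atTop (𝓝 0) := by
  rw [Metric.tendsto_atTop']
  intro ε hε
  have h1 := mean_compare ν hβ μ μ hμ hμ Λ Λ' hΛ hΛ' 0 (fun t => by simp only [add_zero, Std.le_refl]) (ε / 2) (by linarith)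
  have h2 := mean_compare ν hβ μ μ hμ hμ Λ' Λ hΛ' hΛ 0 (fun t => by simp only [add_zero, Std.le_refl]) (ε / 2) (by linarith only [hε])
  obtain ⟨n1, h1⟩ := eventually_atTop.mp h1
  obtain ⟨n2, h2⟩ := eventually_atTop.mp h2
  refine ⟨max n1 n2, fun N hN => ?_⟩
  have a1 := h1 N ((le_max_left _ _).trans hN.le)
  have a2 := h2 N ((le_max_right _ _).trans hN.le)
  rw [Real.dist_eq, sub_zero, abs_lt]
  constructor <;> linarith only [hε, a1, a2]

theorem exists_bound (μ : Measure ℝ) {Λ : (N : ℕ) → Fin N → ℝ} (hΛ : Admissible Λ μ) :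
    ∃ K : ℝ, 0 ≤ K ∧ ∀ᶠ N in atTop, ∀ i, |Λ N i| ≤ K := by
  refine ⟨|sSup μ.support| + |sInf μ.support| + 1, by positivity, ?_⟩
  filter_upwards [hΛ.eventually_le one_pos, hΛ.eventually_ge one_pos] with N h1 h2 i
  rw [abs_le]
  have e1 := le_abs_self (sSup μ.support)
  have e2 := neg_abs_le (sInf μ.support)
  have e5 := abs_nonneg (sSup μ.support)
  have e6 := abs_nonneg (sInf μ.support)
  constructor
  · have := h2 i; linarith
  · have := h1 i; linarith only [e1, e6, this]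

theorem l2_conv {β : ℝ} (hβ : 0 ≤ β) (μ : Measure ℝ) [IsProbabilityMeasure μ]
    (hμ : IsCompact μ.support) (Λ : (N : ℕ) → Fin N → ℝ) (hΛ : Admissible Λ μ) :
    Tendsto (fun N => ∫ U, (pressure N β (U.1ᵀ * diagonal (Λ N) * U.1) - refP ν β μ N) ^ 2 ∂(ν N))
      atTop (𝓝 0) := by
  obtain ⟨Λ', hΛ', href⟩ := refP_spec ν β μ ⟨Λ, hΛ⟩
  obtain ⟨K, hK, hKb⟩ := exists_bound μ hΛ
  have hu := mean_universal ν hβ μ hμ Λ' Λ hΛ' hΛ
  have hu2 : Tendsto (fun N : ℕ => 1120 * β ^ 2 * K ^ 2 / (N : ℝ) +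
      (∫ U, pressure N β (U.1ᵀ * diagonal (Λ N) * U.1) ∂(ν N) -
        ∫ U, pressure N β (U.1ᵀ * diagonal (Λ' N) * U.1) ∂(ν N)) ^ 2) atTop (𝓝 0) := by
    have h1 : Tendsto (fun N : ℕ => 1120 * β ^ 2 * K ^ 2 / (N : ℝ)) atTop (𝓝 0) :=
      tendsto_const_div_atTop_nhds_zero_nat _
    simpa only [ne_eq, OfNat.ofNat_ne_zero, not_false_eq_true, zero_pow, add_zero] using h1.add (hu.pow 2)
  refine squeeze_zero' ?_ ?_ hu2
  · exact Eventually.of_forall fun N => integral_nonneg fun U => sq_nonneg _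
  · filter_upwards [hKb, eventually_gt_atTop 0] with N hN hN0
    have hv := var_pressure (ν N) hN0 hβ hK (Λ N) hN
    set m := ∫ U, pressure N β (U.1ᵀ * diagonal (Λ N) * U.1) ∂(ν N) with hm
    rw [href N]
    set m' := ∫ U, pressure N β (U.1ᵀ * diagonal (Λ' N) * U.1) ∂(ν N) with hm'
    have hcont : Continuous fun U : OG N => pressure N β (U.1ᵀ * diagonal (Λ N) * U.1) := by
      simp_rw [pressure_eq hN0]
      exact (continuous_const.mul (continuous_LZ β (Λ N))).sub continuous_const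
    have hbound : ∀ U : OG N, |pressure N β (U.1ᵀ * diagonal (Λ N) * U.1)| ≤
        (1 / (N : ℝ)) * (N * Real.log 2 + β / 2 * (K * N)) + |Real.log 2| := by
      intro U
      rw [pressure_eq hN0]
      refine (abs_sub _ _).trans ?_
      rw [abs_mul, abs_of_nonneg (by positivity : (0 : ℝ) ≤ 1 / (N : ℝ))]
      have := LZ_bound β hβ (Λ N) K hN U
      (clear * - this hN0; gcongr)
    have hi : ∀ c : ℝ, Integrable
        (fun U : OG N => pressure N β (U.1ᵀ * diagonal (Λ N) * U.1) - c) (ν N) := fun c =>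
      (intg (ν N) hcont.measurable _ hbound).sub (integrable_const _)
    have hi2 : Integrable
        (fun U : OG N => (pressure N β (U.1ᵀ * diagonal (Λ N) * U.1) - m) ^ 2) (ν N) := by
      refine intg (ν N) ((hcont.sub continuous_const).pow 2).measurable
        (((1 / (N : ℝ)) * (N * Real.log 2 + β / 2 * (K * N)) + |Real.log 2| + |m|) ^ 2)
        fun U => ?_
      rw [abs_of_nonneg (sq_nonneg _)]
      rw [← sq_abs]
      have h5 := (abs_sub (pressure N β (U.1ᵀ * diagonal (Λ N) * U.1)) m).trans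
        (add_le_add_left (hbound U) |m|)
      exact pow_le_pow_left₀ (abs_nonneg _) h5 2
    have hexp : ∫ U, (pressure N β (U.1ᵀ * diagonal (Λ N) * U.1) - m') ^ 2 ∂(ν N) =
        ∫ U, (pressure N β (U.1ᵀ * diagonal (Λ N) * U.1) - m) ^ 2 ∂(ν N) + (m - m') ^ 2 := by
      have h3 : ∀ U : OG N, (pressure N β (U.1ᵀ * diagonal (Λ N) * U.1) - m') ^ 2 =
          (pressure N β (U.1ᵀ * diagonal (Λ N) * U.1) - m) ^ 2 +
            (2 * (m - m') * (pressure N β (U.1ᵀ * diagonal (Λ N) * U.1) - m) +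
              (m - m') ^ 2) := fun U => by ring
      simp_rw [h3]
      have hi3 : Integrable (fun U : OG N =>
          2 * (m - m') * (pressure N β (U.1ᵀ * diagonal (Λ N) * U.1) - m) +
            (m - m') ^ 2) (ν N) := ((hi m).const_mul _).add (integrable_const _)
      rw [integral_add hi2 hi3,
        integral_add ((hi m).const_mul _) (integrable_const _), integral_const_mul,
        integral_sub (intg (ν N) hcont.measurable _ hbound) (integrable_const _)]
      simp only [← hm, integral_const, probReal_univ, smul_eq_mul, one_mul, sub_self, mul_zero, zero_add]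
    rw [hexp]
    linarith only [hv]

end Main

end Vale.Agent.P166
end
end

section

section

/-! The reduction of the general formula to laws with finite support. -/

open MeasureTheory Finset Filter Topology Matrix

namespace Vale.Agent.P166.F

open Vale.Agent.P157 Conc

section Vals

variable {β : ℝ} {μ : Measure ℝ}

theorem Jf_eq (β : ℝ) (μ μ' : Measure ℝ) (k : ℕ) (m q r : ℕ → ℝ) :
    Jf β μ' k m q r = Jf β μ k m q r + (specPart β μ' k m q - specPart β μ k m q) := by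
  unfold Jf
  ring

theorem isLUB_shift {ι : Sort*} {P : ι → Prop} {F G : ι → ℝ} {c y : ℝ} (h : ∀ r, G r = F r + c)
    (hy : IsLUB {y | ∃ r, P r ∧ y = F r} y) : IsLUB {y | ∃ r, P r ∧ y = G r} (y + c) := by
  constructor
  · rintro _ ⟨r, hr, rfl⟩
    rw [h]
    exact add_le_add_left (hy.1 ⟨r, hr, rfl⟩) c
  · intro z hz
    have h1 : z - c ∈ upperBounds {y | ∃ r, P r ∧ y = F r} := by
      rintro _ ⟨r, hr, rfl⟩
      have := hz ⟨r, hr, rfl⟩
      rw [h] at this
      linarith only [this]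
    have := hy.2 h1
    linarith only [this]

theorem exponents_expo {k : ℕ} {m : ℕ → ℝ} (h : Par.Exponents k m) : Expo k m :=
  ⟨h.1, h.2.1, fun l hl => (h.2.2 l hl).le, by have := h.2.2 0 (Nat.zero_le _); rw [h.1] at this; simpa using this⟩

end Vals

section Main

variable [∀ N, MeasurableSpace (OG N)] [∀ N, BorelSpace (OG N)]
  (ν : (N : ℕ) → Measure (OG N)) [∀ N, IsProbabilityMeasure (ν N)]
  [∀ N, (ν N).IsMulLeftInvariant]

theorem int_sq_OG' {N : ℕ} [MeasurableSpace (OG N)] [BorelSpace (OG N)] (ν : Measure (OG N))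
    [IsProbabilityMeasure ν] (hN : 0 < N) {β : ℝ} (hβ : 0 ≤ β) (a : Fin N → ℝ) (c : ℝ) :
    Integrable (fun U : OG N => (pressure N β (U.1ᵀ * diagonal a * U.1) - c) ^ 2) ν := by
  have hcont : Continuous fun U : OG N => pressure N β (U.1ᵀ * diagonal a * U.1) := by
    simp_rw [pressure_eq hN]
    exact (continuous_const.mul (continuous_LZ β a)).sub continuous_const
  obtain ⟨R, hR⟩ := exists_abs_bound a
  have hbound : ∀ U : OG N, |pressure N β (U.1ᵀ * diagonal a * U.1)| ≤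
      (1 / (N : ℝ)) * (N * Real.log 2 + β / 2 * (R * N)) + |Real.log 2| := by
    intro U
    rw [pressure_eq hN]
    refine (abs_sub _ _).trans ?_
    rw [abs_mul, abs_of_nonneg (by positivity : (0 : ℝ) ≤ 1 / (N : ℝ))]
    have := LZ_bound β hβ a R hR U
    gcongr
  refine intg ν ((hcont.sub continuous_const).pow 2).measurable
    (((1 / (N : ℝ)) * (N * Real.log 2 + β / 2 * (R * N)) + |Real.log 2| + |c|) ^ 2)
    fun U => ?_
  rw [abs_of_nonneg (sq_nonneg _)]
  rw [← sq_abs]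
  have h5 := (abs_sub (pressure N β (U.1ᵀ * diagonal a * U.1)) c).trans
    (add_le_add_left (hbound U) |c|)
  exact pow_le_pow_left₀ (abs_nonneg _) h5 2

/-- The formula in mean square and in probability, from the formula for the means. -/
theorem full_of_mean {β : ℝ} (hβ : 0 < β) (μ : Measure ℝ)
    [IsProbabilityMeasure μ] (hμ : IsCompact μ.support)
    (hmean : ∃ p : ℝ, IsGLB (vals β μ) p ∧ ∀ Λ : (N : ℕ) → Fin N → ℝ, Admissible Λ μ →
      Tendsto (fun N => ∫ U, pressure N β (U.1ᵀ * diagonal (Λ N) * U.1) ∂(ν N)) atTop (𝓝 p)) :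
    ∃ p : ℝ, IsGLB (vals β μ) p ∧ ∀ Λ : (N : ℕ) → Fin N → ℝ, Admissible Λ μ →
      Tendsto (fun N => ∫ U, (pressure N β (U.1ᵀ * diagonal (Λ N) * U.1) - p) ^ 2 ∂(ν N))
        atTop (𝓝 0) ∧
      ∀ ε > 0, Tendsto (fun N => (ν N).real
        {U | ε ≤ |pressure N β (U.1ᵀ * diagonal (Λ N) * U.1) - p|}) atTop (𝓝 0) := by
  obtain ⟨p, hp, hlim⟩ := hmean
  refine ⟨p, hp, fun Λ hΛ => ?_⟩
  obtain ⟨Λ', hΛ', href⟩ := refP_spec ν β μ ⟨Λ, hΛ⟩
  have htr : Tendsto (fun N => refP ν β μ N) atTop (𝓝 p) := by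
    simp_rw [href]
    exact hlim Λ' hΛ'
  have h2 := l2_conv ν hβ.le μ hμ Λ hΛ
  have hl2 : Tendsto (fun N => ∫ U, (pressure N β (U.1ᵀ * diagonal (Λ N) * U.1) - p) ^ 2
      ∂(ν N)) atTop (𝓝 0) := by
    have h3 : Tendsto (fun N => 2 * ∫ U, (pressure N β (U.1ᵀ * diagonal (Λ N) * U.1) -
        refP ν β μ N) ^ 2 ∂(ν N) + 2 * (refP ν β μ N - p) ^ 2) atTop (𝓝 0) := by
      have h4 := (h2.const_mul 2).add (((htr.sub_const p).pow 2).const_mul 2)
      simpa only [mul_zero, sub_self, ne_eq, OfNat.ofNat_ne_zero, not_false_eq_true, zero_pow, add_zero] using h4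
    refine squeeze_zero' (Eventually.of_forall fun N => integral_nonneg fun U => sq_nonneg _)
      ?_ h3
    filter_upwards [eventually_gt_atTop 0] with N hN
    have hi : ∀ a : ℝ, Integrable (fun U : OG N =>
        (pressure N β (U.1ᵀ * diagonal (Λ N) * U.1) - a) ^ 2) (ν N) := fun a =>
      int_sq_OG' (ν N) hN hβ.le (Λ N) a
    have h5 : ∀ U : OG N, (pressure N β (U.1ᵀ * diagonal (Λ N) * U.1) - p) ^ 2 ≤
        2 * (pressure N β (U.1ᵀ * diagonal (Λ N) * U.1) - refP ν β μ N) ^ 2 +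
          2 * (refP ν β μ N - p) ^ 2 := fun U => by
      nlinarith only [sq_nonneg (pressure N β (U.1ᵀ * diagonal (Λ N) * U.1) - refP ν β μ N -         (refP ν β μ N - p))]
    refine (integral_mono (hi p) (((hi _).const_mul 2).add (integrable_const _)) h5).trans ?_
    simp only [Pi.add_apply]
    rw [integral_add ((hi _).const_mul 2) (integrable_const _), integral_const_mul]
    simp only [integral_const, probReal_univ, smul_eq_mul, one_mul, Std.le_refl]
  refine ⟨hl2, fun ε hε => ?_⟩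
  have h1 := hl2.const_mul ((ε ^ 2)⁻¹)
  rw [mul_zero] at h1
  refine squeeze_zero' (Eventually.of_forall fun N => measureReal_nonneg) ?_ h1
  filter_upwards [eventually_gt_atTop 0] with N hN
  have hi : Integrable (fun U : OG N =>
      (pressure N β (U.1ᵀ * diagonal (Λ N) * U.1) - p) ^ 2) (ν N) :=
    int_sq_OG' (ν N) hN hβ.le (Λ N) p
  have h6 := mul_meas_ge_le_integral_of_nonneg (μ := ν N)
    (Eventually.of_forall fun U => sq_nonneg
      (pressure N β (U.1ᵀ * diagonal (Λ N) * U.1) - p)) hi (ε ^ 2)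
  rw [inv_mul_eq_div, le_div_iff₀ (by positivity), mul_comm]
  refine le_trans (le_of_eq ?_) h6
  congr 2
  ext U
  simp only [Set.mem_ofPred_eq]
  rw [← sq_abs (pressure N β (U.1ᵀ * diagonal (Λ N) * U.1) - p)]
  exact (pow_le_pow_iff_left₀ hε.le (abs_nonneg _) (by norm_num)).symm

end Main

end Vale.Agent.P166.F
end
end

section

section

/-! P166: fourth moments of the log-partition function. -/

namespace Vale.Agent.P166.Conc

open Matrix MeasureTheory ProbabilityTheory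

section C12a

variable {n : ℕ}

lemma c12_pow8_le (x : ℝ) : x ^ 8 ≤ 40320 * (Real.exp x + Real.exp (-x)) := by
  have h := Real.pow_div_factorial_le_exp |x| (abs_nonneg x) 8
  have h1 : |x| ^ 8 = x ^ 8 := by
    rw [← abs_pow]; exact abs_of_nonneg (by positivity)
  rw [h1] at h
  have h2 : Real.exp |x| ≤ Real.exp x + Real.exp (-x) := by
    rcases abs_cases x with ⟨h, _⟩ | ⟨h, _⟩ <;> rw [h]
    · linarith only [Real.exp_pos (-x)]
    · linarith only [Real.exp_pos x]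
  have h3 : ((8 : ℕ).factorial : ℝ) = 40320 := by norm_num [Nat.factorial]
  rw [h3] at h
  linarith only [h, h2]

/-- eighth moment of Rademacher sums -/
lemma c12_rad8 (c : Fin n → ℝ) :
    ∑ s ∈ cube n, (∑ i, s i * c i) ^ 8 ≤ 2520 * 2 ^ n * (∑ i, c i ^ 2) ^ 4 := by
  set q := ∑ i, c i ^ 2 with hq
  have hq0 : 0 ≤ q := Finset.sum_nonneg fun i _ => sq_nonneg _
  rcases hq0.lt_or_eq with hpos | hzero
  · -- scale by t with t^2 q = 4
    set t := 2 / √q with ht
    have hsq : √q ^ 2 = q := Real.sq_sqrt hq0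
    have hsp : 0 < √q := Real.sqrt_pos.2 hpos
    have ht2 : t ^ 2 * q = 4 := by
      rw [ht, div_pow, hsq]; field_simp; norm_num
    have h1 := sum_exp_cube (fun i => t * c i)
    have h2 := neg_sum_exp_cube (fun i => t * c i)
    have h3 : ∀ s : Fin n → ℝ, ∑ i, s i * (t * c i) = t * ∑ i, s i * c i := by
      intro s
      rw [Finset.mul_sum]
      refine Finset.sum_congr rfl fun i _ => by ring
    have h4 : (∑ i, (t * c i) ^ 2) / 2 = 2 := by
      have : ∑ i, (t * c i) ^ 2 = t ^ 2 * q := by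
        rw [hq, Finset.mul_sum]
        refine Finset.sum_congr rfl fun i _ => by ring
      rw [this, ht2]; norm_num
    rw [h4] at h1 h2
    simp_rw [h3] at h1 h2
    have h5 : ∑ s ∈ cube n, (t * ∑ i, s i * c i) ^ 8 ≤ 40320 * (2 * (2 ^ n * Real.exp 2)) := by
      calc ∑ s ∈ cube n, (t * ∑ i, s i * c i) ^ 8
          ≤ ∑ s ∈ cube n, 40320 *
              (Real.exp (t * ∑ i, s i * c i) + Real.exp (-(t * ∑ i, s i * c i))) :=
            Finset.sum_le_sum fun s _ => c12_pow8_le _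
        _ = 40320 * (∑ s ∈ cube n, Real.exp (t * ∑ i, s i * c i) +
              ∑ s ∈ cube n, Real.exp (-(t * ∑ i, s i * c i))) := by
            rw [← Finset.mul_sum, Finset.sum_add_distrib]
        _ ≤ 40320 * (2 * (2 ^ n * Real.exp 2)) := by linarith only [h1, h2]
    have h6 : ∑ s ∈ cube n, (t * ∑ i, s i * c i) ^ 8 = t ^ 8 * ∑ s ∈ cube n, (∑ i, s i * c i) ^ 8 := by
      rw [Finset.mul_sum]
      refine Finset.sum_congr rfl fun s _ => by ring
    rw [h6] at h5
    have ht8 : t ^ 8 * q ^ 4 = 256 := by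
      have : t ^ 8 * q ^ 4 = (t ^ 2 * q) ^ 4 := by ring
      rw [this, ht2]; norm_num
    have he : Real.exp 2 ≤ 8 := by
      have h := Real.exp_one_lt_d9
      have : Real.exp 2 = Real.exp 1 ^ 2 := by rw [← Real.exp_nat_mul]; norm_num
      rw [this]
      nlinarith only [h, Real.exp_pos 1]
    have h7 : t ^ 8 * ∑ s ∈ cube n, (∑ i, s i * c i) ^ 8 ≤ t ^ 8 * (2520 * 2 ^ n * q ^ 4) := by
      have : t ^ 8 * (2520 * 2 ^ n * q ^ 4) = 40320 * (2 * (2 ^ n * 8)) := by
        have : t ^ 8 * (2520 * 2 ^ n * q ^ 4) = 2520 * 2 ^ n * (t ^ 8 * q ^ 4) := by ring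
        rw [this, ht8]; ring
      rw [this]
      refine h5.trans ?_
      have h8 : (0 : ℝ) < 2 ^ n := by positivity
      have h9 : (2 : ℝ) ^ n * Real.exp 2 ≤ 2 ^ n * 8 := mul_le_mul_of_nonneg_left he h8.le
      linarith only [h9]
    have ht8pos : 0 < t ^ 8 := by (clear * - hpos; positivity)
    exact le_of_mul_le_mul_left h7 ht8pos
  · have hc : ∀ i, c i = 0 := by
      intro i
      have := (Finset.sum_eq_zero_iff_of_nonneg (fun i _ => sq_nonneg (c i))).1 hzero.symm i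
        (Finset.mem_univ i)
      exact pow_eq_zero_iff (two_ne_zero) |>.1 this
    simp only [hc, mul_zero, Finset.sum_const_zero, ne_eq, OfNat.ofNat_ne_zero, not_false_eq_true, zero_pow, Nat.ofNat_pos, mul_pos_iff_of_pos_left, pow_pos, mul_nonneg_iff_of_pos_left, ge_iff_le]
    (clear * -; positivity)

lemma c12_rad44 (a b : Fin n → ℝ) :
    ∑ s ∈ cube n, (∑ i, s i * a i) ^ 4 * (∑ i, s i * b i) ^ 4 ≤
      2520 * 2 ^ n * ((∑ i, a i ^ 2) ^ 2 * (∑ i, b i ^ 2) ^ 2) := by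
  have h := Finset.sum_mul_sq_le_sq_mul_sq (cube n) (fun s => (∑ i, s i * a i) ^ 4)
    (fun s => (∑ i, s i * b i) ^ 4)
  have h1 := c12_rad8 a
  have h2 := c12_rad8 b
  have ha : 0 ≤ ∑ i, a i ^ 2 := Finset.sum_nonneg fun i _ => sq_nonneg _
  have hb : 0 ≤ ∑ i, b i ^ 2 := Finset.sum_nonneg fun i _ => sq_nonneg _
  apply le_of_sq_le_sq _ (by (clear * -; positivity))
  refine h.trans ?_
  simp_rw [← pow_mul]
  calc (∑ s ∈ cube n, (∑ i, s i * a i) ^ (4 * 2)) * (∑ s ∈ cube n, (∑ i, s i * b i) ^ (4 * 2))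
      ≤ (2520 * 2 ^ n * (∑ i, a i ^ 2) ^ 4) * (2520 * 2 ^ n * (∑ i, b i ^ 2) ^ 4) := by
        apply mul_le_mul h1 h2
        · exact Finset.sum_nonneg fun s _ => by (clear * -; positivity)
        · (clear * -; positivity)
    _ = _ := by ring

lemma c12_mom44 (m : ℕ) (a b : Fin n → ℝ) :
    ∫ x, (nv m x ⬝ᵥ a) ^ 4 * (nv m x ⬝ᵥ b) ^ 4 ∂(gam n) ≤
      ∫ x, 2520 * ((∑ i, (nv m x i * a i) ^ 2) ^ 2 * (∑ i, (nv m x i * b i) ^ 2) ^ 2)
        ∂(gam n) := by
  refine sign_avg (Ψ := fun v => (v ⬝ᵥ a) ^ 4 * (v ⬝ᵥ b) ^ 4) ?_ m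
    ((∑ i, |a i|) ^ 4 * (∑ i, |b i|) ^ 4) ?_
    (fun v => 2520 * ((∑ i, (v i * a i) ^ 2) ^ 2 * (∑ i, (v i * b i) ^ 2) ^ 2)) ?_
    (2520 * ((∑ i, a i ^ 2) ^ 2 * (∑ i, b i ^ 2) ^ 2)) ?_ ?_
  · exact ((measurable_dot measurable_id measurable_const).pow_const 4).mul
      ((measurable_dot measurable_id measurable_const).pow_const 4)
  · intro x
    rw [abs_mul, abs_pow, abs_pow]
    exact mul_le_mul (pow_le_pow_left₀ (abs_nonneg _) (nv_dot_abs_le m x a) 4)
      (pow_le_pow_left₀ (abs_nonneg _) (nv_dot_abs_le m x b) 4) (by positivity) (by positivity)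
  · refine measurable_const.mul (Measurable.mul ?_ ?_)
    · exact (Finset.measurable_sum _ fun i _ =>
        ((measurable_pi_apply i).mul measurable_const).pow_const 2).pow_const 2
    · exact (Finset.measurable_sum _ fun i _ =>
        ((measurable_pi_apply i).mul measurable_const).pow_const 2).pow_const 2
  · intro x
    have h1 := sum_sq_coord_le m x a
    have h2 := sum_sq_coord_le m x b
    have h3 : 0 ≤ ∑ i, (nv m x i * a i) ^ 2 := Finset.sum_nonneg fun i _ => sq_nonneg _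
    have h4 : 0 ≤ ∑ i, (nv m x i * b i) ^ 2 := Finset.sum_nonneg fun i _ => sq_nonneg _
    rw [abs_of_nonneg (by (clear * -; positivity))]
    exact mul_le_mul_of_nonneg_left (mul_le_mul (pow_le_pow_left₀ h3 h1 2)
      (pow_le_pow_left₀ h4 h2 2) (sq_nonneg _) (sq_nonneg _)) (by norm_num)
  · intro v
    have h := c12_rad44 (fun i => v i * a i) (fun i => v i * b i)
    have e : ∀ s : Fin n → ℝ, ((fun i => s i * v i) ⬝ᵥ a) ^ 4 * ((fun i => s i * v i) ⬝ᵥ b) ^ 4 =
        (∑ i, s i * (v i * a i)) ^ 4 * (∑ i, s i * (v i * b i)) ^ 4 := by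
      intro s
      simp only [dotProduct, mul_assoc]
    simp only [e]
    linarith

lemma c12_meas_S (m : ℕ) (a : Fin n → ℝ) :
    Measurable fun x : Fin n → ℝ => ∑ i, (nv m x i * a i) ^ 2 :=
  Finset.measurable_sum _ fun i _ => ((meas_nv_coord _ i).mul measurable_const).pow_const 2

lemma c12_S_nonneg (m : ℕ) (x a : Fin n → ℝ) : 0 ≤ ∑ i, (nv m x i * a i) ^ 2 :=
  Finset.sum_nonneg fun i _ => sq_nonneg _

/-- the square of the weighted sum. -/
lemma c12_int_SS (k : Fin n) (y : Fin n → ℝ) :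
    ∫ x, (∑ i, (nv (k : ℕ) x i * y i) ^ 2) ^ 2 ∂(gam n) ≤ (∑ i, y i ^ 2) * Yk k y := by
  rw [← int_weighted, ← integral_const_mul]
  have h0 : 0 ≤ ∑ i, y i ^ 2 := Finset.sum_nonneg fun i _ => sq_nonneg _
  apply integral_mono
  · refine intg' _ ((c12_meas_S _ y).pow_const 2) ((∑ i, y i ^ 2) ^ 2) fun x => ?_
    rw [abs_of_nonneg (sq_nonneg _)]
    exact pow_le_pow_left₀ (c12_S_nonneg _ x y) (sum_sq_coord_le _ x y) 2
  · refine intg' _ (measurable_const.mul (c12_meas_S _ y)) ((∑ i, y i ^ 2) * ∑ i, y i ^ 2)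
      fun x => ?_
    rw [abs_of_nonneg (mul_nonneg h0 (c12_S_nonneg _ x y))]
    exact mul_le_mul_of_nonneg_left (sum_sq_coord_le _ x y) h0
  · intro x
    show (∑ i, (nv (k : ℕ) x i * y i) ^ 2) ^ 2 ≤ _ * (∑ i, (nv (k : ℕ) x i * y i) ^ 2)
    rw [sq]
    exact mul_le_mul_of_nonneg_right (sum_sq_coord_le _ x y) (c12_S_nonneg _ x y)

lemma c12_int_t4 (k : Fin n) (y : Fin n → ℝ) :
    ∫ x, (nv (k : ℕ) x ⬝ᵥ y) ^ 4 ∂(gam n) ≤ 24 * ((∑ i, y i ^ 2) * Yk k y) := by
  have h := mom22 (k : ℕ) y y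
  have e1 : ∀ x : Fin n → ℝ, (nv (k : ℕ) x ⬝ᵥ y) ^ 2 * (nv (k : ℕ) x ⬝ᵥ y) ^ 2 =
      (nv (k : ℕ) x ⬝ᵥ y) ^ 4 := fun x => by ring
  have e2 : ∀ x : Fin n → ℝ, 24 * ((∑ i, (nv (k : ℕ) x i * y i) ^ 2) *
      (∑ i, (nv (k : ℕ) x i * y i) ^ 2)) = 24 * (∑ i, (nv (k : ℕ) x i * y i) ^ 2) ^ 2 :=
    fun x => by ring
  simp_rw [e1, e2] at h
  rw [integral_const_mul] at h
  exact h.trans (mul_le_mul_of_nonneg_left (c12_int_SS k y) (by norm_num))

lemma c12_int_st4 (k : Fin n) {s : Fin n → ℝ} (hs : s ∈ cube n) (y : Fin n → ℝ) :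
    ∫ x, (nv (k : ℕ) x ⬝ᵥ s) ^ 4 * (nv (k : ℕ) x ⬝ᵥ y) ^ 4 ∂(gam n) ≤
      2520 * ((∑ i, y i ^ 2) * Yk k y) := by
  refine (c12_mom44 (k : ℕ) s y).trans ?_
  rw [integral_const_mul]
  apply mul_le_mul_of_nonneg_left _ (by norm_num)
  refine le_trans ?_ (c12_int_SS k y)
  apply integral_mono
  · refine intg' _ (((c12_meas_S _ s).pow_const 2).mul ((c12_meas_S _ y).pow_const 2))
      (1 ^ 2 * (∑ i, y i ^ 2) ^ 2) fun x => ?_
    rw [abs_of_nonneg (by (clear * -; positivity))]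
    exact mul_le_mul (pow_le_pow_left₀ (c12_S_nonneg _ x s) (sum_cube_le _ x hs) 2)
      (pow_le_pow_left₀ (c12_S_nonneg _ x y) (sum_sq_coord_le _ x y) 2) (sq_nonneg _) (by norm_num)
  · refine intg' _ ((c12_meas_S _ y).pow_const 2) ((∑ i, y i ^ 2) ^ 2) fun x => ?_
    rw [abs_of_nonneg (sq_nonneg _)]
    exact pow_le_pow_left₀ (c12_S_nonneg _ x y) (sum_sq_coord_le _ x y) 2
  · intro x
    show (∑ i, (nv (k : ℕ) x i * s i) ^ 2) ^ 2 * (∑ i, (nv (k : ℕ) x i * y i) ^ 2) ^ 2 ≤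
      (∑ i, (nv (k : ℕ) x i * y i) ^ 2) ^ 2
    have h := pow_le_pow_left₀ (c12_S_nonneg (k : ℕ) x s) (sum_cube_le (k : ℕ) x hs) 2
    rw [one_pow] at h
    exact mul_le_of_le_one_left (sq_nonneg _) h

lemma c12_int_s4 (k : Fin n) {s : Fin n → ℝ} (hs : s ∈ cube n) :
    ∫ x, (nv (k : ℕ) x ⬝ᵥ s) ^ 4 ∂(gam n) ≤ 24 := by
  have h := int_ss k hs
  have e1 : ∀ x : Fin n → ℝ, (nv (k : ℕ) x ⬝ᵥ s) ^ 2 * (nv (k : ℕ) x ⬝ᵥ s) ^ 2 =
      (nv (k : ℕ) x ⬝ᵥ s) ^ 4 := fun x => by ring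
  simp_rw [e1] at h
  exact h

lemma c12_int_s8 (k : Fin n) {s : Fin n → ℝ} (hs : s ∈ cube n) :
    ∫ x, (nv (k : ℕ) x ⬝ᵥ s) ^ 8 ∂(gam n) ≤ 2520 := by
  have h := c12_mom44 (k : ℕ) s s
  have e1 : ∀ x : Fin n → ℝ, (nv (k : ℕ) x ⬝ᵥ s) ^ 4 * (nv (k : ℕ) x ⬝ᵥ s) ^ 4 =
      (nv (k : ℕ) x ⬝ᵥ s) ^ 8 := fun x => by ring
  simp_rw [e1] at h
  refine h.trans ?_
  calc ∫ x, 2520 * ((∑ i, (nv (k : ℕ) x i * s i) ^ 2) ^ 2 * (∑ i, (nv (k : ℕ) x i * s i) ^ 2) ^ 2)
        ∂(gam n) ≤ ∫ x, (2520 : ℝ) ∂(gam n) := by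
        have hb : ∀ x : Fin n → ℝ, (∑ i, (nv (k : ℕ) x i * s i) ^ 2) ^ 2 *
            (∑ i, (nv (k : ℕ) x i * s i) ^ 2) ^ 2 ≤ 1 := by
          intro x
          have h := pow_le_pow_left₀ (c12_S_nonneg (k : ℕ) x s) (sum_cube_le (k : ℕ) x hs) 2
          rw [one_pow] at h
          exact mul_le_one₀ h (sq_nonneg _) h
        apply integral_mono
        · refine intg' _ (measurable_const.mul (((c12_meas_S _ s).pow_const 2).mul
            ((c12_meas_S _ s).pow_const 2))) 2520 fun x => ?_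
          rw [abs_of_nonneg (by (clear * -; positivity))]
          have := hb x
          linarith only [this]
        · exact integrable_const _
        · intro x
          have := hb x
          show 2520 * _ ≤ (2520 : ℝ)
          linarith
    _ = 2520 := by simp

end C12a

/-- Gibbs average of the fourth power of the energy change -/
noncomputable def Qf4 {n : ℕ} (β : ℝ) (J : Matrix (Fin n) (Fin n) ℝ) (w : Fin n → ℝ) : ℝ :=
  ∑ s ∈ cube n, gw β J s * Xf β J w s ^ 4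

section C12b

variable {n : ℕ}

lemma c12_Xf_four_le {β K : ℝ} {J : Matrix (Fin n) (Fin n) ℝ} (hJ : Nice K J) (k : Fin n)
    {v : Fin n → ℝ} (hv : v ⬝ᵥ v = 1) {s : Fin n → ℝ} (hs : s ∈ cube n) :
    Xf β J (Wv k v) s ^ 4 ≤ 128 * β ^ 4 * (4 * ((J *ᵥ s) k ^ 4 + (v ⬝ᵥ (J *ᵥ s)) ^ 4 +
      (J *ᵥ s) k ^ 4 * (v ⬝ᵥ s) ^ 4 + (v ⬝ᵥ s) ^ 4 * (v ⬝ᵥ (J *ᵥ s)) ^ 4) +
      8 * K ^ 4 * (1 + (v ⬝ᵥ s) ^ 8)) := by
  have h := Xf_sq_le (β := β) hJ k hv hs
  set X := Xf β J (Wv k v) s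
  set a := v ⬝ᵥ s
  set b := v ⬝ᵥ (J *ᵥ s)
  set y := (J *ᵥ s) k
  have h1 : X ^ 4 = (X ^ 2) ^ 2 := by ring
  have h2 := pow_le_pow_left₀ (sq_nonneg X) h 2
  rw [h1]
  refine h2.trans ?_
  have e : (8 * β ^ 2 * ((1 + a ^ 2) * (y ^ 2 + b ^ 2) + K ^ 2 * (1 + a ^ 2) ^ 2)) ^ 2 =
      64 * β ^ 4 * ((1 + a ^ 2) * (y ^ 2 + b ^ 2) + K ^ 2 * (1 + a ^ 2) ^ 2) ^ 2 := by ring
  rw [e]
  have ha : (1 + a ^ 2) ^ 2 ≤ 2 * (1 + a ^ 4) := by nlinarith only [sq_nonneg (1 - a ^ 2)]
  have hyb : (y ^ 2 + b ^ 2) ^ 2 ≤ 2 * (y ^ 4 + b ^ 4) := by nlinarith only [sq_nonneg (y ^ 2 - b ^ 2)]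
  have hP : ((1 + a ^ 2) * (y ^ 2 + b ^ 2)) ^ 2 ≤ 4 * ((1 + a ^ 4) * (y ^ 4 + b ^ 4)) := by
    rw [mul_pow]
    have := mul_le_mul ha hyb (sq_nonneg _) (by (clear * -; positivity))
    linarith only [this]
  have ha4 : ((1 + a ^ 2) ^ 2) ^ 2 ≤ 8 * (1 + a ^ 8) := by
    have h3 := pow_le_pow_left₀ (sq_nonneg _) ha 2
    have h4 : (2 * (1 + a ^ 4)) ^ 2 ≤ 8 * (1 + a ^ 8) := by nlinarith only [sq_nonneg (1 - a ^ 4)]
    exact h3.trans h4
  have hQ : (K ^ 2 * (1 + a ^ 2) ^ 2) ^ 2 ≤ K ^ 4 * (8 * (1 + a ^ 8)) := by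
    have e2 : (K ^ 2 * (1 + a ^ 2) ^ 2) ^ 2 = K ^ 4 * ((1 + a ^ 2) ^ 2) ^ 2 := by ring
    rw [e2]
    exact mul_le_mul_of_nonneg_left ha4 (by (clear * -; positivity))
  have hPQ : ((1 + a ^ 2) * (y ^ 2 + b ^ 2) + K ^ 2 * (1 + a ^ 2) ^ 2) ^ 2 ≤
      2 * (((1 + a ^ 2) * (y ^ 2 + b ^ 2)) ^ 2 + (K ^ 2 * (1 + a ^ 2) ^ 2) ^ 2) := by
    nlinarith only [sq_nonneg ((1 + a ^ 2) * (y ^ 2 + b ^ 2) - K ^ 2 * (1 + a ^ 2) ^ 2)]
  have hfin : ((1 + a ^ 2) * (y ^ 2 + b ^ 2) + K ^ 2 * (1 + a ^ 2) ^ 2) ^ 2 ≤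
      2 * (4 * ((1 + a ^ 4) * (y ^ 4 + b ^ 4)) + K ^ 4 * (8 * (1 + a ^ 8))) := by linarith only [hP, hQ, hPQ]
  calc 64 * β ^ 4 * ((1 + a ^ 2) * (y ^ 2 + b ^ 2) + K ^ 2 * (1 + a ^ 2) ^ 2) ^ 2 ≤
      64 * β ^ 4 * (2 * (4 * ((1 + a ^ 4) * (y ^ 4 + b ^ 4)) + K ^ 4 * (8 * (1 + a ^ 8)))) :=
        mul_le_mul_of_nonneg_left hfin (by (clear * -; positivity))
    _ = _ := by ring

lemma c12_dot_pow_bd (p m : ℕ) (x a : Fin n → ℝ) :
    |(nv m x ⬝ᵥ a) ^ p| ≤ (∑ i, |a i|) ^ p := by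
  rw [abs_pow]
  exact pow_le_pow_left₀ (abs_nonneg _) (nv_dot_abs_le m x a) p

/-- fourth moment of the energy change -/
lemma c12_int_X4 (β : ℝ) {K : ℝ} {J : Matrix (Fin n) (Fin n) ℝ} (hJ : Nice K J) (k : Fin n)
    {s : Fin n → ℝ} (hs : s ∈ cube n) :
    ∫ x, Xf β J (Wv k (nv (k : ℕ) x)) s ^ 4 ∂(gam n) ≤
      128 * β ^ 4 * (4 * (25 * (J *ᵥ s) k ^ 4 +
        2544 * ((∑ i, (J *ᵥ s) i ^ 2) * Yk k (J *ᵥ s))) + 20168 * K ^ 4) := by
  set y := J *ᵥ s with hy
  have is4 : Integrable (fun x => (nv (k : ℕ) x ⬝ᵥ s) ^ 4) (gam n) :=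
    intg' _ ((meas_nv_dot _ s).pow_const 4) _ fun x => c12_dot_pow_bd 4 _ x s
  have is8 : Integrable (fun x => (nv (k : ℕ) x ⬝ᵥ s) ^ 8) (gam n) :=
    intg' _ ((meas_nv_dot _ s).pow_const 8) _ fun x => c12_dot_pow_bd 8 _ x s
  have it4 : Integrable (fun x => (nv (k : ℕ) x ⬝ᵥ y) ^ 4) (gam n) :=
    intg' _ ((meas_nv_dot _ y).pow_const 4) _ fun x => c12_dot_pow_bd 4 _ x y
  have ist : Integrable (fun x => (nv (k : ℕ) x ⬝ᵥ s) ^ 4 * (nv (k : ℕ) x ⬝ᵥ y) ^ 4) (gam n) :=
    intg' _ (((meas_nv_dot _ s).pow_const 4).mul ((meas_nv_dot _ y).pow_const 4))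
      ((∑ i, |s i|) ^ 4 * (∑ i, |y i|) ^ 4) fun x => by
      rw [abs_mul]
      exact mul_le_mul (c12_dot_pow_bd 4 _ x s) (c12_dot_pow_bd 4 _ x y) (abs_nonneg _)
        (by (clear * -; positivity))
  -- the dominating function
  set R : (Fin n → ℝ) → ℝ := fun x => 4 * (y k ^ 4 + (nv (k : ℕ) x ⬝ᵥ y) ^ 4 +
      y k ^ 4 * (nv (k : ℕ) x ⬝ᵥ s) ^ 4 + (nv (k : ℕ) x ⬝ᵥ s) ^ 4 * (nv (k : ℕ) x ⬝ᵥ y) ^ 4) +
      8 * K ^ 4 * (1 + (nv (k : ℕ) x ⬝ᵥ s) ^ 8) with hR
  have iR1 : Integrable (fun x => y k ^ 4 + (nv (k : ℕ) x ⬝ᵥ y) ^ 4) (gam n) :=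
    (integrable_const _).add it4
  have iR2 : Integrable (fun x => y k ^ 4 + (nv (k : ℕ) x ⬝ᵥ y) ^ 4 +
      y k ^ 4 * (nv (k : ℕ) x ⬝ᵥ s) ^ 4) (gam n) := iR1.add (is4.const_mul _)
  have iR3 : Integrable (fun x => y k ^ 4 + (nv (k : ℕ) x ⬝ᵥ y) ^ 4 +
      y k ^ 4 * (nv (k : ℕ) x ⬝ᵥ s) ^ 4 + (nv (k : ℕ) x ⬝ᵥ s) ^ 4 * (nv (k : ℕ) x ⬝ᵥ y) ^ 4)
      (gam n) := iR2.add ist
  have iR4 : Integrable (fun x => 1 + (nv (k : ℕ) x ⬝ᵥ s) ^ 8) (gam n) :=
    (integrable_const _).add is8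
  have iR : Integrable R (gam n) := (iR3.const_mul 4).add (iR4.const_mul (8 * K ^ 4))
  have hRint : ∫ x, R x ∂(gam n) ≤
      4 * (25 * y k ^ 4 + 2544 * ((∑ i, y i ^ 2) * Yk k y)) + 20168 * K ^ 4 := by
    have e : ∫ x, R x ∂(gam n) = 4 * (y k ^ 4 + ∫ x, (nv (k : ℕ) x ⬝ᵥ y) ^ 4 ∂(gam n) +
        y k ^ 4 * ∫ x, (nv (k : ℕ) x ⬝ᵥ s) ^ 4 ∂(gam n)
        + ∫ x, (nv (k : ℕ) x ⬝ᵥ s) ^ 4 * (nv (k : ℕ) x ⬝ᵥ y) ^ 4 ∂(gam n))
        + 8 * K ^ 4 * (1 + ∫ x, (nv (k : ℕ) x ⬝ᵥ s) ^ 8 ∂(gam n)) := by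
      simp only [hR]
      rw [integral_add (iR3.const_mul 4) (iR4.const_mul (8 * K ^ 4)), integral_const_mul,
        integral_const_mul, integral_add iR2 ist, integral_add iR1 (is4.const_mul _),
        integral_add (integrable_const _) it4, integral_add (integrable_const _) is8,
        integral_const_mul]
      simp only [integral_const, probReal_univ, smul_eq_mul, one_mul, mul_one]
    rw [e]
    have h1 := c12_int_s4 k hs
    have h2 := c12_int_t4 k y
    have h3 := c12_int_st4 k hs y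
    have h4 := c12_int_s8 k hs
    have h5 : y k ^ 4 * ∫ x, (nv (k : ℕ) x ⬝ᵥ s) ^ 4 ∂(gam n) ≤ y k ^ 4 * 24 :=
      mul_le_mul_of_nonneg_left h1 (by (clear * -; positivity))
    have h6 : 8 * K ^ 4 * (1 + ∫ x, (nv (k : ℕ) x ⬝ᵥ s) ^ 8 ∂(gam n)) ≤
        8 * K ^ 4 * (1 + 2520) := mul_le_mul_of_nonneg_left (by linarith only [h4]) (by (clear * -; positivity))
    linarith only [h2, h3, h5, h6]
  have hdom : ∀ᵐ x ∂(gam n), Xf β J (Wv k (nv (k : ℕ) x)) s ^ 4 ≤ 128 * β ^ 4 * R x := by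
    filter_upwards [nv_ae_unit k] with x hx
    exact c12_Xf_four_le (β := β) hJ k hx hs
  calc ∫ x, Xf β J (Wv k (nv (k : ℕ) x)) s ^ 4 ∂(gam n) ≤ ∫ x, 128 * β ^ 4 * R x ∂(gam n) := by
        apply integral_mono_ae _ (iR.const_mul _) hdom
        refine Integrable.mono' (iR.const_mul (128 * β ^ 4)) ?_ ?_
        · exact (((measurable_Xf β J s).comp ((measurable_Wv k).comp
            (measurable_nv (k : ℕ)))).pow_const 4).aestronglyMeasurable
        · filter_upwards [hdom] with x hx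
          rw [Real.norm_eq_abs, abs_of_nonneg (by (clear * -; positivity))]
          exact hx
    _ = 128 * β ^ 4 * ∫ x, R x ∂(gam n) := integral_const_mul _ _
    _ ≤ _ := mul_le_mul_of_nonneg_left hRint (by (clear * -; positivity))

lemma c12_pos (k : Fin n) : (1 : ℝ) ≤ (n : ℝ) - (k : ℕ) := by
  have h : (k : ℕ) + 1 ≤ n := k.2
  have : ((k : ℕ) : ℝ) + 1 ≤ n := by exact_mod_cast h
  linarith only [this]

lemma c12_Yk_nonneg (k : Fin n) (y : Fin n → ℝ) : 0 ≤ Yk k y := by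
  unfold Yk
  refine div_nonneg (Finset.sum_nonneg fun i _ => ?_) (by linarith [c12_pos k])
  split_ifs
  · exact sq_nonneg _
  · exact le_rfl

lemma c12_sum_sq_le {K : ℝ} {J : Matrix (Fin n) (Fin n) ℝ} (hJ : Nice K J) {s : Fin n → ℝ}
    (hs : s ∈ cube n) : ∑ i, (J *ᵥ s) i ^ 2 ≤ K ^ 2 * n := by
  have h := hJ.norm s
  rw [cube_dot hs] at h
  refine le_trans (le_of_eq ?_) h
  unfold dotProduct
  exact Finset.sum_congr rfl fun i _ => sq _

lemma c12_Yk_le {K : ℝ} {J : Matrix (Fin n) (Fin n) ℝ} (hJ : Nice K J) {s : Fin n → ℝ}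
    (hs : s ∈ cube n) (k : Fin n) : Yk k (J *ᵥ s) ≤ K ^ 2 * n * (1 / ((n : ℝ) - (k : ℕ))) := by
  unfold Yk
  rw [mul_one_div]
  refine div_le_div_of_nonneg_right ?_ (by linarith [c12_pos k])
  refine le_trans ?_ (c12_sum_sq_le hJ hs)
  refine Finset.sum_le_sum fun i _ => ?_
  split_ifs
  · exact le_rfl
  · exact sq_nonneg _

/-- fourth moment of the energy change, in terms of the local field -/
lemma c12_int_X4' (β : ℝ) {K : ℝ} {J : Matrix (Fin n) (Fin n) ℝ} (hJ : Nice K J) (k : Fin n)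
    {s : Fin n → ℝ} (hs : s ∈ cube n) :
    ∫ x, Xf β J (Wv k (nv (k : ℕ) x)) s ^ 4 ∂(gam n) ≤
      128 * β ^ 4 * (4 * (K ^ 2 * n) * (25 * (J *ᵥ s) k ^ 2 +
        2544 * (K ^ 2 * n * (1 / ((n : ℝ) - (k : ℕ))))) + 20168 * K ^ 4) := by
  refine (c12_int_X4 β hJ k hs).trans ?_
  apply mul_le_mul_of_nonneg_left _ (by positivity)
  have h1 := c12_sum_sq_le hJ hs
  have h2 := c12_Yk_le hJ hs k
  have h3 := c12_Yk_nonneg k (J *ᵥ s)
  have h4 : (J *ᵥ s) k ^ 2 ≤ ∑ i, (J *ᵥ s) i ^ 2 :=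
    Finset.single_le_sum (f := fun i => (J *ᵥ s) i ^ 2) (fun i _ => sq_nonneg _)
      (Finset.mem_univ k)
  have h5 : (∑ i, (J *ᵥ s) i ^ 2) * Yk k (J *ᵥ s) ≤
      K ^ 2 * n * (K ^ 2 * n * (1 / ((n : ℝ) - (k : ℕ)))) :=
    mul_le_mul h1 h2 h3 (by (clear * -; positivity))
  have h6 : (J *ᵥ s) k ^ 4 ≤ K ^ 2 * n * (J *ᵥ s) k ^ 2 := by
    have : (J *ᵥ s) k ^ 4 = (J *ᵥ s) k ^ 2 * (J *ᵥ s) k ^ 2 := by ring
    rw [this]
    exact mul_le_mul_of_nonneg_right (h4.trans h1) (sq_nonneg _)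
  linarith

lemma c12_gibbs_int (β : ℝ) {lam : Fin n → ℝ} {K : ℝ} (hK : 0 ≤ K) (hlam : ∀ i, |lam i| ≤ K)
    (U : OG n) (k : Fin n) (p : ℕ) (bd : (Fin n → ℝ) → ℝ)
    (h : ∀ s ∈ cube n, ∫ x, Xf β (JU lam U) (Wv k (nv (k : ℕ) x)) s ^ p ∂(gam n) ≤ bd s) :
    ∫ x, ∑ s ∈ cube n, gw β (JU lam U) s * Xf β (JU lam U) (Wx k x) s ^ p ∂(gam n) ≤
      ∑ s ∈ cube n, gw β (JU lam U) s * bd s := by
  have hms : ∀ s : Fin n → ℝ, Measurable fun x => Xf β (JU lam U) (Wx k x) s ^ p := fun s =>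
    ((measurable_Xf β _ s).comp (measurable_Wx k)).pow_const p
  have hXi : ∀ s ∈ cube n, Integrable (fun x => Xf β (JU lam U) (Wx k x) s ^ p) (gam n) := by
    intro s hs
    refine intg' _ (hms s) ((|β| * (K * n)) ^ p) fun x => ?_
    rw [abs_pow]
    exact pow_le_pow_left₀ (abs_nonneg _) (Xf_JU_abs β hK hlam U _ hs) p
  rw [integral_finsetSum _ fun s hs => (hXi s hs).const_mul _]
  simp_rw [integral_const_mul]
  exact Finset.sum_le_sum fun s hs => mul_le_mul_of_nonneg_left (h s hs) (gw_nonneg _ _ _)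

lemma c12_Qf_int (β : ℝ) {lam : Fin n → ℝ} {K : ℝ} (hK : 0 ≤ K) (hlam : ∀ i, |lam i| ≤ K)
    (U : OG n) (k : Fin n) : ∫ x, Qf β (JU lam U) (Wx k x) ∂(gam n) ≤
      8 * β ^ 2 * (6 * loc β (JU lam U) k + 29 * (K ^ 2 * n * (1 / ((n : ℝ) - (k : ℕ)))) +
        35 * K ^ 2) := by
  have hN := JU_nice hK hlam U
  unfold Qf
  refine (c12_gibbs_int β hK hlam U k 2 (fun s => 8 * β ^ 2 * (6 * (JU lam U *ᵥ s) k ^ 2 +
          29 * (K ^ 2 * n * (1 / ((n : ℝ) - (k : ℕ)))) + 35 * K ^ 2)) fun s hs => ?_).trans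
    (le_of_eq ?_)
  · refine (int_X β hN k hs).trans ?_
    apply mul_le_mul_of_nonneg_left _ (by (clear * -; positivity))
    have := c12_Yk_le hN hs k
    linarith
  · calc ∑ s ∈ cube n, gw β (JU lam U) s * (8 * β ^ 2 * (6 * (JU lam U *ᵥ s) k ^ 2 +
          29 * (K ^ 2 * n * (1 / ((n : ℝ) - (k : ℕ)))) + 35 * K ^ 2)) =
        8 * β ^ 2 * (6 * loc β (JU lam U) k +
        (29 * (K ^ 2 * n * (1 / ((n : ℝ) - (k : ℕ)))) + 35 * K ^ 2) *
          ∑ s ∈ cube n, gw β (JU lam U) s) := by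
          unfold loc
          simp_rw [Finset.mul_sum]
          rw [← Finset.sum_add_distrib, Finset.mul_sum]
          refine Finset.sum_congr rfl fun s _ => by ring
      _ = _ := by rw [gw_sum, mul_one]; ring

lemma c12_Qf4_int (β : ℝ) {lam : Fin n → ℝ} {K : ℝ} (hK : 0 ≤ K) (hlam : ∀ i, |lam i| ≤ K)
    (U : OG n) (k : Fin n) : ∫ x, Qf4 β (JU lam U) (Wx k x) ∂(gam n) ≤
      128 * β ^ 4 * (4 * (K ^ 2 * n) * (25 * loc β (JU lam U) k +
        2544 * (K ^ 2 * n * (1 / ((n : ℝ) - (k : ℕ))))) + 20168 * K ^ 4) := by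
  have hN := JU_nice hK hlam U
  unfold Qf4
  refine (c12_gibbs_int β hK hlam U k 4 (fun s => 128 * β ^ 4 * (4 * (K ^ 2 * n) *
      (25 * (JU lam U *ᵥ s) k ^ 2 +
        2544 * (K ^ 2 * n * (1 / ((n : ℝ) - (k : ℕ))))) + 20168 * K ^ 4)) fun s hs => ?_).trans
    (le_of_eq ?_)
  · exact c12_int_X4' β hN k hs
  · calc ∑ s ∈ cube n, gw β (JU lam U) s * (128 * β ^ 4 * (4 * (K ^ 2 * n) *
      (25 * (JU lam U *ᵥ s) k ^ 2 +
        2544 * (K ^ 2 * n * (1 / ((n : ℝ) - (k : ℕ))))) + 20168 * K ^ 4)) =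
        128 * β ^ 4 * (4 * (K ^ 2 * n) * (25 * loc β (JU lam U) k) +
        (4 * (K ^ 2 * n) * (2544 * (K ^ 2 * n * (1 / ((n : ℝ) - (k : ℕ))))) + 20168 * K ^ 4) *
          ∑ s ∈ cube n, gw β (JU lam U) s) := by
          unfold loc
          simp_rw [Finset.mul_sum]
          rw [← Finset.sum_add_distrib, Finset.mul_sum]
          refine Finset.sum_congr rfl fun s _ => by ring
      _ = _ := by rw [gw_sum, mul_one]; ring

end C12b

section C12c

variable {n : ℕ}

lemma c12_harm_aux (n : ℕ) : ∑ j ∈ Finset.range n, 1 / ((j : ℝ) + 1) ≤ 2 * √n := by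
  induction n with
  | zero => simp
  | succ n ih =>
    rw [Finset.sum_range_succ]
    push_cast
    have h0 : (0 : ℝ) < (n : ℝ) + 1 := by positivity
    have hs : √((n : ℝ) + 1) ^ 2 = (n : ℝ) + 1 := Real.sq_sqrt h0.le
    have hs' : √(n : ℝ) ^ 2 = (n : ℝ) := Real.sq_sqrt (Nat.cast_nonneg n)
    have hp : 0 < √((n : ℝ) + 1) := Real.sqrt_pos.2 h0
    have hp' : 0 ≤ √(n : ℝ) := Real.sqrt_nonneg _
    have hle : √(n : ℝ) ≤ √((n : ℝ) + 1) := Real.sqrt_le_sqrt (by linarith only [])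
    have h1 : 1 ≤ √((n : ℝ) + 1) := by
      rw [Real.one_le_sqrt]; linarith only []
    have key : 1 / ((n : ℝ) + 1) ≤ 2 * (√((n : ℝ) + 1) - √(n : ℝ)) := by
      rw [div_le_iff₀ h0]
      set u := √((n : ℝ) + 1)
      set v := √(n : ℝ)
      have h2 : (u - v) * (u + v) = 1 := by linarith
      have h3 : 0 ≤ u - v := by linarith only [hle]
      have h4 : 1 ≤ 2 * (u - v) * u := by nlinarith only [hs, hs']
      have h5 : 2 * (u - v) * u ≤ 2 * (u - v) * ((n : ℝ) + 1) := by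
        apply mul_le_mul_of_nonneg_left _ (by linarith only [hle])
        nlinarith only [hs]
      linarith only [h4, h5]
    linarith only [ih, key]

lemma c12_harm (n : ℕ) : ∑ k : Fin n, 1 / ((n : ℝ) - ((k : ℕ) : ℝ)) ≤ 2 * √n := by
  rw [Fin.sum_univ_eq_sum_range (fun k => 1 / ((n : ℝ) - (k : ℝ))) n,
    ← Finset.sum_range_reflect]
  refine le_trans (le_of_eq ?_) (c12_harm_aux n)
  refine Finset.sum_congr rfl fun j hj => ?_
  have hj' : j + 1 ≤ n := Finset.mem_range.1 hj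
  have h1 : n - 1 - j = n - (j + 1) := by omega
  rw [h1, Nat.cast_sub hj']
  push_cast
  congr 1
  ring

/-- the comparison function. -/
noncomputable def c12G (β : ℝ) (lam : Fin n → ℝ) (m : ℝ) (p : OG n × (Fin n → ℝ)) : ℝ :=
  8 * (fU β lam p.1 - m) ^ 2 * Qf β (JU lam p.1) p.2 + 2 * Qf4 β (JU lam p.1) p.2

lemma c12_Qf4_nonneg (β : ℝ) (J : Matrix (Fin n) (Fin n) ℝ) (w : Fin n → ℝ) : 0 ≤ Qf4 β J w :=
  Finset.sum_nonneg fun s _ => mul_nonneg (gw_nonneg _ _ _) (by positivity)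

lemma c12G_nonneg (β : ℝ) (lam : Fin n → ℝ) (m : ℝ) (p : OG n × (Fin n → ℝ)) :
    0 ≤ c12G β lam m p := by
  unfold c12G
  have := Qf_nonneg β (JU lam p.1) p.2
  have := c12_Qf4_nonneg β (JU lam p.1) p.2
  positivity

lemma c12_Qf_sq_le (β : ℝ) (J : Matrix (Fin n) (Fin n) ℝ) (w : Fin n → ℝ) :
    Qf β J w ^ 2 ≤ Qf4 β J w := by
  unfold Qf Qf4
  refine (mean_sq_le β J (fun s => Xf β J w s ^ 2)).trans (le_of_eq ?_)
  refine Finset.sum_congr rfl fun s _ => by ring

lemma c12_real {d p Q Q4 : ℝ} (h1 : d ^ 2 ≤ Q) (h2 : Q ^ 2 ≤ Q4) :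
    (d * (2 * p + d)) ^ 2 ≤ 8 * p ^ 2 * Q + 2 * Q4 := by
  have h3 : (2 * p + d) ^ 2 ≤ 8 * p ^ 2 + 2 * d ^ 2 := by nlinarith only [sq_nonneg (2 * p - d)]
  have h4 : d ^ 2 * (2 * p + d) ^ 2 ≤ d ^ 2 * (8 * p ^ 2 + 2 * d ^ 2) :=
    mul_le_mul_of_nonneg_left h3 (sq_nonneg _)
  have h5 : (d ^ 2) ^ 2 ≤ Q ^ 2 := pow_le_pow_left₀ (sq_nonneg _) h1 2
  have h6 : p ^ 2 * d ^ 2 ≤ p ^ 2 * Q := mul_le_mul_of_nonneg_left h1 (sq_nonneg _)
  have e : (d * (2 * p + d)) ^ 2 = d ^ 2 * (2 * p + d) ^ 2 := by ring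
  rw [e]
  linarith only [h2, h4, h5, h6]

lemma c12_diff (β : ℝ) (lam : Fin n → ℝ) (m : ℝ) (U : OG n) (w : Fin n → ℝ) :
    ((fU β lam (U * rflG w) - m) ^ 2 - (fU β lam U - m) ^ 2) ^ 2 ≤
      c12G β lam m (U, w) + c12G β lam m (U * rflG w, w) := by
  have h1 := lse_ge β (JU lam U) (JU lam (U * rflG w))
  have h2 := lse_ge β (JU lam (U * rflG w)) (JU lam U)
  have e1 : ∀ s, β / 2 * (en (JU lam (U * rflG w)) s - en (JU lam U) s) =
      Xf β (JU lam U) w s := by
    intro s; rw [JU_rfl]; exact Xf_eq β _ (JU_symm lam U) w s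
  have e2 : ∀ s, β / 2 * (en (JU lam U) s - en (JU lam (U * rflG w)) s) =
      Xf β (JU lam (U * rflG w)) w s := by
    intro s
    have h3 : JU lam U = rfl' w * JU lam (U * rflG w) * rfl' w := by
      rw [← JU_rfl, mul_assoc, rflG_mul_self, mul_one]
    nth_rewrite 1 [h3]
    exact Xf_eq β _ (JU_symm lam _) w s
  simp_rw [e1] at h1
  simp_rw [e2] at h2
  have m1 : _ ≤ Qf β (JU lam U) w := mean_sq_le β (JU lam U) (fun s => Xf β (JU lam U) w s)
  have m2 : _ ≤ Qf β (JU lam (U * rflG w)) w :=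
    mean_sq_le β (JU lam (U * rflG w)) (fun s => Xf β (JU lam (U * rflG w)) w s)
  have q1 := c12_Qf_sq_le β (JU lam U) w
  have q2 := c12_Qf_sq_le β (JU lam (U * rflG w)) w
  have n1 := c12G_nonneg β lam m (U, w)
  have n2 := c12G_nonneg β lam m (U * rflG w, w)
  have hd1 : ∑ s ∈ cube n, gw β (JU lam U) s * Xf β (JU lam U) w s ≤
      fU β lam (U * rflG w) - fU β lam U := h1
  have hd2 : ∑ s ∈ cube n, gw β (JU lam (U * rflG w)) s * Xf β (JU lam (U * rflG w)) w s ≤
      fU β lam U - fU β lam (U * rflG w) := h2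
  rcases le_total 0 (fU β lam (U * rflG w) - fU β lam U) with hd | hd
  · have hs : (fU β lam U - fU β lam (U * rflG w)) ^ 2 ≤ Qf β (JU lam (U * rflG w)) w := by
      refine le_trans ?_ m2
      rw [← neg_sq (∑ s ∈ cube n, _)]
      exact sq_le_sq' (by linarith only [hd2]) (by linarith only [hd2, hd])
    have h := c12_real (p := fU β lam (U * rflG w) - m) hs q2
    have e : (((fU β lam U - fU β lam (U * rflG w)) *
        (2 * (fU β lam (U * rflG w) - m) + (fU β lam U - fU β lam (U * rflG w))))) ^ 2 =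
        ((fU β lam (U * rflG w) - m) ^ 2 - (fU β lam U - m) ^ 2) ^ 2 := by ring
    rw [e] at h
    have : c12G β lam m (U * rflG w, w) = 8 * (fU β lam (U * rflG w) - m) ^ 2 *
      Qf β (JU lam (U * rflG w)) w + 2 * Qf4 β (JU lam (U * rflG w)) w := rfl
    linarith only [n1, h, this]
  · have hs : (fU β lam (U * rflG w) - fU β lam U) ^ 2 ≤ Qf β (JU lam U) w := by
      refine le_trans ?_ m1
      rw [← neg_sq (∑ s ∈ cube n, _)]
      exact sq_le_sq' (by linarith only [hd1]) (by linarith only [hd1, hd])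
    have h := c12_real (p := fU β lam U - m) hs q1
    have e : (((fU β lam (U * rflG w) - fU β lam U) *
        (2 * (fU β lam U - m) + (fU β lam (U * rflG w) - fU β lam U)))) ^ 2 =
        ((fU β lam (U * rflG w) - m) ^ 2 - (fU β lam U - m) ^ 2) ^ 2 := by ring
    rw [e] at h
    have : c12G β lam m (U, w) = 8 * (fU β lam U - m) ^ 2 *
      Qf β (JU lam U) w + 2 * Qf4 β (JU lam U) w := rfl
    linarith only [n2, h, this]

variable [MeasurableSpace (OG n)] [BorelSpace (OG n)]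

lemma c12_meas_Q4 (β : ℝ) (lam : Fin n → ℝ) :
    Measurable fun p : OG n × (Fin n → ℝ) => Qf4 β (JU lam p.1) p.2 := by
  unfold Qf4
  refine Finset.measurable_sum _ fun s _ => ?_
  have hJ : Continuous fun p : OG n × (Fin n → ℝ) => JU lam p.1 :=
    (continuous_JU lam).comp continuous_fst
  refine (continuous_gw β hJ s).measurable.mul (Measurable.pow_const ?_ 4)
  unfold Xf
  have h1 : Measurable fun p : OG n × (Fin n → ℝ) => p.2 ⬝ᵥ p.2 :=
    measurable_dot measurable_snd measurable_snd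
  have h2 : Measurable fun p : OG n × (Fin n → ℝ) => p.2 ⬝ᵥ s :=
    measurable_dot measurable_snd measurable_const
  have h3 : Measurable fun p : OG n × (Fin n → ℝ) => p.2 ⬝ᵥ (JU lam p.1 *ᵥ s) :=
    (Continuous.dotProduct continuous_snd (hJ.matrix_mulVec continuous_const)).measurable
  have h4 : Measurable fun p : OG n × (Fin n → ℝ) => p.2 ⬝ᵥ (JU lam p.1 *ᵥ p.2) :=
    (Continuous.dotProduct continuous_snd (hJ.matrix_mulVec continuous_snd)).measurable
  have h5 : Measurable fun p : OG n × (Fin n → ℝ) => 2 / (p.2 ⬝ᵥ p.2) * (p.2 ⬝ᵥ s) :=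
    (measurable_const.div h1).mul h2
  exact measurable_const.mul ((((h5.const_mul 2).neg).mul h3).add ((h5.pow_const 2).mul h4))

omit [MeasurableSpace (OG n)] [BorelSpace (OG n)] in
lemma c12_Qf4_bd (β : ℝ) {lam : Fin n → ℝ} {K : ℝ} (hK : 0 ≤ K) (hlam : ∀ i, |lam i| ≤ K)
    (U : OG n) (w : Fin n → ℝ) : |Qf4 β (JU lam U) w| ≤ (|β| * (K * n)) ^ 4 := by
  rw [abs_of_nonneg (c12_Qf4_nonneg _ _ _)]
  unfold Qf4
  calc ∑ s ∈ cube n, gw β (JU lam U) s * Xf β (JU lam U) w s ^ 4 ≤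
      ∑ s ∈ cube n, gw β (JU lam U) s * (|β| * (K * n)) ^ 4 := by
        refine Finset.sum_le_sum fun s hs => mul_le_mul_of_nonneg_left ?_ (gw_nonneg _ _ _)
        rw [← Even.pow_abs (by decide : Even 4)]
        exact pow_le_pow_left₀ (abs_nonneg _) (Xf_JU_abs β hK hlam U w hs) 4
    _ = _ := by rw [← Finset.sum_mul, gw_sum, one_mul]

lemma c12_meas_G (β : ℝ) (lam : Fin n → ℝ) (m : ℝ) : Measurable (c12G (n := n) β lam m) := by
  unfold c12G
  have hf : Measurable fun p : OG n × (Fin n → ℝ) => fU β lam p.1 :=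
    (continuous_fU β lam).measurable.comp measurable_fst
  exact ((((hf.sub_const m).pow_const 2).const_mul 8).mul (meas_Q β lam)).add
    ((c12_meas_Q4 β lam).const_mul 2)

lemma c12_G_bd (β : ℝ) {lam : Fin n → ℝ} {K : ℝ} (hK : 0 ≤ K) (hlam : ∀ i, |lam i| ≤ K) (m : ℝ) :
    ∃ C : ℝ, ∀ p, |c12G (n := n) β lam m p| ≤ C := by
  have hB := BM_fU (n := n) β hK hlam
  refine ⟨8 * ((n * Real.log 2 + |β| / 2 * (K * n)) + |m|) ^ 2 * (|β| * (K * n)) ^ 2 +
    2 * (|β| * (K * n)) ^ 4, fun p => ?_⟩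
  have h1 : |fU β lam p.1 - m| ≤ (n * Real.log 2 + |β| / 2 * (K * n)) + |m| :=
    (abs_sub _ _).trans (by linarith only [hB.bd p.1])
  have h2 : (fU β lam p.1 - m) ^ 2 ≤ ((n * Real.log 2 + |β| / 2 * (K * n)) + |m|) ^ 2 := by
    rw [← sq_abs]; exact pow_le_pow_left₀ (abs_nonneg _) h1 2
  have h3 := Qf_bd β hK hlam p.1 p.2
  have h4 := c12_Qf4_bd β hK hlam p.1 p.2
  rw [abs_of_nonneg (c12G_nonneg _ _ _ _)]
  rw [abs_of_nonneg (Qf_nonneg _ _ _)] at h3
  rw [abs_of_nonneg (c12_Qf4_nonneg _ _ _)] at h4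
  unfold c12G
  have h5 : (fU β lam p.1 - m) ^ 2 * Qf β (JU lam p.1) p.2 ≤
      ((n * Real.log 2 + |β| / 2 * (K * n)) + |m|) ^ 2 * (|β| * (K * n)) ^ 2 :=
    mul_le_mul h2 h3 (Qf_nonneg _ _ _) (sq_nonneg _)
  linarith only [h4, h5]

variable (ν : Measure (OG n)) [IsProbabilityMeasure ν] [ν.IsMulRightInvariant]

/-- the Dirichlet form is controlled by a comparison function. -/
lemma c12_D_le {B : ℝ} {h : OG n → ℝ} (hf : BM B h) {G : OG n × (Fin n → ℝ) → ℝ}
    (hG : Measurable G) {CG : ℝ} (hGb : ∀ p, |G p| ≤ CG) (k : Fin n)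
    (hga : ∀ U v, h (U * hk k v) = h (U * rflG (Wv k v)))
    (hd : ∀ U w, (h (U * rflG w) - h U) ^ 2 ≤ G (U, w) + G (U * rflG w, w)) :
    D ν k h ≤ 2 * ∫ U, ∫ x, G (U, Wx k x) ∂(gam n) ∂ν := by
  have hmQ : Measurable fun p : OG n × (Fin n → ℝ) => G (p.1, Wx k p.2) :=
    hG.comp (measurable_fst.prodMk
      ((measurable_Wx k).comp (measurable_snd (α := OG n) (β := Fin n → ℝ))))
  have hmQ2 : Measurable fun p : OG n × (Fin n → ℝ) =>
      G (p.1 * rflG (Wx k p.2), Wx k p.2) :=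
    hG.comp
      ((measurable_fst.mul (measurable_rflG ((measurable_Wx k).comp
        (measurable_snd (α := OG n) (β := Fin n → ℝ))))).prodMk
      ((measurable_Wx k).comp (measurable_snd (α := OG n) (β := Fin n → ℝ))))
  have hiQ : Integrable (fun p : OG n × (Fin n → ℝ) => G (p.1, Wx k p.2))
      (ν.prod (gam n)) := intg' _ hmQ _ fun p => hGb _
  have hiQ2 : Integrable (fun p : OG n × (Fin n → ℝ) => G (p.1 * rflG (Wx k p.2), Wx k p.2))
      (ν.prod (gam n)) := intg' _ hmQ2 _ fun p => hGb _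
  have hD : D ν k h = ∫ p, (h (p.1 * Hx k p.2) - h p.1) ^ 2
      ∂(ν.prod (gam n)) := by
    rw [integral_prod]
    · rfl
    · exact intg _ (meas_diff k hf.meas) _ fun p => sq_diff_bd hf _ _
  have h2 : ∫ p, G (p.1 * rflG (Wx k p.2), Wx k p.2) ∂(ν.prod (gam n)) =
      ∫ p, G (p.1, Wx k p.2) ∂(ν.prod (gam n)) := by
    rw [integral_prod_symm _ hiQ2, integral_prod_symm _ hiQ]
    refine integral_congr_ae (Filter.Eventually.of_forall fun x => ?_)
    exact integral_mul_right_eq_self (μ := ν) (fun U => G (U, Wx k x)) (rflG (Wx k x))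
  have h3 : ∫ U, ∫ x, G (U, Wx k x) ∂(gam n) ∂ν = ∫ p, G (p.1, Wx k p.2) ∂(ν.prod (gam n)) := by
    rw [integral_prod _ hiQ]
  rw [h3, hD, two_mul]
  nth_rewrite 1 [← h2]
  rw [add_comm, ← integral_add hiQ hiQ2]
  apply integral_mono
  · exact intg _ (meas_diff k hf.meas) _ fun p => sq_diff_bd hf _ _
  · exact hiQ.add hiQ2
  · intro p
    show (h (p.1 * hk k (nv (k : ℕ) p.2)) - h p.1) ^ 2 ≤ _
    rw [hga]
    exact hd p.1 (Wx k p.2)

omit [MeasurableSpace (OG n)] [BorelSpace (OG n)] in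
lemma c12_one_le_sqrt (k : Fin n) : 1 ≤ √(n : ℝ) := by
  rw [Real.one_le_sqrt]
  have : 1 ≤ n := by have := k.2; omega
  exact_mod_cast this

/-- the comparison function integrated over the Gaussian directions and summed over the steps. -/
lemma c12_sum_G (β : ℝ) {lam : Fin n → ℝ} {K : ℝ} (hK : 0 ≤ K) (hlam : ∀ i, |lam i| ≤ K)
    (m : ℝ) (U : OG n) :
    ∑ k : Fin n, ∫ x, c12G β lam m (U, Wx k x) ∂(gam n) ≤
      8 * (fU β lam U - m) ^ 2 * (792 * β ^ 2 * K ^ 2 * (n * √n)) +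
        2 * (128 * 40620 * β ^ 4 * K ^ 4 * ((n : ℝ) ^ 2 * √n)) := by
  have hUx : ∀ k : Fin n, Measurable fun x : Fin n → ℝ => ((U, Wx k x) : OG n × (Fin n → ℝ)) :=
    fun k => measurable_const.prodMk (measurable_Wx k)
  have hmQ : ∀ k : Fin n, Measurable fun x => Qf β (JU lam U) (Wx k x) := fun k => by
    have h := (meas_Q (n := n) β lam).comp (hUx k)
    exact h
  have hmQ4 : ∀ k : Fin n, Measurable fun x => Qf4 β (JU lam U) (Wx k x) := fun k => by
    have h := (c12_meas_Q4 (n := n) β lam).comp (hUx k)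
    exact h
  have hQi : ∀ k : Fin n, Integrable (fun x => Qf β (JU lam U) (Wx k x)) (gam n) := fun k =>
    intg' _ (hmQ k) _ fun x => Qf_bd β hK hlam U _
  have hQ4i : ∀ k : Fin n, Integrable (fun x => Qf4 β (JU lam U) (Wx k x)) (gam n) := fun k =>
    intg' _ (hmQ4 k) _ fun x => c12_Qf4_bd β hK hlam U _
  have e : ∀ k : Fin n, ∫ x, c12G β lam m (U, Wx k x) ∂(gam n) =
      8 * (fU β lam U - m) ^ 2 * ∫ x, Qf β (JU lam U) (Wx k x) ∂(gam n) +
        2 * ∫ x, Qf4 β (JU lam U) (Wx k x) ∂(gam n) := by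
    intro k
    simp only [c12G]
    rw [integral_add ((hQi k).const_mul _) ((hQ4i k).const_mul _), integral_const_mul,
      integral_const_mul]
  simp_rw [e]
  rw [Finset.sum_add_distrib, ← Finset.mul_sum, ← Finset.mul_sum]
  have hN := JU_nice hK hlam U
  have hL := loc_sum β hN
  have hH := c12_harm n
  have hL0 : 0 ≤ ∑ i, loc β (JU lam U) i := Finset.sum_nonneg fun i _ => loc_nonneg β _ i
  have hn0 : (0 : ℝ) ≤ n := Nat.cast_nonneg n
  have hs0 : 0 ≤ √(n : ℝ) := Real.sqrt_nonneg _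
  have hn1 : (n : ℝ) ≤ n * √n := by
    rcases Nat.eq_zero_or_pos n with h0 | h0
    · subst h0; simp
    · have := c12_one_le_sqrt (n := n) ⟨0, h0⟩
      nlinarith only [this]
  have hn2 : (n : ℝ) ≤ (n : ℝ) ^ 2 * √n := by
    rcases Nat.eq_zero_or_pos n with h0 | h0
    · subst h0; simp only [CharP.cast_eq_zero, ne_eq, OfNat.ofNat_ne_zero, not_false_eq_true, zero_pow, Real.sqrt_zero, mul_zero, Std.le_refl]
    · have h1 : (1 : ℝ) ≤ n := by exact_mod_cast h0
      have h2 : (n : ℝ) * √n ≤ (n : ℝ) ^ 2 * √n := by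
        apply mul_le_mul_of_nonneg_right _ hs0
        nlinarith only [h1]
      linarith only [hn1, h2]
  have hn3 : (n : ℝ) ^ 2 ≤ (n : ℝ) ^ 2 * √n := by
    have : (n : ℝ) * n ≤ n * (n * √n) := mul_le_mul_of_nonneg_left hn1 hn0
    nlinarith only [this]
  have hS1 : ∑ k : Fin n, ∫ x, Qf β (JU lam U) (Wx k x) ∂(gam n) ≤
      792 * β ^ 2 * K ^ 2 * (n * √n) := by
    refine (Finset.sum_le_sum fun k _ => c12_Qf_int β hK hlam U k).trans ?_
    rw [← Finset.mul_sum]
    simp_rw [add_assoc]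
    rw [Finset.sum_add_distrib, Finset.sum_add_distrib, ← Finset.mul_sum, ← Finset.mul_sum,
      ← Finset.mul_sum, Finset.sum_const, Finset.card_univ, Fintype.card_fin, nsmul_eq_mul]
    have h1 : K ^ 2 * n * ∑ k : Fin n, 1 / ((n : ℝ) - ((k : ℕ) : ℝ)) ≤ K ^ 2 * n * (2 * √n) :=
      mul_le_mul_of_nonneg_left hH (by (clear * -; positivity))
    have h2 : K ^ 2 * (n : ℝ) ≤ K ^ 2 * (n * √n) := mul_le_mul_of_nonneg_left hn1 (sq_nonneg _)
    have h3 : 6 * ∑ i, loc β (JU lam U) i + (29 * (K ^ 2 * n *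
        ∑ k : Fin n, 1 / ((n : ℝ) - ((k : ℕ) : ℝ))) + n * (35 * K ^ 2)) ≤
        99 * (K ^ 2 * (n * √n)) := by linarith
    calc 8 * β ^ 2 * (6 * ∑ i, loc β (JU lam U) i + (29 * (K ^ 2 * n *
        ∑ k : Fin n, 1 / ((n : ℝ) - ((k : ℕ) : ℝ))) + n * (35 * K ^ 2))) ≤
        8 * β ^ 2 * (99 * (K ^ 2 * (n * √n))) := mul_le_mul_of_nonneg_left h3 (by (clear * -; positivity))
      _ = _ := by ring
  have hS2 : ∑ k : Fin n, ∫ x, Qf4 β (JU lam U) (Wx k x) ∂(gam n) ≤
      128 * 40620 * β ^ 4 * K ^ 4 * ((n : ℝ) ^ 2 * √n) := by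
    refine (Finset.sum_le_sum fun k _ => c12_Qf4_int β hK hlam U k).trans ?_
    rw [← Finset.mul_sum, Finset.sum_add_distrib, ← Finset.mul_sum, Finset.sum_add_distrib,
      ← Finset.mul_sum, ← Finset.mul_sum,
      ← Finset.mul_sum, Finset.sum_const, Finset.card_univ, Fintype.card_fin, nsmul_eq_mul]
    have h1 : K ^ 2 * n * ∑ k : Fin n, 1 / ((n : ℝ) - ((k : ℕ) : ℝ)) ≤ K ^ 2 * n * (2 * √n) :=
      mul_le_mul_of_nonneg_left hH (by (clear * -; positivity))
    have h2 : 25 * ∑ i, loc β (JU lam U) i + 2544 * (K ^ 2 * n *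
        ∑ k : Fin n, 1 / ((n : ℝ) - ((k : ℕ) : ℝ))) ≤
        25 * (K ^ 2 * n) + 2544 * (K ^ 2 * n * (2 * √n)) := by linarith
    have h3 : 4 * (K ^ 2 * n) * (25 * ∑ i, loc β (JU lam U) i + 2544 * (K ^ 2 * n *
        ∑ k : Fin n, 1 / ((n : ℝ) - ((k : ℕ) : ℝ)))) ≤
        4 * (K ^ 2 * n) * (25 * (K ^ 2 * n) + 2544 * (K ^ 2 * n * (2 * √n))) :=
      mul_le_mul_of_nonneg_left h2 (by (clear * -; positivity))
    have h4 : K ^ 4 * (n : ℝ) ≤ K ^ 4 * ((n : ℝ) ^ 2 * √n) :=
      mul_le_mul_of_nonneg_left hn2 (by (clear * -; positivity))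
    have h5 : K ^ 4 * (n : ℝ) ^ 2 ≤ K ^ 4 * ((n : ℝ) ^ 2 * √n) :=
      mul_le_mul_of_nonneg_left hn3 (by (clear * -; positivity))
    have h6 : 4 * (K ^ 2 * n) * (25 * ∑ i, loc β (JU lam U) i + 2544 * (K ^ 2 * n *
        ∑ k : Fin n, 1 / ((n : ℝ) - ((k : ℕ) : ℝ)))) + n * (20168 * K ^ 4) ≤
        40620 * (K ^ 4 * ((n : ℝ) ^ 2 * √n)) := by
      refine (add_le_add_left h3 _).trans ?_
      have e1 : 4 * (K ^ 2 * n) * (25 * (K ^ 2 * n) + 2544 * (K ^ 2 * n * (2 * √n))) =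
        100 * (K ^ 4 * (n : ℝ) ^ 2) + 20352 * (K ^ 4 * ((n : ℝ) ^ 2 * √n)) := by ring
      rw [e1]
      linarith only [h4, h5]
    calc 128 * β ^ 4 * (4 * (K ^ 2 * n) * (25 * ∑ i, loc β (JU lam U) i + 2544 * (K ^ 2 * n *
        ∑ k : Fin n, 1 / ((n : ℝ) - ((k : ℕ) : ℝ)))) + n * (20168 * K ^ 4)) ≤
        128 * β ^ 4 * (40620 * (K ^ 4 * ((n : ℝ) ^ 2 * √n))) :=
          mul_le_mul_of_nonneg_left h6 (by (clear * -; positivity))
      _ = _ := by ring
  exact add_le_add (mul_le_mul_of_nonneg_left hS1 (by (clear * -; positivity)))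
    (mul_le_mul_of_nonneg_left hS2 (by norm_num))

end C12c

/-- **Fourth moment of the log-partition function.** -/
theorem fourth_fU (β : ℝ) {K : ℝ} (hK : 0 ≤ K) : ∃ C : ℝ, 0 ≤ C ∧ ∀ (n : ℕ)
    [MeasurableSpace (OG n)] [BorelSpace (OG n)] (ν : Measure (OG n)) [IsProbabilityMeasure ν]
    [ν.IsMulRightInvariant] (lam : Fin n → ℝ), (∀ i, |lam i| ≤ K) →
    ∫ U, (fU β lam U - ∫ V, fU β lam V ∂ν) ^ 4 ∂ν ≤ C * ((n : ℝ) ^ 2 * √n) := by
  refine ⟨36244480 * β ^ 4 * K ^ 4, by positivity, ?_⟩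
  intro n _ _ ν _ _ lam hlam
  have hB := BM_fU (n := n) β hK hlam
  set B : ℝ := n * Real.log 2 + |β| / 2 * (K * n)
  set m : ℝ := ∫ V, fU β lam V ∂ν with hm
  have hvar := variance_fU ν β hK hlam
  rw [← hm] at hvar
  have hmeas : Measurable fun U : OG n => (fU β lam U - m) ^ 2 := (hB.meas.sub_const m).pow_const 2
  have hBM : BM ((B + |m|) ^ 2) fun U : OG n => (fU β lam U - m) ^ 2 := by
    refine ⟨hmeas, fun U => ?_⟩
    rw [abs_pow]
    refine pow_le_pow_left₀ (abs_nonneg _) ((abs_sub _ _).trans ?_) 2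
    linarith only [hB.bd U]
  have hi : Integrable (fun U : OG n => (fU β lam U - m) ^ 2) ν := intg' _ hmeas _ hBM.bd
  have hi2 : Integrable (fun U : OG n => ((fU β lam U - m) ^ 2) ^ 2) ν :=
    intg' _ (hmeas.pow_const 2) _ hBM.sq.bd
  have hES := efron_stein ν hBM
  rw [integral_sq_sub ν hi hi2] at hES
  set V : ℝ := ∫ U, (fU β lam U - m) ^ 2 ∂ν with hV
  have hV0 : 0 ≤ V := integral_nonneg fun U => sq_nonneg _
  obtain ⟨CG, hCG⟩ := c12_G_bd (n := n) β hK hlam m
  have hGm := c12_meas_G (n := n) β lam m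
  have hDk : ∀ k : Fin n, D ν k (fun U : OG n => (fU β lam U - m) ^ 2) ≤
      2 * ∫ U, ∫ x, c12G β lam m (U, Wx k x) ∂(gam n) ∂ν := by
    intro k
    refine c12_D_le ν hBM hGm hCG k ?_ ?_
    · intro U v
      show (fU β lam (U * hk k v) - m) ^ 2 = (fU β lam (U * rflG (Wv k v)) - m) ^ 2
      rw [fU_Hx]
    · intro U w
      exact c12_diff β lam m U w
  have hiG : ∀ k : Fin n, Integrable (fun U : OG n => ∫ x, c12G β lam m (U, Wx k x) ∂(gam n)) ν := by
    intro k
    have hmQ : Measurable fun p : OG n × (Fin n → ℝ) => c12G β lam m (p.1, Wx k p.2) :=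
      hGm.comp (measurable_fst.prodMk
        ((measurable_Wx k).comp (measurable_snd (α := OG n) (β := Fin n → ℝ))))
    have hiQ : Integrable (fun p : OG n × (Fin n → ℝ) => c12G β lam m (p.1, Wx k p.2))
      (ν.prod (gam n)) := intg' _ hmQ _ fun p => hCG _
    exact hiQ.integral_prod_left
  have hsum : ∑ k : Fin n, D ν k (fun U : OG n => (fU β lam U - m) ^ 2) ≤
      2 * (8 * V * (792 * β ^ 2 * K ^ 2 * (n * √n)) +
        2 * (128 * 40620 * β ^ 4 * K ^ 4 * ((n : ℝ) ^ 2 * √n))) := by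
    calc ∑ k : Fin n, D ν k (fun U : OG n => (fU β lam U - m) ^ 2) ≤
        ∑ k : Fin n, 2 * ∫ U, ∫ x, c12G β lam m (U, Wx k x) ∂(gam n) ∂ν :=
          Finset.sum_le_sum fun k _ => hDk k
      _ = 2 * ∫ U, ∑ k : Fin n, ∫ x, c12G β lam m (U, Wx k x) ∂(gam n) ∂ν := by
          rw [← Finset.mul_sum, integral_finsetSum _ fun k _ => hiG k]
      _ ≤ 2 * ∫ U, (8 * (fU β lam U - m) ^ 2 * (792 * β ^ 2 * K ^ 2 * (n * √n)) +
        2 * (128 * 40620 * β ^ 4 * K ^ 4 * ((n : ℝ) ^ 2 * √n))) ∂ν := by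
          apply mul_le_mul_of_nonneg_left _ (by norm_num)
          apply integral_mono (integrable_finsetSum _ fun k _ => hiG k)
          · exact ((hi.const_mul 8).mul_const _).add (integrable_const _)
          · intro U
            exact c12_sum_G β hK hlam m U
      _ = _ := by
          rw [integral_add ((hi.const_mul 8).mul_const _) (integrable_const _),
            integral_mul_const, integral_const_mul, ← hV]
          simp only [integral_const, probReal_univ, smul_eq_mul, one_mul]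
  have e4 : ∫ U, (fU β lam U - m) ^ 4 ∂ν = ∫ U, ((fU β lam U - m) ^ 2) ^ 2 ∂ν := by
    refine integral_congr_ae (Filter.Eventually.of_forall fun U => ?_)
    show (fU β lam U - m) ^ 4 = ((fU β lam U - m) ^ 2) ^ 2
    ring
  rw [e4]
  have hn0 : (0 : ℝ) ≤ n := Nat.cast_nonneg n
  have hs0 : 0 ≤ √(n : ℝ) := Real.sqrt_nonneg _
  have hn3 : (n : ℝ) ^ 2 ≤ (n : ℝ) ^ 2 * √n := by
    rcases Nat.eq_zero_or_pos n with h0 | h0
    · subst h0; simp
    · have := c12_one_le_sqrt (n := n) ⟨0, h0⟩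
      exact le_mul_of_one_le_right (sq_nonneg _) this
  have hV2 : V ^ 2 ≤ 1254400 * β ^ 4 * K ^ 4 * ((n : ℝ) ^ 2 * √n) := by
    calc V ^ 2 ≤ (1120 * β ^ 2 * K ^ 2 * n) ^ 2 := pow_le_pow_left₀ hV0 hvar 2
      _ = 1254400 * β ^ 4 * K ^ 4 * (n : ℝ) ^ 2 := by ring
      _ ≤ _ := mul_le_mul_of_nonneg_left hn3 (by (clear * -; positivity))
  have hV1 : 8 * V * (792 * β ^ 2 * K ^ 2 * (n * √n)) ≤
      7096320 * β ^ 4 * K ^ 4 * ((n : ℝ) ^ 2 * √n) := by
    calc 8 * V * (792 * β ^ 2 * K ^ 2 * (n * √n)) ≤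
        8 * (1120 * β ^ 2 * K ^ 2 * n) * (792 * β ^ 2 * K ^ 2 * (n * √n)) := by
          apply mul_le_mul_of_nonneg_right _ (by (clear * -; positivity))
          linarith only [hvar]
      _ = _ := by ring
  linarith

end Vale.Agent.P166.Conc
end
end

section

section

/-! The derivative of the spin part along a segment of paths. -/

open MeasureTheory ProbabilityTheory Filter Topology Set

namespace Vale.Agent.P157.Par

section chn

end chn

section fam

variable {a b : ℝ} {u u1 u2 us : ℝ → ℝ → ℝ}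

end fam

section path

variable {m r η : ℕ → ℝ} {a : ℝ}

end path

end Vale.Agent.P157.Par
end
end

section

section

/-!
The deviations at the optimal parameters.
-/

open MeasureTheory ProbabilityTheory Matrix Filter Topology

namespace Vale.Agent.P166.U

open Vale.Agent.P157.Lv Vale.Agent.P157.Par Md

/-- **The deviations at the optimum.** -/
theorem dev_opt {K κ : ℕ} {m q : ℕ → ℝ} {b0 : Fin κ → ℝ} {kap η ε u0 C δ : ℝ}
    (hm : Exponents K m) (hq : P157.Par.Path K q) (hq1 : q K ≤ 1) (hC : SpinLe K m q C)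
    (hkap : 0 < kap) (hkap1 : kap ≤ 1) (hη : 0 < η) (hη1 : η ≤ 1) (hε : 0 < ε)
    (hε1 : ε ≤ 1 / 4) (hu0 : 0 < u0) (hu1 : u0 ≤ 1) (hδ : ∀ l ≤ K, m (l + 1) - m l ≤ δ)
    (hsm : 2 * ε * (C + ∑ k, |b0 k| + (2 * κ + 2) * (K + 1)) ≤ (u0 / 2) ^ 2)
    (hvar : ∀ B, 0 ≤ B → ∃ C, 0 ≤ C ∧ VarBound κ B C) {e : ℝ} (he : 0 < e) :
    ∃ N₀ : ℕ, ∀ N : ℕ, N₀ ≤ N →
      ∀ [MeasurableSpace (orthogonalGroup (Fin N) ℝ)] [BorelSpace (orthogonalGroup (Fin N) ℝ)]
        (ν : Measure (orthogonalGroup (Fin N) ℝ)) [IsProbabilityMeasure ν] [ν.IsMulLeftInvariant]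
        (c : Fin N → Fin κ) (P : Pm κ), IsOpt ν K m q c kap η ε u0 b0 P → ∀ k,
        Dv ν K m c P k ≤ √(2 * δ) + 4 * δ + e := by
  have hσ : 0 < u0 / 2 := by linarith only [hu0]
  have hσ1 : u0 / 2 ≤ 1 := by linarith only [hu1]
  obtain ⟨π, hπ, hp⟩ : ∃ π > 0, ∀ l ≤ K, π ≤ m (l + 1) - m l := by
    obtain ⟨l0, hl0, hmin⟩ := Finset.exists_min_image (Finset.range (K + 1))
      (fun l => m (l + 1) - m l) ⟨0, Finset.mem_range.2 (Nat.succ_pos K)⟩
    have h1 := hm.2.2 l0 (Nat.lt_succ_iff.1 (Finset.mem_range.1 hl0))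
    exact ⟨m (l0 + 1) - m l0, sub_pos.2 h1,
      fun l hl => hmin l (Finset.mem_range.2 (Nat.lt_succ_of_le hl))⟩
  set X : ℝ := min 1 ((e / 16) ^ 2) with hX
  have hX0 : 0 < X := lt_min one_pos (by positivity)
  have hX1 : X ≤ 1 := min_le_left _ _
  have hXe : √X ≤ e / 16 := by
    rw [Real.sqrt_le_left (by positivity)]
    exact min_le_right _ _
  have hXX : X ≤ √X := by
    have h1 : √X ≤ 1 := Real.sqrt_le_one.2 hX1
    have h2 := Real.sq_sqrt hX0.le
    have h3 := Real.sqrt_nonneg X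
    nlinarith only [h2, h1, h3]
  have hK : (0 : ℝ) < K + 1 := by (clear * -; positivity)
  have he' : 0 < X * (u0 / 2 * π) / (K + 1) := by (clear * - he hu0 hπ; positivity)
  obtain ⟨N₀, hN₀⟩ := conc_opt (b0 := b0) hm hq hq1 hC hkap hkap1 hη hη1 hε hε1 hu0.le hu1 hvar he'
  refine ⟨max N₀ 1, fun N hN => ?_⟩
  intro _ _ ν _ _ c P hP k
  have hNpos : 0 < N := (le_max_right N₀ 1).trans hN
  obtain ⟨h1, h2⟩ := hN₀ N ((le_max_left N₀ 1).trans hN) ν c P hP k
  have hb := IsOpt.bounds hm hq hq1 hNpos hC hP hkap hkap1 hη hη1 hε hε1 hu0.le hu1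
  have hu : ∀ l, 1 ≤ l → l ≤ K → u0 / 2 ≤ P.u k l := by
    intro l hl hlK
    have h3 : (P.u k l - u0) ^ 2 ≤ ∑ k, ∑ j ∈ Finset.Ico 1 (K + 1), (P.u k j - u0) ^ 2 := by
      refine le_trans ?_ (Finset.single_le_sum
        (f := fun k => ∑ j ∈ Finset.Ico 1 (K + 1), (P.u k j - u0) ^ 2)
        (fun _ _ => Finset.sum_nonneg fun _ _ => sq_nonneg _) (Finset.mem_univ k))
      exact Finset.single_le_sum (f := fun j => (P.u k j - u0) ^ 2) (fun _ _ => sq_nonneg _)
        (Finset.mem_Ico.2 ⟨hl, Nat.lt_succ_of_le hlK⟩)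
    have h4 : 0 ≤ ∑ j ∈ Finset.Ico 1 (K + 1), kap / 2 * P.s j ^ 2 :=
      Finset.sum_nonneg fun _ _ => by (clear * - hkap; positivity)
    have h5 : 0 ≤ ∑ k, (P.b k - b0 k) ^ 2 := Finset.sum_nonneg fun _ _ => sq_nonneg _
    have h6 : 1 / (2 * ε) * (P.u k l - u0) ^ 2 ≤
        C + ∑ k, |b0 k| + (2 * κ + 2) * (K + 1) := by
      have h7 : 1 / (2 * ε) * (P.u k l - u0) ^ 2 ≤ 1 / (2 * ε) * (∑ k, (P.b k - b0 k) ^ 2 +
          ∑ k, ∑ j ∈ Finset.Ico 1 (K + 1), (P.u k j - u0) ^ 2) :=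
        mul_le_mul_of_nonneg_left (by linarith only [h3, h5]) (by positivity)
      linarith only [hb, h4, h7]
    have h8 : (P.u k l - u0) ^ 2 ≤ (u0 / 2) ^ 2 := by
      refine le_trans ?_ hsm
      have h9 : (P.u k l - u0) ^ 2 = 2 * ε * (1 / (2 * ε) * (P.u k l - u0) ^ 2) := by
        (clear * - hε; field_simp)
      rw [h9]
      exact mul_le_mul_of_nonneg_left h6 (by positivity)
    have h10 := abs_le_of_sq_le_sq h8 hσ.le
    have h11 := (abs_le.1 (abs_le_of_sq_le_sq h8 hσ.le)).1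
    linarith only [h11]
  have hfin := dev_of_conc hNpos hm hσ hσ1 hπ hp hδ he'.le k hu h1 h2
  have hx : (K + 1) * (X * (u0 / 2 * π) / (K + 1)) / (u0 / 2 * π) = X := by
    have h3 := hK.ne'
    have h4 : u0 / 2 * π ≠ 0 := (mul_pos hσ hπ).ne'
    (clear * - h3 hu0 hπ hX0; field_simp)
  rw [hx] at hfin
  linarith only [hXe, hXX, hfin]

end Vale.Agent.P166.U
end
end

section

section

/-! Task F-VC: the energy. -/

open MeasureTheory Finset Filter Topology

namespace Vale.Agent.P166.F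

variable {B : Type} [Fintype B] [Nonempty B] {a α : B → ℝ}

/-- The derivative of `y R(y)`. -/
noncomputable def vcPhi (a α : B → ℝ) (y : ℝ) : ℝ := Rt (atoms a α) y + y * Rt' a α y

theorem vc_phi_bound (hα : ∀ b, 0 < α b) (hα1 : ∑ b, α b = 1) :
    ∃ M : ℝ, 0 ≤ M ∧ ∀ y, 0 < y → |vcPhi a α y| ≤ M := by
  obtain ⟨-, -, C, hC⟩ := energy_deriv (a := a) hα hα1 one_pos
  refine ⟨C, (abs_nonneg _).trans (hC 1 one_pos), fun y hy => ?_⟩
  have := hC y hy
  simp only [one_mul] at this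
  exact this

theorem vc_phi_mono (hα : ∀ b, 0 < α b) (hα1 : ∑ b, α b = 1) :
    MonotoneOn (vcPhi a α) (Set.Ioi 0) := by
  obtain ⟨-, hmono, -⟩ := energy_deriv (a := a) hα hα1 one_pos
  intro x hx y hy hxy
  have := hmono hx hy hxy
  simp only [one_mul] at this
  exact this

theorem vc_cont (hα : ∀ b, 0 < α b) (hα1 : ∑ b, α b = 1) {t : ℝ} (ht : 0 < t) :
    ContinuousOn (fun x => x * Rt (atoms a α) (t * x)) (Set.Icc 0 1) := by
  obtain ⟨M, hM, hbd⟩ := Rt_abs_le (a := a) hα hα1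
  obtain ⟨hder, -, -⟩ := energy_deriv (a := a) hα hα1 ht
  intro x hx
  rcases hx.1.eq_or_lt with h0 | h0
  · subst h0
    rw [ContinuousWithinAt, zero_mul]
    have h1 : Tendsto (fun x : ℝ => M * |x|) (𝓝[Set.Icc 0 1] 0) (𝓝 0) := by
      have : Tendsto (fun x : ℝ => M * |x|) (𝓝 0) (𝓝 (M * |0|)) :=
        (continuous_const.mul continuous_abs).tendsto 0
      rw [abs_zero, mul_zero] at this
      exact this.mono_left nhdsWithin_le_nhds
    refine squeeze_zero_norm' ?_ h1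
    filter_upwards [self_mem_nhdsWithin] with u hu
    rw [Real.norm_eq_abs, abs_mul, mul_comm]
    rcases hu.1.eq_or_lt with h2 | h2
    · rw [← h2, abs_zero, mul_zero, mul_zero]
    · exact mul_le_mul_of_nonneg_right (hbd _ (mul_pos ht h2)) (abs_nonneg _)
  · exact (hder x h0).continuousAt.continuousWithinAt

theorem vc_int (hα : ∀ b, 0 < α b) (hα1 : ∑ b, α b = 1) {t : ℝ} (ht : 0 < t) :
    IntegrableOn (fun x => vcPhi a α (t * x)) (Set.Ioo 0 1) := by
  obtain ⟨M, hM, hbd⟩ := vc_phi_bound (a := a) hα hα1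
  have hmono : MonotoneOn (fun x => vcPhi a α (t * x)) (Set.Ioo 0 1) := by
    intro x hx y hy hxy
    exact vc_phi_mono hα hα1 (mul_pos ht hx.1) (mul_pos ht hy.1)
      (mul_le_mul_of_nonneg_left hxy ht.le)
  have hmeas : AEMeasurable (fun x => vcPhi a α (t * x)) (volume.restrict (Set.Ioo (0 : ℝ) 1)) :=
    aemeasurable_restrict_of_monotoneOn measurableSet_Ioo hmono
  have hfin : IsFiniteMeasure (volume.restrict (Set.Ioo (0 : ℝ) 1)) :=
    ⟨by rw [Measure.restrict_apply_univ]; simp⟩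
  refine Integrable.of_bound hmeas.aestronglyMeasurable M ?_
  filter_upwards [ae_restrict_mem measurableSet_Ioo] with x hx
  rw [Real.norm_eq_abs]
  exact hbd _ (mul_pos ht hx.1)

theorem vc_trf (hα : ∀ b, 0 < α b) (hα1 : ∑ b, α b = 1) {t : ℝ} (ht : 0 < t) {K : ℕ}
    {m q : ℕ → ℝ} (hm : Expo K m) (hq : OPath K q) (hq0 : q 0 = 0) :
    IntervalIntegrable (fun s => vcPhi a α (t * Lam K m q s)) volume 0 1 ∧
    trf K m (fun x => x * Rt (atoms a α) (t * x)) (eq' K m q) =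
      ∫ s in (0 : ℝ)..1, vcPhi a α (t * Lam K m q s) := by
  obtain ⟨hder, -, -⟩ := energy_deriv (a := a) hα hα1 ht
  exact trf_eq_integral hm hq hq0 (f' := fun x => vcPhi a α (t * x)) (vc_cont hα hα1 ht)
    (by simp) (fun x hx => hder x hx.1) (vc_int hα hα1 ht)

/-- The primitive of `t ↦ φ(t L)`. -/
theorem vc_psi (hα : ∀ b, 0 < α b) (hα1 : ∑ b, α b = 1) {L : ℝ} (hL : 0 < L) {u v : ℝ}
    (hu : 0 < u) (huv : u < v) :
    (v - u) * vcPhi a α (u * L) ≤ v * Rt (atoms a α) (v * L) - u * Rt (atoms a α) (u * L) := by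
  have hder : ∀ t, 0 < t → HasDerivAt (fun t => t * Rt (atoms a α) (t * L))
      (vcPhi a α (t * L)) t := by
    intro t ht
    have h1 := hasDerivAt_Rt (a := a) hα hα1 (mul_pos ht hL)
    have h2 : HasDerivAt (fun t => t * L) L t := by
      simpa using (hasDerivAt_id t).mul_const L
    have h3 : HasDerivAt (Rt (atoms a α) ∘ fun t => t * L) (Rt' a α (t * L) * L) t :=
      HasDerivAt.comp t h1 h2
    have h4 := (hasDerivAt_id t).mul h3
    refine h4.congr_deriv ?_
    simp only [id, vcPhi, Function.comp]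
    ring
  obtain ⟨c, hc, hc'⟩ := exists_hasDerivAt_eq_slope (fun t => t * Rt (atoms a α) (t * L))
    (fun t => vcPhi a α (t * L)) huv
    (fun t ht => (hder t (hu.trans_le ht.1)).continuousAt.continuousWithinAt)
    (fun t ht => hder t (hu.trans ht.1))
  have h5 : vcPhi a α (u * L) ≤ vcPhi a α (c * L) :=
    vc_phi_mono hα hα1 (mul_pos hu hL) (mul_pos (hu.trans hc.1) hL)
      (mul_le_mul_of_nonneg_right hc.1.le hL.le)
  have hpos : 0 < v - u := sub_pos.2 huv
  rw [eq_div_iff hpos.ne'] at hc'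
  calc (v - u) * vcPhi a α (u * L) ≤ (v - u) * vcPhi a α (c * L) :=
        mul_le_mul_of_nonneg_left h5 hpos.le
    _ = _ := by rw [mul_comm]; exact hc'

theorem vc_riemann (hα : ∀ b, 0 < α b) (hα1 : ∑ b, α b = 1) {β : ℝ} (hβ : 0 < β) :
    ∃ C : ℝ, 0 ≤ C ∧ ∀ L, 0 < L → ∀ n : ℕ, 0 < n →
      ∑ i ∈ range n, β / n * (1 / 2 * vcPhi a α (β * ((i : ℝ) + 1) / n * L)) ≤
        β / 2 * Rt (atoms a α) (β * L) + C / n := by
  obtain ⟨M, hM, hbd⟩ := vc_phi_bound (a := a) hα hα1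
  obtain ⟨M', hM', hbd'⟩ := Rt_abs_le (a := a) hα hα1
  refine ⟨β * (M + M') / 2, by positivity, fun L hL n hn => ?_⟩
  obtain ⟨k, rfl⟩ : ∃ k, n = k + 1 := ⟨n - 1, by omega⟩
  obtain ⟨N, hN⟩ : ∃ N : ℝ, N = ((k + 1 : ℕ) : ℝ) := ⟨_, rfl⟩
  have hNpos : 0 < N := by rw [hN]; positivity
  have hNk : N = (k : ℝ) + 1 := by rw [hN]; push_cast; ring
  rw [← hN]
  obtain ⟨T, hT⟩ : ∃ T : ℕ → ℝ, T = fun i : ℕ => β * ((i : ℝ) + 1) / N := ⟨_, rfl⟩
  obtain ⟨ψ, hψ⟩ : ∃ ψ : ℕ → ℝ, ψ = fun i => T i * Rt (atoms a α) (T i * L) := ⟨_, rfl⟩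
  have hTpos : ∀ i, 0 < T i := fun i => by rw [hT]; positivity
  have hTs : ∀ i, T (i + 1) - T i = β / N := fun i => by
    rw [hT]; push_cast; field_simp; ring
  have hstep : ∀ i, β / N * vcPhi a α (T i * L) ≤ ψ (i + 1) - ψ i := by
    intro i
    have h1 : T i < T (i + 1) := by
      have := hTs i
      have h2 : 0 < β / N := by positivity
      linarith
    have := vc_psi hα hα1 (a := a) hL (hTpos i) h1
    rw [hTs] at this
    rw [hψ]
    exact this
  have hsum : ∑ i ∈ range k, β / N * vcPhi a α (T i * L) ≤ ψ k - ψ 0 := by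
    rw [← Finset.sum_range_sub ψ k]
    exact Finset.sum_le_sum fun i _ => hstep i
  have hTk : T k = β := by
    rw [hT]
    dsimp only
    rw [← hNk]
    field_simp
  have hψk : ψ k = β * Rt (atoms a α) (β * L) := by
    rw [hψ]
    dsimp only
    rw [hTk]
  have hT0 : T 0 = β / N := by rw [hT]; simp
  have hψ0 : -(β / N * M') ≤ ψ 0 := by
    have h1 := hbd' _ (mul_pos (hTpos 0) hL)
    have h2 : ψ 0 = β / N * Rt (atoms a α) (T 0 * L) := by
      rw [hψ]
      dsimp only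
      rw [hT0]
    rw [h2, ← mul_neg]
    exact mul_le_mul_of_nonneg_left (abs_le.1 h1).1 (by positivity)
  have hlast : β / N * vcPhi a α (T k * L) ≤ β / N * M :=
    mul_le_mul_of_nonneg_left ((le_abs_self _).trans (hbd _ (mul_pos (hTpos k) hL)))
      (by positivity)
  have htot : ∑ i ∈ range (k + 1), β / N * vcPhi a α (T i * L) ≤
      β * Rt (atoms a α) (β * L) + β / N * M' + β / N * M := by
    rw [Finset.sum_range_succ]
    linarith
  have e1 : ∑ i ∈ range (k + 1), β / N * (1 / 2 * vcPhi a α (β * ((i : ℝ) + 1) / N * L)) =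
      1 / 2 * ∑ i ∈ range (k + 1), β / N * vcPhi a α (T i * L) := by
    rw [Finset.mul_sum]
    refine Finset.sum_congr rfl fun i _ => ?_
    rw [hT]
    ring
  rw [e1]
  calc 1 / 2 * ∑ i ∈ range (k + 1), β / N * vcPhi a α (T i * L)
      ≤ 1 / 2 * (β * Rt (atoms a α) (β * L) + β / N * M' + β / N * M) :=
        mul_le_mul_of_nonneg_left htot (by norm_num)
    _ = β / 2 * Rt (atoms a α) (β * L) + β * (M + M') / 2 / N := by ring

theorem vc_Lam_cont (K : ℕ) (m q : ℕ → ℝ) : Continuous (Lam K m q) := by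
  unfold Lam
  fun_prop

theorem vc_Rt_int (hα : ∀ b, 0 < α b) (hα1 : ∑ b, α b = 1) {β : ℝ} (hβ : 0 < β) {K : ℕ}
    {m q : ℕ → ℝ} (hm : Expo K m) (hq : OPath K q) (hq0 : q 0 = 0) :
    IntervalIntegrable (fun s => Rt (atoms a α) (β * Lam K m q s)) volume 0 1 := by
  obtain ⟨M', hM', hbd'⟩ := Rt_abs_le (a := a) hα hα1
  rw [intervalIntegrable_iff_integrableOn_Ioo_of_le zero_le_one]
  have hpos : ∀ s ∈ Set.Ioo (0 : ℝ) 1, 0 < β * Lam K m q s := fun s hs =>
    mul_pos hβ (Lam_mem hm hq hq0 hs).1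
  have hcont : ContinuousOn (fun s => Rt (atoms a α) (β * Lam K m q s)) (Set.Ioo 0 1) := by
    intro s hs
    have h1 : ContinuousAt (Rt (atoms a α)) (β * Lam K m q s) :=
      (hasDerivAt_Rt hα hα1 (hpos s hs)).continuousAt
    have h2 : ContinuousAt (fun s => β * Lam K m q s) s :=
      (continuous_const.mul (vc_Lam_cont K m q)).continuousAt
    exact (ContinuousAt.comp (f := fun s => β * Lam K m q s) h1 h2).continuousWithinAt
  have hfin : IsFiniteMeasure (volume.restrict (Set.Ioo (0 : ℝ) 1)) :=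
    ⟨by rw [Measure.restrict_apply_univ]; simp⟩
  refine Integrable.of_bound (hcont.aestronglyMeasurable measurableSet_Ioo) M' ?_
  filter_upwards [ae_restrict_mem measurableSet_Ioo] with s hs
  rw [Real.norm_eq_abs]
  exact hbd' _ (hpos s hs)

/-- **The energy** (upper bound), with `f_t(x) = x R(t x)`: Riemann sums of the traces. -/
theorem energy_sum (hα : ∀ b, 0 < α b) (hα1 : ∑ b, α b = 1) {β : ℝ} (hβ : 0 < β) :
    ∃ C : ℝ, 0 ≤ C ∧ ∀ (K : ℕ) (m q : ℕ → ℝ), Expo K m → OPath K q → q 0 = 0 → q K < 1 →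
      ∀ n : ℕ, 0 < n →
        ∑ i ∈ range n, β / n * (1 / 2 * trf K m
          (fun x => x * Rt (atoms a α) (β * ((i : ℝ) + 1) / n * x)) (eq' K m q)) ≤
        specPart β (atoms a α) K m q + C / n := by
  obtain ⟨C, hC, hR⟩ := vc_riemann (a := a) hα hα1 hβ
  refine ⟨C, hC, fun K m q hm hq hq0 _ n hn => ?_⟩
  have hn' : (0 : ℝ) < n := Nat.cast_pos.2 hn
  have ht : ∀ i : ℕ, 0 < β * ((i : ℝ) + 1) / n := fun i => by positivity
  have hi : ∀ i : ℕ, IntervalIntegrable
      (fun s => β / n * (1 / 2 * vcPhi a α (β * ((i : ℝ) + 1) / n * Lam K m q s))) volume 0 1 :=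
    fun i => ((vc_trf hα hα1 (ht i) hm hq hq0).1.const_mul _).const_mul _
  have e1 : ∑ i ∈ range n, β / n * (1 / 2 * trf K m
      (fun x => x * Rt (atoms a α) (β * ((i : ℝ) + 1) / n * x)) (eq' K m q)) =
      ∫ s in (0 : ℝ)..1, ∑ i ∈ range n,
        β / n * (1 / 2 * vcPhi a α (β * ((i : ℝ) + 1) / n * Lam K m q s)) := by
    rw [intervalIntegral.integral_finsetSum fun i _ => hi i]
    refine Finset.sum_congr rfl fun i _ => ?_
    rw [(vc_trf hα hα1 (ht i) hm hq hq0).2, intervalIntegral.integral_const_mul,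
      intervalIntegral.integral_const_mul]
  have hRi := vc_Rt_int (a := a) hα hα1 hβ hm hq hq0
  have e2 : specPart β (atoms a α) K m q + C / n =
      ∫ s in (0 : ℝ)..1, (β / 2 * Rt (atoms a α) (β * Lam K m q s) + C / n) := by
    rw [intervalIntegral.integral_add (hRi.const_mul _) intervalIntegrable_const,
      intervalIntegral.integral_const_mul, intervalIntegral.integral_const]
    simp only [sub_zero, one_smul]
    rfl
  rw [e1, e2]
  refine intervalIntegral.integral_mono_on_of_le_Ioo zero_le_one ?_ ?_ ?_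
  · have h1 := IntervalIntegrable.sum (range n) fun i _ => hi i
    have h2 : (∑ i ∈ range n, fun s =>
        β / n * (1 / 2 * vcPhi a α (β * ((i : ℝ) + 1) / n * Lam K m q s))) = fun s =>
        ∑ i ∈ range n, β / n * (1 / 2 * vcPhi a α (β * ((i : ℝ) + 1) / n * Lam K m q s)) := by
      funext s
      rw [Finset.sum_apply]
    rw [h2] at h1
    exact h1
  · exact (hRi.const_mul _).add intervalIntegrable_const
  · intro s hs
    exact hR _ (Lam_mem hm hq hq0 hs).1 n hn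

/-- The Schur inequality for the energy. -/
theorem energy_schur (hα : ∀ b, 0 < α b) (hα1 : ∑ b, α b = 1) {t : ℝ} (ht : 0 < t) {K : ℕ}
    {m q r : ℕ → ℝ} (hm : Expo K m) (hq : OPath K q) (hr : OPath K r) (hq0 : q 0 = 0)
    (hr0 : r 0 = 0)
    (h : ∀ j ≤ K, 0 ≤ ∑ l ∈ Ico j (K + 1), (m (l + 1) - m l) * (r l - q l)) :
    trf K m (fun x => x * Rt (atoms a α) (t * x)) (eq' K m r) ≤
      trf K m (fun x => x * Rt (atoms a α) (t * x)) (eq' K m q) := by
  obtain ⟨hder, -, -⟩ := energy_deriv (a := a) hα hα1 ht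
  obtain ⟨M, hM, hbd⟩ := vc_phi_bound (a := a) hα hα1
  refine schur hm hq hr hq0 hr0 h (f' := fun x => vcPhi a α (t * x)) (vc_cont hα hα1 ht)
    (by simp) (fun x hx => hder x hx.1) ?_ ⟨M, fun x hx => hbd _ (mul_pos ht hx.1)⟩
  intro x hx y hy hxy
  exact vc_phi_mono hα hα1 (mul_pos ht hx.1) (mul_pos ht hy.1)
    (mul_le_mul_of_nonneg_left hxy ht.le)

theorem vc_Lam_sub {K : ℕ} {m q q' : ℕ → ℝ} (hm : Expo K m) (s : ℝ) :
    |Lam K m q s - Lam K m q' s| ≤ ∑ l ∈ range (K + 1), (m (l + 1) - m l) * |q l - q' l| := by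
  have e : Lam K m q s - Lam K m q' s =
      ∑ l ∈ range (K + 1), (m (l + 1) - m l) * (max (q' l - s) 0 - max (q l - s) 0) := by
    unfold Lam
    simp only [mul_sub, Finset.sum_sub_distrib]
    ring
  rw [e]
  refine (Finset.abs_sum_le_sum_abs _ _).trans (Finset.sum_le_sum fun l hl => ?_)
  rw [Finset.mem_range] at hl
  have hp : 0 ≤ m (l + 1) - m l := sub_nonneg.2 (hm.mono l (by omega))
  rw [abs_mul, abs_of_nonneg hp]
  refine mul_le_mul_of_nonneg_left ?_ hp
  have := abs_max_sub_max_le_abs (q' l - s) (q l - s) 0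
  rw [sub_sub_sub_cancel_right, abs_sub_comm (q' l) (q l)] at this
  exact this

/-- The energy is Lipschitz in the path and bounded (used with small errors). -/
theorem energy_lip (hα : ∀ b, 0 < α b) (hα1 : ∑ b, α b = 1) {T : ℝ} (hT : 0 < T) :
    ∃ C : ℝ, 0 ≤ C ∧ ∀ t, 0 < t → t ≤ T → ∀ (K : ℕ) (m q q' : ℕ → ℝ), Expo K m → OPath K q →
      OPath K q' → q 0 = 0 → q' 0 = 0 →
      |trf K m (fun x => x * Rt (atoms a α) (t * x)) (eq' K m q)| ≤ C ∧
      |trf K m (fun x => x * Rt (atoms a α) (t * x)) (eq' K m q) -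
        trf K m (fun x => x * Rt (atoms a α) (t * x)) (eq' K m q')| ≤
        C * ∑ l ∈ range (K + 1), (m (l + 1) - m l) * |q l - q' l| := by
  obtain ⟨M, hM, hbd⟩ := vc_phi_bound (a := a) hα hα1
  obtain ⟨C, hC, hlip⟩ := phi_lip (a := a) hα hα1
  refine ⟨M + C * T, by positivity, ?_⟩
  intro t ht htT K m q q' hm hq hq' hq0 hq0'
  obtain ⟨i1, e1⟩ := vc_trf (a := a) hα hα1 ht hm hq hq0
  obtain ⟨i2, e2⟩ := vc_trf (a := a) hα hα1 ht hm hq' hq0'
  obtain ⟨D, hD⟩ : ∃ D, D = ∑ l ∈ range (K + 1), (m (l + 1) - m l) * |q l - q' l| := ⟨_, rfl⟩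
  have hD0 : 0 ≤ D := by
    have := (abs_nonneg _).trans (vc_Lam_sub (q := q) (q' := q') hm 0)
    rwa [← hD] at this
  have key : ∀ (f : ℝ → ℝ) (c : ℝ), (∀ s ∈ Set.Ioo (0 : ℝ) 1, |f s| ≤ c) →
      |∫ s in (0 : ℝ)..1, f s| ≤ c := by
    intro f c hf
    have h1 : ‖∫ s in (0 : ℝ)..1, f s‖ ≤ c * |1 - 0| := by
      refine intervalIntegral.norm_integral_le_of_norm_le_const_ae ?_
      have h2 : ∀ᵐ s : ℝ, s ≠ 1 := by
        rw [ae_iff]
        simp
      filter_upwards [h2] with s hs1 hs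
      rw [Set.uIoc_of_le zero_le_one] at hs
      rw [Real.norm_eq_abs]
      exact hf s ⟨hs.1, lt_of_le_of_ne hs.2 hs1⟩
    simpa using h1
  constructor
  · rw [e1]
    have h1 := key (fun s => vcPhi a α (t * Lam K m q s)) M fun s hs =>
      hbd _ (mul_pos ht (Lam_mem hm hq hq0 hs).1)
    have : 0 ≤ C * T := by positivity
    linarith
  · rw [e1, e2, ← intervalIntegral.integral_sub i1 i2, ← hD]
    have h1 := key (fun s => vcPhi a α (t * Lam K m q s) - vcPhi a α (t * Lam K m q' s))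
      (C * T * D) fun s hs => by
        have h2 := hlip _ _ (mul_pos ht (Lam_mem hm hq hq0 hs).1)
          (mul_pos ht (Lam_mem hm hq' hq0' hs).1)
        refine (show _ ≤ _ from h2).trans ?_
        rw [← mul_sub, abs_mul, abs_of_pos ht, mul_assoc]
        refine mul_le_mul_of_nonneg_left ?_ hC
        have h3 := vc_Lam_sub (q := q) (q' := q') hm s
        rw [← hD] at h3
        exact mul_le_mul htT h3 (abs_nonneg _) hT.le
    refine h1.trans ?_
    have : 0 ≤ M * D := mul_nonneg hM hD0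
    linarith

end Vale.Agent.P166.F
end
end

section

section

/-!
The energy at the optimal parameters.
-/

open MeasureTheory ProbabilityTheory Matrix Filter Topology

namespace Vale.Agent.P166.U

open Vale.Agent.P157.Lv Vale.Agent.P157.Par Md
open Vale.Agent.P166.F (frac trf eq' Expo OPath)

theorem expo_of {K : ℕ} {m : ℕ → ℝ} (hm : Exponents K m) : Expo K m where
  m0 := hm.1
  mK := hm.2.1
  mono := fun l hl => (hm.2.2 l hl).le
  pos := by have := hm.2.2 0 (Nat.zero_le _); rwa [hm.1] at this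

/-- The trace of the energy function only depends on its values at the positive reals. -/
theorem trf_congr {K : ℕ} {m : ℕ → ℝ} {f g : ℝ → ℝ} {x : ℕ → ℝ} (h : ∀ l ≤ K, f (x l) = g (x l)) :
    trf K m f x = trf K m g x := by
  unfold trf
  rw [h K le_rfl]
  congr 1
  refine Finset.sum_congr rfl fun i hi => ?_
  have := Finset.mem_range.1 hi
  rw [h i this.le, h (i + 1) this]

/-- **Approximate Schur inequality**: lower the last overlaps of `q` by `kap / p_K`. -/
theorem schur_kap {n : ℕ} {a α : Fin (n + 1) → ℝ} (hα : ∀ b, 0 < α b) (hα1 : ∑ b, α b = 1)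
    {θ : ℝ} (hθ : 0 < θ) : ∃ C : ℝ, 0 ≤ C ∧ ∀ (K : ℕ) (m q r : ℕ → ℝ), Exponents K m →
      P157.Par.Path K q → q 0 = 0 → q K ≤ 1 → P157.Par.Path K r → r 0 = 0 → r K ≤ 1 →
      ∀ kap, 0 ≤ kap →
      (∀ j, 1 ≤ j → j ≤ K → -kap ≤ ∑ l ∈ Finset.Ico j (K + 1), (m (l + 1) - m l) * (r l - q l)) →
      trf K m (fun x => x * Rt (atoms a α) (θ * x)) (eq' K m r) ≤
        trf K m (fun x => x * Rt (atoms a α) (θ * x)) (eq' K m q) +
          C * (kap / (m (K + 1) - m K)) := by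
  obtain ⟨C, hC, hlip⟩ := F.energy_lip (a := a) hα hα1 hθ
  refine ⟨C, hC, fun K m q r hm hq hq0 hq1 hr hr0 hr1 kap hkap h => ?_⟩
  have hp : ∀ l ≤ K, 0 < m (l + 1) - m l := fun l hl => sub_pos.2 (hm.2.2 l hl)
  have hpK := hp K le_rfl
  set a0 : ℝ := max (q K - kap / (m (K + 1) - m K)) 0 with ha0
  set q' : ℕ → ℝ := fun l => min (q l) a0 with hq'
  have ha00 : 0 ≤ a0 := le_max_right _ _
  have hqmono : ∀ i j, i ≤ j → j ≤ K → q i ≤ q j := by
    intro i j hij
    induction j, hij using Nat.le_induction with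
    | base => intro _; exact le_rfl
    | succ j hij ih => intro hj; exact (ih (by omega)).trans (hq.2 j (by omega))
  have hqnn : ∀ l ≤ K, 0 ≤ q l := fun l hl => by
    have := hqmono 0 l (Nat.zero_le _) hl
    linarith only [hq0, this]
  have hrmono : ∀ i j, i ≤ j → j ≤ K → r i ≤ r j := by
    intro i j hij
    induction j, hij using Nat.le_induction with
    | base => intro _; exact le_rfl
    | succ j hij ih => intro hj; exact (ih (by omega)).trans (hr.2 j (by omega))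
  have hrnn : ∀ l ≤ K, 0 ≤ r l := fun l hl => by
    have := hrmono 0 l (Nat.zero_le _) hl
    linarith only [hr0, this]
  have hqO : OPath K q := ⟨hq0 ▸ le_rfl, hq.2, hq1⟩
  have hrO : OPath K r := ⟨hr0 ▸ le_rfl, hr.2, hr1⟩
  have hq'O : OPath K q' := by
    refine ⟨?_, fun l hl => ?_, ?_⟩
    · simp only [hq', hq0]; exact le_min le_rfl ha00
    · exact min_le_min (hq.2 l hl) le_rfl
    · exact (min_le_left _ _).trans hq1
  have hq'0 : q' 0 = 0 := by simp only [hq', hq0]; exact min_eq_left ha00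
  have hEx := expo_of hm
  -- the deficit of `q'`
  have hdef : ∀ l ≤ K, 0 ≤ q l - q' l ∧ q l - q' l ≤ kap / (m (K + 1) - m K) := by
    intro l hl
    have h1 : q' l ≤ q l := min_le_left _ _
    refine ⟨by linarith only [h1], ?_⟩
    have hk0 : 0 ≤ kap / (m (K + 1) - m K) := div_nonneg hkap hpK.le
    rcases le_total (q l) a0 with h2 | h2
    · have : q' l = q l := min_eq_left h2
      rw [this]; linarith only [hk0]
    · have h3 : q' l = a0 := min_eq_right h2
      have h4 : q K - kap / (m (K + 1) - m K) ≤ a0 := le_max_left _ _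
      have h5 := hqmono l K hl le_rfl
      rw [h3]; linarith only [h4, h5]
  have htail : ∀ j ≤ K, 0 ≤ ∑ l ∈ Finset.Ico j (K + 1), (m (l + 1) - m l) * (r l - q' l) := by
    intro j hj
    rcases le_or_gt (q K - kap / (m (K + 1) - m K)) 0 with hc | hc
    · have ha : a0 = 0 := max_eq_right hc
      refine Finset.sum_nonneg fun l hl => ?_
      have hl' := (Finset.mem_Ico.1 hl).2
      have h1 : q' l = 0 := by
        simp only [hq', ha]; exact min_eq_right (hqnn l (by omega))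
      rw [h1, sub_zero]
      exact mul_nonneg (hp l (by omega)).le (hrnn l (by omega))
    · -- the last term gives `kap`
      have key : ∀ j, 1 ≤ j → j ≤ K →
          0 ≤ ∑ l ∈ Finset.Ico j (K + 1), (m (l + 1) - m l) * (r l - q' l) := by
        intro j hj1 hj
        have h1 := h j hj1 hj
        have h2 : ∑ l ∈ Finset.Ico j (K + 1), (m (l + 1) - m l) * (r l - q' l) =
            ∑ l ∈ Finset.Ico j (K + 1), (m (l + 1) - m l) * (r l - q l) +
            ∑ l ∈ Finset.Ico j (K + 1), (m (l + 1) - m l) * (q l - q' l) := by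
          rw [← Finset.sum_add_distrib]
          refine Finset.sum_congr rfl fun l _ => by ring
        have h3 : kap ≤ ∑ l ∈ Finset.Ico j (K + 1), (m (l + 1) - m l) * (q l - q' l) := by
          have h4 : (m (K + 1) - m K) * (q K - q' K) ≤
              ∑ l ∈ Finset.Ico j (K + 1), (m (l + 1) - m l) * (q l - q' l) := by
            refine Finset.single_le_sum (f := fun l => (m (l + 1) - m l) * (q l - q' l))
              (fun l hl => ?_) (Finset.mem_Ico.2 ⟨hj, Nat.lt_succ_self K⟩)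
            have hl' := (Finset.mem_Ico.1 hl).2
            exact mul_nonneg (hp l (by omega)).le (hdef l (by omega)).1
          have h5 : q' K = q K - kap / (m (K + 1) - m K) := by
            have ha : a0 = q K - kap / (m (K + 1) - m K) := max_eq_left hc.le
            simp only [hq', ha]
            exact min_eq_right (by have := div_nonneg hkap hpK.le; linarith only [this])
          rw [h5] at h4
          have h6 : (m (K + 1) - m K) * (q K - (q K - kap / (m (K + 1) - m K))) = kap := by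
            field_simp; ring
          linarith only [h4, h6]
        rw [h2]; linarith only [h1, h3]
      rcases Nat.eq_zero_or_pos j with rfl | hj1
      · rcases Nat.eq_zero_or_pos K with rfl | hK
        · simp only [zero_add, Nat.Ico_succ_singleton, Finset.sum_singleton, hr0, hq'0, sub_self, mul_zero, Std.le_refl]
        · rw [Finset.sum_eq_sum_Ico_succ_bot (by omega)]
          have := key 1 le_rfl hK
          rw [hr0, hq'0]
          simpa only [zero_add, sub_self, mul_zero, ge_iff_le] using this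
      · exact key j hj1 hj
  have h1 := F.energy_schur (a := a) hα hα1 hθ hEx hq'O hrO hq'0 hr0 htail
  have h2 := (hlip θ hθ le_rfl K m q' q hEx hq'O hqO hq'0 hq0).2
  have h3 : ∑ l ∈ Finset.range (K + 1), (m (l + 1) - m l) * |q' l - q l| ≤
      kap / (m (K + 1) - m K) := by
    have h4 : ∑ l ∈ Finset.range (K + 1), (m (l + 1) - m l) * |q' l - q l| ≤
        ∑ l ∈ Finset.range (K + 1), (m (l + 1) - m l) * (kap / (m (K + 1) - m K)) := by
      refine Finset.sum_le_sum fun l hl => ?_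
      have hl' := Finset.mem_range.1 hl
      have h5 := hdef l (by omega)
      refine mul_le_mul_of_nonneg_left ?_ (hp l (by omega)).le
      rw [abs_sub_comm, abs_of_nonneg h5.1]
      exact h5.2
    have h6 : ∑ l ∈ Finset.range (K + 1), (m (l + 1) - m l) = 1 := by
      rw [Finset.sum_range_sub, hm.1, hm.2.1]; ring
    rw [← Finset.sum_mul, h6, one_mul] at h4
    exact h4
  have h7 := (abs_le.1 h2).2
  have h8 := mul_le_mul_of_nonneg_left h3 hC
  linarith only [h1, h7, h8]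

/-- The eigenvalues of a path with `q K < 1` are positive. -/
theorem eq'_pos {K : ℕ} {m q : ℕ → ℝ} (hm : Exponents K m) (hq : P157.Par.Path K q)
    (hqK : q K < 1) {l : ℕ} (hl : l ≤ K) : 0 < eq' K m q l := by
  have hp : ∀ l ≤ K, 0 < m (l + 1) - m l := fun l hl => sub_pos.2 (hm.2.2 l hl)
  have hqmono : ∀ i j, i ≤ j → j ≤ K → q i ≤ q j := by
    intro i j hij
    induction j, hij using Nat.le_induction with
    | base => intro _; exact le_rfl
    | succ j hij ih => intro hj; exact (ih (by omega)).trans (hq.2 j (by omega))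
  have hmpos : 0 < m (l + 1) := Exponents.pos hm l hl
  have h1 : ∑ j ∈ Finset.Ico (l + 1) (K + 1), (m (j + 1) - m j) * q j ≤
      ∑ j ∈ Finset.Ico (l + 1) (K + 1), (m (j + 1) - m j) * q K := by
    refine Finset.sum_le_sum fun j hj => ?_
    have hj' := (Finset.mem_Ico.1 hj).2
    exact mul_le_mul_of_nonneg_left (hqmono j K (by omega) le_rfl) (hp j (by omega)).le
  have h0 : ∑ j ∈ Finset.Ico (l + 1) (K + 1), (m (j + 1) - m j) = 1 - m (l + 1) := by
    rw [Finset.sum_Ico_eq_sub _ (by omega : l + 1 ≤ K + 1), Finset.sum_range_sub,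
      Finset.sum_range_sub, hm.2.1]
    ring
  rw [← Finset.sum_mul, h0] at h1
  have h2 : m (l + 1) * q l ≤ m (l + 1) * q K :=
    mul_le_mul_of_nonneg_left (hqmono l K hl le_rfl) hmpos.le
  unfold eq'
  nlinarith only [hqK, h1, h2]

/-- Numerical estimates used in `egy_at_opt`. -/
theorem egy_num1 {A x0 ε CE : ℝ} {n : ℕ} (hCE : 0 ≤ CE) (hA : A = (n + 1) * CE + 1) (hx0 : 0 ≤ x0)
    (hx : x0 ≤ ε / (24 * A)) (hε : 0 < ε) :
    CE * ((n + 1) * (6 * x0 + ε / (4 * A))) ≤ ε / 2 := by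
  have hA1 : 1 ≤ A := by
    have : 0 ≤ ((n : ℝ) + 1) * CE := by (clear * - hCE; positivity)
    linarith only [hA, this]
  have hA0 : 0 < A := by linarith only [hA1]
  have h6 : CE * (n + 1) ≤ A := by rw [hA]; linarith only []
  have h7 : CE * ((n + 1) * (6 * x0 + ε / (4 * A))) ≤ A * (6 * x0 + ε / (4 * A)) := by
    rw [← mul_assoc]
    exact mul_le_mul_of_nonneg_right h6 (by (clear * - hx0 hε hA1; positivity))
  have h8 : A * (6 * x0 + ε / (4 * A)) ≤ A * (6 * (ε / (24 * A)) + ε / (4 * A)) := by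
    refine mul_le_mul_of_nonneg_left ?_ hA0.le
    linarith only [hx]
  have h9 : A * (6 * (ε / (24 * A)) + ε / (4 * A)) = ε / 2 := by field_simp; ring
  linarith

theorem egy_num2 {C ε : ℝ} (hC : 0 ≤ C) (hε : 0 < ε) : C * (ε / (4 * (C + 1))) ≤ ε / 4 := by
  rw [mul_div_assoc', div_le_div_iff₀ (by positivity) (by norm_num)]
  linarith

theorem egy_num3 {CE ε dl : ℝ} {K : ℕ} (hCE : 0 ≤ CE) (hε : 0 < ε)
    (hdl : dl ≤ ε / (4 * (CE + 1) * (K + 1))) : CE * ((K + 1) * dl) ≤ ε / 4 := by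
  have h7 : (K + 1) * dl ≤ ε / (4 * (CE + 1)) := by
    rw [le_div_iff₀ (by positivity)] at hdl ⊢
    linarith
  exact (mul_le_mul_of_nonneg_left h7 hCE).trans (egy_num2 hCE hε)

theorem egy_num4 {CS ε kap p : ℝ} (hCS : 0 ≤ CS) (hε : 0 < ε) (hp : 0 < p)
    (hk : kap ≤ p * ε / (4 * (CS + 1))) : CS * (kap / p) ≤ ε / 4 := by
  have h4 : kap / p ≤ ε / (4 * (CS + 1)) := by
    rw [div_le_iff₀ hp]
    calc kap ≤ p * ε / (4 * (CS + 1)) := hk
      _ = ε / (4 * (CS + 1)) * p := by ring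
  exact (mul_le_mul_of_nonneg_left h4 hCS).trans (egy_num2 hCS hε)

theorem egy_num5 {ep C dl : ℝ} (hep : 0 < ep) (h : ep ≤ (dl / 4) ^ 2 / (2 * (|C| + 1))) :
    2 * ep * C ≤ (dl / 4) ^ 2 := by
  have h1 : 2 * ep * C ≤ 2 * ep * (|C| + 1) := by
    refine mul_le_mul_of_nonneg_left ?_ (by positivity)
    linarith only [le_abs_self C]
  have h2 : 2 * ep * (|C| + 1) ≤ (dl / 4) ^ 2 := by
    rw [le_div_iff₀ (by positivity)] at h
    linarith
  linarith

theorem egy_num6 {x0 e D : ℝ} (hx0 : 0 ≤ x0) (hx1 : x0 ≤ 1)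
    (h : D ≤ √(2 * x0 ^ 2) + 4 * x0 ^ 2 + e) : D ≤ 6 * x0 + e := by
  have h7 : √(2 * x0 ^ 2) ≤ 2 * x0 := by
    rw [Real.sqrt_le_left (by positivity)]
    nlinarith only []
  nlinarith only [h, h7, hx0, hx1]

/-- **The energy at the optimum.** -/
theorem egy_at_opt {n : ℕ} (a α : Fin (n + 1) → ℝ) (hα : ∀ b, 0 < α b) (hα1 : ∑ b, α b = 1)
    {θ : ℝ} (hθ : 0 < θ) (hloop : ∀ B, 0 ≤ B → ∃ C, 0 ≤ C ∧ LoopBound (n + 1) B C)
    (hvar : ∀ B, 0 ≤ B → ∃ C, 0 ≤ C ∧ VarBound (n + 1) B C) {ε : ℝ} (hε : 0 < ε) :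
    ∃ δ₀ > 0, ∀ (K : ℕ) (m q : ℕ → ℝ), Exponents K m → P157.Par.Path K q → q 0 = 0 → q K ≤ 1 →
      (∀ l ≤ K, m (l + 1) - m l ≤ δ₀) → ∃ kap₀ > 0, ∀ kap, 0 < kap → kap ≤ kap₀ →
      ∃ d₀ > 0, ∀ dl, 0 < dl → dl ≤ d₀ → ∀ C, SpinLe K m q C → ∃ e₀ > 0, ∀ ep, 0 < ep →
      ep ≤ e₀ → ∀ η, 0 < η → η ≤ 1 → ∃ N₀ : ℕ, ∀ N : ℕ, N₀ ≤ N →
      ∀ [MeasurableSpace (orthogonalGroup (Fin N) ℝ)] [BorelSpace (orthogonalGroup (Fin N) ℝ)]
        (ν : Measure (orthogonalGroup (Fin N) ℝ)) [IsProbabilityMeasure ν] [ν.IsMulLeftInvariant]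
        (c : Fin N → Fin (n + 1)) (P : Pm (n + 1)), (∀ k, |frac c k - α k| ≤ dl) →
        IsOpt ν K m q c kap η ep (dl / 2) (fun k => θ * a k) P →
        ∑ k, a k * rho ν K m c P k ≤
          trf K m (fun x => x * Rt (atoms a α) (θ * x)) (eq' K m q) + ε := by
  obtain ⟨CE, hCE, hE⟩ := egy_loop a α hα hα1 hθ (F.atoms_zeta (a := a) hα hα1 hθ) hloop
  obtain ⟨CS, hCS, hS⟩ := schur_kap (a := a) hα hα1 hθ
  set A : ℝ := (n + 1) * CE + 1 with hA
  have hA1 : 1 ≤ A := by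
    have : 0 ≤ ((n : ℝ) + 1) * CE := by (clear * - hCE; positivity)
    linarith only [this]
  have hA0 : 0 < A := by linarith only [hA1]
  set x0 : ℝ := min 1 (ε / (24 * A)) with hx0
  have hx00 : 0 < x0 := lt_min one_pos (by (clear * - hε hCE; positivity))
  have hx01 : x0 ≤ 1 := min_le_left _ _
  have hx02 : x0 ≤ ε / (24 * A) := min_le_right _ _
  refine ⟨x0 ^ 2, by (clear * - hε hCE; positivity), fun K m q hm hq hq0 hq1 hδ => ?_⟩
  have hpK : 0 < m (K + 1) - m K := sub_pos.2 (hm.2.2 K le_rfl)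
  refine ⟨min 1 ((m (K + 1) - m K) * ε / (4 * (CS + 1))), lt_min one_pos (by (clear * - hpK hε hCS; positivity)),
    fun kap hkap hkap0 => ?_⟩
  have hkap1 : kap ≤ 1 := hkap0.trans (min_le_left _ _)
  have hkap2 : kap ≤ (m (K + 1) - m K) * ε / (4 * (CS + 1)) := hkap0.trans (min_le_right _ _)
  refine ⟨min 1 (ε / (4 * (CE + 1) * (K + 1))), lt_min one_pos (by (clear * - hε hCE; positivity)),
    fun dl hdl hdl0 C hC => ?_⟩
  have hdl1 : dl ≤ 1 := hdl0.trans (min_le_left _ _)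
  have hdl2 : dl ≤ ε / (4 * (CE + 1) * (K + 1)) := hdl0.trans (min_le_right _ _)
  set C' : ℝ := C + ∑ k, |θ * a k| + (2 * ((n + 1 : ℕ) : ℝ) + 2) * (K + 1) with hC'
  have hC'' : 0 < |C'| + 1 := by (clear * -; positivity)
  refine ⟨min (1 / 4) ((dl / 4) ^ 2 / (2 * (|C'| + 1))), lt_min (by norm_num) (by (clear * - hdl; positivity)),
    fun ep hep hep0 η hη hη1 => ?_⟩
  have hep1 : ep ≤ 1 / 4 := hep0.trans (min_le_left _ _)
  have hep2 : ep ≤ (dl / 4) ^ 2 / (2 * (|C'| + 1)) := hep0.trans (min_le_right _ _)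
  have hsm0 : 2 * ep * C' ≤ (dl / 4) ^ 2 := egy_num5 hep hep2
  have hsm : 2 * ep * (C + ∑ k, |θ * a k| + (2 * ((n + 1 : ℕ) : ℝ) + 2) * (K + 1)) ≤
      (dl / 2 / 2) ^ 2 := by
    have : dl / 2 / 2 = dl / 4 := by ring
    rw [this]; exact hsm0
  obtain ⟨N₀, hN₀⟩ := dev_opt (K := K) (κ := n + 1) (m := m) (q := q)
    (b0 := fun k => θ * a k) (kap := kap) (η := η) (ε := ep) (u0 := dl / 2) (C := C)
    (δ := x0 ^ 2) hm hq hq1 hC hkap hkap1 hη hη1 hep hep1 (by (clear * - hdl; positivity)) (by linarith only [hdl1]) hδ hsm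
    hvar (e := ε / (4 * A)) (by (clear * - hε hCE; positivity))
  refine ⟨max N₀ 1, fun N hN => ?_⟩
  intro _ _ ν _ _ c P hc hopt
  have hN0 : 0 < N := lt_of_lt_of_le one_pos ((le_max_right _ _).trans hN)
  have hdev := hN₀ N ((le_max_left _ _).trans hN) ν c P hopt
  -- bounds on the parameters
  have hb := hopt.bounds hm hq hq1 hN0 hC hkap hkap1 hη hη1 hep hep1 (by positivity)
    (by linarith only [hdl1])
  have hs0 : 0 ≤ ∑ j ∈ Finset.Ico 1 (K + 1), kap / 2 * P.s j ^ 2 :=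
    Finset.sum_nonneg fun j _ => by (clear * - hkap; positivity)
  set SB : ℝ := ∑ k, (P.b k - θ * a k) ^ 2 with hSB
  set SU : ℝ := ∑ k, ∑ j ∈ Finset.Ico 1 (K + 1), (P.u k j - dl / 2) ^ 2 with hSU
  have hSB0 : 0 ≤ SB := Finset.sum_nonneg fun k _ => sq_nonneg _
  have hSU0 : 0 ≤ SU := Finset.sum_nonneg fun k _ => Finset.sum_nonneg fun j _ => sq_nonneg _
  have hsum : SB + SU ≤ (dl / 4) ^ 2 := by
    have h1 : 1 / (2 * ep) * (SB + SU) ≤ C' := by
      have : (∑ j ∈ Finset.Ico 1 (K + 1), kap / 2 * P.s j ^ 2) + 1 / (2 * ep) * (SB + SU) ≤ C' :=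
        hb
      linarith only [hs0, hb]
    have h2 : SB + SU ≤ 2 * ep * C' := by
      have h3 := mul_le_mul_of_nonneg_left h1 (by (clear * - hep; positivity) : 0 ≤ 2 * ep)
      have h4 : 2 * ep * (1 / (2 * ep) * (SB + SU)) = SB + SU := by (clear * - hep; field_simp)
      linarith only [h3, h4]
    linarith only [hsm0, h2]
  have hbk : ∀ k, |P.b k - θ * a k| ≤ dl := by
    intro k
    have h1 : (P.b k - θ * a k) ^ 2 ≤ SB :=
      Finset.single_le_sum (f := fun k => (P.b k - θ * a k) ^ 2) (fun k _ => sq_nonneg _)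
        (Finset.mem_univ k)
    have h2 : (P.b k - θ * a k) ^ 2 ≤ (dl / 4) ^ 2 := by linarith only [hSU0, hsum, h1]
    have h3 := abs_le_of_sq_le_sq h2 (by (clear * - hdl; positivity))
    linarith only [hdl, h3]
  have huk : ∀ k, ∀ l ≤ K, |P.u k l| ≤ dl := by
    intro k l hl
    rcases Nat.eq_zero_or_pos l with rfl | hl1
    · rw [hopt.adm.u0 k, abs_zero]; exact hdl.le
    have h1 : (P.u k l - dl / 2) ^ 2 ≤ ∑ j ∈ Finset.Ico 1 (K + 1), (P.u k j - dl / 2) ^ 2 :=
      Finset.single_le_sum (f := fun j => (P.u k j - dl / 2) ^ 2) (fun j _ => sq_nonneg _)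
        (Finset.mem_Ico.2 ⟨hl1, by omega⟩)
    have h2 : ∑ j ∈ Finset.Ico 1 (K + 1), (P.u k j - dl / 2) ^ 2 ≤ SU :=
      Finset.single_le_sum
        (f := fun k => ∑ j ∈ Finset.Ico 1 (K + 1), (P.u k j - dl / 2) ^ 2)
        (fun k _ => Finset.sum_nonneg fun j _ => sq_nonneg _) (Finset.mem_univ k)
    have h3 : (P.u k l - dl / 2) ^ 2 ≤ (dl / 4) ^ 2 := by linarith only [hSB0, hsum, h1, h2]
    have h4 := abs_le_of_sq_le_sq h3 (by (clear * - hdl; positivity))
    have h5 : |P.u k l| ≤ |P.u k l - dl / 2| + |dl / 2| := by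
      have := abs_add_le (P.u k l - dl / 2) (dl / 2)
      rwa [sub_add_cancel] at this
    rw [abs_of_pos (by (clear * - hdl; positivity) : 0 < dl / 2)] at h5
    linarith only [hdl, h4, h5]
  have h1 := hE N K m c P ν dl hN0 hm hopt.adm.s0 hopt.adm.u0 hbk huk hc hdl1
  -- the overlap path
  set Q := Ql ν K m c P with hQ
  have hQpath : P157.Par.Path K Q := by
    constructor
    · exact Finset.sum_nonneg fun k _ => Rkl_nonneg hm hN0 k (Nat.zero_le K)
    · intro l hl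
      exact Finset.sum_le_sum fun k _ => Rkl_mono hm hN0 k hl
  have hQ0 : Q 0 = 0 :=
    Finset.sum_eq_zero fun k _ => Rkl_zero hm hN0 hopt.adm.s0 hopt.adm.u0 k
  have hQ1 : Q K < 1 := Ql_lt_one hm hN0
  have htr : trf K m (fun x => x * stInv (atoms a α) (θ * x) - 1 / θ) (eq' K m Q) =
      trf K m (fun x => x * Rt (atoms a α) (θ * x)) (eq' K m Q) := by
    refine trf_congr fun l hl => ?_
    have hpos := eq'_pos hm hQpath hQ1 hl
    unfold Rt
    (clear * - hθ hpos; field_simp)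
  rw [htr] at h1
  have h2 := hS K m q Q hm hq hq0 hq1 hQpath hQ0 hQ1.le kap hkap.le (by
    intro j hj1 hj
    rw [hopt.tails hm hN0 hj1 hj]
    have := hopt.adm.pos j hj1 hj
    have : 0 ≤ η / P.s j ^ 3 := by (clear * - hη this; positivity)
    linarith only [this])
  have h3 : CS * (kap / (m (K + 1) - m K)) ≤ ε / 4 := egy_num4 hCS hε hpK hkap2
  have h4 : ∑ k, Dv ν K m c P k ≤ (n + 1) * (6 * x0 + ε / (4 * A)) := by
    have h5 : ∀ k, Dv ν K m c P k ≤ 6 * x0 + ε / (4 * A) := fun k =>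
      egy_num6 hx00.le hx01 (hdev k)
    calc ∑ k, Dv ν K m c P k ≤ ∑ _k : Fin (n + 1), (6 * x0 + ε / (4 * A)) :=
          Finset.sum_le_sum fun k _ => h5 k
      _ = (n + 1) * (6 * x0 + ε / (4 * A)) := by
          rw [Finset.sum_const, Finset.card_univ, Fintype.card_fin, nsmul_eq_mul]
          push_cast; ring
  have h5 : CE * ((n + 1) * (6 * x0 + ε / (4 * A))) ≤ ε / 2 :=
    egy_num1 hCE hA hx00.le hx02 hε
  have h6 : CE * ((K + 1) * dl) ≤ ε / 4 := egy_num3 hCE hε hdl2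
  have h7 := (abs_le.1 h1).2
  have h8 := mul_le_mul_of_nonneg_left h4 hCE
  have h9 : CE * (∑ k, Dv ν K m c P k + (K + 1) * dl) =
      CE * ∑ k, Dv ν K m c P k + CE * ((K + 1) * dl) := by ring
  rw [h9] at h7
  linarith only [h2, h3, h5, h6, h7, h8]

end Vale.Agent.P166.U
end
end

section

section

/-! The formula from the upper bound (deterministic types) and the lower bound (independent
types) for the laws with finite support. -/

open MeasureTheory Finset Filter Topology Matrix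

namespace Vale.Agent.P166.F

open Vale.Agent.P157 Conc

section Main

variable [∀ N, MeasurableSpace (OG N)] [∀ N, BorelSpace (OG N)]
  (ν : (N : ℕ) → Measure (OG N)) [∀ N, IsProbabilityMeasure (ν N)]
  [∀ N, (ν N).IsMulLeftInvariant]

/-- The mean pressure of the model with the types `c` and the potentials `a`. -/
noncomputable def mp (β : ℝ) {n : ℕ} (a : Fin (n + 1) → ℝ) (N : ℕ) (c : Fin N → Fin (n + 1)) : ℝ :=
  ∫ U, pressure N β (U.1ᵀ * diagonal (fun i => a (c i)) * U.1) ∂(ν N)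

/-- The upper bound for the laws with finite support. -/
def UBf (β : ℝ) : Prop :=
  ∀ (n : ℕ) (a α : Fin (n + 1) → ℝ), StrictMono a → (∀ b, 0 < α b) → ∑ b, α b = 1 →
    ∀ c : (N : ℕ) → Fin N → Fin (n + 1),
      (∀ k, Tendsto (fun N => frac (c N) k) atTop (𝓝 (α k))) →
      ∀ y ∈ vals β (atoms a α), ∀ ε > 0, ∀ᶠ N in atTop, mp ν β a N (c N) ≤ y + ε

omit [∀ (N : ℕ), (ν N).IsMulLeftInvariant] in
theorem mp_bound {β : ℝ} (hβ : 0 ≤ β) {n : ℕ} (a : Fin (n + 1) → ℝ) :
    ∃ C : ℝ, ∀ N c, |mp ν β a N c| ≤ C := by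
  obtain ⟨R, hR⟩ := exists_abs_bound a
  refine ⟨2 * Real.log 2 + β / 2 * |R|, fun N c => ?_⟩
  have h2 : 0 ≤ Real.log 2 := Real.log_nonneg (by norm_num)
  rcases Nat.eq_zero_or_pos N with rfl | hN
  · have h0 : mp ν β a 0 c = 0 := by
      unfold mp pressure
      simp
    rw [h0, abs_zero]
    positivity
  · have hN' : (0 : ℝ) < N := by exact_mod_cast hN
    have hRc : ∀ i, |a (c i)| ≤ |R| := fun i => (hR (c i)).trans (le_abs_self R)
    have hb : ∀ U : OG N, |pressure N β (U.1ᵀ * diagonal (fun i => a (c i)) * U.1)| ≤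
        2 * Real.log 2 + β / 2 * |R| := by
      intro U
      rw [pressure_eq hN]
      refine (abs_sub _ _).trans ?_
      rw [abs_mul, abs_of_nonneg (by positivity : (0 : ℝ) ≤ 1 / (N : ℝ)), abs_of_nonneg h2]
      have h3 := LZ_bound β hβ (fun i => a (c i)) |R| hRc U
      have h4 : 1 / (N : ℝ) * |LZ β (fun i => a (c i)) U.1| ≤
          1 / (N : ℝ) * (N * Real.log 2 + β / 2 * (|R| * N)) := by gcongr
      have h5 : 1 / (N : ℝ) * (N * Real.log 2 + β / 2 * (|R| * N)) =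
          Real.log 2 + β / 2 * |R| := by
        field_simp
      rw [h5] at h4
      linarith
    unfold mp
    refine (abs_integral_le_integral_abs).trans ?_
    have h6 := integral_mono_of_nonneg (μ := ν N)
      (Eventually.of_forall fun U : OG N => abs_nonneg
        (pressure N β (U.1ᵀ * diagonal (fun i => a (c i)) * U.1)))
      (integrable_const (2 * Real.log 2 + β / 2 * |R|)) (Eventually.of_forall hb)
    simpa using h6

end Main

end Vale.Agent.P166.F
end
end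

section

section

/-!
The variance bound: moments over the direction of the reflection.
-/

open MeasureTheory ProbabilityTheory Filter Topology Matrix
open Vale.Agent.P157.Lv Vale.Agent.P157.Lv.Sy
open Vale.Agent.P166.Conc

namespace Vale.Agent.P166.H

open Vale.Agent

set_option linter.unusedSectionVars false

variable {n : ℕ}

/-- Second moment over the direction of a function with a quartic bound. -/
lemma int_dir (K : ℝ) (k : Fin n) {s : Fin n → ℝ} (hs : s ∈ Conc.cube n) (y : Fin n → ℝ)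
    {F : (Fin n → ℝ) → ℝ} (hF : Measurable F) (hF0 : ∀ v, 0 ≤ F v)
    (hle : ∀ v : Fin n → ℝ, v ⬝ᵥ v = 1 → F v ≤ 8 * ((1 + (v ⬝ᵥ s) ^ 2) *
      (y k ^ 2 + (v ⬝ᵥ y) ^ 2) + K ^ 2 * (1 + (v ⬝ᵥ s) ^ 2) ^ 2)) :
    ∫ x, F (nv (k : ℕ) x) ∂(gam n) ≤ 8 * (6 * y k ^ 2 + 29 * Yk k y + 35 * K ^ 2) := by
  have ms : Measurable fun x : Fin n → ℝ => (nv (k : ℕ) x ⬝ᵥ s) ^ 2 := (meas_nv_dot _ s).pow_const 2
  have mt : Measurable fun x : Fin n → ℝ => (nv (k : ℕ) x ⬝ᵥ y) ^ 2 := (meas_nv_dot _ y).pow_const 2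
  have is : Integrable (fun x => (nv (k : ℕ) x ⬝ᵥ s) ^ 2) (gam n) :=
    intg' _ ms _ fun x => by rw [abs_of_nonneg (sq_nonneg _)]; exact dot_comm_abs_bd _ x s
  have it : Integrable (fun x => (nv (k : ℕ) x ⬝ᵥ y) ^ 2) (gam n) :=
    intg' _ mt _ fun x => by rw [abs_of_nonneg (sq_nonneg _)]; exact dot_comm_abs_bd _ x y
  have ist : Integrable (fun x => (nv (k : ℕ) x ⬝ᵥ s) ^ 2 * (nv (k : ℕ) x ⬝ᵥ y) ^ 2) (gam n) :=
    intg' _ (ms.mul mt) ((∑ i, |s i|) ^ 2 * (∑ i, |y i|) ^ 2) fun x => by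
      rw [abs_of_nonneg (by (clear * -; positivity))]
      exact mul_le_mul (dot_comm_abs_bd _ x s) (dot_comm_abs_bd _ x y) (sq_nonneg _) (sq_nonneg _)
  have iss : Integrable (fun x => (nv (k : ℕ) x ⬝ᵥ s) ^ 2 * (nv (k : ℕ) x ⬝ᵥ s) ^ 2) (gam n) :=
    intg' _ (ms.mul ms) ((∑ i, |s i|) ^ 2 * (∑ i, |s i|) ^ 2) fun x => by
      rw [abs_of_nonneg (by (clear * -; positivity))]
      exact mul_le_mul (dot_comm_abs_bd _ x s) (dot_comm_abs_bd _ x s) (sq_nonneg _) (sq_nonneg _)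
  -- the dominating function
  set R : (Fin n → ℝ) → ℝ := fun x => y k ^ 2 + K ^ 2 + (y k ^ 2 + 2 * K ^ 2) * (nv (k : ℕ) x ⬝ᵥ s) ^ 2
    + (nv (k : ℕ) x ⬝ᵥ y) ^ 2 + (nv (k : ℕ) x ⬝ᵥ s) ^ 2 * (nv (k : ℕ) x ⬝ᵥ y) ^ 2
    + K ^ 2 * ((nv (k : ℕ) x ⬝ᵥ s) ^ 2 * (nv (k : ℕ) x ⬝ᵥ s) ^ 2) with hR
  have iR1 : Integrable (fun x => y k ^ 2 + K ^ 2 + (y k ^ 2 + 2 * K ^ 2) * (nv (k : ℕ) x ⬝ᵥ s) ^ 2)
      (gam n) := (integrable_const _).add (is.const_mul _)
  have iR2 : Integrable (fun x => y k ^ 2 + K ^ 2 + (y k ^ 2 + 2 * K ^ 2) * (nv (k : ℕ) x ⬝ᵥ s) ^ 2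
    + (nv (k : ℕ) x ⬝ᵥ y) ^ 2) (gam n) := iR1.add it
  have iR3 : Integrable (fun x => y k ^ 2 + K ^ 2 + (y k ^ 2 + 2 * K ^ 2) * (nv (k : ℕ) x ⬝ᵥ s) ^ 2
    + (nv (k : ℕ) x ⬝ᵥ y) ^ 2 + (nv (k : ℕ) x ⬝ᵥ s) ^ 2 * (nv (k : ℕ) x ⬝ᵥ y) ^ 2) (gam n) :=
    iR2.add ist
  have iR : Integrable R (gam n) := iR3.add (iss.const_mul _)
  have hRint : ∫ x, R x ∂(gam n) ≤ 6 * y k ^ 2 + 29 * Yk k y + 35 * K ^ 2 := by
    have e : ∫ x, R x ∂(gam n) = y k ^ 2 + K ^ 2 +
        (y k ^ 2 + 2 * K ^ 2) * ∫ x, (nv (k : ℕ) x ⬝ᵥ s) ^ 2 ∂(gam n)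
        + ∫ x, (nv (k : ℕ) x ⬝ᵥ y) ^ 2 ∂(gam n)
        + ∫ x, (nv (k : ℕ) x ⬝ᵥ s) ^ 2 * (nv (k : ℕ) x ⬝ᵥ y) ^ 2 ∂(gam n)
        + K ^ 2 * ∫ x, (nv (k : ℕ) x ⬝ᵥ s) ^ 2 * (nv (k : ℕ) x ⬝ᵥ s) ^ 2 ∂(gam n) := by
      simp only [hR]
      rw [integral_add iR3 (iss.const_mul _), integral_add iR2 ist, integral_add iR1 it,
        integral_add (integrable_const _) (is.const_mul _), integral_const_mul, integral_const_mul]
      simp only [integral_const, probReal_univ, smul_eq_mul, one_mul]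
    rw [e]
    have h1 := int_s k hs
    have h2 := int_t k y
    have h3 := int_st k hs y
    have h4 := int_ss k hs
    have h5 : (y k ^ 2 + 2 * K ^ 2) * ∫ x, (nv (k : ℕ) x ⬝ᵥ s) ^ 2 ∂(gam n) ≤
        (y k ^ 2 + 2 * K ^ 2) * 5 := mul_le_mul_of_nonneg_left h1 (by (clear * -; positivity))
    have h6 : K ^ 2 * ∫ x, (nv (k : ℕ) x ⬝ᵥ s) ^ 2 * (nv (k : ℕ) x ⬝ᵥ s) ^ 2 ∂(gam n) ≤
        K ^ 2 * 24 := mul_le_mul_of_nonneg_left h4 (sq_nonneg _)
    linarith
  have hdom : ∀ᵐ x ∂(gam n), F (nv (k : ℕ) x) ≤ 8 * R x := by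
    filter_upwards [nv_ae_unit k] with x hx
    refine (hle _ hx).trans (le_of_eq ?_)
    simp only [hR]; ring
  calc ∫ x, F (nv (k : ℕ) x) ∂(gam n) ≤ ∫ x, 8 * R x ∂(gam n) := by
        apply integral_mono_ae _ (iR.const_mul _) hdom
        refine Integrable.mono' (iR.const_mul 8) ?_ ?_
        · exact (hF.comp (measurable_nv (k : ℕ))).aestronglyMeasurable
        · filter_upwards [hdom] with x hx
          rw [Real.norm_eq_abs, abs_of_nonneg (hF0 _)]
          exact hx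
    _ = 8 * ∫ x, R x ∂(gam n) := integral_const_mul _ _
    _ ≤ _ := mul_le_mul_of_nonneg_left hRint (by positivity)

/-- The bound of the square of the change of the energy. -/
lemma chg_bd {K q a B c : ℝ} (hK : 0 ≤ K) (hq : 2 ≤ q) (hc : |c| ≤ K * q) :
    |-(2 / q * a) * B + (2 / q * a) ^ 2 / 2 * c| ≤ |a| * |B| + K * a ^ 2 := by
  have hq0 : 0 < q := by linarith only [hq]
  refine (abs_add_le _ _).trans ?_
  have e1 : |-(2 / q * a) * B| = (2 / q) * (|a| * |B|) := by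
    rw [abs_mul, abs_neg, abs_mul, abs_of_pos (div_pos two_pos hq0)]; ring
  have e2 : |(2 / q * a) ^ 2 / 2 * c| ≤ (2 / q) * (K * a ^ 2) := by
    rw [abs_mul, abs_of_nonneg (by (clear * -; positivity))]
    calc (2 / q * a) ^ 2 / 2 * |c| ≤ (2 / q * a) ^ 2 / 2 * (K * q) :=
          mul_le_mul_of_nonneg_left hc (by (clear * -; positivity))
      _ = (2 / q) * (K * a ^ 2) := by field_simp
  have h4 : 2 / q ≤ 1 := by rw [div_le_one hq0]; linarith only [hq]
  have h5 : 0 ≤ |a| * |B| + K * a ^ 2 := by (clear * - hK; positivity)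
  calc _ ≤ (2 / q) * (|a| * |B| + K * a ^ 2) := by rw [e1]; linarith only [e2]
    _ ≤ 1 * (|a| * |B| + K * a ^ 2) := mul_le_mul_of_nonneg_right h4 h5
    _ = _ := one_mul _

lemma chg_sq {K A B a b y X : ℝ} (hX : |X| ≤ |A| * |B| + K * A ^ 2) (hA : |A| ≤ 1 + |a|)
    (hB : |B| ≤ |y| + |b|) :
    X ^ 2 ≤ 8 * ((1 + a ^ 2) * (y ^ 2 + b ^ 2) + K ^ 2 * (1 + a ^ 2) ^ 2) := by
  have hA2 : A ^ 2 ≤ 2 * (1 + a ^ 2) := by
    rw [← sq_abs A, ← sq_abs a]
    nlinarith only [hA, abs_nonneg A, sq_nonneg (1 - |a|)]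
  have hB2 : B ^ 2 ≤ 2 * (y ^ 2 + b ^ 2) := by
    rw [← sq_abs B, ← sq_abs y, ← sq_abs b]
    nlinarith only [hB, abs_nonneg B, sq_nonneg (|y| - |b|)]
  have h4 : X ^ 2 ≤ 2 * (A ^ 2 * B ^ 2) + 2 * (K ^ 2 * (A ^ 2) ^ 2) := by
    rw [← sq_abs X]
    calc |X| ^ 2 ≤ (|A| * |B| + K * A ^ 2) ^ 2 := pow_le_pow_left₀ (abs_nonneg _) hX 2
      _ ≤ 2 * (A ^ 2 * B ^ 2) + 2 * (K ^ 2 * (A ^ 2) ^ 2) := by
          have e : A ^ 2 * B ^ 2 = (|A| * |B|) ^ 2 := by rw [mul_pow, sq_abs, sq_abs]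
          rw [e]
          nlinarith only [sq_nonneg (|A| * |B| - K * A ^ 2)]
  refine h4.trans ?_
  have hA0 := sq_nonneg A
  have hB0 := sq_nonneg B
  have h5 : A ^ 2 * B ^ 2 ≤ (2 * (1 + a ^ 2)) * (2 * (y ^ 2 + b ^ 2)) :=
    mul_le_mul hA2 hB2 hB0 (by positivity)
  have h6 : (A ^ 2) ^ 2 ≤ (2 * (1 + a ^ 2)) ^ 2 := pow_le_pow_left₀ hA0 hA2 2
  have h7 : K ^ 2 * (A ^ 2) ^ 2 ≤ K ^ 2 * (2 * (1 + a ^ 2)) ^ 2 :=
    mul_le_mul_of_nonneg_left h6 (sq_nonneg _)
  linarith

variable {N : ℕ} {ι X : Type} [Fintype ι] [Fintype X] [Nonempty X]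

namespace GS

variable {A : GS N ι X} {b : ℝ}

/-- A transposed direction. -/
noncomputable def tw (G : OG N) (w : Fin N → ℝ) : Fin N → ℝ := G.1ᵀ *ᵥ w

lemma tw_dot (G : OG N) (w a : Fin N → ℝ) : tw G w ⬝ᵥ a = w ⬝ᵥ (G.1 *ᵥ a) := by
  unfold tw
  have h := Conc.OG.dot_left G⁻¹ w a
  rw [Conc.OG.coe_inv, Matrix.transpose_transpose] at h
  exact h

lemma tw_self (G : OG N) (w : Fin N → ℝ) : tw G w ⬝ᵥ tw G w = w ⬝ᵥ w := by
  unfold tw
  have h := Conc.OG.dot G⁻¹ w w
  rw [Conc.OG.coe_inv] at h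
  exact h

lemma Bd.nice (hb : A.Bd b) (U : OG N) : Conc.Nice b (Conc.JU A.lam U) :=
  Conc.JU_nice (zero_le_one.trans hb.one) hb.lam U

/-- The change of the energy for the direction of the `k`-th step. -/
theorem dX_dir (hb : A.Bd b) (U G : OG N) (k : Fin N) {v : Fin N → ℝ} (hv : v ⬝ᵥ v = 1)
    (z : ι → ℝ) (x : X) (hs : G.1 *ᵥ A.sg x ∈ Conc.cube N) :
    A.dX U.1 (tw G (Wv k v)) z x ^ 2 ≤ 8 * ((1 + (v ⬝ᵥ (G.1 *ᵥ A.sg x)) ^ 2) *
      ((G.1 *ᵥ A.gv U.1 z x) k ^ 2 + (v ⬝ᵥ (G.1 *ᵥ A.gv U.1 z x)) ^ 2) +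
      b ^ 2 * (1 + (v ⬝ᵥ (G.1 *ᵥ A.sg x)) ^ 2) ^ 2) := by
  have hsk : |(G.1 *ᵥ A.sg x) k| = 1 := by
    rcases mem_cube.1 hs k with h | h <;> rw [h] <;> norm_num
  have h2 := Wv_dot k v (G.1 *ᵥ A.sg x)
  have h3 := Wv_dot k v (G.1 *ᵥ A.gv U.1 z x)
  rw [hsk] at h2
  refine chg_sq (A := Wv k v ⬝ᵥ (G.1 *ᵥ A.sg x)) (B := Wv k v ⬝ᵥ (G.1 *ᵥ A.gv U.1 z x)) ?_ h2 h3
  rw [dX_eq, ← tw_dot, ← tw_dot]
  refine chg_bd (zero_le_one.trans hb.one) ?_ ((hb.nice U).form _)
  rw [tw_self]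
  exact Wv_sq k hv

/-- The change of the energy for a coordinate direction. -/
theorem dX_single (hb : A.Bd b) (U G : OG N) (k : Fin N)
    (z : ι → ℝ) (x : X) (hs : G.1 *ᵥ A.sg x ∈ Conc.cube N) :
    A.dX U.1 (tw G (Pi.single k 1)) z x ^ 2 ≤ 8 * ((G.1 *ᵥ A.gv U.1 z x) k ^ 2 + b ^ 2) := by
  have hb0 : 0 ≤ b := zero_le_one.trans hb.one
  have hsk : (G.1 *ᵥ A.sg x) k ^ 2 = 1 := cube_sq hs k
  have h1 : (Pi.single k 1 : Fin N → ℝ) ⬝ᵥ Pi.single k 1 = 1 := by simp only [dotProduct_single, Pi.single_eq_same, mul_one]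
  have hc := (hb.nice U).form (tw G (Pi.single k 1))
  rw [tw_self, h1, mul_one] at hc
  rw [dX_eq, tw_self, h1, tw_dot, tw_dot, single_dot, single_dot]
  set s := (G.1 *ᵥ A.sg x) k
  set y := (G.1 *ᵥ A.gv U.1 z x) k
  set c := tw G (Pi.single k 1) ⬝ᵥ (Conc.JU A.lam U *ᵥ tw G (Pi.single k 1))
  have hc2 : c ^ 2 ≤ b ^ 2 := by rw [← sq_abs]; exact pow_le_pow_left₀ (abs_nonneg _) hc 2
  have e : -(2 / 1 * s) * y + (2 / 1 * s) ^ 2 / 2 * c = -(2 * s * y) + 2 * s ^ 2 * c := by ring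
  rw [e, hsk]
  nlinarith only [hc2, hsk, sq_nonneg (2 * s * y + 2 * c)]

end GS

end Vale.Agent.P166.H
end
end

section

section

/-!
The variance bound: Fubini, the Dirichlet forms.
-/

open MeasureTheory ProbabilityTheory Filter Topology Matrix
open Vale.Agent.P157.Lv Vale.Agent.P157.Lv.Sy
open Vale.Agent.P166.Conc

namespace Vale.Agent.P166.H

open Vale.Agent

set_option linter.unusedSectionVars false

section general

variable {ι X : Type} [Fintype ι] [Fintype X] [Nonempty X] {S : Sy ι X}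

lemma RegG.dn_nonneg (S : Sy ι X) (l : ℕ) (z : ι → ℝ) : 0 ≤ S.dn l z := (Real.exp_pos _).le

lemma RegG.gb_nonneg (S : Sy ι X) (z : ι → ℝ) (x : X) : 0 ≤ S.gb z x :=
  div_nonneg (Real.exp_pos _).le (Finset.sum_nonneg fun _ _ => (Real.exp_pos _).le)

/-- The average over a parameter has exponential growth. -/
lemma nh_int {α : Type} [MeasurableSpace α] (μ : Measure α) [IsProbabilityMeasure μ]
    {h : α → (ι → ℝ) → X → ℝ} (hm : ∀ x, Measurable fun p : α × (ι → ℝ) => h p.1 p.2 x)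
    {G : (ι → ℝ) → X → ℝ} (hG : Nh G) (hle : ∀ a z x, |h a z x| ≤ G z x) :
    Nh fun z x => ∫ a, h a z x ∂μ := by
  intro x
  refine (hG x).mono ?_ fun z => ?_
  · exact ((hm x).comp measurable_swap).stronglyMeasurable.integral_prod_right'
      (ν := μ) |>.measurable
  · have h1 := norm_integral_le_of_norm_le_const (μ := μ) (f := fun a => h a z x) (C := G z x)
      (Eventually.of_forall fun a => hle a z x)
    simp only [Real.norm_eq_abs, probReal_univ, mul_one] at h1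
    exact h1.trans (le_abs_self _)

/-- Fubini for the tilted averages. -/
lemma RegG.Ex_int {α : Type} [MeasurableSpace α] (μ : Measure α) [IsProbabilityMeasure μ]
    (hS : RegG S) {h : α → (ι → ℝ) → X → ℝ}
    (hm : ∀ x, Measurable fun p : α × (ι → ℝ) => h p.1 p.2 x)
    {G : (ι → ℝ) → X → ℝ} (hG : Nh G) (hle : ∀ a z x, |h a z x| ≤ G z x) :
    ∫ a, S.Ex (h a) ∂μ = S.Ex (fun z x => ∫ a, h a z x ∂μ) := by
  have hgm : ∀ x, Measurable fun p : α × (ι → ℝ) => S.gb p.2 x := fun x =>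
    (hS.eg_gb x).meas.comp measurable_snd
  have hdm : Measurable fun p : α × (ι → ℝ) => S.dn 0 p.2 :=
    (hS.eg_dn (Nat.zero_le _)).meas.comp measurable_snd
  have hI : Integrable (fun z => S.dn 0 z * S.av G z) (gI ι) :=
    ((hS.eg_dn (Nat.zero_le _)).mul (hS.eg_av hG)).integrable
  have hF : Integrable (fun p : α × (ι → ℝ) => S.dn 0 p.2 * S.av (h p.1) p.2)
      (μ.prod (gI ι)) := by
    refine Integrable.mono' (hI.comp_snd μ) ?_ (Eventually.of_forall fun p => ?_)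
    · refine (hdm.mul ?_).aestronglyMeasurable
      unfold av
      exact Finset.measurable_fun_sum _ fun x _ => (hgm x).mul (hm x)
    · rw [Real.norm_eq_abs, abs_mul, abs_of_nonneg (RegG.dn_nonneg S 0 _)]
      refine mul_le_mul_of_nonneg_left ?_ (RegG.dn_nonneg S 0 _)
      unfold av
      refine (Finset.abs_sum_le_sum_abs _ _).trans (Finset.sum_le_sum fun x _ => ?_)
      rw [abs_mul, abs_of_nonneg (RegG.gb_nonneg S _ _)]
      exact mul_le_mul_of_nonneg_left (hle _ _ _) (RegG.gb_nonneg S _ _)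
  unfold Ex
  rw [integral_integral_swap (f := fun a z => S.dn 0 z * S.av (h a) z) hF]
  refine integral_congr_ae (Eventually.of_forall fun z => ?_)
  show ∫ a, S.dn 0 z * S.av (h a) z ∂μ = S.dn 0 z * S.av (fun z x => ∫ a, h a z x ∂μ) z
  rw [integral_const_mul]
  congr 1
  unfold av
  rw [integral_finsetSum]
  · exact Finset.sum_congr rfl fun x _ => integral_const_mul _ _
  · intro x _
    refine (Integrable.of_bound ((hm x).comp (measurable_id.prodMk
      measurable_const)).aestronglyMeasurable (G z x)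
      (Eventually.of_forall fun a => hle a z x)).const_mul _

end general

variable {N : ℕ} {ι X : Type} [Fintype ι] [Fintype X] [Nonempty X] [DecidableEq ι]

namespace GS

variable {A : GS N ι X} {b : ℝ}

/-- The bound of the second moment over the direction. -/
noncomputable def bq (A : GS N ι X) (b : ℝ) (k : Fin N) (G : Matrix (Fin N) (Fin N) ℝ)
    (U : Matrix (Fin N) (Fin N) ℝ) (z : ι → ℝ) (x : X) : ℝ :=
  7 * (G *ᵥ A.gv U z x) k ^ 2 + 29 * Yk k (G *ᵥ A.gv U z x) + 36 * b ^ 2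

lemma Yk_nonneg (k : Fin N) (y : Fin N → ℝ) : 0 ≤ Yk k y := by
  have hpos : (0 : ℝ) ≤ (N : ℝ) - (k : ℕ) := by
    have : ((k : ℕ) : ℝ) < N := by exact_mod_cast k.2
    linarith
  unfold Yk
  refine div_nonneg (Finset.sum_nonneg fun i _ => ?_) hpos
  split_ifs
  · exact sq_nonneg _
  · exact le_rfl

lemma Ok.nh_Ggv (hA : A.Ok) (U G : Matrix (Fin N) (Fin N) ℝ) (i : Fin N) :
    Nh fun z x => (G *ᵥ A.gv U z x) i := by
  unfold Matrix.mulVec dotProduct
  exact Nh.sum _ fun j _ => Nh.const_mul _ (hA.nh_gv U j)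

lemma Ok.nh_Yk (hA : A.Ok) (U G : Matrix (Fin N) (Fin N) ℝ) (k : Fin N) :
    Nh fun z x => Yk k (G *ᵥ A.gv U z x) := by
  unfold Yk
  have h : Nh fun z x => ((N : ℝ) - (k : ℕ))⁻¹ *
      ∑ i : Fin N, if k ≤ i then (G *ᵥ A.gv U z x) i ^ 2 else 0 := by
    refine Nh.const_mul _ (Nh.sum _ fun i _ => ?_)
    split_ifs
    · exact fun x => (hA.nh_Ggv U G i x).pow 2
    · exact fun x => EG.const 0
  intro x
  have e : (fun z => (∑ i : Fin N, if k ≤ i then (G *ᵥ A.gv U z x) i ^ 2 else 0) /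
      ((N : ℝ) - (k : ℕ))) = fun z => ((N : ℝ) - (k : ℕ))⁻¹ *
      ∑ i : Fin N, if k ≤ i then (G *ᵥ A.gv U z x) i ^ 2 else 0 := by
    funext z
    rw [div_eq_inv_mul]
  rw [e]
  exact h x

lemma Ok.nh_bq (hA : A.Ok) (k : Fin N) (G U : Matrix (Fin N) (Fin N) ℝ) :
    Nh (A.bq b k G U) := by
  intro x
  exact ((((hA.nh_Ggv U G k x).pow 2).const_mul 7).add ((hA.nh_Yk U G k x).const_mul 29)).add
    (EG.const _)

lemma Ok.nh_sq (hA : A.Ok) (U : Matrix (Fin N) (Fin N) ℝ) :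
    Nh fun z x => ∑ i, A.gv U z x i ^ 2 :=
  Nh.sum _ fun i _ => fun x => (hA.nh_gv U i x).pow 2

lemma Ok.nh_dom (hA : A.Ok) (U : Matrix (Fin N) (Fin N) ℝ) :
    Nh fun z x => 8 * N * ∑ i, A.gv U z x i ^ 2 + 8 * b ^ 2 * N ^ 2 := by
  intro x
  exact ((hA.nh_sq U x).const_mul _).add (EG.const _)

variable [MeasurableSpace (OG N)] [BorelSpace (OG N)]

lemma meas_tw (G : OG N) (k : Fin N) :
    Measurable fun t : Fin N → ℝ => tw G (Wv k (nv (k : ℕ) t)) := by
  unfold tw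
  exact measurable_mulVec_const _ ((measurable_Wv k).comp (measurable_nv _))

/-- Measurability of the change of the energy for a fixed matrix. -/
lemma Ok.meas_dX' (hA : A.Ok) (U : OG N) (x : X) :
    Measurable fun p : (Fin N → ℝ) × (ι → ℝ) => A.dX U.1 p.1 p.2 x :=
  (hA.meas_dX x).comp ((measurable_const.prodMk measurable_fst).prodMk measurable_snd)

lemma Ok.int_dX (hA : A.Ok) (hb : A.Bd b) (U G : OG N) (k : Fin N) (z : ι → ℝ) (x : X)
    (hs : G.1 *ᵥ A.sg x ∈ Conc.cube N) :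
    ∫ t, A.dX U.1 (tw G (Wv k (nv (k : ℕ) t))) z x ^ 2 ∂(gam N) ≤
      8 * (6 * (G.1 *ᵥ A.gv U.1 z x) k ^ 2 + 29 * Yk k (G.1 *ᵥ A.gv U.1 z x) + 35 * b ^ 2) := by
  obtain ⟨s, hs'⟩ : ∃ s, s = G.1 *ᵥ A.sg x := ⟨_, rfl⟩
  obtain ⟨y, hy⟩ : ∃ y, y = G.1 *ᵥ A.gv U.1 z x := ⟨_, rfl⟩
  have h1 : ∀ v : Fin N → ℝ, v ⬝ᵥ v = 1 → A.dX U.1 (tw G (Wv k v)) z x ^ 2 ≤
      8 * ((1 + (v ⬝ᵥ s) ^ 2) * (y k ^ 2 + (v ⬝ᵥ y) ^ 2) + b ^ 2 * (1 + (v ⬝ᵥ s) ^ 2) ^ 2) := by
    intro v hv
    rw [hs', hy]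
    exact dX_dir hb U G k hv z x hs
  have h2 : Measurable fun v : Fin N → ℝ => A.dX U.1 (tw G (Wv k v)) z x ^ 2 := by
    have hw : Measurable fun v : Fin N → ℝ => tw G (Wv k v) := by
      unfold tw
      exact measurable_mulVec_const _ (measurable_Wv k)
    have hz : Measurable fun _ : Fin N → ℝ => z := measurable_const
    have h3 := (hA.meas_dX' U x).comp (hw.prodMk hz)
    exact h3.pow_const 2
  rw [← hy]
  rw [← hs'] at hs
  exact int_dir b k hs y h2 (fun v => sq_nonneg _) h1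

theorem Ok.int_Qv_le (hA : A.Ok) (hb : A.Bd b) (U G : OG N) (k : Fin N)
    (hs : ∀ x, G.1 *ᵥ A.sg x ∈ Conc.cube N) :
    A.Qv U.1 (tw G (Pi.single k 1)) + ∫ t, A.Qv U.1 (tw G (Wv k (nv (k : ℕ) t))) ∂(gam N) ≤
      8 * (A.sy U.1).Ex (A.bq b k G.1 U.1) := by
  have hS := hA.regG U.1
  have hm : ∀ x, Measurable fun p : (Fin N → ℝ) × (ι → ℝ) =>
      A.dX U.1 (tw G (Wv k (nv (k : ℕ) p.1))) p.2 x ^ 2 := fun x =>
    (((hA.meas_dX' U x).comp (((meas_tw G k).comp measurable_fst).prodMk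
      measurable_snd)).pow_const 2)
  have hle : ∀ (t : Fin N → ℝ) z x, |A.dX U.1 (tw G (Wv k (nv (k : ℕ) t))) z x ^ 2| ≤
      8 * N * ∑ i, A.gv U.1 z x i ^ 2 + 8 * b ^ 2 * N ^ 2 := fun t z x => by
    rw [abs_of_nonneg (sq_nonneg _)]
    exact hA.dX_sq_le hb U _ z x
  have h1 : ∫ t, A.Qv U.1 (tw G (Wv k (nv (k : ℕ) t))) ∂(gam N) =
      (A.sy U.1).Ex fun z x => ∫ t, A.dX U.1 (tw G (Wv k (nv (k : ℕ) t))) z x ^ 2 ∂(gam N) :=
    hS.Ex_int (gam N) (h := fun t z x => A.dX U.1 (tw G (Wv k (nv (k : ℕ) t))) z x ^ 2)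
      hm (hA.nh_dom U.1) hle
  have n1 : Nh fun z x => ∫ t, A.dX U.1 (tw G (Wv k (nv (k : ℕ) t))) z x ^ 2 ∂(gam N) :=
    nh_int (gam N) (h := fun t z x => A.dX U.1 (tw G (Wv k (nv (k : ℕ) t))) z x ^ 2)
      hm (hA.nh_dom U.1) hle
  have n2 : Nh fun z x => A.dX U.1 (tw G (Pi.single k 1)) z x ^ 2 := fun x => by
    refine (hA.nh_dom (b := b) U.1 x).mono ?_ fun z => ?_
    · exact ((hA.meas_dX' U x).comp (measurable_const.prodMk measurable_id)).pow_const 2
    · rw [abs_of_nonneg (sq_nonneg _)]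
      exact (hA.dX_sq_le hb U _ z x).trans (le_abs_self _)
  rw [h1]
  unfold Qv
  rw [← hS.Ex_add n2 n1, ← Ex_const_mul]
  refine hS.Ex_mono (Nh.add n2 n1) (Nh.const_mul _ (hA.nh_bq k G.1 U.1)) fun z x => ?_
  have h2 := dX_single hb U G k z x (hs x)
  have h3 := hA.int_dX hb U G k z x (hs x)
  show _ ≤ 8 * (7 * (G.1 *ᵥ A.gv U.1 z x) k ^ 2 + 29 * Yk k (G.1 *ᵥ A.gv U.1 z x) + 36 * b ^ 2)
  linarith

end GS

end Vale.Agent.P166.H
end
end

section

section

/-!
The variance bound: Efron-Stein with cyclic shifts, final bound.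
-/

open MeasureTheory ProbabilityTheory Filter Topology Matrix
open Vale.Agent.P157.Lv Vale.Agent.P157.Lv.Sy
open Vale.Agent.P166.Conc

namespace Vale.Agent.P166.H

open Vale.Agent

set_option linter.unusedSectionVars false

/-! ### Cyclic shifts -/

section shift

variable {N : ℕ} [NeZero N]

/-- The matrix of a cyclic shift. -/
def shM (s : Fin N) : Matrix (Fin N) (Fin N) ℝ := Matrix.of fun i j => if j = i + s then 1 else 0

lemma shM_mulVec (s : Fin N) (a : Fin N → ℝ) (i : Fin N) : (shM s *ᵥ a) i = a (i + s) := by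
  unfold shM Matrix.mulVec dotProduct
  simp only [of_apply, ite_mul, one_mul, zero_mul, Finset.sum_ite_eq', Finset.mem_univ, ↓reduceIte]

lemma shM_mem (s : Fin N) : shM s ∈ Matrix.orthogonalGroup (Fin N) ℝ := by
  rw [Matrix.mem_orthogonalGroup_iff]
  ext i j
  rw [Matrix.mul_apply, Matrix.one_apply]
  simp only [shM, Matrix.of_apply, Matrix.transpose_apply]
  simp [eq_comm]

/-- The cyclic shift as an orthogonal matrix. -/
def sh (s : Fin N) : OG N := ⟨shM s, shM_mem s⟩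

lemma sh_cube (s : Fin N) {a : Fin N → ℝ} (ha : a ∈ Conc.cube N) : (sh s).1 *ᵥ a ∈ Conc.cube N := by
  rw [Conc.mem_cube]
  intro i
  show (shM s *ᵥ a) i = -1 ∨ (shM s *ᵥ a) i = 1
  rw [shM_mulVec]
  exact Conc.mem_cube.1 ha _

lemma sum_sh (k : Fin N) (a : Fin N → ℝ) : ∑ s, ((sh s).1 *ᵥ a) k ^ 2 = ∑ i, a i ^ 2 := by
  have h : ∀ s : Fin N, ((sh s).1 *ᵥ a) k = a (k + s) := fun s => shM_mulVec s a k
  simp only [h]
  exact Equiv.sum_comp (Equiv.addLeft k) (fun i => a i ^ 2)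

lemma sum_Yk (k : Fin N) (a : Fin N → ℝ) : ∑ s, Yk k ((sh s).1 *ᵥ a) = ∑ i, a i ^ 2 := by
  have hpos : (0 : ℝ) < (N : ℝ) - (k : ℕ) := by
    have : ((k : ℕ) : ℝ) < N := by exact_mod_cast k.2
    linarith only [this]
  unfold Yk
  rw [← Finset.sum_div, Finset.sum_comm, div_eq_iff hpos.ne']
  have h : ∀ i : Fin N, ∑ s : Fin N, (if k ≤ i then ((sh s).1 *ᵥ a) i ^ 2 else 0) =
      if k ≤ i then ∑ i, a i ^ 2 else 0 := by
    intro i
    split_ifs
    · exact sum_sh i a
    · simp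
  rw [Finset.sum_congr rfl fun i _ => h i, Finset.sum_ite, Finset.sum_const_zero, add_zero,
    Finset.sum_const, nsmul_eq_mul]
  have : (Finset.univ.filter fun j : Fin N => k ≤ j) = Finset.Ici k := by
    ext j; simp only [Finset.mem_filter, Finset.mem_univ, true_and, Finset.mem_Ici]
  rw [this, Fin.card_Ici, Nat.cast_sub k.2.le]
  ring

end shift

variable {N : ℕ} {ι X : Type} [Fintype ι] [Fintype X] [Nonempty X] [DecidableEq ι]
  [MeasurableSpace (OG N)] [BorelSpace (OG N)]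

namespace GS

variable {A : GS N ι X} {b : ℝ}

/-- The free energy as a function of the matrix. -/
noncomputable def fu (A : GS N ι X) (U : OG N) : ℝ := (A.sy U.1).fe

variable (ν : Measure (OG N)) [IsProbabilityMeasure ν] [ν.IsMulRightInvariant]

lemma int_rfl (w : Fin N → ℝ) (G : OG N) :
    ∫ U : OG N, (A.fu (U * rflG w * G) - A.fu (U * G)) ^ 2 ∂ν = Dl ν A (tw G w) := by
  have h1 : ∀ U : OG N, U * rflG w * G = U * G * rflG (tw G w) := by
    intro U
    have h := conj_rflG G⁻¹ w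
    rw [OG.coe_inv, inv_inv] at h
    unfold tw
    rw [← h]
    group
  have h2 := integral_mul_right_eq_self (μ := ν)
    (fun U : OG N => (A.fu (U * rflG (tw G w)) - A.fu U) ^ 2) G
  unfold Dl
  refine Eq.trans ?_ h2
  refine integral_congr_ae (Eventually.of_forall fun U => ?_)
  show (A.fu (U * rflG w * G) - A.fu (U * G)) ^ 2 = _
  rw [h1]

/-- One step of the Markov chain. -/
lemma Ok.step_le (hA : A.Ok) (hb : A.Bd b) (G : OG N) (k : Fin N) (v : Fin N → ℝ) :
    ∫ U : OG N, (A.fu (U * hk k v * G) - A.fu (U * G)) ^ 2 ∂ν ≤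
      2 * Dl ν A (tw G (Pi.single k 1)) + 2 * Dl ν A (tw G (Wv k v)) := by
  obtain ⟨B, hB⟩ := hA.BM_fe hb
  have hm : ∀ V W : OG N, Measurable fun U : OG N => (A.fu (U * V) - A.fu (U * W)) ^ 2 :=
    fun V W => ((hB.meas.comp (measurable_mul_const V)).sub
      (hB.meas.comp (measurable_mul_const W))).pow_const 2
  have hbd : ∀ V W : OG N, ∀ U : OG N, |(A.fu (U * V) - A.fu (U * W)) ^ 2| ≤ (2 * B) ^ 2 := by
    intro V W U
    rw [abs_of_nonneg (sq_nonneg _), ← sq_abs]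
    refine pow_le_pow_left₀ (abs_nonneg _) ((abs_sub _ _).trans ?_) 2
    have h1 := hB.bd (U * V)
    have h2 := hB.bd (U * W)
    have e1 : A.fu (U * V) = (A.sy (U * V : OG N).1).fe := rfl
    have e2 : A.fu (U * W) = (A.sy (U * W : OG N).1).fe := rfl
    rw [e1, e2]
    linarith
  have hi : ∀ V W : OG N, Integrable (fun U : OG N => (A.fu (U * V) - A.fu (U * W)) ^ 2) ν :=
    fun V W => intg' ν (hm V W) _ (hbd V W)
  have h0 : ∀ w, 0 ≤ Dl ν A w := fun w => integral_nonneg fun U => sq_nonneg _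
  unfold hk Wv
  split_ifs with h
  · rw [int_rfl]
    have := h0 (tw G (Pi.single k 1))
    have := h0 (tw G (Pi.single k 1 - v))
    linarith
  · set w := Pi.single k 1 + v with hw
    have e1 : ∫ U : OG N, (A.fu (U * (rflG w * rflG (Pi.single k 1)) * G) -
        A.fu (U * rflG w * G)) ^ 2 ∂ν = Dl ν A (tw G (Pi.single k 1)) := by
      rw [← int_rfl ν (Pi.single k 1) G]
      have h2 := integral_mul_right_eq_self (μ := ν)
        (fun U : OG N => (A.fu (U * rflG (Pi.single k 1) * G) - A.fu (U * G)) ^ 2) (rflG w)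
      rw [← h2]
      refine integral_congr_ae (Eventually.of_forall fun U => ?_)
      show _ = (A.fu (U * rflG w * rflG (Pi.single k 1) * G) - A.fu (U * rflG w * G)) ^ 2
      rw [mul_assoc U (rflG w) (rflG (Pi.single k 1))]
    rw [← e1, ← int_rfl ν w G]
    have i1 : Integrable (fun U : OG N => (A.fu (U * (rflG w * rflG (Pi.single k 1)) * G) -
        A.fu (U * rflG w * G)) ^ 2) ν := by
      have := hi (rflG w * rflG (Pi.single k 1) * G) (rflG w * G)
      simpa only [mul_assoc] using this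
    have i2 : Integrable (fun U : OG N => (A.fu (U * rflG w * G) - A.fu (U * G)) ^ 2) ν := by
      have := hi (rflG w * G) G
      simpa only [mul_assoc] using this
    have i3 : Integrable (fun U : OG N => (A.fu (U * (rflG w * rflG (Pi.single k 1)) * G) -
        A.fu (U * G)) ^ 2) ν := by
      have := hi (rflG w * rflG (Pi.single k 1) * G) G
      simpa only [mul_assoc] using this
    rw [← integral_const_mul, ← integral_const_mul, ← integral_add (i1.const_mul 2)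
      (i2.const_mul 2)]
    refine integral_mono i3 ((i1.const_mul 2).add (i2.const_mul 2)) fun U => ?_
    show (A.fu (U * (rflG w * rflG (Pi.single k 1)) * G) - A.fu (U * G)) ^ 2 ≤
      2 * (A.fu (U * (rflG w * rflG (Pi.single k 1)) * G) - A.fu (U * rflG w * G)) ^ 2 +
      2 * (A.fu (U * rflG w * G) - A.fu (U * G)) ^ 2
    nlinarith only [sq_nonneg ((A.fu (U * (rflG w * rflG (Pi.single k 1)) * G) -       A.fu (U * rflG w * G)) - (A.fu (U * rflG w * G) - A.fu (U * G)))]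

/-- The average of the bound. -/
noncomputable def eb (A : GS N ι X) (b : ℝ) (k : Fin N) (G U : OG N) : ℝ :=
  (A.sy U.1).Ex (A.bq b k G.1 U.1)

omit [DecidableEq ι] in
lemma Ok.meas_gv (hA : A.Ok) (x : X) (i : Fin N) :
    Measurable fun p : OG N × (ι → ℝ) => A.gv p.1.1 p.2 x i := by
  unfold gv Matrix.mulVec dotProduct
  refine Finset.measurable_fun_sum _ fun j _ => ?_
  refine Measurable.mul ?_ (((hA.my x j).const_mul _).add ?_)
  · exact (Conc.measurable_coe_OG j i).comp measurable_fst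
  · unfold lc
    refine Measurable.const_add (Finset.measurable_fun_sum _ fun l _ => ?_) _
    exact ((measurable_pi_apply _).comp measurable_snd).const_mul _

lemma Ok.meas_eb (hA : A.Ok) (k : Fin N) (G : OG N) : Measurable fun U : OG N => A.eb b k G U := by
  refine hA.mEx (h := fun U z x => A.bq b k G.1 U.1 z x) fun x => ?_
  have h1 : ∀ i, Measurable fun p : OG N × (ι → ℝ) => (G.1 *ᵥ A.gv p.1.1 p.2 x) i := by
    intro i
    unfold Matrix.mulVec dotProduct
    exact Finset.measurable_fun_sum _ fun j _ => (hA.meas_gv x j).const_mul _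
  unfold bq Yk
  refine ((((h1 k).pow_const 2).const_mul _).add (Measurable.const_mul
    (Measurable.div_const (Finset.measurable_fun_sum _ fun i _ => ?_) _) _)).add_const _
  split_ifs
  · exact (h1 i).pow_const 2
  · exact measurable_const

lemma Ok.eb_nonneg (hA : A.Ok) (k : Fin N) (G U : OG N) : 0 ≤ A.eb b k G U := by
  refine (hA.regG U.1).Ex_nonneg (hA.nh_bq k G.1 U.1) fun z x => ?_
  unfold bq
  have := Yk_nonneg k (G.1 *ᵥ A.gv U.1 z x)
  positivity

lemma Ok.sum_eb [NeZero N] (hA : A.Ok) (hb : A.Bd b) (k : Fin N) (U : OG N) :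
    ∑ s, A.eb b k (sh s) U ≤ 972 * b ^ 2 * N := by
  have hG := hA.regG U.1
  unfold eb
  rw [← hG.Ex_sum _ fun s _ => hA.nh_bq k (sh s).1 U.1]
  have e : (fun (z : ι → ℝ) (x : X) => ∑ s, A.bq b k (sh s).1 U.1 z x) =
      fun z x => 36 * ∑ i, A.gv U.1 z x i ^ 2 + 36 * b ^ 2 * N := by
    funext z x
    unfold bq
    rw [Finset.sum_add_distrib, Finset.sum_add_distrib, ← Finset.mul_sum, ← Finset.mul_sum,
      sum_sh, sum_Yk]
    simp only [Finset.sum_const, Finset.card_univ, Fintype.card_fin, nsmul_eq_mul]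
    ring
  rw [e, hG.Ex_add (Nh.const_mul _ (hA.nh_sq U.1)) (fun _ => EG.const _), hG.Ex_const,
    Ex_const_mul]
  have := hA.Ex_gv hb U
  linarith only [this]

lemma Ok.meas_Qd (hA : A.Ok) (G : OG N) (k : Fin N) : Measurable fun p : OG N × (Fin N → ℝ) =>
    A.Qv p.1.1 (tw G (Wv k (nv (k : ℕ) p.2))) := by
  have h1 : Measurable fun p : OG N × (Fin N → ℝ) => (p.1, tw G (Wv k (nv (k : ℕ) p.2))) :=
    measurable_fst.prodMk ((meas_tw G k).comp measurable_snd)
  have h2 := hA.meas_Qv.comp h1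
  exact h2

lemma Ok.int_Qd (hA : A.Ok) (hb : A.Bd b) (G : OG N) (k : Fin N) :
    Integrable (fun p : OG N × (Fin N → ℝ) =>
      A.Qv p.1.1 (tw G (Wv k (nv (k : ℕ) p.2)))) (ν.prod (gam N)) :=
  intg' _ (hA.meas_Qd G k) (216 * b ^ 2 * N ^ 2) fun p => hA.Qv_bd hb p.1 _

lemma Ok.int_Qs (hA : A.Ok) (hb : A.Bd b) (w : Fin N → ℝ) :
    Integrable (fun U : OG N => A.Qv U.1 w) ν := by
  have h1 : Measurable fun U : OG N => (U, w) := measurable_id.prodMk measurable_const
  have h2 := hA.meas_Qv.comp h1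
  have h : Measurable fun U : OG N => A.Qv U.1 w := h2
  exact intg' ν h (216 * b ^ 2 * N ^ 2) fun U => hA.Qv_bd hb U w

lemma Ok.step_le' (hA : A.Ok) (hb : A.Bd b) (G : OG N) (k : Fin N) (y : Fin N → ℝ) :
    ∫ U : OG N, (A.fu (U * Hx k y * G) - A.fu (U * G)) ^ 2 ∂ν ≤
      4 * (∫ U : OG N, A.Qv U.1 (tw G (Pi.single k 1)) ∂ν) +
      4 * ∫ U : OG N, A.Qv U.1 (tw G (Wv k (nv (k : ℕ) y))) ∂ν := by
  have h1 := hA.step_le ν hb G k (nv (k : ℕ) y)
  have h2 := hA.Dl_le ν hb (tw G (Pi.single k 1))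
  have h3 := hA.Dl_le ν hb (tw G (Wv k (nv (k : ℕ) y)))
  refine h1.trans ?_
  linarith only [h2, h3]

/-- The Dirichlet form of the shifted free energy. -/
lemma Ok.D_le (hA : A.Ok) (hb : A.Bd b) (G : OG N) (k : Fin N)
    (hs : ∀ x, G.1 *ᵥ A.sg x ∈ Conc.cube N) (hi : Integrable (fun U => A.eb b k G U) ν) :
    Conc.D ν k (fun U => A.fu (U * G)) ≤ 32 * ∫ U, A.eb b k G U ∂ν := by
  obtain ⟨B, hB⟩ := hA.BM_fe hb
  have hBG : BM B fun U => A.fu (U * G) :=
    ⟨hB.meas.comp (measurable_mul_const G), fun U => hB.bd (U * G)⟩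
  rw [D_eq ν hBG]
  -- the average over the direction of Dl
  have hiQ := hA.int_Qd ν hb G k
  have hQ1 := hA.int_Qs ν hb (tw G (Pi.single k 1))
  have hQ2 : Integrable (fun U : OG N => ∫ t, A.Qv U.1 (tw G (Wv k (nv (k : ℕ) t))) ∂(gam N)) ν :=
    hiQ.integral_prod_left
  have hQ3 : Integrable (fun t => ∫ U : OG N, A.Qv U.1 (tw G (Wv k (nv (k : ℕ) t))) ∂ν) (gam N) :=
    hiQ.integral_prod_right
  have hmL : Measurable fun p : OG N × (Fin N → ℝ) =>
      (A.fu (p.1 * Hx k p.2 * G) - A.fu (p.1 * G)) ^ 2 := meas_diff k hBG.meas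
  have hiL : Integrable (fun p : OG N × (Fin N → ℝ) =>
      (A.fu (p.1 * Hx k p.2 * G) - A.fu (p.1 * G)) ^ 2) (ν.prod (gam N)) :=
    intg _ hmL _ fun p => sq_diff_bd hBG _ _
  have h1 : ∫ y, ∫ U : OG N, (A.fu (U * Hx k y * G) - A.fu (U * G)) ^ 2 ∂ν ∂(gam N) ≤
      ∫ y, (4 * (∫ U : OG N, A.Qv U.1 (tw G (Pi.single k 1)) ∂ν) +
      4 * ∫ U : OG N, A.Qv U.1 (tw G (Wv k (nv (k : ℕ) y))) ∂ν) ∂(gam N) :=
    integral_mono hiL.integral_prod_right ((integrable_const _).add (hQ3.const_mul 4))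
      fun y => hA.step_le' ν hb G k y
  have h2 : ∫ y, (4 * (∫ U : OG N, A.Qv U.1 (tw G (Pi.single k 1)) ∂ν) +
      4 * ∫ U : OG N, A.Qv U.1 (tw G (Wv k (nv (k : ℕ) y))) ∂ν) ∂(gam N) =
      4 * (∫ U : OG N, A.Qv U.1 (tw G (Pi.single k 1)) ∂ν) +
        4 * ∫ y, ∫ U : OG N, A.Qv U.1 (tw G (Wv k (nv (k : ℕ) y))) ∂ν ∂(gam N) := by
    rw [integral_add (integrable_const _) (hQ3.const_mul 4),
      integral_const_mul 4 fun y => ∫ U : OG N, A.Qv U.1 (tw G (Wv k (nv (k : ℕ) y))) ∂ν,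
      integral_const]
    simp only [probReal_univ, one_smul]
  have h3 : 4 * (∫ U : OG N, A.Qv U.1 (tw G (Pi.single k 1)) ∂ν) +
        4 * ∫ y, ∫ U : OG N, A.Qv U.1 (tw G (Wv k (nv (k : ℕ) y))) ∂ν ∂(gam N) =
      4 * ∫ U : OG N, (A.Qv U.1 (tw G (Pi.single k 1)) +
        ∫ t, A.Qv U.1 (tw G (Wv k (nv (k : ℕ) t))) ∂(gam N)) ∂ν := by
    rw [integral_add hQ1 hQ2, mul_add, integral_integral_swap
      (f := fun (U : OG N) t => A.Qv U.1 (tw G (Wv k (nv (k : ℕ) t)))) hiQ]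
  have h4 : ∫ U : OG N, (A.Qv U.1 (tw G (Pi.single k 1)) +
        ∫ t, A.Qv U.1 (tw G (Wv k (nv (k : ℕ) t))) ∂(gam N)) ∂ν ≤
      ∫ U : OG N, 8 * A.eb b k G U ∂ν :=
    integral_mono (hQ1.add hQ2) (hi.const_mul 8) fun U => hA.int_Qv_le hb U G k hs
  rw [integral_const_mul] at h4
  rw [h2, h3] at h1
  refine h1.trans ?_
  linarith only [h4]

/-- **The variance of the free energy of a system with Haar patterns.** -/
theorem Ok.var_fe (hA : A.Ok) (hb : A.Bd b) (hN : 0 < N) (hsg : ∀ x, A.sg x ∈ Conc.cube N) :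
    ∫ U : OG N, (A.fu U - ∫ V, A.fu V ∂ν) ^ 2 ∂ν ≤ 31104 * b ^ 2 * N := by
  have : NeZero N := ⟨hN.ne'⟩
  have hN' : (0 : ℝ) < N := by exact_mod_cast hN
  obtain ⟨B, hB⟩ := hA.BM_fe hb
  have hi : ∀ k (s : Fin N), Integrable (fun U => A.eb b k (sh s) U) ν := fun k s => by
    refine intg' ν (hA.meas_eb k (sh s)) (972 * b ^ 2 * N) fun U => ?_
    rw [abs_of_nonneg (hA.eb_nonneg k (sh s) U)]
    exact (Finset.single_le_sum (f := fun s => A.eb b k (sh s) U)
      (fun s _ => hA.eb_nonneg k (sh s) U) (Finset.mem_univ s)).trans (hA.sum_eb hb k U)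
  have hv : ∀ s : Fin N, ∫ U : OG N, (A.fu U - ∫ V, A.fu V ∂ν) ^ 2 ∂ν ≤
      ∑ k : Fin N, 32 * ∫ U, A.eb b k (sh s) U ∂ν := by
    intro s
    have hBG : BM B fun U => A.fu (U * sh s) :=
      ⟨hB.meas.comp (measurable_mul_const (sh s)), fun U => hB.bd (U * sh s)⟩
    have h1 := efron_stein ν hBG
    have h2 : ∫ V, A.fu (V * sh s) ∂ν = ∫ V, A.fu V ∂ν :=
      integral_mul_right_eq_self (μ := ν) A.fu (sh s)
    have h3 := integral_mul_right_eq_self (μ := ν)
      (fun U : OG N => (A.fu U - ∫ V, A.fu V ∂ν) ^ 2) (sh s)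
    rw [h2] at h1
    rw [← h3]
    exact h1.trans (Finset.sum_le_sum fun k _ => hA.D_le ν hb (sh s) k
      (fun x => sh_cube s (hsg x)) (hi k s))
  have h1 : (N : ℝ) * ∫ U : OG N, (A.fu U - ∫ V, A.fu V ∂ν) ^ 2 ∂ν ≤
      ∑ s : Fin N, ∑ k : Fin N, 32 * ∫ U, A.eb b k (sh s) U ∂ν := by
    have h := Finset.sum_le_sum (s := Finset.univ) fun (s : Fin N) _ => hv s
    rw [Finset.sum_const, Finset.card_univ, Fintype.card_fin, nsmul_eq_mul] at h
    exact h
  have h2 : ∑ s : Fin N, ∑ k : Fin N, 32 * ∫ U, A.eb b k (sh s) U ∂ν ≤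
      N * (31104 * b ^ 2 * N) := by
    rw [Finset.sum_comm]
    have h3 : ∀ k ∈ (Finset.univ : Finset (Fin N)), ∑ s : Fin N, 32 * ∫ U, A.eb b k (sh s) U ∂ν ≤
        31104 * b ^ 2 * N := by
      intro k _
      rw [← Finset.mul_sum, ← integral_finsetSum _ fun s _ => hi k s]
      have h4 : ∫ U, ∑ s, A.eb b k (sh s) U ∂ν ≤ 972 * b ^ 2 * N := by
        have h5 := integral_mono (μ := ν) (integrable_finsetSum _ fun s _ => hi k s)
          (integrable_const (972 * b ^ 2 * (N : ℝ))) fun U => hA.sum_eb hb k U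
        simpa only [ge_iff_le, integral_const, probReal_univ, smul_eq_mul, one_mul] using h5
      linarith only [h4]
    refine (Finset.sum_le_sum h3).trans (le_of_eq ?_)
    rw [Finset.sum_const, Finset.card_univ, Fintype.card_fin, nsmul_eq_mul]
  exact le_of_mul_le_mul_left (h1.trans h2) hN'

end GS

end Vale.Agent.P166.H
end
end

section

section

/-! The tangent inequality for the spin part. -/

open MeasureTheory ProbabilityTheory Filter Topology Set

namespace Vale.Agent.P157.Par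

end Vale.Agent.P157.Par
end
end

section

section

/-! The spin part on closed paths: the tangent inequality, the overlaps and the derivative for
paths starting at zero. -/

open MeasureTheory ProbabilityTheory Filter Topology Set

namespace Vale.Agent.P166.F

open Vale.Agent.P157 Vale.Agent.P157.Par

section path

variable {m r η : ℕ → ℝ} {a : ℝ}

theorem spc_casc_cont : ∀ (l : ℕ), (∀ j < l, 0 < m (j + 1)) →
    (∀ j < l, ∀ s ∈ Set.Ioo 0 a, 0 < (r (j + 1) - r j) + s * (η (j + 1) - η j)) →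
    (r 0 = 0 ∧ η 0 = 0) →
    ∀ {u u1 u2 us : ℝ → ℝ → ℝ}, Fam 0 a u u1 u2 us →
    ContinuousOn (fun s => ∫ z, cascade m (fun l => r l + s * η l) l (u s)
      (√(r 0 + s * η 0) * z) ∂(gaussianReal 0 1)) (Set.Icc 0 a) := by
  intro l
  induction l with
  | zero =>
    intro _ _ h0 u u1 u2 us h
    have e : (fun s => ∫ z, cascade m (fun l => r l + s * η l) 0 (u s)
        (√(r 0 + s * η 0) * z) ∂(gaussianReal 0 1)) = fun s => u s 0 := by
      funext s
      rw [h0.1, h0.2]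
      simp [cascade]
    rw [e]
    exact h.c0.comp (f := fun s : ℝ => ((s, (0 : ℝ)) : ℝ × ℝ)) (s := Set.Icc 0 a) (by fun_prop)
      (fun s hs => ⟨hs, mem_univ _⟩)
  | succ l ih =>
    intro hm hv h0 u u1 u2 us h
    simp only [cascade_succ_def, sp4_incr]
    exact ih (fun j hj => hm j (by omega)) (fun j hj => hv j (by omega)) h0
      (h.step (hm l (by omega)) (hv l (by omega)))

theorem spc_casc_deriv (hm0 : m 0 = 0) : ∀ (l : ℕ), (∀ j < l, 0 < m (j + 1)) →
    (∀ j < l, ∀ s ∈ Set.Ioo 0 a, 0 < (r (j + 1) - r j) + s * (η (j + 1) - η j)) →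
    (r 0 = 0 ∧ η 0 = 0) →
    ∀ {u u1 u2 us : ℝ → ℝ → ℝ}, Fam 0 a u u1 u2 us → ∀ s ∈ Set.Ioo 0 a,
    HasDerivAt (fun s => ∫ z, cascade m (fun l => r l + s * η l) l (u s)
      (√(r 0 + s * η 0) * z) ∂(gaussianReal 0 1))
      (chn m (fun l => r l + s * η l) l (u s) (us s) + 1 / 2 *
        (η l * chn m (fun l => r l + s * η l) l (u s) (fun y => u2 s y + m l * u1 s y ^ 2) -
          ∑ j ∈ Finset.range l, (m (j + 1) - m j) * η j *
            Rc m (fun l => r l + s * η l) l (u s) (u1 s) j)) s := by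
  intro l
  induction l with
  | zero =>
    intro _ _ h0 u u1 u2 us h s hs
    have e : (fun s => ∫ z, cascade m (fun l => r l + s * η l) 0 (u s)
        (√(r 0 + s * η 0) * z) ∂(gaussianReal 0 1)) = fun s => u s 0 := by
      funext s
      rw [h0.1, h0.2]
      simp [cascade]
    rw [e]
    refine (h.ds s hs 0).congr_deriv ?_
    rw [chn_zero_def, chn_zero_def, Finset.range_zero, Finset.sum_empty, hm0]
    rw [h0.1, h0.2]
    simp
  | succ l ih =>
    intro hm hv h0 u u1 u2 us h s hs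
    have hsI : s ∈ Set.Icc 0 a := Ioo_subset_Icc_self hs
    have hml : 0 < m (l + 1) := hm l (by omega)
    have hstep := h.step hml (hv l (by omega))
    have h1 := ih (fun j hj => hm j (by omega)) (fun j hj => hv j (by omega)) h0 hstep s hs
    obtain ⟨B1, hB1⟩ := h.b1
    obtain ⟨B2, hB2⟩ := h.b2
    obtain ⟨Bs, hBs⟩ := h.bs
    obtain ⟨L, B, hS⟩ := sp4_sm h
    obtain ⟨L', B', hS'⟩ := sp4_sm hstep
    have hSs := hS s hsI
    have hSs' := hS' s hsI
    have hc1 : Continuous (u1 s) := sp4_slice h.c1 hsI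
    have hc2 : Continuous (u2 s) := sp4_slice h.c2 hsI
    have hcs : Continuous (us s) := sp4_slice h.cs hs
    set ρ : ℕ → ℝ := fun l => r l + s * η l with hρ
    set v : ℝ := (r (l + 1) - r l) + s * (η (l + 1) - η l) with hv'
    have hinc : ρ (l + 1) - ρ l = v := sp4_incr r η l s
    -- the observable at the level l + 1
    set G : ℝ → ℝ := fun y => u2 s y + m (l + 1) * u1 s y ^ 2 with hG
    have hGc : Continuous G := by fun_prop
    have hGb : ∀ x, |G x| ≤ B2 + m (l + 1) * B1 ^ 2 := by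
      intro x
      refine (abs_add_le _ _).trans (add_le_add (hB2 s hsI x) ?_)
      rw [abs_mul, abs_of_pos hml, abs_pow]
      exact mul_le_mul_of_nonneg_left (pow_le_pow_left₀ (abs_nonneg _) (hB1 s hsI x) 2) hml.le
    have hm' : ∀ j < l + 1, 0 < m (j + 1) := hm
    have hm'' : ∀ j < l, 0 < m (j + 1) := fun j hj => hm j (by omega)
    -- first term
    have t1 : chn m ρ l (gstep (m (l + 1)) v (u s)) (tlt (m (l + 1)) v (u s)
        (fun y => us s y + (η (l + 1) - η l) / 2 * (u2 s y + m (l + 1) * u1 s y ^ 2))) =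
        chn m ρ (l + 1) (u s) (us s) + (η (l + 1) - η l) / 2 * chn m ρ (l + 1) (u s) G := by
      have hcG : Continuous (fun y => (η (l + 1) - η l) / 2 * G y) := continuous_const.mul hGc
      have hbG : ∀ x, |(fun y => (η (l + 1) - η l) / 2 * G y) x| ≤
          |(η (l + 1) - η l) / 2| * (B2 + m (l + 1) * B1 ^ 2) := by
        intro x
        simp only [abs_mul]
        exact mul_le_mul_of_nonneg_left (hGb x) (abs_nonneg _)
      have e := sp4_chn_add (r := ρ) (l + 1) hm' hSs hcs (hBs s hs) hcG hbG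
      rw [sp4_chn_const_mul, chn_succ_def, hinc] at e
      exact e
    -- second term
    have t2 : chn m ρ l (gstep (m (l + 1)) v (u s)) (fun y =>
        (tlt (m (l + 1)) v (u s) (fun y => u2 s y + m (l + 1) * u1 s y ^ 2) y -
          m (l + 1) * tlt (m (l + 1)) v (u s) (u1 s) y ^ 2) +
        m l * tlt (m (l + 1)) v (u s) (u1 s) y ^ 2) =
        chn m ρ (l + 1) (u s) G - (m (l + 1) - m l) * Rc m ρ (l + 1) (u s) (u1 s) l := by
      have hT1c : Continuous (tlt (m (l + 1)) v (u s) (u1 s)) := hSs.tlt_cont hc1 (hB1 s hsI) _ _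
      have hT1b : ∀ x, |tlt (m (l + 1)) v (u s) (u1 s) x| ≤ B1 := fun x =>
        hSs.abs_tlt_le hc1 (hB1 s hsI) _ _ x
      have hTGc : Continuous (tlt (m (l + 1)) v (u s) G) := hSs.tlt_cont hGc hGb _ _
      have hTGb : ∀ x, |tlt (m (l + 1)) v (u s) G x| ≤ B2 + m (l + 1) * B1 ^ 2 := fun x =>
        hSs.abs_tlt_le hGc hGb _ _ x
      have e : (fun y =>
        (tlt (m (l + 1)) v (u s) (fun y => u2 s y + m (l + 1) * u1 s y ^ 2) y -
          m (l + 1) * tlt (m (l + 1)) v (u s) (u1 s) y ^ 2) +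
        m l * tlt (m (l + 1)) v (u s) (u1 s) y ^ 2) = fun y => tlt (m (l + 1)) v (u s) G y +
          (-(m (l + 1) - m l)) * tlt (m (l + 1)) v (u s) (u1 s) y ^ 2 := by
        funext y
        ring
      have hcT : Continuous (fun y => (-(m (l + 1) - m l)) *
          tlt (m (l + 1)) v (u s) (u1 s) y ^ 2) := continuous_const.mul (hT1c.pow 2)
      have hbT : ∀ x, |(fun y => (-(m (l + 1) - m l)) *
          tlt (m (l + 1)) v (u s) (u1 s) y ^ 2) x| ≤ |-(m (l + 1) - m l)| * B1 ^ 2 := by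
        intro x
        simp only [abs_mul, abs_pow]
        exact mul_le_mul_of_nonneg_left
          (pow_le_pow_left₀ (abs_nonneg _) (hT1b x) 2) (abs_nonneg _)
      have e2 := sp4_chn_add (r := ρ) l hm'' hSs' hTGc hTGb hcT hbT
      rw [sp4_chn_const_mul] at e2
      rw [e, e2, chn_succ_def, hinc, Rc_succ_le _ _ _ _ _ le_rfl, hinc, Rc_self]
      ring
    have t3 : ∀ j ∈ Finset.range l, (m (j + 1) - m j) * η j *
        Rc m ρ l (gstep (m (l + 1)) v (u s)) (tlt (m (l + 1)) v (u s) (u1 s)) j =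
        (m (j + 1) - m j) * η j * Rc m ρ (l + 1) (u s) (u1 s) j := by
      intro j hj
      have hjl : j ≤ l := (Finset.mem_range.1 hj).le
      rw [Rc_succ_le _ _ _ _ _ hjl, hinc]
    have hfun : (fun s => ∫ z, cascade m (fun l => r l + s * η l) (l + 1) (u s)
        (√(r 0 + s * η 0) * z) ∂(gaussianReal 0 1)) =
        fun s => ∫ z, cascade m (fun l => r l + s * η l) l
          (gstep (m (l + 1)) ((r (l + 1) - r l) + s * (η (l + 1) - η l)) (u s))
          (√(r 0 + s * η 0) * z) ∂(gaussianReal 0 1) := by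
      funext s
      simp only [cascade_succ_def, sp4_incr]
    rw [hfun]
    refine h1.congr_deriv ?_
    rw [Finset.sum_range_succ]
    rw [t1, t2, Finset.sum_congr rfl t3]
    ring

/-- The derivative of the spin part along a segment of paths starting at zero. -/
theorem spin_deriv0 {k : ℕ} {m r η : ℕ → ℝ} (hm : Exponents k m) {a : ℝ} (ha : 0 < a)
    (h0 : r 0 = 0 ∧ η 0 = 0)
    (hs : ∀ s ∈ Set.Ioo 0 a, ∀ l < k, r l + s * η l < r (l + 1) + s * η (l + 1)) :
    ContinuousOn (fun s => spinPart k m (fun l => r l + s * η l)) (Set.Icc 0 a) ∧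
    (∀ s ∈ Set.Ioo 0 a, HasDerivAt (fun s => spinPart k m (fun l => r l + s * η l))
      (-(1 / 2) * ∑ l ∈ Finset.range (k + 1), (m (l + 1) - m l) * η l *
        spR k m (fun l => r l + s * η l) l) s) ∧
    ∀ j ≤ k, ContinuousOn (fun s => spR k m (fun l => r l + s * η l) j) (Set.Icc 0 a) := by
  have _ := ha
  have hpos : ∀ j < k, 0 < m (j + 1) := fun j hj => sp4_exp_pos hm hj.le
  have hv : ∀ j < k, ∀ s ∈ Set.Ioo 0 a, 0 < (r (j + 1) - r j) + s * (η (j + 1) - η j) := by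
    intro j hj s hsI
    have h := hs s hsI j hj
    rw [← sp4_incr]
    exact sub_pos.2 h
  have hF := sp4_fam a
  have hSm := ec_logcosh.sm
  have hT : Continuous Real.tanh := hSm.cont1
  refine ⟨?_, ?_, ?_⟩
  · have h1 := spc_casc_cont k hpos hv h0 hF
    have h2 : ContinuousOn (fun s => (r k + s * η k) / 2) (Set.Icc 0 a) := by fun_prop
    exact h1.sub h2
  · intro s hsI
    have h1 := spc_casc_deriv hm.1 k hpos hv h0 hF s hsI
    have h2 : HasDerivAt (fun s => (r k + s * η k) / 2) (η k / 2) s := by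
      have h3 : HasDerivAt (fun s : ℝ => s) 1 s := hasDerivAt_id s
      have h4 := ((h3.mul_const (η k)).const_add (r k)).div_const 2
      simpa using h4
    have h3 := h1.sub h2
    refine h3.congr_deriv ?_
    set ρ : ℕ → ℝ := fun l => r l + s * η l with hρ
    have e1 : chn m ρ k (fun x => Real.log (Real.cosh x))
        (fun y => 1 - Real.tanh y ^ 2 + m k * Real.tanh y ^ 2) =
        1 - (1 - m k) * spR k m ρ k := by
      have hcT : Continuous (fun y => (-(1 - m k)) * Real.tanh y ^ 2) :=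
        continuous_const.mul (hT.pow 2)
      have hbT : ∀ x, |(fun y => (-(1 - m k)) * Real.tanh y ^ 2) x| ≤ |-(1 - m k)| * 1 ^ 2 := by
        intro x
        simp only [abs_mul, abs_pow]
        exact mul_le_mul_of_nonneg_left
          (pow_le_pow_left₀ (abs_nonneg _) (hSm.bM x) 2) (abs_nonneg _)
      have e2 := sp4_chn_add (r := ρ) k hpos hSm (g := fun _ => 1) continuous_const
        (K := 1) (fun _ => by simp) hcT hbT
      rw [sp4_chn_const_mul, sp4_chn_const 1 k hpos hSm] at e2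
      have e3 : (fun y => 1 - Real.tanh y ^ 2 + m k * Real.tanh y ^ 2) =
          fun y => 1 + (-(1 - m k)) * Real.tanh y ^ 2 := by
        funext y
        ring
      rw [e3, e2, spR, Rc_self]
      ring
    rw [Finset.sum_range_succ, hm.2.1]
    rw [e1, sp4_chn_zero]
    simp only [spR]
    ring
  · intro j hj
    have hg : ContinuousOn (fun p : ℝ × ℝ => (fun _ : ℝ => Real.tanh) p.1 p.2)
        (Set.Icc 0 a ×ˢ Set.univ) := (hT.comp continuous_snd).continuousOn
    exact sp4_Rc_cont k hpos hv hF hg (K := 1) (fun _ _ => hSm.bM) j hj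

end path

section cl

variable {k : ℕ} {m r r' : ℕ → ℝ}

/-- **The tangent inequality on closed paths.** -/
theorem spin_tangent_cl (hm : Exponents k m) (hr : Path k r) (hr' : Path k r') :
    spinPart k m r' ≤ spinPart k m r -
      1 / 2 * ∑ l ∈ Finset.range (k + 1), (m (l + 1) - m l) * spR k m r l * (r' l - r l) := by
  set ρ : ℕ → ℝ := fun l => r l + (l + 1) with hρ
  set η : ℕ → ℝ := fun l => -((l : ℝ) + 1) with hη
  have hS : ∀ s ∈ Set.Ico (0 : ℝ) 1, SPath k (fun l => ρ l + s * η l) := by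
    intro s hs
    have h1 : 0 < 1 - s := by linarith [hs.2]
    refine ⟨?_, fun l hl => ?_⟩
    · simp only [hρ, hη]
      push_cast
      nlinarith [hr.1]
    · simp only [hρ, hη]
      push_cast
      nlinarith [hr.2 l hl]
  have e1 : (fun l => ρ l + 1 * η l) = r := by
    funext l
    simp only [hρ, hη]
    ring
  have hP : Path k (fun l => ρ l + 1 * η l) := by rw [e1]; exact hr
  obtain ⟨hc, -, hR⟩ := spin_deriv hm one_pos hS hP
  set f : ℝ → ℝ := fun s => spinPart k m (fun l => ρ l + s * η l) -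
    1 / 2 * ∑ l ∈ Finset.range (k + 1), (m (l + 1) - m l) *
      spR k m (fun l => ρ l + s * η l) l * (r' l - (ρ l + s * η l)) with hf
  have hfc : ContinuousOn f (Set.Icc 0 1) := by
    refine hc.sub (continuousOn_const.mul (continuousOn_finsetSum _ fun l hl => ?_))
    have hl' : l ≤ k := Nat.lt_succ_iff.1 (Finset.mem_range.1 hl)
    exact (continuousOn_const.mul (hR l hl')).mul (by fun_prop)
  have h1 : ∀ s ∈ Set.Ico (0 : ℝ) 1, spinPart k m r' ≤ f s := fun s hs =>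
    spin_tangent hm (hS s hs) hr'
  have hcl : (1 : ℝ) ∈ closure (Set.Ico (0 : ℝ) 1) := by
    rw [closure_Ico (by norm_num)]
    simp
  have h3 : spinPart k m r' ≤ f 1 := by
    have h4 : ContinuousWithinAt f (Set.Ico 0 1) 1 :=
      (hfc 1 (by simp)).mono Ico_subset_Icc_self
    exact ContinuousWithinAt.closure_le hcl continuousWithinAt_const h4 h1
  simp only [hf] at h3
  rw [e1] at h3
  have e2 : ∀ l, ρ l + 1 * η l = r l := fun l => congrFun e1 l
  simp only [e2] at h3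
  exact h3

theorem spc_Rc_zero (m : ℕ → ℝ) (h0 : r 0 = 0) : ∀ (l : ℕ), Sp7Exp m l → ∀ {F M D : ℝ → ℝ},
    Ec F M D → Rc m r l F M 0 = 0 := by
  intro l
  induction l with
  | zero =>
    intro _ F M D h
    rw [Rc_zero_def, chn_zero_def, h0]
    have h1 : M 0 = 0 := by
      have := h.odd 0
      rw [neg_zero] at this
      linarith
    simp [h1]
  | succ l ih =>
    intro hE F M D h
    rw [Rc_succ_le _ _ _ _ _ (Nat.zero_le l)]
    exact ih (sp7_exp_down hE) (h.step (hE l (by omega)).1 (hE l (by omega)).2 _)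

theorem spR_zero (hm : Exponents k m) (h0 : r 0 = 0) : spR k m r 0 = 0 :=
  spc_Rc_zero m h0 k (sp7_exp_of hm) ec_logcosh

/-- The derivative of the spin part in the direction of the levels `≥ l`. -/
theorem spin_deriv_tail (hm : Exponents k m) (h0 : r 0 = 0) (hr : ∀ l < k, r l < r (l + 1))
    {l : ℕ} (hl : 1 ≤ l) (hlk : l ≤ k) :
    HasDerivAt (fun v => spinPart k m (fun i => r i + if l ≤ i then v else 0))
      (-(1 / 2) * ∑ i ∈ Finset.Ico l (k + 1), (m (i + 1) - m i) * spR k m r i) 0 := by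
  obtain ⟨l, rfl⟩ : ∃ l', l = l' + 1 := ⟨l - 1, by omega⟩
  set δ := (r (l + 1) - r l) / 2 with hδ
  have hδ0 : 0 < δ := by have := hr l (by omega); linarith
  set η : ℕ → ℝ := fun i => if l + 1 ≤ i then 1 else 0 with hη
  set ρ : ℕ → ℝ := fun i => r i - δ * η i with hρ
  have hη0 : η 0 = 0 := by simp [hη]
  have hs : ∀ s ∈ Set.Ioo 0 (2 * δ), ∀ i < k, ρ i + s * η i < ρ (i + 1) + s * η (i + 1) := by
    intro s hs i hi
    simp only [hρ]
    rcases lt_trichotomy i l with h | h | h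
    · have e1 : η i = 0 := by simp only [hη]; rw [if_neg (by omega)]
      have e2 : η (i + 1) = 0 := by simp only [hη]; rw [if_neg (by omega)]
      rw [e1, e2]
      have := hr i hi
      linarith
    · subst h
      have e1 : η i = 0 := by simp only [hη]; rw [if_neg (by omega)]
      have e2 : η (i + 1) = 1 := by simp only [hη]; rw [if_pos (by omega)]
      rw [e1, e2]
      have := hs.1
      linarith
    · have e1 : η i = 1 := by simp only [hη]; rw [if_pos (by omega)]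
      have e2 : η (i + 1) = 1 := by simp only [hη]; rw [if_pos (by omega)]
      rw [e1, e2]
      have := hr i hi
      linarith
  obtain ⟨-, hd, -⟩ := spin_deriv0 (r := ρ) (η := η) hm (show 0 < 2 * δ by linarith)
    ⟨by simp only [hρ]; rw [h0, hη0]; ring, hη0⟩ hs
  have h1 := hd δ ⟨hδ0, by linarith⟩
  have e1 : (fun i => ρ i + δ * η i) = r := by
    funext i
    simp only [hρ]
    ring
  rw [e1] at h1
  have h2 : HasDerivAt (fun v : ℝ => v + δ) 1 0 := (hasDerivAt_id (0 : ℝ)).add_const δ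
  have h1' : HasDerivAt (fun s => spinPart k m (fun l => ρ l + s * η l))
      (-(1 / 2) * ∑ l ∈ Finset.range (k + 1), (m (l + 1) - m l) * η l * spR k m r l)
      (0 + δ) := by rw [zero_add]; exact h1
  have h3 := h1'.comp (0 : ℝ) h2
  rw [mul_one] at h3
  have e2 : (fun v => spinPart k m (fun i => r i + if l + 1 ≤ i then v else 0)) =
      (fun s => spinPart k m (fun l => ρ l + s * η l)) ∘ fun v => v + δ := by
    funext v
    simp only [Function.comp_apply]
    congr 1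
    funext i
    simp only [hρ, hη]
    split_ifs <;> ring
  rw [e2]
  refine h3.congr_deriv ?_
  congr 1
  rw [Finset.range_eq_Ico, ← Finset.sum_Ico_consecutive _ (Nat.zero_le (l + 1)) (by omega)]
  have e3 : ∑ i ∈ Finset.Ico 0 (l + 1), (m (i + 1) - m i) * η i * spR k m r i = 0 := by
    refine Finset.sum_eq_zero fun i hi => ?_
    have := (Finset.mem_Ico.1 hi).2
    have e : η i = 0 := by simp only [hη]; rw [if_neg (by omega)]
    rw [e]
    ring
  rw [e3, zero_add]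
  refine Finset.sum_congr rfl fun i hi => ?_
  have := (Finset.mem_Ico.1 hi).1
  have e : η i = 1 := by simp only [hη]; rw [if_pos (by omega)]
  rw [e]
  ring

/-- The derivative in the strength `σ` of a field of the level `l`. -/
theorem spin_deriv_strength (hm : Exponents k m) (h0 : r 0 = 0) (hr : ∀ l < k, r l < r (l + 1))
    {l : ℕ} (hl : 1 ≤ l) (hlk : l ≤ k) (σ : ℝ) :
    HasDerivAt (fun t => spinPart k m (fun i => r i + if l ≤ i then t ^ 2 - σ ^ 2 else 0) +
      t ^ 2 / 2) (σ * (1 - ∑ i ∈ Finset.Ico l (k + 1), (m (i + 1) - m i) * spR k m r i)) σ := by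
  have h1 := spin_deriv_tail hm h0 hr hl hlk
  have h2 : HasDerivAt (fun t : ℝ => t ^ 2 - σ ^ 2) (2 * σ) σ := by
    have := (hasDerivAt_pow 2 σ).sub_const (σ ^ 2)
    simpa using this
  have h1' : HasDerivAt (fun v => spinPart k m (fun i => r i + if l ≤ i then v else 0))
      (-(1 / 2) * ∑ i ∈ Finset.Ico l (k + 1), (m (i + 1) - m i) * spR k m r i)
      (σ ^ 2 - σ ^ 2) := by rw [sub_self]; exact h1
  have h3 := h1'.comp σ h2
  have h4 : HasDerivAt (fun t : ℝ => t ^ 2 / 2) σ σ := by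
    have := (hasDerivAt_pow 2 σ).div_const 2
    refine this.congr_deriv ?_
    push_cast
    ring
  refine (h3.add h4).congr_deriv ?_
  ring

end cl

end Vale.Agent.P166.F
end
end

section

section

/-!
The upper bound for the laws with finite support.
-/

open MeasureTheory ProbabilityTheory Matrix Filter Topology

namespace Vale.Agent.P166.U

open Vale.Agent.P157.Lv Vale.Agent.P157.Par Md
open Vale.Agent.P166.F (frac trf eq' UBf mp)

/-- A positive lower bound of finitely many positive numbers. -/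
theorem exists_pos_le (s : Finset ℕ) {f : ℕ → ℝ} (hf : ∀ i ∈ s, 0 < f i) :
    ∃ d : ℝ, 0 < d ∧ ∀ i ∈ s, d ≤ f i := by
  rcases s.eq_empty_or_nonempty with rfl | hs
  · exact ⟨1, one_pos, by simp⟩
  · obtain ⟨i0, hi0, h⟩ := s.exists_min_image f hs
    exact ⟨f i0, hf i0 hi0, h⟩

/-- A positive lower bound of finitely many positive numbers. -/
theorem exists_pos_le' {ι : Type*} [Finite ι] {f : ι → ℝ} (hf : ∀ i, 0 < f i) :
    ∃ d : ℝ, 0 < d ∧ ∀ i, d ≤ f i := by
  rcases isEmpty_or_nonempty ι with h | h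
  · exact ⟨1, one_pos, fun i => isEmptyElim i⟩
  · obtain ⟨i0, h⟩ := Finite.exists_min f
    exact ⟨f i0, hf i0, h⟩

/-- The spin optimization for the refined path. -/
theorem spinLe_rf {β : ℝ} {μ : Measure ℝ} {k nn : ℕ} {m q : ℕ → ℝ} (hnn : 0 < nn)
    (hm : Exponents k m) {y : ℝ}
    (hy : ∀ r, P157.Par.Path k r → Jf β μ k m q r ≤ y) :
    SpinLe (rfk nn k) (rfm nn m) (rfp nn q) (y - specPart β μ k m q) := by
  intro r hr
  have h1 := F.Jf_bav (q := q) β μ hnn hm hr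
  have h2 := hy _ (bav_path hnn hr)
  have h3 : Jf β μ (rfk nn k) (rfm nn m) (rfp nn q) r = specPart β μ k m q +
      spinPart (rfk nn k) (rfm nn m) r + 1 / 2 * ∑ l ∈ Finset.range (rfk nn k + 1),
        (rfm nn m (l + 1) - rfm nn m l) * r l * rfp nn q l := by
    unfold Jf
    rw [F.specPart_rf β μ hnn hm]
  linarith only [h1, h2, h3]

/-- The chain of the optimal values. -/
theorem chain_le {N K n : ℕ} {m q : ℕ → ℝ} (hm : Exponents K m) (hN : 0 < N)
    {c : Fin N → Fin (n + 1)} {a : Fin (n + 1) → ℝ}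
    [MeasurableSpace (orthogonalGroup (Fin N) ℝ)] [BorelSpace (orthogonalGroup (Fin N) ℝ)]
    {ν : Measure (orthogonalGroup (Fin N) ℝ)} [IsProbabilityMeasure ν]
    {kap η ep u0 β : ℝ} {nt : ℕ} {P : ℕ → Pm (n + 1)}
    (hP : ∀ i ≤ nt, IsOpt ν K m q c kap η ep u0 (fun k => β * i / nt * a k) (P i)) {g : ℕ → ℝ}
    (hg : ∀ i < nt, ∑ k, a k * rho ν K m c (P (i + 1)) k ≤ g i) (hβ : 0 ≤ β) :
    ∀ j ≤ nt, Fe ν K m c (P j) - Pen K m q kap η ep u0 (fun k => β * j / nt * a k) (P j) ≤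
      Fe ν K m c (P 0) - Pen K m q kap η ep u0 (fun k => β * (0 : ℕ) / nt * a k) (P 0) +
        ∑ i ∈ Finset.range j, β / nt * (1 / 2 * g i) := by
  intro j
  induction j with
  | zero => intro _; simp only [CharP.cast_eq_zero, mul_zero, zero_div, zero_mul, Finset.range_zero, one_div, Finset.sum_empty, add_zero, Std.le_refl]
  | succ j ih =>
    intro hj
    have h1 := ih (by omega)
    have h2 := opt_step hm hN (hP j (by omega)) (hP (j + 1) hj)
    rw [Finset.sum_range_succ]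
    have h3 : ∑ k, (β * ((j + 1 : ℕ) : ℝ) / nt * a k - β * j / nt * a k) / 2 *
        rho ν K m c (P (j + 1)) k = β / nt * (1 / 2 * ∑ k, a k * rho ν K m c (P (j + 1)) k) := by
      rw [Finset.mul_sum, Finset.mul_sum]
      refine Finset.sum_congr rfl fun k _ => ?_
      push_cast
      ring
    rw [h3] at h2
    have h4 : β / nt * (1 / 2 * ∑ k, a k * rho ν K m c (P (j + 1)) k) ≤
        β / nt * (1 / 2 * g j) := by
      have := hg j (by omega)
      (clear * - this hβ; gcongr)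
    linarith only [h1, h2, h4]

/-- The value at the coupling zero. -/
theorem up_v0 {N K n : ℕ} {m q : ℕ → ℝ} (hm : Exponents K m) (hN : 0 < N)
    {c : Fin N → Fin (n + 1)} {b0 : Fin (n + 1) → ℝ} (hb0 : ∀ k, b0 k = 0)
    [MeasurableSpace (orthogonalGroup (Fin N) ℝ)] [BorelSpace (orthogonalGroup (Fin N) ℝ)]
    {ν : Measure (orthogonalGroup (Fin N) ℝ)} [IsProbabilityMeasure ν]
    {kap η ep dl ε C : ℝ} {P : Pm (n + 1)} (hP : Adm K P) (hC : SpinLe K m q C)
    (hkap : 0 < kap) (hη : 0 < η) (hep : 0 < ep) (hepb : ep ≤ 1 / 4) (hdl : 0 < dl)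
    (hdl1 : dl ≤ 1) (hdlc : dl ≤ ε / (8 * (n + 1) * (K + 1))) (hepc : ep ≤ ε / (16 * (n + 1))) :
    Fe ν K m c P - Pen K m q kap η ep (dl / 2) b0 P ≤ C + ε / 8 := by
  have hobj := obj_le (ν := ν) (c := c) (kap := kap) (η := η) (u0 := dl / 2)
    (b0 := b0) hm hN hC hep hepb hP
  have hK0 : (0 : ℝ) ≤ K := Nat.cast_nonneg K
  have hn0 : (0 : ℝ) ≤ n := Nat.cast_nonneg n
  have h1 : 1 / 2 * ∑ k', |b0 k'| = 0 := by simp [hb0]
  have h2 : 0 ≤ ∑ j ∈ Finset.Ico 1 (K + 1), (kap / 2 * P.s j ^ 2 + η / P.s j) := by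
    refine Finset.sum_nonneg fun j hj => ?_
    have hj' := Finset.mem_Ico.1 hj
    have := hP.pos j hj'.1 (by omega)
    (clear * - hkap this hη; positivity)
  have h3 : 0 ≤ 1 / (2 * ep) * (∑ k', (P.b k' - b0 k') ^ 2 +
      ∑ k', ∑ j ∈ Finset.Ico 1 (K + 1), (P.u k' j - dl / 2) ^ 2) := by
    refine mul_nonneg (by positivity) (add_nonneg (Finset.sum_nonneg fun _ _ => sq_nonneg _)
      (Finset.sum_nonneg fun _ _ => Finset.sum_nonneg fun _ _ => sq_nonneg _))
  have h4 : 2 * ((n + 1 : ℕ) : ℝ) * K * (dl / 2) ^ 2 ≤ ε / 16 := by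
    rw [le_div_iff₀ (by (clear * -; positivity))] at hdlc
    push_cast
    have h5 : dl ^ 2 ≤ dl := by nlinarith only [hdl, hdl1]
    have h6 : ((n : ℝ) + 1) * K * dl ^ 2 ≤ ((n : ℝ) + 1) * K * dl :=
      mul_le_mul_of_nonneg_left h5 (by (clear * -; positivity))
    have h7 : 0 ≤ ((n : ℝ) + 1) * dl := by (clear * - hdl; positivity)
    have e1 : dl * (8 * (n + 1) * (K + 1)) = 8 * (((n : ℝ) + 1) * K * dl) + 8 * (((n : ℝ) + 1) * dl) := by
      ring
    have e2 : 2 * ((n : ℝ) + 1) * K * (dl / 2) ^ 2 = 1 / 2 * (((n : ℝ) + 1) * K * dl ^ 2) := by ring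
    rw [e1] at hdlc
    rw [e2]
    linarith only [hdlc, h6, h7]
  have h5 : ((n + 1 : ℕ) : ℝ) * ep ≤ ε / 16 := by
    rw [le_div_iff₀ (by (clear * -; positivity))] at hepc
    push_cast
    linarith only [hepc]
  linarith only [hobj, h1, h2, h3, h4, h5]

/-- The cost of the reference parameters. -/
theorem up_cost {K : ℕ} {σ η ε : ℝ} (hσ : 0 < σ) (hσ1 : σ ≤ 1) (hσ2 : σ ≤ ε / (16 * (K + 1)))
    (hη : 0 < η) (hη2 : η ≤ σ * ε / (16 * (K + 1))) : (K : ℝ) * (σ ^ 2 + η / σ) ≤ ε / 8 := by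
  have hK0 : (0 : ℝ) ≤ K := Nat.cast_nonneg K
  have h4 : (K : ℝ) * σ ^ 2 ≤ ε / 16 := by
    rw [le_div_iff₀ (by positivity)] at hσ2
    have h5 : σ ^ 2 ≤ σ := by nlinarith only [hσ, hσ1]
    have h6 : (K : ℝ) * σ ^ 2 ≤ K * σ := mul_le_mul_of_nonneg_left h5 hK0
    linarith
  have h5 : (K : ℝ) * (η / σ) ≤ ε / 16 := by
    have h6 : η / σ ≤ ε / (16 * (K + 1)) := by
      rw [div_le_iff₀ hσ]
      calc η ≤ σ * ε / (16 * (K + 1)) := hη2
        _ = ε / (16 * (K + 1)) * σ := by ring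
    rw [le_div_iff₀ (by positivity)] at h6
    have h7 : 0 ≤ η / σ := by positivity
    linarith
  rw [mul_add]
  linarith

section Main

variable [∀ N, MeasurableSpace (orthogonalGroup (Fin N) ℝ)]
  [∀ N, BorelSpace (orthogonalGroup (Fin N) ℝ)]
  (ν : (N : ℕ) → Measure (orthogonalGroup (Fin N) ℝ)) [∀ N, IsProbabilityMeasure (ν N)]
  [∀ N, (ν N).IsMulLeftInvariant]

/-- **The upper bound for the laws with finite support.** -/
theorem upper_UBf {β : ℝ} (hβ : 0 < β)
    (hloop : ∀ κ : ℕ, ∀ B, 0 ≤ B → ∃ C, 0 ≤ C ∧ LoopBound κ B C)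
    (hvar : ∀ κ : ℕ, ∀ B, 0 ≤ B → ∃ C, 0 ≤ C ∧ VarBound κ B C) : UBf ν β := by
  intro n a α ha hα hα1 c hc y hy ε hε
  obtain ⟨k, m0, q0, hm0, hq0, hq00, hq01, hlub⟩ := hy
  set μ := atoms a α with hμ
  have hJ : ∀ r, P157.Par.Path k r → Jf β μ k m0 q0 r ≤ y := fun r hr =>
    hlub.1 ⟨r, hr, rfl⟩
  -- the time grid
  obtain ⟨CR, hCR, hRie⟩ := F.energy_sum (a := a) hα hα1 hβ
  obtain ⟨nt, hnt⟩ := exists_nat_gt (8 * CR / ε)
  have hnt' : 0 < nt + 1 := Nat.succ_pos nt
  set T := nt + 1 with hT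
  have hTpos : (0 : ℝ) < T := by exact_mod_cast hnt'
  have hCT : CR / T ≤ ε / 8 := by
    rw [div_le_iff₀ hTpos]
    have h1 : (nt : ℝ) ≤ T := by rw [hT]; push_cast; linarith only []
    have h2 : 8 * CR / ε < T := lt_of_lt_of_le hnt h1
    rw [div_lt_iff₀ hε] at h2
    linarith only [h2]
  have hθ : ∀ i : ℕ, 0 < β * ((i : ℝ) + 1) / T := fun i => by (clear * - hβ; positivity)
  have hegy := fun i : ℕ => egy_at_opt a α hα hα1 (hθ i) (hloop (n + 1)) (hvar (n + 1))
    (ε := ε / (4 * β)) (by positivity)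
  choose δ₀ hδ₀ hegy using hegy
  obtain ⟨δ, hδ, hδle⟩ := exists_pos_le (Finset.range T) (f := δ₀) fun i _ => hδ₀ i
  -- the mesh
  obtain ⟨nn, hnn⟩ := exists_nat_gt (1 / δ)
  have hnnpos : 0 < nn := by
    have : (0 : ℝ) < nn := lt_trans (by (clear * - hδ; positivity)) hnn
    exact_mod_cast this
  have hmesh : 1 / (nn : ℝ) ≤ δ := by
    have h0 : (0 : ℝ) < nn := by exact_mod_cast hnnpos
    rw [div_lt_iff₀ hδ] at hnn
    rw [div_le_iff₀ h0]
    linarith only [hnn]
  set K := rfk nn k with hK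
  set m := rfm nn m0 with hmdef
  set q := rfp nn q0 with hqdef
  have hm : Exponents K m := rfm_exponents hnnpos hm0
  have hq : P157.Par.Path K q := rfp_path hnnpos hq0
  have hqz : q 0 = 0 := by
    simp only [hqdef, rfp, Nat.zero_div, hq00]
  have hqK : q K < 1 := by
    rw [hqdef, hK, rfp_last hnnpos]; exact hq01
  have hpl : ∀ l ≤ K, m (l + 1) - m l ≤ δ := fun l hl =>
    (rfm_mesh hnnpos hm0 hl).trans hmesh
  have hSP : SpinLe K m q (y - specPart β μ k m0 q0) := spinLe_rf hnnpos hm0 hJ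
  have hspec : specPart β μ K m q = specPart β μ k m0 q0 := F.specPart_rf β μ hnnpos hm0
  have hegy1 := fun i : Finset.range T => hegy i K m q hm hq hqz hqK.le
    (fun l hl => (hpl l hl).trans (hδle i i.2))
  choose kap₀ hkap₀ hegy1 using hegy1
  obtain ⟨kap1, hkap1, hkle⟩ := exists_pos_le' hkap₀
  obtain ⟨kap, hkap, hkapa, hkapb⟩ : ∃ kap : ℝ, 0 < kap ∧ kap ≤ kap1 ∧ kap ≤ 1 :=
    ⟨min kap1 1, lt_min hkap1 one_pos, min_le_left _ _, min_le_right _ _⟩
  have hegy2 := fun i : Finset.range T => hegy1 i kap hkap (hkapa.trans (hkle i))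
  choose d₀ hd₀ hegy2 using hegy2
  obtain ⟨d1, hd1, hdle⟩ := exists_pos_le' hd₀
  obtain ⟨dl, hdl, hdla, hdlb, hdlc⟩ : ∃ dl : ℝ, 0 < dl ∧ dl ≤ d1 ∧ dl ≤ 1 ∧
      dl ≤ ε / (8 * (n + 1) * (K + 1)) :=
    ⟨min d1 (min 1 (ε / (8 * (n + 1) * (K + 1)))),
      lt_min hd1 (lt_min one_pos (by (clear * - hε; positivity))), min_le_left _ _,
      (min_le_right _ _).trans (min_le_left _ _), (min_le_right _ _).trans (min_le_right _ _)⟩
  have hegy3 := fun i : Finset.range T => hegy2 i dl hdl (hdla.trans (hdle i)) _ hSP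
  choose e₀ he₀ hegy3 using hegy3
  obtain ⟨e1, he1, hele⟩ := exists_pos_le' he₀
  obtain ⟨ep, hep, hepa, hepb, hepc⟩ : ∃ ep : ℝ, 0 < ep ∧ ep ≤ e1 ∧ ep ≤ 1 / 4 ∧
      ep ≤ ε / (16 * (n + 1)) :=
    ⟨min e1 (min (1 / 4) (ε / (16 * (n + 1)))),
      lt_min he1 (lt_min (by norm_num) (by (clear * - hε; positivity))), min_le_left _ _,
      (min_le_right _ _).trans (min_le_left _ _), (min_le_right _ _).trans (min_le_right _ _)⟩
  obtain ⟨σ, hσ, hσ1, hσ2⟩ : ∃ σ : ℝ, 0 < σ ∧ σ ≤ 1 ∧ σ ≤ ε / (16 * (K + 1)) :=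
    ⟨min 1 (ε / (16 * (K + 1))), lt_min one_pos (by (clear * - hε; positivity)), min_le_left _ _,
      min_le_right _ _⟩
  obtain ⟨η, hη, hη1, hη2⟩ : ∃ η : ℝ, 0 < η ∧ η ≤ 1 ∧ η ≤ σ * ε / (16 * (K + 1)) :=
    ⟨min 1 (σ * ε / (16 * (K + 1))), lt_min one_pos (by (clear * - hσ hε; positivity)), min_le_left _ _,
      min_le_right _ _⟩
  have hegy4 := fun i : Finset.range T => hegy3 i ep hep (hepa.trans (hele i)) η hη hη1
  choose N₀ hN₀ using hegy4
  obtain ⟨N1, hN1⟩ : ∃ N1 : ℕ, ∀ i, N₀ i ≤ N1 :=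
    ⟨Finset.univ.sup N₀, fun i => Finset.le_sup (Finset.mem_univ i)⟩
  have hfr : ∀ᶠ N in atTop, ∀ k', |frac (c N) k' - α k'| ≤ dl := by
    rw [Filter.eventually_all]
    intro k'
    have h1 := Metric.tendsto_atTop.1 (hc k') dl hdl
    obtain ⟨N2, hN2⟩ := h1
    filter_upwards [eventually_ge_atTop N2] with N hN
    have h2 := hN2 N hN
    rw [Real.dist_eq] at h2
    exact h2.le
  filter_upwards [hfr, eventually_ge_atTop N1, eventually_gt_atTop 0] with N hfrN hNN hN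
  -- the optimal parameters
  have hopt : ∀ i : ℕ, ∃ P, IsOpt (ν N) K m q (c N) kap η ep (dl / 2)
      (fun k => β * i / T * a k) P := fun i =>
    exists_opt hm hN hSP hkap hη hep hepb
  choose P hP using hopt
  set g : ℕ → ℝ := fun i => trf K m (fun x => x * Rt (atoms a α) (β * ((i : ℝ) + 1) / T * x))
    (eq' K m q) + ε / (4 * β) with hg
  have hgle : ∀ i < T, ∑ k, a k * rho (ν N) K m (c N) (P (i + 1)) k ≤ g i := by
    intro i hi
    have h1 : (fun k => β * ((i + 1 : ℕ) : ℝ) / T * a k) =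
        fun k => β * ((i : ℝ) + 1) / T * a k := by
      funext k'; push_cast; ring
    have h2 := hP (i + 1)
    rw [h1] at h2
    exact hN₀ ⟨i, Finset.mem_range.2 hi⟩ N ((hN1 _).trans hNN) (ν N) (c N) (P (i + 1)) hfrN h2
  have hchain := chain_le hm hN (fun i _ => hP i) hgle hβ.le T le_rfl
  have hsum : ∑ i ∈ Finset.range T, β / T * (1 / 2 * g i) ≤
      specPart β μ K m q + ε / 8 + ε / 8 := by
    have h1 := hRie K m q (expo_of hm) ⟨hqz ▸ le_rfl, hq.2, hqK.le⟩ hqz hqK T hnt'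
    have h2 : ∑ i ∈ Finset.range T, β / T * (1 / 2 * g i) =
        ∑ i ∈ Finset.range T, β / T * (1 / 2 * trf K m
          (fun x => x * Rt (atoms a α) (β * ((i : ℝ) + 1) / T * x)) (eq' K m q)) +
        ∑ _i ∈ Finset.range T, β / T * (1 / 2 * (ε / (4 * β))) := by
      rw [← Finset.sum_add_distrib]
      refine Finset.sum_congr rfl fun i _ => ?_
      simp only [hg]
      ring
    have h3 : ∑ _i ∈ Finset.range T, β / T * (1 / 2 * (ε / (4 * β))) = ε / 8 := by
      rw [Finset.sum_const, Finset.card_range, nsmul_eq_mul]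
      field_simp
      ring
    rw [h2, h3]
    linarith only [hCT, h1]
  have hadm0 := (hP 0).adm
  have hge := (hP T).ge hm hq hqK.le hN hkap hkapb hη hσ
  have hv0 := up_v0 (ν := ν N) (c := c N) (b0 := fun k => β * (0 : ℕ) / T * a k) (kap := kap)
    (η := η) hm hN (fun k' => by simp) hadm0 hSP hkap hη hep hepb hdl hdlb hdlc hepc
  have h1 : (fun k' => β * ((T : ℕ) : ℝ) / T * a k') = fun k' => β * a k' := by
    funext k'
    (clear * - hnt' hβ; field_simp)
  have h2 := Fe_zero (ν := ν N) (c := c N) hm hN β a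
  have h3 := up_cost hσ hσ1 hσ2 hη hη2
  rw [h1] at hge hchain
  rw [h2] at hge
  unfold F.mp
  rw [hspec] at hsum
  linarith only [hε, hchain, hsum, hge, hv0, h3]

end Main

end Vale.Agent.P166.U
end
end

section

section

/-!
The variance bound of the enriched model.
-/

open MeasureTheory ProbabilityTheory Filter Topology Matrix
open Vale.Agent.P157.Lv Vale.Agent.P157.Lv.Sy
open Vale.Agent.P157 (spin)

namespace Vale.Agent.P166.H

open Vale.Agent Md
open Vale.Agent.P166.Conc (OG)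

lemma spin_cube {N : ℕ} (x : Fin N → Bool) : spin x ∈ Conc.cube N := by
  rw [Conc.mem_cube]
  intro i
  unfold spin
  split_ifs
  · right; rfl
  · left; rfl

/-- **The variance bound of the enriched model.** -/
theorem var_bound (κ : ℕ) (B : ℝ) (_hB : 0 ≤ B) : ∃ C, 0 ≤ C ∧ U.VarBound κ B C := by
  set b := max B 1 with hb
  have hb1 : 1 ≤ b := le_max_right _ _
  have hbB : B ≤ b := le_max_left _ _
  have hb0 : 0 ≤ b := zero_le_one.trans hb1
  refine ⟨177 * b, by positivity, ?_⟩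
  intro N K m c P _ _ ν _ _ hN hm _ _ hPb _ hPu
  have : ν.IsMulRightInvariant := Conc.haar_right_inv ν
  have hA := mG_ok hm c P
  have hBd : (mG K m c P).Bd b := by
    refine ⟨hb1, fun i => (hPb (c i)).trans hbB, fun i => (hPu (c i)).trans hbB, fun x => ?_⟩
    show ∑ i : Fin N, (0 : ℝ) ^ 2 ≤ b * N
    simp
    positivity
  have hv := hA.var_fe ν hBd hN spin_cube
  have e : ∀ U : OG N, (mG K m c P).fu U = (mdl K m c P U.1).fe := fun U => by
    unfold GS.fu
    rw [mG_sy]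
  simp only [e] at hv
  obtain ⟨B', hB'⟩ := hA.BM_fe hBd
  have hf : ∀ U : OG N, ((mG K m c P).sy U.1).fe = (mdl K m c P U.1).fe := fun U => by
    rw [mG_sy]
  simp only [hf] at hB'
  set f : OG N → ℝ := fun U => (mdl K m c P U.1).fe with hfd
  set μ := ∫ V, f V ∂ν with hμ
  have hi1 : MeasureTheory.Integrable (fun U => |f U - μ|) ν :=
    Conc.intg' ν ((hB'.meas.sub_const μ).abs) (B' + |μ|) fun U => by
      rw [abs_abs]
      exact (abs_sub _ _).trans (add_le_add (hB'.bd U) le_rfl)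
  have hi2 : MeasureTheory.Integrable (fun U => |f U - μ| ^ 2) ν :=
    Conc.intg' ν (((hB'.meas.sub_const μ).abs).pow_const 2) ((B' + |μ|) ^ 2) fun U => by
      rw [abs_of_nonneg (sq_nonneg _)]
      exact pow_le_pow_left₀ (abs_nonneg _)
        ((abs_sub _ _).trans (add_le_add (hB'.bd U) le_rfl)) 2
  have h1 := Conc.sq_integral_le ν hi1 hi2
  simp only [sq_abs] at h1
  have h2 : (∫ U, |f U - μ| ∂ν) ^ 2 ≤ (177 * b * √N) ^ 2 := by
    refine h1.trans (hv.trans ?_)
    rw [mul_pow, mul_pow, Real.sq_sqrt (Nat.cast_nonneg N)]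
    have : 0 ≤ b ^ 2 * (N : ℝ) := by positivity
    nlinarith
  exact abs_le_of_sq_le_sq' h2 (by positivity) |>.2

end Vale.Agent.P166.H
end
end

section

section

/-!
The upper bound for the laws with finite support, without hypotheses.
-/

open MeasureTheory ProbabilityTheory Filter Topology Matrix

namespace Vale.Agent.P166.H

open Vale.Agent.P166.U

/-- **The upper bound for the laws with finite support.** -/
theorem upper_fin
    [∀ N, MeasurableSpace (orthogonalGroup (Fin N) ℝ)] [∀ N, BorelSpace (orthogonalGroup (Fin N) ℝ)]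
    (ν : ∀ N, Measure (orthogonalGroup (Fin N) ℝ)) [∀ N, IsProbabilityMeasure (ν N)]
    [∀ N, (ν N).IsMulLeftInvariant] {β : ℝ} (hβ : 0 < β) : F.UBf ν β :=
  upper_UBf ν hβ (fun κ B hB => loop_bound κ B hB) fun κ B hB => var_bound κ B hB

end Vale.Agent.P166.H
end
end

section

section

/-! The tangent inequality for the one-spin value as a function of the strengths of the fields. -/

open MeasureTheory ProbabilityTheory Matrix Filter Topology

namespace Vale.Agent.P166.F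

open Vale.Agent.P157 (spin)
open Vale.Agent.P157.Lv Vale.Agent.P157.Par Md

/-- The free energy of the model without couplings. -/
theorem sg_fe {N K κ : ℕ} {m : ℕ → ℝ} {c : Fin N → Fin κ} (hm : Exponents K m) {s : ℕ → ℝ}
    (hs : ∀ l ≤ K, 0 ≤ s l) (A : Matrix (Fin N) (Fin N) ℝ) :
    (mdl K m c ⟨0, s, 0⟩ A).fe =
      N * (spinPart K m (fun l => ∑ j ∈ Finset.range (l + 1), s j ^ 2) +
        (∑ j ∈ Finset.range (K + 1), s j ^ 2) / 2) + N * Real.log 2 := by
  obtain ⟨hR, h1⟩ := U.m3_fe_shift (U.mdl_regD (K := K) (m := m) (c := c) (P := ⟨0, s, 0⟩)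
    (U := A) hm) (-(N * Real.log 2))
  have h2 := fe_field (N := N) (φ := spin) (u := fun _ => -(N * Real.log 2)) (zc := sco)
    (s := s) hR ?_ ?_ hs ?_
  · have h3 := topN_spin (r := fun l => ∑ j ∈ Finset.range (l + 1), s j ^ 2) hm N
    have h4 : (mdl K m c ⟨0, s, 0⟩ A).fe = topN m (fun l => ∑ j ∈ Finset.range (l + 1), s j ^ 2)
        K (lw (X := Fin N → Bool) spin 1 (fun _ => -(N * Real.log 2))) + N * Real.log 2 := by
      have h5 : topN m (fun l => ∑ j ∈ Finset.range (l + 1), s j ^ 2)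
        K (lw (X := Fin N → Bool) spin 1 (fun _ => -(N * Real.log 2))) =
        (mdl K m c ⟨0, s, 0⟩ A).fe + -(N * Real.log 2) := h2.symm.trans h1
      rw [h5]
      ring
    rw [h4, h3]
  · intro l hl i
    have : l < K + 1 := Nat.lt_succ_of_le hl
    change ((Fin.ofNat (K + 1) l : Fin (K + 1)) : ℕ) = l
    simp [Fin.ofNat, Nat.mod_eq_of_lt this]
  · intro l _ i j hij
    have := congrArg (fun e : Ix N K => e.2.2) hij
    exact this
  · intro z x
    change Md.en c ⟨0, s, 0⟩ A z x + -(N * Real.log 2) = _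
    unfold Md.en
    simp only [Pi.zero_apply, zero_div, zero_mul, Finset.sum_const_zero, zero_add, add_zero]
    rw [add_comm]
    rfl

/-- The slope in the strength `l`. -/
noncomputable def sgE (K : ℕ) (m s : ℕ → ℝ) (l : ℕ) : ℝ :=
  (mdl K m (fun _ : Fin 1 => (0 : Fin 1)) ⟨0, s, 0⟩ 1).Ex (fun z x => ∑ i, z (sco l i) * spin x i)

/-- The one-spin free energy. -/
noncomputable def sgF (K : ℕ) (m s : ℕ → ℝ) : ℝ :=
  (mdl K m (fun _ : Fin 1 => (0 : Fin 1)) ⟨0, s, 0⟩ 1).fe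

theorem sg_support {K : ℕ} {m s : ℕ → ℝ} (hm : Exponents K m) {l : ℕ} (hl : l ≤ K) (τ : ℝ) :
    sgF K m s + (τ - s l) * sgE K m s l ≤ sgF K m (Function.update s l τ) := by
  have hR := (U.mdl_regD (K := K) (m := m) (c := fun _ : Fin 1 => (0 : Fin 1)) (P := ⟨0, s, 0⟩)
    (U := 1) hm).toReg
  have hR' := (U.mdl_regD (K := K) (m := m) (c := fun _ : Fin 1 => (0 : Fin 1))
    (P := ⟨0, Function.update s l τ, 0⟩) (U := 1) hm).toReg
  have h1 := hR.jensen (H' := (mdl K m (fun _ : Fin 1 => (0 : Fin 1))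
    ⟨0, Function.update s l τ, 0⟩ 1).H) hR'
  have e1 : (fun (z : Ix 1 K → ℝ) (x : Fin 1 → Bool) => (mdl K m (fun _ : Fin 1 => (0 : Fin 1))
      ⟨0, Function.update s l τ, 0⟩ 1).H z x - (mdl K m (fun _ : Fin 1 => (0 : Fin 1))
      ⟨0, s, 0⟩ 1).H z x) = fun z x => (τ - s l) * ∑ i, z (sco l i) * spin x i := by
    funext z x
    change Md.en _ _ _ z x - Md.en _ _ _ z x = _
    unfold Md.en
    have e2 : ∑ j ∈ Finset.range (K + 1), Function.update s l τ j *
        ∑ i, z (sco j i) * spin x i = ∑ j ∈ Finset.range (K + 1), s j *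
        ∑ i, z (sco j i) * spin x i + (τ - s l) * ∑ i, z (sco l i) * spin x i := by
      have hl' : l ∈ Finset.range (K + 1) := Finset.mem_range.2 (Nat.lt_succ_of_le hl)
      rw [← Finset.add_sum_erase _ _ hl', ← Finset.add_sum_erase (Finset.range (K + 1))
        (fun j => s j * ∑ i, z (sco j i) * spin x i) hl', Function.update_self]
      have e3 : ∑ j ∈ (Finset.range (K + 1)).erase l, Function.update s l τ j *
          ∑ i, z (sco j i) * spin x i = ∑ j ∈ (Finset.range (K + 1)).erase l, s j *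
          ∑ i, z (sco j i) * spin x i := by
        refine Finset.sum_congr rfl fun j hj => ?_
        rw [Function.update_of_ne (Finset.ne_of_mem_erase hj)]
      rw [e3]
      ring
    rw [e2]
    ring
  rw [e1, Sy.Ex_const_mul] at h1
  have e4 : (Sy.wH (mdl K m (fun _ : Fin 1 => (0 : Fin 1)) ⟨0, s, 0⟩ 1)
      (mdl K m (fun _ : Fin 1 => (0 : Fin 1)) ⟨0, Function.update s l τ, 0⟩ 1).H).fe =
      sgF K m (Function.update s l τ) := rfl
  rw [e4] at h1
  have e5 : sgE K m s l = (mdl K m (fun _ : Fin 1 => (0 : Fin 1)) ⟨0, s, 0⟩ 1).Ex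
    (fun z x => ∑ i, z (sco l i) * spin x i) := rfl
  have e6 : sgF K m s = (mdl K m (fun _ : Fin 1 => (0 : Fin 1)) ⟨0, s, 0⟩ 1).fe := rfl
  rw [e5, e6]
  linarith only [h1]

/-- Cumulative sums of squares. -/
theorem sg_cum_update {s : ℕ → ℝ} {l : ℕ} (τ : ℝ) (i : ℕ) :
    ∑ j ∈ Finset.range (i + 1), Function.update s l τ j ^ 2 =
      ∑ j ∈ Finset.range (i + 1), s j ^ 2 + if l ≤ i then τ ^ 2 - s l ^ 2 else 0 := by
  by_cases h : l ≤ i
  · have hl' : l ∈ Finset.range (i + 1) := Finset.mem_range.2 (Nat.lt_succ_of_le h)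
    rw [if_pos h, ← Finset.add_sum_erase _ _ hl', ← Finset.add_sum_erase (Finset.range (i + 1))
      (fun j => s j ^ 2) hl', Function.update_self]
    have e3 : ∑ j ∈ (Finset.range (i + 1)).erase l, Function.update s l τ j ^ 2 =
        ∑ j ∈ (Finset.range (i + 1)).erase l, s j ^ 2 := by
      refine Finset.sum_congr rfl fun j hj => ?_
      rw [Function.update_of_ne (Finset.ne_of_mem_erase hj)]
    rw [e3]
    ring
  · rw [if_neg h, add_zero]
    refine Finset.sum_congr rfl fun j hj => ?_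
    rw [Function.update_of_ne]
    have := Finset.mem_range.1 hj
    omega

theorem sg_value {K : ℕ} {m s : ℕ → ℝ} (hm : Exponents K m) (hs : ∀ l ≤ K, 0 ≤ s l) :
    sgF K m s = spinPart K m (fun l => ∑ j ∈ Finset.range (l + 1), s j ^ 2) +
        (∑ j ∈ Finset.range (K + 1), s j ^ 2) / 2 + Real.log 2 := by
  unfold sgF
  rw [sg_fe hm hs]
  push_cast
  ring

/-- The slope is the derivative. -/
theorem sg_slope {K : ℕ} {m s : ℕ → ℝ} (hm : Exponents K m) (h0 : s 0 = 0)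
    (hs : ∀ i, 1 ≤ i → i ≤ K → 0 < s i) {l : ℕ} (hl : 1 ≤ l) (hlK : l ≤ K) :
    sgE K m s l = s l * (1 - ∑ i ∈ Finset.Ico l (K + 1), (m (i + 1) - m i) *
      spR K m (fun l => ∑ j ∈ Finset.range (l + 1), s j ^ 2) i) := by
  set R : ℕ → ℝ := fun l => ∑ j ∈ Finset.range (l + 1), s j ^ 2 with hR
  have hsn : ∀ i ≤ K, 0 ≤ s i := fun i hi => by
    rcases Nat.eq_zero_or_pos i with rfl | h
    · rw [h0]
    · exact (hs i h hi).le
  have hR0 : R 0 = 0 := by simp [hR, h0]
  have hRi : ∀ i < K, R i < R (i + 1) := by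
    intro i hi
    simp only [hR]
    rw [Finset.sum_range_succ _ (i + 1)]
    have := pow_pos (hs (i + 1) (by omega) (by omega)) 2
    linarith only [this]
  have hd := spin_deriv_strength hm hR0 hRi hl hlK (s l)
  -- the function of the strength
  have hval : ∀ τ, 0 ≤ τ → sgF K m (Function.update s l τ) =
      spinPart K m (fun i => R i + if l ≤ i then τ ^ 2 - s l ^ 2 else 0) + τ ^ 2 / 2 +
        ((R K - s l ^ 2) / 2 + Real.log 2) := by
    intro τ hτ
    rw [sg_value hm]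
    · have e1 : (fun i => ∑ j ∈ Finset.range (i + 1), Function.update s l τ j ^ 2) =
          fun i => R i + if l ≤ i then τ ^ 2 - s l ^ 2 else 0 := by
        funext i
        exact sg_cum_update τ i
      rw [e1, sg_cum_update τ K, if_pos hlK]
      simp only [hR]
      ring
    · intro i hi
      by_cases h : i = l
      · subst h
        rw [Function.update_self]
        exact hτ
      · rw [Function.update_of_ne h]
        exact hsn i hi
  have hsl := hs l hl hlK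
  have hder : HasDerivAt (fun τ => sgF K m (Function.update s l τ))
      (s l * (1 - ∑ i ∈ Finset.Ico l (K + 1), (m (i + 1) - m i) * spR K m R i)) (s l) := by
    have h1 := hd.add_const ((R K - s l ^ 2) / 2 + Real.log 2)
    refine h1.congr_of_eventuallyEq ?_
    filter_upwards [eventually_gt_nhds hsl] with τ hτ
    exact hval τ hτ.le
  -- the difference has a minimum
  have hmin : IsLocalMin (fun τ => sgF K m (Function.update s l τ) - (τ - s l) * sgE K m s l)
      (s l) := by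
    refine Filter.Eventually.of_forall fun τ => ?_
    have h1 := sg_support hm hlK τ (s := s)
    simp only [Function.update_eq_self, sub_self, zero_mul, sub_zero]
    linarith only [h1]
  have hd2 : HasDerivAt (fun τ => sgF K m (Function.update s l τ) - (τ - s l) * sgE K m s l)
      (s l * (1 - ∑ i ∈ Finset.Ico l (K + 1), (m (i + 1) - m i) * spR K m R i) -
        sgE K m s l) (s l) := by
    have h2 : HasDerivAt (fun τ : ℝ => (τ - s l) * sgE K m s l) (sgE K m s l) (s l) := by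
      have := ((hasDerivAt_id (s l)).sub_const (s l)).mul_const (sgE K m s l)
      simpa using this
    exact hder.sub h2
  have := hmin.hasDerivAt_eq_zero hd2
  linarith only [this]

/-- The one-spin value. -/
noncomputable def Gsp (K : ℕ) (m rr s : ℕ → ℝ) : ℝ :=
  spinPart K m (fun l => rr l + ∑ i ∈ Finset.range (l + 1), s i ^ 2) +
    1 / 2 * ∑ i ∈ Finset.range (K + 1), s i ^ 2

theorem sg_cascade_congr {m r r' : ℕ → ℝ} : ∀ (l : ℕ), (∀ i ≤ l, r i = r' i) → ∀ F,
    cascade m r l F = cascade m r' l F := by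
  intro l
  induction l with
  | zero => intro _ F; rfl
  | succ l ih =>
    intro h F
    rw [cascade_succ_def, cascade_succ_def, h (l + 1) le_rfl, h l (by omega)]
    exact ih (fun i hi => h i (by omega)) _

theorem sg_spinPart_congr {K : ℕ} {m r r' : ℕ → ℝ} (h : ∀ i ≤ K, r i = r' i) :
    spinPart K m r = spinPart K m r' := by
  unfold spinPart
  rw [sg_cascade_congr K h, h K le_rfl, h 0 (Nat.zero_le K)]

theorem sg_chn_congr {m r r' : ℕ → ℝ} : ∀ (l : ℕ), (∀ i ≤ l, r i = r' i) → ∀ F h,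
    chn m r l F h = chn m r' l F h := by
  intro l
  induction l with
  | zero => intro h F g; rw [chn_zero_def, chn_zero_def, h 0 le_rfl]
  | succ l ih =>
    intro h F g
    rw [chn_succ_def, chn_succ_def, h (l + 1) le_rfl, h l (by omega)]
    exact ih (fun i hi => h i (by omega)) _ _

theorem sg_Rc_congr {m r r' : ℕ → ℝ} {j : ℕ} : ∀ (l : ℕ), (∀ i ≤ l, r i = r' i) → ∀ F M, j ≤ l →
    Rc m r l F M j = Rc m r' l F M j := by
  intro l
  induction l with
  | zero =>
    intro h F M hj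
    rw [Rc_zero_def, Rc_zero_def, sg_chn_congr 0 h]
  | succ l ih =>
    intro h F M hj
    rcases Nat.lt_or_ge l j with hlj | hlj
    · obtain rfl : j = l + 1 := by omega
      rw [Rc_self, Rc_self, sg_chn_congr (l + 1) h]
    · rw [Rc_succ_le _ _ _ _ _ hlj, Rc_succ_le _ _ _ _ _ hlj, h (l + 1) le_rfl, h l (by omega)]
      exact ih (fun i hi => h i (by omega)) _ _ hlj

theorem sg_spR_congr {K : ℕ} {m r r' : ℕ → ℝ} (h : ∀ i ≤ K, r i = r' i) {j : ℕ} (hj : j ≤ K) :
    spR K m r j = spR K m r' j :=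
  sg_Rc_congr K h _ _ hj

/-- **The tangent inequality in the strengths.** -/
theorem G_tangent {K : ℕ} {m rr s : ℕ → ℝ} (hm : Exponents K m) (hrr : Path K rr)
    (hrr0 : rr 0 = 0) (hs0 : s 0 = 0) (hs : ∀ i, 1 ≤ i → i ≤ K → s i ≠ 0) {l : ℕ} (hl : 1 ≤ l)
    (hlK : l ≤ K) (t : ℝ) :
    Gsp K m rr s + t * s l * (1 - ∑ i ∈ Finset.Ico l (K + 1), (m (i + 1) - m i) *
      spR K m (fun l => rr l + ∑ i ∈ Finset.range (l + 1), s i ^ 2) i) ≤
        Gsp K m rr (Function.update s l (s l + t)) := by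
  -- the strengths of a single field
  set dr : ℕ → ℝ := fun i => if i = 0 then 0 else rr i - rr (i - 1) with hdr
  have hdr0 : ∀ i ≤ K, 0 ≤ dr i := by
    intro i hi
    rcases Nat.eq_zero_or_pos i with rfl | h
    · simp [hdr]
    · obtain ⟨j, rfl⟩ : ∃ j, i = j + 1 := ⟨i - 1, by omega⟩
      simp only [hdr, Nat.add_sub_cancel]
      rw [if_neg (by omega)]
      exact sub_nonneg.2 (hrr.2 j (by omega))
  have hdrs : ∀ i, ∑ j ∈ Finset.range (i + 1), dr j = rr i := by
    intro i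
    induction i with
    | zero => simp only [zero_add, Finset.range_one, hdr, Finset.sum_singleton, ↓reduceIte, hrr0]
    | succ i ih =>
      rw [Finset.sum_range_succ, ih]
      simp only [hdr, Nat.add_sub_cancel]
      rw [if_neg (by omega)]
      ring
  have hsq : ∀ (s' : ℕ → ℝ) (i : ℕ), i ≤ K → ∑ j ∈ Finset.range (i + 1), √(dr j + s' j ^ 2) ^ 2 =
      rr i + ∑ j ∈ Finset.range (i + 1), s' j ^ 2 := by
    intro s' i hi
    rw [← hdrs i, ← Finset.sum_add_distrib]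
    refine Finset.sum_congr rfl fun j hj => ?_
    have hj' := Finset.mem_range.1 hj
    exact Real.sq_sqrt (add_nonneg (hdr0 j (by omega)) (sq_nonneg _))
  have key : ∀ s' : ℕ → ℝ,
      Gsp K m rr s' = sgF K m (fun j => √(dr j + s' j ^ 2)) - rr K / 2 - Real.log 2 := by
    intro s'
    rw [sg_value hm fun j _ => Real.sqrt_nonneg _, hsq s' K le_rfl]
    rw [sg_spinPart_congr (r := fun l => ∑ j ∈ Finset.range (l + 1), √(dr j + s' j ^ 2) ^ 2)
      (r' := fun l => rr l + ∑ j ∈ Finset.range (l + 1), s' j ^ 2) (fun i hi => hsq s' i hi)]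
    unfold Gsp
    ring
  set c : ℕ → ℝ := fun j => √(dr j + s j ^ 2) with hc
  have hc0 : c 0 = 0 := by simp only [hc, hdr, ↓reduceIte, hs0, ne_eq, OfNat.ofNat_ne_zero, not_false_eq_true, zero_pow, add_zero, Real.sqrt_zero]
  have hcpos : ∀ i, 1 ≤ i → i ≤ K → 0 < c i := fun i h1 h2 =>
    Real.sqrt_pos.2 (add_pos_of_nonneg_of_pos (hdr0 i h2) (by
      have := hs i h1 h2
      (clear * - this; positivity)))
  have hslope := sg_slope hm hc0 hcpos hl hlK
  have hspR : ∑ i ∈ Finset.Ico l (K + 1), (m (i + 1) - m i) *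
      spR K m (fun l => ∑ j ∈ Finset.range (l + 1), c j ^ 2) i =
      ∑ i ∈ Finset.Ico l (K + 1), (m (i + 1) - m i) *
      spR K m (fun l => rr l + ∑ i ∈ Finset.range (l + 1), s i ^ 2) i := by
    refine Finset.sum_congr rfl fun i hi => ?_
    have hi' := Finset.mem_Ico.1 hi
    rw [sg_spR_congr (fun i hi => hsq s i hi) (by omega)]
  rw [hspR] at hslope
  set Sg := ∑ i ∈ Finset.Ico l (K + 1), (m (i + 1) - m i) *
      spR K m (fun l => rr l + ∑ i ∈ Finset.range (l + 1), s i ^ 2) i with hSg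
  -- the new strength
  set τ := √(dr l + (s l + t) ^ 2) with hτ
  have hupd : (fun j => √(dr j + Function.update s l (s l + t) j ^ 2)) =
      Function.update c l τ := by
    funext j
    by_cases h : j = l
    · subst h
      simp [hτ]
    · rw [Function.update_of_ne h, Function.update_of_ne h]
  have hsup := sg_support hm hlK τ (s := c)
  rw [key s, key (Function.update s l (s l + t)), hupd]
  -- convexity of the strength
  have hcl := hcpos l hl hlK
  have hcl2 : c l ^ 2 = dr l + s l ^ 2 := Real.sq_sqrt (add_nonneg (hdr0 l hlK) (sq_nonneg _))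
  have hτ2 : τ ^ 2 = dr l + (s l + t) ^ 2 :=
    Real.sq_sqrt (add_nonneg (hdr0 l hlK) (sq_nonneg _))
  have hτ0 : 0 ≤ τ := Real.sqrt_nonneg _
  have hCS : dr l + s l * (s l + t) ≤ c l * τ := by
    have h1 : (dr l + s l * (s l + t)) ^ 2 ≤ (c l * τ) ^ 2 := by
      rw [mul_pow, hcl2, hτ2]
      nlinarith only [mul_nonneg (hdr0 l hlK) (sq_nonneg (s l - (s l + t)))]
    exact (abs_le_of_sq_le_sq' h1 (mul_nonneg hcl.le hτ0)).2
  have hconv : t * s l ≤ (τ - c l) * c l := by nlinarith only [hcl2, hCS]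
  have h1 : 0 ≤ 1 - Sg := by
    have hR : Path K (fun l => rr l + ∑ i ∈ Finset.range (l + 1), s i ^ 2) := by
      refine ⟨?_, fun i hi => ?_⟩
      · simp [hrr0, hs0]
      · simp only
        rw [Finset.sum_range_succ _ (i + 1)]
        nlinarith only [hrr.2 i hi]
    have h2 : Sg ≤ ∑ i ∈ Finset.Ico l (K + 1), (m (i + 1) - m i) := by
      refine Finset.sum_le_sum fun i hi => ?_
      have hi' := Finset.mem_Ico.1 hi
      have h3 := spR_lt_one hm hR (j := i) (by omega)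
      have h4 := sub_pos.2 (hm.2.2 i (by omega))
      nlinarith only [h3, h4]
    have h3 : ∑ i ∈ Finset.Ico l (K + 1), (m (i + 1) - m i) = 1 - m l := by
      rw [Finset.sum_Ico_sub _ (by omega), hm.2.1]
    have h4 : 0 ≤ m l := sp4_exp_nonneg hm l (by omega)
    linarith only [h2, h3, h4]
  rw [hslope] at hsup
  have h5 : t * s l * (1 - Sg) ≤ (τ - c l) * (c l * (1 - Sg)) := by
    have := mul_le_mul_of_nonneg_right hconv h1
    linarith only [this]
  linarith only [hsup, h5]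

end Vale.Agent.P166.F
end
end

section

section

/-! P166, lower bound: the discrete box of parameters. -/

open MeasureTheory ProbabilityTheory Matrix Filter Topology

namespace Vale.Agent.P166.L

open Vale.Agent.P157.Lv Vale.Agent.P157.Par Md U

variable {n : ℕ}

/-- The coordinates of the box: the potentials and the strengths of the block fields. -/
abbrev Bx (n K : ℕ) : Type := Fin (n + 1) ⊕ (Fin (n + 1) × Fin K)

/-- The parameters at a point of the box. -/
def toPm (K : ℕ) (σ : ℕ → ℝ) (p : Bx n K → ℝ) : Pm (n + 1) where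
  b := fun k => p (Sum.inl k)
  s := σ
  u := fun k l => if h : 1 ≤ l ∧ l ≤ K then p (Sum.inr (k, ⟨l - 1, by omega⟩)) else 0

theorem toPm_update_b (K : ℕ) (σ : ℕ → ℝ) (p : Bx n K → ℝ) (k : Fin (n + 1)) (x : ℝ) :
    toPm K σ (Function.update p (Sum.inl k) x) =
      ⟨Function.update (toPm K σ p).b k x, (toPm K σ p).s, (toPm K σ p).u⟩ := by
  unfold toPm
  simp only [Pm.mk.injEq, true_and]
  constructor
  · funext k'
    by_cases h : k' = k
    · subst h
      simp
    · rw [Function.update_of_ne h, Function.update_of_ne (by simpa using h)]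
  · funext k' l
    split_ifs with h
    · rw [Function.update_of_ne (by simp only [ne_eq, reduceCtorEq, not_false_eq_true])]
    · rfl

theorem toPm_update_u (K : ℕ) (σ : ℕ → ℝ) (p : Bx n K → ℝ) (k : Fin (n + 1)) (j : Fin K) (x : ℝ) :
    toPm K σ (Function.update p (Sum.inr (k, j)) x) =
      ⟨(toPm K σ p).b, (toPm K σ p).s, Function.update (toPm K σ p).u k
        (Function.update ((toPm K σ p).u k) (j + 1) x)⟩ := by
  unfold toPm
  simp only [Pm.mk.injEq]
  refine ⟨?_, trivial, ?_⟩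
  · funext k'
    rw [Function.update_of_ne (by simp)]
  · funext k' l
    by_cases hk : k' = k
    · subst hk
      rw [Function.update_self]
      by_cases hl : l = (j : ℕ) + 1
      · subst hl
        have hj : 1 ≤ (j : ℕ) + 1 ∧ (j : ℕ) + 1 ≤ K := ⟨by omega, j.2⟩
        rw [Function.update_self, dif_pos hj]
        simp only [add_tsub_cancel_right, Fin.eta, Function.update_self]
      · rw [Function.update_of_ne hl]
        split_ifs with h
        · rw [Function.update_of_ne]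
          simp only [ne_eq, Sum.inr.injEq, Prod.mk.injEq, true_and, Fin.ext_iff]
          omega
        · rfl
    · rw [Function.update_of_ne hk]
      split_ifs with h
      · rw [Function.update_of_ne]
        simp only [ne_eq, Sum.inr.injEq, Prod.mk.injEq, hk, false_and, not_false_eq_true]
      · rfl

theorem addb_toPm (K : ℕ) (σ : ℕ → ℝ) (p : Bx n K → ℝ) (k : Fin (n + 1)) (t : ℝ) :
    Pm.addb (toPm K σ p) k t = toPm K σ (Function.update p (Sum.inl k) (p (Sum.inl k) + t)) := by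
  rw [toPm_update_b]
  rfl

theorem addu_toPm (K : ℕ) (σ : ℕ → ℝ) (p : Bx n K → ℝ) (k : Fin (n + 1)) (j : Fin K) (t : ℝ) :
    Pm.addu (toPm K σ p) k (j + 1) t =
      toPm K σ (Function.update p (Sum.inr (k, j)) (p (Sum.inr (k, j)) + t)) := by
  rw [toPm_update_u]
  unfold Pm.addu
  congr 3
  have hj : 1 ≤ (j : ℕ) + 1 ∧ (j : ℕ) + 1 ≤ K := ⟨by omega, j.2⟩
  change (if h : 1 ≤ (j : ℕ) + 1 ∧ (j : ℕ) + 1 ≤ K then p (Sum.inr (k, ⟨(j : ℕ) + 1 - 1, _⟩))
    else 0) + t = _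
  rw [dif_pos hj]
  simp only [add_tsub_cancel_right, Fin.eta]

section

variable {N K : ℕ} {m : ℕ → ℝ} {c : Fin N → Fin (n + 1)}
  [MeasurableSpace (orthogonalGroup (Fin N) ℝ)] [BorelSpace (orthogonalGroup (Fin N) ℝ)]
  {ν : Measure (orthogonalGroup (Fin N) ℝ)} [IsProbabilityMeasure ν]

theorem Fe_upd_b (hm : Exponents K m) (hN : 0 < N) (P : Pm (n + 1)) (hs : ∀ l ≤ K, 0 ≤ P.s l)
    (k : Fin (n + 1)) (x : ℝ) :
    |Fe ν K m c ⟨Function.update P.b k x, P.s, P.u⟩ - Fe ν K m c P| ≤ 2 * |x - P.b k| := by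
  have h := Fe_lip (ν := ν) (c := c) hm hN P ⟨Function.update P.b k x, P.s, P.u⟩ hs hs
  refine h.trans ?_
  have e1 : ∑ l ∈ Finset.range (K + 1), |P.s l - P.s l| * (P.s l + P.s l) = 0 :=
    Finset.sum_eq_zero fun l _ => by rw [sub_self, abs_zero, zero_mul]
  have e2 : ∑ k', ∑ l ∈ Finset.range (K + 1), |P.u k' l - P.u k' l| *
      (|P.u k' l| + |P.u k' l|) = 0 :=
    Finset.sum_eq_zero fun k' _ => Finset.sum_eq_zero fun l _ => by
      rw [sub_self, abs_zero, zero_mul]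
  have e3 : ∑ k', |Function.update P.b k x k' - P.b k'| = |x - P.b k| := by
    rw [Finset.sum_eq_single k]
    · rw [Function.update_self]
    · intro k' _ hk'
      rw [Function.update_of_ne hk', sub_self, abs_zero]
    · intro h
      exact absurd (Finset.mem_univ k) h
  change ∑ k', |Function.update P.b k x k' - P.b k'| +
    ∑ l ∈ Finset.range (K + 1), |P.s l - P.s l| * (P.s l + P.s l) +
    ∑ k', ∑ l ∈ Finset.range (K + 1), |P.u k' l - P.u k' l| * (|P.u k' l| + |P.u k' l|) ≤ _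
  rw [e1, e2, e3]
  linarith only [abs_nonneg (x - P.b k)]

theorem Fe_upd_u (hm : Exponents K m) (hN : 0 < N) (P : Pm (n + 1)) (hs : ∀ l ≤ K, 0 ≤ P.s l)
    (k : Fin (n + 1)) {j : ℕ} (hj : j ≤ K) {x : ℝ} (hx : 0 ≤ x ∧ x ≤ 1)
    (hu : 0 ≤ P.u k j ∧ P.u k j ≤ 1) :
    |Fe ν K m c ⟨P.b, P.s, Function.update P.u k (Function.update (P.u k) j x)⟩ -
      Fe ν K m c P| ≤ 2 * |x - P.u k j| := by
  have h := Fe_lip (ν := ν) (c := c) hm hN P
    ⟨P.b, P.s, Function.update P.u k (Function.update (P.u k) j x)⟩ hs hs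
  refine h.trans ?_
  have e1 : ∑ l ∈ Finset.range (K + 1), |P.s l - P.s l| * (P.s l + P.s l) = 0 :=
    Finset.sum_eq_zero fun l _ => by rw [sub_self, abs_zero, zero_mul]
  have e3 : ∑ k', |P.b k' - P.b k'| = 0 :=
    Finset.sum_eq_zero fun l _ => by rw [sub_self, abs_zero]
  have e2 : ∑ k', ∑ l ∈ Finset.range (K + 1),
      |Function.update P.u k (Function.update (P.u k) j x) k' l - P.u k' l| *
      (|P.u k' l| + |Function.update P.u k (Function.update (P.u k) j x) k' l|) =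
      |x - P.u k j| * (|P.u k j| + |x|) := by
    rw [Finset.sum_eq_single k, Finset.sum_eq_single j]
    · rw [Function.update_self, Function.update_self]
    · intro l _ hl
      rw [Function.update_self, Function.update_of_ne hl, sub_self, abs_zero, zero_mul]
    · intro h
      exact absurd (Finset.mem_range.2 (by omega)) h
    · intro k' _ hk'
      refine Finset.sum_eq_zero fun l _ => ?_
      rw [Function.update_of_ne hk', sub_self, abs_zero, zero_mul]
    · intro h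
      exact absurd (Finset.mem_univ k) h
  change ∑ k', |P.b k' - P.b k'| +
    ∑ l ∈ Finset.range (K + 1), |P.s l - P.s l| * (P.s l + P.s l) +
    ∑ k', ∑ l ∈ Finset.range (K + 1),
      |Function.update P.u k (Function.update (P.u k) j x) k' l - P.u k' l| *
      (|P.u k' l| + |Function.update P.u k (Function.update (P.u k) j x) k' l|) ≤ _
  rw [e1, e2, e3, abs_of_nonneg hu.1, abs_of_nonneg hx.1]
  have h3 := abs_nonneg (x - P.u k j)
  nlinarith only [hx, h3, hu]

/-- The Lipschitz property on the box. -/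
theorem Fe_toPm_lip (hm : Exponents K m) (hN : 0 < N) {σ : ℕ → ℝ} (hσ : ∀ l, 0 ≤ σ l) {p : Bx n K → ℝ}
    (hp : ∀ q, 0 ≤ p (Sum.inr q) ∧ p (Sum.inr q) ≤ 1) (i : Bx n K) {x : ℝ}
    (hx : ∀ q, i = Sum.inr q → 0 ≤ x ∧ x ≤ 1) :
    |Fe ν K m c (toPm K σ (Function.update p i x)) - Fe ν K m c (toPm K σ p)| ≤
      2 * |x - p i| := by
  have hs : ∀ l ≤ K, 0 ≤ (toPm K σ p).s l := fun l _ => hσ l
  rcases i with k | ⟨k, j⟩
  · rw [toPm_update_b]
    exact Fe_upd_b hm hN (toPm K σ p) hs k x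
  · rw [toPm_update_u]
    have hj : 1 ≤ (j : ℕ) + 1 ∧ (j : ℕ) + 1 ≤ K := ⟨by omega, j.2⟩
    have hu : (toPm K σ p).u k ((j : ℕ) + 1) = p (Sum.inr (k, j)) := by
      change (if h : 1 ≤ (j : ℕ) + 1 ∧ (j : ℕ) + 1 ≤ K then
        p (Sum.inr (k, ⟨(j : ℕ) + 1 - 1, _⟩)) else 0) = _
      rw [dif_pos hj]
      simp only [add_tsub_cancel_right, Fin.eta]
    have h := Fe_upd_u (ν := ν) (c := c) hm hN (toPm K σ p) hs k hj.2 (hx (k, j) rfl)
      (by rw [hu]; exact hp (k, j))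
    rw [hu] at h
    exact h

/-- The second differences. -/
noncomputable def sdb (ν : Measure (orthogonalGroup (Fin N) ℝ)) (K : ℕ) (m : ℕ → ℝ)
    (c : Fin N → Fin (n + 1)) (t : ℝ) (P : Pm (n + 1)) (k : Fin (n + 1)) : ℝ :=
  Fe ν K m c (Pm.addb P k t) + Fe ν K m c (Pm.addb P k (-t)) - 2 * Fe ν K m c P

noncomputable def sdu (ν : Measure (orthogonalGroup (Fin N) ℝ)) (K : ℕ) (m : ℕ → ℝ)
    (c : Fin N → Fin (n + 1)) (t : ℝ) (P : Pm (n + 1)) (k : Fin (n + 1)) (j : ℕ) : ℝ :=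
  Fe ν K m c (Pm.addu P k j t) + Fe ν K m c (Pm.addu P k j (-t)) - 2 * Fe ν K m c P

/-- The sum of all the second differences. -/
noncomputable def sds (ν : Measure (orthogonalGroup (Fin N) ℝ)) (K : ℕ) (m : ℕ → ℝ)
    (c : Fin N → Fin (n + 1)) (t : ℝ) (P : Pm (n + 1)) : ℝ :=
  ∑ k, sdb ν K m c t P k + ∑ k, ∑ j : Fin K, sdu ν K m c t P k ((j : ℕ) + 1)

/-- The points of the box: potentials `b k + t (i + 1)`, strengths `d + t (i + 1)`. -/
noncomputable def bxP {M : ℕ} (K : ℕ) (σ : ℕ → ℝ) (d t : ℝ) (b : Fin (n + 1) → ℝ) (θ : Bx n K → Fin M) :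
    Pm (n + 1) := toPm K σ (bpt (Sum.elim b fun _ => d) t θ)

/-- **The sum of the second differences over the box.** -/
theorem box_sd (hm : Exponents K m) (hN : 0 < N) {σ : ℕ → ℝ} {d t : ℝ} (hσ : ∀ l, 0 ≤ σ l) (hd : 0 ≤ d)
    (ht : 0 ≤ t) (M : ℕ) (hd1 : d + t * (M + 1) ≤ 1) (b : Fin (n + 1) → ℝ) :
    ∑ θ : Bx n K → Fin M, sds ν K m c t (bxP K σ d t b θ) ≤
      4 * t * ((n + 1) * (K + 1)) * (M : ℝ) ^ (Fintype.card (Bx n K) - 1) := by
  have key : ∀ i : Bx n K, ∑ θ : Bx n K → Fin M,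
      (Fe ν K m c (toPm K σ (Function.update (bpt (Sum.elim b fun _ => d) t θ) i
        (bpt (Sum.elim b fun _ => d) t θ i + t))) +
      Fe ν K m c (toPm K σ (Function.update (bpt (Sum.elim b fun _ => d) t θ) i
        (bpt (Sum.elim b fun _ => d) t θ i - t))) -
      2 * Fe ν K m c (toPm K σ (bpt (Sum.elim b fun _ => d) t θ))) ≤
      2 * 2 * t * (M : ℝ) ^ (Fintype.card (Bx n K) - 1) := by
    intro i
    refine box_avg (fun p => Fe ν K m c (toPm K σ p)) (Sum.elim b fun _ => d) ht (by norm_num) M i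
      fun p hp x hx1 hx2 => ?_
    refine Fe_toPm_lip hm hN hσ (fun q => ?_) i (fun q hq => ?_)
    · have := hp (Sum.inr q)
      simp only [Sum.elim_inr] at this
      constructor <;> linarith only [hd, this, hd1]
    · subst hq
      simp only [Sum.elim_inr] at hx1 hx2
      constructor <;> linarith only [hd, hx1, hd1, hx2]
  have e1 : ∀ θ : Bx n K → Fin M, sds ν K m c t (bxP K σ d t b θ) = ∑ i : Bx n K,
      (Fe ν K m c (toPm K σ (Function.update (bpt (Sum.elim b fun _ => d) t θ) i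
        (bpt (Sum.elim b fun _ => d) t θ i + t))) +
      Fe ν K m c (toPm K σ (Function.update (bpt (Sum.elim b fun _ => d) t θ) i
        (bpt (Sum.elim b fun _ => d) t θ i - t))) -
      2 * Fe ν K m c (toPm K σ (bpt (Sum.elim b fun _ => d) t θ))) := by
    intro θ
    rw [Fintype.sum_sum_type, Fintype.sum_prod_type]
    unfold sds sdb sdu bxP
    simp only [addb_toPm, addu_toPm, sub_eq_add_neg]
  simp only [e1]
  rw [Finset.sum_comm]
  refine (Finset.sum_le_sum fun i _ => key i).trans ?_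
  rw [Finset.sum_const, nsmul_eq_mul, Finset.card_univ]
  have hcard : (Fintype.card (Bx n K) : ℝ) = (n + 1) * (K + 1) := by
    rw [Fintype.card_sum, Fintype.card_prod, Fintype.card_fin, Fintype.card_fin]
    push_cast
    ring
  rw [hcard]
  refine le_of_eq ?_
  ring

end

end Vale.Agent.P166.L
end
end
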