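import Mathlib
import Vale.Agent.P146.R3.X.B1
import Vale.Agent.P146.R3.X.B5
import Vale.Agent.P146.R3.X.B4
import Vale.Agent.P146.R3.X.B2
import Vale.Agent.P146.R3.X.B3

set_option linter.all false

section

section

namespace Vale.Agent.P166

open MeasureTheory Matrix Filter Topology ProbabilityTheory Conc

section OneD

end OneD

variable {n : ℕ}

section Measure

variable [MeasurableSpace (OG n)] [BorelSpace (OG n)]

variable (ν : Measure (OG n)) [IsProbabilityMeasure ν] [ν.IsMulLeftInvariant]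

end Measure

end Vale.Agent.P166
end
end

section

section

open MeasureTheory ProbabilityTheory Filter Topology Finset

namespace Vale.Agent.P157.Par

set_option linter.unusedSectionVars false

variable {J K K' : Type} [Fintype J] [DecidableEq J] [Fintype K] [DecidableEq K] [Fintype K']
  [DecidableEq K']

end Vale.Agent.P157.Par
end
end

section

section

open MeasureTheory ProbabilityTheory Filter Topology Finset

namespace Vale.Agent.P157.Par

set_option linter.unusedSectionVars false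

namespace Arr

variable {k : ℕ} {w : Fin (k + 1) → ℝ} {δ : Type} [Fintype δ] [DecidableEq δ]

end Arr

end Vale.Agent.P157.Par
end
end

section

section

open MeasureTheory ProbabilityTheory Filter Topology Finset

namespace Vale.Agent.P157.Par

set_option linter.unusedSectionVars false

namespace Arr

variable {k : ℕ} {w : Fin (k + 1) → ℝ} {δ : Type} [Fintype δ] [DecidableEq δ]

end Arr

end Vale.Agent.P157.Par
end
end

section

section

open MeasureTheory ProbabilityTheory Filter Topology Finset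

namespace Vale.Agent.P157.Par

set_option linter.unusedSectionVars false

namespace Arr

variable {k : ℕ} {w : Fin (k + 1) → ℝ}

end Arr

end Vale.Agent.P157.Par
end
end

section

section

open MeasureTheory ProbabilityTheory Filter Topology Finset

namespace Vale.Agent.P157.Par

set_option linter.unusedSectionVars false

namespace Arr

variable {k : ℕ} {w : Fin (k + 1) → ℝ} {δ : Type} [Fintype δ] [DecidableEq δ]

end Arr

namespace Arr

variable {k : ℕ} {w : Fin (k + 1) → ℝ} {δ : Type} [Fintype δ] [DecidableEq δ]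

end Arr

end Vale.Agent.P157.Par
end
end

section

section

open MeasureTheory ProbabilityTheory

namespace Vale.Agent.P157

end Vale.Agent.P157
end
end

section

section

/-! P166: almost sure convergence, from the convergence of the means. -/

open MeasureTheory Filter Topology Matrix ProbabilityTheory

namespace Vale.Agent.P166.F

open Vale.Agent.P166.Conc

/-- Tail bound from the fourth moment. -/
theorem fourth_tail {β K : ℝ} (hβ : 0 ≤ β) (hK : 0 ≤ K) : ∃ C : ℝ, 0 ≤ C ∧ ∀ (N : ℕ)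
    [MeasurableSpace (OG N)] [BorelSpace (OG N)] (ν : Measure (OG N)) [IsProbabilityMeasure ν]
    [ν.IsMulLeftInvariant] (a : Fin N → ℝ), 0 < N → (∀ i, |a i| ≤ K) → ∀ ε : ℝ, 0 < ε →
    ν.real {U | ε ≤ |pressure N β (U.1ᵀ * diagonal a * U.1) -
      ∫ V : OG N, pressure N β (V.1ᵀ * diagonal a * V.1) ∂ν|} ≤ C / ε ^ 4 * (1 / (N * √N)) := by
  obtain ⟨C, hC, h4⟩ := fourth_fU β hK
  refine ⟨C, hC, fun N _ _ ν _ _ a hN ha ε hε => ?_⟩
  have hN' : (0 : ℝ) < N := by exact_mod_cast hN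
  have hs : 0 < √(N : ℝ) := Real.sqrt_pos.2 hN'
  have hss : √(N : ℝ) * √(N : ℝ) = N := Real.mul_self_sqrt hN'.le
  have := Conc.haar_right_inv ν
  have h1 := h4 N ν a ha
  rw [mean_pressure ν hN hβ a]
  have e1 : ∀ U : OG N, pressure N β (U.1ᵀ * diagonal a * U.1) -
      (1 / (N : ℝ) * FZ ν β a - Real.log 2) =
        1 / (N : ℝ) * (fU β a U - ∫ V, fU β a V ∂ν) := fun U => by
    rw [pressure_eq hN, LZ_eq_fU]
    unfold FZ
    simp_rw [LZ_eq_fU]
    ring
  simp_rw [e1]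
  have hcont : Continuous fun U : OG N => (1 / (N : ℝ) * (fU β a U - ∫ V, fU β a V ∂ν)) ^ 4 :=
    (continuous_const.mul ((continuous_fU β a).sub continuous_const)).pow 4
  have hb := fun U : OG N => (BM_fU (n := N) β hK ha).bd U
  have hint : Integrable (fun U : OG N => (1 / (N : ℝ) * (fU β a U - ∫ V, fU β a V ∂ν)) ^ 4) ν := by
    set B := N * Real.log 2 + |β| / 2 * (K * N) with hB
    refine Conc.intg ν hcont.measurable ((1 / (N : ℝ) * (B + |∫ V, fU β a V ∂ν|)) ^ 4) fun U => ?_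
    rw [abs_pow, abs_mul, abs_of_nonneg (by positivity : (0 : ℝ) ≤ 1 / (N : ℝ))]
    refine pow_le_pow_left₀ (by (clear * - hN; positivity)) ?_ 4
    refine mul_le_mul_of_nonneg_left ?_ (by positivity)
    exact (abs_sub _ _).trans (add_le_add_left (hb U) _)
  have h5 : ∫ U : OG N, (1 / (N : ℝ) * (fU β a U - ∫ V, fU β a V ∂ν)) ^ 4 ∂ν ≤
      C * (1 / (N * √N)) := by
    simp_rw [mul_pow]
    rw [integral_const_mul]
    calc (1 / (N : ℝ)) ^ 4 * ∫ U : OG N, (fU β a U - ∫ V, fU β a V ∂ν) ^ 4 ∂ν ≤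
        (1 / (N : ℝ)) ^ 4 * (C * ((N : ℝ) ^ 2 * √N)) :=
          mul_le_mul_of_nonneg_left h1 (by positivity)
      _ = C * (1 / (N * √N)) := by
          have h6 : (1 / (N : ℝ)) ^ 4 * (C * ((N : ℝ) ^ 2 * √N)) = C * (√N / N ^ 2) := by
            (clear * - hN; field_simp)
          rw [h6]
          congr 1
          rw [div_eq_div_iff (by positivity) (by positivity)]
          calc √(N : ℝ) * (N * √N) = N * (√N * √N) := by ring
            _ = 1 * N ^ 2 := by rw [hss]; ring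
  have h6 := mul_meas_ge_le_integral_of_nonneg (μ := ν)
    (Eventually.of_forall fun U : OG N => (by (clear * -; positivity) :
      0 ≤ (1 / (N : ℝ) * (fU β a U - ∫ V, fU β a V ∂ν)) ^ 4)) hint (ε ^ 4)
  have h7 : ν.real {U : OG N | ε ≤ |1 / (N : ℝ) * (fU β a U - ∫ V, fU β a V ∂ν)|} =
      ν.real {U : OG N | ε ^ 4 ≤ (1 / (N : ℝ) * (fU β a U - ∫ V, fU β a V ∂ν)) ^ 4} := by
    congr 1
    ext U
    simp only [Set.mem_ofPred_eq]
    rw [← Even.pow_abs (by decide : Even 4) (1 / (N : ℝ) * _)]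
    exact (pow_le_pow_iff_left₀ hε.le (abs_nonneg _) (by norm_num)).symm
  rw [h7, div_mul_eq_mul_div, le_div_iff₀ (by positivity), mul_comm]
  exact h6.trans h5

section Main

variable [∀ N, MeasurableSpace (OG N)] [∀ N, BorelSpace (OG N)]
  (ν : (N : ℕ) → Measure (OG N)) [∀ N, IsProbabilityMeasure (ν N)]
  [∀ N, (ν N).IsMulLeftInvariant]

/-- **Almost sure convergence**, for every joint law of the orthogonal matrices. -/
theorem as_of_mean {β : ℝ} (hβ : 0 ≤ β) (μ : Measure ℝ) [IsProbabilityMeasure μ]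
    (Λ : (N : ℕ) → Fin N → ℝ) (hΛ : Admissible Λ μ) {p : ℝ}
    (hp : Tendsto (fun N => ∫ U, pressure N β (U.1ᵀ * diagonal (Λ N) * U.1) ∂(ν N)) atTop (𝓝 p))
    {Ω : Type*} [MeasurableSpace Ω] (P : Measure Ω) [IsProbabilityMeasure P]
    (W : (N : ℕ) → Ω → OG N) (hW : ∀ N, AEMeasurable (W N) P) (hlaw : ∀ N, P.map (W N) = ν N) :
    ∀ᵐ ω ∂P, Tendsto (fun N => pressure N β ((W N ω).1ᵀ * diagonal (Λ N) * (W N ω).1))
      atTop (𝓝 p) := by
  obtain ⟨K, hK, hKb⟩ := exists_bound μ hΛ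
  obtain ⟨C, hC, hC4⟩ := fourth_tail hβ hK
  obtain ⟨N₀, hN₀⟩ := eventually_atTop.1 hKb
  set E : ℕ → ℝ := fun N => ∫ U, pressure N β (U.1ᵀ * diagonal (Λ N) * U.1) ∂(ν N) with hE
  have hmeas : ∀ N, 0 < N → ∀ ε : ℝ, MeasurableSet {U : OG N |
      ε ≤ |pressure N β (U.1ᵀ * diagonal (Λ N) * U.1) - E N|} := by
    intro N hN ε
    have hcont : Continuous fun U : OG N => pressure N β (U.1ᵀ * diagonal (Λ N) * U.1) := by
      simp_rw [pressure_eq hN]
      exact (continuous_const.mul (continuous_LZ β (Λ N))).sub continuous_const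
    exact measurableSet_le measurable_const (hcont.sub continuous_const).abs.measurable
  have key : ∀ ε : ℝ, 0 < ε → ∀ᵐ ω ∂P, ∀ᶠ N in atTop,
      |pressure N β ((W N ω).1ᵀ * diagonal (Λ N) * (W N ω).1) - E N| < ε := by
    intro ε hε
    set s : ℕ → Set Ω := fun N => {ω | max N₀ 1 ≤ N ∧
      ε ≤ |pressure N β ((W N ω).1ᵀ * diagonal (Λ N) * (W N ω).1) - E N|} with hs
    have hsum : ∑' N, P (s N) ≠ ⊤ := by
      have h1 : ∀ N, P (s N) ≤ ENNReal.ofReal (C / ε ^ 4 * (1 / (N * √N))) := by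
        intro N
        by_cases hN : max N₀ 1 ≤ N
        · have hN1 : 0 < N := lt_of_lt_of_le one_pos ((le_max_right _ _).trans hN)
          have h2 := hC4 N (ν N) (Λ N) hN1 (hN₀ N ((le_max_left _ _).trans hN)) ε hε
          have h3 : P (s N) = ν N {U : OG N |
              ε ≤ |pressure N β (U.1ᵀ * diagonal (Λ N) * U.1) - E N|} := by
            rw [← hlaw N, Measure.map_apply_of_aemeasurable (hW N) (hmeas N hN1 ε)]
            congr 1
            ext ω
            simp only [hs, hN, true_and, Set.mem_ofPred_eq, Set.preimage_ofPred_eq]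
          rw [h3, ← ENNReal.ofReal_toReal (measure_ne_top (ν N) _)]
          exact ENNReal.ofReal_le_ofReal h2
        · have h3 : s N = ∅ := by
            ext ω
            simp only [hs, hN, false_and, Set.ofPred_false, Set.mem_empty_iff_false]
          rw [h3, measure_empty]
          exact zero_le
      refine ne_top_of_le_ne_top ?_ (ENNReal.tsum_le_tsum h1)
      have hsm : Summable fun N : ℕ => C / ε ^ 4 * (1 / ((N : ℝ) * √N)) := by
        refine Summable.mul_left _ ?_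
        have h4 := (Real.summable_one_div_nat_rpow (p := 3 / 2)).2 (by norm_num)
        refine h4.congr fun N => ?_
        congr 1
        rcases Nat.eq_zero_or_pos N with rfl | hN
        · norm_num
        · have hN' : (0 : ℝ) < N := by exact_mod_cast hN
          rw [Real.sqrt_eq_rpow]
          nth_rewrite 2 [← Real.rpow_one (N : ℝ)]
          rw [← Real.rpow_add hN']
          norm_num
      exact hsm.tsum_ofReal_ne_top
    filter_upwards [ae_eventually_notMem hsum] with ω hω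
    filter_upwards [hω, eventually_ge_atTop (max N₀ 1)] with N h1 h2
    by_contra hcon
    exact h1 ⟨h2, not_lt.1 hcon⟩
  have hall : ∀ᵐ ω ∂P, ∀ j : ℕ, ∀ᶠ N in atTop,
      |pressure N β ((W N ω).1ᵀ * diagonal (Λ N) * (W N ω).1) - E N| < 1 / ((j : ℝ) + 1) :=
    ae_all_iff.2 fun j => key _ (by (clear * -; positivity))
  filter_upwards [hall] with ω hω
  have h1 : Tendsto (fun N => pressure N β ((W N ω).1ᵀ * diagonal (Λ N) * (W N ω).1) - E N)
      atTop (𝓝 0) := by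
    rw [Metric.tendsto_nhds]
    intro ε hε
    obtain ⟨j, hj⟩ := exists_nat_one_div_lt hε
    filter_upwards [hω j] with N hN
    rw [Real.dist_eq, sub_zero]
    exact hN.trans hj
  have h2 := h1.add hp
  rw [zero_add] at h2
  refine h2.congr fun N => ?_
  simp only [hE]
  ring

end Main

end Vale.Agent.P166.F
end
end

section

section

/-!
P166, lower bound: the loop equations of the outliers.
-/

open MeasureTheory ProbabilityTheory Matrix Filter Topology

namespace Vale.Agent.P166.L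

open Vale.Agent.P157 (spin)
open Vale.Agent.P157.Lv Vale.Agent.P157.Par Md H U
open Vale.Agent.P166.F (Hm Expo eq')

variable {n : ℕ}

/-- The overlaps of the new spin with itself. -/
noncomputable def Qe {N K : ℕ} [MeasurableSpace (orthogonalGroup (Fin N) ℝ)]
    (ν : Measure (orthogonalGroup (Fin N) ℝ)) (A : GS N (Ie N K) (Xe N)) : Hm :=
  ⟨1, fun l => EU ν (fun U => (A.sy U).pairEx l (fun x x' => sg1 x.1 * sg1 x'.1))⟩

/-! ### general lemmas -/

/-- The product depends on the levels at most `K`. -/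
lemma lo_mul_congr (K : ℕ) (m : ℕ → ℝ) (M : Hm) {M1 M2 : Hm} (hd : M1.d = M2.d)
    (he : ∀ l ≤ K, M1.e l = M2.e l) : (Hm.mul K m M M1).d = (Hm.mul K m M M2).d ∧
      ∀ l ≤ K, (Hm.mul K m M M1).e l = (Hm.mul K m M M2).e l := by
  constructor
  · show M.d * M1.d - ∑ j ∈ Finset.range (K + 1), (m (j + 1) - m j) * (M.e j * M1.e j) =
      M.d * M2.d - ∑ j ∈ Finset.range (K + 1), (m (j + 1) - m j) * (M.e j * M2.e j)
    rw [hd]
    congr 1
    refine Finset.sum_congr rfl fun j hj => ?_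
    rw [he j (Nat.lt_succ_iff.1 (Finset.mem_range.1 hj))]
  · intro l hl
    show M.d * M1.e l + M.e l * M1.d - (2 * m (l + 1) - m l) * (M.e l * M1.e l)
      - ∑ j ∈ Finset.Ico (l + 1) (K + 1), (m (j + 1) - m j) * (M.e j * M1.e l + M.e l * M1.e j)
      - ∑ j ∈ Finset.range l, (m (j + 1) - m j) * (M.e j * M1.e j) =
      M.d * M2.e l + M.e l * M2.d - (2 * m (l + 1) - m l) * (M.e l * M2.e l)
      - ∑ j ∈ Finset.Ico (l + 1) (K + 1), (m (j + 1) - m j) * (M.e j * M2.e l + M.e l * M2.e j)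
      - ∑ j ∈ Finset.range l, (m (j + 1) - m j) * (M.e j * M2.e j)
    rw [hd, he l hl]
    congr 1
    · congr 1
      refine Finset.sum_congr rfl fun j hj => ?_
      rw [he j (Nat.lt_succ_iff.1 (Finset.mem_Ico.1 hj).2)]
    · refine Finset.sum_congr rfl fun j hj => ?_
      rw [he j ((Finset.mem_range.1 hj).le.trans hl)]

/-- The entries are bounded by the norm. -/
lemma lo_d_le {K : ℕ} {m : ℕ → ℝ} (h : Expo K m) (M : Hm) : |M.d| ≤ Hm.nrm K m M := by
  unfold Hm.nrm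
  have : 0 ≤ ∑ l ∈ Finset.range (K + 1), (m (l + 1) - m l) * |M.e l| :=
    Finset.sum_nonneg fun l hl => mul_nonneg (F.St.pl h hl) (abs_nonneg _)
  linarith only [this]

/-- Scaling of the norm. -/
lemma lo_nrm_smul {K : ℕ} {m : ℕ → ℝ} (a : ℝ) (M : Hm) :
    Hm.nrm K m ⟨a * M.d, fun l => a * M.e l⟩ = |a| * Hm.nrm K m M := by
  unfold Hm.nrm
  rw [mul_add, Finset.mul_sum, abs_mul]
  congr 1
  refine Finset.sum_congr rfl fun l _ => ?_
  simp only
  rw [abs_mul]
  ring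

section Gen

variable {N : ℕ} {ι X : Type} [Fintype ι] [Fintype X] [Nonempty X] [DecidableEq ι] [DecidableEq X]

/-- The average over two replicas as an average over one replica. -/
lemma lo_pair {S : Sy ι X} (hR : S.Reg) {l : ℕ} (hl : l ≤ S.K) (f g : X → ℝ) :
    S.Ex (fun z x => f x * S.T l (fun _ => g) z) = S.pairEx l (fun x x' => f x * g x') := by
  have h1 := hR.Ex_mul_T (l := l) hl (Sy.dep_T S l (fun _ => g)) (hR.eg_T hl (Sy.Nh.snd g))
    (Sy.Nh.snd f)
  have h2 : (fun z x => f x * S.T l (fun _ => g) z) = fun z x => S.T l (fun _ => g) z * f x := by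
    funext z x
    ring
  rw [h2, ← h1, Sy.pairEx]
  congr 1
  funext z _
  have e1 : S.T l (fun _ => g) z = ∑ x, S.pr l z x * g x := hR.T_pr hl g z
  have e2 : S.T l (fun _ x => f x) z = ∑ x, S.pr l z x * f x := hR.T_pr hl f z
  rw [e1, e2, mul_comm, Finset.sum_mul_sum]
  refine Finset.sum_congr rfl fun x _ => Finset.sum_congr rfl fun x' _ => ?_
  ring

variable [MeasurableSpace (orthogonalGroup (Fin N) ℝ)] [BorelSpace (orthogonalGroup (Fin N) ℝ)]
  (ν : Measure (orthogonalGroup (Fin N) ℝ)) [IsProbabilityMeasure ν] {A : GS N ι X}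

/-- The averages of the local field. -/
lemma lo_Ph1 (hA : A.Ok) {ε : X → ℝ} (hε : ∀ x, |ε x| ≤ 1) {j : Fin N} {b s : ℝ}
    (hk : ∀ x, A.kap j x = s * ε x) :
    (GS.Ph1 ν A ε (fun U x => (A.lam j - b) * A.y U x j + A.kap j x)).d =
      (A.lam j - b) * (GS.Ph1 ν A ε (fun U x => A.y U x j)).d +
        s * EU ν (fun U => (A.sy U).Ex (fun _ x => ε x * ε x)) ∧
    ∀ l ≤ A.K, (GS.Ph1 ν A ε (fun U x => (A.lam j - b) * A.y U x j + A.kap j x)).e l =
      (A.lam j - b) * (GS.Ph1 ν A ε (fun U x => A.y U x j)).e l +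
        s * EU ν (fun U => (A.sy U).pairEx l (fun x x' => ε x * ε x')) := by
  have mε : MM N (fun (_ : Matrix (Fin N) (Fin N) ℝ) (x : X) => ε x) := fun x =>
    measurable_const
  have bε : GS.UB N (fun (_ : Matrix (Fin N) (Fin N) ℝ) (x : X) => ε x) := ⟨1, fun _ x => hε x⟩
  constructor
  · show EU ν (fun U => (A.sy U).Ex (fun _ x => ((A.lam j - b) * A.y U x j + A.kap j x) * ε x)) = _
    have h1 := hA.int_Fs ν hε (GS.mm_y A j) (hA.ub_y j)
    have h2 := hA.int_Fs ν hε mε bε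
    have e : ∀ U : orthogonalGroup (Fin N) ℝ,
        (A.sy U.1).Ex (fun _ x => ((A.lam j - b) * A.y U.1 x j + A.kap j x) * ε x) =
        (A.lam j - b) * A.Fs ε (fun U x => A.y U x j) U.1 + s * A.Fs ε (fun _ x => ε x) U.1 := by
      intro U
      have hG := hA.regG U.1
      unfold GS.Fs
      rw [← Sy.Ex_const_mul, ← Sy.Ex_const_mul, ← hG.Ex_add
        (Sy.Nh.snd fun x => (A.lam j - b) * (A.y U.1 x j * ε x))
        (Sy.Nh.snd fun x => s * (ε x * ε x))]
      congr 1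
      funext _ x
      rw [hk]
      ring
    unfold EU
    simp only [e]
    rw [integral_add (h1.const_mul _) (h2.const_mul _), integral_const_mul, integral_const_mul]
    rfl
  · intro l hl
    show EU ν (fun U => (A.sy U).Ex (fun z x => ((A.lam j - b) * A.y U x j + A.kap j x) *
      (A.sy U).T l (fun _ => ε) z)) = _
    have h1 := hA.int_Fl ν hε hl (GS.mm_y A j) (hA.ub_y j)
    have h2 := hA.int_Fl ν hε hl mε bε
    have e : ∀ U : orthogonalGroup (Fin N) ℝ,
        (A.sy U.1).Ex (fun z x => ((A.lam j - b) * A.y U.1 x j + A.kap j x) *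
          (A.sy U.1).T l (fun _ => ε) z) =
        (A.lam j - b) * A.Fl ε l (fun U x => A.y U x j) U.1 + s * A.Fl ε l (fun _ x => ε x) U.1 := by
      intro U
      have hG := hA.regG U.1
      have hT := hG.eg_T (l := l) hl (Sy.Nh.snd ε)
      unfold GS.Fl
      rw [← Sy.Ex_const_mul, ← Sy.Ex_const_mul, ← hG.Ex_add
        (Sy.Nh.const_mul _ (Sy.Nh.mul (Sy.Nh.snd fun x => A.y U.1 x j) (Sy.Nh.fst hT)))
        (Sy.Nh.const_mul _ (Sy.Nh.mul (Sy.Nh.snd ε) (Sy.Nh.fst hT)))]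
      congr 1
      funext z x
      rw [hk]
      ring
    have e2 : ∀ U : orthogonalGroup (Fin N) ℝ,
        A.Fl ε l (fun _ x => ε x) U.1 = (A.sy U.1).pairEx l (fun x x' => ε x * ε x') :=
      fun U => lo_pair (hA.reg U.1) hl ε ε
    unfold EU
    simp only [e]
    rw [integral_add (h1.const_mul _) (h2.const_mul _), integral_const_mul, integral_const_mul]
    simp only [e2]
    rfl

/-- The averages of the coordinate of a pattern are bounded. -/
lemma lo_Ph1_bd (hA : A.Ok) {ε : X → ℝ} (hε : ∀ x, |ε x| ≤ 1) {j : Fin N} {C : ℝ}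
    (hC : EU ν (fun U => (A.sy U).Ex (fun _ x => A.y U x j ^ 2)) ≤ C) :
    |(GS.Ph1 ν A ε (fun U x => A.y U x j)).d| ≤ 1 + C ∧
      ∀ l ≤ A.K, |(GS.Ph1 ν A ε (fun U x => A.y U x j)).e l| ≤ 1 + C := by
  have hE : Integrable (fun U : orthogonalGroup (Fin N) ℝ => 1 + A.E2 (fun U x => A.y U x j) U.1) ν :=
    (integrable_const 1).add (hA.int_E2 ν (GS.mm_y A j) (hA.ub_y j))
  have hI : ∫ U : orthogonalGroup (Fin N) ℝ, (1 + A.E2 (fun U x => A.y U x j) U.1) ∂ν ≤ 1 + C := by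
    rw [integral_add (integrable_const 1) (hA.int_E2 ν (GS.mm_y A j) (hA.ub_y j))]
    simp only [integral_const, probReal_univ, one_smul]
    have : ∫ U : orthogonalGroup (Fin N) ℝ, A.E2 (fun U x => A.y U x j) U.1 ∂ν ≤ C := hC
    linarith only [this]
  have key : ∀ f : orthogonalGroup (Fin N) ℝ → ℝ, Integrable f ν →
      (∀ U : orthogonalGroup (Fin N) ℝ, |f U| ≤ 1 + A.E2 (fun U x => A.y U x j) U.1) →
      |∫ U, f U ∂ν| ≤ 1 + C := fun f hf hb =>
    (abs_integral_le_integral_abs).trans ((integral_mono hf.abs hE hb).trans hI)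
  have hpt : ∀ (U : orthogonalGroup (Fin N) ℝ) (g : (ι → ℝ) → X → ℝ), Nh g →
      (∀ z x, |g z x| ≤ 1) → |(A.sy U.1).Ex (fun z x => A.y U.1 x j * g z x)| ≤
        1 + A.E2 (fun U x => A.y U x j) U.1 := by
    intro U g hg hb
    have hG := hA.regG U.1
    have h1 := hG.abs_Ex_le_of (f := fun z x => A.y U.1 x j * g z x)
      (g := fun _ x => 1 + A.y U.1 x j ^ 2) (Sy.Nh.mul (Sy.Nh.snd fun x => A.y U.1 x j) hg)
      (Sy.Nh.snd fun x => 1 + A.y U.1 x j ^ 2) fun z x => by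
        rw [abs_mul]
        have h2 := mul_le_mul_of_nonneg_left (hb z x) (abs_nonneg (A.y U.1 x j))
        rw [mul_one] at h2
        have h3 := sq_abs (A.y U.1 x j)
        nlinarith only [h2, h3]
    rw [hG.Ex_add (Sy.Nh.snd fun _ => (1 : ℝ)) (Sy.Nh.snd fun x => A.y U.1 x j ^ 2),
      hG.Ex_const] at h1
    exact h1
  constructor
  · show |∫ U : orthogonalGroup (Fin N) ℝ, A.Fs ε (fun U x => A.y U x j) U.1 ∂ν| ≤ 1 + C
    exact key (fun U => A.Fs ε (fun U x => A.y U x j) U.1)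
      (hA.int_Fs ν hε (GS.mm_y A j) (hA.ub_y j)) fun U =>
        hpt U (fun _ x => ε x) (Sy.Nh.snd ε) fun _ x => hε x
  · intro l hl
    show |∫ U : orthogonalGroup (Fin N) ℝ, A.Fl ε l (fun U x => A.y U x j) U.1 ∂ν| ≤ 1 + C
    exact key (fun U => A.Fl ε l (fun U x => A.y U x j) U.1)
      (hA.int_Fl ν hε hl (GS.mm_y A j) (hA.ub_y j)) fun U =>
        hpt U (fun z _ => (A.sy U.1).T l (fun _ => ε) z)
          (Sy.Nh.fst ((hA.regG U.1).eg_T (l := l) hl (Sy.Nh.snd ε))) fun z _ =>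
            (hA.regG U.1).abs_T_le (l := l) hl (Sy.Nh.snd ε) (fun _ x => hε x) z

/-- The second moment of the local field. -/
lemma lo_YY (hA : A.Ok) {j : Fin N} {b s C L : ℝ} (hk : ∀ x, |A.kap j x| ≤ s)
    (hL : |A.lam j - b| ≤ L)
    (hC : EU ν (fun U => (A.sy U).Ex (fun _ x => A.y U x j ^ 2)) ≤ C) :
    EU ν (fun U => (A.sy U).Ex (fun _ x => ((A.lam j - b) * A.y U x j + A.kap j x) ^ 2)) ≤
      2 * L ^ 2 * C + 2 * s ^ 2 := by
  have hs : 0 ≤ s := (abs_nonneg _).trans (hk (Classical.arbitrary X))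
  have hL0 : 0 ≤ L := (abs_nonneg _).trans hL
  have hi := hA.int_E2 ν (GS.mm_y A j) (hA.ub_y j)
  have hpt : ∀ U : orthogonalGroup (Fin N) ℝ, A.E2 (A.YY j b) U.1 ≤
      2 * L ^ 2 * A.E2 (fun U x => A.y U x j) U.1 + 2 * s ^ 2 := by
    intro U
    have hG := hA.regG U.1
    have h1 := hG.Ex_mono (f := fun _ x => A.YY j b U.1 x ^ 2)
      (g := fun _ x => 2 * L ^ 2 * A.y U.1 x j ^ 2 + 2 * s ^ 2)
      (Sy.Nh.snd fun x => A.YY j b U.1 x ^ 2)
      (Sy.Nh.snd fun x => 2 * L ^ 2 * A.y U.1 x j ^ 2 + 2 * s ^ 2) fun z x => by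
        have h2 := pow_le_pow_left₀ (abs_nonneg _) (hk x) 2
        have h3 := pow_le_pow_left₀ (abs_nonneg _) hL 2
        rw [sq_abs] at h2 h3
        have h4 := mul_le_mul_of_nonneg_right h3 (sq_nonneg (A.y U.1 x j))
        unfold GS.YY
        linarith only [h2, h4, sq_nonneg ((A.lam j - b) * A.y U.1 x j - A.kap j x)]
    rw [hG.Ex_add (Sy.Nh.snd fun x => 2 * L ^ 2 * A.y U.1 x j ^ 2) (Sy.Nh.snd fun _ => 2 * s ^ 2),
      hG.Ex_const, Sy.Ex_const_mul] at h1
    exact h1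
  have h0 : ∫ U : orthogonalGroup (Fin N) ℝ, A.E2 (A.YY j b) U.1 ∂ν ≤
      ∫ U : orthogonalGroup (Fin N) ℝ, (2 * L ^ 2 * A.E2 (fun U x => A.y U x j) U.1 + 2 * s ^ 2) ∂ν :=
    integral_mono (hA.int_E2 ν (GS.mm_YY A j b) (hA.ub_YY j b))
      ((hi.const_mul _).add (integrable_const _)) hpt
  show ∫ U : orthogonalGroup (Fin N) ℝ, A.E2 (A.YY j b) U.1 ∂ν ≤ _
  refine h0.trans ?_
  rw [integral_add (hi.const_mul _) (integrable_const _), integral_const_mul]
  simp only [integral_const, probReal_univ, one_smul]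
  have h5 : ∫ U : orthogonalGroup (Fin N) ℝ, A.E2 (fun U x => A.y U x j) U.1 ∂ν ≤ C := hC
  have h6 := mul_le_mul_of_nonneg_left h5 (by positivity : 0 ≤ 2 * L ^ 2)
  linarith only [h6]

omit [BorelSpace (orthogonalGroup (Fin N) ℝ)] in
/-- The averages of the products of two replicas are bounded. -/
lemma lo_Q (hA : A.Ok) {ε : X → ℝ} (hε : ∀ x, |ε x| ≤ 1) {l : ℕ} (hl : l ≤ A.K) :
    |EU ν (fun U => (A.sy U).pairEx l (fun x x' => ε x * ε x'))| ≤ 1 := by
  have h1 : ∀ U : orthogonalGroup (Fin N) ℝ,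
      ‖(A.sy U.1).pairEx l (fun x x' => ε x * ε x')‖ ≤ 1 := by
    intro U
    have hR := hA.reg U.1
    have h2 : ∀ x x' : X, |ε x * ε x'| ≤ 1 := fun x x' => by
      rw [abs_mul]
      have := mul_le_mul (hε x) (hε x') (abs_nonneg _) zero_le_one
      linarith only [this]
    rw [Real.norm_eq_abs, abs_le]
    constructor
    · have h3 := hR.pairEx_mono (l := l) hl (ψ := fun _ _ => -1)
        (ψ' := fun x x' => ε x * ε x') fun x x' => (abs_le.1 (h2 x x')).1
      rwa [hR.pairEx_const (l := l) hl] at h3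
    · have h3 := hR.pairEx_mono (l := l) hl (ψ := fun x x' => ε x * ε x')
        (ψ' := fun _ _ => 1) fun x x' => (abs_le.1 (h2 x x')).2
      rwa [hR.pairEx_const (l := l) hl] at h3
  have h2 := norm_integral_le_of_norm_le_const (μ := ν) (Eventually.of_forall h1)
  unfold EU
  simpa only [ge_iff_le, Real.norm_eq_abs, probReal_univ, mul_one] using h2

omit [DecidableEq ι] [DecidableEq X] [BorelSpace (orthogonalGroup (Fin N) ℝ)] in
/-- The average of a square equal to one. -/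
lemma lo_Qd (hA : A.Ok) {ε : X → ℝ} (hε : ∀ x, ε x * ε x = 1) :
    EU ν (fun U => (A.sy U).Ex (fun _ x => ε x * ε x)) = 1 := by
  have e : ∀ U : orthogonalGroup (Fin N) ℝ,
      (A.sy U.1).Ex (fun _ x => ε x * ε x) = 1 := by
    intro U
    simp only [hε]
    exact (hA.regG U.1).Ex_const 1
  unfold EU
  simp only [e]
  simp

/-- The residual of the loop equation, with the local field expanded. -/
lemma lo_LO_eq (hA : A.Ok) {ε : X → ℝ} (hε : ∀ x, |ε x| ≤ 1) (hε1 : ∀ x, ε x * ε x = 1)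
    {j : Fin N} {b s mu : ℝ} (hk : ∀ x, A.kap j x = s * ε x) (hlam : A.lam j = mu)
    (Bs : Finset (Fin N)) (M : Hm) :
    Hm.nrm A.K A.m (Hm.sub ⟨GS.al N Bs * (GS.Ph1 ν A ε (fun U x => A.y U x j)).d,
        fun l => GS.al N Bs * (GS.Ph1 ν A ε (fun U x => A.y U x j)).e l⟩
      (Hm.mul A.K A.m M ⟨(mu - b) * (GS.Ph1 ν A ε (fun U x => A.y U x j)).d + s * 1,
        fun l => (mu - b) * (GS.Ph1 ν A ε (fun U x => A.y U x j)).e l +
          s * EU ν (fun U => (A.sy U).pairEx l (fun x x' => ε x * ε x'))⟩)) =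
      Hm.nrm A.K A.m (GS.LO ν A ε j b Bs M) := by
  obtain ⟨hPd, hPe⟩ := lo_Ph1 ν hA hε (j := j) (b := b) (s := s) hk
  have hc := lo_mul_congr A.K A.m M
    (M1 := ⟨(mu - b) * (GS.Ph1 ν A ε (fun U x => A.y U x j)).d + s * 1,
        fun l => (mu - b) * (GS.Ph1 ν A ε (fun U x => A.y U x j)).e l +
          s * EU ν (fun U => (A.sy U).pairEx l (fun x x' => ε x * ε x'))⟩)
    (M2 := GS.Ph1 ν A ε (fun U x => (A.lam j - b) * A.y U x j + A.kap j x))
    (by rw [hPd, lo_Qd ν hA hε1, hlam]) (fun l hl => by rw [hPe l hl, hlam])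
  refine F.St.nrm_congr ⟨?_, fun l hl => ?_⟩
  · exact congrArg (fun t => GS.al N Bs * (GS.Ph1 ν A ε (fun U x => A.y U x j)).d - t) hc.1
  · exact congrArg (fun t => GS.al N Bs * (GS.Ph1 ν A ε (fun U x => A.y U x j)).e l - t)
      (hc.2 l hl)

/-- The residual of the loop equation is small. -/
lemma lo_LO_le [ν.IsMulLeftInvariant] (hA : A.Ok) (hN : 0 < N) {j : Fin N} {Bs : Finset (Fin N)}
    {b η : ℝ} (hj : j ∉ Bs) (hlam : ∀ q ∈ Bs, A.lam q = b) (hkap : ∀ q ∈ Bs, ∀ x, A.kap q x = 0)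
    (hu : ∀ i, ∀ l ≤ A.K, |A.u i l| ≤ η) (hη0 : 0 ≤ η) (hη1 : η ≤ 1) {M : Hm} {ε : X → ℝ}
    (hε : ∀ x, |ε x| ≤ 1) (hρ : |M.d| ≤ 1) (hr : ∀ i ≤ A.K, |M.e i| ≤ 1) {C V Y : ℝ} (hC : 0 ≤ C)
    (hV : EU ν (fun U => (A.sy U).Ex (fun _ x => ((A.lam j - b) * A.y U x j + A.kap j x) ^ 2)) ≤ V)
    (hy : EU ν (fun U => (A.sy U).Ex (fun _ x => A.y U x j ^ 2)) ≤ C)
    (hD : GS.DvB ν A Bs M ≤ Y) (hK : (A.K + 1) * η ≤ √Y) :
    Hm.nrm A.K A.m (GS.LO ν A ε j b Bs M) ≤ (12 * √V + 90 * (1 + C)) * √Y := by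
  refine (hA.loop_out ν hN hj hlam hkap hu hη0 hη1 hε hρ hr).trans ?_
  have h1 : 12 * (√(EU ν (fun U => (A.sy U).Ex (fun _ x =>
        ((A.lam j - b) * A.y U x j + A.kap j x) ^ 2))) * √(GS.DvB ν A Bs M)) ≤ 12 * (√V * √Y) :=
    mul_le_mul_of_nonneg_left (mul_le_mul (Real.sqrt_le_sqrt hV) (Real.sqrt_le_sqrt hD)
      (Real.sqrt_nonneg _) (Real.sqrt_nonneg _)) (by norm_num)
  have h2 : 90 * ((A.K : ℝ) + 1) * η * (1 + EU ν (fun U => (A.sy U).Ex (fun _ x =>
      A.y U x j ^ 2))) ≤ 90 * √Y * (1 + C) := by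
    have h3 : 90 * ((A.K : ℝ) + 1) * η ≤ 90 * √Y := by linarith only [hK]
    have h4 : 0 ≤ 90 * ((A.K : ℝ) + 1) * η := by positivity
    exact (mul_le_mul_of_nonneg_left (add_le_add le_rfl hy) h4).trans
      (mul_le_mul_of_nonneg_right h3 (by positivity))
  refine (add_le_add h1 h2).trans (le_of_eq ?_)
  ring

end Gen

lemma lo_nN {N : ℕ} {X k : ℝ} (hN : 0 < N) (hk : 0 ≤ k) (h : 1 / √(N : ℝ) ≤ X) (hX : X ≤ 1) :
    k / N ≤ k * X := by
  have hN0 : (0 : ℝ) < N := by exact_mod_cast hN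
  have e : k / N = k * (1 / √(N : ℝ) * (1 / √(N : ℝ))) := by
    rw [div_mul_div_comm, _root_.one_mul, Real.mul_self_sqrt hN0.le]
    ring
  rw [e]
  refine mul_le_mul_of_nonneg_left ?_ hk
  have h0 : 0 ≤ 1 / √(N : ℝ) := by positivity
  have h1 := mul_le_mul h (h.trans hX) h0 (h0.trans h)
  linarith only [h1]

/-- The matrix of the last block is close to `α_last / (A - b_last)`. -/
lemma lo_R {β : ℝ} (hβ : 0 < β) {a α : Fin (n + 1) → ℝ} {μ g : Fin n → ℝ}
    {Q : Fin (n + 1) → Matrix (Fin (n + 1)) (Fin (n + 1)) ℝ} (D : Dat (fun k => β * a k) α μ g Q)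
    (B : ℝ) :
    ∃ C : ℝ, 0 ≤ C ∧ ∀ (N K : ℕ) (m : ℕ → ℝ) (c : Fin N → Fin (n + 1)) (P : Pm (n + 1))
      (r : Fin (n + 1) → Fin N) [MeasurableSpace (orthogonalGroup (Fin N) ℝ)]
      [BorelSpace (orthogonalGroup (Fin N) ℝ)] (ν : Measure (orthogonalGroup (Fin N) ℝ))
      [IsProbabilityMeasure ν] [ν.IsMulLeftInvariant] (dl X : ℝ),
      Good (fun k => β * a k) α B dl K m c P r → Err (fun k => β * a k) α μ g B dl X ν K m c P r →
      X ≤ 1 →
      Hm.nrm K m (Hm.sub (Mk ν K m c P (Fin.last n)) ⟨α (Fin.last n) * (Hm.ofEv K m (fun l =>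
          1 / (Az β a α (eq' K m (Ql ν K m c P) l) - β * a (Fin.last n)))).d,
        fun l => α (Fin.last n) * (Hm.ofEv K m (fun l =>
          1 / (Az β a α (eq' K m (Ql ν K m c P) l) - β * a (Fin.last n)))).e l⟩) ≤ C * X := by
  have hζ : F.Zeta β a α (fun x => stInv (atoms a α) (β * x)) :=
    ⟨fun x hx => (F.rf_stInv (a := a) D.pos D.one (mul_pos hβ hx)).1,
      fun x hx => (F.rf_stInv (a := a) D.pos D.one (mul_pos hβ hx)).2⟩
  obtain ⟨C, hC, h⟩ := U.stab_loop a α D.pos D.one hβ hζ fun B hB => H.loop_bound (n + 1) B hB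
  refine ⟨2 * C, by positivity, ?_⟩
  intro N K m c P r _ _ ν _ _ dl X G E hX
  have hdl0 := G.dl0
  have hdl1 : dl ≤ 1 := by
    have h1 : (0 : ℝ) ≤ K := Nat.cast_nonneg K
    have h2 := E.hdl
    nlinarith only [hX, h2]
  have h1 := h N K m c P ν dl G.N0 G.hm G.s0 G.u0 G.hb G.hu G.fr hdl1
  have hα := D.pos (Fin.last n)
  have hα1 : α (Fin.last n) ≤ 1 := by
    rw [← D.one]
    exact Finset.single_le_sum (f := α) (fun k _ => (D.pos k).le) (Finset.mem_univ _)
  have h2 : Hm.nrm K m (Hm.sub (egy1R ν K m c P α (Fin.last n))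
      (F.Rzero K m β a (fun x => stInv (atoms a α) (β * x)) (eq' K m (Ql ν K m c P))
        (Fin.last n))) ≤ C * (X + X) := by
    refine (Finset.single_le_sum (f := fun b => Hm.nrm K m (Hm.sub (egy1R ν K m c P α b)
      (F.Rzero K m β a (fun x => stInv (atoms a α) (β * x)) (eq' K m (Ql ν K m c P)) b)))
      (fun b _ => F.St.nrm_nonneg (egy1_expo G.hm) _) (Finset.mem_univ (Fin.last n))).trans
        (h1.trans ?_)
    exact mul_le_mul_of_nonneg_left (add_le_add E.hD E.hdl) hC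
  have e1 : Hm.sub (Mk ν K m c P (Fin.last n)) ⟨α (Fin.last n) * (Hm.ofEv K m (fun l =>
          1 / (Az β a α (eq' K m (Ql ν K m c P) l) - β * a (Fin.last n)))).d,
        fun l => α (Fin.last n) * (Hm.ofEv K m (fun l =>
          1 / (Az β a α (eq' K m (Ql ν K m c P) l) - β * a (Fin.last n)))).e l⟩ =
      ⟨α (Fin.last n) * (Hm.sub (egy1R ν K m c P α (Fin.last n))
        (F.Rzero K m β a (fun x => stInv (atoms a α) (β * x)) (eq' K m (Ql ν K m c P))
        (Fin.last n))).d, fun l => α (Fin.last n) * (Hm.sub (egy1R ν K m c P α (Fin.last n))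
        (F.Rzero K m β a (fun x => stInv (atoms a α) (β * x)) (eq' K m (Ql ν K m c P))
        (Fin.last n))).e l⟩ := by
    have e2 : (fun l => 1 / (Az β a α (eq' K m (Ql ν K m c P) l) - β * a (Fin.last n))) =
        fun l => 1 / (β * (stInv (atoms a α) (β * eq' K m (Ql ν K m c P) l) -
          a (Fin.last n))) := by
      funext l
      unfold Az
      rw [mul_sub]
    have e3 : ∀ x y : ℝ, x - α (Fin.last n) * y =
        α (Fin.last n) * (1 / α (Fin.last n) * x - y) := fun x y => by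
      field_simp
    rw [e2]
    unfold Hm.sub egy1R F.Rzero
    congr 1
    · exact e3 _ _
    · funext l
      exact e3 _ _
  have hX0 : 0 ≤ X := by
    have : 0 ≤ ((K : ℝ) + 1) * dl := by positivity
    exact this.trans E.hdl
  rw [e1, lo_nrm_smul, abs_of_pos hα]
  have h3 := F.St.nrm_nonneg (egy1_expo G.hm) (Hm.sub (egy1R ν K m c P α (Fin.last n))
        (F.Rzero K m β a (fun x => stInv (atoms a α) (β * x)) (eq' K m (Ql ν K m c P))
        (Fin.last n)))
  have h4 := mul_le_mul hα1 h2 h3 zero_le_one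
  linarith only [h4]

/-- The fields of the patterns are small. -/
lemma lo_u {N K : ℕ} {m : ℕ → ℝ} {b α : Fin (n + 1) → ℝ} {μ g : Fin n → ℝ} {B dl : ℝ}
    {c : Fin N → Fin (n + 1)} {P : Pm (n + 1)} {r : Fin (n + 1) → Fin N} {k0 : Fin (n + 1)}
    {rd : ℝ} {rr s' : ℕ → ℝ} {σ τ : ℝ} (G : Good b α B dl K m c P r) (i : Fin N) {l : ℕ}
    (hl : l ≤ K) : |(GE K m b α μ g c P r k0 rd rr s' σ τ).u i l| ≤ dl := by
  show |Function.extend (wi r k0) (fun _ _ => (0 : ℝ)) (fun i => P.u (c i)) i l| ≤ dl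
  by_cases h : ∃ j, wi r k0 j = i
  · obtain ⟨j, rfl⟩ := h
    rw [(m2_wi_inj G.hr k0).extend_apply, abs_zero]
    exact G.dl0
  · rw [Function.extend_apply' _ _ _ h]
    exact G.hu _ l hl

/-- The overlap path. -/
lemma lo_path {N K : ℕ} {m : ℕ → ℝ} {b α : Fin (n + 1) → ℝ} {B dl : ℝ}
    {c : Fin N → Fin (n + 1)} {P : Pm (n + 1)} {r : Fin (n + 1) → Fin N}
    [MeasurableSpace (orthogonalGroup (Fin N) ℝ)]
    [BorelSpace (orthogonalGroup (Fin N) ℝ)] (ν : Measure (orthogonalGroup (Fin N) ℝ))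
    [IsProbabilityMeasure ν] (G : Good b α B dl K m c P r) :
    Path K (Ql ν K m c P) ∧ Ql ν K m c P 0 = 0 ∧ Ql ν K m c P K < 1 := by
  refine ⟨⟨?_, ?_⟩, ?_, Ql_lt_one G.hm G.N0⟩
  · exact Finset.sum_nonneg fun k _ => Rkl_nonneg G.hm G.N0 k (Nat.zero_le K)
  · intro l hl
    exact Finset.sum_le_sum fun k _ => Rkl_mono G.hm G.N0 k hl
  · exact Finset.sum_eq_zero fun k _ => Rkl_zero G.hm G.N0 G.s0 G.u0 k

/-- **The loop equation of an outlier.** The weighted one-pattern loop equation (H1j, `H/`) of the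
pattern `wi r k0 j` against the set `Bt`, in the system `GE`:
`al M = R * ((μ_j - P.b last) M + σ g_j Qe) + error`, `R = Mk ν K m c P last`; the errors are bounded
with `m2_E` and `Err.hE`; `R` is close to `α_last / (A - b_last)` by `U.stab_loop`,
`H.loop_bound`; then `loop_alg`. -/
theorem loop_E {β : ℝ} (hβ : 0 < β) {a α : Fin (n + 1) → ℝ} {μ g : Fin n → ℝ}
    {Q : Fin (n + 1) → Matrix (Fin (n + 1)) (Fin (n + 1)) ℝ} (D : Dat (fun k => β * a k) α μ g Q)
    (B : ℝ) :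
    ∃ C x0 : ℝ, 0 ≤ C ∧ 0 < x0 ∧ ∀ (N K : ℕ) (m : ℕ → ℝ) (c : Fin N → Fin (n + 1)) (P : Pm (n + 1))
      (r : Fin (n + 1) → Fin N) (k0 : Fin (n + 1)) [MeasurableSpace (orthogonalGroup (Fin N) ℝ)]
      [BorelSpace (orthogonalGroup (Fin N) ℝ)] (ν : Measure (orthogonalGroup (Fin N) ℝ))
      [IsProbabilityMeasure ν] [ν.IsMulLeftInvariant] (dl X : ℝ),
      Good (fun k => β * a k) α B dl K m c P r → Err (fun k => β * a k) α μ g B dl X ν K m c P r →
      X ≤ x0 → ∀ (rd : ℝ) (rr s' : ℕ → ℝ) (σ τ : ℝ), EPar K B rd rr s' σ τ → ∀ j : Fin n,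
      |EU ν (fun U => ((GE K m (fun k => β * a k) α μ g c P r k0 rd rr s' σ τ).sy U).Ex
          (fun _ x => sg1 x.1 * (U *ᵥ spin x.2) (wi r k0 j))) -
        σ * g j * (Hm.mul K m (Gj β a α μ K m (Ql ν K m c P) j)
          (Qe ν (GE K m (fun k => β * a k) α μ g c P r k0 rd rr s' σ τ))).d| ≤ C * √X := by
  obtain ⟨Cm, x1, hCm, hx1, hm2⟩ := m2_E D B
  obtain ⟨x2, hx2, hcard⟩ := Bt_card D B
  obtain ⟨CR, hCR, hR⟩ := lo_R hβ D B
  -- the constants
  obtain ⟨g0, hg0⟩ : ∃ g0, g0 = ∑ j, |g j| := ⟨_, rfl⟩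
  have hg00 : 0 ≤ g0 := by rw [hg0]; positivity
  have hgj : ∀ j, |g j| ≤ g0 := fun j => by
    rw [hg0]
    exact Finset.single_le_sum (f := fun j => |g j|) (fun _ _ => abs_nonneg _) (Finset.mem_univ j)
  obtain ⟨L, hL⟩ : ∃ L, L = ∑ j, |μ j - β * a (Fin.last n)| + 1 := ⟨_, rfl⟩
  have hL0 : 0 ≤ L := by rw [hL]; positivity
  have hLj : ∀ j, |μ j - β * a (Fin.last n)| + 1 ≤ L := fun j => by
    rw [hL]
    have := Finset.single_le_sum (f := fun j => |μ j - β * a (Fin.last n)|)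
      (fun _ _ => abs_nonneg _) (Finset.mem_univ j)
    linarith only [this]
  obtain ⟨C0, hC0⟩ : ∃ C0, C0 = 1 + Cm + g0 := ⟨_, rfl⟩
  have hC00 : 0 ≤ C0 := by rw [hC0]; positivity
  obtain ⟨CA, hCA, hAlg⟩ := loop_alg hβ D hC00
  obtain ⟨V, hV⟩ : ∃ V, V = 2 * L ^ 2 * Cm + 2 * g0 ^ 2 := ⟨_, rfl⟩
  have hV0 : 0 ≤ V := by rw [hV]; positivity
  obtain ⟨C1, hC1⟩ : ∃ C1, C1 = CR + (n + 1) + 12 * √V + 90 * (1 + Cm) := ⟨_, rfl⟩
  have hn0 : (0 : ℝ) ≤ n := Nat.cast_nonneg n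
  have hsV := Real.sqrt_nonneg V
  have hC10 : 1 ≤ C1 := by rw [hC1]; linarith only [hCm, hCR, hsV]
  refine ⟨CA * C1, min x1 (min x2 (min 1 (1 / C1 ^ 2))), by positivity, by positivity, ?_⟩
  intro N K m c P r k0 _ _ ν _ _ dl X G E hX rd rr s' σ τ EP j
  have hX1 : X ≤ x1 := hX.trans (min_le_left _ _)
  have hX2 : X ≤ x2 := hX.trans ((min_le_right _ _).trans (min_le_left _ _))
  have hX3 : X ≤ 1 := hX.trans ((min_le_right _ _).trans ((min_le_right _ _).trans
    (min_le_left _ _)))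
  have hX4 : X ≤ 1 / C1 ^ 2 := hX.trans ((min_le_right _ _).trans ((min_le_right _ _).trans
    (min_le_right _ _)))
  have hdl0 := G.dl0
  have hdlX : dl ≤ X := m2_dl_le G E.hdl
  have hdl1 : dl ≤ 1 := hdlX.trans hX3
  have hX0 : 0 ≤ X := hdl0.trans hdlX
  -- the error
  have hsX0 := Real.sqrt_nonneg X
  have hsX1 : √X ≤ 1 := Real.sqrt_le_one.2 hX3
  have hXs : X ≤ √X := by
    have := Real.mul_self_sqrt hX0
    nlinarith only [this, hsX0, hsX1]
  have he1 : C1 * √X ≤ 1 := by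
    have h1 : √X ≤ √(1 / C1 ^ 2) := Real.sqrt_le_sqrt hX4
    rw [Real.sqrt_div zero_le_one, Real.sqrt_one, Real.sqrt_sq (by linarith only [hCm, hCR, hC1, hsV])] at h1
    rw [le_div_iff₀ (by linarith only [hCm, hCR, hC1, hsV])] at h1
    linarith only [h1]
  have hC1s : C1 * √X = CR * √X + (n * √X + √X) + 12 * (√V * √X) + 90 * (√X + Cm * √X) := by
    rw [hC1]; ring
  have z1 := mul_nonneg hCR hsX0
  have z2 := mul_nonneg hn0 hsX0
  have z3 := mul_nonneg hsV hsX0
  have z4 := mul_nonneg hCm hsX0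
  -- the system
  have hA : (GE K m (fun k => β * a k) α μ g c P r k0 rd rr s' σ τ).Ok := egs_ok G.hm _
  have hε : ∀ x : Xe N, |(fun x : Xe N => sg1 x.1) x| ≤ 1 := fun x => (m2_sg1 x.1).le
  have hy2 := hm2 N K m c P r k0 ν dl G (E.hdl.trans hX1) (E.hN.trans hX1) rd rr s' σ τ EP j
  have hkap := fun x : Xe N => m2_kap_w (m := m) (b := fun k => β * a k) (α := α) (μ := μ) (g := g)
    (c := c) (P := P) (k0 := k0) (rd := rd) (rr := rr) (s' := s') (σ := σ) (τ := τ) (K := K)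
    G.hr j x
  have hlam := m2_lam_w (m := m) (b := fun k => β * a k) (α := α) (μ := μ) (g := g)
    (c := c) (P := P) (k0 := k0) (rd := rd) (rr := rr) (s' := s') (σ := σ) (τ := τ) (K := K)
    G.hr j
  obtain ⟨hbd, hbe⟩ := lo_Ph1_bd ν hA (ε := fun x => sg1 x.1) hε (j := wi r k0 j) hy2
  have hbl := G.hb (Fin.last n)
  have hgap : |(GE K m (fun k => β * a k) α μ g c P r k0 rd rr s' σ τ).lam (wi r k0 j) -
      P.b (Fin.last n)| ≤ L := by
    rw [hlam]
    have e : μ j - P.b (Fin.last n) = (μ j - β * a (Fin.last n)) -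
      (P.b (Fin.last n) - β * a (Fin.last n)) := by ring
    rw [e]
    refine (abs_sub _ _).trans ?_
    have := hLj j
    linarith only [hX3, hdlX, hbl, this]
  have hsg : |σ * g j| ≤ g0 := by
    rw [abs_mul]
    have h1 := mul_le_mul EP.hσ (hgj j) (abs_nonneg _) zero_le_one
    linarith only [h1]
  have hYY := lo_YY ν hA (j := wi r k0 j) (b := P.b (Fin.last n)) (s := g0) (C := Cm) (L := L)
    (fun x => by
      rw [hkap x, abs_mul, m2_sg1, mul_one]
      exact hsg) hgap hy2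
  rw [← hV] at hYY
  -- the loop equation
  have hDv : GS.DvB ν (GE K m (fun k => β * a k) α μ g c P r k0 rd rr s' σ τ) (Bt c (wi r k0))
      (Mk ν K m c P (Fin.last n)) ≤ X := E.hE k0 rd rr s' σ τ EP
  have hexp := egy1_expo G.hm
  have hLO := lo_LO_le ν hA G.N0 (j := wi r k0 j) (Bs := Bt c (wi r k0)) (b := P.b (Fin.last n))
    (η := dl) (fun h => (m2_mem_Bt h).2 ⟨j, rfl⟩) (fun q hq => m2_lam hq)
    (fun q hq x => by rw [m2_kap hq]; rfl) (fun i l hl => lo_u G i hl) hdl0 hdl1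
    (M := Mk ν K m c P (Fin.last n)) (ε := fun x => sg1 x.1) hε (egy1_abs_d G.hm G.N0 _)
    (fun i hi => egy1_abs_e G.hm G.N0 _ hi) hCm hYY hy2 hDv (E.hdl.trans hXs)
  have hε1 : ∀ x : Xe N, (fun x : Xe N => sg1 x.1) x * (fun x : Xe N => sg1 x.1) x = 1 := fun x => by
    show sg1 x.1 * sg1 x.1 = 1
    unfold sg1
    split_ifs <;> norm_num
  have hLE := lo_LO_eq ν hA (ε := fun x => sg1 x.1) hε hε1 (j := wi r k0 j)
    (b := P.b (Fin.last n)) (s := σ * g j) hkap hlam (Bt c (wi r k0)) (Mk ν K m c P (Fin.last n))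
  rw [← hLE] at hLO
  have hLC : (12 * √V + 90 * (1 + Cm)) * √X ≤ C1 * √X := by
    refine mul_le_mul_of_nonneg_right ?_ hsX0
    rw [hC1]
    linarith only [hCR]
  have hQe : ∀ l ≤ K, |(Qe ν (GE K m (fun k => β * a k) α μ g c P r k0 rd rr s' σ τ)).e l| ≤ 1 :=
    fun l hl => lo_Q ν hA (ε := fun x => sg1 x.1) hε hl
  -- the algebra
  obtain ⟨hp1, hp2, hp3⟩ := lo_path ν G
  have hal : |GS.al N (Bt c (wi r k0)) - α (Fin.last n)| ≤ C1 * √X := by
    have h1 := (hcard N K m c P r k0 dl G (E.hdl.trans hX2) (E.hN.trans hX2)).2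
    refine le_trans h1 ?_
    have h2 := lo_nN G.N0 hn0 E.hN hX3
    have h3 := mul_le_mul_of_nonneg_left hXs hn0
    linarith only [hdl0, hdlX, hXs, hC1s, z1, z3, z4, h2, h3]
  have hmain := hAlg K m (Ql ν K m c P) j
    (GS.Ph1 ν (GE K m (fun k => β * a k) α μ g c P r k0 rd rr s' σ τ) (fun x => sg1 x.1)
      (fun U x => (GE K m (fun k => β * a k) α μ g c P r k0 rd rr s' σ τ).y U x (wi r k0 j)))
    (Qe ν (GE K m (fun k => β * a k) α μ g c P r k0 rd rr s' σ τ)) (Mk ν K m c P (Fin.last n))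
    (σ * g j) (GS.al N (Bt c (wi r k0))) (P.b (Fin.last n)) (C1 * √X) hexp hp1 hp2 hp3
    (by positivity) (hsg.trans (by rw [hC0]; linarith only [hCm])) (hbd.trans (by rw [hC0]; linarith only [hg00]))
    (fun l hl => (hbe l hl).trans (by rw [hC0]; linarith only [hg00])) (by show |(1 : ℝ)| ≤ 1; simp) hQe
    (egy1_abs_d G.hm G.N0 _) (fun i hi => egy1_abs_e G.hm G.N0 _ hi) hal
    (by linarith only [hdl0, hC1s, z1, z2, z3, z4, hbl, hdlX, hXs]) he1
    (by
      have h1 := hR N K m c P r ν dl X G E hX3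
      have h2 := mul_le_mul_of_nonneg_left hXs hCR
      linarith only [hsX0, hC1s, z2, z3, z4, h1, h2])
    (hLO.trans hLC)
  have hfin := (lo_d_le hexp _).trans hmain
  rw [mul_assoc CA]
  refine le_trans (le_of_eq ?_) hfin
  have e : EU ν (fun U => ((GE K m (fun k => β * a k) α μ g c P r k0 rd rr s' σ τ).sy U).Ex
          (fun _ x => sg1 x.1 * (U *ᵥ spin x.2) (wi r k0 j))) =
      EU ν (fun U => ((GE K m (fun k => β * a k) α μ g c P r k0 rd rr s' σ τ).sy U).Ex
          (fun _ x => (U *ᵥ spin x.2) (wi r k0 j) * sg1 x.1)) := by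
    simp only [mul_comm]
  rw [e]
  rfl

end Vale.Agent.P166.L
end
end

section

section

/-!
P166, lower bound: interpolation between the outliers and the Gaussian cavity field.
-/

open MeasureTheory ProbabilityTheory Matrix Filter Topology

namespace Vale.Agent.P166.L

open Vale.Agent.P157 (spin)
open Vale.Agent.P157.Lv Vale.Agent.P157.Par Md H U
open Vale.Agent.P166.F (Expo)

variable {n : ℕ}

section pe

variable {N K : ℕ} {m : ℕ → ℝ}

/-! ### Real analysis -/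

lemma pe_abel (a r : ℕ → ℝ) (h0 : r 0 = 0) (K : ℕ) :
    ∑ l ∈ Finset.range K, (r (l + 1) - r l) * ∑ k ∈ Finset.Ico (l + 1) (K + 1), a k =
      ∑ k ∈ Finset.range (K + 1), a k * r k := by
  induction K with
  | zero => simp only [Finset.range_zero, zero_add, le_add_iff_nonneg_left, zero_le, Finset.Ico_eq_empty_of_le, Finset.sum_empty, mul_zero, Finset.sum_const_zero, Finset.range_one, Finset.sum_singleton, h0]
  | succ K ih =>
    have h1 : ∀ l ∈ Finset.range (K + 1), (r (l + 1) - r l) *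
        ∑ k ∈ Finset.Ico (l + 1) (K + 1 + 1), a k =
        (r (l + 1) - r l) * ∑ k ∈ Finset.Ico (l + 1) (K + 1), a k +
          (r (l + 1) - r l) * a (K + 1) := by
      intro l hl
      have hl' := Finset.mem_range.1 hl
      rw [Finset.sum_Ico_succ_top (by omega), mul_add]
    rw [Finset.sum_congr rfl h1, Finset.sum_add_distrib, Finset.sum_range_succ, ih,
      Finset.Ico_self, Finset.sum_empty, mul_zero, add_zero, ← Finset.sum_mul,
      Finset.sum_range_sub, h0, sub_zero, Finset.sum_range_succ (fun k => a k * r k) (K + 1)]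
    ring

/-- The sum over the cavity fields. -/
lemma pe_cov {rr q p : ℕ → ℝ} (h0 : rr 0 = 0) (hrr : ∀ l < K, rr l ≤ rr (l + 1)) (τ τ' : ℝ) :
    ∑ l ∈ Finset.range (K + 1), (tcov τ' rr l - tcov τ rr l) * (tcov τ rr l *
      (1 - ∑ k ∈ Finset.Ico l (K + 1), p k * q k)) =
    (τ' - τ) * τ * (rr K - ∑ k ∈ Finset.range (K + 1), p k * (rr k * q k)) := by
  rw [Finset.sum_range_succ']
  have h1 : ∀ l ∈ Finset.range K, (tcov τ' rr (l + 1) - tcov τ rr (l + 1)) * (tcov τ rr (l + 1) *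
      (1 - ∑ k ∈ Finset.Ico (l + 1) (K + 1), p k * q k)) =
      (τ' - τ) * τ * ((rr (l + 1) - rr l) -
        (rr (l + 1) - rr l) * ∑ k ∈ Finset.Ico (l + 1) (K + 1), p k * q k) := by
    intro l hl
    have h2 := Real.mul_self_sqrt (sub_nonneg.2 (hrr l (Finset.mem_range.1 hl)))
    have h5 : ∀ t : ℝ, tcov t rr (l + 1) = t * √(rr (l + 1) - rr l) := fun _ => rfl
    rw [h5, h5]
    set s := √(rr (l + 1) - rr l)
    rw [← h2]
    ring
  have h3 : tcov τ rr 0 = 0 := rfl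
  rw [Finset.sum_congr rfl h1, h3, ← Finset.mul_sum, Finset.sum_sub_distrib,
    Finset.sum_range_sub, h0, pe_abel _ _ h0]
  have h4 : ∀ k, p k * q k * rr k = p k * (rr k * q k) := fun k => by ring
  simp only [h4]
  ring

/-- From tangents to the difference. -/
lemma pe_path {F : ℝ → ℝ} {C D : ℝ} (a b : ℝ)
    (h : ∀ φ φ', F φ - C * (φ' - φ) ^ 2 - D * |φ' - φ| ≤ F φ') :
    F a - D * |b - a| ≤ F b := by
  have key : ∀ M : ℕ, 0 < M → F a - D * |b - a| - F b ≤ C * (b - a) ^ 2 / M := by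
    intro M hM
    have hM' : (0 : ℝ) < M := by exact_mod_cast hM
    set s := (b - a) / M with hs
    have h1 : ∀ i : ℕ, F a - i * (C * s ^ 2 + D * |s|) ≤ F (a + i * s) := by
      intro i
      induction i with
      | zero => simp only [CharP.cast_eq_zero, zero_mul, sub_zero, add_zero, Std.le_refl]
      | succ i ih =>
        have h2 := h (a + i * s) (a + (i + 1 : ℕ) * s)
        have e : a + ((i + 1 : ℕ) : ℝ) * s - (a + i * s) = s := by
          push_cast
          ring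
        rw [e] at h2
        push_cast at h2 ⊢
        linarith only [ih, h2]
    have h2 := h1 M
    have e1 : a + M * s = b := by
      rw [hs]
      field_simp
      ring
    rw [e1] at h2
    have e2 : (M : ℝ) * (C * s ^ 2 + D * |s|) = C * (b - a) ^ 2 / M + D * |b - a| := by
      rw [hs, abs_div, abs_of_pos hM']
      field_simp
    rw [e2] at h2
    linarith only [h2]
  by_contra hcon
  push Not at hcon
  have h0 : 0 < F a - D * |b - a| - F b := by linarith only [hcon]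
  obtain ⟨M, hM⟩ := exists_nat_gt (C * (b - a) ^ 2 / (F a - D * |b - a| - F b))
  have hC : 0 < C * (b - a) ^ 2 := by
    have := key 1 one_pos
    simp only [Nat.cast_one, div_one] at this
    linarith only [hcon, this]
  have hM0 : (0 : ℝ) < M := lt_trans (div_pos hC h0) hM
  have h1 := key M (by exact_mod_cast hM0)
  rw [div_lt_iff₀ h0] at hM
  rw [le_div_iff₀ hM0] at h1
  linarith only [hM, h1]

/-! ### The systems -/

lemma pe_extend_sum {w : Fin n → Fin N} (hw : Function.Injective w) (f : Fin n → ℝ)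
    (h : Fin N → ℝ) :
    ∑ i, Function.extend w f (fun _ => 0) i * h i = ∑ j, f j * h (w j) := by
  have h1 : ∑ i ∈ Finset.univ.image w, Function.extend w f (fun _ => 0) i * h i =
      ∑ i, Function.extend w f (fun _ => 0) i * h i := by
    refine Finset.sum_subset (Finset.subset_univ _) fun i _ hi => ?_
    rw [Function.extend_apply', zero_mul]
    rintro ⟨j, rfl⟩
    exact hi (Finset.mem_image_of_mem w (Finset.mem_univ j))
  rw [← h1, Finset.sum_image (fun a _ b _ hab => hw hab)]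
  exact Finset.sum_congr rfl fun j _ => by rw [hw.extend_apply]

/-- The energy as a function of `σ`, `τ`. -/
lemma pe_en {c : Fin N → Fin (n + 1)} {w : Fin n → Fin N} (hw : Function.Injective w)
    (P : Pm (n + 1)) (μ g : Fin n → ℝ) (mb rd : ℝ) (rr s' : ℕ → ℝ) (σ τ : ℝ)
    (U : Matrix (Fin N) (Fin N) ℝ) (z : Ie N K → ℝ) (x : Xe N) :
    (egs K m (MP K c w P μ g mb rd rr s' σ τ)).en U z x =
      (1 / 2 * mb + ∑ l ∈ Finset.range (K + 1), P.s l * ∑ i, z (scE l i) * spin x.2 i +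
        sg1 x.1 * ∑ l ∈ Finset.range (K + 1), s' l * z (ecE N K l) +
        ∑ i, (Function.extend w μ fun i => P.b (c i)) i / 2 * (U *ᵥ spin x.2) i ^ 2 +
        ∑ l ∈ Finset.range (K + 1), ∑ i, (Function.extend w (fun _ _ => 0) fun i => P.u (c i)) i l *
          (z (bcE l i) * (U *ᵥ spin x.2) i)) +
      (1 / 2 * τ ^ 2 * (rd - rr K) + σ * ∑ j, g j * (sg1 x.1 * (U *ᵥ spin x.2) (w j)) +
        ∑ l ∈ Finset.range (K + 1), tcov τ rr l * (z (zcE N K l) * sg1 x.1)) := by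
  have e1 : ∑ i, (Function.extend w (fun j => σ * g j) fun _ => 0) i * sg1 x.1 *
      (U *ᵥ spin x.2) i = σ * ∑ j, g j * (sg1 x.1 * (U *ᵥ spin x.2) (w j)) := by
    have h := pe_extend_sum hw (fun j => σ * g j) (fun i => sg1 x.1 * (U *ᵥ spin x.2) i)
    rw [Finset.mul_sum]
    simp only [mul_assoc] at h ⊢
    exact h
  have e2 : ∑ l ∈ Finset.range (K + 1), tcov τ rr l * (z (zcE N K l) * sg1 x.1) =
      sg1 x.1 * ∑ l ∈ Finset.range (K + 1), tcov τ rr l * z (zcE N K l) := by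
    rw [Finset.mul_sum]
    exact Finset.sum_congr rfl fun l _ => by ring
  have e3 : (egs K m (MP K c w P μ g mb rd rr s' σ τ)).en U z x =
      (1 / 2 * mb + 1 / 2 * τ ^ 2 * (rd - rr K) +
        ∑ l ∈ Finset.range (K + 1), P.s l * ∑ i, z (scE l i) * spin x.2 i +
        sg1 x.1 * ∑ l ∈ Finset.range (K + 1), (s' l * z (ecE N K l) +
          tcov τ rr l * z (zcE N K l))) +
      (∑ i, (Function.extend w μ fun i => P.b (c i)) i / 2 * (U *ᵥ spin x.2) i ^ 2 +
        ∑ i, (Function.extend w (fun j => σ * g j) fun _ => 0) i * sg1 x.1 * (U *ᵥ spin x.2) i +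
        ∑ l ∈ Finset.range (K + 1), ∑ i, (Function.extend w (fun _ _ => 0) fun i => P.u (c i)) i l *
          (z (bcE l i) * (U *ᵥ spin x.2) i)) := rfl
  rw [e3, e1, e2, Finset.sum_add_distrib]
  ring

lemma pe_sg (b : Bool) : sg1 b * sg1 b = 1 := by
  unfold sg1
  split_ifs <;> norm_num

lemma pe_abs_sg (b : Bool) : |sg1 b| = 1 := by
  unfold sg1
  split_ifs <;> norm_num

/-- Integration by parts for a cavity field. -/
lemma pe_zc (hm : Exponents K m) (E : EPm N) (U : Matrix (Fin N) (Fin N) ℝ) {l : ℕ} (hl : l ≤ K) :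
    ((egs K m E).sy U).Ex (fun z x => z (zcE N K l) * sg1 x.1) =
      E.t l * (1 - ∑ k ∈ Finset.Ico l (K + 1), (m (k + 1) - m k) *
        ((egs K m E).sy U).pairEx k (fun x x' => sg1 x.1 * sg1 x'.1)) := by
  set S := (egs K m E).sy U with hSdef
  have hR : S.RegD (egsD K E U) := egs_regD hm E U
  have hS : S.Reg := hR.toReg
  have hK : S.K = K := rfl
  have hval : ((Fin.ofNat (K + 1) l : Fin (K + 1)) : ℕ) = l := mdl_ofNat hl
  have hlev : S.lev (zcE N K l) = l := hval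
  have hD : egsD K E U (zcE N K l) = fun _ x => E.t l * sg1 x.1 := by
    funext z x
    show E.t ((Fin.ofNat (K + 1) l : Fin (K + 1)) : ℕ) * sg1 x.1 = _
    rw [hval]
  have nsg : Nh (ι := Ie N K) (X := Xe N) (fun _ x => sg1 x.1) :=
    Sy.Nh.snd (X := Xe N) fun x => sg1 x.1
  have h1 := hR.ibp (zcE N K l) (h := fun _ x => sg1 x.1) (h' := fun _ _ => 0)
    (fun x => PD.const _) nsg (Sy.Nh.snd (X := Xe N) fun _ => (0 : ℝ))
  rw [h1, hlev, hD, hK]
  have hT : ∀ k z, S.T k (fun _ x => E.t l * sg1 x.1) z = E.t l * S.T k (fun _ x => sg1 x.1) z :=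
    fun k z => Sy.T_const_mul S k (E.t l) (fun _ x => sg1 x.1) z
  have hp : ∀ k, S.p k = m (k + 1) - m k := fun k => rfl
  have e : (fun (z : Ie N K → ℝ) (x : Xe N) => (0 : ℝ) + sg1 x.1 * (E.t l * sg1 x.1 -
      ∑ k ∈ Finset.Ico l (K + 1), S.p k * S.T k (fun _ x => E.t l * sg1 x.1) z)) =
      fun z x => E.t l * (1 - ∑ k ∈ Finset.Ico l (K + 1), (m (k + 1) - m k) *
        (S.T k (fun _ x => sg1 x.1) z * sg1 x.1)) := by
    funext z x
    have e1 : ∑ k ∈ Finset.Ico l (K + 1), S.p k * S.T k (fun _ x => E.t l * sg1 x.1) z =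
        E.t l * ∑ k ∈ Finset.Ico l (K + 1), (m (k + 1) - m k) * S.T k (fun _ x => sg1 x.1) z := by
      rw [Finset.mul_sum]
      refine Finset.sum_congr rfl fun k _ => ?_
      rw [hT, hp]
      ring
    have e2 : ∑ k ∈ Finset.Ico l (K + 1), (m (k + 1) - m k) *
        (S.T k (fun _ x => sg1 x.1) z * sg1 x.1) =
        sg1 x.1 * ∑ k ∈ Finset.Ico l (K + 1), (m (k + 1) - m k) *
          S.T k (fun _ x => sg1 x.1) z := by
      rw [Finset.mul_sum]
      refine Finset.sum_congr rfl fun k _ => ?_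
      ring
    rw [e1, e2]
    have := pe_sg x.1
    linear_combination E.t l * this
  rw [e, Sy.Ex_const_mul]
  have hk : ∀ k ∈ Finset.Ico l (K + 1), k ≤ S.K := fun k hk => by
    have := (Finset.mem_Ico.1 hk).2
    rw [hK]
    omega
  have nk : ∀ k ∈ Finset.Ico l (K + 1), Nh (ι := Ie N K) (X := Xe N) (fun z x =>
      (m (k + 1) - m k) * (S.T k (fun _ x => sg1 x.1) z * sg1 x.1)) := fun k hk' =>
    Sy.Nh.const_mul _ (Sy.Nh.mul (Sy.Nh.fst (hS.eg_T (hk k hk') nsg)) nsg)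
  rw [hS.Ex_sub (Sy.Nh.snd (X := Xe N) fun _ => (1 : ℝ)) (Sy.Nh.sum _ nk), hS.Ex_const,
    hS.Ex_sum _ nk]
  congr 2
  refine Finset.sum_congr rfl fun k hk' => ?_
  rw [Sy.Ex_const_mul]
  congr 1
  have h2 := hS.Ex_mul_T (hk k hk') (S.dep_T k (fun _ x => sg1 x.1)) (hS.eg_T (hk k hk') nsg) nsg
  rw [← h2]
  unfold Sy.pairEx
  congr 1
  funext z _
  rw [hS.T_pr (hk k hk') (fun x : Xe N => sg1 x.1) z, Finset.sum_mul_sum]
  refine Finset.sum_congr rfl fun x _ => Finset.sum_congr rfl fun x' _ => ?_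
  ring

variable [MeasurableSpace (orthogonalGroup (Fin N) ℝ)] [BorelSpace (orthogonalGroup (Fin N) ℝ)]
  (ν : Measure (orthogonalGroup (Fin N) ℝ)) [IsProbabilityMeasure ν]

omit [BorelSpace (orthogonalGroup (Fin N) ℝ)] in
lemma pe_Qe_le (hm : Exponents K m) (E : EPm N) {l : ℕ} (hl : l ≤ K) :
    |(Qe ν (egs K m E)).e l| ≤ 1 := by
  have hA := egs_ok hm E
  show |∫ U : orthogonalGroup (Fin N) ℝ, ((egs K m E).sy U.1).pairEx l
    (fun x x' => sg1 x.1 * sg1 x'.1) ∂ν| ≤ 1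
  have hb : ∀ U : orthogonalGroup (Fin N) ℝ, |((egs K m E).sy U.1).pairEx l
      (fun x x' => sg1 x.1 * sg1 x'.1)| ≤ 1 := by
    intro U
    have hR := hA.reg U.1
    have h2 : ∀ x x' : Xe N, |sg1 x.1 * sg1 x'.1| ≤ 1 := fun x x' => by
      rw [abs_mul, pe_abs_sg, pe_abs_sg, _root_.one_mul]
    rw [abs_le]
    constructor
    · have h1 := hR.pairEx_mono (l := l) hl (ψ := fun _ _ => -1)
        (ψ' := fun x x' => sg1 x.1 * sg1 x'.1) fun x x' => (abs_le.1 (h2 x x')).1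
      rwa [hR.pairEx_const (l := l) hl] at h1
    · have h1 := hR.pairEx_mono (l := l) hl (ψ := fun x x' => sg1 x.1 * sg1 x'.1)
        (ψ' := fun _ _ => 1) fun x x' => (abs_le.1 (h2 x x')).2
      rwa [hR.pairEx_const (l := l) hl] at h1
  have h := norm_integral_le_of_norm_le_const (μ := ν) (C := 1)
    (Filter.Eventually.of_forall fun U => by rw [Real.norm_eq_abs]; exact hb U)
  simpa only [ge_iff_le, Real.norm_eq_abs, probReal_univ, mul_one] using h

/-- **Jensen's inequality**, averaged over the orthogonal group. -/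
lemma pe_jensen (hm : Exponents K m) {c : Fin N → Fin (n + 1)} {w : Fin n → Fin N}
    (hw : Function.Injective w) (P : Pm (n + 1)) (μ g : Fin n → ℝ) (mb rd : ℝ) (rr s' : ℕ → ℝ)
    (σ τ σ' τ' : ℝ) :
    (τ' ^ 2 - τ ^ 2) / 2 * (rd - rr K) +
      (σ' - σ) * ∑ j, g j * EU ν (fun U =>
        ((egs K m (MP K c w P μ g mb rd rr s' σ τ)).sy U).Ex
          (fun _ x => sg1 x.1 * (U *ᵥ spin x.2) (w j))) +
      ∑ l ∈ Finset.range (K + 1), (tcov τ' rr l - tcov τ rr l) * (tcov τ rr l *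
        (1 - ∑ k ∈ Finset.Ico l (K + 1), (m (k + 1) - m k) *
          (Qe ν (egs K m (MP K c w P μ g mb rd rr s' σ τ))).e k)) ≤
    EF ν K m (MP K c w P μ g mb rd rr s' σ' τ') - EF ν K m (MP K c w P μ g mb rd rr s' σ τ) := by
  set E := MP K c w P μ g mb rd rr s' σ τ with hE
  set E' := MP K c w P μ g mb rd rr s' σ' τ' with hE'
  have hA := egs_ok hm E
  have hA' := egs_ok hm E'
  have hyb : ∀ (U : orthogonalGroup (Fin N) ℝ) (x : Xe N) j,
      |sg1 x.1 * (U.1 *ᵥ spin x.2) (w j)| ≤ √N := by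
    intro U x j
    rw [abs_mul, pe_abs_sg, _root_.one_mul]
    exact hA.abs_y_le U.2 x (w j)
  have i1 : ∀ j, Integrable (fun U : orthogonalGroup (Fin N) ℝ =>
      ((egs K m E).sy U.1).Ex (fun _ x => sg1 x.1 * (U.1 *ᵥ spin x.2) (w j))) ν := fun j =>
    int_gs_Ex ν hA (f := fun U x => sg1 x.1 * (U *ᵥ spin x.2) (w j))
      (fun x => (meas_ph x.2 (w j)).const_mul _) ⟨√N, fun U x => hyb U x j⟩
  have i2 : ∀ k ≤ K, Integrable (fun U : orthogonalGroup (Fin N) ℝ =>
      ((egs K m E).sy U.1).pairEx k (fun x x' => sg1 x.1 * sg1 x'.1)) ν := fun k hk =>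
    int_gs_pairEx ν hA (l := k) hk (f := fun _ x x' => sg1 x.1 * sg1 x'.1)
      (fun x x' => measurable_const) ⟨1, fun U x x' => by
        rw [abs_mul, pe_abs_sg, pe_abs_sg, _root_.one_mul]⟩
  have key : ∀ U : orthogonalGroup (Fin N) ℝ,
      (τ' ^ 2 - τ ^ 2) / 2 * (rd - rr K) +
      (σ' - σ) * ∑ j, g j * ((egs K m E).sy U.1).Ex
          (fun _ x => sg1 x.1 * (U.1 *ᵥ spin x.2) (w j)) +
      ∑ l ∈ Finset.range (K + 1), (tcov τ' rr l - tcov τ rr l) * (tcov τ rr l *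
        (1 - ∑ k ∈ Finset.Ico l (K + 1), (m (k + 1) - m k) *
          ((egs K m E).sy U.1).pairEx k (fun x x' => sg1 x.1 * sg1 x'.1))) ≤
      ((egs K m E').sy U.1).fe - ((egs K m E).sy U.1).fe := by
    intro U
    set S := (egs K m E).sy U.1 with hSd
    have hS : S.Reg := hA.reg U.1
    have hS' : (S.wH ((egs K m E').en U.1)).Reg := hA'.reg U.1
    have h1 := hS.jensen hS'
    have e0 : (S.wH ((egs K m E').en U.1)).fe = ((egs K m E').sy U.1).fe := rfl
    rw [e0] at h1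
    refine le_trans (le_of_eq ?_) h1
    have e1 : (fun (z : Ie N K → ℝ) (x : Xe N) => (egs K m E').en U.1 z x - S.H z x) =
        fun z x => ((τ' ^ 2 - τ ^ 2) / 2 * (rd - rr K) +
          (σ' - σ) * ∑ j, g j * (sg1 x.1 * (U.1 *ᵥ spin x.2) (w j))) +
          ∑ l ∈ Finset.range (K + 1), (tcov τ' rr l - tcov τ rr l) *
            (z (zcE N K l) * sg1 x.1) := by
      funext z x
      show (egs K m E').en U.1 z x - (egs K m E).en U.1 z x = _
      rw [hE, hE', pe_en hw, pe_en hw]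
      simp only [sub_mul, Finset.sum_sub_distrib]
      ring
    have nsg : Nh (ι := Ie N K) (X := Xe N) (fun _ x => sg1 x.1) :=
      Sy.Nh.snd (X := Xe N) fun x => sg1 x.1
    have ny : ∀ j ∈ (Finset.univ : Finset (Fin n)), Nh (ι := Ie N K) (X := Xe N) (fun _ x =>
        g j * (sg1 x.1 * (U.1 *ᵥ spin x.2) (w j))) := fun j _ =>
      Sy.Nh.snd (X := Xe N) fun x => g j * (sg1 x.1 * (U.1 *ᵥ spin x.2) (w j))
    have nz : ∀ l ∈ Finset.range (K + 1), Nh (ι := Ie N K) (X := Xe N) (fun z x =>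
        (tcov τ' rr l - tcov τ rr l) * (z (zcE N K l) * sg1 x.1)) := fun l _ =>
      Sy.Nh.const_mul _ (Sy.Nh.mul (Sy.Nh.fst (EG.coord _)) nsg)
    rw [e1, hS.Ex_add (Sy.Nh.add (Sy.Nh.snd (X := Xe N) fun _ =>
        (τ' ^ 2 - τ ^ 2) / 2 * (rd - rr K)) (Sy.Nh.const_mul _ (Sy.Nh.sum _ ny))) (Sy.Nh.sum _ nz),
      hS.Ex_add (Sy.Nh.snd (X := Xe N) fun _ => (τ' ^ 2 - τ ^ 2) / 2 * (rd - rr K))
        (Sy.Nh.const_mul _ (Sy.Nh.sum _ ny)), hS.Ex_const, Sy.Ex_const_mul, hS.Ex_sum _ ny,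
      hS.Ex_sum _ nz]
    congr 1
    · congr 2
      refine Finset.sum_congr rfl fun j _ => ?_
      rw [Sy.Ex_const_mul]
    · refine Finset.sum_congr rfl fun l hl => ?_
      have hl' : l ≤ K := by
        have := Finset.mem_range.1 hl
        omega
      rw [Sy.Ex_const_mul, pe_zc hm E U.1 hl']
      rfl
  have hk' : ∀ l, ∀ k ∈ Finset.Ico l (K + 1), k ≤ K := fun l k hk => by
    have := (Finset.mem_Ico.1 hk).2
    omega
  have hI1 : Integrable (fun U : orthogonalGroup (Fin N) ℝ => ∑ j, g j *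
      ((egs K m E).sy U.1).Ex (fun _ x => sg1 x.1 * (U.1 *ᵥ spin x.2) (w j))) ν :=
    integrable_finsetSum _ fun j _ => (i1 j).const_mul _
  have hI2 : ∀ l, Integrable (fun U : orthogonalGroup (Fin N) ℝ =>
      ∑ k ∈ Finset.Ico l (K + 1), (m (k + 1) - m k) *
        ((egs K m E).sy U.1).pairEx k (fun x x' => sg1 x.1 * sg1 x'.1)) ν := fun l =>
    integrable_finsetSum _ fun k hk => (i2 k (hk' l k hk)).const_mul _
  have hI3 : ∀ l, Integrable (fun U : orthogonalGroup (Fin N) ℝ =>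
      (tcov τ' rr l - tcov τ rr l) * (tcov τ rr l *
        (1 - ∑ k ∈ Finset.Ico l (K + 1), (m (k + 1) - m k) *
          ((egs K m E).sy U.1).pairEx k (fun x x' => sg1 x.1 * sg1 x'.1)))) ν := fun l =>
    (((integrable_const _).sub (hI2 l)).const_mul _).const_mul _
  have hI4 : Integrable (fun U : orthogonalGroup (Fin N) ℝ =>
      ∑ l ∈ Finset.range (K + 1), (tcov τ' rr l - tcov τ rr l) * (tcov τ rr l *
        (1 - ∑ k ∈ Finset.Ico l (K + 1), (m (k + 1) - m k) *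
          ((egs K m E).sy U.1).pairEx k (fun x x' => sg1 x.1 * sg1 x'.1)))) ν :=
    integrable_finsetSum _ fun l _ => hI3 l
  have hI0 : Integrable (fun U : orthogonalGroup (Fin N) ℝ =>
      (τ' ^ 2 - τ ^ 2) / 2 * (rd - rr K) + (σ' - σ) * ∑ j, g j *
      ((egs K m E).sy U.1).Ex (fun _ x => sg1 x.1 * (U.1 *ᵥ spin x.2) (w j))) ν :=
    (integrable_const _).add (hI1.const_mul _)
  have hI : Integrable (fun U : orthogonalGroup (Fin N) ℝ =>
      (τ' ^ 2 - τ ^ 2) / 2 * (rd - rr K) +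
      (σ' - σ) * ∑ j, g j * ((egs K m E).sy U.1).Ex
          (fun _ x => sg1 x.1 * (U.1 *ᵥ spin x.2) (w j)) +
      ∑ l ∈ Finset.range (K + 1), (tcov τ' rr l - tcov τ rr l) * (tcov τ rr l *
        (1 - ∑ k ∈ Finset.Ico l (K + 1), (m (k + 1) - m k) *
          ((egs K m E).sy U.1).pairEx k (fun x x' => sg1 x.1 * sg1 x'.1)))) ν := hI0.add hI4
  have h1 := integral_mono hI ((int_gs_fe ν hA').sub (int_gs_fe ν hA)) key
  have h2 : ∫ U : orthogonalGroup (Fin N) ℝ, (((egs K m E').sy U.1).fe -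
      ((egs K m E).sy U.1).fe) ∂ν = EF ν K m E' - EF ν K m E :=
    integral_sub (int_gs_fe ν hA') (int_gs_fe ν hA)
  have h3 : (∫ U : orthogonalGroup (Fin N) ℝ, ((fun U : orthogonalGroup (Fin N) ℝ =>
      ((egs K m E').sy U.1).fe) - fun U : orthogonalGroup (Fin N) ℝ =>
      ((egs K m E).sy U.1).fe) U ∂ν) = EF ν K m E' - EF ν K m E := h2
  rw [h3] at h1
  refine le_trans (le_of_eq ?_) h1
  have a1 : ∫ U : orthogonalGroup (Fin N) ℝ, ∑ j, g j *
      ((egs K m E).sy U.1).Ex (fun _ x => sg1 x.1 * (U.1 *ᵥ spin x.2) (w j)) ∂ν =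
      ∑ j, g j * EU ν (fun U => ((egs K m E).sy U).Ex
        (fun _ x => sg1 x.1 * (U *ᵥ spin x.2) (w j))) := by
    rw [integral_finsetSum _ fun j _ => (i1 j).const_mul _]
    refine Finset.sum_congr rfl fun j _ => ?_
    rw [integral_const_mul]
    rfl
  have a2 : ∀ l, ∫ U : orthogonalGroup (Fin N) ℝ,
      (1 - ∑ k ∈ Finset.Ico l (K + 1), (m (k + 1) - m k) *
        ((egs K m E).sy U.1).pairEx k (fun x x' => sg1 x.1 * sg1 x'.1)) ∂ν =
      1 - ∑ k ∈ Finset.Ico l (K + 1), (m (k + 1) - m k) * (Qe ν (egs K m E)).e k := by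
    intro l
    rw [integral_sub (integrable_const _) (hI2 l), integral_const,
      integral_finsetSum _ fun k hk => (i2 k (hk' l k hk)).const_mul _]
    simp only [probReal_univ, smul_eq_mul, _root_.one_mul]
    congr 1
    refine Finset.sum_congr rfl fun k _ => ?_
    rw [integral_const_mul]
    rfl
  rw [integral_add hI0 hI4, integral_add (integrable_const _) (hI1.const_mul _), integral_const,
    integral_const_mul, a1, integral_finsetSum _ fun l _ => hI3 l]
  simp only [probReal_univ, smul_eq_mul, _root_.one_mul]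
  congr 1
  refine Finset.sum_congr rfl fun l _ => ?_
  rw [integral_const_mul, integral_const_mul, a2]

lemma pe_mono {rr : ℕ → ℝ} (hrr : ∀ l < K, rr l ≤ rr (l + 1)) {i j : ℕ} (hij : i ≤ j)
    (hj : j ≤ K) : rr i ≤ rr j := by
  induction j, hij using Nat.le_induction with
  | base => exact le_rfl
  | succ j hij ih => exact (ih (by omega)).trans (hrr j (by omega))

lemma pe_L {rr x : ℕ → ℝ} {B : ℝ} (hm : Exponents K m) (hB : 0 ≤ B)
    (hrl : ∀ l ≤ K, 0 ≤ rr l ∧ rr l ≤ B) (hx : ∀ l ≤ K, |x l| ≤ 1) :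
    |∑ l ∈ Finset.range (K + 1), (m (l + 1) - m l) * (rr l * x l)| ≤ B := by
  refine (Finset.abs_sum_le_sum_abs _ _).trans ?_
  calc ∑ l ∈ Finset.range (K + 1), |(m (l + 1) - m l) * (rr l * x l)|
      ≤ ∑ l ∈ Finset.range (K + 1), (m (l + 1) - m l) * B := by
        refine Finset.sum_le_sum fun l hl => ?_
        have hl' : l ≤ K := by
          have := Finset.mem_range.1 hl
          omega
        have hp : 0 ≤ m (l + 1) - m l := sub_nonneg.2 (hm.2.2 l hl').le
        rw [abs_mul, abs_of_nonneg hp, abs_mul, abs_of_nonneg (hrl l hl').1]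
        refine mul_le_mul_of_nonneg_left ?_ hp
        calc rr l * |x l| ≤ B * 1 := mul_le_mul (hrl l hl').2 (hx l hl') (abs_nonneg _) hB
          _ = B := _root_.mul_one B
    _ = B := by
      rw [← Finset.sum_mul, Finset.sum_range_sub, hm.1, hm.2.1]
      ring

/-- The sum of the three terms. -/
lemma pe_real {B rd rK L O J φ φ' Y : ℝ} (hB : 0 ≤ B) (hrdL : |rd - L| ≤ 2 * B)
    (hrdK : |rd - rK| ≤ 2 * B) (hO : |O - Real.cos φ * (rd - L)| ≤ Y)
    (hJ : (Real.sin φ' ^ 2 - Real.sin φ ^ 2) / 2 * (rd - rK) + (Real.cos φ' - Real.cos φ) * O +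
      (Real.sin φ' - Real.sin φ) * Real.sin φ * (rK - L) ≤ J) :
    -(2 * B * (φ' - φ) ^ 2) - |φ' - φ| * Y ≤ J := by
  have hcs : Real.cos φ ^ 2 + Real.sin φ ^ 2 = 1 := Real.cos_sq_add_sin_sq φ
  have hcos : Real.cos φ * Real.cos φ' + Real.sin φ * Real.sin φ' = Real.cos (φ' - φ) := by
    rw [Real.cos_sub]
    ring
  have hc1 : 1 - (φ' - φ) ^ 2 / 2 ≤ Real.cos (φ' - φ) := Real.one_sub_sq_div_two_le_cos
  have hc2 : Real.cos (φ' - φ) ≤ 1 := Real.cos_le_one _
  have hτd : (Real.sin φ' - Real.sin φ) ^ 2 ≤ (φ' - φ) ^ 2 := by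
    rw [← sq_abs (Real.sin φ' - Real.sin φ), ← sq_abs (φ' - φ)]
    exact pow_le_pow_left₀ (abs_nonneg _) (Real.abs_sin_sub_sin_le φ' φ) 2
  have hσd : |Real.cos φ' - Real.cos φ| ≤ |φ' - φ| := Real.abs_cos_sub_cos_le φ' φ
  have h2 : |(Real.cos φ' - Real.cos φ) * (O - Real.cos φ * (rd - L))| ≤ |φ' - φ| * Y := by
    rw [abs_mul]
    exact mul_le_mul hσd hO (abs_nonneg _) (abs_nonneg _)
  have h3 := (abs_le.1 h2).1
  have t1 : -(2 * B * ((φ' - φ) ^ 2 / 2)) ≤
      (rd - L) * (Real.cos φ * Real.cos φ' + Real.sin φ * Real.sin φ' - 1) := by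
    have h2 : |(rd - L) * (Real.cos φ * Real.cos φ' + Real.sin φ * Real.sin φ' - 1)| ≤
        2 * B * ((φ' - φ) ^ 2 / 2) := by
      rw [abs_mul]
      refine mul_le_mul hrdL ?_ (abs_nonneg _) (by positivity)
      rw [hcos, abs_le]
      constructor <;> linarith only [hc1, hc2]
    exact (abs_le.1 h2).1
  have t2 : -(2 * B * ((φ' - φ) ^ 2 / 2)) ≤
      (rd - rK) * ((Real.sin φ' - Real.sin φ) ^ 2 / 2) := by
    have h2 : |(rd - rK) * ((Real.sin φ' - Real.sin φ) ^ 2 / 2)| ≤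
        2 * B * ((φ' - φ) ^ 2 / 2) := by
      rw [abs_mul]
      refine mul_le_mul hrdK ?_ (abs_nonneg _) (by positivity)
      rw [abs_of_nonneg (by positivity)]
      linarith only [hτd]
    exact (abs_le.1 h2).1
  have e : (Real.sin φ' ^ 2 - Real.sin φ ^ 2) / 2 * (rd - rK) +
      (Real.cos φ' - Real.cos φ) * O + (Real.sin φ' - Real.sin φ) * Real.sin φ * (rK - L) =
      (rd - rK) * ((Real.sin φ' - Real.sin φ) ^ 2 / 2) +
      (rd - L) * (Real.cos φ * Real.cos φ' + Real.sin φ * Real.sin φ' - 1) +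
      (Real.cos φ' - Real.cos φ) * (O - Real.cos φ * (rd - L)) := by
    linear_combination (-(rd - L)) * hcs
  rw [e] at hJ
  linarith only [hJ, h3, t1, t2]

/-- The tangent for given covariances. -/
lemma pe_tangent (hm : Exponents K m) {c : Fin N → Fin (n + 1)} {w : Fin n → Fin N}
    (hw : Function.Injective w) (P : Pm (n + 1)) (μ g : Fin n → ℝ) (mb : ℝ) {rd B : ℝ}
    {rr s' : ℕ → ℝ} (hpar : EPar K B rd rr s' 1 0) (φ φ' : ℝ) {Y : ℝ}
    (hY : |∑ j, g j * EU ν (fun U =>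
        ((egs K m (MP K c w P μ g mb rd rr s' (Real.cos φ) (Real.sin φ))).sy U).Ex
          (fun _ x => sg1 x.1 * (U *ᵥ spin x.2) (w j))) -
      Real.cos φ * (rd - ∑ l ∈ Finset.range (K + 1), (m (l + 1) - m l) * (rr l *
        (Qe ν (egs K m (MP K c w P μ g mb rd rr s' (Real.cos φ) (Real.sin φ)))).e l))| ≤ Y) :
    EF ν K m (MP K c w P μ g mb rd rr s' (Real.cos φ) (Real.sin φ)) - 2 * B * (φ' - φ) ^ 2 -
      |φ' - φ| * Y ≤ EF ν K m (MP K c w P μ g mb rd rr s' (Real.cos φ') (Real.sin φ')) := by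
  have hB : 0 ≤ B := (abs_nonneg _).trans hpar.hrd
  have hJ := pe_jensen ν hm (c := c) hw P μ g mb rd rr s' (Real.cos φ) (Real.sin φ)
    (Real.cos φ') (Real.sin φ')
  rw [pe_cov (K := K) (rr := rr) (p := fun k => m (k + 1) - m k) hpar.rr0 hpar.hrr
    (Real.sin φ) (Real.sin φ')] at hJ
  have hrl : ∀ l ≤ K, 0 ≤ rr l ∧ rr l ≤ B := fun l hl =>
    ⟨hpar.rr0 ▸ pe_mono hpar.hrr (Nat.zero_le l) hl, (pe_mono hpar.hrr hl le_rfl).trans hpar.rrK⟩
  have hLb := pe_L hm hB hrl (fun l hl => pe_Qe_le ν hm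
    (MP K c w P μ g mb rd rr s' (Real.cos φ) (Real.sin φ)) hl)
  have hrdL := (abs_sub rd _).trans (add_le_add hpar.hrd hLb)
  have hrdK : |rd - rr K| ≤ 2 * B := by
    refine (abs_sub _ _).trans ?_
    rw [abs_of_nonneg (hrl K le_rfl).1]
    linarith only [hpar.hrd, (hrl K le_rfl).2]
  have h := pe_real hB (hrdL.trans (by linarith only [])) hrdK hY hJ
  linarith only [h]

end pe

lemma pe_sum_err {g A M : Fin n → ℝ} {σ Y : ℝ} (h : ∀ j, |A j - σ * g j * M j| ≤ Y) :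
    |∑ j, g j * A j - σ * ∑ j, g j ^ 2 * M j| ≤ (∑ j, |g j|) * Y := by
  rw [Finset.mul_sum, ← Finset.sum_sub_distrib, Finset.sum_mul]
  refine (Finset.abs_sum_le_sum_abs _ _).trans (Finset.sum_le_sum fun j _ => ?_)
  have e : g j * A j - σ * (g j ^ 2 * M j) = g j * (A j - σ * g j * M j) := by ring
  rw [e, abs_mul]
  exact mul_le_mul_of_nonneg_left (h j) (abs_nonneg _)

/-- The patterns replaced by the outliers are distinct. -/
lemma pe_inj {N : ℕ} {c : Fin N → Fin (n + 1)} {r : Fin (n + 1) → Fin N} (hr : ∀ k, c (r k) = k)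
    (k0 : Fin (n + 1)) : Function.Injective (wi r k0) := by
  intro i j h
  have h1 : r (k0.succAbove i) = r (k0.succAbove j) := h
  have h2 := congrArg c h1
  rw [hr, hr] at h2
  exact Fin.succAbove_right_injective h2

/-- The tangent: with `σ = cos φ`, `τ = sin φ`, `σ' = cos φ'`, `τ' = sin φ'`, Jensen's inequality
`EF(φ') - EF(φ) ≥ EU Ex_φ (H_φ' - H_φ)`, where
`H_φ' - H_φ = (σ' - σ) ε ∑ g_j y_{w j} + (τ' - τ) ε ∑ √Δ_l z_l + (τ'^2 - τ^2)/2 (rd - rr_K)`;
`loop_E`, `sum_Gj`, integration by parts for the cavity fields: the mean is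
`Λ (σ σ' + τ τ' - 1) + (rd - rr_K)(τ' - τ)^2 / 2`, up to `C |φ' - φ| √X`,
`Λ = rd - ∑ p_l rr_l Qe_l`. -/
theorem path_tangent {β : ℝ} (hβ : 0 < β) {a α : Fin (n + 1) → ℝ} {μ g : Fin n → ℝ}
    {Q : Fin (n + 1) → Matrix (Fin (n + 1)) (Fin (n + 1)) ℝ} (D : Dat (fun k => β * a k) α μ g Q)
    (B : ℝ) :
    ∃ C x0 : ℝ, 0 ≤ C ∧ 0 < x0 ∧ ∀ (N K : ℕ) (m : ℕ → ℝ) (c : Fin N → Fin (n + 1)) (P : Pm (n + 1))
      (r : Fin (n + 1) → Fin N) (k0 : Fin (n + 1)) [MeasurableSpace (orthogonalGroup (Fin N) ℝ)]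
      [BorelSpace (orthogonalGroup (Fin N) ℝ)] (ν : Measure (orthogonalGroup (Fin N) ℝ))
      [IsProbabilityMeasure ν] [ν.IsMulLeftInvariant] (dl X : ℝ),
      Good (fun k => β * a k) α B dl K m c P r → Err (fun k => β * a k) α μ g B dl X ν K m c P r →
      X ≤ x0 → ∀ s' : ℕ → ℝ,
      EPar K B (F.rDiag β (atoms a α) K m (Ql ν K m c P) - mbar (fun k => β * a k) α)
        (F.rPath β (atoms a α) K m (Ql ν K m c P)) s' 1 0 → ∀ φ φ' : ℝ,
      EF ν K m (MP K c (wi r k0) P μ g (mbar (fun k => β * a k) α)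
          (F.rDiag β (atoms a α) K m (Ql ν K m c P) - mbar (fun k => β * a k) α)
          (F.rPath β (atoms a α) K m (Ql ν K m c P)) s' (Real.cos φ) (Real.sin φ)) -
        C * (φ' - φ) ^ 2 - C * |φ' - φ| * √X ≤
      EF ν K m (MP K c (wi r k0) P μ g (mbar (fun k => β * a k) α)
          (F.rDiag β (atoms a α) K m (Ql ν K m c P) - mbar (fun k => β * a k) α)
          (F.rPath β (atoms a α) K m (Ql ν K m c P)) s' (Real.cos φ') (Real.sin φ')) := by
  obtain ⟨C1, x1, hC1, hx1, h1⟩ := loop_E hβ D B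
  have hG0 : 0 ≤ ∑ j, |g j| := Finset.sum_nonneg fun j _ => abs_nonneg _
  refine ⟨2 * |B| + (∑ j, |g j|) * C1, x1, by positivity, hx1, ?_⟩
  intro N K m c P r k0 _ _ ν _ _ dl X hgood herr hX s' hpar φ φ'
  have hm := hgood.hm
  have hN := hgood.N0
  have hB : 0 ≤ B := (abs_nonneg _).trans hpar.hrd
  have hexpo : Expo K m := ⟨hm.1, hm.2.1, fun l hl => (hm.2.2 l hl).le, by
    have := hm.2.2 0 (Nat.zero_le _)
    rwa [hm.1] at this⟩
  have hqpath : Path K (Ql ν K m c P) := by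
    constructor
    · exact Finset.sum_nonneg fun k _ => Rkl_nonneg hm hN k (Nat.zero_le K)
    · intro l hl
      exact Finset.sum_le_sum fun k _ => Rkl_mono hm hN k hl
  have hq0 : Ql ν K m c P 0 = 0 :=
    Finset.sum_eq_zero fun k _ => Rkl_zero hm hN hgood.s0 hgood.u0 k
  have hq1 : Ql ν K m c P K < 1 := Ql_lt_one hm hN
  have hloop := fun j => h1 N K m c P r k0 ν dl X hgood herr hX _ _ s' (Real.cos φ) (Real.sin φ)
    ⟨hpar.hrd, hpar.rr0, hpar.hrr, hpar.rrK, hpar.s0, hpar.hs, Real.abs_cos_le_one φ,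
      Real.abs_sin_le_one φ⟩ j
  have hsum := sum_Gj hβ D hexpo hqpath hq0 hq1 (Qe ν (GE K m (fun k => β * a k) α μ g c P r k0
    (F.rDiag β (atoms a α) K m (Ql ν K m c P) - mbar (fun k => β * a k) α)
    (F.rPath β (atoms a α) K m (Ql ν K m c P)) s' (Real.cos φ) (Real.sin φ))) rfl
  have h := pe_tangent ν hm (pe_inj hgood.hr k0) P μ g (mbar (fun k => β * a k) α) hpar φ φ'
    (Y := (∑ j, |g j|) * (C1 * √X)) (by
      rw [← hsum]
      exact pe_sum_err hloop)
  have h2 : |φ' - φ| * ((∑ j, |g j|) * (C1 * √X)) ≤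
      (2 * |B| + (∑ j, |g j|) * C1) * |φ' - φ| * √X := by
    have h3 : 0 ≤ 2 * |B| * |φ' - φ| * √X := by positivity
    linarith only [h3]
  have h3 : 2 * B * (φ' - φ) ^ 2 ≤ (2 * |B| + (∑ j, |g j|) * C1) * (φ' - φ) ^ 2 := by
    rw [abs_of_nonneg hB]
    have h3 : 0 ≤ (∑ j, |g j|) * C1 * (φ' - φ) ^ 2 := by positivity
    linarith only [h3]
  linarith

/-- **The two ends of the interpolation** (`path_tangent` in both directions on a subdivision of
`[0, π/2]` into `M` parts, `M → ∞`). -/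
theorem path_E {β : ℝ} (hβ : 0 < β) {a α : Fin (n + 1) → ℝ} {μ g : Fin n → ℝ}
    {Q : Fin (n + 1) → Matrix (Fin (n + 1)) (Fin (n + 1)) ℝ} (D : Dat (fun k => β * a k) α μ g Q)
    (B : ℝ) :
    ∃ C x0 : ℝ, 0 ≤ C ∧ 0 < x0 ∧ ∀ (N K : ℕ) (m : ℕ → ℝ) (c : Fin N → Fin (n + 1)) (P : Pm (n + 1))
      (r : Fin (n + 1) → Fin N) (k0 : Fin (n + 1)) [MeasurableSpace (orthogonalGroup (Fin N) ℝ)]
      [BorelSpace (orthogonalGroup (Fin N) ℝ)] (ν : Measure (orthogonalGroup (Fin N) ℝ))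
      [IsProbabilityMeasure ν] [ν.IsMulLeftInvariant] (dl X : ℝ),
      Good (fun k => β * a k) α B dl K m c P r → Err (fun k => β * a k) α μ g B dl X ν K m c P r →
      X ≤ x0 → ∀ s' : ℕ → ℝ,
      EPar K B (F.rDiag β (atoms a α) K m (Ql ν K m c P) - mbar (fun k => β * a k) α)
        (F.rPath β (atoms a α) K m (Ql ν K m c P)) s' 1 0 →
      |EF ν K m (MP K c (wi r k0) P μ g (mbar (fun k => β * a k) α)
          (F.rDiag β (atoms a α) K m (Ql ν K m c P) - mbar (fun k => β * a k) α)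
          (F.rPath β (atoms a α) K m (Ql ν K m c P)) s' 1 0) -
        EF ν K m (MP K c (wi r k0) P μ g (mbar (fun k => β * a k) α)
          (F.rDiag β (atoms a α) K m (Ql ν K m c P) - mbar (fun k => β * a k) α)
          (F.rPath β (atoms a α) K m (Ql ν K m c P)) s' 0 1)| ≤ C * √X := by
  obtain ⟨C, x0, hC, hx0, h⟩ := path_tangent hβ D B
  refine ⟨C * (Real.pi / 2), x0, by positivity, hx0, ?_⟩
  intro N K m c P r k0 _ _ ν _ _ dl X hgood herr hX s' hpar
  have h1 := h N K m c P r k0 ν dl X hgood herr hX s' hpar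
  set Φ : ℝ → ℝ := fun φ => EF ν K m (MP K c (wi r k0) P μ g (mbar (fun k => β * a k) α)
          (F.rDiag β (atoms a α) K m (Ql ν K m c P) - mbar (fun k => β * a k) α)
          (F.rPath β (atoms a α) K m (Ql ν K m c P)) s' (Real.cos φ) (Real.sin φ)) with hΦ
  have h2 : ∀ φ φ', Φ φ - C * (φ' - φ) ^ 2 - C * √X * |φ' - φ| ≤ Φ φ' := by
    intro φ φ'
    have := h1 φ φ'
    have e : C * √X * |φ' - φ| = C * |φ' - φ| * √X := by ring
    rw [e]
    exact this
  have h3 := pe_path 0 (Real.pi / 2) h2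
  have h4 := pe_path (Real.pi / 2) 0 h2
  have e1 : |Real.pi / 2 - 0| = Real.pi / 2 := by
    rw [sub_zero, abs_of_pos (by positivity)]
  have e2 : |0 - Real.pi / 2| = Real.pi / 2 := by
    rw [zero_sub, abs_neg, abs_of_pos (by positivity)]
  rw [e1] at h3
  rw [e2] at h4
  have f0 : Φ 0 = EF ν K m (MP K c (wi r k0) P μ g (mbar (fun k => β * a k) α)
          (F.rDiag β (atoms a α) K m (Ql ν K m c P) - mbar (fun k => β * a k) α)
          (F.rPath β (atoms a α) K m (Ql ν K m c P)) s' 1 0) := by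
    simp only [hΦ, Real.cos_zero, Real.sin_zero]
  have f1 : Φ (Real.pi / 2) = EF ν K m (MP K c (wi r k0) P μ g (mbar (fun k => β * a k) α)
          (F.rDiag β (atoms a α) K m (Ql ν K m c P) - mbar (fun k => β * a k) α)
          (F.rPath β (atoms a α) K m (Ql ν K m c P)) s' 0 1) := by
    simp only [hΦ, Real.cos_pi_div_two, Real.sin_pi_div_two]
  rw [← f0, ← f1, abs_le]
  constructor <;> linarith only [h4, h3]

end Vale.Agent.P166.L
end
end

section

section

/-!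
P166, lower bound: the dependence of the free energy on the strengths of the field of one site.
-/

open MeasureTheory ProbabilityTheory Matrix Filter Topology

namespace Vale.Agent.P166.L

open Vale.Agent.P157 (spin)
open Vale.Agent.P157.Lv Vale.Agent.P157.Par Md H U

variable {N K n κ : ℕ} {m : ℕ → ℝ}

section second

variable {ι X : Type} [Fintype ι] [DecidableEq ι] [Fintype X] [Nonempty X] {S : Sy ι X}
  {e : ι} {a : ℝ} {sx : X → ℝ}

/-- The energy with the additional field `τ z_e sx(x)`. -/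
noncomputable def sn_H (S : Sy ι X) (e : ι) (sx : X → ℝ) (τ : ℝ) : (ι → ℝ) → X → ℝ :=
  fun z x => S.H z x + τ * (z e * sx x)

omit [DecidableEq ι] [Nonempty X] [Fintype X] in
lemma sn_nh (e : ι) (sx : X → ℝ) : Nh (fun (z : ι → ℝ) x => z e * sx x) :=
  fun _ => (Vale.Agent.P157.Lv.EG.coord _).mul (Vale.Agent.P157.Lv.EG.const _)

/-- The second moment of a coordinate. -/
lemma sn_sq (hS : RegE S e (fun _ x => a * sx x)) (hsx : ∀ x, sx x ^ 2 = 1) :
    S.Ex (fun z _ => z e ^ 2) ≤ 2 + 4 * a ^ 2 := by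
  have hR := hS.toRegG
  have hsx1 : ∀ x, |sx x| = 1 := fun x => by
    have := hsx x
    rw [← sq_abs] at this
    have h0 := abs_nonneg (sx x)
    nlinarith
  have hab : ∀ (z : ι → ℝ) x, |(fun (_ : ι → ℝ) x => a * sx x) z x| ≤ |a| := fun z x => by
    show |a * sx x| ≤ |a|
    rw [abs_mul, hsx1, mul_one]
  have hD : Nh (fun (_ : ι → ℝ) x => a * sx x) := Sy.Nh.snd fun x => a * sx x
  have hz : EG fun z : ι → ℝ => z e := Vale.Agent.P157.Lv.EG.coord e
  have hz2 : EG fun z : ι → ℝ => z e ^ 2 := hz.pow 2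
  have hTe : ∀ i ≤ S.K, EG (S.T i (fun _ x => a * sx x)) := fun i hi => hR.eg_T hi hD
  have hA : EG (fun z => ∑ i ∈ Finset.Ico (S.lev e) (S.K + 1),
      S.p i * S.T i (fun _ x => a * sx x) z) :=
    Vale.Agent.P157.Lv.EG.sum _ fun i hi =>
      (hTe i (by have := Finset.mem_Ico.1 hi; omega)).const_mul _
  have h1 := hS.ibp (h := fun z _ => z e) (h' := fun _ _ => 1)
    (fun x => by simpa using PD.coord (e := e) e) (Sy.Nh.fst hz)
    (Sy.Nh.fst (Vale.Agent.P157.Lv.EG.const 1))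
  have hp : ∀ i ∈ Finset.Ico (S.lev e) (S.K + 1), 0 ≤ S.p i := fun i hi => by
    have hi' := Finset.mem_Ico.1 hi
    have := hR.mono i (by omega)
    unfold Sy.p
    linarith only [this]
  have hsum : ∑ i ∈ Finset.Ico (S.lev e) (S.K + 1), S.p i ≤ 1 := by
    unfold Sy.p
    have hle := hR.lev e
    rw [Finset.sum_Ico_eq_sub _ (by omega : S.lev e ≤ S.K + 1),
      Finset.sum_range_sub, Finset.sum_range_sub, hR.mK]
    have h0 : 0 ≤ S.m (S.lev e) := by
      rw [← hR.m0]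
      exact hR.m_mono (Nat.zero_le _) (by omega)
    linarith only [h0]
  have hw : ∀ (z : ι → ℝ) x, |a * sx x - ∑ i ∈ Finset.Ico (S.lev e) (S.K + 1),
      S.p i * S.T i (fun _ x => a * sx x) z| ≤ 2 * |a| := by
    intro z x
    refine (abs_sub _ _).trans ?_
    have h2 : |∑ i ∈ Finset.Ico (S.lev e) (S.K + 1), S.p i * S.T i (fun _ x => a * sx x) z| ≤
        |a| := by
      refine (Finset.abs_sum_le_sum_abs _ _).trans ?_
      calc ∑ i ∈ Finset.Ico (S.lev e) (S.K + 1), |S.p i * S.T i (fun _ x => a * sx x) z|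
          ≤ ∑ i ∈ Finset.Ico (S.lev e) (S.K + 1), S.p i * |a| := by
            refine Finset.sum_le_sum fun i hi => ?_
            rw [abs_mul, abs_of_nonneg (hp i hi)]
            exact mul_le_mul_of_nonneg_left (hR.abs_T_le
              (by have := Finset.mem_Ico.1 hi; omega) hD hab z) (hp i hi)
        _ = (∑ i ∈ Finset.Ico (S.lev e) (S.K + 1), S.p i) * |a| := by rw [Finset.sum_mul]
        _ ≤ 1 * |a| := mul_le_mul_of_nonneg_right hsum (abs_nonneg _)
        _ = |a| := _root_.one_mul _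
    have h3 := hab z x
    simp only at h3
    linarith only [h2, h3]
  have h2 : S.Ex (fun z x => 1 + z e * (a * sx x - ∑ i ∈ Finset.Ico (S.lev e) (S.K + 1),
      S.p i * S.T i (fun _ x => a * sx x) z)) ≤
      S.Ex (fun z x => (1 + 2 * a ^ 2) + 1 / 2 * z e ^ 2) := by
    refine hR.Ex_mono ?_ ?_ fun z x => ?_
    · exact Sy.Nh.add (Sy.Nh.fst (Vale.Agent.P157.Lv.EG.const 1))
        (Sy.Nh.mul (Sy.Nh.fst hz) (Sy.Nh.sub hD (Sy.Nh.fst hA)))
    · exact Sy.Nh.add (Sy.Nh.fst (Vale.Agent.P157.Lv.EG.const _))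
        (Sy.Nh.const_mul _ (Sy.Nh.fst hz2))
    · have h3 := hw z x
      set w := a * sx x - ∑ i ∈ Finset.Ico (S.lev e) (S.K + 1),
        S.p i * S.T i (fun _ x => a * sx x) z
      have h4 : w ^ 2 ≤ 4 * a ^ 2 := by
        have h5 := mul_self_le_mul_self (abs_nonneg w) h3
        have h6 := abs_mul_abs_self w
        have h7 := abs_mul_abs_self a
        linarith only [h5, h6, h7]
      linarith only [h4, sq_nonneg (z e - w)]
  have h3 : S.Ex (fun z x => (1 + 2 * a ^ 2) + 1 / 2 * z e ^ 2) =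
      (1 + 2 * a ^ 2) + 1 / 2 * S.Ex (fun z _ => z e ^ 2) := by
    rw [hR.Ex_add (Sy.Nh.fst (Vale.Agent.P157.Lv.EG.const _))
      (Sy.Nh.const_mul _ (Sy.Nh.fst hz2)), hR.Ex_const]
    congr 1
    exact Sy.Ex_const_mul S (1 / 2) (fun (z : ι → ℝ) (_ : X) => z e ^ 2)
  have h4 : S.Ex (fun z _ => z e * z e) = S.Ex (fun z _ => z e ^ 2) := by
    congr 1
    funext z x
    ring
  rw [← h4] at h3
  have h5 := h1.trans_le h2
  rw [h3] at h5
  rw [← h4]
  linarith only [h1, h2, h3]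

omit [DecidableEq ι] [Nonempty X] [Fintype X] in
lemma sn_reg (hS : S.Reg) (e : ι) (sx : X → ℝ) (τ : ℝ) : (S.wH (sn_H S e sx τ)).Reg := by
  refine ⟨hS.m0, hS.mK, hS.mono, hS.pos, hS.lev, fun x => ?_⟩
  refine (hS.lip x).add (Lip.const_mul ?_ _)
  have h := (Lip.coord (ι := ι) e).const_mul (sx x)
  simpa only [mul_comm] using h

lemma sn_regE (hS : S.Reg) (pd : ∀ x, PD e (fun z => S.H z x) (fun _ => a * sx x)) (τ : ℝ) :
    RegE (S.wH (sn_H S e sx τ)) e (fun _ x => (a + τ) * sx x) := by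
  refine ⟨RegG.of_reg (sn_reg hS e sx τ), fun x => ?_, Sy.Nh.snd fun x => (a + τ) * sx x⟩
  have h := (pd x).add (((PD.coord (e := e) e).const_mul (sx x)).const_mul τ)
  have h2 : PD e (fun z : ι → ℝ => S.H z x + τ * (sx x * z e)) (fun _ => (a + τ) * sx x) := by
    refine h.congr fun z => ?_
    simp only [↓reduceIte, mul_one]
    ring
  have e1 : (fun z : ι → ℝ => (S.wH (sn_H S e sx τ)).H z x) =
      fun z => S.H z x + τ * (sx x * z e) := by
    funext z
    show S.H z x + τ * (z e * sx x) = _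
    ring
  rw [e1]
  exact h2

lemma sn_famE (hS : S.Reg) (e : ι) (sx : X → ℝ) :
    RegE (fam S (fun θ => sn_H S e sx (Real.sin θ))) none
      (fun y x => Real.cos (y none) * (y (some e) * sx x)) := by
  have hl : ∀ x, LGr fun y : Option ι → ℝ => y (some e) * sx x := fun x => by
    have h := (LGr.coord (ι := Option ι) (some e)).const_mul (sx x)
    simpa only [mul_comm] using h
  have m1 : Measurable fun y : Option ι → ℝ => Real.sin (y none) :=
    Real.measurable_sin.comp (measurable_pi_apply none)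
  have m2 : Measurable fun y : Option ι → ℝ => Real.cos (y none) :=
    Real.measurable_cos.comp (measurable_pi_apply none)
  refine ⟨⟨hS.m0, hS.mK, hS.mono, hS.pos, ?_, fun x => ?_⟩, fun x y θ => ?_, fun x => ?_⟩
  · intro o
    cases o with
    | none => exact Nat.zero_le _
    | some e => exact hS.lev e
  · show LGr fun y : Option ι → ℝ => S.H (rs y) x + Real.sin (y none) * (rs y e * sx x)
    refine LGr.add ?_ (LGr.bmul m1 (C := 1) (fun y => Real.abs_sin_le_one _) (hl x))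
    obtain ⟨hm, C, hC0, hC⟩ := Lip.lgr (hS.lip x)
    refine ⟨hm.comp measurable_rs, C, hC0, fun y => (hC _).trans ?_⟩
    have : ‖rs y‖ ≤ ‖y‖ := by
      rw [pi_norm_le_iff_of_nonneg (norm_nonneg _)]
      intro e
      exact norm_le_pi_norm y (some e)
    exact mul_le_mul_of_nonneg_left (by linarith only [this]) hC0
  · have e1 : ∀ t : ℝ, rs (Function.update y none t) = rs y := by
      intro t; funext e; simp [rs]
    have e2 : ∀ t : ℝ, Function.update y none t (some e) = y (some e) := by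
      intro t; simp
    show HasDerivAt (fun t => S.H (rs (Function.update y none t)) x +
      Real.sin ((Function.update y none t) none) * (rs (Function.update y none t) e * sx x))
      (Real.cos ((Function.update y none θ) none) *
        ((Function.update y none θ) (some e) * sx x)) θ
    simp only [e1, e2, Function.update_self]
    have h := ((Real.hasDerivAt_sin θ).mul_const (rs y e * sx x)).const_add (S.H (rs y) x)
    exact h
  · exact (LGr.bmul m2 (C := 1) (fun y => Real.abs_cos_le_one _) (hl x)).eg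

/-- The derivative of the average of the field. -/
lemma sn_der (hS : S.Reg) (pd : ∀ x, PD e (fun z => S.H z x) (fun _ => a * sx x))
    (hsx : ∀ x, sx x ^ 2 = 1) (θ : ℝ) (hθ : 0 ≤ Real.cos θ) :
    ∃ d, HasDerivAt (fun θ => (S.wH (sn_H S e sx (Real.sin θ))).Ex (fun z x => z e * sx x)) d θ ∧
      d ≤ Real.cos θ * (2 + 4 * (|a| + 1) ^ 2) := by
  have hF := sn_famE hS e sx
  have hG : Nh (fun (y : Option ι → ℝ) x => y (some e) * sx x) := sn_nh (some e) sx
  have hd := hasDerivAt_Ex hF (G := fun y x => y (some e) * sx x) (G' := fun _ _ => 0)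
    (fun x y t => by
      simp only [Function.update_of_ne (by simp : some e ≠ none)]
      exact hasDerivAt_const t _) hG (Sy.Nh.snd fun _ => 0) θ
  refine ⟨_, hd, ?_⟩
  set S' := S.wH (sn_H S e sx (Real.sin θ)) with hS'
  have hR : RegG S' := RegG.of_reg (sn_reg hS e sx _)
  set c := Real.cos θ with hc
  set G : (ι → ℝ) → X → ℝ := fun z x => z e * sx x with hGdef
  have hGn : Nh G := sn_nh e sx
  have hT : ∀ i ≤ S.K, EG (S'.T i G) := fun i hi => hR.eg_T hi hGn
  have e1 : (fun (z : ι → ℝ) (x : X) => 0 + cn θ z (some e) * sx x *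
      (Real.cos (cn θ z none) * (cn θ z (some e) * sx x) - ∑ i ∈ Finset.Ico 0 (S.K + 1),
        S.p i * S'.T i (fun z x => Real.cos (cn θ z none) * (cn θ z (some e) * sx x)) z)) =
      fun z x => c * (G z x ^ 2 - ∑ i ∈ Finset.Ico 0 (S.K + 1), S.p i *
        (S'.T i G z * G z x)) := by
    funext z x
    simp only [cn_none, cn_some]
    have e2 : ∀ i, S'.T i (fun z x => Real.cos θ * (z e * sx x)) z = c * S'.T i G z := fun i =>
      Sy.T_const_mul S' i c G z
    simp only [e2]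
    have e3 : ∑ i ∈ Finset.Ico 0 (S.K + 1), S.p i * (c * S'.T i G z) =
        c * ∑ i ∈ Finset.Ico 0 (S.K + 1), S.p i * S'.T i G z := by
      rw [Finset.mul_sum]
      exact Finset.sum_congr rfl fun i _ => by ring
    have e4 : ∑ i ∈ Finset.Ico 0 (S.K + 1), S.p i * (S'.T i G z * G z x) =
        G z x * ∑ i ∈ Finset.Ico 0 (S.K + 1), S.p i * S'.T i G z := by
      rw [Finset.mul_sum]
      exact Finset.sum_congr rfl fun i _ => by ring
    rw [e3, e4]
    simp only [hGdef]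
    ring
  rw [e1]
  have n2 : ∀ i ∈ Finset.Ico 0 (S.K + 1), Nh (fun z x => S.p i * (S'.T i G z * G z x)) :=
    fun i hi => Sy.Nh.const_mul _ (Sy.Nh.mul (Sy.Nh.fst (hT i (by
      have := Finset.mem_Ico.1 hi; omega))) hGn)
  have hval : S'.Ex (fun z x => c * (G z x ^ 2 - ∑ i ∈ Finset.Ico 0 (S.K + 1), S.p i *
        (S'.T i G z * G z x))) = c * (S'.Ex (fun z x => G z x ^ 2) -
      ∑ i ∈ Finset.Ico 0 (S.K + 1), S.p i * S'.Ex (fun z x => S'.T i G z * G z x)) := by
    rw [Sy.Ex_const_mul S' c (fun z x => G z x ^ 2 - ∑ i ∈ Finset.Ico 0 (S.K + 1), S.p i *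
        (S'.T i G z * G z x)), hR.Ex_sub (Sy.Nh.pow hGn 2) (Sy.Nh.sum _ n2),
      hR.Ex_sum _ n2]
    congr 2
    refine Finset.sum_congr rfl fun i _ => ?_
    exact Sy.Ex_const_mul S' (S.p i) (fun z x => S'.T i G z * G z x)
  rw [hval]
  refine mul_le_mul_of_nonneg_left ?_ hθ
  have hpos : 0 ≤ ∑ i ∈ Finset.Ico 0 (S.K + 1), S.p i *
      S'.Ex (fun z x => S'.T i G z * G z x) := by
    refine Finset.sum_nonneg fun i hi => ?_
    have hi' : i ≤ S.K := by have := Finset.mem_Ico.1 hi; omega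
    refine mul_nonneg ?_ ?_
    · have := hS.mono i hi'
      unfold Sy.p
      linarith only [this]
    · have h := hR.Ex_mul_T (l := i) hi' (Sy.dep_T S' i G) (hT i hi') hGn
      rw [← h]
      have h2 := hR.Ex_mono (f := fun _ _ => 0) (g := fun z _ => S'.T i G z * S'.T i G z)
        (Sy.Nh.snd fun _ => 0) (Sy.Nh.fst ((hT i hi').mul (hT i hi')))
        (fun z x => mul_self_nonneg _)
      rwa [hR.Ex_const] at h2
  have hsq : S'.Ex (fun z x => G z x ^ 2) ≤ 2 + 4 * (a + Real.sin θ) ^ 2 := by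
    have h := sn_sq (sn_regE hS pd (Real.sin θ)) hsx
    have e5 : (fun (z : ι → ℝ) (x : X) => G z x ^ 2) = fun z _ => z e ^ 2 := by
      funext z x
      simp only [hGdef]
      rw [mul_pow, hsx, mul_one]
    rw [e5]
    exact h
  have hsin := Real.abs_sin_le_one θ
  have h6 : (a + Real.sin θ) ^ 2 ≤ (|a| + 1) ^ 2 := by
    rw [← sq_abs]
    exact pow_le_pow_left₀ (abs_nonneg _) ((abs_add_le _ _).trans (by linarith only [hsin])) 2
  linarith

lemma sn_second (hS : S.Reg) (pd : ∀ x, PD e (fun z => S.H z x) (fun _ => a * sx x))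
    (hsx : ∀ x, sx x ^ 2 = 1) {τ : ℝ} (hτ : |τ| ≤ 1) :
    (S.wH (sn_H S e sx τ)).fe ≤ S.fe + τ * S.Ex (fun z x => z e * sx x) +
      (2 + 4 * (|a| + 1) ^ 2) * τ ^ 2 := by
  set C := 2 + 4 * (|a| + 1) ^ 2 with hC
  set φ : ℝ → ℝ := fun θ => (S.wH (sn_H S e sx (Real.sin θ))).Ex (fun z x => z e * sx x) with hφ
  have h0 : S.wH (sn_H S e sx 0) = S := by
    have : sn_H S e sx 0 = S.H := by
      funext z x
      simp [sn_H]
    rw [this]
    rfl
  have hφ0 : φ 0 = S.Ex (fun z x => z e * sx x) := by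
    simp only [hφ, Real.sin_zero, h0]
  -- monotonicity
  have hmono : MonotoneOn (fun θ => C * Real.sin θ - φ θ) (Set.Icc (-(Real.pi / 2)) (Real.pi / 2)) := by
    have hder : ∀ θ ∈ Set.Icc (-(Real.pi / 2)) (Real.pi / 2),
        ∃ d, HasDerivAt (fun θ => C * Real.sin θ - φ θ) d θ ∧ 0 ≤ d := by
      intro θ hθ
      have hc : 0 ≤ Real.cos θ := Real.cos_nonneg_of_mem_Icc hθ
      obtain ⟨d, hd, hle⟩ := sn_der hS pd hsx θ hc
      refine ⟨_, ((Real.hasDerivAt_sin θ).const_mul C).sub hd, ?_⟩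
      linarith only [hle]
    refine monotoneOn_of_deriv_nonneg (convex_Icc _ _) (fun θ hθ => ?_) (fun θ hθ => ?_)
      fun θ hθ => ?_
    · obtain ⟨d, hd, -⟩ := hder θ hθ
      exact hd.continuousAt.continuousWithinAt
    · rw [interior_Icc] at hθ
      obtain ⟨d, hd, -⟩ := hder θ (Set.Ioo_subset_Icc_self hθ)
      exact hd.differentiableAt.differentiableWithinAt
    · rw [interior_Icc] at hθ
      obtain ⟨d, hd, h1⟩ := hder θ (Set.Ioo_subset_Icc_self hθ)
      rw [hd.deriv]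
      exact h1
  have hτ1 := abs_le.1 hτ
  set θ0 := Real.arcsin τ with hθ0
  have hsin : Real.sin θ0 = τ := Real.sin_arcsin hτ1.1 hτ1.2
  have hmem : θ0 ∈ Set.Icc (-(Real.pi / 2)) (Real.pi / 2) := Real.arcsin_mem_Icc τ
  have hmem0 : (0 : ℝ) ∈ Set.Icc (-(Real.pi / 2)) (Real.pi / 2) := by
    have := Real.pi_pos
    constructor <;> linarith only [this]
  have hφτ : φ θ0 = (S.wH (sn_H S e sx τ)).Ex (fun z x => z e * sx x) := by
    simp only [hφ, hsin]
  have hkey : τ * φ θ0 ≤ τ * φ 0 + C * τ ^ 2 := by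
    rcases le_total 0 τ with h | h
    · have h1 := hmono hmem0 hmem (Real.arcsin_nonneg.2 h)
      simp only [Real.sin_zero, mul_zero, hsin] at h1
      nlinarith only [h1, h]
    · have h1 := hmono hmem hmem0 (Real.arcsin_nonpos.2 h)
      simp only [Real.sin_zero, mul_zero, hsin] at h1
      nlinarith only [h1, h]
  have hS' := sn_reg hS e sx τ
  have hj := hS'.jensen (H' := S.H) (show ((S.wH (sn_H S e sx τ)).wH S.H).Reg from hS)
  have e1 : ((S.wH (sn_H S e sx τ)).wH S.H).fe = S.fe := rfl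
  rw [e1] at hj
  have e2 : (fun (z : ι → ℝ) (x : X) => S.H z x - (S.wH (sn_H S e sx τ)).H z x) =
      fun z x => (-τ) * (z e * sx x) := by
    funext z x
    show S.H z x - (S.H z x + τ * (z e * sx x)) = _
    ring
  rw [e2, Sy.Ex_const_mul (S.wH (sn_H S e sx τ)) (-τ) (fun z x => z e * sx x), ← hφτ] at hj
  rw [← hφ0]
  linarith only [hkey, hj]

end second

/-- Second order upper bound: the derivative of `fe` in the strength `s' l` is
`Ex (z (sco l 0) * spin x 0)`, its derivative is at most `Ex (z (sco l 0) ^ 2)`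
(`H.hasDerivAt_Ex`), which is at most `C (1 + s'^2)` by integration by parts. -/
theorem nmd_second (B : ℝ) : ∃ C : ℝ, 0 ≤ C ∧ ∀ (N K κ : ℕ) (m : ℕ → ℝ)
    (c : Fin (N + 1) → Fin κ) (P : Pm κ) (U : orthogonalGroup (Fin (N + 1)) ℝ) (l : ℕ) (τ : ℝ),
    Exponents K m → l ≤ K → |P.s l| ≤ B → |τ| ≤ 1 →
    (nmd K m c P (Function.update P.s l (P.s l + τ)) U.1).fe ≤ (mdl K m c P U.1).fe +
      τ * (mdl K m c P U.1).Ex (fun z x => z (sco l 0) * spin x 0) + C * τ ^ 2 := by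
  refine ⟨2 + 4 * (|B| + 1) ^ 2, by positivity, fun N K κ m c P U l τ hm hl hB hτ => ?_⟩
  have hR : (mdl K m c P U.1).Reg := (mdl_regD hm).toReg
  have hpd : ∀ x, PD (sco l 0) (fun z => (mdl K m c P U.1).H z x)
      (fun _ => P.s l * spin x 0) := fun x => by
    have h := mdl_pd (c := c) (P := P) (U := U.1) (sco (K := K) l (0 : Fin (N + 1))) x
    refine PD.congr (H := fun z => (mdl K m c P U.1).H z x) h fun z => ?_
    show enD c P U.1 (sco l 0) z x = _
    unfold Md.enD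
    simp only [sco, if_true, mdl_ofNat hl]
  have h := sn_second hR hpd (fun x => spin_sq x 0) hτ
  have e1 : (mdl K m c P U.1).wH (sn_H (mdl K m c P U.1) (sco l 0) (fun x => spin x 0) τ) =
      nmd K m c P (Function.update P.s l (P.s l + τ)) U.1 := by
    unfold Sy.wH nmd Md.mdl
    congr 1
    funext z x
    show Md.en c P U.1 z x + τ * (z (sco l 0) * spin x 0) = Md.en c P U.1 z x + _
    congr 1
    rw [Finset.sum_eq_single_of_mem l (Finset.mem_range.2 (by omega))]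
    · rw [Function.update_self]
      ring
    · intro l' _ hne
      rw [Function.update_of_ne hne]
      ring
  rw [e1] at h
  refine h.trans ?_
  have h2 : (|P.s l| + 1) ^ 2 ≤ (|B| + 1) ^ 2 :=
    pow_le_pow_left₀ (by positivity) (by linarith only [hB, le_abs_self B]) 2
  linarith only [h2, sq_nonneg τ, mul_le_mul_of_nonneg_right h2 (sq_nonneg τ)]

/-- The permutation of the coordinates. -/
def sn_ip (σ : Equiv.Perm (Fin N)) (e : Ix N K) : Ix N K := (e.1, e.2.1, if e.2.1 then σ e.2.2 else e.2.2)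

lemma sn_ip_inj (σ : Equiv.Perm (Fin N)) : Function.Injective (sn_ip (K := K) σ) := by
  rintro ⟨a, b, i⟩ ⟨a', b', i'⟩ h
  unfold sn_ip at h
  simp only [Prod.mk.injEq] at h
  obtain ⟨h1, h2, h3⟩ := h
  subst h1 h2
  cases b
  · simpa using h3
  · simpa only [Prod.mk.injEq, true_and, ↓reduceIte, EmbeddingLike.apply_eq_iff_eq] using h3

lemma sn_PB (c : Fin N → Fin κ) (P : Pm κ) (U : Matrix (Fin N) (Fin N) ℝ)
    (σ : Equiv.Perm (Fin N)) :
    PB (mdl K m c P (U.submatrix id σ)) (mdl K m c P U) (fun z e => z (sn_ip σ e))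
      (Equiv.arrowCongr σ.symm (Equiv.refl Bool)) where
  meas := by fun_prop
  map := gI_restrict (sn_ip_inj σ)
  mix := fun l z w => rfl
  K := rfl
  m := fun _ _ => rfl
  H := fun z x => by
    show Md.en c P U z x = Md.en c P (U.submatrix id σ) (fun e => z (sn_ip σ e)) (fun i => x (σ i))
    have h1 : ph (U.submatrix id σ) (fun i => x (σ i)) = ph U x := by
      funext j
      unfold ph
      simp only [Matrix.mulVec, dotProduct, Matrix.submatrix_apply, id, spin]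
      exact Equiv.sum_comp σ (fun k => U j k * if x k then (1 : ℝ) else -1)
    have h2 : ∀ l, ∑ i, z (sn_ip σ (sco l i)) * spin (fun i => x (σ i)) i =
        ∑ i, z (sco l i) * spin x i := fun l => by
      exact Equiv.sum_comp σ (fun i => z (sco l i) * spin x i)
    have h3 : ∀ l i, sn_ip σ (bco l i : Ix N K) = bco l i := fun l i => by simp only [sn_ip, bco, Fin.ofNat_eq_cast, Bool.false_eq_true, ↓reduceIte]
    unfold Md.en
    simp only [h1, h2, h3]

lemma sn_F (hm : Exponents K m) (c : Fin N → Fin κ) (P : Pm κ) (U : Matrix (Fin N) (Fin N) ℝ)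
    (σ : Equiv.Perm (Fin N)) (l : ℕ) (i : Fin N) :
    (mdl K m c P U).Ex (fun z x => z (sco l (σ i)) * spin x (σ i)) =
      (mdl K m c P (U.submatrix id σ)).Ex (fun z x => z (sco l i) * spin x i) := by
  have h := (sn_PB (K := K) (m := m) c P U σ).Ex (RegG.of_reg (mdl_regD hm).toReg)
    (f := fun z x => z (sco l i) * spin x i) (sn_nh (sco l i) fun x => spin x i)
  rw [← h]
  rfl

lemma sn_bd (hm : Exponents K m) (hN : 0 < N) (c : Fin N → Fin κ) (P : Pm κ)
    (U : Matrix (Fin N) (Fin N) ℝ) {l : ℕ} (hl : l ≤ K) (i : Fin N) :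
    |(mdl K m c P U).Ex (fun z x => z (sco l i) * spin x i)| ≤ N * |P.s l| := by
  have hN0 : (0 : ℝ) < N := by exact_mod_cast hN
  have F0 := mdl_sfld (K := K) (m := m) (c := c) (P := P) (U := U) hm hN
  have F : BFld (mdl K m c P U) (enD c P U) spin sco ({i} : Finset (Fin N)) P.s :=
    ⟨F0.reg, F0.N0, fun x => (Finset.sum_le_sum_of_subset_of_nonneg (Finset.subset_univ _)
      fun i _ _ => sq_nonneg _).trans (F0.norm x), fun l hl i _ => F0.lev l hl i (Finset.mem_univ i),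
      fun l hl i _ => F0.D l hl i (Finset.mem_univ i)⟩
  have h := mdl_abs_Ex_hk F (j := l) hl
  have e : (fun (z : Ix N K → ℝ) x => z (sco l i) * spin x i) =
      fun z x => (N : ℝ) * hk spin sco {i} l z x := by
    funext z x
    unfold hk
    rw [Finset.sum_singleton]
    field_simp
  rw [e, Sy.Ex_const_mul, abs_mul, abs_of_pos hN0]
  exact mul_le_mul_of_nonneg_left h hN0.le

section avg

variable [MeasurableSpace (orthogonalGroup (Fin N) ℝ)] [BorelSpace (orthogonalGroup (Fin N) ℝ)]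
  (ν : Measure (orthogonalGroup (Fin N) ℝ)) [IsProbabilityMeasure ν]

lemma sn_int (hm : Exponents K m) (hN : 0 < N) (c : Fin N → Fin κ) (P : Pm κ) {l : ℕ}
    (hl : l ≤ K) (i : Fin N) :
    Integrable (fun U : orthogonalGroup (Fin N) ℝ =>
      (mdl K m c P U.1).Ex (fun z x => z (sco l i) * spin x i)) ν := by
  refine integrable_of_bdd ?_ fun U => sn_bd hm hN c P U.1 hl i
  have hH : ∀ x, Measurable fun p : orthogonalGroup (Fin N) ℝ × (Ix N K → ℝ) =>
      (fun (U : orthogonalGroup (Fin N) ℝ) => Md.en c P U.1) p.1 p.2 x := fun x => meas_en x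
  refine meas_Ex (S := mdl K m c P (0 : Matrix (Fin N) (Fin N) ℝ))
    (H := fun U : orthogonalGroup (Fin N) ℝ => Md.en c P U.1) hH
    (h := fun _ z x => z (sco l i) * spin x i) (fun x => ?_)
  exact ((measurable_pi_apply (sco l i)).comp measurable_snd).mul_const _

lemma sn_exch [ν.IsMulLeftInvariant] (hm : Exponents K m) (c : Fin N → Fin κ)
    (P : Pm κ) (l : ℕ) (i j : Fin N) :
    EU ν (fun U => (mdl K m c P U).Ex (fun z x => z (sco l i) * spin x i)) =
      EU ν (fun U => (mdl K m c P U).Ex (fun z x => z (sco l j) * spin x j)) := by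
  unfold EU
  have h := int_cols ν (Equiv.swap i j)
    (fun U => (mdl K m c P U).Ex (fun z x => z (sco l i) * spin x i))
  rw [← h]
  refine integral_congr_ae (Filter.Eventually.of_forall fun U => ?_)
  have h2 := sn_F hm c P U.1 (Equiv.swap i j) l i
  rw [Equiv.swap_apply_left] at h2
  exact h2.symm

end avg

/-- Exchangeability of the sites (`int_cols`, permutation of the coordinates `sco l i` and of the
configurations): the mean of `z (sco l 0) spin x 0` is the mean of `hz` over the sites, and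
`U.hzU_eq`. -/
theorem nmd_slope [MeasurableSpace (orthogonalGroup (Fin (N + 1)) ℝ)]
    [BorelSpace (orthogonalGroup (Fin (N + 1)) ℝ)]
    (ν' : Measure (orthogonalGroup (Fin (N + 1)) ℝ)) [IsProbabilityMeasure ν']
    [ν'.IsMulLeftInvariant] (hm : Exponents K m) (c : Fin (N + 1) → Fin κ) (P : Pm κ)
    (hs : ∀ l ≤ K, 0 ≤ P.s l) {l : ℕ} (hl : l ≤ K) :
    EU ν' (fun U => (mdl K m c P U).Ex (fun z x => z (sco l 0) * spin x 0)) =
      P.s l * (1 - ∑ i ∈ Finset.Ico l (K + 1), (m (i + 1) - m i) * Ql ν' K m c P i) := by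
  rw [← hzU_eq hm (Nat.succ_pos N) hs hl]
  have hN0 : ((N + 1 : ℕ) : ℝ) ≠ 0 := by exact_mod_cast Nat.succ_ne_zero N
  unfold hzU
  have e : ∀ U : orthogonalGroup (Fin (N + 1)) ℝ, (mdl K m c P U.1).Ex (hz spin sco l) =
      1 / ((N + 1 : ℕ) : ℝ) * ∑ i, (mdl K m c P U.1).Ex (fun z x => z (sco l i) * spin x i) := by
    intro U
    have hR : (mdl K m c P U.1).Reg := (mdl_regD hm).toReg
    have h1 : (hz spin sco l : (Ix (N + 1) K → ℝ) → (Fin (N + 1) → Bool) → ℝ) =
        fun z x => 1 / ((N + 1 : ℕ) : ℝ) * ∑ i, z (sco l i) * spin x i := rfl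
    rw [h1, Sy.Ex_const_mul (mdl K m c P U.1) _ (fun z x => ∑ i, z (sco l i) * spin x i),
      hR.Ex_sum _ fun i _ => sn_nh (sco l i) fun x => spin x i]
  have e2 : EU ν' (fun U => (mdl K m c P U).Ex (hz spin sco l)) =
      1 / ((N + 1 : ℕ) : ℝ) * ∑ i, EU ν' (fun U => (mdl K m c P U).Ex
        (fun z x => z (sco l i) * spin x i)) := by
    unfold EU
    simp only [e]
    rw [integral_const_mul, integral_finsetSum _ fun i _ => sn_int ν' hm (Nat.succ_pos N) c P hl i]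
  rw [e2]
  simp only [fun i => sn_exch ν' hm c P l i 0]
  rw [Finset.sum_const, Finset.card_univ, Fintype.card_fin, nsmul_eq_mul]
  field_simp

/-- The averaged form. -/
theorem nmd_up (B : ℝ) : ∃ C : ℝ, 0 ≤ C ∧ ∀ (N K κ : ℕ) (m : ℕ → ℝ)
    (c : Fin (N + 1) → Fin κ) (P : Pm κ) [MeasurableSpace (orthogonalGroup (Fin (N + 1)) ℝ)]
    [BorelSpace (orthogonalGroup (Fin (N + 1)) ℝ)]
    (ν' : Measure (orthogonalGroup (Fin (N + 1)) ℝ)) [IsProbabilityMeasure ν']
    [ν'.IsMulLeftInvariant] (l : ℕ) (τ : ℝ), Exponents K m → l ≤ K → (∀ l ≤ K, 0 ≤ P.s l) →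
    P.s l ≤ B → |τ| ≤ 1 →
    EU ν' (fun U => (nmd K m c P (Function.update P.s l (P.s l + τ)) U).fe) ≤
      Ph ν' K m c P + τ * (P.s l * (1 - ∑ i ∈ Finset.Ico l (K + 1), (m (i + 1) - m i) *
        Ql ν' K m c P i)) + C * τ ^ 2 := by
  obtain ⟨C, hC0, hC⟩ := nmd_second B
  refine ⟨C, hC0, fun N K κ m c P _ _ ν' _ _ l τ hm hl hs hB hτ => ?_⟩
  have hsl := hs l hl
  have habs : |P.s l| ≤ B := by rw [abs_of_nonneg hsl]; exact hB
  rw [← nmd_slope ν' hm c P hs hl]
  have i1 : Integrable (fun U : orthogonalGroup (Fin (N + 1)) ℝ =>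
      (nmd K m c P (Function.update P.s l (P.s l + τ)) U.1).fe) ν' := by
    obtain ⟨C', hC'⟩ := bdd_nmd_fe hm c P (Function.update P.s l (P.s l + τ))
    exact integrable_of_bdd (meas_nmd_fe hm c P _) hC'
  have i2 : Integrable (fun U : orthogonalGroup (Fin (N + 1)) ℝ => (mdl K m c P U.1).fe) ν' :=
    integrable_fe hm (Nat.succ_pos N)
  have i3 := sn_int ν' hm (Nat.succ_pos N) c P hl 0
  have i4 : Integrable (fun U : orthogonalGroup (Fin (N + 1)) ℝ => (mdl K m c P U.1).fe +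
      τ * (mdl K m c P U.1).Ex (fun z x => z (sco l 0) * spin x 0)) ν' := i2.add (i3.const_mul τ)
  unfold Ph EU
  calc ∫ U : orthogonalGroup (Fin (N + 1)) ℝ,
        (nmd K m c P (Function.update P.s l (P.s l + τ)) U.1).fe ∂ν'
      ≤ ∫ U : orthogonalGroup (Fin (N + 1)) ℝ, ((mdl K m c P U.1).fe +
        τ * (mdl K m c P U.1).Ex (fun z x => z (sco l 0) * spin x 0) + C * τ ^ 2) ∂ν' :=
        integral_mono i1 (i4.add (integrable_const _))
          fun U => hC N K κ m c P U l τ hm hl habs hτ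
    _ = _ := by
        rw [integral_add i4 (integrable_const _),
          integral_add i2 (i3.const_mul τ), integral_const_mul, integral_const]
        simp only [probReal_univ, smul_eq_mul, _root_.one_mul]

end Vale.Agent.P166.L
end
end

section

section

/-!
P166, lower bound: stage 1, the potentials of the patterns `wi r k0 j` are moved to the outliers.
-/

open MeasureTheory ProbabilityTheory Matrix Filter Topology

namespace Vale.Agent.P166.L

open Vale.Agent.P157 (spin)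
open Vale.Agent.P157.Lv Vale.Agent.P157.Par Md H U
open Vale.Agent.P166.F (Hm frac trf eq')

variable {n : ℕ}

section pointwise

variable {N K κ : ℕ} {m : ℕ → ℝ} {c : Fin N → Fin κ} {P : Pm κ} {U : Matrix (Fin N) (Fin N) ℝ}

/-- The field of one pattern. -/
theorem st_bfld (hm : Exponents K m) (hN : 0 < N) (hU : U ∈ orthogonalGroup (Fin N) ℝ)
    (i : Fin N) : BFld (mdl K m c P U) (enD c P U) (ph U) bco {i} (P.u (c i)) where
  reg := mdl_regD hm
  N0 := hN
  norm := fun x => by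
    rw [← ph_sq hU x]
    exact Finset.sum_le_sum_of_subset_of_nonneg (Finset.subset_univ _) fun i _ _ => sq_nonneg _
  lev := fun l hl i _ => mdl_ofNat hl
  D := fun l hl j hj z x => by
    have hj' : j = i := Finset.mem_singleton.1 hj
    show P.u (c j) ((Fin.ofNat (K + 1) l : Fin (K + 1)) : ℕ) * ph U x j = _
    rw [mdl_ofNat (K := K) hl, hj']

/-- Integration by parts for the field of one pattern. -/
theorem st_field (hm : Exponents K m) (hN : 0 < N) (hU : U ∈ orthogonalGroup (Fin N) ℝ)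
    (i : Fin N) {l : ℕ} (hl : l ≤ K) :
    P.u (c i) l * (mdl K m c P U).Ex (fun z x => z (bco l i) * ph U x i) ≤
      P.u (c i) l ^ 2 * (mdl K m c P U).Ex (fun _ x => ph U x i ^ 2) := by
  have F := st_bfld (K := K) (m := m) (c := c) (P := P) hm hN hU i
  have hl' : l ≤ (mdl K m c P U).K := hl
  have h1 := F.Ex_hk hl'
  have e1 : (mdl K m c P U).Ex (hk (ph U) bco {i} l) =
      1 / N * (mdl K m c P U).Ex (fun z x => z (bco l i) * ph U x i) := by
    rw [← Sy.Ex_const_mul]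
    congr 1
    funext z x
    unfold hk
    rw [Finset.sum_singleton]
  have e2 : (mdl K m c P U).Ex (fun _ x => Rk (ph U) {i} x x) =
      1 / N * (mdl K m c P U).Ex (fun _ x => ph U x i ^ 2) := by
    rw [← Sy.Ex_const_mul]
    congr 1
    funext z x
    unfold Rk
    rw [Finset.sum_singleton, sq]
  have h2 : 0 ≤ ∑ j ∈ Finset.Ico l ((mdl K m c P U).K + 1), (mdl K m c P U).p j *
      (mdl K m c P U).pairEx j (Rk (ph U) {i}) := by
    refine Finset.sum_nonneg fun j hj => ?_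
    have hj' : j ≤ (mdl K m c P U).K := by
      have := (Finset.mem_Ico.1 hj).2
      omega
    exact mul_nonneg (sub_nonneg.2 (F.sy_reg.mono j hj')) (F.pairEx_Rk_nonneg hj')
  rw [e1, e2] at h1
  have hN' : (0 : ℝ) < N := by exact_mod_cast hN
  set E1 := (mdl K m c P U).Ex (fun z x => z (bco l i) * ph U x i)
  set E2 := (mdl K m c P U).Ex (fun _ x => ph U x i ^ 2)
  set B := ∑ j ∈ Finset.Ico l ((mdl K m c P U).K + 1), (mdl K m c P U).p j *
      (mdl K m c P U).pairEx j (Rk (ph U) {i})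
  have h3 : E1 = P.u (c i) l * (E2 - N * B) := by
    have h4 : E1 = N * (1 / N * E1) := by field_simp
    rw [h4, h1]
    field_simp
  rw [h3, ← mul_assoc, ← sq]
  refine mul_le_mul_of_nonneg_left ?_ (sq_nonneg _)
  have := mul_nonneg hN'.le h2
  linarith only [this]

/-- The difference of the energies. -/
theorem st_diff {w : Fin n → Fin N} (hw : Function.Injective w) (μ : Fin n → ℝ)
    (z : Ix N K → ℝ) (x : Fin N → Bool) :
    (nmu K m c P w μ).en U z x - (mdl K m c P U).H z x =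
      ∑ j, (μ j - P.b (c (w j))) / 2 * ph U x (w j) ^ 2 -
        ∑ l ∈ Finset.range (K + 1), ∑ j, P.u (c (w j)) l * (z (bco l (w j)) * ph U x (w j)) := by
  have a1 : ∑ j, (μ j - P.b (c (w j))) / 2 * ph U x (w j) ^ 2 =
      ∑ i, (Function.extend w μ (fun i => P.b (c i)) i / 2 - P.b (c i) / 2) * ph U x i ^ 2 := by
    refine Fintype.sum_of_injective w hw _ _ (fun i hi => ?_) fun j => ?_
    · have hi' : ¬ ∃ j, w j = i := fun ⟨j, hj⟩ => hi ⟨j, hj⟩
      rw [Function.extend_apply' _ _ _ hi', sub_self, zero_mul]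
    · rw [hw.extend_apply]
      ring
  have a2 : ∀ l, ∑ j, P.u (c (w j)) l * (z (bco l (w j)) * ph U x (w j)) =
      ∑ i, (P.u (c i) l - Function.extend w (fun _ _ => 0) (fun i => P.u (c i)) i l) *
        (z (bco l i) * ph U x i) := by
    intro l
    refine Fintype.sum_of_injective w hw _ _ (fun i hi => ?_) fun j => ?_
    · have hi' : ¬ ∃ j, w j = i := fun ⟨j, hj⟩ => hi ⟨j, hj⟩
      rw [Function.extend_apply' _ _ _ hi', sub_self, zero_mul]
    · rw [hw.extend_apply]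
      ring
  rw [a1]
  simp only [a2]
  have b1 : (nmu K m c P w μ).en U z x =
      ∑ l ∈ Finset.range (K + 1), P.s l * ∑ i, z (sco l i) * spin x i +
      (∑ i, Function.extend w μ (fun i => P.b (c i)) i / 2 * ph U x i ^ 2 +
        ∑ i : Fin N, (0 : ℝ) * ph U x i +
        ∑ l ∈ Finset.range (K + 1), ∑ i,
          Function.extend w (fun _ _ => 0) (fun i => P.u (c i)) i l *
            (z (bco l i) * ph U x i)) := rfl
  have b2 : (mdl K m c P U).H z x = Md.en c P U z x := rfl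
  rw [b1, b2]
  unfold Md.en
  simp only [sub_mul, Finset.sum_sub_distrib, zero_mul, Finset.sum_const_zero, add_zero]
  ring

/-- **Jensen's inequality** for the change of the potentials and of the strengths. -/
theorem st_jensen (hm : Exponents K m) (hN : 0 < N) (hU : U ∈ orthogonalGroup (Fin N) ℝ)
    {w : Fin n → Fin N} (hw : Function.Injective w) (μ : Fin n → ℝ) :
    (mdl K m c P U).fe + ∑ j, ((μ j - P.b (c (w j))) / 2 -
        ∑ l ∈ Finset.range (K + 1), P.u (c (w j)) l ^ 2) *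
          (mdl K m c P U).Ex (fun _ x => ph U x (w j) ^ 2) ≤
      ((nmu K m c P w μ).sy U).fe := by
  have hS : (mdl K m c P U).Reg := (mdl_regD hm).toReg
  have hG : RegG (mdl K m c P U) := RegG.of_reg hS
  have hS' : ((mdl K m c P U).wH ((nmu K m c P w μ).en U)).Reg := (nmu_ok hm c P w μ).reg U
  have h1 := hS.jensen hS'
  have e1 : ((mdl K m c P U).wH ((nmu K m c P w μ).en U)).fe = ((nmu K m c P w μ).sy U).fe := rfl
  rw [e1] at h1
  have e2 : (fun z x => (nmu K m c P w μ).en U z x - (mdl K m c P U).H z x) =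
      fun z x => ∑ j, (μ j - P.b (c (w j))) / 2 * ph U x (w j) ^ 2 -
        ∑ l ∈ Finset.range (K + 1), ∑ j, P.u (c (w j)) l * (z (bco l (w j)) * ph U x (w j)) := by
    funext z x
    exact st_diff hw μ z x
  rw [e2] at h1
  have nh1 : ∀ j : Fin n, Vale.Agent.P157.Lv.Nh (ι := Ix N K) fun (_ : Ix N K → ℝ) x =>
      (μ j - P.b (c (w j))) / 2 * ph U x (w j) ^ 2 := fun j =>
    Sy.Nh.snd fun x => (μ j - P.b (c (w j))) / 2 * ph U x (w j) ^ 2
  have nh2 : ∀ l (j : Fin n), Vale.Agent.P157.Lv.Nh (ι := Ix N K) fun (z : Ix N K → ℝ) x =>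
      P.u (c (w j)) l * (z (bco l (w j)) * ph U x (w j)) := fun l j =>
    Sy.Nh.const_mul _ (Sy.Nh.mul (Sy.Nh.fst (EG.coord _)) (Sy.Nh.snd fun x => ph U x (w j)))
  have e3 : (mdl K m c P U).Ex (fun z x =>
      ∑ j, (μ j - P.b (c (w j))) / 2 * ph U x (w j) ^ 2 -
        ∑ l ∈ Finset.range (K + 1), ∑ j, P.u (c (w j)) l * (z (bco l (w j)) * ph U x (w j))) =
      ∑ j, (μ j - P.b (c (w j))) / 2 * (mdl K m c P U).Ex (fun _ x => ph U x (w j) ^ 2) -
        ∑ l ∈ Finset.range (K + 1), ∑ j, P.u (c (w j)) l *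
          (mdl K m c P U).Ex (fun z x => z (bco l (w j)) * ph U x (w j)) := by
    rw [hG.Ex_sub (Sy.Nh.sum _ fun j _ => nh1 j) (Sy.Nh.sum _ fun l _ => Sy.Nh.sum _ fun j _ =>
      nh2 l j), hG.Ex_sum _ fun j _ => nh1 j, hG.Ex_sum _ fun l _ => Sy.Nh.sum _ fun j _ => nh2 l j]
    congr 1
    · exact Finset.sum_congr rfl fun j _ => Sy.Ex_const_mul _ _ _
    · refine Finset.sum_congr rfl fun l _ => ?_
      rw [hG.Ex_sum _ fun j _ => nh2 l j]
      exact Finset.sum_congr rfl fun j _ => Sy.Ex_const_mul _ _ _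
  rw [e3] at h1
  have h2 : ∑ l ∈ Finset.range (K + 1), ∑ j, P.u (c (w j)) l *
      (mdl K m c P U).Ex (fun z x => z (bco l (w j)) * ph U x (w j)) ≤
      ∑ l ∈ Finset.range (K + 1), ∑ j, P.u (c (w j)) l ^ 2 *
        (mdl K m c P U).Ex (fun _ x => ph U x (w j) ^ 2) :=
    Finset.sum_le_sum fun l hl => Finset.sum_le_sum fun j _ =>
      st_field hm hN hU (w j) (Nat.lt_succ_iff.1 (Finset.mem_range.1 hl))
  have e4 : ∑ j, ((μ j - P.b (c (w j))) / 2 -
        ∑ l ∈ Finset.range (K + 1), P.u (c (w j)) l ^ 2) *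
          (mdl K m c P U).Ex (fun _ x => ph U x (w j) ^ 2) =
      ∑ j, (μ j - P.b (c (w j))) / 2 * (mdl K m c P U).Ex (fun _ x => ph U x (w j) ^ 2) -
      ∑ l ∈ Finset.range (K + 1), ∑ j, P.u (c (w j)) l ^ 2 *
        (mdl K m c P U).Ex (fun _ x => ph U x (w j) ^ 2) := by
    rw [Finset.sum_comm (s := Finset.range (K + 1)), ← Finset.sum_sub_distrib]
    refine Finset.sum_congr rfl fun j _ => ?_
    rw [sub_mul, Finset.sum_mul]
  rw [e4]
  linarith only [h1, h2]

end pointwise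

section average

variable {N K κ : ℕ} {m : ℕ → ℝ} {c : Fin N → Fin κ} {P : Pm κ}
  [MeasurableSpace (orthogonalGroup (Fin N) ℝ)] [BorelSpace (orthogonalGroup (Fin N) ℝ)]
  {ν : Measure (orthogonalGroup (Fin N) ℝ)} [IsProbabilityMeasure ν]

theorem st_int_sq (hm : Exponents K m) (i : Fin N) :
    Integrable (fun U : orthogonalGroup (Fin N) ℝ =>
      (mdl K m c P U.1).Ex (fun _ x => ph U.1 x i ^ 2)) ν := by
  have h := int_gs_Ex ν (ngs_ok (K := K) hm c P) (f := fun U x => ph U x i ^ 2) (fun x => ?_)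
    ⟨N, fun U x => ?_⟩
  · simpa only [ngs_sy] using h
  · have h1 := MM.y (ngs K m c P) i (fun _ => 1) x
    have h2 : Measurable fun U : orthogonalGroup (Fin N) ℝ => ph U.1 x i := by
      simp only [_root_.one_mul] at h1
      exact h1
    exact h2.pow_const 2
  · rw [abs_of_nonneg (sq_nonneg _), ← ph_sq U.2 x]
    exact Finset.single_le_sum (f := fun i => ph U.1 x i ^ 2) (fun j _ => sq_nonneg _)
      (Finset.mem_univ i)

theorem st_jensen_avg (hm : Exponents K m) (hN : 0 < N)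
    {w : Fin n → Fin N} (hw : Function.Injective w) (μ : Fin n → ℝ) :
    Ph ν K m c P + ∑ j, ((μ j - P.b (c (w j))) / 2 -
        ∑ l ∈ Finset.range (K + 1), P.u (c (w j)) l ^ 2) *
          EU ν (fun U => (mdl K m c P U).Ex (fun _ x => ph U x (w j) ^ 2)) ≤
      EU ν (fun U => ((nmu K m c P w μ).sy U).fe) := by
  have i1 : Integrable (fun U : orthogonalGroup (Fin N) ℝ => (mdl K m c P U.1).fe) ν := by
    have h := int_gs_fe ν (ngs_ok (K := K) hm c P)
    simpa only [ngs_sy] using h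
  have i2 : Integrable (fun U : orthogonalGroup (Fin N) ℝ =>
      ((nmu K m c P w μ).sy U.1).fe) ν := int_gs_fe ν (nmu_ok hm c P w μ)
  have i3 : ∀ j ∈ (Finset.univ : Finset (Fin n)), Integrable
      (fun U : orthogonalGroup (Fin N) ℝ => ((μ j - P.b (c (w j))) / 2 -
        ∑ l ∈ Finset.range (K + 1), P.u (c (w j)) l ^ 2) *
          (mdl K m c P U.1).Ex (fun _ x => ph U.1 x (w j) ^ 2)) ν := fun j _ =>
    (st_int_sq hm (w j)).const_mul _
  have h := integral_mono (i1.add (integrable_finsetSum _ i3)) i2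
    (fun U => st_jensen (K := K) (m := m) (c := c) (P := P) hm hN U.2 hw μ)
  simp only [Pi.add_apply] at h
  rw [integral_add i1 (integrable_finsetSum _ i3), integral_finsetSum _ i3] at h
  simp only [integral_const_mul] at h
  exact h

end average

/-- Second moments: bounds. -/
theorem st_sq_bounds {N K κ : ℕ} {m : ℕ → ℝ} {c : Fin N → Fin κ} {P : Pm κ}
    [MeasurableSpace (orthogonalGroup (Fin N) ℝ)] [BorelSpace (orthogonalGroup (Fin N) ℝ)]
    {ν : Measure (orthogonalGroup (Fin N) ℝ)} [IsProbabilityMeasure ν] [ν.IsMulLeftInvariant]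
    (hN : 0 < N) (hm : Exponents K m) {A : ℝ} (hA : 0 < A) (i : Fin N)
    (hf : A ≤ frac c (c i)) :
    0 ≤ EU ν (fun U => (mdl K m c P U).Ex (fun _ x => ph U x i ^ 2)) ∧
      EU ν (fun U => (mdl K m c P U).Ex (fun _ x => ph U x i ^ 2)) ≤ 1 / A := by
  have h1 := mdl_sq (ν := ν) (K := K) (m := m) hN hm c P i
  have h2 := rho_nonneg (ν := ν) (c := c) (P := P) hm hN (c i)
  have h3 := egy1_rho_le (ν := ν) (c := c) (P := P) hm hN (c i)
  set S := EU ν (fun U => (mdl K m c P U).Ex (fun _ x => ph U x i ^ 2))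
  have hf0 : 0 < frac c (c i) := hA.trans_le hf
  have hS0 : 0 ≤ S := by
    by_contra hneg
    have := mul_neg_of_pos_of_neg hf0 (not_le.1 hneg)
    linarith only [h2, h1, this]
  refine ⟨hS0, ?_⟩
  rw [le_div_iff₀ hA]
  have := mul_le_mul_of_nonneg_right hf hS0
  linarith only [h3, h1, this]

/-- The second moments of the patterns of the model: `mdl_sq`, `U.stab_loop` with
`H.loop_bound` (`Az β a α x = β ζ(β x)`, `rhk = (Rzero ..).d`). -/
theorem sq_close {β : ℝ} (hβ : 0 < β) {a α : Fin (n + 1) → ℝ} {μ g : Fin n → ℝ}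
    {Q : Fin (n + 1) → Matrix (Fin (n + 1)) (Fin (n + 1)) ℝ} (D : Dat (fun k => β * a k) α μ g Q)
    (B : ℝ) :
    ∃ C x0 : ℝ, 0 ≤ C ∧ 0 < x0 ∧ ∀ (N K : ℕ) (m : ℕ → ℝ) (c : Fin N → Fin (n + 1)) (P : Pm (n + 1))
      (r : Fin (n + 1) → Fin N) [MeasurableSpace (orthogonalGroup (Fin N) ℝ)]
      [BorelSpace (orthogonalGroup (Fin N) ℝ)] (ν : Measure (orthogonalGroup (Fin N) ℝ))
      [IsProbabilityMeasure ν] [ν.IsMulLeftInvariant] (dl : ℝ),
      Good (fun k => β * a k) α B dl K m c P r → (K + 1) * dl ≤ x0 → ∀ i : Fin N,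
      |EU ν (fun U => (mdl K m c P U).Ex (fun _ x => ph U x i ^ 2)) -
        rhk β a α K m (Ql ν K m c P) (c i)| ≤ C * (∑ k, Dv ν K m c P k + (K + 1) * dl) := by
  obtain ⟨C1, hC1, hst⟩ := stab_loop a α D.pos D.one hβ (F.atoms_zeta (a := a) D.pos D.one hβ)
    (fun B hB => H.loop_bound (n + 1) B hB)
  obtain ⟨k1, hk1⟩ := Finite.exists_min α
  have hα1 := D.pos k1
  refine ⟨C1 + 2 / α k1 ^ 2, min 1 (α k1 / 2), by positivity, lt_min one_pos (by positivity), ?_⟩
  intro N K m c P r _ _ ν _ _ dl hG hdl i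
  have hdl0 := hG.dl0
  have hK : dl ≤ ((K : ℝ) + 1) * dl := by
    have : 0 ≤ (K : ℝ) * dl := by positivity
    linarith only [this]
  have hdl1 : dl ≤ 1 := hK.trans (hdl.trans (min_le_left _ _))
  have hdl2 : dl ≤ α k1 / 2 := hK.trans (hdl.trans (min_le_right _ _))
  set k := c i with hk
  have hαk := D.pos k
  have hfr := hG.fr k
  have hfk : α k1 / 2 ≤ frac c k := by
    have h1 := (abs_le.1 hfr).1
    have h2 := hk1 k
    linarith only [hdl2, h1, h2]
  have hD : 0 ≤ ∑ k, Dv ν K m c P k := Finset.sum_nonneg fun k _ => egy1_Dv_nonneg hG.hm k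
  set E : ℝ := ∑ k, Dv ν K m c P k + ((K : ℝ) + 1) * dl with hE
  have hE0 : dl ≤ E := by linarith only [hK, hD]
  obtain ⟨hS0, hS1⟩ := st_sq_bounds (ν := ν) (K := K) (m := m) (c := c) (P := P) hG.N0 hG.hm
    (by positivity : 0 < α k1 / 2) i hfk
  have hsq := mdl_sq (ν := ν) (K := K) (m := m) hG.N0 hG.hm c P i
  rw [← hk] at hsq
  set S := EU ν (fun U => (mdl K m c P U).Ex (fun _ x => ph U x i ^ 2))
  -- the loop equations
  have h1 := hst N K m c P ν dl hG.N0 hG.hm hG.s0 hG.u0 hG.hb hG.hu hG.fr hdl1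
  rw [← hE] at h1
  have h2 : Hm.nrm K m (Hm.sub (egy1R ν K m c P α k)
      (F.Rzero K m β a (fun x => stInv (atoms a α) (β * x)) (eq' K m (Ql ν K m c P)) k)) ≤
      C1 * E :=
    (Finset.single_le_sum (f := fun k => Hm.nrm K m (Hm.sub (egy1R ν K m c P α k)
      (F.Rzero K m β a (fun x => stInv (atoms a α) (β * x)) (eq' K m (Ql ν K m c P)) k)))
      (fun b _ => egy1_nrm_nonneg (egy1_expo hG.hm) _) (Finset.mem_univ k)).trans h1
  have h3 : |1 / α k * rho ν K m c P k - rhk β a α K m (Ql ν K m c P) k| ≤ C1 * E := by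
    refine le_trans ?_ h2
    have e1 : (F.Rzero K m β a (fun x => stInv (atoms a α) (β * x))
        (eq' K m (Ql ν K m c P)) k).d = rhk β a α K m (Ql ν K m c P) k := by
      unfold F.Rzero rhk Hm.ofEv trf Az
      simp only [mul_sub]
    unfold Hm.nrm Hm.sub
    rw [e1]
    have e2 : (egy1R ν K m c P α k).d = 1 / α k * rho ν K m c P k := rfl
    rw [e2]
    refine le_add_of_nonneg_right (Finset.sum_nonneg fun l hl => ?_)
    have := Finset.mem_range.1 hl
    exact mul_nonneg ((egy1_expo hG.hm).p_nonneg (by omega)) (abs_nonneg _)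
  -- `S` and `rho / α`
  have h4 : |S - 1 / α k * rho ν K m c P k| ≤ 2 / α k1 ^ 2 * E := by
    have e1 : S - 1 / α k * rho ν K m c P k = S * ((α k - frac c k) / α k) := by
      rw [← hsq]
      field_simp
    rw [e1, abs_mul, abs_of_nonneg hS0, abs_div, abs_of_pos hαk, abs_sub_comm]
    have h5 : |frac c k - α k| / α k ≤ dl / α k1 :=
      div_le_div₀ hdl0 hfr hα1 (hk1 k)
    calc S * (|frac c k - α k| / α k) ≤ 1 / (α k1 / 2) * (dl / α k1) :=
          mul_le_mul hS1 h5 (by positivity) (by positivity)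
      _ = 2 / α k1 ^ 2 * dl := by field_simp
      _ ≤ 2 / α k1 ^ 2 * E := mul_le_mul_of_nonneg_left hE0 (by positivity)
  have h6 : S - rhk β a α K m (Ql ν K m c P) k = (S - 1 / α k * rho ν K m c P k) +
      (1 / α k * rho ν K m c P k - rhk β a α K m (Ql ν K m c P) k) := by ring
  rw [h6]
  refine (abs_add_le _ _).trans ?_
  linarith only [h3, h4]

/-- **Stage 1.** Jensen's inequality (`Reg.jensen`) for the change of the potentials and of the
strengths of the patterns `wi r k0 j` (`0 ≤ Ex (z u y) ≤ u^2 Ex y^2` by integration by parts),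
`sq_close`, `stage_one_value`, `rhk_props`. -/
theorem stage1 {β : ℝ} (hβ : 0 < β) {a α : Fin (n + 1) → ℝ} {μ g : Fin n → ℝ}
    {Q : Fin (n + 1) → Matrix (Fin (n + 1)) (Fin (n + 1)) ℝ} (D : Dat (fun k => β * a k) α μ g Q)
    {h : ℝ} (hh0 : 0 ≤ h) (hh : ∀ j : Fin n, β * a j.succ - β * a j.castSucc ≤ h) (B : ℝ) :
    ∃ C x0 : ℝ, 0 ≤ C ∧ 0 < x0 ∧ ∀ (N K : ℕ) (m : ℕ → ℝ) (c : Fin N → Fin (n + 1)) (P : Pm (n + 1))
      (r : Fin (n + 1) → Fin N) (k0 : Fin (n + 1)) [MeasurableSpace (orthogonalGroup (Fin N) ℝ)]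
      [BorelSpace (orthogonalGroup (Fin N) ℝ)] (ν : Measure (orthogonalGroup (Fin N) ℝ))
      [IsProbabilityMeasure ν] [ν.IsMulLeftInvariant] (dl : ℝ),
      Good (fun k => β * a k) α B dl K m c P r → (K + 1) * dl ≤ x0 →
      Ph ν K m c P - 1 / 2 * trf K m (fun x => Real.log (x * (Az β a α x - β * a k0)))
        (eq' K m (Ql ν K m c P)) - 1 / 2 * (h / α (Fin.last n)) -
        C * (∑ k, Dv ν K m c P k + (K + 1) * dl) ≤
      EU ν (fun U => ((nmu K m c P (wi r k0) μ).sy U).fe) := by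
  obtain ⟨C1, x1, hC1, hx1, hsc⟩ := sq_close hβ D B
  obtain ⟨k1, hk1⟩ := Finite.exists_min α
  have hα1 := D.pos k1
  have ha : StrictMono a := fun i j hij => by
    have := D.mono hij
    exact lt_of_mul_lt_mul_left this hβ.le
  set M : ℝ := ∑ j, |μ j| + ∑ k, |β * a k| with hM
  have hM0 : 0 ≤ M := by positivity
  set SB : ℝ := 1 / (α k1 / 2) with hSB
  have hSB0 : 0 < SB := by positivity
  refine ⟨n * (1 / 2 * M * C1 + 3 / 2 * SB), min x1 (min 1 (α k1 / 2)), by positivity,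
    lt_min hx1 (lt_min one_pos (by positivity)), ?_⟩
  intro N K m c P r k0 _ _ ν _ _ dl hG hdl
  have hdl0 := hG.dl0
  have hK : dl ≤ ((K : ℝ) + 1) * dl := by
    have : 0 ≤ (K : ℝ) * dl := by positivity
    linarith only [this]
  have hdlx : ((K : ℝ) + 1) * dl ≤ x1 := hdl.trans (min_le_left _ _)
  have hdl1 : dl ≤ 1 := hK.trans (hdl.trans ((min_le_right _ _).trans (min_le_left _ _)))
  have hdl2 : dl ≤ α k1 / 2 := hK.trans (hdl.trans ((min_le_right _ _).trans (min_le_right _ _)))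
  have hD : 0 ≤ ∑ k, Dv ν K m c P k := Finset.sum_nonneg fun k _ => egy1_Dv_nonneg hG.hm k
  have hw : Function.Injective (wi r k0) := by
    intro j j' hjj
    have h1 := congrArg c hjj
    unfold wi at h1
    rw [hG.hr, hG.hr] at h1
    exact Fin.succAbove_right_injective h1
  have hcw : ∀ j, c (wi r k0 j) = k0.succAbove j := fun j => hG.hr _
  have hJ := st_jensen_avg (ν := ν) (K := K) (m := m) (c := c) (P := P) hG.hm hG.N0 hw μ
  simp only [hcw] at hJ
  have hsc' := hsc N K m c P r ν dl hG hdlx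
  set E : ℝ := ∑ k, Dv ν K m c P k + ((K : ℝ) + 1) * dl with hE
  have hE1 : ((K : ℝ) + 1) * dl ≤ E := by linarith only [hD]
  have hE0 : dl ≤ E := by linarith only [hK, hD]
  -- the overlap path
  have hQpath : P157.Par.Path K (Ql ν K m c P) := by
    constructor
    · exact Finset.sum_nonneg fun k _ => Rkl_nonneg hG.hm hG.N0 k (Nat.zero_le K)
    · intro l hl
      exact Finset.sum_le_sum fun k _ => Rkl_mono hG.hm hG.N0 k hl
  have hQ0 : Ql ν K m c P 0 = 0 :=
    Finset.sum_eq_zero fun k _ => Rkl_zero hG.hm hG.N0 hG.s0 hG.u0 k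
  have hQ1 : Ql ν K m c P K < 1 := Ql_lt_one hG.hm hG.N0
  have hv := stage_one_value ha D.pos D.one hβ D.outl hh hh0 (egy1_expo hG.hm) hQpath hQ0 hQ1 k0
  obtain ⟨hρ0, -, -, hρl⟩ := rhk_props ha D.pos D.one hβ (egy1_expo hG.hm) hQpath hQ0 hQ1
  set ρ := rhk β a α K m (Ql ν K m c P) with hρ
  have hlast : h * ρ (Fin.last n) ≤ h / α (Fin.last n) := by
    have := mul_le_mul_of_nonneg_left hρl hh0
    rwa [mul_one_div] at this
  -- one pattern
  have hone : ∀ j : Fin n, 1 / 2 * ((μ j - β * a (k0.succAbove j)) * ρ (k0.succAbove j)) -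
      (1 / 2 * M * C1 + 3 / 2 * SB) * E ≤
      ((μ j - P.b (k0.succAbove j)) / 2 - ∑ l ∈ Finset.range (K + 1),
        P.u (k0.succAbove j) l ^ 2) *
          EU ν (fun U => (mdl K m c P U).Ex (fun _ x => ph U x (wi r k0 j) ^ 2)) := by
    intro j
    have s1 := hsc' (wi r k0 j)
    rw [hcw] at s1
    have hfk : α k1 / 2 ≤ frac c (c (wi r k0 j)) := by
      have h1 := (abs_le.1 (hG.fr (c (wi r k0 j)))).1
      have h2 := hk1 (c (wi r k0 j))
      linarith only [hdl2, h1, h2]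
    obtain ⟨s2, s3⟩ := st_sq_bounds (ν := ν) (K := K) (m := m) (c := c) (P := P) hG.N0 hG.hm
      (by positivity : 0 < α k1 / 2) (wi r k0 j) hfk
    rw [← hSB] at s3
    set S := EU ν (fun U => (mdl K m c P U).Ex (fun _ x => ph U x (wi r k0 j) ^ 2))
    set k := k0.succAbove j
    have hu2 : ∑ l ∈ Finset.range (K + 1), P.u k l ^ 2 ≤ ((K : ℝ) + 1) * dl := by
      have h1 : ∀ l ∈ Finset.range (K + 1), P.u k l ^ 2 ≤ dl := by
        intro l hl
        have h2 := hG.hu k l (Nat.lt_succ_iff.1 (Finset.mem_range.1 hl))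
        have h3 : P.u k l ^ 2 ≤ dl ^ 2 := by
          rw [← sq_abs]
          exact pow_le_pow_left₀ (abs_nonneg _) h2 2
        nlinarith only [h3, hdl0, hdl1]
      have h2 := Finset.sum_le_sum h1
      rw [Finset.sum_const, Finset.card_range, nsmul_eq_mul] at h2
      push_cast at h2
      exact h2
    have hu0 : 0 ≤ ∑ l ∈ Finset.range (K + 1), P.u k l ^ 2 := Finset.sum_nonneg fun l _ => sq_nonneg _
    have hMj : |μ j - β * a k| ≤ M := by
      have h1 : |μ j| ≤ ∑ j, |μ j| :=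
        Finset.single_le_sum (f := fun j => |μ j|) (fun j _ => abs_nonneg _) (Finset.mem_univ j)
      have h2 : |β * a k| ≤ ∑ k, |β * a k| :=
        Finset.single_le_sum (f := fun k => |β * a k|) (fun j _ => abs_nonneg _)
          (Finset.mem_univ k)
      refine (abs_sub _ _).trans ?_
      linarith only [h1, h2]
    have hb := hG.hb k
    set Z := ∑ l ∈ Finset.range (K + 1), P.u k l ^ 2
    have t1 : Z * S ≤ E * SB := mul_le_mul (hu2.trans hE1) s3 s2 (by linarith only [hdl0, hK, hD])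
    have t2 : |(μ j - β * a k) * (S - ρ k)| ≤ M * (C1 * E) := by
      rw [abs_mul]
      exact mul_le_mul hMj s1 (abs_nonneg _) hM0
    have t3 : |(P.b k - β * a k) * S| ≤ E * SB := by
      rw [abs_mul, abs_of_nonneg s2]
      exact mul_le_mul (hb.trans hE0) s3 s2 (by linarith only [hdl0, hK, hD])
    have t2' := (abs_le.1 t2).1
    have t3' := (abs_le.1 t3).2
    linarith only [t1, t2', t3']
  have hsum := Finset.sum_le_sum fun j (_ : j ∈ (Finset.univ : Finset (Fin n))) => hone j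
  rw [Finset.sum_sub_distrib, ← Finset.mul_sum, Finset.sum_const, Finset.card_univ,
    Fintype.card_fin, nsmul_eq_mul] at hsum
  have hfin : (n : ℝ) * (1 / 2 * M * C1 + 3 / 2 * SB) * E =
      n * ((1 / 2 * M * C1 + 3 / 2 * SB) * E) := by ring
  rw [hfin]
  linarith only [hJ, hv, hlast, hsum]

end Vale.Agent.P166.L
end
end

section

section

/-!
P166, lower bound: from concentrated fields and self-overlaps to the deviations, for general
systems (synchronization with an exterior average).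
-/

open MeasureTheory ProbabilityTheory Matrix Filter Topology

namespace Vale.Agent.P166.L

open Vale.Agent.P157.Lv Vale.Agent.P157.Par Md H U
open Vale.Agent.P166.F (Hm)

set_option linter.unusedSectionVars false

section family

variable {ι X Ω : Type} [Fintype ι] [DecidableEq ι] [Fintype X] [DecidableEq X] [Nonempty X]
  [MeasurableSpace Ω] {μ : Measure Ω} [IsProbabilityMeasure μ] {N : ℕ} {S : Sy ι X}
  {G : Ω → (ι → ℝ) → X → ℝ} {φ : Ω → X → Fin N → ℝ} {zc : ℕ → Fin N → ι} {B : Finset (Fin N)}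
  {u : ℕ → ℝ} {D : Ω → ι → (ι → ℝ) → X → ℝ}

/-- Bounded measurable functions. -/
theorem dg_bdd {f : Ω → ℝ} (hf : Measurable f) {C : ℝ} (hC : ∀ ω, |f ω| ≤ C) :
    Integrable f μ :=
  Integrable.of_bound hf.aestronglyMeasurable C (Filter.Eventually.of_forall fun ω => by
    rw [Real.norm_eq_abs]; exact hC ω)

theorem dg_mR (hφ : ∀ x i, Measurable fun ω => φ ω x i) (x x' : X) :
    Measurable fun ω => Rk (φ ω) B x x' := by
  unfold Rk
  exact (Finset.measurable_fun_sum _ fun i _ => (hφ x i).mul (hφ x' i)).const_mul _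

theorem dg_mh (hφ : ∀ x i, Measurable fun ω => φ ω x i) (l : ℕ) (x : X) :
    Measurable fun p : Ω × (ι → ℝ) => hk (φ p.1) zc B l p.2 x := by
  have hz : ∀ e : ι, Measurable fun p : Ω × (ι → ℝ) => p.2 e := fun e =>
    (measurable_pi_apply e).comp measurable_snd
  have hp : ∀ i, Measurable fun p : Ω × (ι → ℝ) => φ p.1 x i := fun i =>
    (hφ x i).comp measurable_fst
  unfold hk
  exact (Finset.measurable_fun_sum _ fun i _ => (hz _).mul (hp i)).const_mul _

theorem dg_int_self0 (hG : ∀ x, Measurable fun p : Ω × (ι → ℝ) => G p.1 p.2 x)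
    (hφ : ∀ x i, Measurable fun ω => φ ω x i)
    (F : ∀ ω, BFld (S.wH (G ω)) (D ω) (φ ω) zc B u) :
    Integrable (fun ω => (S.wH (G ω)).Ex (fun _ x => Rk (φ ω) B x x)) μ := by
  refine dg_bdd (C := 1) ?_ fun ω => ?_
  · exact meas_Ex (S := S) (H := G) hG (h := fun ω _ x => Rk (φ ω) B x x)
      fun x => (dg_mR hφ x x).comp measurable_fst
  · have hS := (F ω).sy_reg
    have n1 : Nh (ι := ι) fun _ x => Rk (φ ω) B x x := BFld.sy_nh_Rk
    refine (hS.abs_Ex_le n1).trans ((hS.Ex_mono (Sy.Nh.abs n1) (Sy.Nh.snd fun _ => 1)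
      fun z x => (F ω).abs_Rk_le x x).trans (hS.Ex_const 1).le)

theorem dg_int_pair0 (hG : ∀ x, Measurable fun p : Ω × (ι → ℝ) => G p.1 p.2 x)
    (hφ : ∀ x i, Measurable fun ω => φ ω x i)
    (F : ∀ ω, BFld (S.wH (G ω)) (D ω) (φ ω) zc B u) {l : ℕ} (hl : l ≤ S.K) :
    Integrable (fun ω => (S.wH (G ω)).pairEx l (Rk (φ ω) B)) μ := by
  refine dg_bdd (C := 1) ?_ fun ω => ?_
  · exact meas_pairEx (S := S) (H := G) hG (ψ := fun ω x x' => Rk (φ ω) B x x')
      (fun x x' => dg_mR hφ x x') l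
  · rw [abs_of_nonneg ((F ω).pairEx_Rk_nonneg hl)]
    exact (F ω).sy_pairEx_le_one hl

theorem dg_self_nonneg (F : ∀ ω, BFld (S.wH (G ω)) (D ω) (φ ω) zc B u) (C : ℝ) (ω : Ω) :
    0 ≤ (S.wH (G ω)).Ex (fun _ x => |Rk (φ ω) B x x - C|) := by
  have hS := (F ω).sy_reg
  rw [← hS.Ex_const 0]
  exact hS.Ex_mono (Sy.Nh.snd fun _ => 0) (Sy.Nh.snd fun x => |Rk (φ ω) B x x - C|)
    fun _ x => abs_nonneg _

theorem dg_int_self (hG : ∀ x, Measurable fun p : Ω × (ι → ℝ) => G p.1 p.2 x)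
    (hφ : ∀ x i, Measurable fun ω => φ ω x i)
    (F : ∀ ω, BFld (S.wH (G ω)) (D ω) (φ ω) zc B u) (C : ℝ) :
    Integrable (fun ω => (S.wH (G ω)).Ex (fun _ x => |Rk (φ ω) B x x - C|)) μ := by
  refine dg_bdd (C := 1 + |C|) ?_ fun ω => ?_
  · exact meas_Ex (S := S) (H := G) hG (h := fun ω _ x => |Rk (φ ω) B x x - C|)
      fun x => (((dg_mR hφ x x).comp measurable_fst).sub_const C).abs
  · rw [abs_of_nonneg (dg_self_nonneg F C ω)]
    have hS := (F ω).sy_reg
    refine (hS.Ex_mono (Sy.Nh.snd fun x => |Rk (φ ω) B x x - C|)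
      (Sy.Nh.snd fun _ => 1 + |C|) fun z x => ?_).trans (hS.Ex_const _).le
    exact (abs_sub _ _).trans (add_le_add ((F ω).abs_Rk_le x x) le_rfl)

theorem dg_hk_nonneg (F : ∀ ω, BFld (S.wH (G ω)) (D ω) (φ ω) zc B u) (l : ℕ) (C : ℝ) (ω : Ω) :
    0 ≤ (S.wH (G ω)).Ex (fun z x => |hk (φ ω) zc B l z x - C|) := by
  have hS := (F ω).sy_reg
  rw [← hS.Ex_const 0]
  exact hS.Ex_mono (Sy.Nh.snd fun _ => 0)
    (Sy.Nh.abs (Sy.Nh.sub (BFld.sy_nh_hk l) (Sy.Nh.snd fun _ => C))) fun z x => abs_nonneg _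

theorem dg_int_hk (hG : ∀ x, Measurable fun p : Ω × (ι → ℝ) => G p.1 p.2 x)
    (hφ : ∀ x i, Measurable fun ω => φ ω x i)
    (F : ∀ ω, BFld (S.wH (G ω)) (D ω) (φ ω) zc B u) {l : ℕ} (hl : l ≤ S.K) (C : ℝ) :
    Integrable (fun ω => (S.wH (G ω)).Ex (fun z x => |hk (φ ω) zc B l z x - C|)) μ := by
  refine dg_bdd (C := 1 + 2 * |u l| + |C|) ?_ fun ω => ?_
  · exact meas_Ex (S := S) (H := G) hG (h := fun ω z x => |hk (φ ω) zc B l z x - C|)
      fun x => ((dg_mh hφ l x).sub_const C).abs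
  · rw [abs_of_nonneg (dg_hk_nonneg F l C ω)]
    have hS := (F ω).sy_reg
    have nh : Nh (hk (φ ω) zc B l) := BFld.sy_nh_hk l
    have h1 := d1_abs_hk (F ω) (j := l) hl
    have h2 : (S.wH (G ω)).Ex (fun z x => |hk (φ ω) zc B l z x - C|) ≤
        (S.wH (G ω)).Ex (fun z x => |hk (φ ω) zc B l z x| + |C|) :=
      hS.Ex_mono (Sy.Nh.abs (Sy.Nh.sub nh (Sy.Nh.snd fun _ => C)))
        (Sy.Nh.add (Sy.Nh.abs nh) (Sy.Nh.snd fun _ => |C|)) fun z x => abs_sub _ _
    rw [hS.Ex_add (Sy.Nh.abs nh) (Sy.Nh.snd fun _ => |C|), hS.Ex_const] at h2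
    linarith

theorem dg_pair_bound (F : ∀ ω, BFld (S.wH (G ω)) (D ω) (φ ω) zc B u) {l : ℕ} (hl : l ≤ S.K)
    (r : ℝ) (ω : Ω) :
    (S.wH (G ω)).pairEx l (fun x x' => |Rk (φ ω) B x x' - r|) ≤ 1 + |r| := by
  have hS := (F ω).sy_reg
  have hl' : l ≤ (S.wH (G ω)).K := hl
  rw [← hS.pairEx_const hl' (1 + |r|)]
  exact hS.pairEx_mono hl' fun x x' => (abs_sub _ _).trans (add_le_add
    ((F ω).abs_Rk_le x x') le_rfl)

theorem dg_int_pair (hG : ∀ x, Measurable fun p : Ω × (ι → ℝ) => G p.1 p.2 x)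
    (hφ : ∀ x i, Measurable fun ω => φ ω x i)
    (F : ∀ ω, BFld (S.wH (G ω)) (D ω) (φ ω) zc B u) {l : ℕ} (hl : l ≤ S.K) (r : ℝ) :
    Integrable (fun ω => (S.wH (G ω)).pairEx l (fun x x' => |Rk (φ ω) B x x' - r|)) μ := by
  refine dg_bdd (C := 1 + |r|) ?_ fun ω => ?_
  · exact meas_pairEx (S := S) (H := G) hG (ψ := fun ω x x' => |Rk (φ ω) B x x' - r|)
      (fun x x' => ((dg_mR hφ x x').sub_const r).abs) l
  · have hS := (F ω).sy_reg
    rw [abs_of_nonneg (hS.pairEx_nonneg hl fun x x' => abs_nonneg _)]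
    exact dg_pair_bound F hl r ω

/-- The deviation of the overlap for one system. -/
theorem dg_point {S : Sy ι X} {D : ι → (ι → ℝ) → X → ℝ} {φ : X → Fin N → ℝ}
    (F : BFld S D φ zc B u) {σ π : ℝ} (hσ : 0 < σ) (hσ1 : σ ≤ 1) (hπ : 0 < π)
    (hp : ∀ l ≤ S.K, π ≤ S.p l) (hu : ∀ l, 1 ≤ l → l ≤ S.K → σ ≤ u l) {e ρ : ℝ} {C : ℕ → ℝ}
    (he : 0 ≤ e) (hρ : S.Ex (fun _ x => |Rk φ B x x - ρ|) ≤ e)
    (hc : ∀ l, 1 ≤ l → l ≤ S.K → S.Ex (fun z x => |hk φ zc B l z x - C l|) ≤ e)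
    {l : ℕ} (hl0 : 1 ≤ l) (hl : l < S.K) (r : ℝ) :
    S.pairEx l (fun x x' => |Rk φ B x x' - r|) ≤
      √(2 * (S.pairEx (l + 1) (Rk φ B) - S.pairEx l (Rk φ B)) + 100 * e / (σ * π)) +
        |S.pairEx l (Rk φ B) - r| := by
  have hS := F.sy_reg
  have h1 := F.sync he hσ hσ1 hu hπ hp hρ (fun l h1 h2 => ⟨C l, hc l h1 h2⟩) hl0 hl
  set R := S.pairEx l (Rk φ B) with hR
  have h2 := (hS.pairEx_abs_le hl.le (fun x x' => Rk φ B x x' - R)).trans
    (Real.sqrt_le_sqrt h1)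
  have h3 : S.pairEx l (fun x x' => |Rk φ B x x' - r|) ≤
      S.pairEx l (fun x x' => |Rk φ B x x' - R| + |R - r|) :=
    hS.pairEx_mono hl.le fun x x' => abs_sub_le _ _ _
  rw [hS.pairEx_add hl.le (fun x x' => |Rk φ B x x' - R|) (fun _ _ => |R - r|),
    hS.pairEx_const hl.le] at h3
  linarith

/-- The weighted sum over the levels. -/
theorem dg_sum {K : ℕ} {m t r : ℕ → ℝ} {δ y : ℝ} (hδ0 : 0 < δ) (hy : 0 ≤ y) (hm0 : 0 ≤ m 1)
    (hmK : m (K + 1) = 1) (hpn : ∀ l ≤ K, 0 ≤ m (l + 1) - m l)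
    (hδ : ∀ l ≤ K, m (l + 1) - m l ≤ δ) (hlev : ∀ l ≤ K, t l ≤ 2)
    (hmid : ∀ l, 1 ≤ l → l < K → t l ≤ √(2 * (r (l + 1) - r l)) + y)
    (hr : ∀ l < K, r l ≤ r (l + 1)) (hR0 : ∀ l ≤ K, 0 ≤ r l) (hR1 : ∀ l ≤ K, r l ≤ 1) :
    ∑ l ∈ Finset.range (K + 1), (m (l + 1) - m l) * t l ≤ √(2 * δ) + 4 * δ + y := by
  have hsδ := Real.sqrt_nonneg (2 * δ)
  rcases K with _ | n
  · rw [Finset.sum_range_one]
    have h1 := mul_le_mul_of_nonneg_left (hlev 0 le_rfl) (hpn 0 le_rfl)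
    have h2 := hδ 0 le_rfl
    linarith
  · rw [Finset.sum_range_succ, Finset.sum_range_succ']
    have h1 := mul_le_mul_of_nonneg_left (hlev 0 (Nat.zero_le _)) (hpn 0 (Nat.zero_le _))
    have h2 := hδ 0 (Nat.zero_le _)
    have h3 := mul_le_mul_of_nonneg_left (hlev (n + 1) le_rfl) (hpn (n + 1) le_rfl)
    have h4 := hδ (n + 1) le_rfl
    have h5 : ∑ i ∈ Finset.range n, (m (i + 1 + 1) - m (i + 1)) * t (i + 1) ≤
        ∑ i ∈ Finset.range n, ((m (i + 1 + 1) - m (i + 1)) *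
          √(2 * (r (i + 1 + 1) - r (i + 1))) + (m (i + 1 + 1) - m (i + 1)) * y) := by
      refine Finset.sum_le_sum fun i hi => ?_
      have hi' := Finset.mem_range.1 hi
      have h6 := mul_le_mul_of_nonneg_left (hmid (i + 1) (by omega) (by omega))
        (hpn (i + 1) (by omega))
      refine h6.trans (le_of_eq ?_)
      ring
    rw [Finset.sum_add_distrib, ← Finset.sum_mul] at h5
    have h7 : ∑ i ∈ Finset.range n, (m (i + 1 + 1) - m (i + 1)) ≤ 1 := by
      rw [Finset.sum_range_sub (fun i => m (i + 1))]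
      have h9 := hpn (n + 1) le_rfl
      simp only [zero_add]
      linarith
    have h10 := d1_sum_sqrt (n := n) (p := fun i => m (i + 1 + 1) - m (i + 1))
      (r := fun i => r (i + 1)) hδ0 (fun i hi => hpn (i + 1) (by omega))
      (fun i hi => hδ (i + 1) (by omega)) h7
      (fun i hi => hr (i + 1) (by omega)) (by
        have h11 := hR1 (n + 1) le_rfl
        have h12 := hR0 (0 + 1) (by omega)
        linarith)
    have h13 : (∑ i ∈ Finset.range n, (m (i + 1 + 1) - m (i + 1))) * y ≤ 1 * y :=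
      mul_le_mul_of_nonneg_right h7 hy
    linarith

/-- From concentrated fields and self-overlaps to the deviations, for a measurable family of
systems. -/
theorem dg_gen (hG : ∀ x, Measurable fun p : Ω × (ι → ℝ) => G p.1 p.2 x)
    (hφ : ∀ x i, Measurable fun ω => φ ω x i)
    (F : ∀ ω, BFld (S.wH (G ω)) (D ω) (φ ω) zc B u) {σ π δ ε : ℝ} (hσ : 0 < σ) (hσ1 : σ ≤ 1)
    (hπ : 0 < π) (hp : ∀ l ≤ S.K, π ≤ S.m (l + 1) - S.m l)
    (hδ : ∀ l ≤ S.K, S.m (l + 1) - S.m l ≤ δ) (hε : 0 ≤ ε)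
    (hu : ∀ l, 1 ≤ l → l ≤ S.K → σ ≤ u l)
    (hρ : ∃ C, ∫ ω, (S.wH (G ω)).Ex (fun _ x => |Rk (φ ω) B x x - C|) ∂μ ≤ ε)
    (hc : ∀ l, 1 ≤ l → l ≤ S.K →
      ∃ C, ∫ ω, (S.wH (G ω)).Ex (fun z x => |hk (φ ω) zc B l z x - C|) ∂μ ≤ ε)
    {ρ : ℝ} {r : ℕ → ℝ} (hρ0 : ρ = ∫ ω, (S.wH (G ω)).Ex (fun _ x => Rk (φ ω) B x x) ∂μ)
    (hr : ∀ l, r l = ∫ ω, (S.wH (G ω)).pairEx l (Rk (φ ω) B) ∂μ) :
    ∫ ω, (S.wH (G ω)).Ex (fun _ x => |Rk (φ ω) B x x - ρ|) ∂μ +
      ∑ l ∈ Finset.range (S.K + 1), (S.m (l + 1) - S.m l) *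
        ∫ ω, (S.wH (G ω)).pairEx l (fun x x' => |Rk (φ ω) B x x' - r l|) ∂μ ≤
      √(2 * δ) + 4 * δ + 10 * √((S.K + 1) * ε / (σ * π)) + 6 * ((S.K + 1) * ε / (σ * π)) := by
  obtain ⟨Cρ, hCρ⟩ := hρ
  choose! C hC using hc
  have hne : Nonempty Ω := μ.nonempty_of_neZero
  obtain ⟨ω0⟩ := hne
  have hσπ : 0 < σ * π := mul_pos hσ hπ
  have hreg : ∀ ω, (S.wH (G ω)).Reg := fun ω => (F ω).sy_reg
  have hm0 : ∀ l ≤ (S.wH (G ω0)).K, 0 ≤ (S.wH (G ω0)).m l := m3_m_nonneg (hreg ω0)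
  replace hm0 : ∀ l ≤ S.K, 0 ≤ S.m l := hm0
  have hδ0 : 0 < δ :=
    lt_of_lt_of_le hπ ((hp 0 (Nat.zero_le _)).trans (hδ 0 (Nat.zero_le _)))
  have hmK : S.m (S.K + 1) = 1 := (hreg ω0).mK
  have hm1 : 0 < S.m 1 := (hreg ω0).pos
  have hπ1 : π ≤ 1 := by
    have h1 := hp S.K le_rfl
    have h2 := hm0 S.K le_rfl
    linarith
  set x : ℝ := (S.K + 1) * ε / (σ * π) with hx
  have hx0 : 0 ≤ x := by positivity
  have hεx : ε ≤ x := by
    rw [hx, le_div_iff₀ hσπ]
    have h1 : σ * π ≤ 1 := mul_le_one₀ hσ1 hπ.le hπ1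
    have h2 : ε * (σ * π) ≤ ε * 1 := mul_le_mul_of_nonneg_left h1 hε
    have h3 : 0 ≤ (S.K : ℝ) * ε := by positivity
    linarith
  have hpn : ∀ l ≤ S.K, 0 ≤ S.m (l + 1) - S.m l := fun l hl => hπ.le.trans (hp l hl)
  have i0 : Integrable (fun ω => (S.wH (G ω)).Ex (fun _ x => Rk (φ ω) B x x)) μ :=
    dg_int_self0 hG hφ F
  have iS : ∀ C : ℝ, Integrable (fun ω => (S.wH (G ω)).Ex (fun _ x => |Rk (φ ω) B x x - C|)) μ :=
    fun C => dg_int_self hG hφ F C
  have ip : ∀ l ≤ S.K, Integrable (fun ω => (S.wH (G ω)).pairEx l (Rk (φ ω) B)) μ :=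
    fun l hl => dg_int_pair0 hG hφ F hl
  have iP : ∀ l ≤ S.K, ∀ r : ℝ, Integrable (fun ω => (S.wH (G ω)).pairEx l
      (fun x x' => |Rk (φ ω) B x x' - r|)) μ := fun l hl r => dg_int_pair hG hφ F hl r
  -- the self-overlap
  have hdiag : ∫ ω, (S.wH (G ω)).Ex (fun _ x => |Rk (φ ω) B x x - ρ|) ∂μ ≤ 2 * x := by
    have h1 : |Cρ - ρ| ≤ ε := by
      have e1 : Cρ - ρ = ∫ ω, (Cρ - (S.wH (G ω)).Ex (fun _ x => Rk (φ ω) B x x)) ∂μ := by
        rw [integral_sub (integrable_const _) i0, ← hρ0]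
        simp only [integral_const, probReal_univ, smul_eq_mul, one_mul]
      rw [e1]
      refine (abs_integral_le_integral_abs).trans (le_trans ?_ hCρ)
      refine integral_mono ((integrable_const _).sub i0).abs (iS Cρ) fun ω => ?_
      have n1 : Nh (ι := ι) fun _ x => Rk (φ ω) B x x := BFld.sy_nh_Rk
      have h2 := (hreg ω).abs_Ex_le (Sy.Nh.sub n1 (Sy.Nh.snd fun _ => Cρ))
      rw [(hreg ω).Ex_sub n1 (Sy.Nh.snd fun _ => Cρ), (hreg ω).Ex_const] at h2
      simp only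
      rw [abs_sub_comm]
      exact h2
    have h2 : ∫ ω, (S.wH (G ω)).Ex (fun _ x => |Rk (φ ω) B x x - ρ|) ∂μ ≤
        ∫ ω, ((S.wH (G ω)).Ex (fun _ x => |Rk (φ ω) B x x - Cρ|) + |Cρ - ρ|) ∂μ := by
      refine integral_mono (iS ρ) ((iS Cρ).add (integrable_const _)) fun ω => ?_
      have n1 : Nh (ι := ι) fun _ x => |Rk (φ ω) B x x - Cρ| :=
        Sy.Nh.snd fun x => |Rk (φ ω) B x x - Cρ|
      have n2 : Nh (ι := ι) (X := X) fun _ _ => |Cρ - ρ| := Sy.Nh.snd fun _ => |Cρ - ρ|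
      have h3 : (S.wH (G ω)).Ex (fun _ x => |Rk (φ ω) B x x - ρ|) ≤
          (S.wH (G ω)).Ex (fun _ x => |Rk (φ ω) B x x - Cρ| + |Cρ - ρ|) :=
        (hreg ω).Ex_mono (Sy.Nh.snd fun x => |Rk (φ ω) B x x - ρ|) (Sy.Nh.add n1 n2)
          fun _ x => abs_sub_le _ _ _
      rw [(hreg ω).Ex_add n1 n2, (hreg ω).Ex_const] at h3
      exact h3
    rw [integral_add (iS Cρ) (integrable_const _)] at h2
    simp only [integral_const, probReal_univ, smul_eq_mul, one_mul] at h2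
    linarith
  -- crude bound of the levels
  have hR0 : ∀ l ≤ S.K, 0 ≤ r l := fun l hl => by
    rw [hr]
    exact integral_nonneg fun ω => (F ω).pairEx_Rk_nonneg hl
  have hR1 : ∀ l ≤ S.K, r l ≤ 1 := fun l hl => by
    rw [hr]
    have h1 := integral_mono (ip l hl) (integrable_const (1 : ℝ)) fun ω =>
      (F ω).sy_pairEx_le_one hl
    simpa using h1
  have hRm : ∀ l < S.K, r l ≤ r (l + 1) := fun l hl => by
    rw [hr, hr]
    exact integral_mono (ip l hl.le) (ip (l + 1) hl) fun ω => (F ω).pairEx_Rk_mono hl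
  have hlev : ∀ l ≤ S.K,
      ∫ ω, (S.wH (G ω)).pairEx l (fun x x' => |Rk (φ ω) B x x' - r l|) ∂μ ≤ 2 := by
    intro l hl
    have h1 : ∫ ω, (S.wH (G ω)).pairEx l (fun x x' => |Rk (φ ω) B x x' - r l|) ∂μ ≤
        ∫ _ω, (2 : ℝ) ∂μ := by
      refine integral_mono (iP l hl _) (integrable_const _) fun ω => ?_
      refine (dg_pair_bound F hl _ ω).trans ?_
      rw [abs_of_nonneg (hR0 l hl)]
      linarith [hR1 l hl]
    simpa using h1
  -- the sum of the errors
  set e : Ω → ℝ := fun ω => (S.wH (G ω)).Ex (fun _ x => |Rk (φ ω) B x x - Cρ|) +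
    ∑ j ∈ Finset.Icc 1 S.K, (S.wH (G ω)).Ex (fun z x => |hk (φ ω) zc B j z x - C j|) with he
  have ihb : ∀ j ∈ Finset.Icc 1 S.K, Integrable (fun ω =>
      (S.wH (G ω)).Ex (fun z x => |hk (φ ω) zc B j z x - C j|)) μ := fun j hj =>
    dg_int_hk hG hφ F (Finset.mem_Icc.1 hj).2 (C j)
  have ie : Integrable e μ := (iS Cρ).add (integrable_finsetSum _ ihb)
  have he1 : ∀ ω, (S.wH (G ω)).Ex (fun _ x => |Rk (φ ω) B x x - Cρ|) ≤ e ω := fun ω =>
    le_add_of_nonneg_right (Finset.sum_nonneg fun j _ => dg_hk_nonneg F j (C j) ω)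
  have he0 : ∀ ω, 0 ≤ e ω := fun ω => (dg_self_nonneg F Cρ ω).trans (he1 ω)
  have he2 : ∀ ω, ∀ j, 1 ≤ j → j ≤ S.K →
      (S.wH (G ω)).Ex (fun z x => |hk (φ ω) zc B j z x - C j|) ≤ e ω := by
    intro ω j h1 h2
    have h3 := Finset.single_le_sum (f := fun j =>
      (S.wH (G ω)).Ex (fun z x => |hk (φ ω) zc B j z x - C j|))
      (fun j _ => dg_hk_nonneg F j (C j) ω) (Finset.mem_Icc.2 ⟨h1, h2⟩)
    exact h3.trans (le_add_of_nonneg_left (dg_self_nonneg F Cρ ω))
  have hEe : ∫ ω, e ω ∂μ ≤ (S.K + 1) * ε := by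
    have h1 : ∫ ω, e ω ∂μ = (∫ ω, (S.wH (G ω)).Ex (fun _ x => |Rk (φ ω) B x x - Cρ|) ∂μ) +
        ∑ j ∈ Finset.Icc 1 S.K, ∫ ω,
          (S.wH (G ω)).Ex (fun z x => |hk (φ ω) zc B j z x - C j|) ∂μ := by
      rw [he, integral_add (iS Cρ) (integrable_finsetSum _ ihb), integral_finsetSum _ ihb]
    rw [h1]
    have h2 : ∑ j ∈ Finset.Icc 1 S.K, ∫ ω,
        (S.wH (G ω)).Ex (fun z x => |hk (φ ω) zc B j z x - C j|) ∂μ ≤
        ∑ j ∈ Finset.Icc 1 S.K, ε := Finset.sum_le_sum fun j hj =>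
      hC j (Finset.mem_Icc.1 hj).1 (Finset.mem_Icc.1 hj).2
    have h3 : ∑ j ∈ Finset.Icc 1 S.K, ε = S.K * ε := by
      rw [Finset.sum_const, Nat.card_Icc, nsmul_eq_mul, Nat.add_sub_cancel]
    linarith
  have hEx : (∫ ω, e ω ∂μ) / (σ * π) ≤ x := div_le_div_of_nonneg_right hEe hσπ.le
  -- the middle levels
  have hmid : ∀ l, 1 ≤ l → l < S.K →
      ∫ ω, (S.wH (G ω)).pairEx l (fun x x' => |Rk (φ ω) B x x' - r l|) ∂μ ≤
      √(2 * (r (l + 1) - r l)) + (10 * √x + 4 * x) := by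
    intro l hl0 hl
    have ip0 := ip l hl.le
    have ip1 := ip (l + 1) hl
    set Dl := (C (l + 1) / u (l + 1) - C l / u l) / (S.m (l + 1) - S.m l) with hDl
    -- the mean overlap of a system is close to a constant
    have hcl : ∀ ω, |(S.wH (G ω)).pairEx l (Rk (φ ω) B) - Dl| ≤ 2 / (σ * π) * e ω := fun ω => by
      have h1 := (F ω).pairEx_close hσ hπ hp hu (he2 ω) hl0 hl
      have h2 : 2 / (σ * π) * e ω = 2 * e ω / (σ * π) := by ring
      rw [h2]
      exact h1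
    have ie2 : Integrable (fun ω => 2 / (σ * π) * e ω) μ := ie.const_mul _
    have hDR : |Dl - r l| ≤ 2 * x := by
      have e1 : r l - Dl = ∫ ω, ((S.wH (G ω)).pairEx l (Rk (φ ω) B) - Dl) ∂μ := by
        rw [integral_sub ip0 (integrable_const _), ← hr]
        simp only [integral_const, probReal_univ, smul_eq_mul, one_mul]
      rw [abs_sub_comm, e1]
      refine (abs_integral_le_integral_abs).trans ?_
      refine (integral_mono (ip0.sub (integrable_const _)).abs ie2 hcl).trans ?_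
      rw [integral_const_mul]
      have h3 : 2 / (σ * π) * ∫ ω, e ω ∂μ = 2 * ((∫ ω, e ω ∂μ) / (σ * π)) := by ring
      rw [h3]
      linarith
    -- the bound for each system
    have hpt : ∀ ω, (S.wH (G ω)).pairEx l (fun x x' => |Rk (φ ω) B x x' - r l|) ≤
        √(2 * ((S.wH (G ω)).pairEx (l + 1) (Rk (φ ω) B) -
          (S.wH (G ω)).pairEx l (Rk (φ ω) B)) + 100 / (σ * π) * e ω) +
          (2 / (σ * π) * e ω + 2 * x) := fun ω => by
      have h1 := dg_point (F ω) hσ hσ1 hπ hp hu (he0 ω) (he1 ω) (he2 ω) hl0 hl (r l)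
      have h2 : 100 * e ω / (σ * π) = 100 / (σ * π) * e ω := by ring
      rw [h2] at h1
      have h3 : |(S.wH (G ω)).pairEx l (Rk (φ ω) B) - r l| ≤
          |(S.wH (G ω)).pairEx l (Rk (φ ω) B) - Dl| + |Dl - r l| := abs_sub_le _ _ _
      linarith [hcl ω]
    set f : Ω → ℝ := fun ω => 2 * ((S.wH (G ω)).pairEx (l + 1) (Rk (φ ω) B) -
      (S.wH (G ω)).pairEx l (Rk (φ ω) B)) + 100 / (σ * π) * e ω with hf
    have j1 : Integrable (fun ω => 2 * ((S.wH (G ω)).pairEx (l + 1) (Rk (φ ω) B) -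
      (S.wH (G ω)).pairEx l (Rk (φ ω) B))) μ := (ip1.sub ip0).const_mul 2
    have j2 : Integrable (fun ω => 100 / (σ * π) * e ω) μ := ie.const_mul _
    have if' : Integrable f μ := j1.add j2
    have hf0 : ∀ ω, 0 ≤ f ω := fun ω => by
      have h1 : (S.wH (G ω)).pairEx l (Rk (φ ω) B) ≤ (S.wH (G ω)).pairEx (l + 1) (Rk (φ ω) B) :=
        (F ω).pairEx_Rk_mono hl
      have h2 : 0 ≤ 100 / (σ * π) * e ω := mul_nonneg (by positivity) (he0 ω)
      simp only [hf]
      linarith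
    have isf : Integrable (fun ω => √(f ω)) μ := by
      refine (if'.add (integrable_const 1)).mono
        (Real.continuous_sqrt.comp_aestronglyMeasurable if'.aestronglyMeasurable)
        (Eventually.of_forall fun ω => ?_)
      have h0 := hf0 ω
      have h1 : √(f ω) ≤ f ω + 1 := by
        rw [Real.sqrt_le_left (by linarith)]
        nlinarith
      simp only [Pi.add_apply]
      rw [Real.norm_eq_abs, Real.norm_eq_abs, abs_of_nonneg (Real.sqrt_nonneg _),
        abs_of_nonneg (by linarith)]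
      exact h1
    have hEf : ∫ ω, f ω ∂μ ≤ 2 * (r (l + 1) - r l) + 100 * x := by
      have h1 : ∫ ω, f ω ∂μ = 2 * (r (l + 1) - r l) + 100 / (σ * π) * ∫ ω, e ω ∂μ := by
        simp only [hf]
        rw [integral_add j1 j2, integral_const_mul, integral_const_mul, integral_sub ip1 ip0,
          ← hr, ← hr]
      have h3 : 100 / (σ * π) * ∫ ω, e ω ∂μ = 100 * ((∫ ω, e ω ∂μ) / (σ * π)) := by ring
      rw [h1, h3]
      linarith
    have hRR : 0 ≤ r (l + 1) - r l := sub_nonneg.2 (hRm l hl)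
    have hsq : √(2 * (r (l + 1) - r l) + 100 * x) ≤ √(2 * (r (l + 1) - r l)) + 10 * √x := by
      have h1 : √(100 * x) = 10 * √x := by
        rw [Real.sqrt_mul (by norm_num)]
        congr 1
        rw [show (100 : ℝ) = 10 ^ 2 by norm_num]
        exact Real.sqrt_sq (by norm_num)
      have h2 : 0 ≤ 2 * (r (l + 1) - r l) := by linarith
      have h3 : 0 ≤ 100 * x := by linarith
      rw [← h1, Real.sqrt_le_left (by positivity), add_sq, Real.sq_sqrt h2, Real.sq_sqrt h3]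
      have h4 := mul_nonneg (Real.sqrt_nonneg (2 * (r (l + 1) - r l)))
        (Real.sqrt_nonneg (100 * x))
      linarith
    have j3 : Integrable (fun ω => 2 / (σ * π) * e ω + 2 * x) μ := ie2.add (integrable_const _)
    calc ∫ ω, (S.wH (G ω)).pairEx l (fun x x' => |Rk (φ ω) B x x' - r l|) ∂μ
        ≤ ∫ ω, (√(f ω) + (2 / (σ * π) * e ω + 2 * x)) ∂μ :=
          integral_mono (iP l hl.le (r l)) (isf.add j3) hpt
      _ = (∫ ω, √(f ω) ∂μ) + (2 * ((∫ ω, e ω ∂μ) / (σ * π)) + 2 * x) := by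
          rw [integral_add isf j3, integral_add ie2 (integrable_const _), integral_const_mul]
          simp only [integral_const, probReal_univ, smul_eq_mul, one_mul]
          ring
      _ ≤ √(∫ ω, f ω ∂μ) + (2 * x + 2 * x) :=
          add_le_add (d1_jensen if' hf0 isf) (by linarith)
      _ ≤ √(2 * (r (l + 1) - r l) + 100 * x) + (2 * x + 2 * x) :=
          add_le_add (Real.sqrt_le_sqrt hEf) le_rfl
      _ ≤ _ := by linarith
  have hsum := dg_sum (K := S.K) (m := S.m) (r := r) (y := 10 * √x + 4 * x) hδ0 (by positivity)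
    hm1.le hmK hpn hδ hlev hmid hRm hR0 hR1
  linarith

end family

variable {ι X : Type} [Fintype ι] [DecidableEq ι] [Fintype X] [DecidableEq X] [Nonempty X]

/-- The mean overlaps in the set `Bs`. -/
noncomputable def MB {N : ℕ} [MeasurableSpace (orthogonalGroup (Fin N) ℝ)]
    (ν : Measure (orthogonalGroup (Fin N) ℝ)) (A : GS N ι X) (Bs : Finset (Fin N)) : Hm :=
  ⟨EU ν (fun U => (A.sy U).Ex (fun _ x => A.R Bs U x x)),
    fun l => EU ν (fun U => (A.sy U).pairEx l (A.R Bs U))⟩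

/-- From concentrated fields and self-overlaps to the deviations (the same as `U.dev_of_conc`, for a
`GS` and a set `Bs` of patterns on which the strengths of the fields are constant). -/
theorem dev_gs {N K : ℕ} {m : ℕ → ℝ} [MeasurableSpace (orthogonalGroup (Fin N) ℝ)]
    [BorelSpace (orthogonalGroup (Fin N) ℝ)] {ν : Measure (orthogonalGroup (Fin N) ℝ)}
    [IsProbabilityMeasure ν] {A : GS N ι X} (hA : A.Ok) (hAK : A.K = K) (hAm : A.m = m)
    {Bs : Finset (Fin N)} {u : ℕ → ℝ} {D : orthogonalGroup (Fin N) ℝ → ι → (ι → ℝ) → X → ℝ}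
    (hF : ∀ U : orthogonalGroup (Fin N) ℝ, BFld (A.sy U.1) (D U) (fun x => A.y U.1 x) A.bc Bs u)
    (hm : Exponents K m) {σ π δ ε : ℝ} (hσ : 0 < σ) (hσ1 : σ ≤ 1) (hπ : 0 < π)
    (hp : ∀ l ≤ K, π ≤ m (l + 1) - m l) (hδ : ∀ l ≤ K, m (l + 1) - m l ≤ δ) (hε : 0 ≤ ε)
    (hu : ∀ l, 1 ≤ l → l ≤ K → σ ≤ u l)
    (hρ : ∃ C, EU ν (fun U => (A.sy U).Ex (fun _ x => |A.R Bs U x x - C|)) ≤ ε)
    (hc : ∀ l, 1 ≤ l → l ≤ K → ∃ C, EU ν (fun U => (A.sy U).Ex
      (fun z x => |hk (fun x => A.y U x) A.bc Bs l z x - C|)) ≤ ε) :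
    DvE ν A Bs (MB ν A Bs) ≤ √(2 * δ) + 4 * δ + 10 * √((K + 1) * ε / (σ * π)) +
      6 * ((K + 1) * ε / (σ * π)) := by
  subst hAK
  subst hAm
  have hy : ∀ (x : X) (i : Fin N), Measurable fun U : orthogonalGroup (Fin N) ℝ => A.y U.1 x i :=
    fun x i => by
      have h := MM.y A i (fun _ => 1) x
      simpa using h
  exact dg_gen (S := A.sy 0) (G := fun U : orthogonalGroup (Fin N) ℝ => A.en U.1)
    (φ := fun U x => A.y U.1 x) (μ := ν) hA.men hy hF hσ hσ1 hπ hp hδ hε hu hρ hc rfl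
    fun _ => rfl

end Vale.Agent.P166.L
end
end

section

section

/-!
P166, lower bound: concentration of the overlap of the last block in the systems with a new spin.
The systems `GE` at the parameters `pmb P (last) (± t)`, `pmu P (last) l (± t)` are the systems
`ptV` of `U.conc_avg` for `V = N/2 * R` and `V = N * hk`, their free energies are close to the ones
of the model (`close_E`).
-/

open MeasureTheory ProbabilityTheory Matrix Filter Topology

namespace Vale.Agent.P166.L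

open Vale.Agent.P157 (spin)
open Vale.Agent.P157.Lv Vale.Agent.P157.Par Md H U

variable {n : ℕ}

/-! ### General systems -/

section gen

variable {N : ℕ} {ι X : Type} [Fintype ι] [DecidableEq ι] [Fintype X] [DecidableEq X] [Nonempty X]
  [MeasurableSpace (orthogonalGroup (Fin N) ℝ)] [BorelSpace (orthogonalGroup (Fin N) ℝ)]
  {ν : Measure (orthogonalGroup (Fin N) ℝ)} [IsProbabilityMeasure ν]

/-- The concentration of one observable. -/
theorem co_key {A A1 A2 : GS N ι X} (hA : A.Ok) (hA1 : A1.Ok) (hA2 : A2.Ok) {m1 : ℝ}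
    (hm1 : A.m 1 = m1) {V : Matrix (Fin N) (Fin N) ℝ → (ι → ℝ) → X → ℝ} (hV : ∀ U, Nh (V U))
    {t : ℝ} (ht : 0 < t) (e1 : ∀ U, ptV (A.sy U) (V U) t = A1.sy U)
    (e2 : ∀ U, ptV (A.sy U) (V U) (-t) = A2.sy U)
    (l1 : ∀ U z, (A1.sy U).lg 0 z = (A1.sy U).fe) (l2 : ∀ U z, (A2.sy U).lg 0 z = (A2.sy U).fe)
    {G Δ : ℝ} (hG : EU ν (fun U => (A1.sy U).fe) + EU ν (fun U => (A2.sy U).fe) -
      2 * EU ν (fun U => (A.sy U).fe) ≤ G)
    (hD1 : EU ν (fun U => |(A1.sy U).fe - EU ν (fun V => (A1.sy V).fe)|) ≤ Δ)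
    (hD2 : EU ν (fun U => |(A2.sy U).fe - EU ν (fun V => (A2.sy V).fe)|) ≤ Δ)
    {r : ℝ} (hr : 0 ≤ r) :
    ∃ a, EU ν (fun U => (A.sy U).Ex (fun z x => |r * V U z x - a|)) ≤
      r * (1 / t * (Real.log 2 / m1 + G / 2 + Δ)) := by
  have i0 := int_gs_fe ν hA
  have i1 := int_gs_fe ν hA1
  have i2 := int_gs_fe ν hA2
  have hc : ∀ (B : GS N ι X) (U : orthogonalGroup (Fin N) ℝ),
      (∀ U z, (B.sy U).lg 0 z = (B.sy U).fe) →
      ∀ y : ℝ, ∫ z, |(B.sy U.1).lg 0 z - y| ∂(gI ι) = |(B.sy U.1).fe - y| := by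
    intro B U hB y
    simp only [hB]
    rw [integral_const, probReal_univ, one_smul]
  have h := conc_avg (μ := ν) (S := fun U : orthogonalGroup (Fin N) ℝ => A.sy U.1)
    (V := fun U => V U.1) (m1 := m1) (fun _ => hm1) (fun U => hA.reg U.1)
    (fun U => hV U.1) ht (fun U => by rw [e1]; exact hA1.reg U.1)
    (fun U => by rw [e2]; exact hA2.reg U.1) i0
    (by simp only [e1]; exact i1) (by simp only [e2]; exact i2)
    (A := Δ)
    (by simp only [e1, hc A1 _ l1]; exact (i1.sub (integrable_const _)).abs)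
    (by simp only [e2, hc A2 _ l2]; exact (i2.sub (integrable_const _)).abs)
    (by simp only [e1, hc A1 _ l1]; exact hD1)
    (by simp only [e2, hc A2 _ l2]; exact hD2)
  simp only [e1, e2] at h
  set a := (∫ U : orthogonalGroup (Fin N) ℝ, (A1.sy U.1).fe ∂ν -
      ∫ U : orthogonalGroup (Fin N) ℝ, (A2.sy U.1).fe ∂ν) / (2 * t) with ha
  refine ⟨r * a, ?_⟩
  have h2 : EU ν (fun U => (A.sy U).Ex (fun z x => |r * V U z x - r * a|)) =
      r * ∫ U : orthogonalGroup (Fin N) ℝ, (A.sy U.1).Ex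
        (fun z x => |V U.1 z x - a|) ∂ν := by
    unfold EU
    rw [← integral_const_mul]
    refine integral_congr_ae (Filter.Eventually.of_forall fun U => ?_)
    change (A.sy U.1).Ex (fun z x => |r * V U.1 z x - r * a|) =
      r * (A.sy U.1).Ex (fun z x => |V U.1 z x - a|)
    rw [← Sy.Ex_const_mul]
    congr 1
    funext z x
    rw [← mul_sub, abs_mul, abs_of_nonneg hr]
  rw [h2]
  refine mul_le_mul_of_nonneg_left (h.trans ?_) hr
  refine mul_le_mul_of_nonneg_left ?_ (by positivity)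
  unfold EU at hG
  linarith only [hG]

/-- The free energy is above its tangents, averaged. -/
theorem co_tangent {A A1 : GS N ι X} (hA : A.Ok) (hA1 : A1.Ok)
    {V : Matrix (Fin N) (Fin N) ℝ → (ι → ℝ) → X → ℝ} {t : ℝ}
    (e1 : ∀ U, ptV (A.sy U) (V U) t = A1.sy U)
    (hi : Integrable (fun U : orthogonalGroup (Fin N) ℝ => (A.sy U.1).Ex (V U.1)) ν) :
    EU ν (fun U => (A.sy U).fe) + t * EU ν (fun U => (A.sy U).Ex (V U)) ≤
      EU ν (fun U => (A1.sy U).fe) := by
  have i0 := int_gs_fe ν hA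
  have i1 := int_gs_fe ν hA1
  unfold EU
  rw [← integral_const_mul, ← integral_add i0 (hi.const_mul t)]
  refine integral_mono (i0.add (hi.const_mul t)) i1 fun U => ?_
  have h1 := (hA.reg U.1).jensen (H' := fun z x => (A.sy U.1).H z x + t * V U.1 z x)
    (by
      have h2 := hA1.reg U.1
      rw [← e1] at h2
      exact h2)
  have h3 : (A.sy U.1).wH (fun z x => (A.sy U.1).H z x + t * V U.1 z x) = A1.sy U.1 := e1 U.1
  rw [h3] at h1
  have h4 : (A.sy U.1).Ex (fun z x => (A.sy U.1).H z x + t * V U.1 z x - (A.sy U.1).H z x) =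
      t * (A.sy U.1).Ex (V U.1) := by
    rw [← Sy.Ex_const_mul]
    congr 1
    funext z x
    ring
  rw [h4] at h1
  change (A.sy U.1).fe + t * (A.sy U.1).Ex (V U.1) ≤ (A1.sy U.1).fe
  linarith only [h1]

theorem co_intR {A : GS N ι X} (hA : A.Ok) (hN : 0 < N) (Bs : Finset (Fin N)) :
    Integrable (fun U : orthogonalGroup (Fin N) ℝ =>
      (A.sy U.1).Ex (fun _ x => A.R Bs U.1 x x)) ν :=
  int_gs_Ex ν hA (f := fun U x => A.R Bs U x x) (fun x => GS.mR A Bs x x)
    ⟨1, fun U x => hA.R_le hN Bs U x x⟩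

theorem co_intP {A : GS N ι X} (hA : A.Ok) (hN : 0 < N) (Bs : Finset (Fin N)) {l : ℕ}
    (hl : l ≤ A.K) : Integrable (fun U : orthogonalGroup (Fin N) ℝ =>
      (A.sy U.1).pairEx l (A.R Bs U.1)) ν :=
  int_gs_pairEx ν hA hl (f := fun U => A.R Bs U) (fun x x' => GS.mR A Bs x x')
    ⟨1, fun U x x' => hA.R_le hN Bs U x x'⟩

omit [BorelSpace (orthogonalGroup (Fin N) ℝ)] [IsProbabilityMeasure ν] in
theorem co_EU_sub {f g : Matrix (Fin N) (Fin N) ℝ → ℝ}
    (hf : Integrable (fun U : orthogonalGroup (Fin N) ℝ => f U.1) ν)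
    (hg : Integrable (fun U : orthogonalGroup (Fin N) ℝ => g U.1) ν) {C : ℝ}
    (h : EU ν (fun U => |f U - g U|) ≤ C) : |EU ν f - EU ν g| ≤ C := by
  refine le_trans ?_ h
  unfold EU
  rw [← integral_sub hf hg]
  exact abs_integral_le_integral_abs

omit [BorelSpace (orthogonalGroup (Fin N) ℝ)] in
/-- Transfer of the deviations. -/
theorem co_dev {f g : Matrix (Fin N) (Fin N) ℝ → ℝ}
    (hf : Integrable (fun U : orthogonalGroup (Fin N) ℝ => f U.1) ν)
    (hg : Integrable (fun U : orthogonalGroup (Fin N) ℝ => g U.1) ν) {C D : ℝ}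
    (h : EU ν (fun U => |f U - g U|) ≤ C) (h2 : EU ν (fun U => |g U - EU ν g|) ≤ D) :
    EU ν (fun U => |f U - EU ν f|) ≤ 2 * C + D := by
  have h3 := co_EU_sub hf hg h
  have i1 : Integrable (fun U : orthogonalGroup (Fin N) ℝ => |f U.1 - g U.1|) ν :=
    (hf.sub hg).abs
  have i2 : Integrable (fun U : orthogonalGroup (Fin N) ℝ => |g U.1 - EU ν g|) ν :=
    (hg.sub (integrable_const _)).abs
  have i3 : Integrable (fun U : orthogonalGroup (Fin N) ℝ => |f U.1 - EU ν f|) ν :=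
    (hf.sub (integrable_const _)).abs
  have h4 : EU ν (fun U => |f U - EU ν f|) ≤
      ∫ U : orthogonalGroup (Fin N) ℝ, (|f U.1 - g U.1| + |g U.1 - EU ν g| + C) ∂ν := by
    unfold EU
    refine integral_mono i3 ((i1.add i2).add (integrable_const C)) fun U => ?_
    have h5 : f U.1 - EU ν f = (f U.1 - g U.1) + (g U.1 - EU ν g) + (EU ν g - EU ν f) := by ring
    change |f U.1 - EU ν f| ≤ |f U.1 - g U.1| + |g U.1 - EU ν g| + C
    rw [h5]
    refine (abs_add_le _ _).trans (add_le_add (abs_add_le _ _) ?_)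
    rw [abs_sub_comm]
    exact h3
  have i4 : Integrable (fun U : orthogonalGroup (Fin N) ℝ =>
      |f U.1 - g U.1| + |g U.1 - EU ν g|) ν := i1.add i2
  rw [integral_add i4 (integrable_const C), integral_add i1 i2, integral_const, probReal_univ,
    one_smul] at h4
  unfold EU at h h2 h4 ⊢
  linarith only [h, h2, h4]

end gen

/-! ### The systems with a new spin -/

section sys

variable {N K : ℕ} {m : ℕ → ℝ}

/-- Without fields at the level zero, `lg 0` is constant. -/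
theorem co_lg0 (hm : Exponents K m) (E : EPm N) (hs : E.s 0 = 0) (hs' : E.s' 0 = 0)
    (ht : E.t 0 = 0) (hu : ∀ i, E.u i 0 = 0) (U : Matrix (Fin N) (Fin N) ℝ)
    (z : Ie N K → ℝ) : ((egs K m E).sy U).lg 0 z = ((egs K m E).sy U).fe := by
  refine lg_zero_const ((egs_ok hm E).reg U) (fun x z z' h => ?_) z
  have hlv : ∀ l, 0 < l → l ∈ Finset.range (K + 1) → ((Fin.ofNat (K + 1) l : Fin (K + 1)) : ℕ) ≠ 0 := by
    intro l h0 hl
    rw [show ((Fin.ofNat (K + 1) l : Fin (K + 1)) : ℕ) = l from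
      mdl_ofNat (Nat.lt_succ_iff.1 (Finset.mem_range.1 hl))]
    omega
  have k1 : ∀ l, 0 < l → l ∈ Finset.range (K + 1) → ∀ i, z (scE l i) = z' (scE l i) :=
    fun l h0 hl i => h _ (hlv l h0 hl)
  have k2 : ∀ l, 0 < l → l ∈ Finset.range (K + 1) → z (ecE N K l) = z' (ecE N K l) :=
    fun l h0 hl => h _ (hlv l h0 hl)
  have k3 : ∀ l, 0 < l → l ∈ Finset.range (K + 1) → z (zcE N K l) = z' (zcE N K l) :=
    fun l h0 hl => h _ (hlv l h0 hl)
  have k4 : ∀ l, 0 < l → l ∈ Finset.range (K + 1) → ∀ i, z (bcE l i) = z' (bcE l i) :=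
    fun l h0 hl i => h _ (hlv l h0 hl)
  have e1 : eE0 K E z x = eE0 K E z' x := by
    unfold eE0
    congr 2
    · refine Finset.sum_congr rfl fun l hl => ?_
      rcases Nat.eq_zero_or_pos l with h0 | h0
      · rw [h0, hs, zero_mul, zero_mul]
      · congr 1
        exact Finset.sum_congr rfl fun i _ => by rw [k1 l h0 hl]
    · refine Finset.sum_congr rfl fun l hl => ?_
      rcases Nat.eq_zero_or_pos l with h0 | h0
      · rw [h0, hs', ht, zero_mul, zero_mul, zero_mul, zero_mul]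
      · rw [k2 l h0 hl, k3 l h0 hl]
  change eE0 K E z x + (egs K m E).ev (fun l i => z (bcE l i)) ((egs K m E).y U x) x =
    eE0 K E z' x + (egs K m E).ev (fun l i => z' (bcE l i)) ((egs K m E).y U x) x
  rw [e1]
  congr 1
  unfold GS.ev
  congr 1
  refine Finset.sum_congr rfl fun l hl => ?_
  rcases Nat.eq_zero_or_pos l with h0 | h0
  · refine Finset.sum_congr rfl fun i _ => ?_
    change E.u i l * _ = E.u i l * _
    rw [h0, hu, zero_mul, zero_mul]
  · refine Finset.sum_congr rfl fun i _ => ?_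
    change E.u i l * (z (bcE l i) * _) = E.u i l * (z' (bcE l i) * _)
    rw [k4 l h0 hl i]

/-- Two systems with a new spin which differ by the potentials and the strengths of the fields. -/
theorem co_ptV (E : EPm N) (lam : Fin N → ℝ) (u : Fin N → ℕ → ℝ) (t : ℝ)
    (V : (Ie N K → ℝ) → Xe N → ℝ) (U : Matrix (Fin N) (Fin N) ℝ)
    (h : ∀ z x, t * V z x = ∑ i, (lam i - E.lam i) / 2 * (U *ᵥ spin x.2) i ^ 2 +
      ∑ l ∈ Finset.range (K + 1), ∑ i, (u i l - E.u i l) * (z (bcE l i) * (U *ᵥ spin x.2) i)) :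
    ptV ((egs K m E).sy U) V t = (egs K m { E with lam := lam, u := u }).sy U := by
  have h1 : (fun z x => (egs K m E).en U z x + t * V z x) =
      (egs K m { E with lam := lam, u := u }).en U := by
    funext z x
    rw [h]
    change eE0 K E z x + (∑ i, E.lam i / 2 * (U *ᵥ spin x.2) i ^ 2 +
        ∑ i, E.kap i * sg1 x.1 * (U *ᵥ spin x.2) i +
        ∑ l ∈ Finset.range (K + 1), ∑ i, E.u i l * (z (bcE l i) * (U *ᵥ spin x.2) i)) + _ =
      eE0 K E z x + (∑ i, lam i / 2 * (U *ᵥ spin x.2) i ^ 2 +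
        ∑ i, E.kap i * sg1 x.1 * (U *ᵥ spin x.2) i +
        ∑ l ∈ Finset.range (K + 1), ∑ i, u i l * (z (bcE l i) * (U *ᵥ spin x.2) i))
    have e1 : ∑ i, lam i / 2 * (U *ᵥ spin x.2) i ^ 2 =
        ∑ i, E.lam i / 2 * (U *ᵥ spin x.2) i ^ 2 +
        ∑ i, (lam i - E.lam i) / 2 * (U *ᵥ spin x.2) i ^ 2 := by
      rw [← Finset.sum_add_distrib]
      exact Finset.sum_congr rfl fun i _ => by ring
    have e2 : ∑ l ∈ Finset.range (K + 1), ∑ i, u i l * (z (bcE l i) * (U *ᵥ spin x.2) i) =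
        ∑ l ∈ Finset.range (K + 1), ∑ i, E.u i l * (z (bcE l i) * (U *ᵥ spin x.2) i) +
        ∑ l ∈ Finset.range (K + 1), ∑ i,
          (u i l - E.u i l) * (z (bcE l i) * (U *ᵥ spin x.2) i) := by
      rw [← Finset.sum_add_distrib]
      refine Finset.sum_congr rfl fun l _ => ?_
      rw [← Finset.sum_add_distrib]
      exact Finset.sum_congr rfl fun i _ => by ring
    rw [e1, e2]
    ring
  exact congrArg (fun H => (⟨lve, K, m, H⟩ : Sy (Ie N K) (Xe N))) h1

theorem co_extend {w : Fin n → Fin N} {β : Type} (μ : Fin n → β) (f f' : Fin N → β) {i : Fin N}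
    (h : i ∈ Finset.univ.image w) : Function.extend w μ f i = Function.extend w μ f' i := by
  obtain ⟨j, -, hj⟩ := Finset.mem_image.1 h
  have h1 : ∃ a, w a = i := ⟨j, hj⟩
  unfold Function.extend
  rw [dif_pos h1, dif_pos h1]

theorem co_extend' {w : Fin n → Fin N} {β : Type} (μ : Fin n → β) (f : Fin N → β) {i : Fin N}
    (h : i ∉ Finset.univ.image w) : Function.extend w μ f i = f i := by
  refine Function.extend_apply' _ _ _ ?_
  rintro ⟨a, ha⟩
  exact h (Finset.mem_image.2 ⟨a, Finset.mem_univ _, ha⟩)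

end sys

section pert

variable {N K : ℕ} {m : ℕ → ℝ} {c : Fin N → Fin (n + 1)} {P : Pm (n + 1)}
  {r : Fin (n + 1) → Fin N} {k0 : Fin (n + 1)} {b α : Fin (n + 1) → ℝ} {μ g : Fin n → ℝ}
  {rd : ℝ} {rr s' : ℕ → ℝ} {σ τ : ℝ}

/-- The potential of the last type as a perturbation. -/
theorem co_b (hN : 0 < N) (t : ℝ) (U : Matrix (Fin N) (Fin N) ℝ) :
    ptV ((GE K m b α μ g c P r k0 rd rr s' σ τ).sy U) (fun _ x => (N : ℝ) / 2 *
      (GE K m b α μ g c P r k0 rd rr s' σ τ).R (Bt c (wi r k0)) U x x) t =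
      (GE K m b α μ g c (pmb P (Fin.last n) t) r k0 rd rr s' σ τ).sy U := by
  have hN' : (N : ℝ) ≠ 0 := by exact_mod_cast hN.ne'
  refine co_ptV (MP K c (wi r k0) P μ g (mbar b α) rd rr s' σ τ)
    (MP K c (wi r k0) (pmb P (Fin.last n) t) μ g (mbar b α) rd rr s' σ τ).lam
    (MP K c (wi r k0) P μ g (mbar b α) rd rr s' σ τ).u t _ U fun z x => ?_
  have e1 : ∑ l ∈ Finset.range (K + 1), ∑ i,
      ((MP K c (wi r k0) P μ g (mbar b α) rd rr s' σ τ).u i l -
        (MP K c (wi r k0) P μ g (mbar b α) rd rr s' σ τ).u i l) *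
        (z (bcE l i) * (U *ᵥ spin x.2) i) = 0 :=
    Finset.sum_eq_zero fun l _ => Finset.sum_eq_zero fun i _ => by rw [sub_self, zero_mul]
  rw [e1, add_zero]
  have e2 : ∀ i, ((MP K c (wi r k0) (pmb P (Fin.last n) t) μ g (mbar b α) rd rr s' σ τ).lam i -
      (MP K c (wi r k0) P μ g (mbar b α) rd rr s' σ τ).lam i) / 2 * (U *ᵥ spin x.2) i ^ 2 =
      if i ∈ Bt c (wi r k0) then t / 2 * (U *ᵥ spin x.2) i ^ 2 else 0 := by
    intro i
    change (Function.extend (wi r k0) μ (fun i => (pmb P (Fin.last n) t).b (c i)) i -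
      Function.extend (wi r k0) μ (fun i => P.b (c i)) i) / 2 * _ = _
    by_cases h1 : i ∈ Finset.univ.image (wi r k0)
    · rw [co_extend μ (fun i => (pmb P (Fin.last n) t).b (c i)) (fun i => P.b (c i)) h1,
        sub_self, zero_div, zero_mul, if_neg]
      unfold Bt
      rw [Finset.mem_sdiff]
      exact fun h => h.2 h1
    · rw [co_extend' μ _ h1, co_extend' μ _ h1]
      have e3 : (pmb P (Fin.last n) t).b (c i) =
        Function.update P.b (Fin.last n) (P.b (Fin.last n) + t) (c i) := rfl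
      rw [e3]
      by_cases h2 : c i = Fin.last n
      · rw [h2, Function.update_self, add_sub_cancel_left, if_pos]
        unfold Bt
        rw [Finset.mem_sdiff]
        exact ⟨Finset.mem_filter.2 ⟨Finset.mem_univ _, h2⟩, h1⟩
      · rw [Function.update_of_ne h2, sub_self, zero_div, zero_mul, if_neg]
        unfold Bt
        rw [Finset.mem_sdiff]
        exact fun h => h2 (Finset.mem_filter.1 h.1).2
  rw [Finset.sum_congr rfl fun i _ => e2 i, Finset.sum_ite_mem, Finset.univ_inter]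
  change t * ((N : ℝ) / 2 * (1 / N * ∑ i ∈ Bt c (wi r k0), (U *ᵥ spin x.2) i *
    (U *ᵥ spin x.2) i)) = _
  rw [← Finset.mul_sum, Finset.sum_congr rfl fun i _ => (sq ((U *ᵥ spin x.2) i)).symm]
  field_simp

/-- The strength of the field of the last type as a perturbation. -/
theorem co_u (hN : 0 < N) {l : ℕ} (hl : l ≤ K) (t : ℝ) (U : Matrix (Fin N) (Fin N) ℝ) :
    ptV ((GE K m b α μ g c P r k0 rd rr s' σ τ).sy U) (fun z x => (N : ℝ) *
      hk (fun x => U *ᵥ spin x.2) bcE (Bt c (wi r k0)) l z x) t =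
      (GE K m b α μ g c (pmu P (Fin.last n) l t) r k0 rd rr s' σ τ).sy U := by
  have hN' : (N : ℝ) ≠ 0 := by exact_mod_cast hN.ne'
  refine co_ptV (MP K c (wi r k0) P μ g (mbar b α) rd rr s' σ τ)
    (MP K c (wi r k0) P μ g (mbar b α) rd rr s' σ τ).lam
    (MP K c (wi r k0) (pmu P (Fin.last n) l t) μ g (mbar b α) rd rr s' σ τ).u t _ U
    fun z x => ?_
  have e1 : ∑ i, ((MP K c (wi r k0) P μ g (mbar b α) rd rr s' σ τ).lam i -
        (MP K c (wi r k0) P μ g (mbar b α) rd rr s' σ τ).lam i) / 2 *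
        (U *ᵥ spin x.2) i ^ 2 = 0 :=
    Finset.sum_eq_zero fun i _ => by rw [sub_self, zero_div, zero_mul]
  rw [e1, zero_add]
  have e2 : ∀ l' i, ((MP K c (wi r k0) (pmu P (Fin.last n) l t) μ g (mbar b α) rd rr s'
      σ τ).u i l' - (MP K c (wi r k0) P μ g (mbar b α) rd rr s' σ τ).u i l') *
        (z (bcE l' i) * (U *ᵥ spin x.2) i) =
      if l' = l then (if i ∈ Bt c (wi r k0) then t * (z (bcE l' i) * (U *ᵥ spin x.2) i) else 0)
      else 0 := by
    intro l' i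
    change (Function.extend (wi r k0) (fun _ _ => 0)
        (fun i => (pmu P (Fin.last n) l t).u (c i)) i l' -
      Function.extend (wi r k0) (fun _ _ => 0) (fun i => P.u (c i)) i l') * _ = _
    by_cases h1 : i ∈ Finset.univ.image (wi r k0)
    · rw [co_extend (fun _ _ => 0) (fun i => (pmu P (Fin.last n) l t).u (c i))
        (fun i => P.u (c i)) h1, sub_self, zero_mul, if_neg (c := i ∈ Bt c (wi r k0)), ite_self]
      unfold Bt
      rw [Finset.mem_sdiff]
      exact fun h => h.2 h1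
    · rw [co_extend' _ _ h1, co_extend' _ _ h1]
      have e3 : (pmu P (Fin.last n) l t).u (c i) l' =
        Function.update P.u (Fin.last n) (Function.update (P.u (Fin.last n)) l
          (P.u (Fin.last n) l + t)) (c i) l' := rfl
      rw [e3]
      by_cases h2 : c i = Fin.last n
      · have h3 : i ∈ Bt c (wi r k0) := by
          unfold Bt
          rw [Finset.mem_sdiff]
          exact ⟨Finset.mem_filter.2 ⟨Finset.mem_univ _, h2⟩, h1⟩
        rw [h2, Function.update_self, if_pos h3]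
        by_cases h4 : l' = l
        · rw [h4, Function.update_self, add_sub_cancel_left, if_pos rfl]
        · rw [Function.update_of_ne h4, sub_self, zero_mul, if_neg h4]
      · rw [Function.update_of_ne h2, sub_self, zero_mul, if_neg (c := i ∈ Bt c (wi r k0)),
          ite_self]
        unfold Bt
        rw [Finset.mem_sdiff]
        exact fun h => h2 (Finset.mem_filter.1 h.1).2
  rw [Finset.sum_congr rfl fun l' _ => Finset.sum_congr rfl fun i _ => e2 l' i,
    Finset.sum_eq_single l]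
  · simp only [if_true]
    rw [Finset.sum_ite_mem, Finset.univ_inter]
    unfold Vale.Agent.P166.U.hk
    rw [← Finset.mul_sum]
    field_simp
  · intro l' _ hl'
    exact Finset.sum_eq_zero fun i _ => if_neg hl'
  · intro h
    exact absurd (Finset.mem_range.2 (by omega)) h

/-- Without fields at the level zero, `lg 0` is constant. -/
theorem co_GE_lg0 (hm : Exponents K m) (hs : P.s 0 = 0) (hs' : s' 0 = 0) (hu : ∀ k, P.u k 0 = 0)
    (U : Matrix (Fin N) (Fin N) ℝ) (z : Ie N K → ℝ) :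
    ((GE K m b α μ g c P r k0 rd rr s' σ τ).sy U).lg 0 z =
      ((GE K m b α μ g c P r k0 rd rr s' σ τ).sy U).fe := by
  refine co_lg0 hm _ hs hs' rfl (fun i => ?_) U z
  change Function.extend (wi r k0) (fun _ _ => 0) (fun i => P.u (c i)) i 0 = 0
  by_cases h1 : i ∈ Finset.univ.image (wi r k0)
  · rw [co_extend (fun _ _ => 0) (fun i => P.u (c i)) (fun _ _ => 0) h1]
    by_cases h2 : ∃ a, wi r k0 a = i
    · unfold Function.extend
      rw [dif_pos h2]
    · rw [Function.extend_apply' _ _ _ h2]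
  · rw [co_extend' _ _ h1, hu]

/-- The patterns of `Bt` have the fields of the last type. -/
theorem co_u_Bt {i : Fin N} (hi : i ∈ Bt c (wi r k0)) (l : ℕ) :
    (MP K c (wi r k0) P μ g (mbar b α) rd rr s' σ τ).u i l = P.u (Fin.last n) l := by
  unfold Bt at hi
  rw [Finset.mem_sdiff] at hi
  change Function.extend (wi r k0) (fun _ _ => 0) (fun i => P.u (c i)) i l = _
  rw [co_extend' _ _ hi.2, (Finset.mem_filter.1 hi.1).2]

variable {B dl : ℝ}

theorem co_good_b (h : Good b α B dl K m c P r) {t t' : ℝ} (ht : |t'| ≤ t) (k : Fin (n + 1)) :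
    Good b α B (dl + t) K m c (pmb P k t') r := by
  have h0 : 0 ≤ t := (abs_nonneg _).trans ht
  refine ⟨h.N0, h.hm, fun k' => ?_, h.s0, h.hs, h.u0, fun k' l hl => ?_, fun k' => ?_, h.hr⟩
  · change |Function.update P.b k (P.b k + t') k' - b k'| ≤ dl + t
    by_cases hk : k' = k
    · rw [hk, Function.update_self]
      have h1 : P.b k + t' - b k = (P.b k - b k) + t' := by ring
      rw [h1]
      exact (abs_add_le _ _).trans (add_le_add (h.hb k) ht)
    · rw [Function.update_of_ne hk]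
      linarith only [h0, h.hb k']
  · change |P.u k' l| ≤ dl + t
    linarith only [h0, h.hu k' l hl]
  · linarith only [h0, h.fr k']

theorem co_good_u (h : Good b α B dl K m c P r) {t t' : ℝ} (ht : |t'| ≤ t) (k : Fin (n + 1))
    {l : ℕ} (hl : 1 ≤ l) : Good b α B (dl + t) K m c (pmu P k l t') r := by
  have h0 : 0 ≤ t := (abs_nonneg _).trans ht
  refine ⟨h.N0, h.hm, fun k' => ?_, h.s0, h.hs, fun k' => ?_, fun k' l' hl' => ?_, fun k' => ?_,
    h.hr⟩
  · change |P.b k' - b k'| ≤ dl + t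
    linarith only [h0, h.hb k']
  · change Function.update P.u k (Function.update (P.u k) l (P.u k l + t')) k' 0 = 0
    by_cases hk : k' = k
    · rw [hk, Function.update_self, Function.update_of_ne (by omega), h.u0]
    · rw [Function.update_of_ne hk, h.u0]
  · change |Function.update P.u k (Function.update (P.u k) l (P.u k l + t')) k' l'| ≤ dl + t
    by_cases hk : k' = k
    · rw [hk, Function.update_self]
      by_cases h2 : l' = l
      · rw [h2, Function.update_self]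
        exact (abs_add_le _ _).trans (add_le_add (h.hu k l (h2 ▸ hl')) ht)
      · rw [Function.update_of_ne h2]
        linarith only [h0, h.hu k l' hl']
    · rw [Function.update_of_ne hk]
      linarith only [h0, h.hu k' l' hl']
  · linarith only [h0, h.fr k']

theorem co_good (h : Good b α B dl K m c P r) {t : ℝ} (ht : 0 ≤ t) :
    Good b α B (dl + t) K m c P r :=
  ⟨h.N0, h.hm, fun k => by linarith [h.hb k], h.s0, h.hs, h.u0,
    fun k l hl => by linarith only [ht, h.hu k l hl], fun k => by linarith [h.fr k], h.hr⟩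

/-- The concentration of the free energy of the model. -/
theorem co_var {CV : ℝ} (hV : VarBound (n + 1) (∑ k, |b k| + |B| + 1) CV)
    (h : Good b α B dl K m c P r) (hd : (K + 1) * dl ≤ 1)
    [MeasurableSpace (orthogonalGroup (Fin N) ℝ)]
    [BorelSpace (orthogonalGroup (Fin N) ℝ)] (ν : Measure (orthogonalGroup (Fin N) ℝ))
    [IsProbabilityMeasure ν] [ν.IsMulLeftInvariant] :
    EU ν (fun U => |(mdl K m c P U).fe - EU ν (fun V => (mdl K m c P V).fe)|) ≤ CV * √N := by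
  have h0 := h.dl0
  have hK : (0 : ℝ) ≤ K := Nat.cast_nonneg K
  have hd1 : dl ≤ 1 := by nlinarith only [hd]
  have hS : 0 ≤ ∑ k, |b k| := Finset.sum_nonneg fun _ _ => abs_nonneg _
  refine hV N K m c P ν h.N0 h.hm h.s0 h.u0 (fun k => ?_) ?_ fun k => ?_
  · have h1 : |b k| ≤ ∑ k, |b k| :=
      Finset.single_le_sum (f := fun k => |b k|) (fun i _ => abs_nonneg _) (Finset.mem_univ k)
    have h2 : |P.b k| ≤ |P.b k - b k| + |b k| := by
      have := abs_add_le (P.b k - b k) (b k)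
      rwa [sub_add_cancel] at this
    linarith only [hd1, h1, h2, h.hb k, abs_nonneg B]
  · linarith only [hS, h.hs, le_abs_self B]
  · have h1 : ∑ l ∈ Finset.range (K + 1), P.u k l ^ 2 ≤ ∑ l ∈ Finset.range (K + 1), dl ^ 2 := by
      refine Finset.sum_le_sum fun l hl => ?_
      rw [← sq_abs]
      exact pow_le_pow_left₀ (abs_nonneg _)
        (h.hu k l (Nat.lt_succ_iff.1 (Finset.mem_range.1 hl))) 2
    rw [Finset.sum_const, Finset.card_range, nsmul_eq_mul] at h1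
    push_cast at h1
    have h2 : (K + 1) * dl ^ 2 ≤ 1 := by
      calc (K + 1) * dl ^ 2 = ((K + 1) * dl) * dl := by ring
        _ ≤ 1 * 1 := mul_le_mul hd hd1 h0 (by norm_num)
        _ = 1 := by norm_num
    linarith only [hS, h1, h2, abs_nonneg B]

end pert

section main

variable {N K : ℕ} {m : ℕ → ℝ} {c : Fin N → Fin (n + 1)} {P : Pm (n + 1)}
  {r : Fin (n + 1) → Fin N} {k0 : Fin (n + 1)} {b α : Fin (n + 1) → ℝ} {μ g : Fin n → ℝ}
  {rd : ℝ} {rr s' : ℕ → ℝ} {σ τ B dl : ℝ}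
  [MeasurableSpace (orthogonalGroup (Fin N) ℝ)]
  [BorelSpace (orthogonalGroup (Fin N) ℝ)] {ν : Measure (orthogonalGroup (Fin N) ℝ)}
  [IsProbabilityMeasure ν]

theorem co_SD_nonneg (hm : Exponents K m) (hN : 0 < N) (t : ℝ) : 0 ≤ SD ν K m c P t := by
  unfold SD
  exact add_nonneg (Finset.sum_nonneg fun k _ => sd_b_nonneg hm hN c P k t)
    (Finset.sum_nonneg fun k _ => Finset.sum_nonneg fun l _ => sd_u_nonneg hm hN c P k l t)

theorem co_SD_b (hm : Exponents K m) (hN : 0 < N) (t : ℝ) (k : Fin (n + 1)) :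
    Ph ν K m c (pmb P k t) + Ph ν K m c (pmb P k (-t)) - 2 * Ph ν K m c P ≤ SD ν K m c P t := by
  unfold SD
  have h1 := Finset.single_le_sum (f := fun k => Ph ν K m c (pmb P k t) +
    Ph ν K m c (pmb P k (-t)) - 2 * Ph ν K m c P)
    (fun k _ => sd_b_nonneg (ν := ν) hm hN c P k t) (Finset.mem_univ k)
  have h2 : 0 ≤ ∑ k, ∑ l ∈ Finset.Ico 1 (K + 1), (Ph ν K m c (pmu P k l t) +
    Ph ν K m c (pmu P k l (-t)) - 2 * Ph ν K m c P) :=
    Finset.sum_nonneg fun k _ => Finset.sum_nonneg fun l _ => sd_u_nonneg hm hN c P k l t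
  linarith only [h1, h2]

theorem co_SD_u (hm : Exponents K m) (hN : 0 < N) (t : ℝ) (k : Fin (n + 1)) {l : ℕ}
    (h1 : 1 ≤ l) (hl : l ≤ K) :
    Ph ν K m c (pmu P k l t) + Ph ν K m c (pmu P k l (-t)) - 2 * Ph ν K m c P ≤
      SD ν K m c P t := by
  unfold SD
  have h2 := Finset.single_le_sum (f := fun k => ∑ l ∈ Finset.Ico 1 (K + 1),
    (Ph ν K m c (pmu P k l t) + Ph ν K m c (pmu P k l (-t)) - 2 * Ph ν K m c P))
    (fun k _ => Finset.sum_nonneg fun l _ => sd_u_nonneg (ν := ν) hm hN c P k l t)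
    (Finset.mem_univ k)
  have h3 := Finset.single_le_sum (f := fun l =>
    (Ph ν K m c (pmu P k l t) + Ph ν K m c (pmu P k l (-t)) - 2 * Ph ν K m c P))
    (fun l _ => sd_u_nonneg (ν := ν) hm hN c P k l t)
    (Finset.mem_Ico.2 ⟨h1, by omega⟩ : l ∈ Finset.Ico 1 (K + 1))
  have h4 : 0 ≤ ∑ k, (Ph ν K m c (pmb P k t) + Ph ν K m c (pmb P k (-t)) - 2 * Ph ν K m c P) :=
    Finset.sum_nonneg fun k _ => sd_b_nonneg hm hN c P k t
  linarith only [h2, h3, h4]

/-- The final form of the constant. -/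
theorem co_num {x y S s C0 CV : ℝ} (hx : 0 < x) (hy : 0 < y) (hs : 1 ≤ s) (hS : 0 ≤ S)
    (hC0 : 0 ≤ C0) (hCV : 0 ≤ CV) {M : ℝ} (hM : 0 < M) :
    2 / M * (1 / x * (Real.log 2 / y + (S + 4 * C0) / 2 + (2 * C0 + CV * s))) ≤
      (2 + 8 * C0 + 2 * CV) * (1 / y + S + s) / (x * M) := by
  have hl : Real.log 2 ≤ 1 := by linarith [Real.log_two_lt_d9]
  have h1 : Real.log 2 / y ≤ 1 / y := div_le_div_of_nonneg_right hl hy.le
  have hy' : 0 ≤ 1 / y := by positivity
  have h2 : 2 * (Real.log 2 / y + (S + 4 * C0) / 2 + (2 * C0 + CV * s)) ≤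
      (2 + 8 * C0 + 2 * CV) * (1 / y + S + s) := by
    have h3 : 0 ≤ C0 * (s - 1) := mul_nonneg hC0 (by linarith only [hs])
    have h4 : 0 ≤ C0 * (1 / y) := mul_nonneg hC0 hy'
    have h5 : 0 ≤ C0 * S := mul_nonneg hC0 hS
    have h6 : 0 ≤ CV * (1 / y) := mul_nonneg hCV hy'
    have h7 : 0 ≤ CV * S := mul_nonneg hCV hS
    linarith only [hs, hS, h1, h3, h4, h5, h6, h7]
  have h8 : 2 / M * (1 / x * (Real.log 2 / y + (S + 4 * C0) / 2 + (2 * C0 + CV * s))) =
      2 * (Real.log 2 / y + (S + 4 * C0) / 2 + (2 * C0 + CV * s)) / (x * M) := by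
    field_simp
  rw [h8]
  exact div_le_div_of_nonneg_right h2 (by positivity)

/-- Convex functions which are close have close derivatives. -/
theorem co_conv {F0 F1 F2 H0 H1 H2 f h C0 S t : ℝ} (ht : 0 < t) (h0 : |F0 - H0| ≤ C0)
    (h1 : |F1 - H1| ≤ C0) (h2 : |F2 - H2| ≤ C0) (a1 : F0 + t * f ≤ F1) (a2 : F0 + -t * f ≤ F2)
    (b1 : H0 + t * h ≤ H1) (b2 : H0 + -t * h ≤ H2) (hS : H1 + H2 - 2 * H0 ≤ S) :
    |f - h| ≤ (S + 2 * C0) / t := by
  rw [abs_le] at h0 h1 h2
  have e : |f - h| * t = |(f - h) * t| := by rw [abs_mul, abs_of_pos ht]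
  rw [le_div_iff₀ ht, e, abs_le]
  constructor <;> linarith only [a2, b1, hS, h0.1, h2.2, a1, b2, h1.2]

/-- Closeness of the derivatives of the free energies. -/
theorem co_close {ι X : Type} [Fintype ι] [DecidableEq ι] [Fintype X] [DecidableEq X] [Nonempty X]
    {A A1 A2 : GS N ι X} (hA : A.Ok) (hA1 : A1.Ok) (hA2 : A2.Ok)
    {V : Matrix (Fin N) (Fin N) ℝ → (ι → ℝ) → X → ℝ} {t : ℝ} (ht : 0 < t)
    (e1 : ∀ U, ptV (A.sy U) (V U) t = A1.sy U) (e2 : ∀ U, ptV (A.sy U) (V U) (-t) = A2.sy U)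
    (hi : Integrable (fun U : orthogonalGroup (Fin N) ℝ => (A.sy U.1).Ex (V U.1)) ν)
    {H0 H1 H2 h C0 S : ℝ} (h0 : |EU ν (fun U => (A.sy U).fe) - H0| ≤ C0)
    (h1 : |EU ν (fun U => (A1.sy U).fe) - H1| ≤ C0)
    (h2 : |EU ν (fun U => (A2.sy U).fe) - H2| ≤ C0)
    (b1 : H0 + t * h ≤ H1) (b2 : H0 + -t * h ≤ H2) (hS : H1 + H2 - 2 * H0 ≤ S) :
    |EU ν (fun U => (A.sy U).Ex (V U)) - h| ≤ (S + 2 * C0) / t :=
  co_conv ht h0 h1 h2 (co_tangent hA hA1 e1 hi) (co_tangent hA hA2 e2 hi) b1 b2 hS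

omit [BorelSpace (orthogonalGroup (Fin N) ℝ)] [IsProbabilityMeasure ν] in
theorem co_EU_const_mul {ι X : Type} [Fintype ι] [Fintype X] [Nonempty X]
    (S : Matrix (Fin N) (Fin N) ℝ → Sy ι X)
    (a : ℝ) (V : Matrix (Fin N) (Fin N) ℝ → (ι → ℝ) → X → ℝ) :
    EU ν (fun U => (S U).Ex (fun z x => a * V U z x)) = a * EU ν (fun U => (S U).Ex (V U)) := by
  unfold EU
  rw [← integral_const_mul]
  exact integral_congr_ae (Filter.Eventually.of_forall fun _ => Sy.Ex_const_mul _ _ _)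

omit [BorelSpace (orthogonalGroup (Fin N) ℝ)] [IsProbabilityMeasure ν] in
theorem co_int_const_mul {ι X : Type} [Fintype ι] [Fintype X] [Nonempty X]
    (S : Matrix (Fin N) (Fin N) ℝ → Sy ι X)
    (a : ℝ) (V : Matrix (Fin N) (Fin N) ℝ → (ι → ℝ) → X → ℝ)
    (h : Integrable (fun U : orthogonalGroup (Fin N) ℝ => (S U.1).Ex (V U.1)) ν) :
    Integrable (fun U : orthogonalGroup (Fin N) ℝ => (S U.1).Ex (fun z x => a * V U.1 z x)) ν :=
  (h.const_mul a).congr (Filter.Eventually.of_forall fun _ => (Sy.Ex_const_mul _ _ _).symm)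

end main

/-- Concentration: `U.conc_avg` with `close_E` (at `P` and at the four perturbed parameters) and the
variance bound `VarBound` of the model. -/
theorem conc_E {b α : Fin (n + 1) → ℝ} {μ g : Fin n → ℝ}
    {Q : Fin (n + 1) → Matrix (Fin (n + 1)) (Fin (n + 1)) ℝ} (D : Dat b α μ g Q) (B : ℝ)
    (hvar : ∀ B, 0 ≤ B → ∃ C, 0 ≤ C ∧ VarBound (n + 1) B C) :
    ∃ C x0 : ℝ, 0 ≤ C ∧ 0 < x0 ∧ ∀ (N K : ℕ) (m : ℕ → ℝ) (c : Fin N → Fin (n + 1)) (P : Pm (n + 1))
      (r : Fin (n + 1) → Fin N) (k0 : Fin (n + 1)) [MeasurableSpace (orthogonalGroup (Fin N) ℝ)]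
      [BorelSpace (orthogonalGroup (Fin N) ℝ)] (ν : Measure (orthogonalGroup (Fin N) ℝ))
      [IsProbabilityMeasure ν] [ν.IsMulLeftInvariant] (dl t : ℝ), Good b α B dl K m c P r →
      0 < t → (K + 1) * (dl + t) ≤ x0 → 1 / √N ≤ x0 →
      ∀ (rd : ℝ) (rr s' : ℕ → ℝ) (σ τ : ℝ), EPar K B rd rr s' σ τ →
      (∃ a : ℝ, EU ν (fun U => ((GE K m b α μ g c P r k0 rd rr s' σ τ).sy U).Ex (fun _ x =>
        |(GE K m b α μ g c P r k0 rd rr s' σ τ).R (Bt c (wi r k0)) U x x - a|)) ≤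
          C * (1 / m 1 + SD ν K m c P t + √N) / (t * N)) ∧
      ∀ l, 1 ≤ l → l ≤ K → ∃ a : ℝ,
        EU ν (fun U => ((GE K m b α μ g c P r k0 rd rr s' σ τ).sy U).Ex (fun z x =>
          |hk (fun x => U *ᵥ spin x.2) bcE (Bt c (wi r k0)) l z x - a|)) ≤
          C * (1 / m 1 + SD ν K m c P t + √N) / (t * N) := by
  obtain ⟨C0, x00, hC0, hx00, hcl⟩ := close_E D B
  have hS : 0 ≤ ∑ k, |b k| := Finset.sum_nonneg fun _ _ => abs_nonneg _
  obtain ⟨CV, hCV, hvb⟩ := hvar (∑ k, |b k| + |B| + 1) (by positivity)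
  refine ⟨2 + 8 * C0 + 2 * CV, min x00 1, by positivity, lt_min hx00 one_pos, ?_⟩
  intro N K m c P r k0 _ _ ν _ _ dl t hG ht hdt hNx rd rr s' σ τ hE
  have hN := hG.N0
  have hm := hG.hm
  have hN' : (0 : ℝ) < N := by exact_mod_cast hN
  have hN1 : (1 : ℝ) ≤ √N := by
    rw [Real.one_le_sqrt]
    exact_mod_cast hN
  have hm1 : 0 < m 1 := by
    have := hm.2.2 0 (Nat.zero_le _)
    rwa [hm.1] at this
  have htt : |t| ≤ t := (abs_of_pos ht).le
  have htm : |-t| ≤ t := by rw [abs_neg]; exact htt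
  have hx1 : (K + 1) * (dl + t) ≤ x00 := hdt.trans (min_le_left _ _)
  have hx2 : (K + 1) * (dl + t) ≤ 1 := hdt.trans (min_le_right _ _)
  have hx3 : 1 / √N ≤ x00 := hNx.trans (min_le_left _ _)
  have hSD : 0 ≤ SD ν K m c P t := co_SD_nonneg hm hN t
  -- the free energies at the parameters `P'`
  have hcl' : ∀ P' : Pm (n + 1), Good b α B (dl + t) K m c P' r →
      EU ν (fun U => |((GE K m b α μ g c P' r k0 rd rr s' σ τ).sy U).fe -
        (mdl K m c P' U).fe|) ≤ C0 := fun P' h =>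
    hcl N K m c P' r k0 ν (dl + t) h hx1 hx3 rd rr s' σ τ hE
  have hi : ∀ P' : Pm (n + 1), Integrable (fun U : orthogonalGroup (Fin N) ℝ =>
      ((GE K m b α μ g c P' r k0 rd rr s' σ τ).sy U.1).fe) ν := fun P' =>
    int_gs_fe ν (egs_ok hm _)
  have hi' : ∀ P' : Pm (n + 1), Integrable (fun U : orthogonalGroup (Fin N) ℝ =>
      (mdl K m c P' U.1).fe) ν := fun P' => integrable_fe hm hN
  have hF : ∀ P' : Pm (n + 1), Good b α B (dl + t) K m c P' r →
      |EU ν (fun U => ((GE K m b α μ g c P' r k0 rd rr s' σ τ).sy U).fe) - Ph ν K m c P'| ≤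
        C0 := fun P' h => co_EU_sub (hi P') (hi' P') (hcl' P' h)
  have hD : ∀ P' : Pm (n + 1), Good b α B (dl + t) K m c P' r →
      EU ν (fun U => |((GE K m b α μ g c P' r k0 rd rr s' σ τ).sy U).fe -
        EU ν (fun V => ((GE K m b α μ g c P' r k0 rd rr s' σ τ).sy V).fe)|) ≤
        2 * C0 + CV * √N := fun P' h =>
    co_dev (hi P') (hi' P') (hcl' P' h) (co_var hvb h hx2 ν)
  have g0 := co_good hG ht.le
  have f0 := abs_le.1 (hF P g0)
  refine ⟨?_, fun l hl1 hlK => ?_⟩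
  · have g1 := co_good_b hG htt (Fin.last n)
    have g2 := co_good_b hG htm (Fin.last n)
    have f1 := abs_le.1 (hF _ g1)
    have f2 := abs_le.1 (hF _ g2)
    have hsd := co_SD_b (ν := ν) (c := c) (P := P) hm hN t (Fin.last n)
    obtain ⟨a, ha⟩ := co_key (ν := ν) (A := GE K m b α μ g c P r k0 rd rr s' σ τ)
      (A1 := GE K m b α μ g c (pmb P (Fin.last n) t) r k0 rd rr s' σ τ)
      (A2 := GE K m b α μ g c (pmb P (Fin.last n) (-t)) r k0 rd rr s' σ τ)
      (egs_ok hm _) (egs_ok hm _) (egs_ok hm _) (m1 := m 1) rfl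
      (V := fun U _ x => (N : ℝ) / 2 *
        (GE K m b α μ g c P r k0 rd rr s' σ τ).R (Bt c (wi r k0)) U x x)
      (fun U _ => EG.const _) ht (co_b hN t) (co_b hN (-t))
      (co_GE_lg0 hm g1.s0 hE.s0 g1.u0) (co_GE_lg0 hm g2.s0 hE.s0 g2.u0)
      (G := SD ν K m c P t + 4 * C0) (by linarith only [f0, f1, f2, hsd]) (hD _ g1) (hD _ g2)
      (r := 2 / (N : ℝ)) (by positivity)
    refine ⟨a, ?_⟩
    have e1 : ∀ U : Matrix (Fin N) (Fin N) ℝ, (fun (_ : Ie N K → ℝ) x =>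
        |(GE K m b α μ g c P r k0 rd rr s' σ τ).R (Bt c (wi r k0)) U x x - a|) =
        fun _ x => |2 / (N : ℝ) * ((N : ℝ) / 2 *
        (GE K m b α μ g c P r k0 rd rr s' σ τ).R (Bt c (wi r k0)) U x x) - a| := by
      intro U
      funext _ x
      congr 2
      field_simp
    simp only [e1]
    exact ha.trans (co_num ht hm1 hN1 hSD hC0 hCV hN')
  · have g1 := co_good_u hG htt (Fin.last n) hl1
    have g2 := co_good_u hG htm (Fin.last n) hl1
    have f1 := abs_le.1 (hF _ g1)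
    have f2 := abs_le.1 (hF _ g2)
    have hsd := co_SD_u (ν := ν) (c := c) (P := P) hm hN t (Fin.last n) hl1 hlK
    obtain ⟨a, ha⟩ := co_key (ν := ν) (A := GE K m b α μ g c P r k0 rd rr s' σ τ)
      (A1 := GE K m b α μ g c (pmu P (Fin.last n) l t) r k0 rd rr s' σ τ)
      (A2 := GE K m b α μ g c (pmu P (Fin.last n) l (-t)) r k0 rd rr s' σ τ)
      (egs_ok hm _) (egs_ok hm _) (egs_ok hm _) (m1 := m 1) rfl
      (V := fun U z x => (N : ℝ) * hk (fun x => U *ᵥ spin x.2) bcE (Bt c (wi r k0)) l z x)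
      (fun U x => (BFld.sy_nh_hk l x).const_mul _) ht (co_u hN hlK t) (co_u hN hlK (-t))
      (co_GE_lg0 hm g1.s0 hE.s0 g1.u0) (co_GE_lg0 hm g2.s0 hE.s0 g2.u0)
      (G := SD ν K m c P t + 4 * C0) (by linarith only [f0, f1, f2, hsd]) (hD _ g1) (hD _ g2)
      (r := 1 / (N : ℝ)) (by positivity)
    refine ⟨a, ?_⟩
    have e1 : ∀ U : Matrix (Fin N) (Fin N) ℝ, (fun (z : Ie N K → ℝ) (x : Xe N) =>
        |hk (fun x => U *ᵥ spin x.2) bcE (Bt c (wi r k0)) l z x - a|) =
        fun z x => |1 / (N : ℝ) * ((N : ℝ) *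
          hk (fun x => U *ᵥ spin x.2) bcE (Bt c (wi r k0)) l z x) - a| := by
      intro U
      funext z x
      congr 2
      field_simp
    simp only [e1]
    refine ha.trans (le_trans ?_ (co_num ht hm1 hN1 hSD hC0 hCV hN'))
    have hnn : 0 ≤ 1 / t * (Real.log 2 / m 1 + (SD ν K m c P t + 4 * C0) / 2 +
        (2 * C0 + CV * √N)) := by
      have : 0 ≤ Real.log 2 := Real.log_nonneg (by norm_num)
      positivity
    exact mul_le_mul_of_nonneg_right (div_le_div_of_nonneg_right (by norm_num) hN'.le) hnn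

/-- The means of the fields of the systems with a new spin. -/
theorem co_mean_hk {N K : ℕ} {m : ℕ → ℝ} {c : Fin N → Fin (n + 1)} {P : Pm (n + 1)}
    {r : Fin (n + 1) → Fin N} {k0 : Fin (n + 1)} {b α : Fin (n + 1) → ℝ} {μ g : Fin n → ℝ}
    {rd : ℝ} {rr s' : ℕ → ℝ} {σ τ : ℝ} [MeasurableSpace (orthogonalGroup (Fin N) ℝ)]
    [BorelSpace (orthogonalGroup (Fin N) ℝ)] {ν : Measure (orthogonalGroup (Fin N) ℝ)}
    [IsProbabilityMeasure ν] (hm : Exponents K m) (hN : 0 < N) {l : ℕ} (hl : l ≤ K) :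
    Integrable (fun U : orthogonalGroup (Fin N) ℝ =>
      ((GE K m b α μ g c P r k0 rd rr s' σ τ).sy U.1).Ex (fun z x =>
        hk (fun x => U.1 *ᵥ spin x.2) bcE (Bt c (wi r k0)) l z x)) ν ∧
    EU ν (fun U => ((GE K m b α μ g c P r k0 rd rr s' σ τ).sy U).Ex (fun z x =>
        hk (fun x => U *ᵥ spin x.2) bcE (Bt c (wi r k0)) l z x)) =
      P.u (Fin.last n) l *
        ((MB ν (GE K m b α μ g c P r k0 rd rr s' σ τ) (Bt c (wi r k0))).d -
          ∑ i ∈ Finset.Ico l (K + 1), (m (i + 1) - m i) *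
            (MB ν (GE K m b α μ g c P r k0 rd rr s' σ τ) (Bt c (wi r k0))).e i) := by
  obtain ⟨A, hAdef⟩ : ∃ A, A = GE K m b α μ g c P r k0 rd rr s' σ τ := ⟨_, rfl⟩
  have hA : A.Ok := by rw [hAdef]; exact egs_ok hm _
  obtain ⟨Bs, hBs⟩ : ∃ Bs, Bs = Bt c (wi r k0) := ⟨_, rfl⟩
  have hR : Integrable (fun U : orthogonalGroup (Fin N) ℝ =>
      (A.sy U.1).Ex (fun _ x => A.R Bs U.1 x x)) ν := co_intR hA hN Bs
  have hAK : A.K = K := by rw [hAdef]; rfl
  have hP : ∀ i ≤ K, Integrable (fun U : orthogonalGroup (Fin N) ℝ =>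
      (A.sy U.1).pairEx i (A.R Bs U.1)) ν := fun i hi =>
    co_intP hA hN Bs (by rw [hAK]; exact hi)
  have key : ∀ U : orthogonalGroup (Fin N) ℝ, (A.sy U.1).Ex (fun z x =>
      hk (fun x => U.1 *ᵥ spin x.2) bcE Bs l z x) = P.u (Fin.last n) l *
      ((A.sy U.1).Ex (fun _ x => A.R Bs U.1 x x) - ∑ i ∈ Finset.Ico l (K + 1),
        (m (i + 1) - m i) * (A.sy U.1).pairEx i (A.R Bs U.1)) := by
    intro U
    have F := egs_bfld hm hN (MP K c (wi r k0) P μ g (mbar b α) rd rr s' σ τ) U.2 Bs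
      (P.u (Fin.last n)) (fun i hi l _ => by rw [hBs] at hi; exact co_u_Bt hi l)
    have h := F.Ex_hk (j := l) hl
    rw [hAdef]
    exact h
  rw [← hAdef, ← hBs]
  have hS : Integrable (fun U : orthogonalGroup (Fin N) ℝ => ∑ i ∈ Finset.Ico l (K + 1),
        (m (i + 1) - m i) * (A.sy U.1).pairEx i (A.R Bs U.1)) ν :=
    integrable_finsetSum _ fun i hi => (hP i (by
      rw [Finset.mem_Ico] at hi
      omega)).const_mul _
  refine ⟨?_, ?_⟩
  · simp only [key]
    exact (hR.sub hS).const_mul _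
  · unfold MB EU
    simp only [key]
    rw [integral_const_mul, integral_sub hR hS, integral_finsetSum _ fun i hi =>
      (hP i (by
        rw [Finset.mem_Ico] at hi
        omega)).const_mul _]
    simp only [integral_const_mul]

/-- Closeness of the mean overlaps: convexity (`EF`, `Ph` are convex in the potential of the last
type and in the strengths of its fields, and differ by at most `C + log 2`; hence the derivatives
differ by at most `(SD + C) / t`). -/
theorem close_MB {b α : Fin (n + 1) → ℝ} {μ g : Fin n → ℝ}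
    {Q : Fin (n + 1) → Matrix (Fin (n + 1)) (Fin (n + 1)) ℝ} (D : Dat b α μ g Q) (B : ℝ) :
    ∃ C x0 : ℝ, 0 ≤ C ∧ 0 < x0 ∧ ∀ (N K : ℕ) (m : ℕ → ℝ) (c : Fin N → Fin (n + 1)) (P : Pm (n + 1))
      (r : Fin (n + 1) → Fin N) (k0 : Fin (n + 1)) [MeasurableSpace (orthogonalGroup (Fin N) ℝ)]
      [BorelSpace (orthogonalGroup (Fin N) ℝ)] (ν : Measure (orthogonalGroup (Fin N) ℝ))
      [IsProbabilityMeasure ν] [ν.IsMulLeftInvariant] (dl t : ℝ), Good b α B dl K m c P r →
      0 < t → (K + 1) * (dl + t) ≤ x0 → 1 / √N ≤ x0 →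
      ∀ (rd : ℝ) (rr s' : ℕ → ℝ) (σ τ : ℝ), EPar K B rd rr s' σ τ →
      |(MB ν (GE K m b α μ g c P r k0 rd rr s' σ τ) (Bt c (wi r k0))).d -
        (Mk ν K m c P (Fin.last n)).d| ≤ C * (1 + SD ν K m c P t) / (t * N) ∧
      ∀ l, 1 ≤ l → l ≤ K → |P.u (Fin.last n) l *
        (((MB ν (GE K m b α μ g c P r k0 rd rr s' σ τ) (Bt c (wi r k0))).d -
          ∑ i ∈ Finset.Ico l (K + 1), (m (i + 1) - m i) *
            (MB ν (GE K m b α μ g c P r k0 rd rr s' σ τ) (Bt c (wi r k0))).e i) -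
        ((Mk ν K m c P (Fin.last n)).d -
          ∑ i ∈ Finset.Ico l (K + 1), (m (i + 1) - m i) * (Mk ν K m c P (Fin.last n)).e i))| ≤
        C * (1 + SD ν K m c P t) / (t * N) := by
  obtain ⟨C0, x00, hC0, hx00, hcl⟩ := close_E D B
  refine ⟨2 + 4 * C0, x00, by positivity, hx00, ?_⟩
  intro N K m c P r k0 _ _ ν _ _ dl t hG ht hx1 hx3 rd rr s' σ τ hE
  have hN := hG.N0
  have hm := hG.hm
  have hN' : (0 : ℝ) < N := by exact_mod_cast hN
  have htt : |t| ≤ t := (abs_of_pos ht).le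
  have htm : |-t| ≤ t := by rw [abs_neg]; exact htt
  have hSD : 0 ≤ SD ν K m c P t := co_SD_nonneg hm hN t
  have hi : ∀ P' : Pm (n + 1), Integrable (fun U : orthogonalGroup (Fin N) ℝ =>
      ((GE K m b α μ g c P' r k0 rd rr s' σ τ).sy U.1).fe) ν := fun P' =>
    int_gs_fe ν (egs_ok hm _)
  have hi' : ∀ P' : Pm (n + 1), Integrable (fun U : orthogonalGroup (Fin N) ℝ =>
      (mdl K m c P' U.1).fe) ν := fun P' => integrable_fe hm hN
  have hF : ∀ P' : Pm (n + 1), Good b α B (dl + t) K m c P' r →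
      |EU ν (fun U => ((GE K m b α μ g c P' r k0 rd rr s' σ τ).sy U).fe) - Ph ν K m c P'| ≤
        C0 := fun P' h => co_EU_sub (hi P') (hi' P')
    (hcl N K m c P' r k0 ν (dl + t) h hx1 hx3 rd rr s' σ τ hE)
  have f0 := hF P (co_good hG ht.le)
  have fin : ∀ {x y : ℝ}, |(N : ℝ) / 2 * x - (N : ℝ) / 2 * y| ≤
      (SD ν K m c P t + 2 * C0) / t → |x - y| ≤ (2 + 4 * C0) * (1 + SD ν K m c P t) / (t * N) := by
    intro x y h
    rw [← mul_sub, abs_mul, abs_of_pos (by positivity : 0 < (N : ℝ) / 2)] at h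
    rw [le_div_iff₀ (by positivity)]
    rw [le_div_iff₀ ht] at h
    have h2 : 0 ≤ C0 * SD ν K m c P t := mul_nonneg hC0 hSD
    calc |x - y| * (t * N) = 2 * ((N : ℝ) / 2 * |x - y| * t) := by ring
      _ ≤ 2 * (SD ν K m c P t + 2 * C0) := by linarith only [h]
      _ ≤ _ := by linarith only [h2]
  refine ⟨?_, fun l hl1 hlK => ?_⟩
  · have hR : Integrable (fun U : orthogonalGroup (Fin N) ℝ =>
        ((GE K m b α μ g c P r k0 rd rr s' σ τ).sy U.1).Ex (fun _ x =>
          (GE K m b α μ g c P r k0 rd rr s' σ τ).R (Bt c (wi r k0)) U.1 x x)) ν :=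
      co_intR (egs_ok hm _) hN _
    have t3 := Ph_tangent_b (ν := ν) hm hN c P (Fin.last n) t
    have t4 := Ph_tangent_b (ν := ν) hm hN c P (Fin.last n) (-t)
    have h := co_close (ν := ν) (A := GE K m b α μ g c P r k0 rd rr s' σ τ)
      (A1 := GE K m b α μ g c (pmb P (Fin.last n) t) r k0 rd rr s' σ τ)
      (A2 := GE K m b α μ g c (pmb P (Fin.last n) (-t)) r k0 rd rr s' σ τ)
      (egs_ok hm _) (egs_ok hm _) (egs_ok hm _)
      (V := fun U _ x => (N : ℝ) / 2 *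
        (GE K m b α μ g c P r k0 rd rr s' σ τ).R (Bt c (wi r k0)) U x x)
      ht (co_b hN t) (co_b hN (-t))
      (co_int_const_mul (fun U => (GE K m b α μ g c P r k0 rd rr s' σ τ).sy U) ((N : ℝ) / 2)
        (fun U _ x => (GE K m b α μ g c P r k0 rd rr s' σ τ).R (Bt c (wi r k0)) U x x) hR)
      f0 (hF _ (co_good_b hG htt (Fin.last n))) (hF _ (co_good_b hG htm (Fin.last n)))
      (h := (N : ℝ) / 2 * rho ν K m c P (Fin.last n)) (by linarith only [t3]) (by linarith only [t4])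
      (co_SD_b (ν := ν) (c := c) (P := P) hm hN t (Fin.last n))
    rw [co_EU_const_mul (fun U => (GE K m b α μ g c P r k0 rd rr s' σ τ).sy U) ((N : ℝ) / 2)
        (fun U _ x => (GE K m b α μ g c P r k0 rd rr s' σ τ).R (Bt c (wi r k0)) U x x)] at h
    exact fin h
  · obtain ⟨m1, m2⟩ := co_mean_hk (c := c) (P := P) (r := r) (k0 := k0) (b := b) (α := α)
      (μ := μ) (g := g) (rd := rd) (rr := rr) (s' := s') (σ := σ) (τ := τ) (ν := ν) hm hN hlK
    have t3 := Ph_tangent_u (ν := ν) hm hN c P (Fin.last n) hlK t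
    have t4 := Ph_tangent_u (ν := ν) hm hN c P (Fin.last n) hlK (-t)
    have hsd := co_SD_u (ν := ν) (c := c) (P := P) hm hN t (Fin.last n) hl1 hlK
    have f1 := hF _ (co_good_u hG htt (Fin.last n) hl1)
    have f2 := hF _ (co_good_u hG htm (Fin.last n) hl1)
    have hI : Integrable (fun U : orthogonalGroup (Fin N) ℝ =>
        ((GE K m b α μ g c P r k0 rd rr s' σ τ).sy U.1).Ex (fun z x => (N : ℝ) *
          hk (fun x => U.1 *ᵥ spin x.2) bcE (Bt c (wi r k0)) l z x)) ν :=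
      co_int_const_mul (ι := Ie N K) (X := Xe N)
        (fun U => (GE K m b α μ g c P r k0 rd rr s' σ τ).sy U) (N : ℝ)
        (fun (U : Matrix (Fin N) (Fin N) ℝ) (z : Ie N K → ℝ) (x : Xe N) =>
          hk (fun x : Xe N => U *ᵥ spin x.2) bcE (Bt c (wi r k0)) l z x) m1
    have b1 : Ph ν K m c P + t * ((N : ℝ) * (P.u (Fin.last n) l *
        (rho ν K m c P (Fin.last n) - ∑ i ∈ Finset.Ico l (K + 1), (m (i + 1) - m i) *
          Rkl ν K m c P (Fin.last n) i))) ≤ Ph ν K m c (pmu P (Fin.last n) l t) := by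
      linarith only [t3]
    have b2 : Ph ν K m c P + -t * ((N : ℝ) * (P.u (Fin.last n) l *
        (rho ν K m c P (Fin.last n) - ∑ i ∈ Finset.Ico l (K + 1), (m (i + 1) - m i) *
          Rkl ν K m c P (Fin.last n) i))) ≤ Ph ν K m c (pmu P (Fin.last n) l (-t)) := by
      linarith only [t4]
    have h := co_close (ν := ν) (A := GE K m b α μ g c P r k0 rd rr s' σ τ)
      (A1 := GE K m b α μ g c (pmu P (Fin.last n) l t) r k0 rd rr s' σ τ)
      (A2 := GE K m b α μ g c (pmu P (Fin.last n) l (-t)) r k0 rd rr s' σ τ)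
      (egs_ok hm _) (egs_ok hm _) (egs_ok hm _)
      (V := fun U z x => (N : ℝ) * hk (fun x => U *ᵥ spin x.2) bcE (Bt c (wi r k0)) l z x)
      ht (co_u hN hlK t) (co_u hN hlK (-t)) hI f0 f1 f2 b1 b2 hsd
    rw [co_EU_const_mul (ι := Ie N K) (X := Xe N)
        (fun U => (GE K m b α μ g c P r k0 rd rr s' σ τ).sy U) (N : ℝ)
        (fun (U : Matrix (Fin N) (Fin N) ℝ) (z : Ie N K → ℝ) (x : Xe N) =>
          hk (fun x : Xe N => U *ᵥ spin x.2) bcE (Bt c (wi r k0)) l z x), m2] at h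
    rw [mul_sub]
    refine fin ?_
    rw [← mul_sub, abs_mul, abs_of_pos (by positivity : 0 < (N : ℝ) / 2)]
    rw [← mul_sub, abs_mul, abs_of_pos hN'] at h
    refine le_trans ?_ h
    exact mul_le_mul_of_nonneg_right (by linarith only []) (abs_nonneg _)

end Vale.Agent.P166.L
end
end

section

section

/-!
P166, lower bound: the deviations at parameters where the second differences of the free energy are
small.
-/

open MeasureTheory ProbabilityTheory Matrix Filter Topology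

namespace Vale.Agent.P166.L

open Vale.Agent.P157.Lv Vale.Agent.P157.Par Md H U
open Vale.Agent.P166.F (Hm)

variable {n : ℕ}

/-- The smallest gap of the exponents. -/
lemma de_gap {K : ℕ} {m : ℕ → ℝ} (hm : Exponents K m) :
    ∃ π : ℝ, 0 < π ∧ ∀ l ≤ K, π ≤ m (l + 1) - m l := by
  obtain ⟨l0, hl0, hmin⟩ := Finset.exists_min_image (Finset.range (K + 1))
    (fun l => m (l + 1) - m l) ⟨0, Finset.mem_range.2 (Nat.succ_pos K)⟩
  have h1 := hm.2.2 l0 (Nat.lt_succ_iff.1 (Finset.mem_range.1 hl0))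
  exact ⟨m (l0 + 1) - m l0, sub_pos.2 h1,
    fun l hl => hmin l (Finset.mem_range.2 (Nat.lt_succ_of_le hl))⟩

/-- The choice of the error of the concentration. -/
lemma de_err {η : ℝ} (hη : 0 < η) : ∃ X : ℝ, 0 < X ∧ 10 * √X + 6 * X ≤ η := by
  refine ⟨min 1 ((η / 16) ^ 2), lt_min one_pos (by positivity), ?_⟩
  set X : ℝ := min 1 ((η / 16) ^ 2) with hX
  have hX0 : 0 < X := lt_min one_pos (by positivity)
  have hX1 : X ≤ 1 := min_le_left _ _
  have hXe : √X ≤ η / 16 := by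
    rw [Real.sqrt_le_left (by positivity)]
    exact min_le_right _ _
  have hXX : X ≤ √X := by
    have h1 : √X ≤ 1 := Real.sqrt_le_one.2 hX1
    have h2 := Real.sq_sqrt hX0.le
    have h3 := Real.sqrt_nonneg X
    nlinarith only [h2, h1, h3]
  linarith only [hXe, hXX]

/-- Large sizes. -/
lemma de_size {x : ℝ} (hx : 0 < x) : ∃ N0 : ℕ, ∀ N : ℕ, N0 ≤ N → 0 < N ∧ 1 / √(N : ℝ) ≤ x := by
  refine ⟨⌈(1 / x) ^ 2⌉₊ + 1, fun N hN => ?_⟩
  have hN1 : 0 < N := by omega
  have hN' : (0 : ℝ) < N := by exact_mod_cast hN1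
  have h0 : (1 / x) ^ 2 ≤ N :=
    (Nat.le_ceil _).trans (by exact_mod_cast (by omega : ⌈(1 / x) ^ 2⌉₊ ≤ N))
  refine ⟨hN1, ?_⟩
  have h1 : 1 / x ≤ √(N : ℝ) := Real.le_sqrt_of_sq_le h0
  rw [div_le_iff₀ (Real.sqrt_pos.2 hN')]
  rw [div_le_iff₀ hx] at h1
  linarith only [h1]

/-- The error terms of the concentration. -/
lemma de_frac {a s N t : ℝ} (ha : 0 ≤ a) (hN : 1 ≤ N) (ht : 0 < t) :
    (a + s + √N) / (t * N) ≤ (a + 1) / t * (1 / √N) + s / (t * N) := by
  have hN' : 0 < N := by linarith only [hN]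
  set r := √N with hr
  have hr1 : 1 ≤ r := Real.one_le_sqrt.2 hN
  have hr0 : 0 < r := by linarith only [hr1]
  have hr2 : N = r ^ 2 := (Real.sq_sqrt hN'.le).symm
  rw [hr2]
  have h1 : (a + s + r) / (t * r ^ 2) = (a / r + 1) / t * (1 / r) + s / (t * r ^ 2) := by
    field_simp
    ring
  rw [h1]
  have h2 : a / r ≤ a := div_le_self ha hr1
  have h3 : (a / r + 1) / t * (1 / r) ≤ (a + 1) / t * (1 / r) := by
    refine mul_le_mul_of_nonneg_right ?_ (by positivity)
    exact div_le_div_of_nonneg_right (by linarith only [h2]) ht.le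
  linarith only [h3]

section one

variable {N K κ : ℕ} {m : ℕ → ℝ} {c : Fin N → Fin κ} {P : Pm κ}
  [MeasurableSpace (orthogonalGroup (Fin N) ℝ)] [BorelSpace (orthogonalGroup (Fin N) ℝ)]
  {ν : Measure (orthogonalGroup (Fin N) ℝ)} [IsProbabilityMeasure ν]

/-- Each second difference is at most the sum. -/
lemma de_sd_b (hm : Exponents K m) (hN : 0 < N) (k : Fin κ) (t : ℝ) :
    Ph ν K m c (pmb P k t) + Ph ν K m c (pmb P k (-t)) - 2 * Ph ν K m c P ≤ SD ν K m c P t := by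
  have h1 := Finset.single_le_sum (f := fun k => Ph ν K m c (pmb P k t) +
    Ph ν K m c (pmb P k (-t)) - 2 * Ph ν K m c P)
    (fun k _ => sd_b_nonneg hm hN c P k t) (Finset.mem_univ k)
  have h2 : 0 ≤ ∑ k, ∑ l ∈ Finset.Ico 1 (K + 1),
      (Ph ν K m c (pmu P k l t) + Ph ν K m c (pmu P k l (-t)) - 2 * Ph ν K m c P) :=
    Finset.sum_nonneg fun k _ => Finset.sum_nonneg fun l _ => sd_u_nonneg hm hN c P k l t
  unfold SD
  linarith only [h1, h2]

lemma de_sd_u (hm : Exponents K m) (hN : 0 < N) (k : Fin κ) {l : ℕ} (hl : 1 ≤ l) (hlK : l ≤ K)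
    (t : ℝ) :
    Ph ν K m c (pmu P k l t) + Ph ν K m c (pmu P k l (-t)) - 2 * Ph ν K m c P ≤
      SD ν K m c P t := by
  have h1 := Finset.single_le_sum (f := fun l => Ph ν K m c (pmu P k l t) +
    Ph ν K m c (pmu P k l (-t)) - 2 * Ph ν K m c P)
    (fun l _ => sd_u_nonneg hm hN c P k l t) (Finset.mem_Ico.2 ⟨hl, Nat.lt_succ_of_le hlK⟩)
  have h3 := Finset.single_le_sum (f := fun k => ∑ l ∈ Finset.Ico 1 (K + 1),
      (Ph ν K m c (pmu P k l t) + Ph ν K m c (pmu P k l (-t)) - 2 * Ph ν K m c P))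
    (fun k _ => Finset.sum_nonneg fun l _ => sd_u_nonneg hm hN c P k l t) (Finset.mem_univ k)
  have h2 : 0 ≤ ∑ k, (Ph ν K m c (pmb P k t) + Ph ν K m c (pmb P k (-t)) - 2 * Ph ν K m c P) :=
    Finset.sum_nonneg fun k _ => sd_b_nonneg hm hN c P k t
  unfold SD
  linarith only [h1, h3, h2]

lemma de_sd_nonneg (hm : Exponents K m) (hN : 0 < N) (t : ℝ) : 0 ≤ SD ν K m c P t :=
  add_nonneg (Finset.sum_nonneg fun k _ => sd_b_nonneg hm hN c P k t)
    (Finset.sum_nonneg fun k _ => Finset.sum_nonneg fun l _ => sd_u_nonneg hm hN c P k l t)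

omit [BorelSpace (orthogonalGroup (Fin N) ℝ)] [IsProbabilityMeasure ν] in
lemma de_Fe (P1 P2 : Pm κ) : Fe ν K m c P1 + Fe ν K m c P2 - 2 * Fe ν K m c P =
    1 / N * (Ph ν K m c P1 + Ph ν K m c P2 - 2 * Ph ν K m c P) := by
  unfold Md.Fe Ph
  ring

/-- The concentration of the self-overlaps and of the fields of the model. -/
theorem de_conc [ν.IsMulLeftInvariant] (hm : Exponents K m) (hN : 0 < N) {t : ℝ} (ht : 0 < t)
    (ht1 : t ≤ 1) {B CV : ℝ} (hB : 0 ≤ B) (hvb : VarBound κ (2 * B + 2) CV) (hs0 : P.s 0 = 0)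
    (hu0 : ∀ k, P.u k 0 = 0) (hPb : ∀ k, |P.b k| ≤ B)
    (hs : ∑ l ∈ Finset.range (K + 1), P.s l ^ 2 ≤ B)
    (hu : ∀ k, ∑ l ∈ Finset.range (K + 1), P.u k l ^ 2 ≤ B) (k : Fin κ) :
    (∃ a, EU ν (fun U => (mdl K m c P U).Ex (fun _ x => |Rb c U k x x - a|)) ≤
      2 / N * (1 / t * (Real.log 2 / m 1 + SD ν K m c P t / 2 + CV * √N))) ∧
    ∀ l, 1 ≤ l → l ≤ K →
      ∃ a, EU ν (fun U => (mdl K m c P U).Ex (fun z x => |hb c U k l z x - a|)) ≤
        2 / N * (1 / t * (Real.log 2 / m 1 + SD ν K m c P t / 2 + CV * √N)) := by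
  have hN' : (0 : ℝ) < N := by exact_mod_cast hN
  have hm1 : 0 < m 1 := by
    have := hm.2.2 0 (Nat.zero_le _)
    rwa [hm.1] at this
  have ht' : |t| ≤ 1 := by rwa [abs_of_pos ht]
  have ht'' : |(-t)| ≤ 1 := by rwa [abs_neg]
  -- bounds of the shifted parameters
  have vb : ∀ r : ℝ, |r| ≤ 1 → EU ν (fun U => |(mdl K m c (Pm.addb P k r) U).fe -
      EU ν (fun V => (mdl K m c (Pm.addb P k r) V).fe)|) ≤ CV * √N := by
    intro r hr
    refine hvb N K m c (Pm.addb P k r) ν hN hm hs0 hu0 (fun k' => ?_)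
      (hs.trans (by linarith only [hB])) (fun k' => (hu k').trans (by linarith only [hB]))
    have h1 : (Pm.addb P k r).b k' = Function.update P.b k (P.b k + r) k' := rfl
    rw [h1]
    by_cases hk : k' = k
    · rw [hk, Function.update_self]
      have := abs_add_le (P.b k) r
      have := hPb k
      linarith
    · rw [Function.update_of_ne hk]
      have := hPb k'
      linarith only [hB, this]
  have vu : ∀ l, 1 ≤ l → l ≤ K → ∀ r : ℝ, |r| ≤ 1 →
      (∀ k', (Pm.addu P k l r).u k' 0 = 0) ∧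
      EU ν (fun U => |(mdl K m c (Pm.addu P k l r) U).fe -
      EU ν (fun V => (mdl K m c (Pm.addu P k l r) V).fe)|) ≤ CV * √N := by
    intro l hl hlK r hr
    have h0 : ∀ k', (Pm.addu P k l r).u k' 0 = 0 := by
      intro k'
      change Function.update P.u k (Function.update (P.u k) l (P.u k l + r)) k' 0 = 0
      by_cases hk : k' = k
      · rw [hk, Function.update_self, Function.update_of_ne (by omega)]
        exact hu0 k
      · rw [Function.update_of_ne hk]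
        exact hu0 k'
    refine ⟨h0, hvb N K m c (Pm.addu P k l r) ν hN hm hs0 h0
      (fun k' => (hPb k').trans (by linarith only [hB])) (hs.trans (by linarith only [hB])) (fun k' => ?_)⟩
    have h1 : (Pm.addu P k l r).u k' =
        Function.update P.u k (Function.update (P.u k) l (P.u k l + r)) k' := rfl
    rw [h1]
    by_cases hk : k' = k
    · rw [hk, Function.update_self]
      have h2 : ∀ i ∈ Finset.range (K + 1), Function.update (P.u k) l (P.u k l + r) i ^ 2 ≤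
          2 * P.u k i ^ 2 + (if i = l then 2 else 0) := by
        intro i _
        by_cases hi : i = l
        · rw [hi, Function.update_self, if_pos rfl]
          have h3 : r ^ 2 ≤ 1 := by
            rw [← sq_abs]
            nlinarith only [hr, abs_nonneg r]
          linarith only [h3, sq_nonneg (P.u k l - r)]
        · rw [Function.update_of_ne hi, if_neg hi]
          linarith only [sq_nonneg (P.u k i)]
      have h4 := Finset.sum_le_sum h2
      rw [Finset.sum_add_distrib, ← Finset.mul_sum, Finset.sum_ite_eq',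
        if_pos (Finset.mem_range.2 (by omega))] at h4
      have := hu k
      linarith only [h4, this]
    · rw [Function.update_of_ne hk]
      have := hu k'
      linarith only [hB, this]
  have hG1 : Fe ν K m c (Pm.addb P k t) + Fe ν K m c (Pm.addb P k (-t)) - 2 * Fe ν K m c P ≤
      SD ν K m c P t / N := by
    rw [de_Fe, one_div, div_eq_inv_mul]
    exact mul_le_mul_of_nonneg_left (de_sd_b hm hN k t) (by positivity)
  have hG2 : ∀ l, 1 ≤ l → l ≤ K →
      Fe ν K m c (Pm.addu P k l t) + Fe ν K m c (Pm.addu P k l (-t)) - 2 * Fe ν K m c P ≤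
      SD ν K m c P t / N := by
    intro l hl hlK
    rw [de_Fe, one_div, div_eq_inv_mul]
    exact mul_le_mul_of_nonneg_left (de_sd_u hm hN k hl hlK t) (by positivity)
  have hlog : 0 ≤ Real.log 2 / m 1 := div_nonneg (Real.log_nonneg (by norm_num)) hm1.le
  have hNG : (N : ℝ) * (SD ν K m c P t / N) / 2 = SD ν K m c P t / 2 := by
    field_simp
  constructor
  · obtain ⟨a, ha⟩ := d2_key (P1 := Pm.addb P k t) (P2 := Pm.addb P k (-t)) hm hN
      (V := fun U _ x => (N : ℝ) / 2 * Rb c U k x x)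
      (fun U => Sy.Nh.snd fun x => (N : ℝ) / 2 * Rb c U k x x) ht
      (fun U => d2_pt_b hN k t) (fun U => d2_pt_b hN k (-t)) hs0 hu0
      hs0 hu0 hG1 (vb t ht') (vb (-t) ht'') (r := 2 / N) (by positivity)
    rw [hNG] at ha
    refine ⟨a, le_trans (le_of_eq ?_) ha⟩
    congr 1
    funext U
    congr 1
    funext z x
    congr 2
    field_simp
  · intro l hl hlK
    obtain ⟨a, ha⟩ := d2_key (P1 := Pm.addu P k l t) (P2 := Pm.addu P k l (-t)) hm hN
      (V := fun U z x => (N : ℝ) * Md.hb c U k l z x)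
      (fun U => Sy.Nh.const_mul _ (mdl_nh_hb k l)) ht
      (fun U => d2_pt_u hN k hlK t) (fun U => d2_pt_u hN k hlK (-t)) hs0
      (vu l hl hlK t ht').1 hs0 (vu l hl hlK (-t) ht'').1 (hG2 l hl hlK)
      (vu l hl hlK t ht').2 (vu l hl hlK (-t) ht'').2 (r := 1 / N) (by positivity)
    rw [hNG] at ha
    refine ⟨a, le_trans (le_of_eq ?_) (ha.trans ?_)⟩
    · congr 1
      funext U
      congr 1
      funext z x
      congr 2
      field_simp
    · refine mul_le_mul_of_nonneg_right (div_le_div_of_nonneg_right (by norm_num) hN'.le) ?_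
      have h1 : 0 ≤ SD ν K m c P t := de_sd_nonneg hm hN t
      have h2 : 0 ≤ CV * √N := by
        refine le_trans ?_ (vb t ht')
        exact integral_nonneg fun U => abs_nonneg _
      positivity

end one

/-- The deviations of the blocks of the model (`U.conc_avg`, `VarBound`, `U.dev_of_conc`). -/
theorem dev_M {κ : ℕ} {B : ℝ} (hB : 0 ≤ B)
    (hvar : ∀ B, 0 ≤ B → ∃ C, 0 ≤ C ∧ VarBound κ B C) {K : ℕ} {m : ℕ → ℝ} (hm : Exponents K m)
    {σ0 δ η : ℝ} (hσ0 : 0 < σ0) (hσ1 : σ0 ≤ 1) (hδ : ∀ l ≤ K, m (l + 1) - m l ≤ δ) (hη : 0 < η) :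
    ∃ ε0 : ℝ, 0 < ε0 ∧ ∀ t : ℝ, 0 < t → t ≤ 1 → ∃ N0 : ℕ, ∀ N : ℕ, N0 ≤ N →
      ∀ [MeasurableSpace (orthogonalGroup (Fin N) ℝ)] [BorelSpace (orthogonalGroup (Fin N) ℝ)]
      (ν : Measure (orthogonalGroup (Fin N) ℝ)) [IsProbabilityMeasure ν] [ν.IsMulLeftInvariant]
      (c : Fin N → Fin κ) (P : Pm κ), P.s 0 = 0 → (∀ k, P.u k 0 = 0) → (∀ k, |P.b k| ≤ B) →
      (∑ l ∈ Finset.range (K + 1), P.s l ^ 2 ≤ B) →
      (∀ k, ∑ l ∈ Finset.range (K + 1), P.u k l ^ 2 ≤ B) →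
      (∀ k, ∀ l, 1 ≤ l → l ≤ K → σ0 ≤ P.u k l) →
      SD ν K m c P t ≤ ε0 * (t * N) → ∀ k, Dv ν K m c P k ≤ √(2 * δ) + 4 * δ + η := by
  obtain ⟨π, hπ, hp⟩ := de_gap hm
  obtain ⟨X, hX0, hX⟩ := de_err hη
  obtain ⟨CV, hCV, hvb⟩ := hvar (2 * B + 2) (by linarith only [hB])
  have hK : (0 : ℝ) < K + 1 := by positivity
  have hm1 : 0 < m 1 := by
    have := hm.2.2 0 (Nat.zero_le _)
    rwa [hm.1] at this
  have hlog : 0 ≤ Real.log 2 / m 1 := div_nonneg (Real.log_nonneg (by norm_num)) hm1.le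
  set e : ℝ := X * (σ0 * π) / (K + 1) with he
  have he0 : 0 < e := by positivity
  refine ⟨e / 2, by positivity, fun t ht ht1 => ?_⟩
  set A : ℝ := 2 * (Real.log 2 / m 1 + CV) with hA
  have hA0 : 0 ≤ A := by positivity
  obtain ⟨N0, hN0⟩ := de_size (x := e / 2 * t / (A + 1)) (by positivity)
  refine ⟨N0, fun N hNN => ?_⟩
  intro _ _ ν _ _ c P hs0 hu0 hb hs hu hσ hSD k
  obtain ⟨hN, hx⟩ := hN0 N hNN
  have hN' : (0 : ℝ) < N := by exact_mod_cast hN
  have hN1 : (1 : ℝ) ≤ N := by exact_mod_cast hN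
  have hr0 : 0 < √(N : ℝ) := Real.sqrt_pos.2 hN'
  have hr1 : 1 ≤ √(N : ℝ) := Real.one_le_sqrt.2 hN1
  have hr2 : √(N : ℝ) * √(N : ℝ) = N := Real.mul_self_sqrt hN'.le
  have hle : 2 / N * (1 / t * (Real.log 2 / m 1 + SD ν K m c P t / 2 + CV * √N)) ≤ e := by
    have h1 : 2 / N * (1 / t * (Real.log 2 / m 1 + SD ν K m c P t / 2 + CV * √N)) =
        2 * (Real.log 2 / m 1 + CV * √N) / (t * N) + SD ν K m c P t / (t * N) := by
      field_simp
      ring
    have h2 : SD ν K m c P t / (t * N) ≤ e / 2 := by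
      rw [div_le_iff₀ (by positivity)]
      exact hSD
    have h3 : 2 * (Real.log 2 / m 1 + CV * √N) / (t * N) ≤ A / t * (1 / √N) := by
      rw [hA, div_mul_div_comm, div_le_div_iff₀ (by positivity) (by positivity), mul_one]
      have h4 : Real.log 2 / m 1 + CV * √(N : ℝ) ≤ (Real.log 2 / m 1 + CV) * √(N : ℝ) := by
        rw [add_mul]
        exact add_le_add_left (le_mul_of_one_le_right hlog hr1) _
      calc 2 * (Real.log 2 / m 1 + CV * √(N : ℝ)) * (t * √(N : ℝ))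
          ≤ 2 * ((Real.log 2 / m 1 + CV) * √(N : ℝ)) * (t * √(N : ℝ)) := by
            refine mul_le_mul_of_nonneg_right (mul_le_mul_of_nonneg_left h4 (by norm_num))
              (by positivity)
        _ = 2 * (Real.log 2 / m 1 + CV) * (t * (√(N : ℝ) * √(N : ℝ))) := by ring
        _ = 2 * (Real.log 2 / m 1 + CV) * (t * N) := by rw [hr2]
    have h5 : A / t * (1 / √(N : ℝ)) ≤ e / 2 := by
      calc A / t * (1 / √(N : ℝ)) ≤ (A + 1) / t * (e / 2 * t / (A + 1)) := by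
            refine mul_le_mul (div_le_div_of_nonneg_right (by linarith only []) ht.le) hx
              (by positivity) (by positivity)
        _ = e / 2 := by field_simp
    rw [h1]
    linarith only [h2, h3, h5]
  obtain ⟨⟨a, ha⟩, h2⟩ := de_conc hm hN ht ht1 hB hvb hs0 hu0 hb hs hu k (ν := ν) (c := c)
  have hfin := dev_of_conc hN hm hσ0 hσ1 hπ hp hδ he0.le k (hσ k) ⟨a, ha.trans hle⟩
    (fun l hl hlK => by
      obtain ⟨a, ha⟩ := h2 l hl hlK
      exact ⟨a, ha.trans hle⟩)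
  have hxX : (K + 1) * e / (σ0 * π) = X := by
    rw [he]
    field_simp
  rw [hxX] at hfin
  linarith only [hX, hfin]

section center

variable {N K : ℕ} {ι X : Type} [Fintype ι] [DecidableEq ι] [Fintype X] [DecidableEq X]
  [Nonempty X] [MeasurableSpace (orthogonalGroup (Fin N) ℝ)]
  [BorelSpace (orthogonalGroup (Fin N) ℝ)] {ν : Measure (orthogonalGroup (Fin N) ℝ)}
  [IsProbabilityMeasure ν] {A : GS N ι X}

omit [Fintype ι] [DecidableEq ι] [Fintype X] [DecidableEq X] [Nonempty X] in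
lemma de_meas_R (Bs : Finset (Fin N)) (x x' : X) :
    Measurable fun U : orthogonalGroup (Fin N) ℝ => A.R Bs U.1 x x' := by
  have hy : ∀ (x : X) (i : Fin N), Measurable fun U : orthogonalGroup (Fin N) ℝ =>
      A.y U.1 x i := by
    intro x i
    unfold GS.y Matrix.mulVec dotProduct
    exact Finset.measurable_fun_sum _ fun j _ => (Conc.measurable_coe_OG i j).mul_const _
  unfold GS.R
  exact (Finset.measurable_fun_sum _ fun i _ => (hy x i).mul (hy x' i)).const_mul _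

omit [DecidableEq ι] [DecidableEq X] [MeasurableSpace (orthogonalGroup (Fin N) ℝ)] in
lemma de_abs_R (hA : A.Ok) (hN : 0 < N) (Bs : Finset (Fin N)) (U : orthogonalGroup (Fin N) ℝ)
    (x x' : X) : |A.R Bs U.1 x x'| ≤ 1 := by
  have hN' : (0 : ℝ) < N := by exact_mod_cast hN
  have h1 := Finset.sum_mul_sq_le_sq_mul_sq Bs (fun i => A.y U.1 x i) (fun i => A.y U.1 x' i)
  have h2 : ∀ x, ∑ i ∈ Bs, A.y U.1 x i ^ 2 ≤ N := fun x => by
    rw [← hA.sum_y U.2 x]
    exact Finset.sum_le_sum_of_subset_of_nonneg (Finset.subset_univ Bs) fun i _ _ => sq_nonneg _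
  have h3 : (∑ i ∈ Bs, A.y U.1 x i * A.y U.1 x' i) ^ 2 ≤ N ^ 2 := by
    refine h1.trans ?_
    rw [sq]
    exact mul_le_mul (h2 x) (h2 x') (Finset.sum_nonneg fun i _ => sq_nonneg _) hN'.le
  have h4 := abs_le_of_sq_le_sq h3 hN'.le
  unfold GS.R
  rw [abs_mul, abs_of_pos (by positivity : (0 : ℝ) < 1 / N), one_div, inv_mul_le_iff₀ hN', mul_one]
  exact h4

/-- Integrability of the deviations. -/
lemma de_int_d (hA : A.Ok) (hN : 0 < N) (Bs : Finset (Fin N)) (a : ℝ) :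
    Integrable (fun U : orthogonalGroup (Fin N) ℝ =>
      (A.sy U.1).Ex (fun _ x => |A.R Bs U.1 x x - a|)) ν := by
  refine int_gs_Ex ν hA (f := fun U x => |A.R Bs U x x - a|)
    (fun x => ((de_meas_R Bs x x).sub_const a).abs) ⟨1 + |a|, fun U x => ?_⟩
  rw [abs_abs]
  exact (abs_sub _ _).trans (add_le_add_left (de_abs_R hA hN Bs U x x) _)

lemma de_int_e (hA : A.Ok) (hN : 0 < N) (Bs : Finset (Fin N)) (a : ℝ) {l : ℕ} (hl : l ≤ A.K) :
    Integrable (fun U : orthogonalGroup (Fin N) ℝ =>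
      (A.sy U.1).pairEx l (fun x x' => |A.R Bs U.1 x x' - a|)) ν := by
  refine int_gs_pairEx ν hA hl (f := fun U x x' => |A.R Bs U x x' - a|)
    (fun x x' => ((de_meas_R Bs x x').sub_const a).abs) ⟨1 + |a|, fun U x x' => ?_⟩
  rw [abs_abs]
  exact (abs_sub _ _).trans (add_le_add_left (de_abs_R hA hN Bs U x x') _)

lemma de_shift_d (hA : A.Ok) (hN : 0 < N) (Bs : Finset (Fin N)) (a b : ℝ) :
    EU ν (fun U => (A.sy U).Ex (fun _ x => |A.R Bs U x x - b|)) ≤
      EU ν (fun U => (A.sy U).Ex (fun _ x => |A.R Bs U x x - a|)) + |a - b| := by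
  have h1 : ∀ U : orthogonalGroup (Fin N) ℝ, (A.sy U.1).Ex (fun _ x => |A.R Bs U.1 x x - b|) ≤
      (A.sy U.1).Ex (fun _ x => |A.R Bs U.1 x x - a|) + |a - b| := by
    intro U
    have hS : (A.sy U.1).Reg := hA.reg U.1
    rw [← hS.Ex_const |a - b|, ← hS.Ex_add (Sy.Nh.snd fun x => |A.R Bs U.1 x x - a|)
      (Sy.Nh.snd fun _ => |a - b|)]
    refine hS.Ex_mono (Sy.Nh.snd fun x => |A.R Bs U.1 x x - b|)
      (Sy.Nh.snd fun x => |A.R Bs U.1 x x - a| + |a - b|) fun z x => ?_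
    have := abs_add_le (A.R Bs U.1 x x - a) (a - b)
    rwa [sub_add_sub_cancel] at this
  have h2 := integral_mono (de_int_d (ν := ν) hA hN Bs b)
    ((de_int_d (ν := ν) hA hN Bs a).add (integrable_const |a - b|)) h1
  refine h2.trans (le_of_eq ?_)
  refine (integral_add (de_int_d (ν := ν) hA hN Bs a) (integrable_const |a - b|)).trans ?_
  rw [integral_const, probReal_univ, one_smul]
  rfl

lemma de_shift_e (hA : A.Ok) (hN : 0 < N) (Bs : Finset (Fin N)) (a b : ℝ) {l : ℕ}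
    (hl : l ≤ A.K) :
    EU ν (fun U => (A.sy U).pairEx l (fun x x' => |A.R Bs U x x' - b|)) ≤
      EU ν (fun U => (A.sy U).pairEx l (fun x x' => |A.R Bs U x x' - a|)) + |a - b| := by
  have h1 : ∀ U : orthogonalGroup (Fin N) ℝ,
      (A.sy U.1).pairEx l (fun x x' => |A.R Bs U.1 x x' - b|) ≤
      (A.sy U.1).pairEx l (fun x x' => |A.R Bs U.1 x x' - a|) + |a - b| := by
    intro U
    have hS : (A.sy U.1).Reg := hA.reg U.1
    have hl' : l ≤ (A.sy U.1).K := hl
    rw [← hS.pairEx_const hl' |a - b|, ← hS.pairEx_add hl']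
    refine hS.pairEx_mono hl' fun x x' => ?_
    have := abs_add_le (A.R Bs U.1 x x' - a) (a - b)
    rwa [sub_add_sub_cancel] at this
  have h2 := integral_mono (de_int_e (ν := ν) hA hN Bs b hl)
    ((de_int_e (ν := ν) hA hN Bs a hl).add (integrable_const |a - b|)) h1
  refine h2.trans (le_of_eq ?_)
  refine (integral_add (de_int_e (ν := ν) hA hN Bs a hl) (integrable_const |a - b|)).trans ?_
  rw [integral_const, probReal_univ, one_smul]
  rfl

/-- Change of the centre of the deviations. -/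
lemma de_center (hA : A.Ok) (hN : 0 < N) (Bs : Finset (Fin N)) (M M' : Hm) :
    DvE ν A Bs M' ≤ DvE ν A Bs M + (|M.d - M'.d| +
      ∑ l ∈ Finset.range (A.K + 1), (A.m (l + 1) - A.m l) * |M.e l - M'.e l|) := by
  have h1 := de_shift_d (ν := ν) hA hN Bs M.d M'.d
  have h2 : ∑ l ∈ Finset.range (A.K + 1), (A.m (l + 1) - A.m l) *
      EU ν (fun U => (A.sy U).pairEx l (fun x x' => |A.R Bs U x x' - M'.e l|)) ≤
      ∑ l ∈ Finset.range (A.K + 1), ((A.m (l + 1) - A.m l) *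
      EU ν (fun U => (A.sy U).pairEx l (fun x x' => |A.R Bs U x x' - M.e l|)) +
      (A.m (l + 1) - A.m l) * |M.e l - M'.e l|) := by
    refine Finset.sum_le_sum fun l hl => ?_
    have hl' : l ≤ A.K := Nat.lt_succ_iff.1 (Finset.mem_range.1 hl)
    rw [← mul_add]
    exact mul_le_mul_of_nonneg_left (de_shift_e (ν := ν) hA hN Bs (M.e l) (M'.e l) hl')
      (sub_nonneg.2 (hA.mono l hl'))
  rw [Finset.sum_add_distrib] at h2
  unfold DvE
  linarith only [h1, h2]

omit [BorelSpace (orthogonalGroup (Fin N) ℝ)] in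
/-- The mean overlaps are bounded by one. -/
lemma de_MB_e (hA : A.Ok) (hN : 0 < N) (Bs : Finset (Fin N)) {l : ℕ} (hl : l ≤ A.K) :
    |(MB ν A Bs).e l| ≤ 1 := by
  have h1 : ∀ U : orthogonalGroup (Fin N) ℝ, ‖(A.sy U.1).pairEx l (A.R Bs U.1)‖ ≤ 1 := by
    intro U
    have hS : (A.sy U.1).Reg := hA.reg U.1
    have hl' : l ≤ (A.sy U.1).K := hl
    rw [Real.norm_eq_abs, abs_le]
    constructor
    · rw [← hS.pairEx_const hl' (-1)]
      exact hS.pairEx_mono hl' fun x x' => (abs_le.1 (de_abs_R hA hN Bs U x x')).1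
    · rw [← hS.pairEx_const hl' 1]
      exact hS.pairEx_mono hl' fun x x' => (abs_le.1 (de_abs_R hA hN Bs U x x')).2
  have h2 := norm_integral_le_of_norm_le_const (μ := ν) (Filter.Eventually.of_forall h1)
  rw [probReal_univ, mul_one, Real.norm_eq_abs] at h2
  exact h2

end center

/-- The tails determine the weighted overlaps. -/
lemma de_tail {K : ℕ} {p f : ℕ → ℝ} {T : ℝ}
    (h : ∀ l, 1 ≤ l → l ≤ K → |∑ i ∈ Finset.Ico l (K + 1), p i * f i| ≤ T) (hT : 0 ≤ T)
    (hp : ∀ l ≤ K, 0 ≤ p l) : ∑ l ∈ Finset.Ico 1 (K + 1), p l * |f l| ≤ K * (2 * T) := by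
  have h1 : ∀ l ∈ Finset.Ico 1 (K + 1), p l * |f l| ≤ 2 * T := by
    intro l hl
    obtain ⟨hl1, hl2⟩ := Finset.mem_Ico.1 hl
    have hlK : l ≤ K := Nat.lt_succ_iff.1 hl2
    have h2 : p l * f l = ∑ i ∈ Finset.Ico l (K + 1), p i * f i -
        ∑ i ∈ Finset.Ico (l + 1) (K + 1), p i * f i := by
      rw [Finset.sum_eq_sum_Ico_succ_bot hl2]
      ring
    have h3 : |∑ i ∈ Finset.Ico (l + 1) (K + 1), p i * f i| ≤ T := by
      rcases Nat.lt_or_ge l K with h4 | h4
      · exact h (l + 1) (by omega) (by omega)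
      · have : l + 1 = K + 1 := by omega
        rw [this, Finset.Ico_self, Finset.sum_empty, abs_zero]
        exact hT
    rw [← abs_of_nonneg (hp l hlK), ← abs_mul, h2]
    refine (abs_sub _ _).trans ?_
    have := h l hl1 hlK
    linarith only [h3, this]
  refine (Finset.sum_le_sum h1).trans (le_of_eq ?_)
  rw [Finset.sum_const, Nat.card_Ico, nsmul_eq_mul, Nat.add_sub_cancel]

/-- The deviations of the last block in the systems with a new spin (`conc_E`, `close_MB`,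
`dev_gs`). -/
theorem dev_E {b α : Fin (n + 1) → ℝ} {μ g : Fin n → ℝ}
    {Q : Fin (n + 1) → Matrix (Fin (n + 1)) (Fin (n + 1)) ℝ} (D : Dat b α μ g Q) (B : ℝ)
    (hvar : ∀ B, 0 ≤ B → ∃ C, 0 ≤ C ∧ VarBound (n + 1) B C) :
    ∃ x0 : ℝ, 0 < x0 ∧ ∀ (K : ℕ) (m : ℕ → ℝ), Exponents K m → ∀ σ0 δ η dl : ℝ, 0 < σ0 → σ0 ≤ 1 →
      (∀ l ≤ K, m (l + 1) - m l ≤ δ) → 0 < η → 0 ≤ dl → (K + 1) * dl < x0 →
      ∃ ε0 : ℝ, 0 < ε0 ∧ ∀ t : ℝ, 0 < t → (K + 1) * (dl + t) ≤ x0 → ∃ N0 : ℕ, ∀ N : ℕ, N0 ≤ N →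
      ∀ [MeasurableSpace (orthogonalGroup (Fin N) ℝ)] [BorelSpace (orthogonalGroup (Fin N) ℝ)]
      (ν : Measure (orthogonalGroup (Fin N) ℝ)) [IsProbabilityMeasure ν] [ν.IsMulLeftInvariant]
      (c : Fin N → Fin (n + 1)) (P : Pm (n + 1)) (r : Fin (n + 1) → Fin N) (k0 : Fin (n + 1)),
      Good b α B dl K m c P r → (∀ k, ∀ l, 1 ≤ l → l ≤ K → σ0 ≤ P.u k l) →
      SD ν K m c P t ≤ ε0 * (t * N) →
      ∀ (rd : ℝ) (rr s' : ℕ → ℝ) (σ τ : ℝ), EPar K B rd rr s' σ τ →
      DvE ν (GE K m b α μ g c P r k0 rd rr s' σ τ) (Bt c (wi r k0)) (Mk ν K m c P (Fin.last n)) ≤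
        √(2 * δ) + 6 * δ + η := by
  obtain ⟨C1, x1, hC1, hx1, H1⟩ := conc_E D B hvar
  obtain ⟨C2, x2, hC2, hx2, H2⟩ := close_MB D B
  refine ⟨min x1 x2, lt_min hx1 hx2, fun K m hm σ0 δ η dl hσ0 hσ1 hδ hη hdl hdlx => ?_⟩
  obtain ⟨π, hπ, hp⟩ := de_gap hm
  obtain ⟨X, hX0, hX⟩ := de_err (half_pos hη)
  have hK : (0 : ℝ) < K + 1 := by positivity
  have hK0 : (0 : ℝ) ≤ K := Nat.cast_nonneg K
  have hm1 : 0 < m 1 := by
    have := hm.2.2 0 (Nat.zero_le _)
    rwa [hm.1] at this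
  set e : ℝ := X * (σ0 * π) / (K + 1) with he
  have he0 : 0 < e := by positivity
  -- the factor of the second error
  set F : ℝ := 1 + K * (2 * (1 + 1 / σ0)) with hF
  have hF0 : 0 < F := by positivity
  refine ⟨min (e / (2 * (C1 + 1))) (η / (4 * (C2 + 1) * F)), lt_min (by positivity)
    (by positivity), fun t ht htx => ?_⟩
  set ε0 : ℝ := min (e / (2 * (C1 + 1))) (η / (4 * (C2 + 1) * F)) with hε0
  have hε1 : ε0 ≤ e / (2 * (C1 + 1)) := min_le_left _ _
  have hε2 : ε0 ≤ η / (4 * (C2 + 1) * F) := min_le_right _ _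
  set y : ℝ := min (min x1 x2) (min (e / (2 * (C1 + 1)) / ((1 / m 1 + 1) / t))
    (η / (4 * (C2 + 1) * F) / (2 / t))) with hy
  have hy0 : 0 < y := lt_min (lt_min hx1 hx2) (lt_min (by positivity) (by positivity))
  obtain ⟨N0, hN0⟩ := de_size hy0
  refine ⟨N0, fun N hNN => ?_⟩
  intro _ _ ν _ _ c P r k0 hG hσ hSD rd rr s' σ τ hE
  obtain ⟨hN, hx⟩ := hN0 N hNN
  have hN' : (0 : ℝ) < N := by exact_mod_cast hN
  have hN1 : (1 : ℝ) ≤ N := by exact_mod_cast hN
  have hxx1 : 1 / √(N : ℝ) ≤ x1 := hx.trans ((min_le_left _ _).trans (min_le_left _ _))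
  have hxx2 : 1 / √(N : ℝ) ≤ x2 := hx.trans ((min_le_left _ _).trans (min_le_right _ _))
  have hy1 : (1 / m 1 + 1) / t * (1 / √(N : ℝ)) ≤ e / (2 * (C1 + 1)) := by
    have h1 : 1 / √(N : ℝ) ≤ e / (2 * (C1 + 1)) / ((1 / m 1 + 1) / t) :=
      hx.trans ((min_le_right _ _).trans (min_le_left _ _))
    rw [le_div_iff₀ (by positivity)] at h1
    linarith only [h1]
  have hy2 : 2 / t * (1 / √(N : ℝ)) ≤ η / (4 * (C2 + 1) * F) := by
    have h1 : 1 / √(N : ℝ) ≤ η / (4 * (C2 + 1) * F) / (2 / t) :=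
      hx.trans ((min_le_right _ _).trans (min_le_right _ _))
    rw [le_div_iff₀ (by positivity)] at h1
    linarith only [h1]
  have hSD' : SD ν K m c P t / (t * N) ≤ ε0 := by
    rw [div_le_iff₀ (by positivity)]
    exact hSD
  have hSD0 : 0 ≤ SD ν K m c P t := de_sd_nonneg hm hN t
  -- the first error
  have hE1 : C1 * (1 / m 1 + SD ν K m c P t + √N) / (t * N) ≤ e := by
    have h1 := de_frac (a := 1 / m 1) (s := SD ν K m c P t) (by positivity) hN1 ht
    have h2 : (1 / m 1 + SD ν K m c P t + √N) / (t * N) ≤ 2 * (e / (2 * (C1 + 1))) := by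
      linarith only [hε1, hy1, hSD', h1]
    rw [mul_div_assoc]
    calc C1 * ((1 / m 1 + SD ν K m c P t + √N) / (t * N)) ≤ C1 * (2 * (e / (2 * (C1 + 1)))) :=
          mul_le_mul_of_nonneg_left h2 hC1
      _ = e * (C1 / (C1 + 1)) := by field_simp
      _ ≤ e * 1 := by
          refine mul_le_mul_of_nonneg_left ?_ he0.le
          rw [div_le_one (by positivity)]
          linarith only []
      _ = e := mul_one e
  -- the second error
  set T : ℝ := C2 * (1 + SD ν K m c P t) / (t * N) with hT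
  have hT0 : 0 ≤ T := by positivity
  have hT1 : T * F ≤ η / 2 := by
    have h1 := de_frac (a := 1) (s := SD ν K m c P t) (by norm_num) hN1 ht
    have h2 : (1 + SD ν K m c P t) / (t * N) ≤ 2 * (η / (4 * (C2 + 1) * F)) := by
      have h3 : (1 + SD ν K m c P t) / (t * N) ≤ (1 + SD ν K m c P t + √N) / (t * N) :=
        div_le_div_of_nonneg_right (by linarith only [Real.sqrt_nonneg (N : ℝ)]) (by positivity)
      have h4 : ((1 : ℝ) + 1) / t = 2 / t := by norm_num
      rw [h4] at h1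
      linarith only [hε2, hy2, hSD', h1, h3]
    calc T * F = C2 * F * ((1 + SD ν K m c P t) / (t * N)) := by rw [hT]; ring
      _ ≤ C2 * F * (2 * (η / (4 * (C2 + 1) * F))) :=
          mul_le_mul_of_nonneg_left h2 (by positivity)
      _ = η / 2 * (C2 / (C2 + 1)) := by
          field_simp
          ring
      _ ≤ η / 2 * 1 := by
          refine mul_le_mul_of_nonneg_left ?_ (by positivity)
          rw [div_le_one (by positivity)]
          linarith only []
      _ = η / 2 := mul_one _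
  obtain ⟨⟨a1, ha1⟩, hc1⟩ := H1 N K m c P r k0 ν dl t hG ht (htx.trans (min_le_left _ _)) hxx1 rd rr
    s' σ τ hE
  obtain ⟨hd, he2⟩ := H2 N K m c P r k0 ν dl t hG ht (htx.trans (min_le_right _ _)) hxx2 rd rr
    s' σ τ hE
  set A := GE K m b α μ g c P r k0 rd rr s' σ τ with hA
  set Bs := Bt c (wi r k0) with hBs
  have hAok : A.Ok := egs_ok hm _
  have hAu : ∀ i ∈ Bs, ∀ l ≤ K, (MP K c (wi r k0) P μ g (mbar b α) rd rr s' σ τ).u i l =
      P.u (Fin.last n) l := by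
    intro i hi l _
    rw [hBs, Bt, Finset.mem_sdiff, blk, Finset.mem_filter] at hi
    obtain ⟨⟨-, hi1⟩, hi2⟩ := hi
    have h1 : ¬ ∃ j, wi r k0 j = i := by
      rintro ⟨j, hj⟩
      exact hi2 (Finset.mem_image.2 ⟨j, Finset.mem_univ j, hj⟩)
    change Function.extend (wi r k0) (fun _ _ => 0) (fun i => P.u (c i)) i l = _
    rw [Function.extend_apply' _ _ _ h1, hi1]
  have hfin := dev_gs (K := K) (m := m) (ν := ν) (A := A) hAok rfl rfl (Bs := Bs) (u := P.u (Fin.last n))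
    (D := fun U => egsD K (MP K c (wi r k0) P μ g (mbar b α) rd rr s' σ τ) U.1)
    (fun U => egs_bfld hm hN _ U.2 Bs _ hAu) hm hσ0 hσ1 hπ hp hδ he0.le
    (fun l hl hlK => hσ (Fin.last n) l hl hlK) ⟨a1, ha1.trans hE1⟩ (fun l hl hlK => by
      obtain ⟨a, ha⟩ := hc1 l hl hlK
      exact ⟨a, ha.trans hE1⟩)
  have hxX : (K + 1) * e / (σ0 * π) = X := by
    rw [he]
    field_simp
  rw [hxX] at hfin
  have hcen := de_center (ν := ν) hAok hN Bs (MB ν A Bs) (Mk ν K m c P (Fin.last n))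
  -- the levels
  have hp0 : ∀ l ≤ K, 0 ≤ m (l + 1) - m l := fun l hl => hπ.le.trans (hp l hl)
  have htail : ∀ l, 1 ≤ l → l ≤ K → |∑ i ∈ Finset.Ico l (K + 1), (m (i + 1) - m i) *
      ((MB ν A Bs).e i - (Mk ν K m c P (Fin.last n)).e i)| ≤ T * (1 + 1 / σ0) := by
    intro l hl hlK
    have h1 := he2 l hl hlK
    set S1 := ∑ i ∈ Finset.Ico l (K + 1), (m (i + 1) - m i) * (MB ν A Bs).e i with hS1
    set S2 := ∑ i ∈ Finset.Ico l (K + 1), (m (i + 1) - m i) *
      (Mk ν K m c P (Fin.last n)).e i with hS2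
    have h2 : ∑ i ∈ Finset.Ico l (K + 1), (m (i + 1) - m i) *
        ((MB ν A Bs).e i - (Mk ν K m c P (Fin.last n)).e i) = S1 - S2 := by
      rw [hS1, hS2, ← Finset.sum_sub_distrib]
      exact Finset.sum_congr rfl fun i _ => by ring
    rw [h2]
    have hul := hσ (Fin.last n) l hl hlK
    rw [abs_mul, abs_of_pos (hσ0.trans_le hul)] at h1
    set d1 := (MB ν A Bs).d with hd1
    set d2 := (Mk ν K m c P (Fin.last n)).d with hd2
    have h3 : |d1 - S1 - (d2 - S2)| ≤ T * (1 / σ0) := by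
      have h4 : σ0 * |d1 - S1 - (d2 - S2)| ≤ T :=
        (mul_le_mul_of_nonneg_right hul (abs_nonneg _)).trans h1
      rw [mul_one_div, le_div_iff₀ hσ0]
      linarith only [h4]
    have h5 : S1 - S2 = (d1 - d2) - (d1 - S1 - (d2 - S2)) := by ring
    rw [h5]
    refine (abs_sub _ _).trans ?_
    rw [mul_add, mul_one]
    exact add_le_add hd h3
  have hsum := de_tail (p := fun l => m (l + 1) - m l)
    (f := fun l => (MB ν A Bs).e l - (Mk ν K m c P (Fin.last n)).e l) htail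
    (by positivity) hp0
  have h0 : (m (0 + 1) - m 0) * |(MB ν A Bs).e 0 - (Mk ν K m c P (Fin.last n)).e 0| ≤ 2 * δ := by
    have h1 : |(MB ν A Bs).e 0| ≤ 1 := de_MB_e hAok hN Bs (Nat.zero_le _)
    have h2 : |(Mk ν K m c P (Fin.last n)).e 0| ≤ 1 := by
      have h3 : 0 ≤ Rkl ν K m c P (Fin.last n) 0 := Rkl_nonneg hm hN _ (Nat.zero_le _)
      have h4 : Rkl ν K m c P (Fin.last n) 0 ≤ 1 :=
        (Rkl_le hm hN _ (Nat.zero_le _)).trans (m3_rho_le_one hm hN _)
      exact abs_le.2 ⟨by change -1 ≤ Rkl ν K m c P (Fin.last n) 0; linarith only [h3], h4⟩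
    have h5 : |(MB ν A Bs).e 0 - (Mk ν K m c P (Fin.last n)).e 0| ≤ 2 := by
      refine (abs_sub _ _).trans ?_
      linarith only [h1, h2]
    have h6 := hδ 0 (Nat.zero_le _)
    have h7 := hp0 0 (Nat.zero_le _)
    rw [mul_comm]
    exact mul_le_mul h5 h6 h7 (by norm_num)
  have hsplit : ∑ l ∈ Finset.range (A.K + 1), (A.m (l + 1) - A.m l) *
      |(MB ν A Bs).e l - (Mk ν K m c P (Fin.last n)).e l| =
      (m (0 + 1) - m 0) * |(MB ν A Bs).e 0 - (Mk ν K m c P (Fin.last n)).e 0| +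
      ∑ l ∈ Finset.Ico 1 (K + 1), (m (l + 1) - m l) *
        |(MB ν A Bs).e l - (Mk ν K m c P (Fin.last n)).e l| := by
    change ∑ l ∈ Finset.range (K + 1), (m (l + 1) - m l) *
      |(MB ν A Bs).e l - (Mk ν K m c P (Fin.last n)).e l| = _
    rw [Finset.range_eq_Ico, Finset.sum_eq_sum_Ico_succ_bot (by omega : 0 < K + 1)]
  rw [hsplit] at hcen
  have hF2 : T * F = T + K * (2 * (T * (1 + 1 / σ0))) := by
    rw [hF]
    ring
  rw [hF2] at hT1
  linarith only [hX, hT1, hd, hfin, hcen, hsum, h0]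

end Vale.Agent.P166.L
end
end

section

section

/-! P166, lower bound: the statement about the increments. -/

open MeasureTheory ProbabilityTheory Matrix Filter Topology

namespace Vale.Agent.P166.L

open Vale.Agent.P157.Lv Vale.Agent.P157.Par Md H U
open Vale.Agent.P166.F (frac)

/-- **The increments of the free energy** are bounded below by the values of the functional, up to
an error which involves the second differences. -/
def IncSt [∀ N, MeasurableSpace (orthogonalGroup (Fin N) ℝ)]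
    (ν : (N : ℕ) → Measure (orthogonalGroup (Fin N) ℝ)) (β : ℝ) : Prop :=
  ∀ (n : ℕ) (a α : Fin (n + 1) → ℝ) (a0 h : ℝ), 0 < h → (∀ k, a k = a0 + h * (k : ℕ)) →
    (∀ b, 0 < α b) → ∑ b, α b = 1 →
    ∃ C : ℝ, ∀ η : ℝ, 0 < η → ∃ (K : ℕ) (m s : ℕ → ℝ), Exponents K m ∧ s 0 = 0 ∧
      (∀ l, 0 ≤ s l) ∧ ∑ l ∈ Finset.range (K + 1), s l ^ 2 ≤ η ∧
      ∃ dl : ℝ, 0 < dl ∧ dl ≤ η / (K + 1) ∧ ∃ ε₀ : ℝ, 0 < ε₀ ∧ ∃ t₀ : ℝ, 0 < t₀ ∧
        ∀ t : ℝ, 0 < t → t ≤ t₀ → ∃ N₀ : ℕ, ∀ N : ℕ, N₀ ≤ N → ∀ c : Fin N → Fin (n + 1),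
          (∀ k, |frac c k - α k| ≤ dl) → ∀ P : Pm (n + 1), P.s = s →
          (∀ k, |P.b k - β * a k| ≤ dl) → (∀ k, P.u k 0 = 0) →
          (∀ k l, 1 ≤ l → l ≤ K → dl / 2 ≤ P.u k l ∧ P.u k l ≤ dl) →
          -C ≤ ∑ k, α k * Ph (ν (N + 1)) K m (Fin.cons k c) P - Ph (ν N) K m c P ∧
          (SD (ν N) K m c P t ≤ ε₀ * (t * N) → ∃ y ∈ vals β (atoms a α),
            Real.log 2 + y - β * h / (2 * α (Fin.last n)) - η ≤
              ∑ k, α k * Ph (ν (N + 1)) K m (Fin.cons k c) P - Ph (ν N) K m c P)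

end Vale.Agent.P166.L
end
end

section

section

/-! P166, lower bound: from approximate spin consistency to a value of the variational formula. -/

open Finset MeasureTheory

namespace Vale.Agent.P166.L

open Vale.Agent.P157.Par Vale.Agent.P166.F

/-- If the path `r` satisfies the spin consistency exactly, the supremum is attained. -/
theorem isLUB_spR {β : ℝ} {μ : Measure ℝ} {K : ℕ} {m r : ℕ → ℝ} (hm : Exponents K m)
    (hr : Path K r) :
    IsLUB {y | ∃ r', Path K r' ∧ y = Jf β μ K m (spR K m r) r'} (Jf β μ K m (spR K m r) r) := by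
  constructor
  · rintro y ⟨r', hr', rfl⟩
    have h1 := spin_tangent_cl hm hr hr'
    unfold Jf
    have h2 : ∑ l ∈ range (K + 1), (m (l + 1) - m l) * r' l * spR K m r l -
        ∑ l ∈ range (K + 1), (m (l + 1) - m l) * r l * spR K m r l =
        ∑ l ∈ range (K + 1), (m (l + 1) - m l) * spR K m r l * (r' l - r l) := by
      rw [← Finset.sum_sub_distrib]
      exact Finset.sum_congr rfl fun l _ => by ring
    linarith
  · intro z hz
    exact hz ⟨r, hr, rfl⟩

theorem path_spR {K : ℕ} {m r : ℕ → ℝ} (hm : Exponents K m) (hr : Path K r) :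
    Path K (spR K m r) :=
  ⟨spR_nonneg hm hr (Nat.zero_le K), fun _ hl => spR_mono hm hr hl⟩

/-- Summation by parts. -/
theorem abel_tail (T φ : ℕ → ℝ) (n : ℕ) :
    ∑ l ∈ range (n + 1), (T l - T (l + 1)) * φ l =
      T 0 * φ 0 - T (n + 1) * φ n + ∑ l ∈ range n, T (l + 1) * (φ (l + 1) - φ l) := by
  induction n with
  | zero => simp only [zero_add, range_one, sum_singleton, range_zero, sum_empty, add_zero]; ring
  | succ n ih =>
    rw [Finset.sum_range_succ, ih, Finset.sum_range_succ]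
    ring

/-- The truncated identity. -/
noncomputable def clp (η x : ℝ) : ℝ := max (-1) (min 1 (x / η))

theorem abs_clp_le (η x : ℝ) : |clp η x| ≤ 1 := by
  unfold clp
  rw [abs_le]
  exact ⟨le_max_left _ _, max_le (by norm_num) (min_le_left _ _)⟩

theorem clp_lip {η : ℝ} (hη : 0 < η) (x y : ℝ) : |clp η x - clp η y| ≤ |x - y| / η := by
  unfold clp
  have h1 : |max (-1 : ℝ) (min 1 (x / η)) - max (-1) (min 1 (y / η))| ≤
      |min 1 (x / η) - min 1 (y / η)| := by
    have := abs_max_sub_max_le_abs (min 1 (x / η)) (min 1 (y / η)) (-1)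
    rwa [max_comm (min 1 (x / η)), max_comm (min 1 (y / η))] at this
  have h2 : |min 1 (x / η) - min 1 (y / η)| ≤ |x / η - y / η| := by
    have := abs_min_sub_min_le_max 1 (x / η) 1 (y / η)
    simpa only [ge_iff_le, sub_self, abs_zero, abs_nonneg, sup_of_le_right] using this
  refine (h1.trans h2).trans (le_of_eq ?_)
  rw [← sub_div, abs_div, abs_of_pos hη]

theorem abs_le_clp {η : ℝ} (hη : 0 < η) (x : ℝ) : |x| ≤ x * clp η x + η := by
  unfold clp
  rcases le_total x 0 with hx | hx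
  · rcases le_total (-1) (x / η) with h | h
    · have h1 : min 1 (x / η) = x / η := min_eq_right ((div_nonpos_of_nonpos_of_nonneg hx hη.le).trans zero_le_one)
      rw [h1, max_eq_right h, abs_of_nonpos hx]
      have h2 : 0 ≤ x * (x / η) := mul_nonneg_of_nonpos_of_nonpos hx
        (div_nonpos_of_nonpos_of_nonneg hx hη.le)
      rw [le_div_iff₀ hη] at h
      linarith
    · have h1 : min 1 (x / η) = x / η := min_eq_right ((div_nonpos_of_nonpos_of_nonneg hx hη.le).trans zero_le_one)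
      rw [h1, max_eq_left h, abs_of_nonpos hx]
      linarith only [hη]
  · rcases le_total 1 (x / η) with h | h
    · rw [min_eq_left h, max_eq_right (by norm_num), abs_of_nonneg hx]
      linarith only [hη]
    · have h0 : 0 ≤ x / η := div_nonneg hx hη.le
      rw [min_eq_right h, max_eq_right (by linarith only [h0]), abs_of_nonneg hx]
      have h2 : 0 ≤ x * (x / η) := mul_nonneg hx h0
      rw [div_le_iff₀ hη] at h
      linarith only [h, h2]

theorem path_sum_abs {K : ℕ} {q : ℕ → ℝ} (hq : Path K q) (hq1 : q K ≤ 1) :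
    ∑ l ∈ range K, |q (l + 1) - q l| ≤ 1 := by
  have h1 : ∀ l ∈ range K, |q (l + 1) - q l| = q (l + 1) - q l := fun l hl =>
    abs_of_nonneg (sub_nonneg.2 (hq.2 l (mem_range.1 hl)))
  rw [Finset.sum_congr rfl h1, Finset.sum_range_sub]
  linarith [hq.1]

/-- From the tails to the `L¹` distance, for monotone paths; the bound does not depend on the
number of levels. -/
theorem tails_l1_mono {K : ℕ} {m q q' : ℕ → ℝ} (hm : Exponents K m) (hq : Path K q)
    (hq1 : q K ≤ 1) (hq' : Path K q') (hq1' : q' K ≤ 1) {e : ℝ} (he : 0 < e) (he1 : e ≤ 1)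
    (h : ∀ l ≤ K, |∑ i ∈ Ico l (K + 1), (m (i + 1) - m i) * (q i - q' i)| ≤ e) :
    ∑ l ∈ range (K + 1), (m (l + 1) - m l) * |q l - q' l| ≤ 4 * √e := by
  set η := √e with hη
  have hη0 : 0 < η := Real.sqrt_pos.2 he
  have hηe : η * η = e := Real.mul_self_sqrt he.le
  set x : ℕ → ℝ := fun l => q l - q' l with hx
  set T : ℕ → ℝ := fun l => ∑ i ∈ Ico l (K + 1), (m (i + 1) - m i) * x i with hT
  have hTs : ∀ l ∈ range (K + 1), T l - T (l + 1) = (m (l + 1) - m l) * x l := by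
    intro l hl
    simp only [hT]
    rw [Finset.sum_eq_sum_Ico_succ_bot (mem_range.1 hl)]
    ring
  have hTK : T (K + 1) = 0 := by simp only [hT, Std.le_refl, Ico_eq_empty_of_le, sum_empty]
  have hp : ∀ l ∈ range (K + 1), 0 ≤ m (l + 1) - m l := fun l hl =>
    (sub_pos.2 (hm.2.2 l (Nat.lt_succ_iff.1 (mem_range.1 hl)))).le
  have h1 : ∑ l ∈ range (K + 1), (m (l + 1) - m l) * |x l| ≤
      ∑ l ∈ range (K + 1), (T l - T (l + 1)) * clp η (x l) + η := by
    have h2 : ∑ l ∈ range (K + 1), (m (l + 1) - m l) * η = η := by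
      rw [← Finset.sum_mul, Finset.sum_range_sub, hm.2.1, hm.1]
      ring
    refine le_trans ?_ (le_of_eq (congrArg (fun y =>
      ∑ l ∈ range (K + 1), (T l - T (l + 1)) * clp η (x l) + y) h2))
    rw [← Finset.sum_add_distrib]
    refine Finset.sum_le_sum fun l hl => ?_
    rw [hTs l hl]
    have := mul_le_mul_of_nonneg_left (abs_le_clp hη0 (x l)) (hp l hl)
    calc (m (l + 1) - m l) * |x l| ≤ (m (l + 1) - m l) * (x l * clp η (x l) + η) := this
      _ = (m (l + 1) - m l) * x l * clp η (x l) + (m (l + 1) - m l) * η := by ring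
  rw [abel_tail, hTK] at h1
  have h2 : |T 0 * clp η (x 0)| ≤ e := by
    rw [abs_mul]
    have := mul_le_mul (h 0 (Nat.zero_le K)) (abs_clp_le η (x 0)) (abs_nonneg _) he.le
    rwa [mul_one] at this
  have h3 : |∑ l ∈ range K, T (l + 1) * (clp η (x (l + 1)) - clp η (x l))| ≤ 2 * η := by
    refine (Finset.abs_sum_le_sum_abs _ _).trans ?_
    have h4 : ∀ l ∈ range K, |T (l + 1) * (clp η (x (l + 1)) - clp η (x l))| ≤
        η * (|q (l + 1) - q l| + |q' (l + 1) - q' l|) := by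
      intro l hl
      rw [abs_mul]
      have h5 := h (l + 1) (mem_range.1 hl)
      have h6 := clp_lip hη0 (x (l + 1)) (x l)
      have h7 : |x (l + 1) - x l| ≤ |q (l + 1) - q l| + |q' (l + 1) - q' l| := by
        have : x (l + 1) - x l = (q (l + 1) - q l) - (q' (l + 1) - q' l) := by
          simp only [hx]; ring
        rw [this]
        exact abs_sub _ _
      calc |T (l + 1)| * |clp η (x (l + 1)) - clp η (x l)|
          ≤ e * (|x (l + 1) - x l| / η) := mul_le_mul h5 h6 (abs_nonneg _) he.le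
        _ = η * |x (l + 1) - x l| := by rw [← hηe]; field_simp
        _ ≤ _ := mul_le_mul_of_nonneg_left h7 hη0.le
    refine (Finset.sum_le_sum h4).trans ?_
    rw [← Finset.mul_sum, Finset.sum_add_distrib]
    have h8 := path_sum_abs hq hq1
    have h9 := path_sum_abs hq' hq1'
    nlinarith only [hη0, h8, h9]
  have h4 : e ≤ η := by
    have h5 : η ≤ 1 := by rw [hη]; exact Real.sqrt_le_one.2 he1
    nlinarith only [hηe, hη0, h5]
  have h5 := (abs_le.1 h2).2
  have h6 := (abs_le.1 h3).2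
  simp only [hx] at h1 ⊢
  linarith only [h4, h5, h6, h1]

theorem value_final {n : ℕ} {a α : Fin (n + 1) → ℝ} (hα : ∀ b, 0 < α b) (hα1 : ∑ b, α b = 1)
    {β : ℝ} (hβ : 0 < β) (B : ℝ) :
    ∃ C : ℝ, 0 ≤ C ∧ ∀ (K : ℕ) (m q S : ℕ → ℝ) (e : ℝ), Exponents K m → Path K q → q 0 = 0 →
      q K < 1 → Path K S → S 0 = 0 → S K ≤ B → 0 < e → e ≤ 1 →
      (∀ l, 1 ≤ l → l ≤ K → |∑ i ∈ Ico l (K + 1), (m (i + 1) - m i) *
        (q i - spR K m (fun i => rPath β (atoms a α) K m q i + S i) i)| ≤ e) →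
      ∃ y ∈ vals β (atoms a α), y ≤ specPart β (atoms a α) K m q +
        1 / 2 * ∑ l ∈ range (K + 1), (m (l + 1) - m l) * rPath β (atoms a α) K m q l * q l +
        spinPart K m (fun i => rPath β (atoms a α) K m q i + S i) + 1 / 2 * S K +
        C * √e := by
  obtain ⟨C1, hC1, hlip⟩ := specPart_lip (a := a) hα hα1 hβ
  obtain ⟨C2, hC2, hprop⟩ := rPath_props (a := a) hα hα1 hβ
  refine ⟨4 * (C1 + (C2 + |B|) / 2), by positivity, ?_⟩
  intro K m q S e hm hq hq0 hq1 hS hS0 hSK he he1 htail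
  have hmE : Expo K m := exponents_expo hm
  have hqO : OPath K q := ⟨hq.1, hq.2, hq1.le⟩
  obtain ⟨h1, h2, h3, -⟩ := hprop K m q hmE hqO hq0 hq1
  set rt := rPath β (atoms a α) K m q with hrt
  set r : ℕ → ℝ := fun i => rt i + S i with hr
  have hrP : Path K r := ⟨by simp only [hr]; rw [h1, hS0]; simp, fun l hl => by
    simp only [hr]; exact add_le_add (h2 l hl) (hS.2 l hl)⟩
  have hr0 : r 0 = 0 := by simp only [hr]; rw [h1, hS0]; simp
  set q' := spR K m r with hq'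
  have hq'0 : q' 0 = 0 := spR_zero hm hr0
  have hq'P : Path K q' := path_spR hm hrP
  have hq'1 : q' K < 1 := spR_lt_one hm hrP le_rfl
  have hq'O : OPath K q' := ⟨hq'P.1, hq'P.2, hq'1.le⟩
  refine ⟨Jf β (atoms a α) K m q' r, ⟨K, m, q', hm, hq'P, hq'0, hq'1, isLUB_spR hm hrP⟩, ?_⟩
  have hl1 := tails_l1_mono hm hq hq1.le hq'P hq'1.le he he1 (fun l hl => by
    rcases Nat.eq_zero_or_pos l with rfl | hl0
    · rw [Finset.sum_eq_sum_Ico_succ_bot (Nat.succ_pos K), hq0, hq'0]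
      rcases Nat.eq_zero_or_pos K with rfl | hK
      · simp only [zero_add, sub_self, mul_zero, Nat.succ_eq_add_one, Std.le_refl, Ico_eq_empty_of_le, sum_empty, add_zero, abs_zero, he.le]
      · simpa only [zero_add, sub_self, mul_zero, Nat.succ_eq_add_one] using htail 1 le_rfl hK
    · exact htail l hl0 hl)
  have h4 := hlip K m q q' hmE hqO hq'O hq0 hq'0
  set D := ∑ l ∈ range (K + 1), (m (l + 1) - m l) * |q l - q' l| with hD
  -- the bound of r
  have hrle : ∀ l ≤ K, 0 ≤ r l ∧ r l ≤ C2 + |B| := by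
    intro l hl
    have hmono : ∀ i j, i ≤ j → j ≤ K → r i ≤ r j := by
      intro i j hij
      induction j, hij using Nat.le_induction with
      | base => intro _; exact le_rfl
      | succ j _ ih => intro hj; exact (ih (by omega)).trans (hrP.2 j (by omega))
    constructor
    · have := hmono 0 l (Nat.zero_le l) hl
      linarith only [hS0, h1, this]
    · have h5 := hmono l K hl le_rfl
      have h6 : r K = rt K + S K := rfl
      have := le_abs_self B
      linarith only [hSK, h3, h5, this]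
  have hp : ∀ l ∈ range (K + 1), 0 ≤ m (l + 1) - m l := fun l hl =>
    hmE.p_nonneg (Nat.lt_succ_iff.1 (mem_range.1 hl))
  -- the difference of the linear terms
  have h5 : ∑ l ∈ range (K + 1), (m (l + 1) - m l) * r l * q' l -
      ∑ l ∈ range (K + 1), (m (l + 1) - m l) * r l * q l ≤ (C2 + |B|) * D := by
    rw [← Finset.sum_sub_distrib, hD, Finset.mul_sum]
    refine Finset.sum_le_sum fun l hl => ?_
    have hl' := hrle l (Nat.lt_succ_iff.1 (mem_range.1 hl))
    have h6 : q' l - q l ≤ |q l - q' l| := by rw [abs_sub_comm]; exact le_abs_self _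
    have h7 := mul_le_mul_of_nonneg_left h6 (mul_nonneg (hp l hl) hl'.1)
    have h8 : (m (l + 1) - m l) * r l * |q l - q' l| ≤
        (m (l + 1) - m l) * (C2 + |B|) * |q l - q' l| :=
      mul_le_mul_of_nonneg_right (mul_le_mul_of_nonneg_left hl'.2 (hp l hl)) (abs_nonneg _)
    linarith only [h7, h8]
  -- the fields only help
  have h6 : ∑ l ∈ range (K + 1), (m (l + 1) - m l) * r l * q l =
      ∑ l ∈ range (K + 1), (m (l + 1) - m l) * rt l * q l +
        ∑ l ∈ range (K + 1), (m (l + 1) - m l) * S l * q l := by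
    rw [← Finset.sum_add_distrib]
    exact Finset.sum_congr rfl fun l _ => by simp only [hr]; ring
  have h7 : ∑ l ∈ range (K + 1), (m (l + 1) - m l) * S l * q l ≤ S K := by
    have hSm : ∀ i j, i ≤ j → j ≤ K → S i ≤ S j := by
      intro i j hij
      induction j, hij using Nat.le_induction with
      | base => intro _; exact le_rfl
      | succ j _ ih => intro hj; exact (ih (by omega)).trans (hS.2 j (by omega))
    have h8 : ∀ l ∈ range (K + 1), (m (l + 1) - m l) * S l * q l ≤ (m (l + 1) - m l) * S K := by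
      intro l hl
      have hlK := Nat.lt_succ_iff.1 (mem_range.1 hl)
      have h9 := hSm l K hlK le_rfl
      have h10 : 0 ≤ S l := by have := hSm 0 l (Nat.zero_le l) hlK; linarith only [hS0, this]
      have h11 := fs_le_one hqO hlK
      have h12 := fs_nonneg hqO hlK
      have h13 : S l * q l ≤ S K := by nlinarith only [h9, h10, h11]
      rw [mul_assoc]
      exact mul_le_mul_of_nonneg_left h13 (hp l hl)
    refine (Finset.sum_le_sum h8).trans ?_
    rw [← Finset.sum_mul, Finset.sum_range_sub, hm.2.1, hm.1]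
    simp
  have h8 : Jf β (atoms a α) K m q' r = specPart β (atoms a α) K m q' + spinPart K m r +
      1 / 2 * ∑ l ∈ range (K + 1), (m (l + 1) - m l) * r l * q' l := rfl
  have h9 : spinPart K m r = spinPart K m (fun i => rt i + S i) := rfl
  rw [h8]
  have h10 := (abs_le.1 h4).1
  have h11 : C1 * D + (C2 + |B|) / 2 * D ≤ 4 * (C1 + (C2 + |B|) / 2) * √e := by
    have : 0 ≤ C1 + (C2 + |B|) / 2 := by positivity
    nlinarith only [hl1, this]
  linarith only [h5, h6, h7, h10, h11]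

end Vale.Agent.P166.L
end
end

section

section

/-! P166, lower bound: the model of size `N + 1`, Jensen below. -/

open MeasureTheory ProbabilityTheory Matrix Filter Topology

namespace Vale.Agent.P166.L

open Vale.Agent.P157 (spin)
open Vale.Agent.P157.Lv Vale.Agent.P157.Par Md H U

variable {N K n : ℕ} {m : ℕ → ℝ}

/-- A centered field which does not enter the energy has zero mean. -/
lemma ll_ibp {ι X : Type} [Fintype ι] [DecidableEq ι] [Fintype X] [Nonempty X] {S : Sy ι X}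
    {Df : ι → (ι → ℝ) → X → ℝ} (hS : S.RegD Df) (e : ι) (hD : ∀ z x, Df e z x = 0) (f : X → ℝ) :
    S.Ex (fun z x => z e * f x) = 0 := by
  have h0 : Df e = fun _ _ => 0 := by
    funext z x
    exact hD z x
  rw [hS.ibp e (h := fun _ x => f x) (h' := fun _ _ => 0) (fun x => PD.const _) (Sy.Nh.snd f)
    (Sy.Nh.snd _), h0]
  have h1 : (fun (z : ι → ℝ) (x : X) => (0 : ℝ) + f x * (0 -
      ∑ l ∈ Finset.Ico (S.lev e) (S.K + 1), S.p l * S.T l (fun _ _ => 0) z)) = fun _ _ => 0 := by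
    funext z x
    have h2 : ∑ l ∈ Finset.Ico (S.lev e) (S.K + 1), S.p l * S.T l (fun _ _ => (0 : ℝ)) z = 0 :=
      Finset.sum_eq_zero fun l hl => by
        rw [hS.toReg.T_const (by have := Finset.mem_Ico.1 hl; omega), mul_zero]
    rw [h2]
    ring
  rw [h1]
  exact hS.toReg.Ex_const 0

/-- The fields of the reserved patterns do not enter the energy of `GE`. -/
lemma ll_D {c : Fin N → Fin (n + 1)} {r : Fin (n + 1) → Fin N} (hr : ∀ k, c (r k) = k)
    (k0 : Fin (n + 1)) (P : Pm (n + 1)) (μ g : Fin n → ℝ) (mb rd : ℝ) (rr s' : ℕ → ℝ) (σ τ : ℝ)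
    (V : Matrix (Fin N) (Fin N) ℝ) (k : Fin (n + 1)) (l : ℕ) (z : Ie N K → ℝ) (x : Xe N) :
    egsD K (MP K c (wi r k0) P μ g mb rd rr s' σ τ) V (Sum.inl (bco l (rho0 r k0 k))) z x = 0 := by
  have hinj : Function.Injective r := fun a b h => by rw [← hr a, h, hr b]
  by_cases hk : k = k0
  · unfold rho0
    rw [if_pos hk]
    rfl
  · unfold rho0
    rw [if_neg hk]
    obtain ⟨j, hj⟩ := Fin.exists_succAbove_eq hk
    have hw : Function.Injective (wi r k0) := fun a b h =>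
      Fin.succAbove_right_injective (hinj h)
    have h1 : (MP K c (wi r k0) P μ g mb rd rr s' σ τ).u (r k) = fun _ => 0 := by
      change Function.extend (wi r k0) (fun _ _ => 0) (fun i => P.u (c i)) (r k) = _
      have h2 : r k = wi r k0 j := by
        unfold wi
        rw [hj]
      rw [h2, hw.extend_apply]
    change (MP K c (wi r k0) P μ g mb rd rr s' σ τ).u (r k) _ * _ = 0
    rw [h1, zero_mul]

/-- The lower bound of the quadratic form. -/
lemma ll_quad {n : ℕ} {δ : ℝ} {M : Fin (n + 1) → Fin (n + 1) → ℝ} (hM : ∀ i j, |M i j| ≤ δ)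
    (y : Fin (n + 1) → ℝ) :
    -(δ * (n + 1) / 2 * ∑ k, y k ^ 2) ≤ 1 / 2 * ∑ k, ∑ k', M k k' * (y k * y k') := by
  have h1 : ∀ k k', -(δ * (y k ^ 2 + y k' ^ 2) / 2) ≤ M k k' * (y k * y k') := by
    intro k k'
    have h2 : |M k k' * (y k * y k')| ≤ δ * ((y k ^ 2 + y k' ^ 2) / 2) := by
      rw [abs_mul]
      refine mul_le_mul (hM k k') ?_ (abs_nonneg _) ((abs_nonneg _).trans (hM k k'))
      rw [abs_le]
      constructor <;> linarith only [sq_nonneg (y k + y k'), sq_nonneg (y k - y k')]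
    have := (abs_le.1 h2).1
    linarith only [this]
  have h3 : ∑ k, ∑ k', -(δ * (y k ^ 2 + y k' ^ 2) / 2) = -(δ * (n + 1) * ∑ k, y k ^ 2) := by
    have h4 : ∀ k, ∑ k', -(δ * (y k ^ 2 + y k' ^ 2) / 2) =
        -(δ / 2) * ((n + 1) * y k ^ 2 + ∑ k', y k' ^ 2) := by
      intro k
      rw [mul_add, Finset.mul_sum]
      have h5 : ∀ k', -(δ * (y k ^ 2 + y k' ^ 2) / 2) =
          -(δ / 2) * y k ^ 2 + -(δ / 2) * y k' ^ 2 := fun k' => by ring
      rw [Finset.sum_congr rfl fun k' _ => h5 k', Finset.sum_add_distrib, Finset.sum_const,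
        Finset.card_univ, Fintype.card_fin, nsmul_eq_mul]
      push_cast
      ring
    rw [Finset.sum_congr rfl fun k _ => h4 k, ← Finset.mul_sum, Finset.sum_add_distrib,
      ← Finset.mul_sum, Finset.sum_const, Finset.card_univ, Fintype.card_fin, nsmul_eq_mul]
    push_cast
    ring
  have h6 := Finset.sum_le_sum fun k (_ : k ∈ Finset.univ) =>
    Finset.sum_le_sum fun k' (_ : k' ∈ Finset.univ) => h1 k k'
  rw [h3] at h6
  linarith only [h6]

/-- Jensen for one matrix. -/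
lemma ll_one {b α : Fin (n + 1) → ℝ} {μ g : Fin n → ℝ}
    {Q : Fin (n + 1) → Matrix (Fin (n + 1)) (Fin (n + 1)) ℝ} (D : Dat b α μ g Q)
    (hm : Exponents K m) {c : Fin N → Fin (n + 1)} (P : Pm (n + 1)) {r : Fin (n + 1) → Fin N}
    (hr : ∀ k, c (r k) = k) (k0 : Fin (n + 1)) (s' : ℕ → ℝ)
    (A : Matrix (Fin (n + 1)) (Fin (n + 1)) ℝ) {δ : ℝ}
    (hδ : ∀ i j, |(Aᵀ * diagonal P.b * A) i j - ((Q k0)ᵀ * diagonal b * Q k0) i j| ≤ δ)
    (V : Matrix (Fin N) (Fin N) ℝ) :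
    ((GE K m b α μ g c P r k0 0 0 s' 1 0).sy V).fe - δ * (n + 1) / 2 *
      ∑ k, ((GE K m b α μ g c P r k0 0 0 s' 1 0).sy V).Ex (fun _ x => yt r k0 V x k ^ 2) ≤
      (sA K m c P r k0 s' A V).fe := by
  set S := (GE K m b α μ g c P r k0 0 0 s' 1 0).sy V with hSd
  set H' := (sAE K m c P r k0 s' A V).H with hH'
  have hS := egs_regD (N := N) hm (MP K c (wi r k0) P μ g (mbar b α) 0 0 s' 1 0) V
  have hw : S.wH H' = sAE K m c P r k0 s' A V := rfl
  have hS' : (S.wH H').Reg := by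
    rw [hw]
    exact sAE_reg hm c P r k0 s' A V
  have hj := Sy.Reg.jensen (S := S) hS.toReg hS'
  have hfe : (S.wH H').fe = (sA K m c P r k0 s' A V).fe := by
    rw [hw]
    exact sAE_fe hm c P r k0 s' A V
  rw [hfe] at hj
  -- the difference of the energies
  set q : Xe N → ℝ := fun x => 1 / 2 * ∑ k, ∑ k', ((Aᵀ * diagonal P.b * A) k k' -
    ((Q k0)ᵀ * diagonal b * Q k0) k k') * (yt r k0 V x k * yt r k0 V x k') with hq
  have hdiff : (fun z x => H' z x - S.H z x) = fun z x => q x +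
      ∑ l ∈ Finset.range (K + 1), ∑ k, P.u k l *
        (z (Sum.inl (bco l (rho0 r k0 k))) * (A *ᵥ yt r k0 V x) k) := by
    funext z x
    rw [hH', sAE_en D P hr k0 s' A V z x]
    simp only [hq, hSd]
    ring
  have hNz : ∀ (l : ℕ) (k : Fin (n + 1)), Nh (X := Xe N) (fun (z : Ie N K → ℝ) x =>
      z (Sum.inl (bco l (rho0 r k0 k))) * (A *ᵥ yt r k0 V x) k) := fun l k =>
    Sy.Nh.mul (Sy.Nh.fst (EG.coord _)) (Sy.Nh.snd _)
  have hzero : S.Ex (fun z x => ∑ l ∈ Finset.range (K + 1), ∑ k, P.u k l *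
        (z (Sum.inl (bco l (rho0 r k0 k))) * (A *ᵥ yt r k0 V x) k)) = 0 := by
    rw [hS.toReg.Ex_sum _ fun l _ => Sy.Nh.sum _ fun k _ => Sy.Nh.const_mul _ (hNz l k)]
    refine Finset.sum_eq_zero fun l _ => ?_
    rw [hS.toReg.Ex_sum _ fun k _ => Sy.Nh.const_mul _ (hNz l k)]
    refine Finset.sum_eq_zero fun k _ => ?_
    rw [Sy.Ex_const_mul, ll_ibp hS (Sum.inl (bco l (rho0 r k0 k)))
      (fun z x => ll_D hr k0 P μ g _ _ _ _ _ _ V k l z x) (fun x => (A *ᵥ yt r k0 V x) k), mul_zero]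
  have hEx : S.Ex (fun z x => H' z x - S.H z x) = S.Ex (fun _ x => q x) := by
    rw [hdiff, hS.toReg.Ex_add (Sy.Nh.snd q) (Sy.Nh.sum _ fun l _ => Sy.Nh.sum _ fun k _ =>
      Sy.Nh.const_mul _ (hNz l k)), hzero, add_zero]
  rw [hEx] at hj
  have hlow : S.Ex (fun _ x => -(δ * (n + 1) / 2) * ∑ k, yt r k0 V x k ^ 2) ≤
      S.Ex (fun _ x => q x) := by
    refine hS.toReg.Ex_mono (Sy.Nh.snd _) (Sy.Nh.snd _) fun z x => ?_
    have h := ll_quad (M := fun k k' => (Aᵀ * diagonal P.b * A) k k' -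
      ((Q k0)ᵀ * diagonal b * Q k0) k k') hδ (fun k => yt r k0 V x k)
    rw [hq]
    linarith only [h]
  rw [Sy.Ex_const_mul, hS.toReg.Ex_sum _ fun k _ => Sy.Nh.snd _] at hlow
  linarith

/-- **Jensen's inequality, below** (for each orthogonal `A` with column `k0` equal to `√ω`):
`δ` bounds the entries of `Aᵀ diag(P.b) A - Qᵀ diag(b) Q`. The fields of the patterns `ρ k` have mean
zero in the system `GE`, since its energy does not depend on their coordinates. -/
theorem sA_low {b α : Fin (n + 1) → ℝ} {μ g : Fin n → ℝ}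
    {Q : Fin (n + 1) → Matrix (Fin (n + 1)) (Fin (n + 1)) ℝ} (D : Dat b α μ g Q) (B : ℝ) :
    ∃ C x0 : ℝ, 0 ≤ C ∧ 0 < x0 ∧ ∀ (N K : ℕ) (m : ℕ → ℝ) (c : Fin N → Fin (n + 1)) (P : Pm (n + 1))
      (r : Fin (n + 1) → Fin N) (k0 : Fin (n + 1)) [MeasurableSpace (orthogonalGroup (Fin N) ℝ)]
      [BorelSpace (orthogonalGroup (Fin N) ℝ)] (ν : Measure (orthogonalGroup (Fin N) ℝ))
      [IsProbabilityMeasure ν] [ν.IsMulLeftInvariant] (dl : ℝ), Good b α B dl K m c P r →
      (K + 1) * dl ≤ x0 → 1 / √N ≤ x0 → ∀ (s' : ℕ → ℝ), EPar K B 0 0 s' 1 0 →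
      ∀ A : Matrix (Fin (n + 1)) (Fin (n + 1)) ℝ, A ∈ orthogonalGroup (Fin (n + 1)) ℝ → ∀ δ : ℝ,
      (∀ i j, |(Aᵀ * diagonal P.b * A) i j - ((Q k0)ᵀ * diagonal b * Q k0) i j| ≤ δ) →
      EF ν K m (MP K c (wi r k0) P μ g (mbar b α) 0 0 s' 1 0) - C * δ ≤
        EU ν fun V => (sA K m c P r k0 s' A V).fe := by
  obtain ⟨C0, x0, hC0, hx0, hm2⟩ := m2_E D B
  refine ⟨(n + 1) ^ 2 / 2 * (C0 + 1), x0, by positivity, hx0, ?_⟩
  intro N K m c P r k0 _ _ ν _ _ dl hG hx1 hx2 s' hE A hA δ hδ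
  have hδ0 : 0 ≤ δ := (abs_nonneg _).trans (hδ 0 0)
  have hok : (GE K m b α μ g c P r k0 0 0 s' 1 0).Ok := egs_ok hG.hm _
  have i1 : Integrable (fun V : orthogonalGroup (Fin N) ℝ =>
      ((GE K m b α μ g c P r k0 0 0 s' 1 0).sy V.1).fe) ν := int_gs_fe ν hok
  have i2 := int_sA_fe ν hG.hm c P r k0 s' A
  have hyt : ∀ (V : orthogonalGroup (Fin N) ℝ) (x : Xe N) (k : Fin (n + 1)),
      |yt r k0 V.1 x k ^ 2| ≤ N + 1 := by
    intro V x k
    rw [abs_of_nonneg (sq_nonneg _)]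
    unfold yt
    split_ifs with h
    · have h1 : sg1 x.1 ^ 2 = 1 := by
        unfold sg1
        split_ifs <;> norm_num
      rw [h1]
      have : (0 : ℝ) ≤ N := Nat.cast_nonneg N
      linarith only []
    · have h1 := Finset.single_le_sum (f := fun i => (V.1 *ᵥ spin x.2) i ^ 2)
        (fun i _ => sq_nonneg _) (Finset.mem_univ (r k))
      have h2 : ∑ i, (V.1 *ᵥ spin x.2) i ^ 2 = N := ph_sq V.2 x.2
      rw [h2] at h1
      linarith only [h1]
  have hmeas : ∀ (x : Xe N) (k : Fin (n + 1)),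
      Measurable fun V : orthogonalGroup (Fin N) ℝ => yt r k0 V.1 x k ^ 2 := by
    intro x k
    unfold yt
    split_ifs with h
    · exact measurable_const
    · exact (meas_ph x.2 (r k)).pow_const 2
  have i3 : ∀ k : Fin (n + 1), Integrable (fun V : orthogonalGroup (Fin N) ℝ =>
      ((GE K m b α μ g c P r k0 0 0 s' 1 0).sy V.1).Ex (fun _ x => yt r k0 V.1 x k ^ 2)) ν :=
    fun k => int_gs_Ex (f := fun V x => yt r k0 V x k ^ 2) ν hok (fun x => hmeas x k)
      ⟨N + 1, fun V x => hyt V x k⟩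
  have hk : ∀ k : Fin (n + 1), EU ν (fun V =>
      ((GE K m b α μ g c P r k0 0 0 s' 1 0).sy V).Ex (fun _ x => yt r k0 V x k ^ 2)) ≤ C0 + 1 := by
    intro k
    by_cases hkk : k = k0
    · have h1 : ∀ V : Matrix (Fin N) (Fin N) ℝ,
          ((GE K m b α μ g c P r k0 0 0 s' 1 0).sy V).Ex (fun _ x => yt r k0 V x k ^ 2) = 1 := by
        intro V
        have h2 : (fun (_ : Ie N K → ℝ) (x : Xe N) => yt r k0 V x k ^ 2) = fun _ _ => (1 : ℝ) := by
          funext _ x
          unfold yt sg1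
          rw [if_pos hkk]
          split_ifs <;> norm_num
        rw [h2]
        exact (egs_regD hG.hm _ V).toReg.Ex_const 1
      unfold EU
      simp only [h1]
      rw [integral_const, probReal_univ, one_smul]
      linarith only [hC0]
    · obtain ⟨j, hj⟩ := Fin.exists_succAbove_eq hkk
      have h3 := hm2 N K m c P r k0 ν dl hG hx1 hx2 0 0 s' 1 0 hE j
      have h4 : (fun V : Matrix (Fin N) (Fin N) ℝ =>
          ((GE K m b α μ g c P r k0 0 0 s' 1 0).sy V).Ex (fun _ x => yt r k0 V x k ^ 2)) =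
          fun V => ((GE K m b α μ g c P r k0 0 0 s' 1 0).sy V).Ex
            (fun _ x => (V *ᵥ spin x.2) (wi r k0 j) ^ 2) := by
        funext V
        congr 1
        funext _ x
        unfold yt wi
        rw [if_neg hkk, hj]
      rw [h4]
      linarith only [h3]
  have hint : ∫ V : orthogonalGroup (Fin N) ℝ,
      (((GE K m b α μ g c P r k0 0 0 s' 1 0).sy V.1).fe - δ * (n + 1) / 2 *
      ∑ k, ((GE K m b α μ g c P r k0 0 0 s' 1 0).sy V.1).Ex (fun _ x => yt r k0 V.1 x k ^ 2)) ∂ν ≤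
      ∫ V : orthogonalGroup (Fin N) ℝ, (sA K m c P r k0 s' A V.1).fe ∂ν :=
    integral_mono (i1.sub ((integrable_finsetSum _ fun k _ => i3 k).const_mul _)) i2
      fun V => ll_one D hG.hm P hG.hr k0 s' A hδ V.1
  rw [integral_sub i1 ((integrable_finsetSum _ fun k _ => i3 k).const_mul _),
    integral_const_mul, integral_finsetSum _ fun k _ => i3 k] at hint
  have hsum : ∑ k : Fin (n + 1), ∫ V : orthogonalGroup (Fin N) ℝ,
      ((GE K m b α μ g c P r k0 0 0 s' 1 0).sy V.1).Ex (fun _ x => yt r k0 V.1 x k ^ 2) ∂ν ≤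
      (n + 1) * (C0 + 1) := by
    refine (Finset.sum_le_sum fun k _ => hk k).trans (le_of_eq ?_)
    rw [Finset.sum_const, Finset.card_univ, Fintype.card_fin, nsmul_eq_mul]
    push_cast
    ring
  have hfin := mul_le_mul_of_nonneg_left hsum (show 0 ≤ δ * (n + 1) / 2 by positivity)
  change (∫ V : orthogonalGroup (Fin N) ℝ, ((GE K m b α μ g c P r k0 0 0 s' 1 0).sy V.1).fe ∂ν) -
    (n + 1) ^ 2 / 2 * (C0 + 1) * δ ≤ ∫ V : orthogonalGroup (Fin N) ℝ,
      (sA K m c P r k0 s' A V.1).fe ∂ν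
  have e1 : δ * (n + 1) / 2 * ((n + 1) * (C0 + 1)) = (n + 1) ^ 2 / 2 * (C0 + 1) * δ := by ring
  rw [e1] at hfin
  linarith only [hint, hfin]

end Vale.Agent.P166.L
end
end

section

section

/-! The reduction of the general formula to the upper bound for laws with finite support and an
approximate lower bound for laws on grids. -/

open MeasureTheory Finset Filter Topology Matrix

namespace Vale.Agent.P166.F

open Vale.Agent.P157 Conc

/-- Every compactly supported law is close to laws on fine grids. -/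
theorem grid_close {μ : Measure ℝ} [IsProbabilityMeasure μ] (hμ : IsCompact μ.support) {β : ℝ}
    (hβ : 0 < β) :
    ∃ M : ℝ, ∀ δ > 0, ∀ C : ℝ, 0 ≤ C → ∃ (n : ℕ) (a α : Fin (n + 1) → ℝ) (a0 h : ℝ),
      0 < h ∧ (∀ k, a k = a0 + h * (k : ℕ)) ∧ (∀ k, |a k| ≤ M) ∧ (∀ b, 0 < α b) ∧
      ∑ b, α b = 1 ∧ C * h / α (Fin.last n) ≤ δ ∧
      (∀ (k : ℕ) (m q : ℕ → ℝ), Expo k m → q 0 = 0 → (∀ l < k, q l ≤ q (l + 1)) → q k ≤ 1 →
        |specPart β (atoms a α) k m q - specPart β μ k m q| ≤ δ) ∧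
      (∀ t, ∫ x, max (x - t) 0 ∂μ ≤ ∫ x, max (x + δ - t) 0 ∂(atoms a α)) ∧
      ∀ t, ∫ x, max (x - t) 0 ∂(atoms a α) ≤ ∫ x, max (x + δ - t) 0 ∂μ := by
  set t := sSup μ.support with ht
  set A := sInf μ.support - 1 with hA
  have hinf : sInf μ.support ≤ t := rt2_inf_le_sup hμ
  have hAt : A < t := by linarith only [hinf]
  have hAs : A < sInf μ.support := by linarith
  have := grd_prob hAt
  have hσ := grd_mem hAt
  refine ⟨|A| + |t|, fun δ hδ C hC => ?_⟩
  obtain ⟨e1, he1, he1', h1⟩ := Rt_mix (σ := grd A t) hμ hσ hβ (show 0 < δ / β by positivity)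
  obtain ⟨e2, he2, he2', h2⟩ := icx_mix (σ := grd A t) hμ hσ (half_pos hδ)
  set ε := min e1 e2 with hε
  have hε0 : 0 < ε := lt_min he1 he2
  have hε1 : ε < 1 := (min_le_left _ _).trans_lt he1'
  have := mixm_prob (μ := μ) (σ := grd A t) hε0.le hε1.le
  obtain ⟨hcm, hsm⟩ := mixm_compact (σ := grd A t) hμ hσ hε0 hε1
  -- the mesh
  obtain ⟨n, hn⟩ := exists_nat_gt ((t - A) / (min (min (δ / β) (δ / 2)) (δ * ε / (2 * (C + 1)))))
  set η := min (min (δ / β) (δ / 2)) (δ * ε / (2 * (C + 1))) with hη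
  have hη0 : 0 < η := lt_min (lt_min (by positivity) (by positivity)) (by (clear * - hδ he1 he2 hC; positivity))
  set h : ℝ := (t - A) / (n + 1) with hh
  have htA : 0 < t - A := by linarith only [hinf]
  have hh0 : 0 < h := by (clear * - hAt; positivity)
  have hhη : h ≤ η := by
    rw [div_lt_iff₀ hη0] at hn
    rw [hh, div_le_iff₀ (by (clear * -; positivity))]
    nlinarith only [hn, hη0]
  have hhe : h * (n + 1) = t - A := by rw [hh]; (clear * - htA; field_simp)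
  obtain ⟨α, hα, hα1, hαn, hmap⟩ := grid_atoms hμ hAs n hε0 hε1 hh
  set T : ℝ → ℝ := fun x => A + h * (⌈(x - A) / h⌉ : ℝ) with hT
  have hTm : Measurable T := by
    have h3 := round_meas h
    exact (measurable_const.add (h3.comp (measurable_id.sub_const A)))
  have hT1 : ∀ x, x ≤ T x := fun x => by
    have := round_le hh0 (x - A)
    simp only [hT]
    linarith only [this]
  have hT2 : ∀ x, T x ≤ x + h := fun x => by
    have := round_ge hh0 (x - A)
    simp only [hT]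
    linarith only [this]
  set a : Fin (n + 1) → ℝ := fun k => A + h * ((k : ℝ) + 1) with ha
  have hpm : IsProbabilityMeasure ((mixm ε μ (grd A t)).map T) :=
    Measure.isProbabilityMeasure_map hTm.aemeasurable
  have hcT : IsCompact ((mixm ε μ (grd A t)).map T).support := map_compact hcm hTm hT1 hT2
  have hmap' : (mixm ε μ (grd A t)).map T = atoms a α := hmap
  have : IsProbabilityMeasure (atoms a α) := hmap' ▸ hpm
  have hcT' : IsCompact (atoms a α).support := hmap' ▸ hcT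
  refine ⟨n, a, α, A + h, h, hh0, ?_, ?_, hα, hα1, ?_, ?_, ?_, ?_⟩
  · intro k
    simp only [ha]
    ring
  · intro k
    have hk : ((k : ℕ) : ℝ) + 1 ≤ n + 1 := by
      have := Nat.lt_succ_iff.1 k.2
      have : ((k : ℕ) : ℝ) ≤ n := by exact_mod_cast this
      linarith only [this]
    have hk0 : (0 : ℝ) ≤ ((k : ℕ) : ℝ) + 1 := by (clear * -; positivity)
    have h3 : h * (((k : ℕ) : ℝ) + 1) ≤ t - A := by
      rw [← hhe]; exact mul_le_mul_of_nonneg_left hk hh0.le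
    have h4 : 0 ≤ h * (((k : ℕ) : ℝ) + 1) := by (clear * - hAt; positivity)
    have h5 : a k = A + h * (((k : ℕ) : ℝ) + 1) := rfl
    rw [h5, abs_le]
    constructor
    · have := neg_abs_le A
      have := abs_nonneg t
      (clear β hβ ht hA hAs hσ δ hδ C hC h1 he2' h2 hε hcm hsm η hn hη hη0 hh htA hh0 hhη hhe hα hα1 hαn hT hT1 hT2 ha hcT hcT' hk hk0 h3 h5; linarith)
    · have := le_abs_self t
      have := abs_nonneg A
      (clear β hβ ht hA hAs hσ δ hδ C hC h1 he2' h2 hε hcm hsm η hn hη hη0 hhη hα hα1 hαn hT hT1 hT2 ha hcT hcT' hk0 h4 h5; linarith)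
  · have hαn0 : 0 < α (Fin.last n) := hα _
    rw [div_le_iff₀ hαn0]
    have h3 : h ≤ δ * ε / (2 * (C + 1)) := hhη.trans (min_le_right _ _)
    rw [le_div_iff₀ (by (clear * - hC; positivity))] at h3
    nlinarith only [hh0, h3, hαn, hδ]
  · intro k m q hm hq0 hq hq1
    have h3 := specPart_map hcm hTm hT1 hT2 hβ hm hq0 hq hq1
    have h4 := specPart_close (μ' := mixm ε μ (grd A t)) hμ hcm hβ (δ := δ / β)
      (h1 ε hε0 (min_le_left _ _)) hm hq0 hq hq1
    rw [hmap'] at h3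
    have h5 : β / 2 * (δ / β) = δ / 2 := by (clear * - hβ hδ; field_simp)
    have h6 : β / 2 * h ≤ δ / 2 := by
      have h7 : h ≤ δ / β := hhη.trans ((min_le_left _ _).trans (min_le_left _ _))
      rw [← h5]
      (clear * - h7 hβ; gcongr)
    rw [h5, abs_le] at h4
    rw [abs_le]
    constructor
    · linarith only [h3, h4]
    · linarith only [h3, h4, h6]
  · intro s
    have h3 := (h2 ε hε0 (min_le_right _ _) s).1
    have h4 := (map_icx hcm hTm hT1 hT2 (s - δ / 2)).1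
    rw [hmap'] at h4
    have e1 : (fun x : ℝ => max (x - (s - δ / 2)) 0) = fun x => max (x + δ / 2 - s) 0 := by
      funext x; congr 1; ring
    rw [e1] at h4
    refine (h3.trans h4).trans ?_
    have e2 : (fun x : ℝ => max (x + 0 - (s - δ / 2)) 0) = fun x => max (x - (s - δ / 2)) 0 := by
      funext x; congr 1; ring
    have e3 : (fun x : ℝ => max (x + δ - s) 0) = fun x => max (x - (s - δ)) 0 := by
      funext x; congr 1; ring
    rw [e2, e3]
    exact integral_mono (round_int hcT' _) (round_int hcT' _) fun x =>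
      max_le_max (by linarith only [hδ]) le_rfl
  · intro s
    have h3 := (map_icx hcm hTm hT1 hT2 s).2
    rw [hmap'] at h3
    have h4 := (h2 ε hε0 (min_le_right _ _) (s - h)).2
    have e1 : (fun x : ℝ => max (x - (s - h)) 0) = fun x => max (x + h - s) 0 := by
      funext x; congr 1; ring
    rw [e1] at h4
    refine (h3.trans h4).trans ?_
    have e2 : (fun x : ℝ => max (x + δ / 2 - (s - h)) 0) =
        fun x => max (x - (s - h - δ / 2)) 0 := by
      funext x; congr 1; ring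
    have e3 : (fun x : ℝ => max (x + δ - s) 0) = fun x => max (x - (s - δ)) 0 := by
      funext x; congr 1; ring
    rw [e2, e3]
    have h5 : h ≤ δ / 2 := hhη.trans ((min_le_left _ _).trans (min_le_right _ _))
    exact integral_mono (round_int hμ _) (round_int hμ _) fun x =>
      max_le_max (by linarith only [h5]) le_rfl

/-- Convergence from approximate bounds. -/
theorem conv_of_approx {x : ℕ → ℝ} {V : Set ℝ} {C : ℝ} (hb : ∀ᶠ N in atTop, |x N| ≤ C)
    (h1 : ∀ δ > 0, ∀ y ∈ V, ∀ᶠ N in atTop, x N ≤ y + δ)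
    (h2 : ∀ δ > 0, ∀ᶠ N in atTop, ∃ y ∈ V, y ≤ x N + δ) :
    ∃ p, IsGLB V p ∧ Tendsto x atTop (𝓝 p) := by
  obtain ⟨N1, hN1⟩ := (h2 1 one_pos).exists
  obtain ⟨y1, hy1, -⟩ := hN1
  have hbdd : ∀ y ∈ V, -C - 1 ≤ y := by
    intro y hy
    obtain ⟨N, hN, hN'⟩ := ((h1 1 one_pos y hy).and hb).exists
    have := (abs_le.1 hN').1
    linarith only [hN, this]
  have hB : BddBelow V := ⟨-C - 1, hbdd⟩
  refine ⟨sInf V, isGLB_csInf ⟨y1, hy1⟩ hB, ?_⟩
  rw [Metric.tendsto_atTop]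
  intro ε hε
  obtain ⟨y, hy, hyε⟩ := exists_lt_of_csInf_lt ⟨y1, hy1⟩
    (show sInf V < sInf V + ε / 2 by linarith only [hε])
  obtain ⟨N0, hN0⟩ := eventually_atTop.1 ((h1 (ε / 4) (by linarith only [hε]) y hy).and
    (h2 (ε / 2) (by linarith only [hε])))
  refine ⟨N0, fun N hN => ?_⟩
  obtain ⟨h3, y', hy', h4⟩ := hN0 N hN
  have h5 := csInf_le hB hy'
  rw [Real.dist_eq, abs_lt]
  constructor <;> linarith only [hε, h4, h5, hyε, h3]

/-- The values change by at most `δ` if the spectral parts do. -/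
theorem vals_close {β δ : ℝ} {μ μ' : Measure ℝ}
    (h : ∀ (k : ℕ) (m q : ℕ → ℝ), Expo k m → q 0 = 0 → (∀ l < k, q l ≤ q (l + 1)) → q k ≤ 1 →
      |specPart β μ' k m q - specPart β μ k m q| ≤ δ) {y : ℝ} (hy : y ∈ vals β μ) :
    ∃ y' ∈ vals β μ', |y' - y| ≤ δ := by
  obtain ⟨k, m, q, hm, hq, hq0, hq1, hy⟩ := hy
  refine ⟨_, ⟨k, m, q, hm, hq, hq0, hq1,
    isLUB_shift (fun r => Jf_eq β μ μ' k m q r) hy⟩, ?_⟩
  have := h k m q (exponents_expo hm) hq0 hq.2 hq1.le
  simpa only [add_sub_cancel_left, ge_iff_le] using this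

section Main

variable [∀ N, MeasurableSpace (OG N)] [∀ N, BorelSpace (OG N)]
  (ν : (N : ℕ) → Measure (OG N)) [∀ N, IsProbabilityMeasure (ν N)]
  [∀ N, (ν N).IsMulLeftInvariant]

/-- The approximate lower bound for laws on grids (independent types). -/
def LBg (β : ℝ) : Prop :=
  ∀ M : ℝ, ∃ C : ℝ, 0 ≤ C ∧ ∀ (n : ℕ) (a α : Fin (n + 1) → ℝ) (a0 h : ℝ), 0 < h →
    (∀ k, a k = a0 + h * (k : ℕ)) → (∀ k, |a k| ≤ M) → (∀ b, 0 < α b) → ∑ b, α b = 1 →
    ∀ ε > 0, ∀ᶠ N in atTop, ∃ y ∈ vals β (atoms a α),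
      y ≤ ∑ c : Fin N → Fin (n + 1), wt α c * mp ν β a N c + ε + C * h / α (Fin.last n)

/-- **Convergence of the mean pressures.** -/
theorem mean_of_grid {β : ℝ} (hβ : 0 < β) (hU : UBf ν β) (hL : LBg ν β) (μ : Measure ℝ)
    [IsProbabilityMeasure μ] (hμ : IsCompact μ.support) :
    ∃ p : ℝ, IsGLB (vals β μ) p ∧ ∀ Λ : (N : ℕ) → Fin N → ℝ, Admissible Λ μ →
      Tendsto (fun N => ∫ U, pressure N β (U.1ᵀ * diagonal (Λ N) * U.1) ∂(ν N)) atTop (𝓝 p) := by
  obtain ⟨M, hM⟩ := grid_close hμ hβ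
  obtain ⟨C, hC, hLC⟩ := hL M
  have key : ∀ Λ : (N : ℕ) → Fin N → ℝ, Admissible Λ μ → ∃ p : ℝ, IsGLB (vals β μ) p ∧
      Tendsto (fun N => ∫ U, pressure N β (U.1ᵀ * diagonal (Λ N) * U.1) ∂(ν N)) atTop (𝓝 p) := by
    intro Λ hΛ
    -- the comparison at precision `δ`
    have main : ∀ δ > 0, (∀ y ∈ vals β μ, ∀ᶠ N : ℕ in atTop,
        ∫ U, pressure N β (U.1ᵀ * diagonal (Λ N) * U.1) ∂(ν N) ≤ y + (3 + β) * δ) ∧
        (∀ᶠ N : ℕ in atTop, ∃ y ∈ vals β μ,
          y ≤ ∫ U, pressure N β (U.1ᵀ * diagonal (Λ N) * U.1) ∂(ν N) + (5 + β) * δ) ∧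
        ∃ Cb, ∀ᶠ N : ℕ in atTop,
          |∫ U, pressure N β (U.1ᵀ * diagonal (Λ N) * U.1) ∂(ν N)| ≤ Cb := by
      intro δ hδ
      obtain ⟨n, a, α, a0, h, hh, ha, haM, hα, hα1, hCh, hspec, hic1, hic2⟩ := hM δ hδ C hC
      have hmono : StrictMono a := by
        intro i j hij
        rw [ha, ha]
        have : ((i : ℕ) : ℝ) < (j : ℕ) := by exact_mod_cast hij
        nlinarith only [hh, this]
      obtain ⟨c, hc⟩ := exists_blocks α hα hα1
      have := atoms_prob (a := a) hα hα1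
      have hcomp : IsCompact (atoms a α).support := by
        rw [atoms_support hα]
        exact (Set.finite_range a).isCompact
      have hadm := fun c hc => admissible_blocks a α hmono hα hα1 c hc
      obtain ⟨C', hC'⟩ := mp_bound ν hβ.le a
      have hrand := random_types α hα hα1 (fun N c => mp ν β a N c) hC'
        (fun c c' hc hc' => mean_universal ν hβ.le (atoms a α) hcomp _ _ (hadm c' hc')
          (hadm c hc)) c hc
      have hA := mean_compare ν hβ.le (atoms a α) μ hcomp hμ _ Λ (hadm c hc) hΛ δ hic1 δ hδ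
      have hB := mean_compare ν hβ.le μ (atoms a α) hμ hcomp Λ _ hΛ (hadm c hc) δ hic2 δ hδ
      refine ⟨?_, ?_, ?_⟩
      · intro y hy
        obtain ⟨y', hy', hyy⟩ := vals_close hspec hy
        filter_upwards [hA, hU n a α hmono hα hα1 c hc y' hy' δ hδ] with N h3 h4
        have h5 : mp ν β a N (c N) =
          ∫ U, pressure N β (U.1ᵀ * diagonal (fun i => a (c N i)) * U.1) ∂(ν N) := rfl
        rw [← h5] at h3
        rw [abs_le] at hyy
        nlinarith only [hyy, h3, h4, hβ]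
      · rw [Metric.tendsto_atTop'] at hrand
        obtain ⟨N0, hN0⟩ := hrand δ hδ
        filter_upwards [hB, hLC n a α a0 h hh ha haM hα hα1 δ hδ, eventually_gt_atTop N0]
          with N h3 ⟨y', hy', h4⟩ hN
        have hspec' : ∀ (k : ℕ) (m q : ℕ → ℝ), Expo k m → q 0 = 0 →
            (∀ l < k, q l ≤ q (l + 1)) → q k ≤ 1 →
            |specPart β μ k m q - specPart β (atoms a α) k m q| ≤ δ := fun k m q h1 h2 h3 h4 => by
          rw [abs_sub_comm]; exact hspec k m q h1 h2 h3 h4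
        obtain ⟨y, hy, hyy⟩ := vals_close hspec' hy'
        refine ⟨y, hy, ?_⟩
        have h5 : mp ν β a N (c N) =
          ∫ U, pressure N β (U.1ᵀ * diagonal (fun i => a (c N i)) * U.1) ∂(ν N) := rfl
        rw [← h5] at h3
        have h6 := hN0 N hN
        rw [Real.dist_eq, sub_zero, abs_lt] at h6
        rw [abs_le] at hyy
        have h7 := h6.2
        nlinarith only [hCh, h3, h4, hyy, h6, hβ, hδ]
      · refine ⟨C' + β / 2 * δ + δ, ?_⟩
        filter_upwards [hA, hB] with N h3 h4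
        have h5 : mp ν β a N (c N) =
          ∫ U, pressure N β (U.1ᵀ * diagonal (fun i => a (c N i)) * U.1) ∂(ν N) := rfl
        rw [← h5] at h3 h4
        have h6 := abs_le.1 (hC' N (c N))
        rw [abs_le]
        constructor <;> linarith only [h3, h6, h4]
    obtain ⟨-, -, Cb, hCb⟩ := main 1 one_pos
    have hb0 : 0 < 5 + β := by linarith
    refine conv_of_approx hCb (fun δ hδ y hy => ?_) (fun δ hδ => ?_)
    · have h1 := (main (δ / (5 + β)) (by positivity)).1 y hy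
      filter_upwards [h1] with N hN
      have h2 : (3 + β) * (δ / (5 + β)) ≤ δ := by
        rw [mul_div_assoc', div_le_iff₀ hb0]
        nlinarith only [hδ]
      linarith
    · have h1 := (main (δ / (5 + β)) (by positivity)).2.1
      have h2 : (5 + β) * (δ / (5 + β)) = δ := by field_simp
      rw [h2] at h1
      exact h1
  -- independence of the array
  have hglb : ∃ p, IsGLB (vals β μ) p := by
    obtain ⟨n, a, α, a0, h, hh, ha, haM, hα, hα1, hCh, hspec, hic1, hic2⟩ := hM 1 one_pos C hC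
    have hmono : StrictMono a := by
      intro i j hij
      rw [ha, ha]
      have : ((i : ℕ) : ℝ) < (j : ℕ) := by exact_mod_cast hij
      nlinarith only [hh, this]
    obtain ⟨c, hc⟩ := exists_blocks α hα hα1
    obtain ⟨C', hC'⟩ := mp_bound ν hβ.le a
    obtain ⟨N, y', hy', -⟩ := (hLC n a α a0 h hh ha haM hα hα1 1 one_pos).exists
    have hspec' : ∀ (k : ℕ) (m q : ℕ → ℝ), Expo k m → q 0 = 0 →
        (∀ l < k, q l ≤ q (l + 1)) → q k ≤ 1 →
        |specPart β μ k m q - specPart β (atoms a α) k m q| ≤ 1 := fun k m q h1 h2 h3 h4 => by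
      rw [abs_sub_comm]; exact hspec k m q h1 h2 h3 h4
    obtain ⟨y, hy, -⟩ := vals_close hspec' hy'
    refine ⟨sInf (vals β μ), isGLB_csInf ⟨y, hy⟩ ⟨-C' - 2, fun z hz => ?_⟩⟩
    obtain ⟨z', hz', hzz⟩ := vals_close hspec hz
    obtain ⟨N, hN⟩ := (hU n a α hmono hα hα1 c hc z' hz' 1 one_pos).exists
    have h6 := (abs_le.1 (hC' N (c N))).1
    rw [abs_le] at hzz
    linarith only [hzz, hN, h6]
  obtain ⟨p, hp⟩ := hglb
  refine ⟨p, hp, fun Λ hΛ => ?_⟩
  obtain ⟨p', hp', h1⟩ := key Λ hΛ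
  rwa [hp.unique hp']

end Main

end Vale.Agent.P166.F
end
end

section

section

/-!
P166, lower bound: the value of the system with a Gaussian cavity field.
-/

open MeasureTheory ProbabilityTheory Matrix Filter Topology

namespace Vale.Agent.P166.L

open Vale.Agent.P157 (spin)
open Vale.Agent.P157.Lv Vale.Agent.P157.Par Md H U
open Vale.Agent.P166.F (Gsp)

variable {N K n : ℕ} {m : ℕ → ℝ}

/-- The one-spin system with the fields of strengths `s'` and `t`. -/
noncomputable def os (K : ℕ) (m s' t : ℕ → ℝ) : Sy (Fin (K + 1) ⊕ Fin (K + 1)) Bool where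
  lev := Sum.elim (fun l => l) fun l => l
  K := K
  m := m
  H := fun z x => sg1 x * ∑ l ∈ Finset.range (K + 1),
    (s' l * z (Sum.inl (Fin.ofNat (K + 1) l)) + t l * z (Sum.inr (Fin.ofNat (K + 1) l)))

theorem v0_rot (p q : ℝ) : ∃ a b : ℝ, a ^ 2 + b ^ 2 = 1 ∧ √(q ^ 2 + p ^ 2) * a = p ∧
    √(q ^ 2 + p ^ 2) * b = q := by
  by_cases h : q ^ 2 + p ^ 2 = 0
  · have hp : p = 0 := by nlinarith [sq_nonneg p, sq_nonneg q]
    have hq : q = 0 := by nlinarith [sq_nonneg p, sq_nonneg q]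
    refine ⟨1, 0, by norm_num, ?_, ?_⟩
    · rw [h, hp]; simp
    · rw [hq]; simp
  · have hpos : 0 < q ^ 2 + p ^ 2 := lt_of_le_of_ne (by positivity) (Ne.symm h)
    have hc : 0 < √(q ^ 2 + p ^ 2) := Real.sqrt_pos.2 hpos
    refine ⟨p / √(q ^ 2 + p ^ 2), q / √(q ^ 2 + p ^ 2), ?_, ?_, ?_⟩
    · rw [div_pow, div_pow, Real.sq_sqrt hpos.le, ← add_div, add_comm, div_self h]
    · field_simp
    · field_simp

/-- The rotation of the two fields of each level. -/
noncomputable def v0_rho (K : ℕ) (a b : ℕ → ℝ) : (Fin (K + 1) ⊕ Fin (K + 1) → ℝ) →ₗ[ℝ]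
    (Fin (K + 1) ⊕ Fin (K + 1) → ℝ) where
  toFun := fun z => Sum.elim (fun l => a l * z (Sum.inl l) + b l * z (Sum.inr l))
    fun l => -(b l) * z (Sum.inl l) + a l * z (Sum.inr l)
  map_add' := fun z w => by
    funext e
    rcases e with e | e <;> simp <;> ring
  map_smul' := fun r z => by
    funext e
    rcases e with e | e <;> simp <;> ring

/-- The relabelling of the coordinates. -/
def v0_f (K : ℕ) (e : Ix 1 K) : Fin (K + 1) ⊕ Fin (K + 1) := if e.2.1 then Sum.inl e.1 else Sum.inr e.1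

theorem v0_f_inj : Function.Injective (v0_f K) := by
  rintro ⟨l, b, i⟩ ⟨l', b', i'⟩ h
  have hi : i = i' := Subsingleton.elim _ _
  cases b <;> cases b' <;> simp_all [v0_f]

theorem v0_mix (a b : ℕ → ℝ) (l : ℕ) (z w : Fin (K + 1) ⊕ Fin (K + 1) → ℝ) (e : Ix 1 K) :
    (if (e.1 : ℕ) ≤ l then v0_rho K a b z (v0_f K e) else v0_rho K a b w (v0_f K e)) =
      v0_rho K a b (fun e' => if (Sum.elim (fun l : Fin (K + 1) => (l : ℕ))
        (fun l : Fin (K + 1) => (l : ℕ)) e') ≤ l then z e' else w e') (v0_f K e) := by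
  obtain ⟨j, b', i⟩ := e
  by_cases hj : (j : ℕ) ≤ l
  · rw [if_pos hj]
    cases b' <;> simp only [v0_f, v0_rho, LinearMap.coe_mk, AddHom.coe_mk, Sum.elim_inl,
      Sum.elim_inr, if_true, if_false, Bool.false_eq_true, hj]
  · rw [if_neg hj]
    cases b' <;> simp only [v0_f, v0_rho, LinearMap.coe_mk, AddHom.coe_mk, Sum.elim_inl,
      Sum.elim_inr, if_true, if_false, Bool.false_eq_true, hj]

theorem v0_energy {s' t c a b : ℕ → ℝ} (h1 : ∀ l, c l * a l = s' l) (h2 : ∀ l, c l * b l = t l)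
    (z : Fin (K + 1) ⊕ Fin (K + 1) → ℝ) (x : Bool) :
    sg1 x * ∑ l ∈ Finset.range (K + 1),
      (s' l * z (Sum.inl (Fin.ofNat (K + 1) l)) + t l * z (Sum.inr (Fin.ofNat (K + 1) l))) =
    Md.en (fun _ : Fin 1 => (0 : Fin 1)) ⟨0, c, 0⟩ (1 : Matrix (Fin 1) (Fin 1) ℝ)
      (fun e : Ix 1 K => v0_rho K a b z (v0_f K e)) ((Equiv.funUnique (Fin 1) Bool).symm x) := by
  unfold Md.en
  have e1 : ∀ l ∈ Finset.range (K + 1), s' l * z (Sum.inl (Fin.ofNat (K + 1) l)) +
      t l * z (Sum.inr (Fin.ofNat (K + 1) l)) = c l *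
        v0_rho K a b z (Sum.inl (Fin.ofNat (K + 1) l)) := by
    intro l hl
    have hl' : l ≤ K := Nat.lt_succ_iff.1 (Finset.mem_range.1 hl)
    have h3 : ((Fin.ofNat (K + 1) l : Fin (K + 1)) : ℕ) = l := mdl_ofNat hl'
    have h4 : v0_rho K a b z (Sum.inl (Fin.ofNat (K + 1) l)) =
      a (Fin.ofNat (K + 1) l : Fin (K + 1)) * z (Sum.inl (Fin.ofNat (K + 1) l)) +
        b (Fin.ofNat (K + 1) l : Fin (K + 1)) * z (Sum.inr (Fin.ofNat (K + 1) l)) := rfl
    rw [h4, h3, ← h1, ← h2]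
    ring
  rw [Finset.sum_congr rfl e1, Finset.mul_sum]
  simp only [Pi.zero_apply, zero_div, zero_mul, Finset.sum_const_zero, zero_add, add_zero]
  refine Finset.sum_congr rfl fun l _ => ?_
  rw [Fin.sum_univ_one]
  have h4 : spin ((Equiv.funUnique (Fin 1) Bool).symm x) 0 = sg1 x := rfl
  have h5 : v0_f K (sco l (0 : Fin 1)) = Sum.inl (Fin.ofNat (K + 1) l) := rfl
  rw [h4, h5]
  ring

theorem v0_os_fe (hm : Exponents K m) {s' t c a b : ℕ → ℝ} (hab : ∀ l, a l ^ 2 + b l ^ 2 = 1)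
    (h1 : ∀ l, c l * a l = s' l) (h2 : ∀ l, c l * b l = t l) :
    (os K m s' t).fe = F.sgF K m c := by
  have hiso := gauss_iso (v0_rho K a b) (fun z => by
    rw [Fintype.sum_sum_type, Fintype.sum_sum_type, ← Finset.sum_add_distrib,
      ← Finset.sum_add_distrib]
    refine Finset.sum_congr rfl fun l _ => ?_
    show (a l * z (Sum.inl l) + b l * z (Sum.inr l)) ^ 2 +
      (-(b l) * z (Sum.inl l) + a l * z (Sum.inr l)) ^ 2 = _
    linear_combination (z (Sum.inl l) ^ 2 + z (Sum.inr l) ^ 2) * hab l)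
  have hmeas : Measurable (v0_rho K a b : (Fin (K + 1) ⊕ Fin (K + 1) → ℝ) →
      (Fin (K + 1) ⊕ Fin (K + 1) → ℝ)) := by
    exact (v0_rho K a b).continuous_of_finiteDimensional.measurable
  have hres := gI_restrict (v0_f_inj (K := K))
  have hm2 : Measurable fun (z : Fin (K + 1) ⊕ Fin (K + 1) → ℝ) (e : Ix 1 K) => z (v0_f K e) := by
    fun_prop
  have hmap : (gI (Fin (K + 1) ⊕ Fin (K + 1))).map
      (fun z (e : Ix 1 K) => v0_rho K a b z (v0_f K e)) = gI (Ix 1 K) := by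
    have h3 := Measure.map_map (μ := gI (Fin (K + 1) ⊕ Fin (K + 1))) hm2 hmeas
    rw [hiso, hres] at h3
    rw [h3]
    rfl
  have hR := (mdl_regD (K := K) (m := m) (c := fun _ : Fin 1 => (0 : Fin 1)) (P := ⟨0, c, 0⟩)
    (U := 1) hm).toReg
  have hPB : PB (mdl K m (fun _ : Fin 1 => (0 : Fin 1)) ⟨0, c, 0⟩ 1) (os K m s' t)
      (fun z e => v0_rho K a b z (v0_f K e)) (Equiv.funUnique (Fin 1) Bool).symm := by
    refine ⟨hm2.comp hmeas, ?_, ?_, rfl, fun _ _ => rfl, ?_⟩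
    · exact hmap
    · intro l z w
      funext e
      exact v0_mix a b l z w e
    · intro z x
      exact v0_energy h1 h2 z x
  exact PB.fe (RegG.of_reg hR) hPB

/-- Rotation of the two fields of each level into one field of strength `√(s'^2 + t^2)` (`PB`), and
`F.sg_fe` with one site. -/
theorem os_fe (hm : Exponents K m) {rr s' : ℕ → ℝ} (hrr0 : rr 0 = 0)
    (hrr : ∀ l < K, rr l ≤ rr (l + 1)) (hs0 : s' 0 = 0) :
    (os K m s' (tcov 1 rr)).fe = Real.log 2 + 1 / 2 * rr K + Gsp K m rr s' := by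
  choose a b hab h1 h2 using fun l => v0_rot (s' l) (tcov 1 rr l)
  rw [v0_os_fe hm hab h1 h2]
  have ht : ∀ i ≤ K, ∑ j ∈ Finset.range (i + 1), tcov 1 rr j ^ 2 = rr i := by
    intro i
    induction i with
    | zero =>
      intro _
      have h5 : tcov 1 rr 0 = 0 := rfl
      simp [h5, hrr0]
    | succ i ih =>
      intro hi
      rw [Finset.sum_range_succ, ih (by omega)]
      show rr i + (1 * √(rr (i + 1) - rr i)) ^ 2 = rr (i + 1)
      rw [one_mul, Real.sq_sqrt (sub_nonneg.2 (hrr i (by omega)))]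
      ring
  have hsq : ∀ i ≤ K, ∑ j ∈ Finset.range (i + 1), √(tcov 1 rr j ^ 2 + s' j ^ 2) ^ 2 =
      rr i + ∑ j ∈ Finset.range (i + 1), s' j ^ 2 := by
    intro i hi
    rw [← ht i hi, ← Finset.sum_add_distrib]
    exact Finset.sum_congr rfl fun j _ => Real.sq_sqrt (by positivity)
  rw [F.sg_value hm fun j _ => Real.sqrt_nonneg _, hsq K le_rfl,
    F.sg_spinPart_congr (r := fun l => ∑ j ∈ Finset.range (l + 1), √(tcov 1 rr j ^ 2 + s' j ^ 2) ^ 2)
      (r' := fun l => rr l + ∑ j ∈ Finset.range (l + 1), s' j ^ 2) (fun i hi => hsq i hi)]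
  unfold Gsp
  ring

theorem v0_os_reg (hm : Exponents K m) (s' t : ℕ → ℝ) : (os K m s' t).Reg := by
  obtain ⟨h0, h1, h2⟩ := hm
  refine ⟨h0, h1, fun l hl => (h2 l hl).le, ?_, ?_, fun x => ?_⟩
  · have := h2 0 (Nat.zero_le _)
    rwa [h0] at this
  · rintro (l | l)
    · exact Nat.lt_succ_iff.1 l.2
    · exact Nat.lt_succ_iff.1 l.2
  · show Lip fun z : Fin (K + 1) ⊕ Fin (K + 1) → ℝ => sg1 x * ∑ l ∈ Finset.range (K + 1),
      (s' l * z (Sum.inl (Fin.ofNat (K + 1) l)) + t l * z (Sum.inr (Fin.ofNat (K + 1) l)))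
    exact Lip.const_mul (Lip.sum _ fun l _ => Lip.add ((Lip.coord _).const_mul _)
      ((Lip.coord _).const_mul _)) _

theorem v0_lip_restrict {ι ι' : Type} [Fintype ι] [Fintype ι'] (f : ι → ι') {G : (ι → ℝ) → ℝ}
    (hG : Lip G) : Lip fun z : ι' → ℝ => G fun e => z (f e) := by
  obtain ⟨L, hL, h⟩ := hG
  refine ⟨L, hL, fun y y' => (h _ _).trans (mul_le_mul_of_nonneg_left ?_ hL)⟩
  rw [pi_norm_le_iff_of_nonneg (norm_nonneg _)]
  exact fun e => norm_le_pi_norm (y - y') (f e)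

theorem v0_pr2_reg {ι ι' X X' : Type} [Fintype ι] [Fintype ι'] [Fintype X] [Fintype X']
    {S : Sy ι X} {S' : Sy ι' X'} (hS : S.Reg) (hS' : S'.Reg) (hK : S'.K = S.K) :
    (pr2 S S').Reg := by
  refine ⟨hS.m0, hS.mK, hS.mono, hS.pos, ?_, fun x => ?_⟩
  · rintro (e | e)
    · exact hS.lev e
    · exact (hS'.lev e).trans hK.le
  · exact (v0_lip_restrict Sum.inl (hS.lip x.1)).add (v0_lip_restrict Sum.inr (hS'.lip x.2))

/-- The relabelling of the coordinates. -/
def v0_g (N K : ℕ) : Ix N K ⊕ (Fin (K + 1) ⊕ Fin (K + 1)) → Ie N K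
  | Sum.inl e => Sum.inl (e.1, e.2.1, e.2.2.succ)
  | Sum.inr (Sum.inl l) => Sum.inl (l, true, 0)
  | Sum.inr (Sum.inr l) => Sum.inr l

theorem v0_g_inj : Function.Injective (v0_g N K) := by
  rintro (⟨l, b, i⟩ | l | l) (⟨l', b', i'⟩ | l' | l') h
  · simp only [v0_g, Sum.inl.injEq, Prod.mk.injEq, Fin.succ_inj] at h
    obtain ⟨rfl, rfl, rfl⟩ := h
    rfl
  · simp only [v0_g, Sum.inl.injEq, Prod.mk.injEq] at h
    exact absurd h.2.2 (Fin.succ_ne_zero _)
  · simp [v0_g] at h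
  · simp only [v0_g, Sum.inl.injEq, Prod.mk.injEq] at h
    exact absurd h.2.2.symm (Fin.succ_ne_zero _)
  · simp only [v0_g, Sum.inl.injEq, Prod.mk.injEq] at h
    rw [h.1]
  · simp [v0_g] at h
  · simp [v0_g] at h
  · simp [v0_g] at h
  · simp only [v0_g, Sum.inr.injEq] at h
    rw [h]

/-- The system `MP .. 0 1` is the product of `nmu` and of the one-spin system (`pr2_fe`, `PB`). -/
theorem val0_U (hm : Exponents K m) (c : Fin N → Fin (n + 1)) {w : Fin n → Fin N}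
    (hw : Function.Injective w) (P : Pm (n + 1)) (μ g : Fin n → ℝ) (mb rd : ℝ) (rr s' : ℕ → ℝ)
    (U : Matrix (Fin N) (Fin N) ℝ) :
    ((egs K m (MP K c w P μ g mb rd rr s' 0 1)).sy U).fe =
      ((nmu K m c P w μ).sy U).fe + (os K m s' (tcov 1 rr)).fe + (1 / 2 * mb +
        1 / 2 * (rd - rr K)) := by
  set C : ℝ := 1 / 2 * mb + 1 / 2 * (rd - rr K) with hC
  set E : EPm N := MP K c w P μ g mb rd rr s' 0 1 with hE
  set E' : EPm N := { E with c0 := 0 } with hE'
  have hsh := (m3_fe_shift (egs_regD (K := K) (m := m) hm E' U) C).2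
  have e0 : (((egs K m E').sy U).wH fun z x => ((egs K m E').sy U).H z x + C) =
      (egs K m E).sy U := by
    unfold Sy.wH GS.sy
    congr 1
    funext z x
    show eE0 K E' z x + (egs K m E').ev (fun l i => z (bcE l i)) (U *ᵥ spin x.2) x + C =
      eE0 K E z x + (egs K m E).ev (fun l i => z (bcE l i)) (U *ᵥ spin x.2) x
    have e1 : (egs K m E').ev (fun l i => z (bcE l i)) (U *ᵥ spin x.2) x =
      (egs K m E).ev (fun l i => z (bcE l i)) (U *ᵥ spin x.2) x := rfl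
    rw [e1]
    unfold eE0
    have e2 : E.c0 = C := by
      rw [hE, hC]
      show 1 / 2 * mb + 1 / 2 * (1 : ℝ) ^ 2 * (rd - rr K) = _
      ring
    rw [e2]
    show (0 : ℝ) + _ + _ + _ + C = _
    ring
  rw [e0] at hsh
  rw [hsh]
  congr 1
  have hres := gI_restrict (v0_g_inj (N := N) (K := K))
  have hm2 : Measurable fun (z : Ie N K → ℝ) (e : Ix N K ⊕ (Fin (K + 1) ⊕ Fin (K + 1))) =>
      z (v0_g N K e) := by
    fun_prop
  have hR1 := (nmu_ok (K := K) hm c P w μ).reg U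
  have hR2 := v0_os_reg (K := K) hm s' (tcov 1 rr)
  have hR := v0_pr2_reg hR1 hR2 rfl
  have hPB : PB (pr2 ((nmu K m c P w μ).sy U) (os K m s' (tcov 1 rr))) ((egs K m E').sy U)
      (fun z e => z (v0_g N K e)) (Equiv.prodComm Bool (Fin N → Bool)) := by
    refine ⟨hm2, hres, ?_, rfl, fun _ _ => rfl, ?_⟩
    · intro l z w
      funext e
      rcases e with ⟨j, b', i⟩ | j | j <;> rfl
    · intro z x
      show eE0 K E' z x + (egs K m E').ev (fun l i => z (bcE l i)) (U *ᵥ spin x.2) x =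
        (∑ l ∈ Finset.range (K + 1), P.s l * ∑ i, z (scE l i) * spin x.2 i +
          (nmu K m c P w μ).ev (fun l i => z (bcE l i)) (U *ᵥ spin x.2) x.2) +
        sg1 x.1 * ∑ l ∈ Finset.range (K + 1),
          (s' l * z (ecE N K l) + tcov 1 rr l * z (zcE N K l))
      have ek : ∀ i, E'.kap i = 0 := by
        intro i
        show Function.extend w (fun j => 0 * g j) (fun _ => 0) i = 0
        unfold Function.extend
        split_ifs <;> simp
      have e1 : (egs K m E').ev (fun l i => z (bcE l i)) (U *ᵥ spin x.2) x =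
          (nmu K m c P w μ).ev (fun l i => z (bcE l i)) (U *ᵥ spin x.2) x.2 := by
        unfold GS.ev
        have e3 : ∀ i, (egs K m E').kap i x = (nmu K m c P w μ).kap i x.2 := fun i => by
          show E'.kap i * sg1 x.1 = 0
          rw [ek i, zero_mul]
        simp only [e3]
        rfl
      rw [e1]
      unfold eE0
      show (0 : ℝ) + ∑ l ∈ Finset.range (K + 1), P.s l * ∑ i, z (scE l i) * spin x.2 i +
        sg1 x.1 * ∑ l ∈ Finset.range (K + 1),
          (s' l * z (ecE N K l) + tcov 1 rr l * z (zcE N K l)) + _ = _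
      ring
  rw [PB.fe (RegG.of_reg hR) hPB]
  exact pr2_fe (RegG.of_reg hR1) (RegG.of_reg hR2) rfl rfl

theorem val0 [MeasurableSpace (orthogonalGroup (Fin N) ℝ)]
    [BorelSpace (orthogonalGroup (Fin N) ℝ)] (ν : Measure (orthogonalGroup (Fin N) ℝ))
    [IsProbabilityMeasure ν] (hm : Exponents K m) (c : Fin N → Fin (n + 1)) {w : Fin n → Fin N}
    (hw : Function.Injective w) (P : Pm (n + 1)) (μ g : Fin n → ℝ) (mb rd : ℝ) {rr s' : ℕ → ℝ}
    (hrr0 : rr 0 = 0) (hrr : ∀ l < K, rr l ≤ rr (l + 1)) (hs0 : s' 0 = 0) :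
    EF ν K m (MP K c w P μ g mb rd rr s' 0 1) =
      EU ν (fun U => ((nmu K m c P w μ).sy U).fe) + Real.log 2 + 1 / 2 * (mb + rd) +
        Gsp K m rr s' := by
  unfold EF EU
  simp only [val0_U hm c hw, os_fe hm hrr0 hrr hs0]
  have hi := int_gs_fe ν (nmu_ok (K := K) hm c P w μ)
  simp only [add_assoc]
  rw [integral_add hi (integrable_const _), integral_const, probReal_univ, one_smul]
  ring

end Vale.Agent.P166.L
end
end

section

section

/-! P166, lower bound: the masses of the blocks of a column are concentrated. -/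

set_option linter.all false

open MeasureTheory Matrix

namespace Vale.Agent.P166.L

open Conc ProbabilityTheory

variable {κ : ℕ}

/-! ### Exponential moments of a quadratic form of a Gaussian vector -/

lemma lt_num {y : ℝ} (h1 : -(1 / 2) ≤ y) (h2 : y ≤ 1 / 2) : Real.exp (-(y + y ^ 2)) ≤ 1 - y := by
  have h3 : 0 < Real.exp (y + y ^ 2) := Real.exp_pos _
  rw [Real.exp_neg, inv_le_comm₀ h3 (by linarith only [h2]), inv_le_iff_one_le_mul₀ (by linarith only [h2])]
  rcases le_total y 0 with h | h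
  · have h4 := Real.add_one_le_exp (y + y ^ 2)
    have h5 : (y + y ^ 2 + 1) * (1 - y) ≤ Real.exp (y + y ^ 2) * (1 - y) :=
      mul_le_mul_of_nonneg_right h4 (by linarith)
    have h6 : y ^ 3 ≤ 0 := by
      have : y ^ 3 = y * y ^ 2 := by ring
      rw [this]
      exact mul_nonpos_of_nonpos_of_nonneg h (sq_nonneg _)
    linarith only [h5, h6]
  · have h4 := Real.quadratic_le_exp_of_nonneg (x := y + y ^ 2) (by positivity)
    have h5 : (1 + (y + y ^ 2) + (y + y ^ 2) ^ 2 / 2) * (1 - y) ≤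
        Real.exp (y + y ^ 2) * (1 - y) :=
      mul_le_mul_of_nonneg_right h4 (by linarith only [h2])
    have h6 : 0 ≤ 1 - y - y ^ 2 - y ^ 3 := by
      have e1 : y ^ 2 ≤ y / 2 := by nlinarith only [h2, h]
      have e2 : y ^ 3 ≤ y / 4 := by nlinarith only [e1]
      linarith only [h2, e1, e2]
    have h7 : (1 + (y + y ^ 2) + (y + y ^ 2) ^ 2 / 2) * (1 - y) =
        1 + y ^ 2 * (1 - y - y ^ 2 - y ^ 3) / 2 := by ring
    have h8 : 0 ≤ y ^ 2 * (1 - y - y ^ 2 - y ^ 3) := mul_nonneg (sq_nonneg _) h6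
    linarith only [h5, h8]

lemma lt_one {c : ℝ} (hc : c < 1 / 2) :
    ∫ x, Real.exp (c * x ^ 2) ∂(gaussianReal 0 1) = (√(1 - 2 * c))⁻¹ := by
  rw [integral_gaussianReal_eq_integral_smul (by norm_num)]
  have h1 : ∀ x : ℝ, gaussianPDFReal 0 1 x • Real.exp (c * x ^ 2) =
      (√(2 * Real.pi))⁻¹ * Real.exp (-(1 / 2 - c) * x ^ 2) := by
    intro x
    rw [gaussianPDFReal, smul_eq_mul, mul_assoc, ← Real.exp_add]
    norm_num
    left
    ring
  simp_rw [h1]
  rw [integral_const_mul, integral_gaussian, ← Real.sqrt_inv, ← Real.sqrt_mul (by positivity),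
    ← Real.sqrt_inv]
  congr 1
  have h2 : 1 / 2 - c ≠ 0 := by linarith only [hc]
  have h3 : 1 - 2 * c ≠ 0 := by linarith only [hc]
  field_simp

lemma lt_one_le {c : ℝ} (h1 : -(1 / 4) ≤ c) (h2 : c ≤ 1 / 4) :
    ∫ x, Real.exp (c * x ^ 2) ∂(gaussianReal 0 1) ≤ Real.exp (c + 2 * c ^ 2) := by
  rw [lt_one (by linarith only [h2])]
  have h3 := lt_num (y := 2 * c) (by linarith only [h1]) (by linarith only [h2])
  have h4 : Real.exp (-(c + 2 * c ^ 2)) ≤ √(1 - 2 * c) := by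
    apply Real.le_sqrt_of_sq_le
    rw [← Real.exp_nat_mul]
    refine le_trans (le_of_eq ?_) h3
    congr 1
    push_cast
    ring
  have h5 : 0 < Real.exp (-(c + 2 * c ^ 2)) := Real.exp_pos _
  calc (√(1 - 2 * c))⁻¹ ≤ (Real.exp (-(c + 2 * c ^ 2)))⁻¹ := inv_anti₀ h5 h4
    _ = _ := by rw [Real.exp_neg, inv_inv]

/-- The quadratic form. -/
def lt_Q {n : ℕ} (a v : Fin n → ℝ) : ℝ := ∑ i, a i * v i ^ 2

lemma lt_int {n : ℕ} {a : Fin n → ℝ} (ha : ∀ i, a i < 1 / 2) :
    ∫ x, Real.exp (lt_Q a x) ∂(gam n) = ∏ i, (√(1 - 2 * a i))⁻¹ := by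
  have h := integral_fintype_prod_eq_prod (ι := Fin n) (𝕜 := ℝ) (E := fun _ => ℝ)
    (fun i x => Real.exp (a i * x ^ 2)) (μ := fun _ => gaussianReal 0 1)
  unfold gam lt_Q
  simp_rw [Real.exp_sum]
  rw [h]
  exact Finset.prod_congr rfl fun i _ => lt_one (ha i)

lemma lt_intg {n : ℕ} {a : Fin n → ℝ} (ha : ∀ i, a i < 1 / 2) :
    Integrable (fun x => Real.exp (lt_Q a x)) (gam n) := by
  apply Integrable.of_integral_ne_zero
  rw [lt_int ha]
  refine Finset.prod_ne_zero_iff.2 fun i _ => ?_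
  have : 0 < 1 - 2 * a i := by linarith only [ha i]
  positivity

lemma lt_int_le {n : ℕ} {a : Fin n → ℝ} (h1 : ∀ i, -(1 / 4) ≤ a i) (h2 : ∀ i, a i ≤ 1 / 4) :
    ∫ x, Real.exp (lt_Q a x) ∂(gam n) ≤ Real.exp (∑ i, (a i + 2 * a i ^ 2)) := by
  rw [lt_int fun i => lt_of_le_of_lt (h2 i) (by norm_num), Real.exp_sum]
  refine Finset.prod_le_prod (fun i _ => by positivity) fun i _ => ?_
  rw [← lt_one (lt_of_le_of_lt (h2 i) (by norm_num))]
  exact lt_one_le (h1 i) (h2 i)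

lemma lt_meas {n : ℕ} (a : Fin n → ℝ) : Measurable (lt_Q a) := by
  unfold lt_Q
  exact Finset.measurable_sum _ fun i _ =>
    measurable_const.mul ((measurable_pi_apply i).pow_const 2)

lemma lt_markov {n : ℕ} {a : Fin n → ℝ} (h1 : ∀ i, -(1 / 4) ≤ a i) (h2 : ∀ i, a i ≤ 1 / 4) :
    (gam n).real {x | 0 ≤ lt_Q a x} ≤ Real.exp (∑ i, (a i + 2 * a i ^ 2)) := by
  have ha : ∀ i, a i < 1 / 2 := fun i => lt_of_le_of_lt (h2 i) (by norm_num)
  refine le_trans ?_ (lt_int_le h1 h2)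
  have h3 := mul_meas_ge_le_integral_of_nonneg (μ := gam n)
    (f := fun x => Real.exp (lt_Q a x)) (Filter.Eventually.of_forall fun x => (Real.exp_pos _).le)
    (lt_intg ha) 1
  rw [one_mul] at h3
  refine le_trans (le_of_eq ?_) h3
  congr 1
  ext x
  simp only [Set.mem_ofPred_eq, Real.one_le_exp_iff]

lemma lt_scale {n : ℕ} {a : Fin n → ℝ} {ε : ℝ} (hε : 0 < ε) (hs : ∑ i, a i = -(ε * n))
    (hb : ∀ i, |a i| ≤ 1 + ε) :
    (gam n).real {x | 0 ≤ lt_Q a x} ≤ Real.exp (-(ε ^ 2 / (8 * (1 + ε) ^ 2) * n)) := by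
  set r : ℝ := ε / (4 * (1 + ε) ^ 2) with hr
  have hr0 : 0 < r := by positivity
  have h1 : (1 : ℝ) + ε ≠ 0 := by positivity
  have hre : r * (1 + ε) ≤ 1 / 4 := by
    have : r * (1 + ε) = ε / (4 * (1 + ε)) := by
      rw [hr]; field_simp
    rw [this, div_le_div_iff₀ (by positivity) (by norm_num)]
    linarith only []
  have hab : ∀ i, |r * a i| ≤ 1 / 4 := by
    intro i
    rw [abs_mul, abs_of_pos hr0]
    exact (mul_le_mul_of_nonneg_left (hb i) hr0.le).trans hre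
  have e1 : {x : Fin n → ℝ | 0 ≤ lt_Q a x} = {x | 0 ≤ lt_Q (fun i => r * a i) x} := by
    ext x
    have : lt_Q (fun i => r * a i) x = r * lt_Q a x := by
      unfold lt_Q
      rw [Finset.mul_sum]
      exact Finset.sum_congr rfl fun i _ => by ring
    simp only [Set.mem_ofPred_eq]
    rw [this, mul_nonneg_iff_of_pos_left hr0]
  rw [e1]
  refine (lt_markov (fun i => (abs_le.1 (hab i)).1) fun i => (abs_le.1 (hab i)).2).trans ?_
  apply Real.exp_le_exp.2
  rw [Finset.sum_add_distrib, ← Finset.mul_sum, ← Finset.mul_sum, hs]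
  have e2 : ∑ i, (r * a i) ^ 2 ≤ n * (r * (1 + ε)) ^ 2 := by
    calc ∑ i, (r * a i) ^ 2 ≤ ∑ i : Fin n, (r * (1 + ε)) ^ 2 := by
          refine Finset.sum_le_sum fun i _ => ?_
          rw [← sq_abs]
          refine pow_le_pow_left₀ (abs_nonneg _) ?_ 2
          rw [abs_mul, abs_of_pos hr0]
          exact mul_le_mul_of_nonneg_left (hb i) hr0.le
      _ = _ := by simp only [Finset.sum_const, Finset.card_univ, Fintype.card_fin, nsmul_eq_mul]
  have e3 : -(ε ^ 2 / (8 * (1 + ε) ^ 2) * n) = r * -(ε * n) + 2 * (n * (r * (1 + ε)) ^ 2) := by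
    rw [hr]
    field_simp
    ring
  rw [e3]
  linarith only [e2]

/-! ### A column of a Haar matrix and a Gaussian vector -/

lemma lt_transfer {n : ℕ} [MeasurableSpace (OG n)] [BorelSpace (OG n)] (ν : Measure (OG n))
    [IsProbabilityMeasure ν] [ν.IsMulLeftInvariant] (j : Fin n) (a : Fin n → ℝ) :
    ν.real {U : OG n | 0 ≤ lt_Q a (fun i => U.1 i j)} = (gam n).real {x | 0 ≤ lt_Q a x} := by
  have hinv := haar_right_inv ν
  set A : Set (Fin n → ℝ) := {x | 0 ≤ lt_Q a x} with hA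
  have hAm : MeasurableSet A := measurableSet_le measurable_const (lt_meas a)
  have hhom : ∀ (s : ℝ) (x : Fin n → ℝ), s ≠ 0 → (s • x ∈ A ↔ x ∈ A) := by
    intro s x hs
    have : lt_Q a (s • x) = s ^ 2 * lt_Q a x := by
      unfold lt_Q
      rw [Finset.mul_sum]
      refine Finset.sum_congr rfl fun i _ => ?_
      rw [Pi.smul_apply, smul_eq_mul]
      ring
    rw [hA, Set.mem_ofPred_eq, Set.mem_ofPred_eq, this,
      mul_nonneg_iff_of_pos_left (by positivity)]
  have hcol : ∀ U : OG n, (fun i => U.1 i j) = U.1 *ᵥ Pi.single j 1 := by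
    intro U
    rw [Matrix.mulVec_single_one]
    rfl
  have hjm : Measurable fun p : OG n × (Fin n → ℝ) =>
      (p.1 : Matrix (Fin n) (Fin n) ℝ) *ᵥ p.2 := by
    refine measurable_pi_iff.2 fun i => ?_
    have : (fun p : OG n × (Fin n → ℝ) => ((p.1 : Matrix (Fin n) (Fin n) ℝ) *ᵥ p.2) i) =
        fun p => ∑ k, (p.1 : Matrix (Fin n) (Fin n) ℝ) i k * p.2 k := by
      funext p
      rfl
    rw [this]
    exact Finset.measurable_sum _ fun k _ => ((measurable_coe_OG i k).comp measurable_fst).mul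
      ((measurable_pi_apply k).comp measurable_snd)
  have h1 : ∀ U : OG n, gam n A = ∫⁻ x, A.indicator 1 ((U : Matrix (Fin n) (Fin n) ℝ) *ᵥ x)
      ∂(gam n) := by
    intro U
    have hmm : Measurable fun x : Fin n → ℝ => (U : Matrix (Fin n) (Fin n) ℝ) *ᵥ x :=
      (Continuous.matrix_mulVec continuous_const continuous_id).measurable
    conv_lhs => rw [← gam_map U]
    rw [← lintegral_indicator_one hAm, lintegral_map (measurable_one.indicator hAm) hmm]
  have h2 : gam n A = ∫⁻ U, ∫⁻ x, A.indicator 1 ((U : Matrix (Fin n) (Fin n) ℝ) *ᵥ x)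
      ∂(gam n) ∂ν := by
    simp_rw [← h1]
    simp only [lintegral_const, measure_univ, mul_one]
  have h3 : ∀ x : Fin n → ℝ, x ≠ 0 →
      ∫⁻ U : OG n, A.indicator (1 : (Fin n → ℝ) → ENNReal)
        ((U : Matrix (Fin n) (Fin n) ℝ) *ᵥ x) ∂ν =
      ν {U : OG n | U.1 *ᵥ Pi.single j 1 ∈ A} := by
    intro x hx
    have hx0 : 0 < x ⬝ᵥ x := by
      have h1 : 0 ≤ x ⬝ᵥ x := Finset.sum_nonneg fun i _ => mul_self_nonneg _
      rcases h1.lt_or_eq with h | h
      · exact h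
      · exact absurd (dotProduct_self_eq_zero.1 h.symm) hx
    set s : ℝ := √(x ⬝ᵥ x) with hs
    have hs0 : 0 < s := Real.sqrt_pos.2 hx0
    set v : Fin n → ℝ := s⁻¹ • x with hv
    have hvv : v ⬝ᵥ v = 1 := by
      rw [hv, smul_dotProduct, dotProduct_smul, smul_eq_mul, smul_eq_mul]
      have : x ⬝ᵥ x = s ^ 2 := (Real.sq_sqrt hx0.le).symm
      rw [this]
      field_simp
    have hxv : x = s • v := by
      rw [hv, smul_smul, mul_inv_cancel₀ hs0.ne', one_smul]
    have h4 : ∀ U : OG n, A.indicator (1 : (Fin n → ℝ) → ENNReal)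
        ((U : Matrix (Fin n) (Fin n) ℝ) *ᵥ x) =
        (fun W : OG n => A.indicator (1 : (Fin n → ℝ) → ENNReal)
          ((W : Matrix (Fin n) (Fin n) ℝ) *ᵥ Pi.single j 1)) (U * hk j v) := by
      intro U
      have e1 : ((U * hk j v : OG n) : Matrix (Fin n) (Fin n) ℝ) *ᵥ Pi.single j 1 =
          (U : Matrix (Fin n) (Fin n) ℝ) *ᵥ v := by
        rw [OG.coe_mul, ← Matrix.mulVec_mulVec, hk_mulVec j v hvv]
      simp only [e1]
      have e2 : (U : Matrix (Fin n) (Fin n) ℝ) *ᵥ x = s • ((U : Matrix (Fin n) (Fin n) ℝ) *ᵥ v) := by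
        conv_lhs => rw [hxv]
        rw [Matrix.mulVec_smul]
      by_cases h : (U : Matrix (Fin n) (Fin n) ℝ) *ᵥ v ∈ A
      · rw [Set.indicator_of_mem h, Set.indicator_of_mem]
        · rfl
        · rw [e2]
          exact (hhom s _ hs0.ne').2 h
      · rw [Set.indicator_of_notMem h, Set.indicator_of_notMem]
        rw [e2]
        exact fun h' => h ((hhom s _ hs0.ne').1 h')
    simp_rw [h4]
    rw [lintegral_mul_right_eq_self (μ := ν) (fun W : OG n => A.indicator (1 : (Fin n → ℝ) → ENNReal)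
          ((W : Matrix (Fin n) (Fin n) ℝ) *ᵥ Pi.single j 1)) (hk j v)]
    have hBm : MeasurableSet {U : OG n | U.1 *ᵥ Pi.single j 1 ∈ A} :=
      (hjm.comp (measurable_id.prodMk measurable_const)) hAm
    rw [← lintegral_indicator_one hBm]
    rfl
  have h5 : gam n A = ν {U : OG n | U.1 *ᵥ Pi.single j 1 ∈ A} := by
    rw [h2, lintegral_lintegral_swap]
    · have h6 : ∀ᵐ x ∂(gam n), ∫⁻ U : OG n, A.indicator (1 : (Fin n → ℝ) → ENNReal)
          ((U : Matrix (Fin n) (Fin n) ℝ) *ᵥ x) ∂ν =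
          ν {U : OG n | U.1 *ᵥ Pi.single j 1 ∈ A} := by
        filter_upwards [gam_ne_zero j] with x hx
        refine h3 x fun h => hx ?_
        rw [h]
        rfl
      rw [lintegral_congr_ae h6]
      simp only [mulVec_single, MulOpposite.op_one, one_smul, lintegral_const, measure_univ, mul_one]
    · exact ((measurable_one.indicator hAm).comp hjm).aemeasurable
  rw [Measure.real, Measure.real, h5]
  simp_rw [← hcol]
  rfl

/-- Large deviations of the mass of a block (any method: fourth central moment, or the Gaussian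
representation of the column). -/
theorem om_tail {ε : ℝ} (hε : 0 < ε) : ∃ C : ℝ, 0 ≤ C ∧ ∀ (n κ : ℕ) [MeasurableSpace (OG n)]
    [BorelSpace (OG n)] (ν : Measure (OG n)) [IsProbabilityMeasure ν] [ν.IsMulLeftInvariant]
    (t : Fin n → Fin κ) (j : Fin n) (k : Fin κ),
    ν.real {U : OG n | ε ≤ |om t (fun i => U.1 i j) k -
      ((Finset.univ.filter fun i => t i = k).card : ℝ) / n|} ≤ C / n ^ 2 := by
  set r : ℝ := ε ^ 2 / (8 * (1 + ε) ^ 2) with hr
  have hr0 : 0 < r := by positivity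
  refine ⟨4 / r ^ 2, by positivity, ?_⟩
  intro n κ _ _ ν _ _ t j k
  have hn : (0 : ℝ) < n := by
    have : 0 < n := (Nat.zero_le _).trans_lt j.2
    exact_mod_cast this
  set S := Finset.univ.filter fun i => t i = k with hS
  have hm : (S.card : ℝ) ≤ n := by
    have := Finset.card_le_univ S
    rw [Fintype.card_fin] at this
    exact_mod_cast this
  set p : ℝ := (S.card : ℝ) / n with hp
  have hp0 : 0 ≤ p := div_nonneg (Nat.cast_nonneg _) hn.le
  have hp1 : p ≤ 1 := (div_le_one hn).2 hm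
  have hpn : (S.card : ℝ) = p * n := (div_mul_cancel₀ _ hn.ne').symm
  have hsum1 : ∑ i : Fin n, (if t i = k then (1 : ℝ) else 0) = p * n := by
    rw [Finset.sum_boole, ← hpn]
  let a1 : Fin n → ℝ := fun i => (if t i = k then (1 : ℝ) else 0) - (p + ε)
  let a2 : Fin n → ℝ := fun i => (p - ε) - (if t i = k then (1 : ℝ) else 0)
  have hs1 : ∑ i, a1 i = -(ε * n) := by
    simp only [a1, Finset.sum_sub_distrib, hsum1, Finset.sum_const, Finset.card_univ,
      Fintype.card_fin, nsmul_eq_mul]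
    ring
  have hs2 : ∑ i, a2 i = -(ε * n) := by
    simp only [a2, Finset.sum_sub_distrib, hsum1, Finset.sum_const, Finset.card_univ,
      Fintype.card_fin, nsmul_eq_mul]
    ring
  have hb1 : ∀ i, |a1 i| ≤ 1 + ε := by
    intro i
    simp only [a1]
    rw [abs_le]
    split_ifs <;> constructor <;> linarith only [hp1, hε, hp0]
  have hb2 : ∀ i, |a2 i| ≤ 1 + ε := by
    intro i
    simp only [a2]
    rw [abs_le]
    split_ifs <;> constructor <;> linarith only [hp0, hε, hp1]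
  have hq1 : ∀ U : OG n, lt_Q a1 (fun i => U.1 i j) =
      om t (fun i => U.1 i j) k - (p + ε) := by
    intro U
    unfold lt_Q om
    simp only [a1, sub_mul, Finset.sum_sub_distrib]
    rw [← Finset.mul_sum, col_sq, mul_one]
    congr 1
    refine Finset.sum_congr rfl fun i _ => ?_
    split_ifs <;> ring
  have hq2 : ∀ U : OG n, lt_Q a2 (fun i => U.1 i j) =
      (p - ε) - om t (fun i => U.1 i j) k := by
    intro U
    unfold lt_Q om
    simp only [a2, sub_mul (p - ε), Finset.sum_sub_distrib]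
    rw [← Finset.mul_sum, col_sq, mul_one]
    congr 1
    refine Finset.sum_congr rfl fun i _ => ?_
    split_ifs <;> ring
  have hsub : {U : OG n | ε ≤ |om t (fun i => U.1 i j) k - p|} ⊆
      {U : OG n | 0 ≤ lt_Q a1 (fun i => U.1 i j)} ∪
        {U : OG n | 0 ≤ lt_Q a2 (fun i => U.1 i j)} := by
    intro U hU
    rw [Set.mem_ofPred_eq] at hU
    rcases le_abs.1 hU with h | h
    · left
      rw [Set.mem_ofPred_eq, hq1]
      linarith only [h]
    · right
      rw [Set.mem_ofPred_eq, hq2]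
      linarith only [h]
  have h1 : ν.real {U : OG n | ε ≤ |om t (fun i => U.1 i j) k - p|} ≤
      Real.exp (-(r * n)) + Real.exp (-(r * n)) := by
    refine (measureReal_mono hsub).trans ((measureReal_union_le _ _).trans ?_)
    rw [lt_transfer, lt_transfer]
    exact add_le_add (lt_scale hε hs1 hb1) (lt_scale hε hs2 hb2)
  refine h1.trans ?_
  have h2 : (r * n) ^ 2 / 2 ≤ Real.exp (r * n) := by
    have := Real.quadratic_le_exp_of_nonneg (x := r * n) (by positivity)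
    have h3 : 0 ≤ r * n := by positivity
    linarith only [this, h3]
  have h3 : Real.exp (-(r * n)) ≤ 2 / (r * n) ^ 2 := by
    rw [Real.exp_neg]
    calc (Real.exp (r * n))⁻¹ ≤ ((r * n) ^ 2 / 2)⁻¹ := inv_anti₀ (by positivity) h2
      _ = _ := by rw [inv_div]
  calc Real.exp (-(r * n)) + Real.exp (-(r * n)) ≤ 2 / (r * n) ^ 2 + 2 / (r * n) ^ 2 :=
        add_le_add h3 h3
    _ = 4 / r ^ 2 / n ^ 2 := by
        field_simp
        ring

/-- The first moment. -/
theorem om_dev {n κ : ℕ} [MeasurableSpace (OG n)] [BorelSpace (OG n)] (ν : Measure (OG n))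
    [IsProbabilityMeasure ν] [ν.IsMulLeftInvariant] (t : Fin n → Fin κ) (j : Fin n) (k : Fin κ) :
    ∫ U : OG n, |om t (fun i => U.1 i j) k -
      ((Finset.univ.filter fun i => t i = k).card : ℝ) / n| ∂ν ≤ 1 / √n := by
  set p : ℝ := ((Finset.univ.filter fun i => t i = k).card : ℝ) / n with hp
  have hom0 : ∀ U : OG n, 0 ≤ om t (fun i => U.1 i j) k := fun U => om_nonneg _ _ _
  have hom1 : ∀ U : OG n, om t (fun i => U.1 i j) k ≤ 1 := by
    intro U
    rw [← col_sq U j, om_eq_sum]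
    exact Finset.sum_le_sum_of_subset_of_nonneg (Finset.filter_subset _ _)
      fun i _ _ => sq_nonneg _
  have hmeas : Measurable fun U : OG n => om t (fun i => U.1 i j) k - p := by
    simp_rw [om_eq_sum]
    exact (Finset.measurable_sum _ fun i _ => (measurable_coe_OG i j).pow_const 2).sub_const _
  have hbd : ∀ U : OG n, |om t (fun i => U.1 i j) k - p| ≤ 1 + |p| := by
    intro U
    refine (abs_sub _ _).trans (add_le_add ?_ le_rfl)
    rw [abs_of_nonneg (hom0 U)]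
    exact hom1 U
  have hi1 : Integrable (fun U : OG n => |om t (fun i => U.1 i j) k - p|) ν := by
    refine (integrable_const (1 + |p|)).mono' hmeas.abs.aestronglyMeasurable
      (Filter.Eventually.of_forall fun U => ?_)
    rw [Real.norm_eq_abs, abs_abs]
    exact hbd U
  have hi2 : Integrable (fun U : OG n => |om t (fun i => U.1 i j) k - p| ^ 2) ν := by
    refine (integrable_const ((1 + |p|) ^ 2)).mono'
      (hmeas.abs.pow_const 2).aestronglyMeasurable
      (Filter.Eventually.of_forall fun U => ?_)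
    rw [Real.norm_eq_abs, abs_pow, abs_abs]
    exact pow_le_pow_left₀ (abs_nonneg _) (hbd U) 2
  have h1 := sq_integral_le ν hi1 hi2
  have h2 : ∫ U : OG n, |om t (fun i => U.1 i j) k - p| ^ 2 ∂ν ≤ 1 / n := by
    simp_rw [sq_abs]
    exact om_var ν t j k
  have h3 : (1 : ℝ) / √n = √(1 / n) := by rw [Real.sqrt_div zero_le_one, Real.sqrt_one]
  rw [h3]
  exact Real.le_sqrt_of_sq_le (h1.trans h2)

end Vale.Agent.P166.L
end
end

section

section

/-! P166, lower bound: the model of size `N + 1`. -/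

open MeasureTheory ProbabilityTheory Matrix Filter Topology

namespace Vale.Agent.P166.L

open Conc

/-- The inner average at `U` only depends on the masses of the blocks of the first column. -/
theorem le_point {κ N : ℕ} [MeasurableSpace (OG N)] [BorelSpace (OG N)] (ν : Measure (OG N))
    [ν.IsMulLeftInvariant]
    (c : Fin (N + 1) → Fin κ) (ρ : Fin κ → Fin (N + 1)) (hρ : ∀ k, c (ρ k) = k)
    {k₀ : Fin κ} (hk₀ : ρ k₀ = 0) {F : Matrix (Fin (N + 1)) (Fin (N + 1)) ℝ → ℝ}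
    (hinv : ∀ L U : OG (N + 1), (∀ i j, c i ≠ c j → L.1 i j = 0) → F (L.1 * U.1) = F U.1)
    (U : OG (N + 1)) {A : Matrix (Fin κ) (Fin κ) ℝ} (hA : A ∈ Matrix.orthogonalGroup (Fin κ) ℝ)
    (hA1 : ∀ k, A k k₀ = √(om c (fun i => U.1 i 0) k)) :
    ∫ V : OG N, F (U * oneO V).1 ∂ν = ∫ V : OG N, F (emb ρ A * one V.1) ∂ν := by
  have hinj : Function.Injective ρ := fun a b h => by rw [← hρ a, ← hρ b, h]
  obtain ⟨L, hL1, hL2⟩ := exists_block c ρ hρ (fun i => U.1 i 0)
  set E : OG (N + 1) := ⟨emb ρ A, emb_mem hinj hA⟩ with hE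
  have hEcol : E.1 *ᵥ (Pi.single 0 1 : Fin (N + 1) → ℝ) = cv c ρ (fun i => U.1 i 0) := by
    funext i
    have h0 : (Pi.single 0 1 : Fin (N + 1) → ℝ) = fun j => if j = ρ k₀ then 1 else 0 := by
      funext j
      rw [hk₀, Pi.single_apply]
    by_cases hi : ∃ k, ρ k = i
    · obtain ⟨k, rfl⟩ := hi
      change (emb ρ _ *ᵥ _) (ρ k) = _
      rw [emb_range hinj, h0]
      have h1 : ∀ k', (if ρ k' = ρ k₀ then (1 : ℝ) else 0) = if k' = k₀ then 1 else 0 := by
        intro k'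
        by_cases h : k' = k₀
        · simp [h]
        · have h' : ρ k' ≠ ρ k₀ := fun e => h (hinj e)
          simp [h, h']
      simp_rw [h1]
      rw [cv, hρ, if_pos rfl]
      simp only [mul_ite, mul_one, mul_zero, Finset.sum_ite_eq', Finset.mem_univ, ↓reduceIte, hA1 k]
    · push Not at hi
      change (emb ρ _ *ᵥ _) i = _
      rw [emb_not_range _ hi, cv, if_neg fun e => hi _ e.symm, Pi.single_apply,
        if_neg fun e => hi k₀ (by rw [hk₀, e])]
  have h := inner_eq ν (fun W => F W.1) (U := U) (S := L⁻¹ * E) (by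
    rw [OG.coe_mul, OG.coe_inv, ← Matrix.mulVec_mulVec, hEcol, ← hL2, Matrix.mulVec_mulVec,
      OG.transpose_mul, Matrix.one_mulVec, mulVec_e0])
  rw [h]
  refine integral_congr_ae (Filter.Eventually.of_forall fun V => ?_)
  change F (L⁻¹ * E * oneO V).1 = F (emb ρ A * one V.1)
  have h1 := hinv L⁻¹ (E * oneO V) (by
    intro i j hij
    rw [OG.coe_inv, Matrix.transpose_apply]
    exact hL1 j i hij.symm)
  rw [mul_assoc]
  exact h1

theorem le_meas_om {κ n : ℕ} [MeasurableSpace (OG n)] [BorelSpace (OG n)] (t : Fin n → Fin κ)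
    (j : Fin n) (k : Fin κ) : Measurable fun U : OG n => om t (fun i => U.1 i j) k := by
  unfold om
  refine Finset.measurable_sum _ fun i _ => ?_
  split_ifs
  · exact (measurable_coe_OG i j).pow_const 2
  · exact measurable_const

theorem le_om_le {κ n : ℕ} (t : Fin n → Fin κ) (U : OG n) (j : Fin n) (k : Fin κ) :
    om t (fun i => U.1 i j) k ≤ 1 := by
  rw [← col_sq U j, ← sum_om t]
  exact Finset.single_le_sum (f := fun k => om t (fun i => U.1 i j) k)
    (fun k _ => om_nonneg _ _ _) (Finset.mem_univ k)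

theorem le_frac {e q N : ℝ} (hN : 0 < N) (he : 0 ≤ e) (he1 : e ≤ 1) (hq : 0 ≤ q) (hqN : q ≤ N) :
    |(e + q) / (N + 1) - q / N| ≤ 1 / (N + 1) := by
  have h1 : (e + q) / (N + 1) - q / N = (N * e - q) / (N * (N + 1)) := by
    field_simp
    ring
  have h2 : |N * e - q| ≤ N := by
    rw [abs_le]
    constructor <;> nlinarith only [hqN, hN, he, hq, he1]
  rw [h1, abs_div, abs_of_pos (mul_pos hN (by linarith only [hN])), div_le_div_iff₀ (by positivity)
    (by positivity)]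
  nlinarith only [h2, hN]

theorem le_card {κ N : ℕ} (hN : 0 < N) (c : Fin N → Fin κ) (k0 k : Fin κ) :
    |((Finset.univ.filter fun i => (Fin.cons k0 c : Fin (N + 1) → Fin κ) i = k).card : ℝ) /
      ((N + 1 : ℕ) : ℝ) - F.frac c k| ≤ 1 / ((N : ℝ) + 1) := by
  have h1 : ((Finset.univ.filter fun i => (Fin.cons k0 c : Fin (N + 1) → Fin κ) i = k).card : ℝ) =
      (if k0 = k then 1 else 0) + ((Finset.univ.filter fun i => c i = k).card : ℝ) := by
    rw [Finset.card_filter, Fin.sum_univ_succ, Finset.card_filter]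
    push_cast
    simp only [Fin.cons_zero, Fin.cons_succ, Finset.sum_boole]
  rw [h1, F.frac]
  push_cast
  have hN' : (0 : ℝ) < N := by exact_mod_cast hN
  refine le_frac hN' ?_ ?_ (by positivity) ?_
  · split_ifs <;> norm_num
  · split_ifs <;> norm_num
  · have h2 := Finset.card_le_univ (Finset.univ.filter fun i => c i = k)
    rw [Fintype.card_fin] at h2
    exact_mod_cast h2

/-- The abstract estimate. -/
theorem le_absL {Ω : Type*} [MeasurableSpace Ω] {P : Measure Ω} [IsProbabilityMeasure P]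
    {Ψ S : Ω → ℝ} (hΨ : Integrable Ψ P) (hS : Integrable S P) {bad : Set Ω}
    (hbad : MeasurableSet bad) {a C1 C2 C3 C4 C5 M dl η R : ℝ} (h1 : 0 ≤ C1) (h2 : 0 ≤ C2)
    (h3 : 0 ≤ C3) (h4 : 0 ≤ C4) (hR : 0 ≤ R) (hdl : dl ≤ η)
    (hlow : ∀ ω, a - C1 * (C4 * (S ω + dl)) ≤ Ψ ω)
    (hup : ∀ ω, ω ∉ bad → Ψ ω ≤ a + C2 * (C4 * (S ω + dl) + dl))
    (hcr : ∀ ω, Ψ ω ≤ a + C3 * R) (hS0 : ∀ ω, 0 ≤ S ω) (hdl0 : 0 ≤ dl)
    (hSi : ∫ ω, S ω ∂P + dl ≤ M * η) (hb : R * P.real bad ≤ C5 * η) :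
    |∫ ω, Ψ ω ∂P - a| ≤ (C1 * C4 * M + C2 * C4 * M + C2 + C3 * C5) * η := by
  have hup' : ∀ ω, Ψ ω ≤ a + C2 * (C4 * (S ω + dl) + dl) + bad.indicator (fun _ => C3 * R) ω := by
    intro ω
    by_cases hω : ω ∈ bad
    · rw [Set.indicator_of_mem hω]
      have h5 := hcr ω
      have h6 := hS0 ω
      have h7 : 0 ≤ C2 * (C4 * (S ω + dl) + dl) := by positivity
      linarith only [h5, h7]
    · rw [Set.indicator_of_notMem hω]
      linarith only [hup ω hω]
  have j1 : Integrable (fun ω => S ω + dl) P := hS.add (integrable_const dl)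
  have j2 : Integrable (fun ω => C4 * (S ω + dl)) P := j1.const_mul C4
  have j3 : Integrable (fun ω => C1 * (C4 * (S ω + dl))) P := j2.const_mul C1
  have j4 : Integrable (fun ω => C4 * (S ω + dl) + dl) P := j2.add (integrable_const dl)
  have j5 : Integrable (fun ω => C2 * (C4 * (S ω + dl) + dl)) P := j4.const_mul C2
  have i1 : Integrable (fun ω => a - C1 * (C4 * (S ω + dl))) P := (integrable_const a).sub j3
  have i2 : Integrable (fun ω => a + C2 * (C4 * (S ω + dl) + dl)) P := (integrable_const a).add j5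
  have i3 : Integrable (bad.indicator (fun _ : Ω => C3 * R)) P :=
    (integrable_const _).indicator hbad
  have e0 : ∫ ω, (S ω + dl) ∂P = ∫ ω, S ω ∂P + dl := by
    rw [integral_add hS (integrable_const dl)]
    simp
  have e1 : ∫ ω, (a - C1 * (C4 * (S ω + dl))) ∂P = a - C1 * (C4 * (∫ ω, S ω ∂P + dl)) := by
    rw [integral_sub (integrable_const a) j3, integral_const_mul, integral_const_mul, e0]
    simp
  have e2 : ∫ ω, (a + C2 * (C4 * (S ω + dl) + dl)) ∂P =
      a + C2 * (C4 * (∫ ω, S ω ∂P + dl) + dl) := by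
    rw [integral_add (integrable_const a) j5, integral_const_mul,
      integral_add j2 (integrable_const dl), integral_const_mul, e0]
    simp only [integral_const, probReal_univ, smul_eq_mul, _root_.one_mul]
  have g1 : a - C1 * (C4 * (∫ ω, S ω ∂P + dl)) ≤ ∫ ω, Ψ ω ∂P := by
    rw [← e1]
    exact integral_mono i1 hΨ hlow
  have g2 : ∫ ω, Ψ ω ∂P ≤ a + C2 * (C4 * (∫ ω, S ω ∂P + dl) + dl) + P.real bad * (C3 * R) := by
    have h5 := integral_mono hΨ (i2.add i3) hup'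
    have h6 : ∫ ω, (a + C2 * (C4 * (S ω + dl) + dl) + bad.indicator (fun _ => C3 * R) ω) ∂P =
        a + C2 * (C4 * (∫ ω, S ω ∂P + dl) + dl) + P.real bad * (C3 * R) := by
      rw [integral_add i2 i3, e2, integral_indicator_const _ hbad, smul_eq_mul]
    exact h5.trans (le_of_eq h6)
  have g3 : C1 * (C4 * (∫ ω, S ω ∂P + dl)) ≤ C1 * (C4 * (M * η)) := by gcongr
  have g4 : C2 * (C4 * (∫ ω, S ω ∂P + dl) + dl) ≤ C2 * (C4 * (M * η) + η) := by gcongr
  have g5 : P.real bad * (C3 * R) ≤ C3 * (C5 * η) := by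
    calc P.real bad * (C3 * R) = C3 * (R * P.real bad) := by ring
      _ ≤ C3 * (C5 * η) := by gcongr
  have g6 : 0 ≤ C1 * (C4 * (M * η)) := by
    have : 0 ≤ M * η := by
      have : 0 ≤ ∫ ω, S ω ∂P := integral_nonneg hS0
      linarith only [hdl0, hSi, this]
    positivity
  have g7 : 0 ≤ C2 * (C4 * (M * η) + η) := by
    have : 0 ≤ ∫ ω, S ω ∂P := integral_nonneg hS0
    exact le_trans (by positivity) g4
  have g8 : 0 ≤ C3 * (C5 * η) := le_trans (by positivity) g5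
  rw [abs_le]
  constructor <;> linarith only [g1, g3, g7, g8, g2, g4, g5, g6]

open Vale.Agent.P157.Lv Vale.Agent.P157.Par Md H U
open Vale.Agent.P166.F (frac)

variable {N K n : ℕ} {m : ℕ → ℝ}

/-- **The model of size `N + 1`.** `law` with `A ω` from `exists_rot_pot`; `om_dev`, `om_tail`. -/
theorem law_E {b α : Fin (n + 1) → ℝ} {μ g : Fin n → ℝ}
    {Q : Fin (n + 1) → Matrix (Fin (n + 1)) (Fin (n + 1)) ℝ} (D : Dat b α μ g Q) (B : ℝ) :
    ∃ C x0 : ℝ, 0 ≤ C ∧ 0 < x0 ∧ ∀ (N K : ℕ) (m : ℕ → ℝ) (c : Fin N → Fin (n + 1)) (P : Pm (n + 1))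
      (r : Fin (n + 1) → Fin N) (k0 : Fin (n + 1)) [MeasurableSpace (orthogonalGroup (Fin N) ℝ)]
      [BorelSpace (orthogonalGroup (Fin N) ℝ)] (ν : Measure (orthogonalGroup (Fin N) ℝ))
      [IsProbabilityMeasure ν] [ν.IsMulLeftInvariant]
      [MeasurableSpace (orthogonalGroup (Fin (N + 1)) ℝ)]
      [BorelSpace (orthogonalGroup (Fin (N + 1)) ℝ)]
      (ν' : Measure (orthogonalGroup (Fin (N + 1)) ℝ)) [IsProbabilityMeasure ν']
      [ν'.IsMulLeftInvariant] (dl : ℝ), Good b α B dl K m c P r →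
      (K + 1) * dl ≤ x0 → 1 / √N ≤ x0 → ∀ (s' : ℕ → ℝ), EPar K B 0 0 s' 1 0 →
      |EU ν' (fun U => (nmd K m (Fin.cons k0 c : Fin (N + 1) → Fin (n + 1)) P s' U).fe) -
        EF ν K m (MP K c (wi r k0) P μ g (mbar b α) 0 0 s' 1 0)| ≤ C * (dl + 1 / √N) := by
  obtain ⟨C1, x1, hC1, hx1, hlow⟩ := sA_low D B
  obtain ⟨C2, x2, hC2, hx2, hup⟩ := sA_up D B
  obtain ⟨C3, x3, hC3, hx3, hcr⟩ := sA_crude D B
  obtain ⟨C4, hC4, hrot⟩ := exists_rot_pot D.pos D.one b
  have hαl := D.pos (Fin.last n)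
  obtain ⟨C5, hC5, htail⟩ := om_tail (ε := α (Fin.last n) / 4) (by linarith)
  set M : ℝ := 2 * ((n : ℝ) + 1) + 1 with hM
  refine ⟨C1 * C4 * M + C2 * C4 * M + C2 + C3 * C5,
    min (min x1 x2) (min x3 (min 1 (α (Fin.last n) / 8))), by positivity, ?_, ?_⟩
  · refine lt_min (lt_min hx1 hx2) (lt_min hx3 (lt_min one_pos (by linarith)))
  intro N K m c P r k0 _ _ ν _ _ _ _ ν' _ _ dl G hdl hN s' hs'
  have hN0 := G.N0
  have hNr : (0 : ℝ) < N := by exact_mod_cast hN0
  have hN1r : (1 : ℝ) ≤ N := by exact_mod_cast hN0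
  have hdl0 := G.dl0
  simp only [le_min_iff] at hdl hN
  obtain ⟨⟨hd1, hd2⟩, hd3, hd4, hd5⟩ := hdl
  obtain ⟨⟨hn1, hn2⟩, hn3, hn4, hn5⟩ := hN
  have hdlK : dl ≤ ((K : ℝ) + 1) * dl := by
    have : (0 : ℝ) ≤ K := by positivity
    nlinarith only [hdl0]
  set c' : Fin (N + 1) → Fin (n + 1) := Fin.cons k0 c with hc'
  set F : Matrix (Fin (N + 1)) (Fin (N + 1)) ℝ → ℝ := fun U => (nmd K m c' P s' U).fe with hF
  have hρ : ∀ k, c' (rho0 r k0 k) = k := by
    intro k
    unfold rho0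
    split_ifs with h
    · rw [h, hc', Fin.cons_zero]
    · rw [hc', Fin.cons_succ, G.hr]
  have hk0 : rho0 r k0 k0 = 0 := by simp [rho0]
  have hinv : ∀ L U : OG (N + 1), (∀ i j, c' i ≠ c' j → L.1 i j = 0) → F (L.1 * U.1) = F U.1 :=
    fun L U hL => nmd_block G.hm c' P s' L U hL
  have mF : Measurable fun U : OG (N + 1) => F U.1 := meas_nmd_fe G.hm c' P s'
  obtain ⟨CF, hCF⟩ := bdd_nmd_fe (N := N) G.hm c' P s'
  set w : OG (N + 1) → Fin (n + 1) → ℝ := fun U => om c' fun i => U.1 i 0 with hw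
  have hw0 : ∀ U k, 0 ≤ w U k := fun U k => om_nonneg _ _ _
  have hw1 : ∀ U, ∑ k, w U k = 1 := fun U => by rw [hw]; simp only [sum_om, col_sq]
  have hA : ∀ U : OG (N + 1), ∃ A ∈ orthogonalGroup (Fin (n + 1)) ℝ,
      (∀ k, A k k0 = √(w U k)) ∧ ∀ i j,
        |(Aᵀ * diagonal P.b * A) i j - ((Q k0)ᵀ * diagonal b * Q k0) i j| ≤
          C4 * (∑ k, |w U k - α k| + dl) := by
    intro U
    obtain ⟨A, hA1, hA2, hA3⟩ := hrot (w U) (hw0 U) (hw1 U) (Q k0) k0 (D.out.orth k0)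
      (D.out.col k0)
    exact ⟨A, hA1, hA2, hA3 P.b dl G.hb (by linarith only [hd4, hdlK])⟩
  choose A hA1 hA2 hA3 using hA
  set Ψ : OG (N + 1) → ℝ := fun U => ∫ V : OG N, F (U * oneO V).1 ∂ν with hΨ
  have hΨA : ∀ U, Ψ U = EU ν fun V => (sA K m c P r k0 s' (A U) V).fe := fun U =>
    le_point ν c' (rho0 r k0) hρ hk0 hinv U (hA1 U) (hA2 U)
  have mΨ' : Measurable fun p : OG (N + 1) × OG N => F (p.1 * oneO p.2).1 :=
    mF.comp (measurable_fst.mul (measurable_oneO.comp measurable_snd))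
  have mΨ : Measurable Ψ := (mΨ'.stronglyMeasurable.integral_prod_right').measurable
  have bΨ : ∀ U, ‖Ψ U‖ ≤ CF := by
    intro U
    have h := norm_integral_le_of_norm_le_const (μ := ν) (f := fun V : OG N => F (U * oneO V).1)
      (C := CF) (Filter.Eventually.of_forall fun V => hCF _)
    rwa [probReal_univ, mul_one] at h
  have iΨ : Integrable Ψ ν' := Integrable.of_bound mΨ.aestronglyMeasurable CF
    (Filter.Eventually.of_forall bΨ)
  have hlaw : EU ν' F = ∫ U, Ψ U ∂ν' :=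
    law_abs ν ν' (F := fun U => F U.1) mF hCF (fun U => U) (fun U => rfl)
  set S : OG (N + 1) → ℝ := fun U => ∑ k, |w U k - α k| with hS
  have mw : ∀ k, Measurable fun U => w U k := fun k => le_meas_om c' 0 k
  have iw : ∀ k (t : ℝ), Integrable (fun U => |w U k - t|) ν' := by
    intro k t
    refine Integrable.of_bound ((mw k).sub_const t).abs.aestronglyMeasurable (1 + |t|)
      (Filter.Eventually.of_forall fun U => ?_)
    rw [Real.norm_eq_abs, abs_abs]
    refine (abs_sub _ _).trans ?_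
    rw [abs_of_nonneg (hw0 U k)]
    exact add_le_add (le_om_le c' U 0 k) le_rfl
  have iS : Integrable S ν' := integrable_finsetSum _ fun k _ => iw k (α k)
  have hsq : 1 / ((N : ℝ) + 1) ≤ 1 / √N := by
    have h1 : √(N : ℝ) ≤ (N : ℝ) + 1 := by
      have h2 : √(N : ℝ) ≤ N := by
        rw [Real.sqrt_le_left (by linarith only [hNr])]
        nlinarith only [hN1r]
      linarith only [h2]
    exact one_div_le_one_div_of_le (Real.sqrt_pos.2 hNr) h1
  have hcard : ∀ k, |((Finset.univ.filter fun i => c' i = k).card : ℝ) / ((N + 1 : ℕ) : ℝ) - α k| ≤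
      1 / √N + dl := by
    intro k
    have h1 := le_card hN0 c k0 k
    have h2 := G.fr k
    calc |((Finset.univ.filter fun i => c' i = k).card : ℝ) / ((N + 1 : ℕ) : ℝ) - α k|
        = |(((Finset.univ.filter fun i => c' i = k).card : ℝ) / ((N + 1 : ℕ) : ℝ) - frac c k) +
          (frac c k - α k)| := by ring_nf
      _ ≤ 1 / ((N : ℝ) + 1) + dl := (abs_add_le _ _).trans (add_le_add h1 h2)
      _ ≤ 1 / √N + dl := by linarith only [hsq]
  have hSi : ∫ U, S U ∂ν' + dl ≤ M * (dl + 1 / √N) := by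
    have h1 : ∀ k, ∫ U, |w U k - α k| ∂ν' ≤ 2 * (1 / √N) + dl := by
      intro k
      set q : ℝ := ((Finset.univ.filter fun i => c' i = k).card : ℝ) / ((N + 1 : ℕ) : ℝ) with hq
      have h2 : ∫ U, |w U k - q| ∂ν' ≤ 1 / √((N + 1 : ℕ) : ℝ) := om_dev ν' c' 0 k
      have h3 : 1 / √((N + 1 : ℕ) : ℝ) ≤ 1 / √N := by
        refine one_div_le_one_div_of_le (Real.sqrt_pos.2 hNr) (Real.sqrt_le_sqrt ?_)
        push_cast
        linarith only []
      calc ∫ U, |w U k - α k| ∂ν' ≤ ∫ U, (|w U k - q| + |q - α k|) ∂ν' :=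
            integral_mono (iw k _) ((iw k q).add (integrable_const _)) fun U => abs_sub_le _ _ _
        _ = ∫ U, |w U k - q| ∂ν' + |q - α k| := by
            rw [integral_add (iw k q) (integrable_const _)]
            simp
        _ ≤ 2 * (1 / √N) + dl := by linarith only [h2, h3, hcard k]
    have h4 : ∫ U, S U ∂ν' ≤ ((n : ℝ) + 1) * (2 * (1 / √N) + dl) := by
      rw [hS, integral_finsetSum _ fun k _ => iw k (α k)]
      calc ∑ k, ∫ U, |w U k - α k| ∂ν' ≤ ∑ _k : Fin (n + 1), (2 * (1 / √N) + dl) :=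
            Finset.sum_le_sum fun k _ => h1 k
        _ = ((n : ℝ) + 1) * (2 * (1 / √N) + dl) := by
            rw [Finset.sum_const, Finset.card_univ, Fintype.card_fin, nsmul_eq_mul]
            push_cast
            ring
    have h5 : 0 ≤ 1 / √(N : ℝ) := by positivity
    have h6 : (0 : ℝ) ≤ n := by positivity
    rw [hM]
    linarith only [hdl0, h4, h5, mul_nonneg h6 hdl0]
  set bad : Set (OG (N + 1)) := {U | w U (Fin.last n) < α (Fin.last n) / 2} with hbad
  have mbad : MeasurableSet bad := measurableSet_lt (mw _) measurable_const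
  have hbadp : ((N : ℝ) + 1) * ν'.real bad ≤ C5 * (dl + 1 / √N) := by
    have h1 := htail (N + 1) (n + 1) ν' c' 0 (Fin.last n)
    have h2 : bad ⊆ {U : OG (N + 1) | α (Fin.last n) / 4 ≤ |om c' (fun i => U.1 i 0) (Fin.last n) -
        ((Finset.univ.filter fun i => c' i = Fin.last n).card : ℝ) / ((N + 1 : ℕ) : ℝ)|} := by
      intro U hU
      have hU' : om c' (fun i => U.1 i 0) (Fin.last n) < α (Fin.last n) / 2 := hU
      have h3 := hcard (Fin.last n)
      have h4 := (abs_le.1 h3).1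
      show α (Fin.last n) / 4 ≤ _
      rw [abs_sub_comm]
      refine le_trans ?_ (le_abs_self _)
      linarith only [hd5, hn5, hdlK, hU', h4]
    have h3 : ν'.real bad ≤ C5 / ((N + 1 : ℕ) : ℝ) ^ 2 := (measureReal_mono h2).trans h1
    have h4 : (0 : ℝ) < (N : ℝ) + 1 := by positivity
    calc ((N : ℝ) + 1) * ν'.real bad ≤ ((N : ℝ) + 1) * (C5 / ((N + 1 : ℕ) : ℝ) ^ 2) := by gcongr
      _ = C5 * (1 / ((N : ℝ) + 1)) := by
          push_cast
          field_simp
      _ ≤ C5 * (dl + 1 / √N) := by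
          gcongr
          linarith only [hdl0, hsq]
  rw [hlaw]
  refine le_absL iΨ iS mbad hC1 hC2 hC3 hC4 (R := (N : ℝ) + 1) (by positivity)
    (by linarith only [show 0 ≤ 1 / √(N : ℝ) by positivity]) ?_ ?_ ?_
    (fun U => Finset.sum_nonneg fun k _ => abs_nonneg _) hdl0 hSi hbadp
  · intro U
    rw [hΨA U]
    exact hlow N K m c P r k0 ν dl G hd1 hn1 s' hs' (A U) (hA1 U) _ (hA3 U)
  · intro U hU
    rw [hΨA U]
    exact hup N K m c P r k0 ν dl G hd2 hn2 s' hs' (A U) (hA1 U) (w U) (hw0 U) (hA2 U)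
      (not_lt.1 hU) _ (hA3 U)
  · intro U
    rw [hΨA U]
    exact hcr N K m c P r k0 ν dl G hd3 s' hs' (A U) (hA1 U)

end Vale.Agent.P166.L
end
end

section

section

/-!
P166, lower bound: the value of the model of size `N + 1` with a modified field on the new site.
-/

open MeasureTheory ProbabilityTheory Matrix Filter Topology

namespace Vale.Agent.P166.L

open Vale.Agent.P157.Lv Vale.Agent.P157.Par Md H U
open Vale.Agent.P166.F (Gsp)

variable {n : ℕ}

theorem ve_tcov (r r' : ℕ → ℝ) : tcov 0 r = tcov 0 r' := by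
  funext l
  cases l with
  | zero => rfl
  | succ l =>
    change 0 * √(r (l + 1) - r l) = 0 * √(r' (l + 1) - r' l)
    rw [zero_mul, zero_mul]

/-- For `τ = 0` the parameters do not depend on `rd`, `rr`. -/
theorem ve_MP {N K : ℕ} (c : Fin N → Fin (n + 1)) (w : Fin n → Fin N) (P : Pm (n + 1))
    (μ g : Fin n → ℝ) (mb rd rd' : ℝ) (rr rr' s' : ℕ → ℝ) :
    MP K c w P μ g mb rd rr s' 1 0 = MP K c w P μ g mb rd' rr' s' 1 0 := by
  unfold MP
  rw [ve_tcov rr rr']
  simp only [one_div, ne_eq, OfNat.ofNat_ne_zero, not_false_eq_true, zero_pow, mul_zero, zero_mul, add_zero, _root_.one_mul]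

theorem ve_inj {N : ℕ} {c : Fin N → Fin (n + 1)} {r : Fin (n + 1) → Fin N}
    (hr : ∀ k, c (r k) = k) (k0 : Fin (n + 1)) : Function.Injective (wi r k0) := by
  intro i j h
  have h1 : k0.succAbove i = k0.succAbove j := by
    rw [← hr (k0.succAbove i), ← hr (k0.succAbove j)]
    exact congrArg c h
  exact Fin.succAbove_right_injective h1

/-- `law_E`, `path_E`, `val0` (for `σ = 1`, `τ = 0` the system does not depend on `rd`, `rr`). -/
theorem val_E {β : ℝ} (hβ : 0 < β) {a α : Fin (n + 1) → ℝ} {μ g : Fin n → ℝ}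
    {Q : Fin (n + 1) → Matrix (Fin (n + 1)) (Fin (n + 1)) ℝ} (D : Dat (fun k => β * a k) α μ g Q)
    (B : ℝ) :
    ∃ C x0 : ℝ, 0 ≤ C ∧ 0 < x0 ∧ ∀ (N K : ℕ) (m : ℕ → ℝ) (c : Fin N → Fin (n + 1)) (P : Pm (n + 1))
      (r : Fin (n + 1) → Fin N) (k0 : Fin (n + 1)) [MeasurableSpace (orthogonalGroup (Fin N) ℝ)]
      [BorelSpace (orthogonalGroup (Fin N) ℝ)] (ν : Measure (orthogonalGroup (Fin N) ℝ))
      [IsProbabilityMeasure ν] [ν.IsMulLeftInvariant]
      [MeasurableSpace (orthogonalGroup (Fin (N + 1)) ℝ)]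
      [BorelSpace (orthogonalGroup (Fin (N + 1)) ℝ)]
      (ν' : Measure (orthogonalGroup (Fin (N + 1)) ℝ)) [IsProbabilityMeasure ν']
      [ν'.IsMulLeftInvariant] (dl X : ℝ),
      Good (fun k => β * a k) α B dl K m c P r → Err (fun k => β * a k) α μ g B dl X ν K m c P r →
      X ≤ x0 → ∀ s' : ℕ → ℝ,
      EPar K B (F.rDiag β (atoms a α) K m (Ql ν K m c P) - mbar (fun k => β * a k) α)
        (F.rPath β (atoms a α) K m (Ql ν K m c P)) s' 1 0 →
      |EU ν' (fun U => (nmd K m (Fin.cons k0 c : Fin (N + 1) → Fin (n + 1)) P s' U).fe) -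
        (EU ν (fun U => ((nmu K m c P (wi r k0) μ).sy U).fe) + Real.log 2 +
          1 / 2 * F.rDiag β (atoms a α) K m (Ql ν K m c P) +
          Gsp K m (F.rPath β (atoms a α) K m (Ql ν K m c P)) s')| ≤ C * √X := by
  obtain ⟨C1, x1, hC1, hx1, h1⟩ := law_E D B
  obtain ⟨C2, x2, hC2, hx2, h2⟩ := path_E hβ D B
  refine ⟨2 * C1 + C2, min (min x1 x2) 1, by positivity, lt_min (lt_min hx1 hx2) one_pos, ?_⟩
  intro N K m c P r k0 _ _ ν _ _ _ _ ν' _ _ dl X G E hX s' hs'
  simp only [le_min_iff] at hX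
  obtain ⟨⟨hX1, hX2⟩, hX3⟩ := hX
  have hdl := G.dl0
  have hK : dl ≤ ((K : ℝ) + 1) * dl := by
    have : (0 : ℝ) ≤ K := by positivity
    nlinarith only [hdl]
  have hX0 : 0 ≤ X := hdl.trans (hK.trans E.hdl)
  have hB : 0 ≤ B := (abs_nonneg _).trans hs'.hrd
  have hsq : X ≤ √X := by
    have h0 : 0 ≤ √X := Real.sqrt_nonneg X
    have h3 : √X ≤ 1 := Real.sqrt_le_one.2 hX3
    have h4 : √X * √X = X := Real.mul_self_sqrt hX0
    nlinarith only [h4, h0, h3]
  have e1 := h1 N K m c P r k0 ν ν' dl G (E.hdl.trans hX1) (E.hN.trans hX1) s'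
    ⟨by simpa only [abs_zero] using hB, rfl, fun _ _ => le_rfl, hB, hs'.s0, hs'.hs, hs'.hσ, hs'.hτ⟩
  have e2 := h2 N K m c P r k0 ν dl X G E hX2 s' hs'
  rw [ve_MP c (wi r k0) P μ g (mbar (fun k => β * a k) α) 0
    (F.rDiag β (atoms a α) K m (Ql ν K m c P) - mbar (fun k => β * a k) α) 0
    (F.rPath β (atoms a α) K m (Ql ν K m c P)) s'] at e1
  rw [val0 ν G.hm c (ve_inj G.hr k0) P μ g _ _ hs'.rr0 hs'.hrr hs'.s0] at e2
  have e3 : C1 * (dl + 1 / √(N : ℝ)) ≤ 2 * C1 * √X := by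
    have h5 : dl + 1 / √(N : ℝ) ≤ 2 * √X := by linarith only [hK, hsq, E.hdl, E.hN]
    nlinarith only [hC1, h5]
  rw [abs_le] at e1 e2 ⊢
  constructor <;> linarith only [e3, e1.1, e2.1, e1.2, e2.2]

end Vale.Agent.P166.L
end
end

section

section

/-!
P166, lower bound: the consistency of the overlaps and of the cavity field.
-/

open MeasureTheory ProbabilityTheory Matrix Filter Topology

namespace Vale.Agent.P166.L

open Vale.Agent.P157.Lv Vale.Agent.P157.Par Md H U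

variable {n : ℕ}

/-- From the two-sided estimate with steps `± τ`, `X = τ ^ 4`. -/
theorem sp_abs {s D C C' τ X : ℝ} (hτ : 0 < τ) (hX : √X = τ ^ 2)
    (h : ∀ t : ℝ, |t| ≤ τ → t * (s * D) ≤ 2 * C * √X + C' * t ^ 2) :
    |s * D| ≤ (2 * C + C') * τ := by
  have h1 := h τ (by rw [abs_of_pos hτ])
  have h2 := h (-τ) (by rw [abs_neg, abs_of_pos hτ])
  rw [hX] at h1 h2
  rw [abs_le]
  constructor
  · refine le_of_mul_le_mul_left ?_ hτ
    linarith
  · refine le_of_mul_le_mul_left ?_ hτ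
    linarith

theorem sp_update {s : ℕ → ℝ} {K l : ℕ} {t b : ℝ} (hl : l ≤ K)
    (hs : ∑ i ∈ Finset.range (K + 1), s i ^ 2 ≤ b) (hsl : |s l| ≤ 1) (ht : |t| ≤ 1) :
    ∑ i ∈ Finset.range (K + 1), Function.update s l (s l + t) i ^ 2 ≤ b + 3 := by
  rw [F.sg_cum_update, if_pos hl]
  have h1 : s l * t ≤ 1 := by
    refine (le_abs_self _).trans ?_
    rw [abs_mul]
    exact mul_le_one₀ hsl (abs_nonneg _) ht
  have h2 : t ^ 2 ≤ 1 := (sq_le_one_iff_abs_le_one _).2 ht
  linarith only [hs, h1, h2]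

/-- **Spin consistency.** Compare `val_E` at `s' = P.s` and at `s' = update P.s l (P.s l ± τ)`,
`τ = X^{1/4}`, average over `k0` with the weights `α`, with `nmd_up`, `F.G_tangent`. -/
theorem spin_E {β : ℝ} (hβ : 0 < β) {a α : Fin (n + 1) → ℝ} {μ g : Fin n → ℝ}
    {Q : Fin (n + 1) → Matrix (Fin (n + 1)) (Fin (n + 1)) ℝ} (D : Dat (fun k => β * a k) α μ g Q)
    (B : ℝ) :
    ∃ C x0 : ℝ, 0 ≤ C ∧ 0 < x0 ∧ ∀ (N K : ℕ) (m : ℕ → ℝ) (c : Fin N → Fin (n + 1)) (P : Pm (n + 1))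
      (r : Fin (n + 1) → Fin N) [MeasurableSpace (orthogonalGroup (Fin N) ℝ)]
      [BorelSpace (orthogonalGroup (Fin N) ℝ)] (ν : Measure (orthogonalGroup (Fin N) ℝ))
      [IsProbabilityMeasure ν] [ν.IsMulLeftInvariant]
      [MeasurableSpace (orthogonalGroup (Fin (N + 1)) ℝ)]
      [BorelSpace (orthogonalGroup (Fin (N + 1)) ℝ)]
      (ν' : Measure (orthogonalGroup (Fin (N + 1)) ℝ)) [IsProbabilityMeasure ν']
      [ν'.IsMulLeftInvariant] (dl X : ℝ),
      Good (fun k => β * a k) α B dl K m c P r → Err (fun k => β * a k) α μ g B dl X ν K m c P r →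
      X ≤ x0 → (∀ i, 1 ≤ i → i ≤ K → 0 < P.s i) → ∑ i ∈ Finset.range (K + 1), P.s i ^ 2 ≤ 1 →
      (∀ k0 : Fin (n + 1), ∀ l, 1 ≤ l → l ≤ K → |∑ i ∈ Finset.Ico l (K + 1), (m (i + 1) - m i) *
        (Ql ν' K m (Fin.cons k0 c : Fin (N + 1) → Fin (n + 1)) P i - Ql ν K m c P i)| ≤ X) →
      EPar K (B - 3) (F.rDiag β (atoms a α) K m (Ql ν K m c P) - mbar (fun k => β * a k) α)
        (F.rPath β (atoms a α) K m (Ql ν K m c P)) P.s 1 0 →
      ∀ l, 1 ≤ l → l ≤ K → P.s l * |∑ i ∈ Finset.Ico l (K + 1), (m (i + 1) - m i) *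
        (Ql ν K m c P i - spR K m (fun l => F.rPath β (atoms a α) K m (Ql ν K m c P) l +
          ∑ i ∈ Finset.range (l + 1), P.s i ^ 2) i)| ≤ C * √(√X) := by
  obtain ⟨Cv, xv, hCv, hxv, hv⟩ := val_E hβ D B
  obtain ⟨Cn, hCn, hn⟩ := nmd_up 1
  refine ⟨2 * Cv + Cn + 1, min xv 1, by positivity, lt_min hxv one_pos, ?_⟩
  intro N K m c P r _ _ ν _ _ _ _ ν' _ _ dl X G E hX hsp hss hQ hEP l hl hlK
  have hX1 : X ≤ xv := hX.trans (min_le_left _ _)
  have hX2 : X ≤ 1 := hX.trans (min_le_right _ _)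
  have hNr : (0 : ℝ) < N := by exact_mod_cast G.N0
  have hX0 : 0 < X := lt_of_lt_of_le (by positivity) E.hN
  have hsX : 0 < √X := Real.sqrt_pos.2 hX0
  set τ : ℝ := √(√X) with hτ
  have hτ0 : 0 < τ := Real.sqrt_pos.2 hsX
  have hτ2 : √X = τ ^ 2 := (Real.sq_sqrt hsX.le).symm
  have hX4 : X = (τ ^ 2) ^ 2 := by rw [← hτ2, Real.sq_sqrt hX0.le]
  have hτ1 : τ ≤ 1 := by
    rw [hτ, Real.sqrt_le_one, Real.sqrt_le_one]
    exact hX2
  have hXτ : X ≤ τ := by
    rw [hX4, ← pow_mul]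
    calc τ ^ (2 * 2) ≤ τ ^ 1 := pow_le_pow_of_le_one hτ0.le hτ1 (by norm_num)
      _ = τ := pow_one τ
  set c' : Fin (N + 1) → Fin (n + 1) := Fin.cons 0 c with hc'
  set rr := F.rPath β (atoms a α) K m (Ql ν K m c P) with hrr
  set rd := F.rDiag β (atoms a α) K m (Ql ν K m c P) with hrd
  have hsn : ∀ i ≤ K, 0 ≤ P.s i := fun i hi => by
    rcases Nat.eq_zero_or_pos i with rfl | h
    · rw [G.s0]
    · exact (hsp i h hi).le
  have hsl0 := hsn l hlK
  have hsl : P.s l ^ 2 ≤ 1 := by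
    refine le_trans ?_ hss
    exact Finset.single_le_sum (f := fun i => P.s i ^ 2) (fun i _ => sq_nonneg _)
      (Finset.mem_range.2 (Nat.lt_succ_of_le hlK))
  have hsl1 : |P.s l| ≤ 1 := (sq_le_one_iff_abs_le_one _).1 hsl
  have hsl2 : P.s l ≤ 1 := (le_abs_self _).trans hsl1
  have EP : ∀ s' : ℕ → ℝ, s' 0 = 0 → ∑ i ∈ Finset.range (K + 1), s' i ^ 2 ≤ B →
      EPar K B (rd - mbar (fun k => β * a k) α) rr s' 1 0 := fun s' h0 h1 =>
    ⟨by linarith only [hEP.hrd], hEP.rr0, hEP.hrr, by linarith only [hEP.rrK], h0, h1, by simp, by simp only [abs_zero, zero_le_one]⟩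
  have v0 := hv N K m c P r 0 ν ν' dl X G E hX1 P.s (EP P.s G.s0 (by linarith only [hEP.hs]))
  have e0 : (fun U => (nmd K m (Fin.cons 0 c : Fin (N + 1) → Fin (n + 1)) P P.s U).fe) =
      fun U => (mdl K m c' P U).fe := by
    funext U
    rw [nmd_self]
  rw [e0] at v0
  set A' := ∑ i ∈ Finset.Ico l (K + 1), (m (i + 1) - m i) * Ql ν' K m c' P i with hA'
  set Sg := ∑ i ∈ Finset.Ico l (K + 1), (m (i + 1) - m i) *
      spR K m (fun l => rr l + ∑ i ∈ Finset.range (l + 1), P.s i ^ 2) i with hSg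
  have key : ∀ t : ℝ, |t| ≤ τ → t * (P.s l * (A' - Sg)) ≤ 2 * Cv * √X + Cn * t ^ 2 := by
    intro t ht
    have ht1 : |t| ≤ 1 := ht.trans hτ1
    have hu := sp_update (b := B - 3) hlK hEP.hs hsl1 ht1
    have v1 := hv N K m c P r 0 ν ν' dl X G E hX1 (Function.update P.s l (P.s l + t))
      (EP _ (by rw [Function.update_of_ne (by omega)]; exact G.s0) (by linarith only [hu]))
    have v2 := hn N K (n + 1) m c' P ν' l t G.hm hlK hsn hsl2 ht1
    have v3 := F.G_tangent G.hm (rr := rr) (s := P.s)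
      ⟨by rw [hEP.rr0], hEP.hrr⟩ hEP.rr0 G.s0 (fun i h1 h2 => (hsp i h1 h2).ne') hl hlK t
    have v4 := (abs_le.1 v1).1
    have v5 := (abs_le.1 v0).2
    have e1 : EU ν' (fun U => (mdl K m c' P U).fe) = Ph ν' K m c' P := rfl
    rw [e1] at v5
    rw [← hA'] at v2
    rw [← hSg] at v3
    linarith only [v2, v3, v4, v5]
  have h1 := sp_abs hτ0 hτ2 key
  have h2 := hQ 0 l hl hlK
  have e2 : ∑ i ∈ Finset.Ico l (K + 1), (m (i + 1) - m i) *
      (Ql ν K m c P i - spR K m (fun l => rr l + ∑ i ∈ Finset.range (l + 1), P.s i ^ 2) i) =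
      (A' - Sg) - ∑ i ∈ Finset.Ico l (K + 1), (m (i + 1) - m i) *
        (Ql ν' K m (Fin.cons 0 c : Fin (N + 1) → Fin (n + 1)) P i - Ql ν K m c P i) := by
    rw [hA', hSg, ← Finset.sum_sub_distrib, ← Finset.sum_sub_distrib]
    refine Finset.sum_congr rfl fun i _ => ?_
    ring
  rw [e2]
  calc P.s l * |(A' - Sg) - ∑ i ∈ Finset.Ico l (K + 1), (m (i + 1) - m i) *
        (Ql ν' K m (Fin.cons 0 c : Fin (N + 1) → Fin (n + 1)) P i - Ql ν K m c P i)|
      ≤ P.s l * (|A' - Sg| + X) := by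
        refine mul_le_mul_of_nonneg_left ?_ hsl0
        exact (abs_sub _ _).trans (add_le_add le_rfl h2)
    _ = |P.s l * (A' - Sg)| + P.s l * X := by
        rw [abs_mul, abs_of_nonneg hsl0]
        ring
    _ ≤ (2 * Cv + Cn) * τ + 1 * τ := add_le_add h1
        (mul_le_mul hsl2 hXτ hX0.le zero_le_one)
    _ = (2 * Cv + Cn + 1) * τ := by ring

end Vale.Agent.P166.L
end
end

section

section

/-!
P166, lower bound: the increment of the free energy, from the errors.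
-/

open MeasureTheory ProbabilityTheory Matrix Filter Topology

namespace Vale.Agent.P166.L

open Vale.Agent.P157.Lv Vale.Agent.P157.Par Md H U
open Vale.Agent.P166.F (Expo trf eq' Gsp)

variable {n : ℕ}

/-- **The increment.** `nmd_self`, `val_E` at `s' = P.s`, `stage1`, `stage_value`, `value_final`. -/
theorem step_E {β : ℝ} (hβ : 0 < β) {a α : Fin (n + 1) → ℝ} {μ g : Fin n → ℝ}
    {Q : Fin (n + 1) → Matrix (Fin (n + 1)) (Fin (n + 1)) ℝ} (D : Dat (fun k => β * a k) α μ g Q)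
    {h : ℝ} (hh0 : 0 ≤ h) (hh : ∀ j : Fin n, β * a j.succ - β * a j.castSucc ≤ h) (B : ℝ) :
    ∃ C x0 : ℝ, 0 ≤ C ∧ 0 < x0 ∧ ∀ (N K : ℕ) (m : ℕ → ℝ) (c : Fin N → Fin (n + 1)) (P : Pm (n + 1))
      (r : Fin (n + 1) → Fin N) [MeasurableSpace (orthogonalGroup (Fin N) ℝ)]
      [BorelSpace (orthogonalGroup (Fin N) ℝ)] (ν : Measure (orthogonalGroup (Fin N) ℝ))
      [IsProbabilityMeasure ν] [ν.IsMulLeftInvariant]
      [MeasurableSpace (orthogonalGroup (Fin (N + 1)) ℝ)]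
      [BorelSpace (orthogonalGroup (Fin (N + 1)) ℝ)]
      (ν' : Measure (orthogonalGroup (Fin (N + 1)) ℝ)) [IsProbabilityMeasure ν']
      [ν'.IsMulLeftInvariant] (dl X e : ℝ),
      Good (fun k => β * a k) α B dl K m c P r → Err (fun k => β * a k) α μ g B dl X ν K m c P r →
      X ≤ x0 → (∀ i ≤ K, 0 ≤ P.s i) →
      EPar K B (F.rDiag β (atoms a α) K m (Ql ν K m c P) - mbar (fun k => β * a k) α)
        (F.rPath β (atoms a α) K m (Ql ν K m c P)) P.s 1 0 → 0 < e → e ≤ 1 →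
      (∀ l, 1 ≤ l → l ≤ K → |∑ i ∈ Finset.Ico l (K + 1), (m (i + 1) - m i) *
        (Ql ν K m c P i - spR K m (fun l => F.rPath β (atoms a α) K m (Ql ν K m c P) l +
          ∑ i ∈ Finset.range (l + 1), P.s i ^ 2) i)| ≤ e) →
      ∃ y ∈ vals β (atoms a α), Real.log 2 + y - 1 / 2 * (h / α (Fin.last n)) -
        C * (√X + √e) ≤
        ∑ k, α k * Ph ν' K m (Fin.cons k c : Fin (N + 1) → Fin (n + 1)) P - Ph ν K m c P := by
  obtain ⟨C1, x1, hC1, hx1, H1⟩ := val_E hβ D B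
  obtain ⟨C2, x2, hC2, hx2, H2⟩ := stage1 hβ D hh0 hh B
  obtain ⟨C3, hC3, H3⟩ := value_final (a := a) D.pos D.one hβ B
  refine ⟨C1 + 2 * C2 + C3, min (min x1 x2) 1, by positivity,
    lt_min (lt_min hx1 hx2) one_pos, ?_⟩
  intro N K m c P r _ _ ν _ _ _ _ ν' _ _ dl X e hG hE hX hs hpar he0 he1 htail
  have hX1 : X ≤ x1 := hX.trans ((min_le_left _ _).trans (min_le_left _ _))
  have hX2 : X ≤ x2 := hX.trans ((min_le_left _ _).trans (min_le_right _ _))
  have hX3 : X ≤ 1 := hX.trans (min_le_right _ _)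
  have hX0 : 0 ≤ X := le_trans (by positivity) hE.hN
  have hXs : X ≤ √X := by
    have h1 := Real.sq_sqrt hX0
    have h2 : √X ≤ 1 := Real.sqrt_le_one.2 hX3
    nlinarith only [h1, h2, Real.sqrt_nonneg X]
  have hm := hG.hm
  have hN := hG.N0
  -- the overlap path
  set q := Ql ν K m c P with hq
  have hqP : Vale.Agent.P157.Par.Path K q := by
    constructor
    · exact Finset.sum_nonneg fun k _ => Rkl_nonneg hm hN k (Nat.zero_le K)
    · intro l hl
      exact Finset.sum_le_sum fun k _ => Rkl_mono hm hN k hl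
  have hq0 : q 0 = 0 := Finset.sum_eq_zero fun k _ => Rkl_zero hm hN hG.s0 hG.u0 k
  have hq1 : q K < 1 := Ql_lt_one hm hN
  have hmE : Expo K m := F.exponents_expo hm
  -- the path of the strengths
  have hSP : Vale.Agent.P157.Par.Path K (fun l => ∑ i ∈ Finset.range (l + 1), P.s i ^ 2) := by
    constructor
    · exact Finset.sum_nonneg fun i _ => sq_nonneg _
    · intro l _
      show ∑ i ∈ Finset.range (l + 1), P.s i ^ 2 ≤ ∑ i ∈ Finset.range (l + 1 + 1), P.s i ^ 2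
      rw [Finset.sum_range_succ _ (l + 1)]
      linarith only [sq_nonneg (P.s (l + 1))]
  have hS0 : (fun l => ∑ i ∈ Finset.range (l + 1), P.s i ^ 2) 0 = 0 := by
    simp [hG.s0]
  obtain ⟨y, hy, hyle⟩ := H3 K m q (fun l => ∑ i ∈ Finset.range (l + 1), P.s i ^ 2) e hm hqP hq0
    hq1 hSP hS0 hG.hs he0 he1 htail
  refine ⟨y, hy, ?_⟩
  have hst := stage_value (a := a) D.pos D.one hβ hmE hqP hq0 hq1
  -- one type
  have hk : ∀ k, Ph ν K m c P - 1 / 2 * trf K m (fun x => Real.log (x * (Az β a α x - β * a k)))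
      (eq' K m q) - 1 / 2 * (h / α (Fin.last n)) + Real.log 2 +
      1 / 2 * F.rDiag β (atoms a α) K m q + Gsp K m (F.rPath β (atoms a α) K m q) P.s -
      (C1 + 2 * C2) * √X ≤ Ph ν' K m (Fin.cons k c : Fin (N + 1) → Fin (n + 1)) P := by
    intro k
    have h1 := H1 N K m c P r k ν ν' dl X hG hE hX1 P.s hpar
    have h2 := H2 N K m c P r k ν dl hG (hE.hdl.trans hX2)
    have h3 : EU ν' (fun U => (nmd K m (Fin.cons k c : Fin (N + 1) → Fin (n + 1)) P P.s U).fe) =
        Ph ν' K m (Fin.cons k c : Fin (N + 1) → Fin (n + 1)) P := by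
      simp only [nmd_self]
      rfl
    rw [h3] at h1
    have h4 := (abs_le.1 h1).1
    have h5 : C2 * (∑ k, Dv ν K m c P k + (K + 1) * dl) ≤ 2 * C2 * √X := by
      have h6 : ∑ k, Dv ν K m c P k + (K + 1) * dl ≤ 2 * √X := by
        linarith only [hXs, hE.hD, hE.hdl]
      calc C2 * (∑ k, Dv ν K m c P k + (K + 1) * dl) ≤ C2 * (2 * √X) :=
            mul_le_mul_of_nonneg_left h6 hC2
        _ = 2 * C2 * √X := by ring
    linarith only [h2, h4, h5]
  -- the average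
  have hsum := Finset.sum_le_sum (s := Finset.univ) fun k _ =>
    mul_le_mul_of_nonneg_left (hk k) (D.pos k).le
  have hL : ∑ k, α k * (Ph ν K m c P - 1 / 2 *
      trf K m (fun x => Real.log (x * (Az β a α x - β * a k))) (eq' K m q) -
      1 / 2 * (h / α (Fin.last n)) + Real.log 2 + 1 / 2 * F.rDiag β (atoms a α) K m q +
      Gsp K m (F.rPath β (atoms a α) K m q) P.s - (C1 + 2 * C2) * √X) =
      Ph ν K m c P + (-(1 / 2) * ∑ k, α k *
        trf K m (fun x => Real.log (x * (Az β a α x - β * a k))) (eq' K m q) +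
        1 / 2 * F.rDiag β (atoms a α) K m q) - 1 / 2 * (h / α (Fin.last n)) + Real.log 2 +
      Gsp K m (F.rPath β (atoms a α) K m q) P.s - (C1 + 2 * C2) * √X := by
    have h1 : ∀ k, α k * (Ph ν K m c P - 1 / 2 *
        trf K m (fun x => Real.log (x * (Az β a α x - β * a k))) (eq' K m q) -
        1 / 2 * (h / α (Fin.last n)) + Real.log 2 + 1 / 2 * F.rDiag β (atoms a α) K m q +
        Gsp K m (F.rPath β (atoms a α) K m q) P.s - (C1 + 2 * C2) * √X) =
        α k * (Ph ν K m c P - 1 / 2 * (h / α (Fin.last n)) + Real.log 2 +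
          1 / 2 * F.rDiag β (atoms a α) K m q +
          Gsp K m (F.rPath β (atoms a α) K m q) P.s - (C1 + 2 * C2) * √X) +
        -(1 / 2) * (α k *
          trf K m (fun x => Real.log (x * (Az β a α x - β * a k))) (eq' K m q)) :=
      fun k => by ring
    rw [Finset.sum_congr rfl fun k _ => h1 k, Finset.sum_add_distrib, ← Finset.sum_mul,
      ← Finset.mul_sum, D.one]
    ring
  rw [hL, hst] at hsum
  have hG' : Gsp K m (F.rPath β (atoms a α) K m q) P.s =
      spinPart K m (fun l => F.rPath β (atoms a α) K m q l +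
        ∑ i ∈ Finset.range (l + 1), P.s i ^ 2) +
      1 / 2 * ∑ i ∈ Finset.range (K + 1), P.s i ^ 2 := rfl
  rw [hG'] at hsum
  have h7 : 0 ≤ C3 * √X := mul_nonneg hC3 (Real.sqrt_nonneg _)
  have h8 : 0 ≤ (C1 + 2 * C2) * √e := mul_nonneg (by positivity) (Real.sqrt_nonneg _)
  have h9 : (C1 + 2 * C2 + C3) * (√X + √e) = (C1 + 2 * C2) * √X + C3 * √e + C3 * √X +
      (C1 + 2 * C2) * √e := by ring
  rw [h9]
  linarith only [hyle, hsum, h7, h8]

end Vale.Agent.P166.L
end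
end

section

section

/-!
P166, lower bound: the model of size `N + 1` is close to the one of size `N`.
-/

open MeasureTheory ProbabilityTheory Matrix Filter Topology

namespace Vale.Agent.P166.L

open Vale.Agent.P157.Lv Vale.Agent.P157.Par Md H U

variable {n : ℕ}

theorem cn_epar {N K : ℕ} {m : ℕ → ℝ} {b α : Fin (n + 1) → ℝ} {B dl : ℝ}
    {c : Fin N → Fin (n + 1)} {P : Pm (n + 1)} {r : Fin (n + 1) → Fin N}
    (G : Good b α B dl K m c P r) : EPar K B 0 0 P.s 1 0 := by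
  have hB : 0 ≤ B := (Finset.sum_nonneg fun _ _ => sq_nonneg _).trans G.hs
  refine ⟨by simpa only [abs_zero] using hB, rfl, fun _ _ => le_rfl, by simpa only [Pi.zero_apply] using hB, G.s0, G.hs, by simp,
    by simp only [abs_zero, zero_le_one]⟩

theorem cn_dl {N K : ℕ} {m : ℕ → ℝ} {b α : Fin (n + 1) → ℝ} {B dl x : ℝ}
    {c : Fin N → Fin (n + 1)} {P : Pm (n + 1)} {r : Fin (n + 1) → Fin N}
    (G : Good b α B dl K m c P r) (h : (K + 1) * dl ≤ x) : dl ≤ x := by
  have h1 := G.dl0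
  have h2 : (0 : ℝ) ≤ K := Nat.cast_nonneg K
  linarith only [h, mul_nonneg h2 h1]

theorem cn_jensen {N : ℕ} [MeasurableSpace (orthogonalGroup (Fin N) ℝ)]
    (ν : Measure (orthogonalGroup (Fin N) ℝ)) {f g : Matrix (Fin N) (Fin N) ℝ → ℝ} {C : ℝ}
    (hf : Integrable (fun U : orthogonalGroup (Fin N) ℝ => f U.1) ν)
    (hg : Integrable (fun U : orthogonalGroup (Fin N) ℝ => g U.1) ν)
    (h : EU ν (fun U => |f U - g U|) ≤ C) : |EU ν f - EU ν g| ≤ C := by
  refine le_trans ?_ h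
  unfold EU
  rw [← integral_sub hf hg]
  exact abs_integral_le_integral_abs

/-- The free energies differ by a constant (`law_E` with `s' = P.s`, `nmd_self`, `close_E`). -/
theorem close_N {b α : Fin (n + 1) → ℝ} {μ g : Fin n → ℝ}
    {Q : Fin (n + 1) → Matrix (Fin (n + 1)) (Fin (n + 1)) ℝ} (D : Dat b α μ g Q) (B : ℝ) :
    ∃ C x0 : ℝ, 0 ≤ C ∧ 0 < x0 ∧ ∀ (N K : ℕ) (m : ℕ → ℝ) (c : Fin N → Fin (n + 1)) (P : Pm (n + 1))
      (r : Fin (n + 1) → Fin N) (k0 : Fin (n + 1)) [MeasurableSpace (orthogonalGroup (Fin N) ℝ)]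
      [BorelSpace (orthogonalGroup (Fin N) ℝ)] (ν : Measure (orthogonalGroup (Fin N) ℝ))
      [IsProbabilityMeasure ν] [ν.IsMulLeftInvariant]
      [MeasurableSpace (orthogonalGroup (Fin (N + 1)) ℝ)]
      [BorelSpace (orthogonalGroup (Fin (N + 1)) ℝ)]
      (ν' : Measure (orthogonalGroup (Fin (N + 1)) ℝ)) [IsProbabilityMeasure ν']
      [ν'.IsMulLeftInvariant] (dl : ℝ), Good b α B dl K m c P r →
      (K + 1) * dl ≤ x0 → 1 / √N ≤ x0 →
      |Ph ν' K m (Fin.cons k0 c : Fin (N + 1) → Fin (n + 1)) P - Ph ν K m c P| ≤ C := by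
  obtain ⟨C1, x1, hC1, hx1, h1⟩ := law_E D B
  obtain ⟨C2, x2, hC2, hx2, h2⟩ := close_E D B
  refine ⟨C1 * (2 * x1) + C2, min x1 x2, by positivity, lt_min hx1 hx2, ?_⟩
  intro N K m c P r k0 _ _ ν _ _ _ _ ν' _ _ dl G hdl hN
  have hE := cn_epar G
  have a1 := h1 N K m c P r k0 ν ν' dl G (hdl.trans (min_le_left _ _))
    (hN.trans (min_le_left _ _)) P.s hE
  have a2 := h2 N K m c P r k0 ν dl G (hdl.trans (min_le_right _ _))
    (hN.trans (min_le_right _ _)) 0 0 P.s 1 0 hE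
  simp only [nmd_self] at a1
  have a3 := cn_jensen ν (int_gs_fe ν (egs_ok G.hm _)) (integrable_fe G.hm G.N0) a2
  have a4 : dl + 1 / √(N : ℝ) ≤ 2 * x1 := by
    have := (cn_dl G hdl).trans (min_le_left _ _)
    have := hN.trans (min_le_left _ _)
    linarith
  have a5 := a1.trans (mul_le_mul_of_nonneg_left a4 hC1)
  have a6 := abs_sub_le (EU ν' (fun U => (mdl K m (Fin.cons k0 c : Fin (N + 1) → Fin (n + 1)) P
    U).fe)) (EF ν K m (MP K c (wi r k0) P μ g (mbar b α) 0 0 P.s 1 0))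
    (EU ν (fun U => (mdl K m c P U).fe))
  exact a6.trans (add_le_add a5 a3)

/-! ### Convexity -/

theorem cn_real {F0 F1 F2 G0 G1 G2 a a' C t : ℝ} (h1 : F0 + t * a ≤ F1) (h2 : F0 + -t * a ≤ F2)
    (g1 : G0 + t * a' ≤ G1) (g2 : G0 + -t * a' ≤ G2) (c0 : |G0 - F0| ≤ C) (c1 : |G1 - F1| ≤ C)
    (c2 : |G2 - F2| ≤ C) : |t * a' - t * a| ≤ (F1 + F2 - 2 * F0) + 2 * C := by
  rw [abs_le] at c0 c1 c2
  rw [abs_le]
  constructor <;> linarith only [h1, g2, c0.1, c2.2, h2, g1, c1.2]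

theorem cn_good_b {N K : ℕ} {m : ℕ → ℝ} {b α : Fin (n + 1) → ℝ} {B dl t τ : ℝ}
    {c : Fin N → Fin (n + 1)} {P : Pm (n + 1)} {r : Fin (n + 1) → Fin N}
    (G : Good b α B dl K m c P r) (ht : 0 ≤ t) (hτ : |τ| ≤ t) (k : Fin (n + 1)) :
    Good b α B (dl + t) K m c (pmb P k τ) r where
  N0 := G.N0
  hm := G.hm
  hb := by
    intro k'
    change |Function.update P.b k (P.b k + τ) k' - b k'| ≤ dl + t
    by_cases h : k' = k
    · subst h
      rw [Function.update_self, show P.b k' + τ - b k' = (P.b k' - b k') + τ by ring]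
      exact (abs_add_le _ _).trans (add_le_add (G.hb _) hτ)
    · rw [Function.update_of_ne h]
      exact (G.hb _).trans (by linarith)
  s0 := G.s0
  hs := G.hs
  u0 := G.u0
  hu := fun k l hl => (G.hu k l hl).trans (by linarith only [ht])
  fr := fun k => (G.fr k).trans (by linarith)
  hr := G.hr

theorem cn_good_u {N K : ℕ} {m : ℕ → ℝ} {b α : Fin (n + 1) → ℝ} {B dl t τ : ℝ}
    {c : Fin N → Fin (n + 1)} {P : Pm (n + 1)} {r : Fin (n + 1) → Fin N}
    (G : Good b α B dl K m c P r) (ht : 0 ≤ t) (hτ : |τ| ≤ t) (k : Fin (n + 1)) {l : ℕ}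
    (hl : 1 ≤ l) : Good b α B (dl + t) K m c (pmu P k l τ) r where
  N0 := G.N0
  hm := G.hm
  hb := fun k => (G.hb k).trans (by linarith only [ht])
  s0 := G.s0
  hs := G.hs
  u0 := by
    intro k'
    change Function.update P.u k (Function.update (P.u k) l (P.u k l + τ)) k' 0 = 0
    by_cases h : k' = k
    · subst h
      rw [Function.update_self, Function.update_of_ne (by omega)]
      exact G.u0 _
    · rw [Function.update_of_ne h]
      exact G.u0 _
  hu := by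
    intro k' i hi
    change |Function.update P.u k (Function.update (P.u k) l (P.u k l + τ)) k' i| ≤ dl + t
    by_cases h : k' = k
    · subst h
      rw [Function.update_self]
      by_cases h2 : i = l
      · subst h2
        rw [Function.update_self]
        exact (abs_add_le _ _).trans (add_le_add (G.hu _ _ hi) hτ)
      · rw [Function.update_of_ne h2]
        exact (G.hu _ _ hi).trans (by linarith only [ht])
    · rw [Function.update_of_ne h]
      exact (G.hu _ _ hi).trans (by linarith only [ht])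
  fr := fun k => (G.fr k).trans (by linarith only [ht])
  hr := G.hr

/-- The averaged overlap of the block. -/
noncomputable def cnS {N : ℕ} [MeasurableSpace (orthogonalGroup (Fin N) ℝ)]
    (ν : Measure (orthogonalGroup (Fin N) ℝ)) (K : ℕ) (m : ℕ → ℝ)
    (c : Fin N → Fin (n + 1)) (P : Pm (n + 1)) (k : Fin (n + 1)) (l : ℕ) : ℝ :=
  ∑ i ∈ Finset.Ico l (K + 1), (m (i + 1) - m i) * Rkl ν K m c P k i

theorem cn_S_bounds {N K : ℕ} {m : ℕ → ℝ} [MeasurableSpace (orthogonalGroup (Fin N) ℝ)]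
    [BorelSpace (orthogonalGroup (Fin N) ℝ)] {ν : Measure (orthogonalGroup (Fin N) ℝ)}
    [IsProbabilityMeasure ν] (hm : Exponents K m) (hN : 0 < N) (c : Fin N → Fin (n + 1))
    (P : Pm (n + 1)) (k : Fin (n + 1)) {l : ℕ} (hl : l ≤ K) :
    0 ≤ cnS ν K m c P k l ∧ cnS ν K m c P k l ≤ 1 := by
  have hS : (mdl K m c P (1 : Matrix (Fin N) (Fin N) ℝ)).Reg := (mdl_regD hm).toReg
  have h := m3_sub_bounds hS (l := l) hl (q := fun i => Rkl ν K m c P k i)
    (ρ := rho ν K m c P k) (fun i hi => Rkl_nonneg hm hN k hi) (fun i hi => Rkl_le hm hN k hi)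
  have h1 : ∑ i ∈ Finset.Ico l ((mdl K m c P (1 : Matrix (Fin N) (Fin N) ℝ)).K + 1),
      (mdl K m c P (1 : Matrix (Fin N) (Fin N) ℝ)).p i * Rkl ν K m c P k i =
      cnS ν K m c P k l := rfl
  rw [h1] at h
  have h2 := m3_rho_le_one (ν := ν) (c := c) (P := P) hm hN k
  exact ⟨by linarith only [h.2], by linarith only [h2, h.1]⟩

theorem cn_SD {N K : ℕ} {m : ℕ → ℝ} [MeasurableSpace (orthogonalGroup (Fin N) ℝ)]
    [BorelSpace (orthogonalGroup (Fin N) ℝ)] {ν : Measure (orthogonalGroup (Fin N) ℝ)}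
    [IsProbabilityMeasure ν] (hm : Exponents K m) (hN : 0 < N) (c : Fin N → Fin (n + 1))
    (P : Pm (n + 1)) (t : ℝ) (k : Fin (n + 1)) :
    (Ph ν K m c (pmb P k t) + Ph ν K m c (pmb P k (-t)) - 2 * Ph ν K m c P ≤ SD ν K m c P t) ∧
    ∀ l, 1 ≤ l → l ≤ K →
      Ph ν K m c (pmu P k l t) + Ph ν K m c (pmu P k l (-t)) - 2 * Ph ν K m c P
        ≤ SD ν K m c P t := by
  have hb : ∀ k, 0 ≤ Ph ν K m c (pmb P k t) + Ph ν K m c (pmb P k (-t)) - 2 * Ph ν K m c P :=
    fun k => sd_b_nonneg hm hN c P k t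
  have hu : ∀ k l, 0 ≤ Ph ν K m c (pmu P k l t) + Ph ν K m c (pmu P k l (-t)) -
    2 * Ph ν K m c P := fun k l => sd_u_nonneg hm hN c P k l t
  have hu' : ∀ k, 0 ≤ ∑ l ∈ Finset.Ico 1 (K + 1),
      (Ph ν K m c (pmu P k l t) + Ph ν K m c (pmu P k l (-t)) - 2 * Ph ν K m c P) :=
    fun k => Finset.sum_nonneg fun l _ => hu k l
  constructor
  · unfold SD
    refine le_add_of_le_of_nonneg ?_ (Finset.sum_nonneg fun k _ => hu' k)
    exact Finset.single_le_sum (f := fun k => Ph ν K m c (pmb P k t) +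
      Ph ν K m c (pmb P k (-t)) - 2 * Ph ν K m c P) (fun k _ => hb k) (Finset.mem_univ k)
  · intro l hl hlK
    unfold SD
    refine le_add_of_nonneg_of_le (Finset.sum_nonneg fun k _ => hb k) ?_
    refine le_trans ?_ (Finset.single_le_sum (f := fun k => ∑ l ∈ Finset.Ico 1 (K + 1),
      (Ph ν K m c (pmu P k l t) + Ph ν K m c (pmu P k l (-t)) - 2 * Ph ν K m c P))
      (fun k _ => hu' k) (Finset.mem_univ k))
    exact Finset.single_le_sum (f := fun l => Ph ν K m c (pmu P k l t) +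
      Ph ν K m c (pmu P k l (-t)) - 2 * Ph ν K m c P) (fun l _ => hu k l)
      (Finset.mem_Ico.2 ⟨hl, by omega⟩)

/-- From the differences of the extensive quantities to the overlaps. -/
theorem cn_alg {T ρ ρ' S S' u σ0 t M : ℝ} (hT : 0 ≤ T) (ht : 0 < t) (hσ : 0 < σ0)
    (hu : σ0 ≤ u) (h1 : |t * ((T + 1) / 2 * ρ') - t * (T / 2 * ρ)| ≤ M)
    (h2 : |t * ((T + 1) * (u * (ρ' - S'))) - t * (T * (u * (ρ - S)))| ≤ M)
    (hS0 : 0 ≤ S') (hS1 : S' ≤ 1) :
    t * σ0 * (T * |S' - S|) ≤ (2 * σ0 + 1) * M + t * σ0 := by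
  have e1 : t * ((T + 1) / 2 * ρ') - t * (T / 2 * ρ) = t / 2 * ((T + 1) * ρ' - T * ρ) := by ring
  have e2 : t * ((T + 1) * (u * (ρ' - S'))) - t * (T * (u * (ρ - S))) =
      t * u * ((T + 1) * (ρ' - S') - T * (ρ - S)) := by ring
  rw [e1, abs_mul, abs_of_pos (by positivity)] at h1
  rw [e2, abs_mul, abs_of_pos (mul_pos ht (hσ.trans_le hu))] at h2
  have h3 : t * σ0 * |(T + 1) * (ρ' - S') - T * (ρ - S)| ≤ M :=
    le_trans (mul_le_mul_of_nonneg_right (mul_le_mul_of_nonneg_left hu ht.le) (abs_nonneg _)) h2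
  have e3 : T * (S' - S) = ((T + 1) * ρ' - T * ρ) - ((T + 1) * (ρ' - S') - T * (ρ - S)) - S' := by
    ring
  have h4 : T * |S' - S| ≤ |(T + 1) * ρ' - T * ρ| + |(T + 1) * (ρ' - S') - T * (ρ - S)| + 1 := by
    rw [← abs_of_nonneg hT, ← abs_mul, abs_of_nonneg hT, e3]
    have a1 := abs_sub ((T + 1) * ρ' - T * ρ) ((T + 1) * (ρ' - S') - T * (ρ - S))
    have a2 := abs_sub (((T + 1) * ρ' - T * ρ) - ((T + 1) * (ρ' - S') - T * (ρ - S))) S'
    rw [abs_of_nonneg hS0] at a2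
    linarith only [hS1, a1, a2]
  have h5 : t * σ0 * |(T + 1) * ρ' - T * ρ| ≤ 2 * σ0 * M := by
    calc t * σ0 * |(T + 1) * ρ' - T * ρ| = 2 * σ0 * (t / 2 * |(T + 1) * ρ' - T * ρ|) := by ring
      _ ≤ 2 * σ0 * M := mul_le_mul_of_nonneg_left h1 (by positivity)
  calc t * σ0 * (T * |S' - S|)
      ≤ t * σ0 * (|(T + 1) * ρ' - T * ρ| + |(T + 1) * (ρ' - S') - T * (ρ - S)| + 1) :=
        mul_le_mul_of_nonneg_left h4 (by positivity)
    _ = t * σ0 * |(T + 1) * ρ' - T * ρ| + t * σ0 * |(T + 1) * (ρ' - S') - T * (ρ - S)| +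
        t * σ0 := by ring
    _ ≤ _ := by linarith only [h3, h5]

/-- The overlaps of a block. -/
theorem cn_blk {N K : ℕ} {m : ℕ → ℝ} [MeasurableSpace (orthogonalGroup (Fin N) ℝ)]
    [BorelSpace (orthogonalGroup (Fin N) ℝ)] {ν : Measure (orthogonalGroup (Fin N) ℝ)}
    [IsProbabilityMeasure ν] [MeasurableSpace (orthogonalGroup (Fin (N + 1)) ℝ)]
    [BorelSpace (orthogonalGroup (Fin (N + 1)) ℝ)]
    {ν' : Measure (orthogonalGroup (Fin (N + 1)) ℝ)} [IsProbabilityMeasure ν']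
    (hm : Exponents K m) (hN : 0 < N) (c : Fin N → Fin (n + 1))
    (c' : Fin (N + 1) → Fin (n + 1)) (P : Pm (n + 1)) {C σ0 t : ℝ} (ht : 0 < t) (hσ : 0 < σ0)
    (k : Fin (n + 1)) {l : ℕ} (hl : 1 ≤ l) (hlK : l ≤ K) (hu : σ0 ≤ P.u k l)
    (h0 : |Ph ν' K m c' P - Ph ν K m c P| ≤ C)
    (hb : ∀ τ : ℝ, |τ| ≤ t → |Ph ν' K m c' (pmb P k τ) - Ph ν K m c (pmb P k τ)| ≤ C)
    (hv : ∀ τ : ℝ, |τ| ≤ t → |Ph ν' K m c' (pmu P k l τ) - Ph ν K m c (pmu P k l τ)| ≤ C) :
    t * σ0 * (N * |cnS ν' K m c' P k l - cnS ν K m c P k l|) ≤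
      (2 * σ0 + 1) * (SD ν K m c P t + 2 * C) + t * σ0 := by
  have hN1 : 0 < N + 1 := Nat.succ_pos N
  have hsd := cn_SD (ν := ν) hm hN c P t k
  have b1 : |t| ≤ t := (abs_of_pos ht).le
  have b2 : |-t| ≤ t := by rw [abs_neg]; exact b1
  have A : ∀ τ, Ph ν K m c P + τ * ((N : ℝ) / 2 * rho ν K m c P k) ≤ Ph ν K m c (pmb P k τ) := by
    intro τ
    have := Ph_tangent_b (ν := ν) hm hN c P k τ
    refine le_trans (le_of_eq ?_) this
    ring
  have A' : ∀ τ, Ph ν' K m c' P + τ * (((N : ℝ) + 1) / 2 * rho ν' K m c' P k) ≤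
      Ph ν' K m c' (pmb P k τ) := by
    intro τ
    have := Ph_tangent_b (ν := ν') hm hN1 c' P k τ
    rw [Nat.cast_add, Nat.cast_one] at this
    refine le_trans (le_of_eq ?_) this
    ring
  have E : ∀ τ, Ph ν K m c P + τ * ((N : ℝ) * (P.u k l * (rho ν K m c P k -
      cnS ν K m c P k l))) ≤ Ph ν K m c (pmu P k l τ) := by
    intro τ
    have := Ph_tangent_u (ν := ν) hm hN c P k hlK τ
    refine le_trans (le_of_eq ?_) this
    unfold cnS
    ring
  have E' : ∀ τ, Ph ν' K m c' P + τ * (((N : ℝ) + 1) * (P.u k l * (rho ν' K m c' P k -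
      cnS ν' K m c' P k l))) ≤ Ph ν' K m c' (pmu P k l τ) := by
    intro τ
    have := Ph_tangent_u (ν := ν') hm hN1 c' P k hlK τ
    rw [Nat.cast_add, Nat.cast_one] at this
    refine le_trans (le_of_eq ?_) this
    unfold cnS
    ring
  have r1 := cn_real (A t) (A (-t)) (A' t) (A' (-t)) h0 (hb t b1) (hb (-t) b2)
  have r2 := cn_real (E t) (E (-t)) (E' t) (E' (-t)) h0 (hv t b1) (hv (-t) b2)
  have hS := cn_S_bounds (ν := ν') hm hN1 c' P k hlK
  exact cn_alg (Nat.cast_nonneg N) ht hσ hu (r1.trans (by linarith only [hsd.1]))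
    (r2.trans (by linarith only [hsd.2 l hl hlK])) hS.1 hS.2

theorem cn_sum {N N' K : ℕ} {m : ℕ → ℝ} [MeasurableSpace (orthogonalGroup (Fin N) ℝ)]
    (ν : Measure (orthogonalGroup (Fin N) ℝ)) [MeasurableSpace (orthogonalGroup (Fin N') ℝ)]
    (ν' : Measure (orthogonalGroup (Fin N') ℝ)) (c : Fin N → Fin (n + 1))
    (c' : Fin N' → Fin (n + 1)) (P : Pm (n + 1)) (l : ℕ) :
    ∑ i ∈ Finset.Ico l (K + 1), (m (i + 1) - m i) * (Ql ν' K m c' P i - Ql ν K m c P i) =
      ∑ k, (cnS ν' K m c' P k l - cnS ν K m c P k l) := by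
  unfold cnS Ql
  simp only [← Finset.sum_sub_distrib]
  rw [Finset.sum_comm]
  refine Finset.sum_congr rfl fun i _ => ?_
  rw [Finset.mul_sum]
  exact Finset.sum_congr rfl fun k _ => by ring

/-- The choice of the size. -/
theorem cn_size {C σ0 η t x0 : ℝ} (hσ : 0 < σ0) (hη : 0 < η) (ht : 0 < t)
    (hx : 0 < x0) : ∃ N0 : ℕ, ∀ N : ℕ, N0 ≤ N → 1 / √(N : ℝ) ≤ x0 ∧
      (n + 1 : ℝ) * ((2 * σ0 + 1) * (2 * C) + t * σ0) ≤ t * σ0 * (N * (η / 2)) := by
  refine ⟨max (⌈(1 / x0) ^ 2⌉₊ + 1)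
    ⌈(n + 1 : ℝ) * ((2 * σ0 + 1) * (2 * C) + t * σ0) / (t * σ0 * (η / 2))⌉₊, fun N hN => ?_⟩
  have h1 : ⌈(1 / x0) ^ 2⌉₊ + 1 ≤ N := (le_max_left _ _).trans hN
  have h2 : ⌈(n + 1 : ℝ) * ((2 * σ0 + 1) * (2 * C) + t * σ0) / (t * σ0 * (η / 2))⌉₊ ≤ N :=
    (le_max_right _ _).trans hN
  have h3 : (1 / x0) ^ 2 ≤ N := by
    refine (Nat.le_ceil _).trans ?_
    exact_mod_cast (Nat.le_succ _).trans h1
  have h4 : (n + 1 : ℝ) * ((2 * σ0 + 1) * (2 * C) + t * σ0) / (t * σ0 * (η / 2)) ≤ N :=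
    (Nat.le_ceil _).trans (by exact_mod_cast h2)
  constructor
  · have h5 : 1 / x0 ≤ √(N : ℝ) := Real.le_sqrt_of_sq_le h3
    have h6 : 0 < 1 / x0 := by positivity
    rw [div_le_iff₀ (h6.trans_le h5)]
    calc (1 : ℝ) = x0 * (1 / x0) := by field_simp
      _ ≤ x0 * √(N : ℝ) := mul_le_mul_of_nonneg_left h5 hx.le
  · rw [div_le_iff₀ (by positivity)] at h4
    refine h4.trans (le_of_eq ?_)
    ring

/-- The overlaps of the two models are close, where the second differences are small: convexity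
(`Ph_tangent_b`, `Ph_tangent_u` for both sizes, `close_N` at the perturbed parameters), sum over the
types; `Ql = ∑_k Rkl`. -/
theorem tail_N {b α : Fin (n + 1) → ℝ} {μ g : Fin n → ℝ}
    {Q : Fin (n + 1) → Matrix (Fin (n + 1)) (Fin (n + 1)) ℝ} (D : Dat b α μ g Q) (B : ℝ) :
    ∃ x0 : ℝ, 0 < x0 ∧ ∀ (K : ℕ) (m : ℕ → ℝ), Exponents K m → ∀ σ0 η dl : ℝ, 0 < σ0 → 0 < η →
      0 ≤ dl → (K + 1) * dl < x0 →
      ∃ ε0 : ℝ, 0 < ε0 ∧ ∀ t : ℝ, 0 < t → (K + 1) * (dl + t) ≤ x0 → ∃ N0 : ℕ, ∀ N : ℕ, N0 ≤ N →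
      ∀ [MeasurableSpace (orthogonalGroup (Fin N) ℝ)] [BorelSpace (orthogonalGroup (Fin N) ℝ)]
      (ν : Measure (orthogonalGroup (Fin N) ℝ)) [IsProbabilityMeasure ν] [ν.IsMulLeftInvariant]
      [MeasurableSpace (orthogonalGroup (Fin (N + 1)) ℝ)]
      [BorelSpace (orthogonalGroup (Fin (N + 1)) ℝ)]
      (ν' : Measure (orthogonalGroup (Fin (N + 1)) ℝ)) [IsProbabilityMeasure ν']
      [ν'.IsMulLeftInvariant] (c : Fin N → Fin (n + 1)) (P : Pm (n + 1))
      (r : Fin (n + 1) → Fin N) (k0 : Fin (n + 1)), Good b α B dl K m c P r →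
      (∀ k, ∀ l, 1 ≤ l → l ≤ K → σ0 ≤ P.u k l) → SD ν K m c P t ≤ ε0 * (t * N) →
      ∀ l, 1 ≤ l → l ≤ K → |∑ i ∈ Finset.Ico l (K + 1), (m (i + 1) - m i) *
        (Ql ν' K m (Fin.cons k0 c : Fin (N + 1) → Fin (n + 1)) P i - Ql ν K m c P i)| ≤ η := by
  obtain ⟨C, x0, hC, hx0, hcl⟩ := close_N D B
  refine ⟨x0, hx0, fun K m hm σ0 η dl hσ hη hdl _ => ?_⟩
  refine ⟨σ0 * η / (2 * ((n + 1 : ℝ) * (2 * σ0 + 1))), by positivity, fun t ht htx => ?_⟩
  obtain ⟨N0, hN0⟩ := cn_size (n := n) (C := C) hσ hη ht hx0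
  refine ⟨N0, fun N hN _ _ ν _ _ _ _ ν' _ _ c P r k0 G hu hSD l hl hlK => ?_⟩
  obtain ⟨q1, q2⟩ := hN0 N hN
  have hK0 : (0 : ℝ) ≤ K := Nat.cast_nonneg K
  have hdlx : (K + 1) * dl ≤ x0 := by
    refine le_trans ?_ htx
    exact mul_le_mul_of_nonneg_left (by linarith only [ht]) (by linarith only [])
  have hNp : (0 : ℝ) < N := by exact_mod_cast G.N0
  have hblk : ∀ k, t * σ0 * (N * |cnS ν' K m (Fin.cons k0 c : Fin (N + 1) → Fin (n + 1)) P k l -
      cnS ν K m c P k l|) ≤ (2 * σ0 + 1) * (SD ν K m c P t + 2 * C) + t * σ0 := by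
    intro k
    exact cn_blk hm G.N0 c _ P ht hσ k hl hlK (hu k l hl hlK)
      (hcl N K m c P r k0 ν ν' dl G hdlx q1)
      (fun τ hτ => hcl N K m c _ r k0 ν ν' (dl + t) (cn_good_b G ht.le hτ k) htx q1)
      (fun τ hτ => hcl N K m c _ r k0 ν ν' (dl + t) (cn_good_u G ht.le hτ k hl) htx q1)
  rw [cn_sum ν ν' c _ P l]
  have h1 : t * σ0 * (N * |∑ k, (cnS ν' K m (Fin.cons k0 c : Fin (N + 1) → Fin (n + 1)) P k l -
      cnS ν K m c P k l)|) ≤
      (n + 1 : ℝ) * ((2 * σ0 + 1) * (SD ν K m c P t + 2 * C) + t * σ0) := by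
    calc t * σ0 * (N * |∑ k, (cnS ν' K m (Fin.cons k0 c : Fin (N + 1) → Fin (n + 1)) P k l -
          cnS ν K m c P k l)|)
        ≤ t * σ0 * (N * ∑ k, |cnS ν' K m (Fin.cons k0 c : Fin (N + 1) → Fin (n + 1)) P k l -
          cnS ν K m c P k l|) := by
          refine mul_le_mul_of_nonneg_left ?_ (by positivity)
          exact mul_le_mul_of_nonneg_left (Finset.abs_sum_le_sum_abs _ _) hNp.le
      _ = ∑ k, t * σ0 * (N * |cnS ν' K m (Fin.cons k0 c : Fin (N + 1) → Fin (n + 1)) P k l -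
          cnS ν K m c P k l|) := by rw [Finset.mul_sum, Finset.mul_sum]
      _ ≤ ∑ _k : Fin (n + 1), ((2 * σ0 + 1) * (SD ν K m c P t + 2 * C) + t * σ0) :=
          Finset.sum_le_sum fun k _ => hblk k
      _ = _ := by
          rw [Finset.sum_const, Finset.card_univ, Fintype.card_fin, nsmul_eq_mul]
          push_cast
          ring
  have h2 : (n + 1 : ℝ) * ((2 * σ0 + 1) * SD ν K m c P t) ≤ t * σ0 * (N * (η / 2)) := by
    calc (n + 1 : ℝ) * ((2 * σ0 + 1) * SD ν K m c P t)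
        ≤ (n + 1 : ℝ) * ((2 * σ0 + 1) *
          (σ0 * η / (2 * ((n + 1 : ℝ) * (2 * σ0 + 1))) * (t * N))) := by gcongr
      _ = _ := by field_simp
  have h3 : t * σ0 * (N * |∑ k, (cnS ν' K m (Fin.cons k0 c : Fin (N + 1) → Fin (n + 1)) P k l -
      cnS ν K m c P k l)|) ≤ t * σ0 * (N * η) := by
    refine h1.trans ?_
    have : (n + 1 : ℝ) * ((2 * σ0 + 1) * (SD ν K m c P t + 2 * C) + t * σ0) =
        (n + 1 : ℝ) * ((2 * σ0 + 1) * SD ν K m c P t) +
        (n + 1 : ℝ) * ((2 * σ0 + 1) * (2 * C) + t * σ0) := by ring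
    rw [this]
    calc _ ≤ t * σ0 * (N * (η / 2)) + t * σ0 * (N * (η / 2)) := add_le_add h2 q2
      _ = _ := by ring
  have h4 := le_of_mul_le_mul_left h3 (by positivity)
  exact le_of_mul_le_mul_left h4 hNp

end Vale.Agent.P166.L
end
end

section

section

/-!
P166, lower bound: the increment of the free energy, for suitable exponents and parameters.
-/

open MeasureTheory ProbabilityTheory Matrix Filter Topology

namespace Vale.Agent.P166.L

open Vale.Agent.P157.Lv Vale.Agent.P157.Par Md H U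
open Vale.Agent.P166.F (frac Expo)

variable {n : ℕ}

/-- A pattern of each type. -/
theorem exists_pat {N : ℕ} {α : Fin (n + 1) → ℝ} {c : Fin N → Fin (n + 1)} {dl : ℝ}
    (hd : ∀ k, dl < α k) (hf : ∀ k, |frac c k - α k| ≤ dl) :
    ∃ r : Fin (n + 1) → Fin N, ∀ k, c (r k) = k := by
  have h : ∀ k, ∃ i, c i = k := by
    intro k
    by_contra hcon
    push Not at hcon
    have h0 : frac c k = 0 := by
      unfold F.frac
      rw [Finset.filter_false_of_mem fun i _ => hcon i]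
      simp only [Finset.card_empty, CharP.cast_eq_zero, zero_div]
    have h1 := hf k
    rw [h0, zero_sub, abs_neg] at h1
    have := le_abs_self (α k)
    linarith only [h1, this, hd k]
  choose r hr using h
  exact ⟨r, hr⟩

/-- The number of the positive multiples of `M`. -/
lemma in_mult {L M : ℕ} (hM : 0 < M) (s0 σ : ℝ) :
    ∑ l ∈ Finset.range (L * M), (if l = 0 then 0 else if M ∣ l then s0 else σ) ^ 2 ≤
      L * s0 ^ 2 + L * M * σ ^ 2 := by
  have h1 : ∀ l ∈ Finset.range (L * M),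
      (if l = 0 then 0 else if M ∣ l then s0 else σ) ^ 2 ≤
        (if l ≠ 0 ∧ M ∣ l then s0 ^ 2 else 0) + σ ^ 2 := by
    intro l _
    by_cases h0 : l = 0
    · simp only [h0, if_true]
      rw [if_neg (by simp only [ne_eq, not_true_eq_false, dvd_zero, and_true, not_false_eq_true])]
      linarith only [sq_nonneg σ]
    · by_cases h1 : M ∣ l
      · rw [if_neg h0, if_pos h1, if_pos ⟨h0, h1⟩]
        linarith only [sq_nonneg σ]
      · rw [if_neg h0, if_neg h1, if_neg (fun h => h1 h.2)]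
        linarith only []
  refine (Finset.sum_le_sum h1).trans ?_
  rw [Finset.sum_add_distrib, Finset.sum_const, Finset.card_range, ← Finset.sum_filter,
    Finset.sum_const, nsmul_eq_mul, nsmul_eq_mul]
  have h2 : (Finset.filter (fun l => l ≠ 0 ∧ M ∣ l) (Finset.range (L * M))).card ≤ L := by
    rcases Nat.eq_zero_or_pos L with rfl | hL
    · simp only [ne_eq, zero_mul, Finset.range_zero, Finset.filter_empty, Finset.card_empty, Std.le_refl]
    · obtain ⟨k, hk⟩ : ∃ k, L * M = k + 1 := ⟨L * M - 1, by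
        have := Nat.mul_pos hL hM
        omega⟩
      rw [hk]
      have := Nat.card_multiples' k M
      rw [Nat.succ_eq_add_one] at this
      rw [this]
      refine Nat.div_le_of_le_mul ?_
      rw [mul_comm M L]
      omega
  have h3 : ((Finset.filter (fun l => l ≠ 0 ∧ M ∣ l) (Finset.range (L * M))).card : ℝ) ≤ L := by
    exact_mod_cast h2
  have h4 := mul_le_mul_of_nonneg_right h3 (sq_nonneg s0)
  push_cast
  linarith only [h4]

/-- The exponents `l / (L M)` and the strengths: `s⋆` at the multiples of `M`, small elsewhere. -/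
theorem exists_levels {e η : ℝ} (he : 0 < e) (hη : 0 < η) :
    ∃ s0 : ℝ, 0 < s0 ∧ ∀ δ : ℝ, 0 < δ → ∃ (K : ℕ) (m s : ℕ → ℝ), Exponents K m ∧
      (∀ l ≤ K, m (l + 1) - m l ≤ δ) ∧ s 0 = 0 ∧ (∀ l, 1 ≤ l → l ≤ K → 0 < s l) ∧ (∀ l, 0 ≤ s l) ∧
      ∑ l ∈ Finset.range (K + 1), s l ^ 2 ≤ η ∧
      ∀ x : ℕ → ℝ, (∀ l ≤ K, |x l| ≤ 1) → ∀ A : ℝ, 0 ≤ A →
        (∀ l, 1 ≤ l → l ≤ K → s l * |∑ i ∈ Finset.Ico l (K + 1), (m (i + 1) - m i) * x i| ≤ A) →
        ∀ l, 1 ≤ l → l ≤ K → |∑ i ∈ Finset.Ico l (K + 1), (m (i + 1) - m i) * x i| ≤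
          e + A / s0 := by
  obtain ⟨L, hL⟩ := exists_nat_gt (1 / e)
  have hL0' : (0 : ℝ) < L := (one_div_pos.2 he).trans hL
  have hL0 : 0 < L := by exact_mod_cast hL0'
  have hLe : 1 / (L : ℝ) ≤ e := by
    rw [div_le_iff₀ hL0']
    rw [div_lt_iff₀ he] at hL
    linarith only [hL]
  set s0 : ℝ := √(η / (2 * L)) with hs0
  have hs0p : 0 < s0 := Real.sqrt_pos.2 (by positivity)
  have hs0s : s0 ^ 2 = η / (2 * L) := Real.sq_sqrt (by positivity)
  refine ⟨s0, hs0p, fun δ hδ => ?_⟩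
  obtain ⟨M, hM⟩ := exists_nat_gt (1 / δ)
  have hM0' : (0 : ℝ) < M := (one_div_pos.2 hδ).trans hM
  have hM0 : 0 < M := by exact_mod_cast hM0'
  have hMδ : 1 / (M : ℝ) ≤ δ := by
    rw [div_le_iff₀ hM0']
    rw [div_lt_iff₀ hδ] at hM
    linarith only [hM]
  set n : ℕ := L * M with hn
  have hn0 : 0 < n := Nat.mul_pos hL0 hM0
  have hn0' : (0 : ℝ) < n := by exact_mod_cast hn0
  have hnLM : (n : ℝ) = L * M := by rw [hn]; push_cast; ring
  have hK1 : n - 1 + 1 = n := by omega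
  have hK1' : ((n - 1 : ℕ) : ℝ) + 1 = n := by exact_mod_cast hK1
  set σ : ℝ := √(η / (2 * n)) with hσ
  have hσp : 0 < σ := Real.sqrt_pos.2 (by positivity)
  have hσs : σ ^ 2 = η / (2 * n) := Real.sq_sqrt (by positivity)
  set m : ℕ → ℝ := fun l => l / n with hm
  set s : ℕ → ℝ := fun l => if l = 0 then 0 else if M ∣ l then s0 else σ with hs
  have hmd : ∀ l, m (l + 1) - m l = 1 / n := by
    intro l
    simp only [hm]
    push_cast
    ring
  refine ⟨n - 1, m, s, ⟨?_, ?_, ?_⟩, ?_, ?_, ?_, ?_, ?_, ?_⟩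
  · simp [hm]
  · simp only [hm]
    rw [hK1]
    exact div_self hn0'.ne'
  · intro l _
    have := hmd l
    have h1 : 0 < 1 / (n : ℝ) := by positivity
    linarith only [this, h1]
  · intro l _
    rw [hmd l]
    refine le_trans ?_ hMδ
    refine one_div_le_one_div_of_le hM0' ?_
    rw [hnLM]
    have : (1 : ℝ) ≤ L := by exact_mod_cast hL0
    nlinarith only [this]
  · simp [hs]
  · intro l hl _
    simp only [hs]
    rw [if_neg (by omega)]
    split_ifs
    · exact hs0p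
    · exact hσp
  · intro l
    simp only [hs]
    split_ifs
    · exact le_rfl
    · exact hs0p.le
    · exact hσp.le
  · rw [hK1]
    refine (in_mult hM0 s0 σ).trans ?_
    rw [hs0s, hσs, ← hnLM]
    have h1 : (L : ℝ) * (η / (2 * L)) = η / 2 := by field_simp
    have h2 : (n : ℝ) * (η / (2 * n)) = η / 2 := by field_simp
    linarith only [h1, h2]
  · intro x hx A hA hT l hl hlK
    rw [hK1] at hT ⊢
    have hln : l < n := by omega
    -- the next multiple
    set q : ℕ := (l + M - 1) / M with hq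
    have hq1 : l ≤ q * M := by
      have h1 := Nat.div_add_mod (l + M - 1) M
      have h2 := Nat.mod_lt (l + M - 1) hM0
      rw [← hq] at h1
      rw [mul_comm]
      omega
    have hq2 : q * M < l + M := by
      have h1 := Nat.div_mul_le_self (l + M - 1) M
      rw [← hq] at h1
      omega
    have hqL : q ≤ L := by
      by_contra hcon
      push Not at hcon
      have h1 : (L + 1) * M ≤ q * M := Nat.mul_le_mul_right M hcon
      have h2 : (L + 1) * M = n + M := by rw [hn]; ring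
      omega
    have hqn : q * M ≤ n := by
      rw [hn]
      exact Nat.mul_le_mul_right M hqL
    have hsplit := Finset.sum_Ico_consecutive (fun i => (m (i + 1) - m i) * x i) hq1 hqn
    have h1 : |∑ i ∈ Finset.Ico l (q * M), (m (i + 1) - m i) * x i| ≤ e := by
      refine (Finset.abs_sum_le_sum_abs _ _).trans ?_
      have h2 : ∀ i ∈ Finset.Ico l (q * M), |(m (i + 1) - m i) * x i| ≤ 1 / n := by
        intro i hi
        have hi' := Finset.mem_Ico.1 hi
        rw [hmd i, abs_mul, abs_of_pos (by positivity : (0 : ℝ) < 1 / n)]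
        exact mul_le_of_le_one_right (by positivity) (hx i (by omega))
      refine (Finset.sum_le_sum h2).trans ?_
      rw [Finset.sum_const, Nat.card_Ico, nsmul_eq_mul]
      have h3 : ((q * M - l : ℕ) : ℝ) ≤ M := by
        have : q * M - l ≤ M := by omega
        exact_mod_cast this
      calc ((q * M - l : ℕ) : ℝ) * (1 / n) ≤ M * (1 / n) :=
            mul_le_mul_of_nonneg_right h3 (by positivity)
        _ = 1 / L := by rw [hnLM]; field_simp
        _ ≤ e := hLe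
    have h2 : |∑ i ∈ Finset.Ico (q * M) n, (m (i + 1) - m i) * x i| ≤ A / s0 := by
      rcases Nat.lt_or_ge (q * M) n with h3 | h3
      · have hqM : 1 ≤ q * M := by omega
        have h4 := hT (q * M) hqM (by omega)
        have h5 : s (q * M) = s0 := by
          simp only [hs]
          rw [if_neg (by omega), if_pos (Dvd.intro_left q rfl)]
        rw [h5] at h4
        rw [le_div_iff₀ hs0p, mul_comm]
        exact h4
      · rw [Finset.Ico_eq_empty (by omega), Finset.sum_empty, abs_zero]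
        positivity
    rw [← hsplit]
    exact (abs_add_le _ _).trans (add_le_add h1 h2)

/-- The choice of the mesh. -/
lemma in_mesh {y : ℝ} (hy : 0 < y) : ∃ δ : ℝ, 0 < δ ∧ √(2 * δ) + 6 * δ ≤ y := by
  refine ⟨min ((y / 4) ^ 2 / 2) (y / 12), lt_min (by positivity) (by positivity), ?_⟩
  set δ : ℝ := min ((y / 4) ^ 2 / 2) (y / 12) with hδ
  have h1 : δ ≤ (y / 4) ^ 2 / 2 := min_le_left _ _
  have h2 : δ ≤ y / 12 := min_le_right _ _
  have h3 : √(2 * δ) ≤ y / 4 := by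
    rw [Real.sqrt_le_left (by positivity)]
    linarith
  linarith only [hy, h2, h3]

/-- The choice of the error of the increment. -/
lemma in_err {C η : ℝ} (hC : 0 ≤ C) (hη : 0 < η) :
    ∃ e : ℝ, 0 < e ∧ e ≤ 1 ∧ ∀ x ≤ e, C * √x ≤ η := by
  refine ⟨min 1 ((η / (C + 1)) ^ 2), lt_min one_pos (by positivity), min_le_left _ _,
    fun x hx => ?_⟩
  have h1 : x ≤ (η / (C + 1)) ^ 2 := hx.trans (min_le_right _ _)
  have h2 : √x ≤ η / (C + 1) := by
    rw [Real.sqrt_le_left (by positivity)]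
    exact h1
  calc C * √x ≤ C * (η / (C + 1)) := mul_le_mul_of_nonneg_left h2 hC
    _ = η * (C / (C + 1)) := by ring
    _ ≤ η * 1 := by
        refine mul_le_mul_of_nonneg_left ?_ hη.le
        rw [div_le_one (by positivity)]
        linarith only []
    _ = η := mul_one η

/-- The choice of the size of the perturbations. -/
lemma in_small {α : Fin (n + 1) → ℝ} (hα : ∀ k, 0 < α k) {x : ℝ} (hx : 0 < x) :
    ∃ y : ℝ, 0 < y ∧ y < x ∧ ∀ k, y < α k := by
  obtain ⟨k0, -, hmin⟩ := Finset.exists_min_image (Finset.univ : Finset (Fin (n + 1))) α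
    ⟨0, Finset.mem_univ _⟩
  refine ⟨min (x / 2) (α k0 / 2), lt_min (by positivity) (half_pos (hα k0)),
    (min_le_left _ _).trans_lt (half_lt_self hx), fun k => ?_⟩
  exact ((min_le_right _ _).trans_lt (half_lt_self (hα k0))).trans_le (hmin k (Finset.mem_univ _))

/-- The choice of the error. -/
lemma in_X {x1 x2 e e2 : ℝ} (h1 : 0 < x1) (h2 : 0 < x2) (h3 : 0 < e) (h4 : 0 < e2) :
    ∃ X : ℝ, 0 < X ∧ X ≤ x1 ∧ X ≤ x2 ∧ X ≤ e ∧ √X ≤ e2 := by
  refine ⟨min (min x1 x2) (min e (e2 ^ 2)), lt_min (lt_min h1 h2) (lt_min h3 (by positivity)),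
    (min_le_left _ _).trans (min_le_left _ _), (min_le_left _ _).trans (min_le_right _ _),
    (min_le_right _ _).trans (min_le_left _ _), ?_⟩
  rw [Real.sqrt_le_left h4.le]
  exact (min_le_right _ _).trans (min_le_right _ _)

/-- The choice of the perturbations. -/
lemma in_dl {α : Fin (n + 1) → ℝ} (hα : ∀ k, 0 < α k) {x3 x4 η X : ℝ} (hx3 : 0 < x3)
    (hx4 : 0 < x4) (hη : 0 < η) (hX : 0 < X) (K : ℕ) :
    ∃ d dl : ℝ, 0 < dl ∧ (K + 1) * dl = d ∧ (∀ k, dl < α k) ∧ d < x3 ∧ d < x4 ∧ d < η ∧ d < X ∧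
      d < 1 ∧ dl ≤ 1 := by
  obtain ⟨d, hd0, hdx, hdα⟩ := in_small hα (x := min (min (min x3 x4) (min η X)) 1)
    (lt_min (lt_min (lt_min hx3 hx4) (lt_min hη hX)) one_pos)
  have hK : (0 : ℝ) < K + 1 := by positivity
  have hK1 : (1 : ℝ) ≤ K + 1 := by
    have : (0 : ℝ) ≤ K := Nat.cast_nonneg K
    linarith
  have hd : d / (K + 1) ≤ d := div_le_self hd0.le hK1
  have hd1 : d < 1 := hdx.trans_le (min_le_right _ _)
  exact ⟨d, d / (K + 1), div_pos hd0 hK, by field_simp, fun k => hd.trans_lt (hdα k),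
    hdx.trans_le ((min_le_left _ _).trans ((min_le_left _ _).trans (min_le_left _ _))),
    hdx.trans_le ((min_le_left _ _).trans ((min_le_left _ _).trans (min_le_right _ _))),
    hdx.trans_le ((min_le_left _ _).trans ((min_le_right _ _).trans (min_le_left _ _))),
    hdx.trans_le ((min_le_left _ _).trans ((min_le_right _ _).trans (min_le_right _ _))), hd1,
    hd.trans hd1.le⟩

/-- The choice of the step. -/
lemma in_t {K : ℕ} {x d dl t : ℝ} (hdK : (K + 1) * dl = d) (ht : t ≤ (x - d) / (K + 1)) :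
    (K + 1) * (dl + t) ≤ x := by
  have hK : (0 : ℝ) < K + 1 := by positivity
  rw [le_div_iff₀ hK] at ht
  rw [mul_add, hdK]
  linarith only [ht]

lemma in_u {K : ℕ} {u : ℕ → ℝ} {dl : ℝ} (hdl : 0 ≤ dl) (hK : (K + 1) * dl ≤ 1) (hdl1 : dl ≤ 1)
    (hu : ∀ l ≤ K, |u l| ≤ dl) : ∑ l ∈ Finset.range (K + 1), u l ^ 2 ≤ 1 := by
  have h1 : ∀ l ∈ Finset.range (K + 1), u l ^ 2 ≤ dl := by
    intro l hl
    have h2 := hu l (Nat.lt_succ_iff.1 (Finset.mem_range.1 hl))
    have h3 : u l ^ 2 ≤ dl ^ 2 := sq_le_sq' (abs_le.1 h2).1 (abs_le.1 h2).2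
    nlinarith only [h3, hdl, hdl1]
  refine (Finset.sum_le_sum h1).trans ?_
  rw [Finset.sum_const, Finset.card_range, nsmul_eq_mul]
  push_cast
  exact hK

lemma in_b {b b' : Fin (n + 1) → ℝ} {dl B : ℝ} (h : ∀ k, |b' k - b k| ≤ dl) (hdl1 : dl ≤ 1)
    (hB : 1 + ∑ k, |b k| ≤ B) (k : Fin (n + 1)) : |b' k| ≤ B := by
  have h1 := h k
  have h2 : |b k| ≤ ∑ k, |b k| := Finset.single_le_sum (f := fun k => |b k|)
    (fun k _ => abs_nonneg _) (Finset.mem_univ k)
  have h3 := abs_add_le (b' k - b k) (b k)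
  rw [sub_add_cancel] at h3
  linarith only [hdl1, hB, h1, h2, h3]

/-- The sum of the weights of the path of the model. -/
lemma in_path {K : ℕ} {r s : ℕ → ℝ} (h0 : r 0 = 0) (hr : ∀ l < K, r l ≤ r (l + 1)) :
    Path K (fun l => r l + ∑ i ∈ Finset.range (l + 1), s i ^ 2) := by
  constructor
  · simp only [h0]
    have := sq_nonneg (s 0)
    simpa only [zero_add, Finset.range_one, Finset.sum_singleton, ge_iff_le] using this
  · intro l hl
    refine add_le_add (hr l hl) ?_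
    rw [Finset.sum_range_succ _ (l + 1)]
    have := sq_nonneg (s (l + 1))
    linarith only [this]

/-- The difference of the overlaps is at most one. -/
lemma in_x1 {N K : ℕ} {m rt : ℕ → ℝ} {c : Fin N → Fin (n + 1)} {P : Pm (n + 1)}
    [MeasurableSpace (orthogonalGroup (Fin N) ℝ)] [BorelSpace (orthogonalGroup (Fin N) ℝ)]
    {ν : Measure (orthogonalGroup (Fin N) ℝ)} [IsProbabilityMeasure ν] (hm : Exponents K m)
    (hN0 : 0 < N) (hr : Path K rt) (l : ℕ) (hl : l ≤ K) :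
    |Ql ν K m c P l - spR K m rt l| ≤ 1 := by
  have h1 := m3_Ql_bounds (ν := ν) (c := c) (P := P) hm hN0 hl
  have h2 := spR_nonneg hm hr hl
  have h3 := spR_lt_one hm hr hl
  rw [abs_le]
  constructor <;> linarith only [h3, h1.1, h2, h1.2]

/-- The parameters of the systems with a new spin. -/
lemma in_epar {β : ℝ} {a α : Fin (n + 1) → ℝ} {C0 mb B : ℝ} {N K : ℕ} {m : ℕ → ℝ}
    {c : Fin N → Fin (n + 1)} {P : Pm (n + 1)}
    [MeasurableSpace (orthogonalGroup (Fin N) ℝ)] [BorelSpace (orthogonalGroup (Fin N) ℝ)]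
    {ν : Measure (orthogonalGroup (Fin N) ℝ)} [IsProbabilityMeasure ν] (hm : Exponents K m)
    (hN0 : 0 < N)
    (hpath : ∀ (K : ℕ) (m q : ℕ → ℝ), F.Expo K m → F.OPath K q → q 0 = 0 → q K < 1 →
      F.rPath β (atoms a α) K m q 0 = 0 ∧
      (∀ l < K, F.rPath β (atoms a α) K m q l ≤ F.rPath β (atoms a α) K m q (l + 1)) ∧
      F.rPath β (atoms a α) K m q K ≤ C0 ∧ |F.rDiag β (atoms a α) K m q| ≤ C0)
    (hB : C0 + |mb| ≤ B) (hB1 : 1 ≤ B) (hs0 : P.s 0 = 0) (hu0 : ∀ k, P.u k 0 = 0)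
    (hs : ∑ l ∈ Finset.range (K + 1), P.s l ^ 2 ≤ 1) :
    EPar K B (F.rDiag β (atoms a α) K m (Ql ν K m c P) - mb)
      (F.rPath β (atoms a α) K m (Ql ν K m c P)) P.s 1 0 := by
  have hmE := F.exponents_expo hm
  have hqO : F.OPath K (Ql ν K m c P) := ⟨(m3_Ql_bounds hm hN0 (Nat.zero_le K)).1,
    fun l hl => Finset.sum_le_sum fun k _ => Rkl_mono hm hN0 k hl, (Ql_lt_one hm hN0).le⟩
  have hq0 : Ql ν K m c P 0 = 0 :=
    Finset.sum_eq_zero fun k _ => Rkl_zero hm hN0 hs0 hu0 k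
  obtain ⟨p1, p2, p3, p4⟩ := hpath K m (Ql ν K m c P) hmE hqO hq0 (Ql_lt_one hm hN0)
  have hmb := abs_nonneg mb
  refine ⟨?_, p1, p2, by linarith only [hB, p3, hmb], hs0, by linarith only [hB1, hs], by simp, by simp only [abs_zero, zero_le_one]⟩
  exact (abs_sub _ _).trans (by linarith only [hB, p4])

/-- The errors. -/
lemma in_Err {b α : Fin (n + 1) → ℝ} {μ g : Fin n → ℝ} {B dl X y δ : ℝ} {N K : ℕ}
    [MeasurableSpace (orthogonalGroup (Fin N) ℝ)]
    {ν : Measure (orthogonalGroup (Fin N) ℝ)} {m : ℕ → ℝ} {c : Fin N → Fin (n + 1)}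
    {P : Pm (n + 1)} {r : Fin (n + 1) → Fin N} (hX0 : 0 < X) (hy : y = X / (2 * (n + 1)))
    (hδ0 : 0 < δ) (hδ : √(2 * δ) + 6 * δ ≤ y) (h1 : (K + 1) * dl ≤ X) (h2 : 1 / √(N : ℝ) ≤ X)
    (h3 : ∀ k, Dv ν K m c P k ≤ √(2 * δ) + 4 * δ + y)
    (h4 : ∀ (k0 : Fin (n + 1)) (rd : ℝ) (rr s' : ℕ → ℝ) (σ τ : ℝ), EPar K B rd rr s' σ τ →
      DvE ν (GE K m b α μ g c P r k0 rd rr s' σ τ) (Bt c (wi r k0)) (Mk ν K m c P (Fin.last n)) ≤
        √(2 * δ) + 6 * δ + y) : Err b α μ g B dl X ν K m c P r := by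
  have hn1 : (1 : ℝ) ≤ n + 1 := by
    have : (0 : ℝ) ≤ n := Nat.cast_nonneg n
    linarith only []
  have hyX : (n + 1) * (2 * y) = X := by rw [hy]; field_simp
  have hy0 : 0 < y := by rw [hy]; positivity
  have hyX' : 2 * y ≤ X := by
    rw [← hyX]
    exact le_mul_of_one_le_left (by positivity) hn1
  refine ⟨h1, h2, ?_, fun k0 rd rr s' σ τ hE => ?_⟩
  · have h5 : ∀ k ∈ (Finset.univ : Finset (Fin (n + 1))), Dv ν K m c P k ≤ 2 * y := by
      intro k _
      have := h3 k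
      linarith only [hδ0, hδ, this]
    refine (Finset.sum_le_sum h5).trans ?_
    rw [Finset.sum_const, Finset.card_univ, Fintype.card_fin, nsmul_eq_mul]
    push_cast
    exact hyX.le
  · have := h4 k0 rd rr s' σ τ hE
    linarith only [hδ, hyX', this]

/-- **The increment.** -/
theorem incr {β : ℝ} (hβ : 0 < β) {a α : Fin (n + 1) → ℝ} (ha : StrictMono a)
    (hα : ∀ k, 0 < α k) (hα1 : ∑ k, α k = 1)
    (hvar : ∀ B, 0 ≤ B → ∃ C, 0 ≤ C ∧ VarBound (n + 1) B C)
    {h : ℝ} (hh0 : 0 ≤ h) (hh : ∀ j : Fin n, β * a j.succ - β * a j.castSucc ≤ h) {η : ℝ}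
    (hη : 0 < η) :
    ∃ (K : ℕ) (m s : ℕ → ℝ) (dl : ℝ), Exponents K m ∧ s 0 = 0 ∧ (∀ l, 0 ≤ s l) ∧
      ∑ l ∈ Finset.range (K + 1), s l ^ 2 ≤ η ∧ 0 < dl ∧ (K + 1) * dl ≤ η ∧
      ∃ ε0 t0 : ℝ, 0 < ε0 ∧ 0 < t0 ∧ ∀ t : ℝ, 0 < t → t ≤ t0 → ∃ N0 : ℕ, ∀ N : ℕ, N0 ≤ N →
      ∀ [MeasurableSpace (orthogonalGroup (Fin N) ℝ)]
      [BorelSpace (orthogonalGroup (Fin N) ℝ)] (ν : Measure (orthogonalGroup (Fin N) ℝ))
      [IsProbabilityMeasure ν] [ν.IsMulLeftInvariant]
      [MeasurableSpace (orthogonalGroup (Fin (N + 1)) ℝ)]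
      [BorelSpace (orthogonalGroup (Fin (N + 1)) ℝ)]
      (ν' : Measure (orthogonalGroup (Fin (N + 1)) ℝ)) [IsProbabilityMeasure ν']
      [ν'.IsMulLeftInvariant] (c : Fin N → Fin (n + 1)) (P : Pm (n + 1)),
      (∀ k, |frac c k - α k| ≤ dl) → P.s = s → (∀ k, |P.b k - β * a k| ≤ dl) →
      (∀ k, P.u k 0 = 0) → (∀ k, ∀ l, 1 ≤ l → l ≤ K → dl / 2 ≤ P.u k l ∧ P.u k l ≤ dl) →
      SD ν K m c P t ≤ ε0 * (t * N) →
      ∃ y ∈ vals β (atoms a α), Real.log 2 + y - 1 / 2 * (h / α (Fin.last n)) - η ≤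
        ∑ k, α k * Ph ν' K m (Fin.cons k c : Fin (N + 1) → Fin (n + 1)) P - Ph ν K m c P := by
  obtain ⟨μ, g, Q, D⟩ := exists_dat
    (b := fun k => β * a k) (fun i j hij => mul_lt_mul_of_pos_left (ha hij) hβ) hα hα1
  obtain ⟨C0, hC0, hpath⟩ := F.rPath_props (a := a) hα hα1 hβ
  obtain ⟨B, hB1, hBb, hBB, hB3, hB31, hB0⟩ : ∃ B : ℝ, 1 ≤ B ∧ 1 + ∑ k, |β * a k| ≤ B ∧
      C0 + |mbar (fun k => β * a k) α| ≤ B ∧ C0 + |mbar (fun k => β * a k) α| ≤ B - 3 ∧
      1 ≤ B - 3 ∧ 0 ≤ B := by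
    have hsb : 0 ≤ ∑ k, |β * a k| := Finset.sum_nonneg fun k _ => abs_nonneg _
    have hmb := abs_nonneg (mbar (fun k => β * a k) α)
    refine ⟨4 + C0 + |mbar (fun k => β * a k) α| + ∑ k, |β * a k|, ?_, ?_, ?_, ?_, ?_, ?_⟩ <;>
      linarith only [hsb, hmb, hC0]
  obtain ⟨C1, x1, hC1, hx1, H1⟩ := spin_E hβ D B
  obtain ⟨C2, x2, hC2, hx2, H2⟩ := step_E hβ D hh0 hh B
  obtain ⟨x3, hx3, H3⟩ := dev_E D B hvar
  obtain ⟨x4, hx4, H4⟩ := tail_N D B
  obtain ⟨e, he0, he1, he⟩ := in_err hC2 (half_pos hη)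
  obtain ⟨s0, hs0, hlev⟩ := exists_levels (half_pos he0) (lt_min one_pos hη)
  obtain ⟨e2, he20, he21, he2⟩ := in_err hC1 (mul_pos (half_pos he0) hs0)
  obtain ⟨X, hX0, hXx1, hXx2, hXe, hXe2⟩ := in_X hx1 hx2 he0 he20
  obtain ⟨y, hy, hy0⟩ : ∃ y : ℝ, y = X / (2 * (n + 1)) ∧ 0 < y := ⟨_, rfl, by positivity⟩
  obtain ⟨δ, hδ0, hδ⟩ := in_mesh hy0
  obtain ⟨K, m, s, hm, hmδ, hs00, hspos, hsnn, hsum, hT⟩ := hlev δ hδ0
  obtain ⟨d, dl, hdl0, hdK, hdα, hd3, hd4, hdη, hdX, hd1, hdl1⟩ := in_dl hα hx3 hx4 hη hX0 K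
  have hσ0 : 0 < dl / 2 := half_pos hdl0
  have hσ1 : dl / 2 ≤ 1 := (half_le_self hdl0.le).trans hdl1
  refine ⟨K, m, s, dl, hm, hs00, hsnn, hsum.trans (min_le_right _ _), hdl0,
    hdK.le.trans hdη.le, ?_⟩
  obtain ⟨εM, hεM, GM⟩ := dev_M hB0 hvar hm hσ0 hσ1 hmδ hy0
  obtain ⟨εE, hεE, GE'⟩ := H3 K m hm (dl / 2) δ y dl hσ0 hσ1 hmδ hy0 hdl0.le
    (hdK.trans_lt hd3)
  obtain ⟨εT, hεT, GT⟩ := H4 K m hm (dl / 2) X dl hσ0 hX0 hdl0.le (hdK.trans_lt hd4)
  have hK : (0 : ℝ) < K + 1 := Nat.cast_add_one_pos K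
  refine ⟨min εM (min εE εT), min 1 (min ((x3 - d) / (K + 1)) ((x4 - d) / (K + 1))),
    lt_min hεM (lt_min hεE hεT), lt_min one_pos (lt_min (div_pos (sub_pos.2 hd3) hK)
      (div_pos (sub_pos.2 hd4) hK)), fun t ht ht0 => ?_⟩
  obtain ⟨NM, GM⟩ := GM t ht (ht0.trans (min_le_left _ _))
  obtain ⟨NE, GE'⟩ := GE' t ht (in_t hdK (ht0.trans ((min_le_right _ _).trans (min_le_left _ _))))
  obtain ⟨NT, GT⟩ := GT t ht (in_t hdK (ht0.trans ((min_le_right _ _).trans (min_le_right _ _))))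
  obtain ⟨NX, GX⟩ := de_size hX0
  refine ⟨max (max NM NE) (max NT NX), fun N hN => ?_⟩
  have hNM : NM ≤ N := ((le_max_left _ _).trans (le_max_left _ _)).trans hN
  have hNE : NE ≤ N := ((le_max_right _ _).trans (le_max_left _ _)).trans hN
  have hNT : NT ≤ N := ((le_max_left _ _).trans (le_max_right _ _)).trans hN
  obtain ⟨hN0, hNX⟩ := GX N (((le_max_right _ _).trans (le_max_right _ _)).trans hN)
  intro _ _ ν _ _ _ _ ν' _ _ c P hfr hPs hPb hPu0 hPu hSD
  obtain ⟨r, hr⟩ := exists_pat hdα hfr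
  have htN : 0 ≤ t * N := mul_nonneg ht.le (Nat.cast_nonneg N)
  have hSDM : SD ν K m c P t ≤ εM * (t * N) :=
    hSD.trans (mul_le_mul_of_nonneg_right (min_le_left _ _) htN)
  have hSDE : SD ν K m c P t ≤ εE * (t * N) :=
    hSD.trans (mul_le_mul_of_nonneg_right ((min_le_right _ _).trans (min_le_left _ _)) htN)
  have hSDT : SD ν K m c P t ≤ εT * (t * N) :=
    hSD.trans (mul_le_mul_of_nonneg_right ((min_le_right _ _).trans (min_le_right _ _)) htN)
  have hPs0 : P.s 0 = 0 := by rw [hPs, hs00]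
  have hs1 : ∑ i ∈ Finset.range (K + 1), P.s i ^ 2 ≤ 1 := by
    rw [hPs]
    exact hsum.trans (min_le_left _ _)
  have hu : ∀ k, ∀ l ≤ K, |P.u k l| ≤ dl := by
    intro k l hl
    rcases Nat.eq_zero_or_pos l with rfl | hl0
    · rw [hPu0, abs_zero]
      exact hdl0.le
    · obtain ⟨h1, h2⟩ := hPu k l hl0 hl
      rw [abs_of_nonneg (hσ0.le.trans h1)]
      exact h2
  have hKd1 : (K + 1) * dl ≤ 1 := hdK.le.trans hd1.le
  have hG : Good (fun k => β * a k) α B dl K m c P r :=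
    ⟨hN0, hm, hPb, hPs0, hs1.trans hB1, hPu0, hu, hfr, hr⟩
  have hσl : ∀ k, ∀ l, 1 ≤ l → l ≤ K → dl / 2 ≤ P.u k l := fun k l h1 h2 => (hPu k l h1 h2).1
  have hErr : Err (fun k => β * a k) α μ g B dl X ν K m c P r :=
    in_Err hX0 hy hδ0 hδ (hdK.le.trans hdX.le) hNX
      (fun k => GM N hNM ν c P hPs0 hPu0 (in_b (b := fun k => β * a k) hPb hdl1 hBb)
        (hs1.trans hB1) (fun k => (in_u hdl0.le hKd1 hdl1 (hu k)).trans hB1) hσl hSDM k)
      (fun k0 rd rr s' σ τ hE => GE' N hNE ν c P r k0 hG hσl hSDE rd rr s' σ τ hE)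
  have hEP := in_epar (ν := ν) (c := c) hm hN0 hpath hB3 hB31 hPs0 hPu0 hs1
  have hEPB := in_epar (ν := ν) (c := c) hm hN0 hpath hBB hB1 hPs0 hPu0 hs1
  have hspin := H1 N K m c P r ν ν' dl X hG hErr hXx1 (fun i h1 h2 => by
    rw [hPs]
    exact hspos i h1 h2) hs1
    (fun k0 l h1 h2 => GT N hNT ν ν' c P r k0 hG hσl hSDT l h1 h2) hEP
  -- the path
  have hrtP := in_path (s := P.s) hEP.rr0 hEP.hrr
  have hA : C1 * √(√X) ≤ e / 2 * s0 := he2 _ hXe2
  have htails := hT _ (fun l hl => in_x1 (ν := ν) (c := c) (P := P) hm hN0 hrtP l hl)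
    (C1 * √(√X)) (mul_nonneg hC1 (Real.sqrt_nonneg _))
    (fun l h1 h2 => by
      rw [← hPs]
      exact hspin l h1 h2)
  have hA' : C1 * √(√X) / s0 ≤ e / 2 := by
    rw [div_le_iff₀ hs0]
    exact hA
  obtain ⟨v, hv, hv2⟩ := H2 N K m c P r ν ν' dl X e hG hErr hXx2
    (fun i _ => by rw [hPs]; exact hsnn i) hEPB he0 he1 (fun l h1 h2 => by
      refine (htails l h1 h2).trans ?_
      linarith only [hA'])
  refine ⟨v, hv, le_trans ?_ hv2⟩
  have h1 := he X hXe
  have h2 := he e le_rfl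
  linarith only [h1, h2]

/-- A crude bound of the increment (`close_N`). -/
theorem incr_crude {β : ℝ} (hβ : 0 < β) {a α : Fin (n + 1) → ℝ} (ha : StrictMono a)
    (hα : ∀ k, 0 < α k) (hα1 : ∑ k, α k = 1) :
    ∃ C x0 : ℝ, 0 ≤ C ∧ 0 < x0 ∧ ∀ (K : ℕ) (m s : ℕ → ℝ) (dl : ℝ), Exponents K m → s 0 = 0 →
      ∑ l ∈ Finset.range (K + 1), s l ^ 2 ≤ 1 → 0 < dl → (K + 1) * dl ≤ x0 →
      ∃ N0 : ℕ, ∀ N : ℕ, N0 ≤ N →
      ∀ [MeasurableSpace (orthogonalGroup (Fin N) ℝ)]
      [BorelSpace (orthogonalGroup (Fin N) ℝ)] (ν : Measure (orthogonalGroup (Fin N) ℝ))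
      [IsProbabilityMeasure ν] [ν.IsMulLeftInvariant]
      [MeasurableSpace (orthogonalGroup (Fin (N + 1)) ℝ)]
      [BorelSpace (orthogonalGroup (Fin (N + 1)) ℝ)]
      (ν' : Measure (orthogonalGroup (Fin (N + 1)) ℝ)) [IsProbabilityMeasure ν']
      [ν'.IsMulLeftInvariant] (c : Fin N → Fin (n + 1)) (P : Pm (n + 1)),
      (∀ k, |frac c k - α k| ≤ dl) → P.s = s → (∀ k, |P.b k - β * a k| ≤ dl) →
      (∀ k, P.u k 0 = 0) → (∀ k, ∀ l ≤ K, |P.u k l| ≤ dl) → ∀ k0 : Fin (n + 1),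
      |Ph ν' K m (Fin.cons k0 c : Fin (N + 1) → Fin (n + 1)) P - Ph ν K m c P| ≤ C := by
  set b : Fin (n + 1) → ℝ := fun k => β * a k with hb
  have hbm : StrictMono b := fun i j hij => mul_lt_mul_of_pos_left (ha hij) hβ
  obtain ⟨μ, g, Q, D⟩ := exists_dat hbm hα hα1
  obtain ⟨C, x, hC, hx, H⟩ := close_N D 1
  obtain ⟨d, hd0, hdx, hdα⟩ := in_small hα hx
  refine ⟨C, d, hC, hd0, fun K m s dl hm hs0 hs hdl hKd => ?_⟩
  have hK1 : (1 : ℝ) ≤ K + 1 := by
    have : (0 : ℝ) ≤ K := Nat.cast_nonneg K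
    linarith only []
  have hdld : dl ≤ d := (le_mul_of_one_le_left hdl.le hK1).trans hKd
  obtain ⟨N0, hN0⟩ := de_size hx
  refine ⟨N0, fun N hN => ?_⟩
  intro _ _ ν _ _ _ _ ν' _ _ c P hfr hPs hPb hPu0 hPu k0
  obtain ⟨hN1, hN2⟩ := hN0 N hN
  obtain ⟨r, hr⟩ := exists_pat (fun k => hdld.trans_lt (hdα k)) hfr
  refine H N K m c P r k0 ν ν' dl ⟨hN1, hm, hPb, by rw [hPs, hs0], by rw [hPs]; exact hs, hPu0,
    hPu, hfr, hr⟩ (by linarith only [hdx, hKd]) hN2

end Vale.Agent.P166.L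
end
end

section

section

/-!
P166, lower bound: the statement about the increments.
-/

open MeasureTheory ProbabilityTheory Matrix Filter Topology

namespace Vale.Agent.P166.L

open Vale.Agent.P157.Lv Vale.Agent.P157.Par Md H U

theorem inc_st [∀ N, MeasurableSpace (orthogonalGroup (Fin N) ℝ)]
    [∀ N, BorelSpace (orthogonalGroup (Fin N) ℝ)]
    (ν : (N : ℕ) → Measure (orthogonalGroup (Fin N) ℝ)) [∀ N, IsProbabilityMeasure (ν N)]
    [∀ N, (ν N).IsMulLeftInvariant]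
    (hvar : ∀ (κ : ℕ) (B : ℝ), 0 ≤ B → ∃ C, 0 ≤ C ∧ VarBound κ B C) {β : ℝ} (hβ : 0 < β) :
    IncSt ν β := by
  intro n a α a0 h hh ha hα hα1
  have hmono : StrictMono a := by
    intro i j hij
    rw [ha, ha]
    have h1 : ((i : ℕ) : ℝ) < (j : ℕ) := by exact_mod_cast hij
    have := mul_lt_mul_of_pos_left h1 hh
    linarith only [this]
  have hgap : ∀ j : Fin n, β * a j.succ - β * a j.castSucc ≤ β * h := by
    intro j
    rw [ha, ha]
    simp only [Fin.val_succ, Fin.val_castSucc]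
    push_cast
    linarith only []
  obtain ⟨C, x0, hC, hx0, hcr⟩ := incr_crude (n := n) hβ hmono hα hα1
  refine ⟨C, fun η hη => ?_⟩
  set η' := min η (min 1 x0) with hη'
  have h0 : 0 < η' := lt_min hη (lt_min one_pos hx0)
  have h1 : η' ≤ η := min_le_left _ _
  have h2 : η' ≤ 1 := (min_le_right _ _).trans (min_le_left _ _)
  have h3 : η' ≤ x0 := (min_le_right _ _).trans (min_le_right _ _)
  obtain ⟨K, m, s, dl, hm, hs0, hs, hsη, hdl, hdlη, ε0, t0, hε0, ht0, hinc⟩ :=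
    incr hβ hmono hα hα1 (fun B hB => hvar (n + 1) B hB) (h := β * h) (by positivity) hgap h0
  obtain ⟨N1, hN1⟩ := hcr K m s dl hm hs0 (hsη.trans h2) hdl (hdlη.trans h3)
  have hK : (0 : ℝ) < K + 1 := by positivity
  refine ⟨K, m, s, hm, hs0, hs, hsη.trans h1, dl, hdl, ?_, ε0, hε0, t0, ht0, fun t ht htt => ?_⟩
  · rw [le_div_iff₀ hK, mul_comm]
    exact hdlη.trans h1
  obtain ⟨N0, hN0⟩ := hinc t ht htt
  refine ⟨max N0 N1, fun N hN c hc P hPs hPb hPu0 hPu => ⟨?_, fun hSD => ?_⟩⟩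
  · have h4 := hN1 N ((le_max_right _ _).trans hN) (ν N) (ν (N + 1)) c P hc hPs hPb hPu0 (by
      intro k l hl
      rcases Nat.eq_zero_or_pos l with rfl | hl0
      · rw [hPu0, abs_zero]; exact hdl.le
      · obtain ⟨h5, h6⟩ := hPu k l hl0 hl
        rw [abs_of_nonneg (by linarith only [hdl, h5])]
        exact h6)
    have h5 : ∑ k, α k * Ph (ν (N + 1)) K m (Fin.cons k c) P - Ph (ν N) K m c P =
        ∑ k, α k * (Ph (ν (N + 1)) K m (Fin.cons k c : Fin (N + 1) → Fin (n + 1)) P -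
          Ph (ν N) K m c P) := by
      simp only [mul_sub]
      rw [Finset.sum_sub_distrib, ← Finset.sum_mul, hα1, _root_.one_mul]
    rw [h5]
    have h6 : ∑ k, α k * (-C) ≤ ∑ k, α k * (Ph (ν (N + 1)) K m
        (Fin.cons k c : Fin (N + 1) → Fin (n + 1)) P - Ph (ν N) K m c P) :=
      Finset.sum_le_sum fun k _ => mul_le_mul_of_nonneg_left (abs_le.1 (h4 k)).1 (hα k).le
    rw [← Finset.sum_mul, hα1, _root_.one_mul] at h6
    exact h6
  · obtain ⟨y, hy, h4⟩ := hN0 N ((le_max_left _ _).trans hN) (ν N) (ν (N + 1)) c P hc hPs hPb hPu0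
      hPu hSD
    refine ⟨y, hy, le_trans ?_ h4⟩
    have h5 : 1 / 2 * (β * h / α (Fin.last n)) = β * h / (2 * α (Fin.last n)) := by
      have := (hα (Fin.last n)).ne'
      field_simp
    rw [h5]
    linarith only [h1]

end Vale.Agent.P166.L
end
end

section

section

/-! P166, lower bound: from the increments to the bound `LBg`. -/

open MeasureTheory ProbabilityTheory Matrix Filter Topology

namespace Vale.Agent.P166.L

open Vale.Agent.P157.Lv Vale.Agent.P157.Par Md H U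
open Vale.Agent.P166.F Vale.Agent.P166.Conc

theorem mul_two_sums {ι : Type} [Fintype ι] (x : ℝ) (A B : ι → ℝ) :
    x * (∑ k, A k + ∑ k, B k) = ∑ k, x * A k + ∑ k, x * B k := by
  rw [mul_add, Finset.mul_sum, Finset.mul_sum]

section

variable {n N K : ℕ} {m : ℕ → ℝ} {c : Fin N → Fin (n + 1)}
  [MeasurableSpace (orthogonalGroup (Fin N) ℝ)] [BorelSpace (orthogonalGroup (Fin N) ℝ)]
  {ν : Measure (orthogonalGroup (Fin N) ℝ)} [IsProbabilityMeasure ν]

omit [BorelSpace (orthogonalGroup (Fin N) ℝ)] [IsProbabilityMeasure ν] in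
theorem Ph_eq (hN : 0 < N) (P : Pm (n + 1)) :
    Ph ν K m c P = N * (Fe ν K m c P + Real.log 2) := by
  have hN' : (0 : ℝ) < N := by exact_mod_cast hN
  unfold Ph Md.Fe
  field_simp
  ring

omit [BorelSpace (orthogonalGroup (Fin N) ℝ)] [IsProbabilityMeasure ν] in
theorem SD_eq (hN : 0 < N) (P : Pm (n + 1)) (t : ℝ) :
    SD ν K m c P t = N * sds ν K m c t P := by
  have e1 : ∀ k, pmb P k t = Pm.addb P k t := fun k => rfl
  have e2 : ∀ k, pmb P k (-t) = Pm.addb P k (-t) := fun k => rfl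
  have e3 : ∀ k l, pmu P k l t = Pm.addu P k l t := fun k l => rfl
  have e4 : ∀ k l, pmu P k l (-t) = Pm.addu P k l (-t) := fun k l => rfl
  unfold SD sds sdb sdu
  simp only [e1, e2, e3, e4, Ph_eq hN]
  rw [mul_two_sums]
  congr 1
  · exact Finset.sum_congr rfl fun k _ => by ring
  · refine Finset.sum_congr rfl fun k _ => ?_
    rw [Finset.sum_Ico_eq_sum_range, Finset.mul_sum, Nat.add_sub_cancel,
      ← Fin.sum_univ_eq_sum_range (fun j => (N * (Fe ν K m c (Pm.addu P k (1 + j) t) + Real.log 2) +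
        N * (Fe ν K m c (Pm.addu P k (1 + j) (-t)) + Real.log 2) -
        2 * (N * (Fe ν K m c P + Real.log 2)))) K]
    refine Finset.sum_congr rfl fun j _ => ?_
    rw [Nat.add_comm 1 (j : ℕ)]
    ring

theorem SD_nonneg (hm : Exponents K m) (hN : 0 < N) (P : Pm (n + 1)) (t : ℝ) :
    0 ≤ SD ν K m c P t := by
  unfold SD
  exact add_nonneg (Finset.sum_nonneg fun k _ => sd_b_nonneg hm hN c P k t)
    (Finset.sum_nonneg fun k _ => Finset.sum_nonneg fun l _ => sd_u_nonneg hm hN c P k l t)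

/-- **The number of the bad points of the box.** -/
theorem bad_card (hm : Exponents K m) (hN : 0 < N) {s : ℕ → ℝ} (hs : ∀ l, 0 ≤ s l) {d t : ℝ}
    (hd : 0 ≤ d) (ht : 0 < t) {M : ℕ} (hM : 0 < M) (hd1 : d + t * (M + 1) ≤ 1)
    (b : Fin (n + 1) → ℝ) {ε₀ δ : ℝ} (hε : 0 < ε₀) 
    (hMδ : 4 * ((n + 1) * (K + 1)) ≤ δ * (ε₀ * M)) :
    (((Finset.univ : Finset (Bx n K → Fin M)).filter
      fun θ => ¬ SD ν K m c (bxP K s d t b θ) t ≤ ε₀ * (t * N)).card : ℝ) ≤
      δ * Fintype.card (Bx n K → Fin M) := by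
  have hM' : (0 : ℝ) < M := by exact_mod_cast hM
  have hN' : (0 : ℝ) < N := by exact_mod_cast hN
  set B := (Finset.univ : Finset (Bx n K → Fin M)).filter
      fun θ => ¬ SD ν K m c (bxP K s d t b θ) t ≤ ε₀ * (t * N) with hB
  have h1 := box_sd (ν := ν) (c := c) hm hN hs hd ht.le M hd1 b
  have hpos : 0 < Fintype.card (Bx n K) := Fintype.card_pos
  have e1 : (Fintype.card (Bx n K → Fin M) : ℝ) =
      (M : ℝ) ^ (Fintype.card (Bx n K) - 1) * M := by
    rw [Fintype.card_fun, Fintype.card_fin]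
    push_cast
    rw [← pow_succ]
    congr 1
    (clear * - hpos; omega)
  have h2 : (B.card : ℝ) * (ε₀ * (t * N)) ≤
      ∑ θ : Bx n K → Fin M, SD ν K m c (bxP K s d t b θ) t := by
    calc (B.card : ℝ) * (ε₀ * (t * N)) = ∑ θ ∈ B, ε₀ * (t * N) := by
          rw [Finset.sum_const, nsmul_eq_mul]
      _ ≤ ∑ θ ∈ B, SD ν K m c (bxP K s d t b θ) t :=
          Finset.sum_le_sum fun θ hθ => (not_le.1 (Finset.mem_filter.1 hθ).2).le
      _ ≤ _ := Finset.sum_le_sum_of_subset_of_nonneg (Finset.subset_univ _)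
          fun θ _ _ => SD_nonneg hm hN _ _
  have h3 : ∑ θ : Bx n K → Fin M, SD ν K m c (bxP K s d t b θ) t ≤
      N * (4 * t * ((n + 1) * (K + 1)) * (M : ℝ) ^ (Fintype.card (Bx n K) - 1)) := by
    simp only [SD_eq hN]
    rw [← Finset.mul_sum]
    exact mul_le_mul_of_nonneg_left h1 hN'.le
  have h4 : (B.card : ℝ) * ε₀ ≤
      4 * ((n + 1) * (K + 1)) * (M : ℝ) ^ (Fintype.card (Bx n K) - 1) := by
    have h5 : (B.card : ℝ) * ε₀ * (t * N) ≤
        4 * ((n + 1) * (K + 1)) * (M : ℝ) ^ (Fintype.card (Bx n K) - 1) * (t * N) := by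
      calc (B.card : ℝ) * ε₀ * (t * N) = (B.card : ℝ) * (ε₀ * (t * N)) := by ring
        _ ≤ _ := h2.trans h3
        _ = _ := by ring
    exact le_of_mul_le_mul_right h5 (by positivity)
  have h6 : (B.card : ℝ) * ε₀ ≤ δ * (ε₀ * M) * (M : ℝ) ^ (Fintype.card (Bx n K) - 1) :=
    h4.trans (mul_le_mul_of_nonneg_right hMδ (by positivity))
  rw [e1]
  refine le_of_mul_le_mul_right (h6.trans (le_of_eq ?_)) hε
  ring

/-- The points of the box. -/
theorem bxP_u0 {M : ℕ} (s : ℕ → ℝ) (d t : ℝ) (b : Fin (n + 1) → ℝ) (θ : Bx n K → Fin M)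
    (k : Fin (n + 1)) : (bxP K s d t b θ).u k 0 = 0 := by
  simp only [bxP, toPm, nonpos_iff_eq_zero, one_ne_zero, zero_le, and_true, ↓reduceDIte]

theorem bxP_b {M : ℕ} (s : ℕ → ℝ) {d t : ℝ} (ht : 0 ≤ t) (htd : t * M ≤ d) (b : Fin (n + 1) → ℝ)
    (θ : Bx n K → Fin M) (k : Fin (n + 1)) : |(bxP K s d t b θ).b k - b k| ≤ d := by
  have h := bpt_mem (base := Sum.elim b fun _ => d) ht θ (Sum.inl k)
  change |bpt (Sum.elim b fun _ => d) t θ (Sum.inl k) - b k| ≤ d
  simp only [Sum.elim_inl] at h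
  rw [abs_le]
  constructor <;> linarith only [ht, htd, h]

theorem bxP_u {M : ℕ} (s : ℕ → ℝ) {d t : ℝ} (ht : 0 ≤ t) (htd : t * M ≤ d) (b : Fin (n + 1) → ℝ)
    (θ : Bx n K → Fin M) (k : Fin (n + 1)) {l : ℕ} (hl : 1 ≤ l) (hlK : l ≤ K) :
    d ≤ (bxP K s d t b θ).u k l ∧ (bxP K s d t b θ).u k l ≤ 2 * d := by
  have h := bpt_mem (base := Sum.elim b fun _ => d) ht θ (Sum.inr (k, ⟨l - 1, by omega⟩))
  have e1 : (bxP K s d t b θ).u k l =
      bpt (Sum.elim b fun _ => d) t θ (Sum.inr (k, ⟨l - 1, by omega⟩)) := dif_pos ⟨hl, hlK⟩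
  rw [e1]
  simp only [Sum.elim_inr] at h
  constructor <;> linarith only [ht, h, htd]

/-- The effect of the perturbation. -/
theorem Fe_pert (hm : Exponents K m) (hN : 0 < N) {η dl : ℝ} (hdl : 0 < dl)
    (hdl1 : dl ≤ η / (K + 1)) (hη : η ≤ 1) (b : Fin (n + 1) → ℝ) (P : Pm (n + 1))
    (hs : ∀ l, 0 ≤ P.s l) (hs2 : ∑ l ∈ Finset.range (K + 1), P.s l ^ 2 ≤ η)
    (hb : ∀ k, |P.b k - b k| ≤ dl) (hu0 : ∀ k, P.u k 0 = 0)
    (hu : ∀ k l, 1 ≤ l → l ≤ K → 0 ≤ P.u k l ∧ P.u k l ≤ dl) :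
    |Fe ν K m c P - Fe ν K m c ⟨b, 0, 0⟩| ≤ (2 * n + 3) * η := by
  have hK : (0 : ℝ) < K + 1 := by positivity
  have hη0 : 0 < η := by
    have := (div_pos_iff_of_pos_right hK).1 (hdl.trans_le hdl1)
    exact this
  have hdl2 : dl * (K + 1) ≤ η := (le_div_iff₀ hK).1 hdl1
  have hdlη : dl ≤ η := by nlinarith only [hdl2, hdl]
  have h := Fe_lip (ν := ν) (c := c) hm hN ⟨b, 0, 0⟩ P (fun _ _ => le_rfl) (fun l _ => hs l)
  refine h.trans ?_
  have e1 : ∑ k, |P.b k - (⟨b, 0, 0⟩ : Pm (n + 1)).b k| ≤ (n + 1) * dl := by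
    refine (Finset.sum_le_sum fun k _ => hb k).trans (le_of_eq ?_)
    rw [Finset.sum_const, nsmul_eq_mul, Finset.card_univ, Fintype.card_fin]
    push_cast
    ring
  have e2 : ∑ l ∈ Finset.range (K + 1), |P.s l - (⟨b, 0, 0⟩ : Pm (n + 1)).s l| *
      ((⟨b, 0, 0⟩ : Pm (n + 1)).s l + P.s l) = ∑ l ∈ Finset.range (K + 1), P.s l ^ 2 := by
    refine Finset.sum_congr rfl fun l _ => ?_
    change |P.s l - 0| * (0 + P.s l) = _
    rw [sub_zero, zero_add, abs_of_nonneg (hs l)]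
    ring
  have e3 : ∑ k, ∑ l ∈ Finset.range (K + 1), |P.u k l - (⟨b, 0, 0⟩ : Pm (n + 1)).u k l| *
      (|(⟨b, 0, 0⟩ : Pm (n + 1)).u k l| + |P.u k l|) ≤ (n + 1) * ((K + 1) * (dl * dl)) := by
    have e4 : ∀ k, ∑ l ∈ Finset.range (K + 1), |P.u k l - (⟨b, 0, 0⟩ : Pm (n + 1)).u k l| *
        (|(⟨b, 0, 0⟩ : Pm (n + 1)).u k l| + |P.u k l|) ≤ (K + 1) * (dl * dl) := by
      intro k
      have e5 : ∀ l ∈ Finset.range (K + 1), |P.u k l - (⟨b, 0, 0⟩ : Pm (n + 1)).u k l| *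
          (|(⟨b, 0, 0⟩ : Pm (n + 1)).u k l| + |P.u k l|) ≤ dl * dl := by
        intro l hl
        rw [Finset.mem_range] at hl
        have e6 : |P.u k l| ≤ dl := by
          rcases Nat.eq_zero_or_pos l with rfl | hl0
          · rw [hu0, abs_zero]
            exact hdl.le
          · have := hu k l hl0 (by omega)
            rw [abs_of_nonneg this.1]
            exact this.2
        change |P.u k l - 0| * (|(0 : ℝ)| + |P.u k l|) ≤ _
        rw [sub_zero, abs_zero, zero_add]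
        exact mul_le_mul e6 e6 (abs_nonneg _) hdl.le
      refine (Finset.sum_le_sum e5).trans (le_of_eq ?_)
      rw [Finset.sum_const, nsmul_eq_mul, Finset.card_range]
      push_cast
      ring
    refine (Finset.sum_le_sum fun k _ => e4 k).trans (le_of_eq ?_)
    rw [Finset.sum_const, nsmul_eq_mul, Finset.card_univ, Fintype.card_fin]
    push_cast
    ring
  rw [e2]
  have hn : (0 : ℝ) ≤ n := Nat.cast_nonneg n
  have h5 : ((n : ℝ) + 1) * dl ≤ (n + 1) * η := mul_le_mul_of_nonneg_left hdlη (by positivity)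
  have h6 : ((n : ℝ) + 1) * ((K + 1) * (dl * dl)) ≤ (n + 1) * η := by
    refine mul_le_mul_of_nonneg_left ?_ (by positivity)
    calc ((K : ℝ) + 1) * (dl * dl) = dl * (K + 1) * dl := by ring
      _ ≤ η * 1 := mul_le_mul hdl2 (hdlη.trans hη) hdl.le hη0.le
      _ = η := mul_one _
  linarith only [hs2, e1, e3, h5, h6]

end

/-- The average of a bounded-below function with few bad points. -/
theorem avg_ge {Θ : Type} [Fintype Θ] [Nonempty Θ] (g : Θ → ℝ) {B : Finset Θ} {V C δ : ℝ}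
    (hδ : (B.card : ℝ) ≤ δ * Fintype.card Θ) (hg : ∀ θ, -C ≤ g θ) (hg2 : ∀ θ ∉ B, V ≤ g θ) :
    V - δ * (|V| + |C|) ≤ 1 / (Fintype.card Θ : ℝ) * ∑ θ, g θ := by
  classical
  have hpos : (0 : ℝ) < Fintype.card Θ := by exact_mod_cast Fintype.card_pos
  have h1 : ∀ θ, V - (if θ ∈ B then |V| + |C| else 0) ≤ g θ := by
    intro θ
    split_ifs with h
    · have := hg θ
      have h2 := le_abs_self V
      have h3 := le_abs_self C
      linarith only [this, h2, h3]
    · rw [sub_zero]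
      exact hg2 θ h
  have h2 : Fintype.card Θ * V - (B.card : ℝ) * (|V| + |C|) ≤ ∑ θ, g θ := by
    refine le_trans (le_of_eq ?_) (Finset.sum_le_sum fun θ _ => h1 θ)
    rw [Finset.sum_sub_distrib, Finset.sum_const, nsmul_eq_mul, Finset.card_univ,
      Finset.sum_ite_mem, Finset.univ_inter, Finset.sum_const, nsmul_eq_mul]
  have h3 : (B.card : ℝ) * (|V| + |C|) ≤ δ * Fintype.card Θ * (|V| + |C|) :=
    mul_le_mul_of_nonneg_right hδ (by positivity)
  rw [one_div, inv_mul_eq_div, le_div_iff₀ hpos]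
  calc (V - δ * (|V| + |C|)) * Fintype.card Θ =
      Fintype.card Θ * V - δ * Fintype.card Θ * (|V| + |C|) := by ring
    _ ≤ _ := by linarith

section Main

variable [∀ N, MeasurableSpace (OG N)] [∀ N, BorelSpace (OG N)]
  (ν : (N : ℕ) → Measure (OG N)) [∀ N, IsProbabilityMeasure (ν N)]

/-- **The lower bound from the increments.** -/
theorem LBg_of_inc {β : ℝ} (hβ : 0 < β) (h : IncSt ν β) : LBg ν β := by
  intro M₀
  refine ⟨β / 2, by positivity, fun n a α a0 h0 hh ha haM hα hα1 ε hε => ?_⟩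
  obtain ⟨C, hC⟩ := h n a α a0 h0 hh ha hα hα1
  obtain ⟨C', hC'⟩ := mp_bound ν hβ.le a
  have hwt : ∀ {N : ℕ} (c : Fin N → Fin (n + 1)), 0 ≤ wt α c := fun c =>
    Finset.prod_nonneg fun i _ => (hα _).le
  have hlow : ∀ N, -C' ≤ ∑ c : Fin N → Fin (n + 1), wt α c * mp ν β a N c := by
    intro N
    have h1 : ∑ c : Fin N → Fin (n + 1), wt α c * (-C') ≤
        ∑ c : Fin N → Fin (n + 1), wt α c * mp ν β a N c :=
      Finset.sum_le_sum fun c _ => mul_le_mul_of_nonneg_left (abs_le.1 (hC' N c)).1 (hwt c)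
    rwa [← Finset.sum_mul, sum_wt α hα1, one_mul] at h1
  have hgap : 0 ≤ β / 2 * h0 / α (Fin.last n) :=
    div_nonneg (mul_nonneg (by positivity) hh.le) (hα _).le
  by_cases hbd : BddBelow (vals β (atoms a α))
  swap
  · have hex : ∃ y ∈ vals β (atoms a α), y < -C' := by
      by_contra hcon
      push Not at hcon
      exact hbd ⟨-C', fun y hy => hcon y hy⟩
    obtain ⟨y, hy, hyC⟩ := hex
    refine Eventually.of_forall fun N => ⟨y, hy, ?_⟩
    have := hlow N
    linarith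
  have hne : (vals β (atoms a α)).Nonempty :=
    ⟨_, vals_of (k := 0) (m := fun j => if j = 0 then 0 else 1) (q := fun _ => 0) β _
      ⟨by simp, by simp, fun i hi => by
        obtain rfl : i = 0 := by omega
        simp only [↓reduceIte, zero_add, one_ne_zero, zero_lt_one]⟩
      ⟨le_rfl, fun _ _ => le_rfl⟩ rfl (by norm_num)⟩
  set v0 := sInf (vals β (atoms a α)) with hv0
  set η : ℝ := min 1 (ε / (2 * n + 8)) with hη
  have hη0 : 0 < η := lt_min one_pos (by positivity)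
  have hη1 : η ≤ 1 := min_le_left _ _
  have hηε : (2 * n + 8) * η ≤ ε := by
    have h1 : η ≤ ε / (2 * n + 8) := min_le_right _ _
    rw [le_div_iff₀ (by positivity)] at h1
    linarith only [h1]
  obtain ⟨K, m, s, hm, hs0, hs, hs2, dl, hdl, hdl1, ε₀, hε₀, t₀, ht₀, hC2⟩ := hC η hη0
  have hK : (0 : ℝ) < K + 1 := by positivity
  have hdlη : dl ≤ η := by
    have hdl2 : dl * (K + 1) ≤ η := (le_div_iff₀ hK).1 hdl1
    nlinarith only [hdl2, hdl]
  -- the values
  set V : ℝ := Real.log 2 + v0 - β * h0 / (2 * α (Fin.last n)) - η with hV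
  set δ : ℝ := η / (|V| + |C| + 1) with hδ
  have hVC : 0 < |V| + |C| + 1 := by positivity
  have hδ0 : 0 < δ := div_pos hη0 hVC
  have hδV : δ * (|V| + |C|) ≤ η := by
    rw [hδ, div_mul_eq_mul_div, div_le_iff₀ hVC]
    linarith only [hη0]
  -- the box
  obtain ⟨M, hM⟩ := exists_nat_gt (4 * ((n + 1) * (K + 1)) / (δ * ε₀))
  have hM0 : 0 < M := by
    have h1 : (0 : ℝ) ≤ 4 * ((n + 1) * (K + 1)) / (δ * ε₀) := by positivity
    exact_mod_cast h1.trans_lt hM
  have hM' : (0 : ℝ) < M := by exact_mod_cast hM0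
  have hMδ : 4 * (((n : ℝ) + 1) * (K + 1)) ≤ δ * (ε₀ * M) := by
    rw [div_lt_iff₀ (by positivity)] at hM
    linarith only [hM]
  set t : ℝ := min t₀ (dl / 2 / (M + 1)) with ht
  have ht0 : 0 < t := lt_min ht₀ (by positivity)
  have htM : t * (M + 1) ≤ dl / 2 := by
    have h1 : t ≤ dl / 2 / (M + 1) := min_le_right _ _
    rwa [le_div_iff₀ (by positivity)] at h1
  have htM' : t * M ≤ dl / 2 := by linarith only [ht0, htM]
  obtain ⟨N₀, hN₀⟩ := hC2 t ht0 (min_le_left _ _)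
  set b : Fin (n + 1) → ℝ := fun k => β * a k with hb
  set pt : (Bx n K → Fin M) → Pm (n + 1) := fun θ => bxP K s (dl / 2) t b θ with hpt
  have : Nonempty (Fin M) := ⟨⟨0, hM0⟩⟩
  set card : ℝ := ((Fintype.card (Bx n K → Fin M) : ℕ) : ℝ) with hcard
  have hcard0 : 0 < card := by
    rw [hcard]
    exact_mod_cast Fintype.card_pos
  set F : (N : ℕ) → (Fin N → Fin (n + 1)) → ℝ := fun N c =>
    1 / card * ∑ θ, Fe (ν N) K m c (pt θ) with hF
  -- the points of the box are admissible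
  have hptb : ∀ θ k, |(pt θ).b k - b k| ≤ dl := fun θ k =>
    (bxP_b s ht0.le htM' b θ k).trans (by linarith only [hdl])
  have hptu : ∀ θ k l, 1 ≤ l → l ≤ K → dl / 2 ≤ (pt θ).u k l ∧ (pt θ).u k l ≤ dl :=
    fun θ k l hl hlK => by
      have h1 := bxP_u s ht0.le htM' b θ k hl hlK
      exact ⟨h1.1, by linarith only [h1.2]⟩
  -- comparison with the pressure
  have hcmp : ∀ N, 0 < N → ∀ c : Fin N → Fin (n + 1), |F N c - mp ν β a N c| ≤ (2 * n + 3) * η := by
    intro N hN c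
    have h1 : ∀ θ, |Fe (ν N) K m c (pt θ) - mp ν β a N c| ≤ (2 * n + 3) * η := by
      intro θ
      have h2 := Fe_pert (ν := ν N) (c := c) hm hN hdl hdl1 hη1 b (pt θ) hs hs2 (hptb θ)
        (bxP_u0 s _ _ b θ) (fun k l hl hlK => ⟨by linarith only [hdl, (hptu θ k l hl hlK).1],
          (hptu θ k l hl hlK).2⟩)
      have h3 : Fe (ν N) K m c ⟨b, 0, 0⟩ = mp ν β a N c := U.Fe_zero hm hN β a
      rw [h3] at h2
      exact h2
    have h2 : F N c - mp ν β a N c = 1 / card * ∑ θ, (Fe (ν N) K m c (pt θ) - mp ν β a N c) := by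
      have h3 : 1 / card * (card * mp ν β a N c) = mp ν β a N c := by field_simp
      rw [Finset.sum_sub_distrib, Finset.sum_const, nsmul_eq_mul, Finset.card_univ, ← hcard,
        mul_sub, h3]
    rw [h2, abs_mul, abs_of_nonneg (by positivity : 0 ≤ 1 / card)]
    have h3 : |∑ θ, (Fe (ν N) K m c (pt θ) - mp ν β a N c)| ≤ card * ((2 * n + 3) * η) := by
      refine (Finset.abs_sum_le_sum_abs _ _).trans ((Finset.sum_le_sum fun θ _ => h1 θ).trans
        (le_of_eq ?_))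
      rw [Finset.sum_const, nsmul_eq_mul, Finset.card_univ]
    rw [one_div, inv_mul_le_iff₀ hcard0]
    exact h3
  have hFb : ∀ N c, |F N c| ≤ C' + (2 * n + 3) * η + 2 := by
    intro N c
    have hC'0 : 0 ≤ C' := (abs_nonneg _).trans (hC' N c)
    rcases Nat.eq_zero_or_pos N with rfl | hN
    · have h1 : F 0 c = -Real.log 2 := by
        simp only [hF, Md.Fe]
        rw [Finset.sum_congr rfl fun θ _ => by
          rw [Nat.cast_zero, div_zero, zero_mul, zero_sub], Finset.sum_const, nsmul_eq_mul,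
          Finset.card_univ, ← hcard]
        field_simp
      rw [h1, abs_neg, abs_of_nonneg (Real.log_nonneg (by norm_num))]
      have := Real.log_two_lt_d9
      have : 0 ≤ (2 * n + 3) * η := by positivity
      linarith
    · have h1 := hcmp N hN c
      have h2 := hC' N c
      have h3 : |F N c| ≤ |F N c - mp ν β a N c| + |mp ν β a N c| := by
        have := abs_add_le (F N c - mp ν β a N c) (mp ν β a N c)
        rwa [sub_add_cancel] at this
      linarith only [h1, h2, h3]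
  -- the increments
  have hinc : ∀ N, max N₀ 1 ≤ N → ∀ c : Fin N → Fin (n + 1), (∀ k, |frac c k - α k| ≤ dl) →
      V - η - Real.log 2 ≤ ((N : ℝ) + 1) * ∑ k, α k * F (N + 1) (Fin.cons k c) - N * F N c := by
    intro N hN c hc
    have hN1 : 0 < N := lt_of_lt_of_le one_pos ((le_max_right _ _).trans hN)
    set B := (Finset.univ : Finset (Bx n K → Fin M)).filter
      fun θ => ¬ SD (ν N) K m c (pt θ) t ≤ ε₀ * (t * N) with hB
    have hBc : (B.card : ℝ) ≤ δ * Fintype.card (Bx n K → Fin M) :=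
      bad_card (ν := ν N) (c := c) hm hN1 hs (by positivity) ht0 hM0 (by linarith only [hη1, hdlη, htM]) b hε₀ hMδ
    set g : (Bx n K → Fin M) → ℝ := fun θ =>
      ∑ k, α k * Ph (ν (N + 1)) K m (Fin.cons k c) (pt θ) - Ph (ν N) K m c (pt θ) with hg
    have hi : ∀ θ, -C ≤ g θ ∧ (SD (ν N) K m c (pt θ) t ≤ ε₀ * (t * N) →
        ∃ y ∈ vals β (atoms a α), Real.log 2 + y - β * h0 / (2 * α (Fin.last n)) - η ≤ g θ) :=
      fun θ => hN₀ N ((le_max_left _ _).trans hN) c hc (pt θ) rfl (hptb θ)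
        (bxP_u0 s _ _ b θ) (hptu θ)
    have h1 := avg_ge g hBc (V := V) (C := C) (fun θ => (hi θ).1) (fun θ hθ => by
      have h2 : SD (ν N) K m c (pt θ) t ≤ ε₀ * (t * N) := by
        by_contra hcon
        exact hθ (Finset.mem_filter.2 ⟨Finset.mem_univ _, hcon⟩)
      obtain ⟨y, hy, hy2⟩ := (hi θ).2 h2
      have h3 : v0 ≤ y := csInf_le hbd hy
      rw [hV]
      linarith only [hy2, h3])
    have h2 : ((N : ℝ) + 1) * ∑ k, α k * F (N + 1) (Fin.cons k c) - N * F N c =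
        1 / card * ∑ θ, g θ - Real.log 2 := by
      have hPh1 : ∀ k θ, Ph (ν (N + 1)) K m (Fin.cons k c) (pt θ) =
          ((N : ℝ) + 1) * (Fe (ν (N + 1)) K m (Fin.cons k c) (pt θ) + Real.log 2) := by
        intro k θ
        rw [Ph_eq (Nat.succ_pos N)]
        push_cast
        ring
      have h3 : ∑ θ, g θ = ∑ k, α k * (((N : ℝ) + 1) *
          ∑ θ, Fe (ν (N + 1)) K m (Fin.cons k c) (pt θ)) - N * ∑ θ, Fe (ν N) K m c (pt θ) +
          card * Real.log 2 := by
        simp only [hg, hPh1, Ph_eq hN1]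
        rw [Finset.sum_sub_distrib, Finset.sum_comm]
        simp only [← Finset.mul_sum, Finset.sum_add_distrib, Finset.sum_const, nsmul_eq_mul,
          Finset.card_univ, ← hcard, mul_add]
        rw [← Finset.sum_mul, hα1, one_mul]
        ring
      rw [h3]
      simp only [hF]
      rw [mul_add, mul_sub]
      have h4 : 1 / card * (card * Real.log 2) = Real.log 2 := by field_simp
      have h5 : 1 / card * ∑ k, α k * (((N : ℝ) + 1) *
          ∑ θ, Fe (ν (N + 1)) K m (Fin.cons k c) (pt θ)) =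
          ((N : ℝ) + 1) * ∑ k, α k * (1 / card * ∑ θ, Fe (ν (N + 1)) K m (Fin.cons k c) (pt θ)) := by
        rw [Finset.mul_sum, Finset.mul_sum]
        exact Finset.sum_congr rfl fun k _ => by ring
      rw [h4, h5]
      ring
    rw [h2]
    linarith only [hδV, h1]
  have hfin := lower_of_inc hα hα1 F hFb hdl hinc hη0
  obtain ⟨y, hy, hyv⟩ := exists_lt_of_csInf_lt hne (lt_add_of_pos_right v0 hη0)
  filter_upwards [hfin, eventually_gt_atTop 0] with N hN hN0
  refine ⟨y, hy, ?_⟩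
  have h1 : ∑ c : Fin N → Fin (n + 1), wt α c * F N c ≤
      ∑ c : Fin N → Fin (n + 1), wt α c * mp ν β a N c + (2 * n + 3) * η := by
    have h2 : ∑ c : Fin N → Fin (n + 1), wt α c * F N c ≤
        ∑ c : Fin N → Fin (n + 1), wt α c * (mp ν β a N c + (2 * n + 3) * η) :=
      Finset.sum_le_sum fun c _ => mul_le_mul_of_nonneg_left
        (by linarith only [(abs_le.1 (hcmp N hN0 c)).2]) (hwt c)
    simp only [mul_add] at h2
    rw [Finset.sum_add_distrib, ← Finset.sum_mul (s := Finset.univ) (f := fun c => wt α c),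
      sum_wt α hα1, one_mul] at h2
    linarith only [h2]
  have h3 : β * h0 / (2 * α (Fin.last n)) = β / 2 * h0 / α (Fin.last n) := by
    field_simp
  rw [hV, h3] at hN
  linarith only [hη0, hηε, hyv, hN, h1]

end Main

end Vale.Agent.P166.L
end
end

section

section

/-! P166: the lower bound `LBg`. -/

open MeasureTheory ProbabilityTheory Matrix Filter Topology

namespace Vale.Agent.P166.L

open Vale.Agent.P166.F Vale.Agent.P166.Conc

/-- **The lower bound.** -/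
theorem lower_LBg [∀ N, MeasurableSpace (OG N)] [∀ N, BorelSpace (OG N)]
    (ν : (N : ℕ) → Measure (OG N)) [∀ N, IsProbabilityMeasure (ν N)]
    [∀ N, (ν N).IsMulLeftInvariant] {β : ℝ} (hβ : 0 < β) : LBg ν β :=
  LBg_of_inc ν hβ (inc_st ν (fun κ _ hB => H.var_bound κ _ hB) hβ)

end Vale.Agent.P166.L
end
end

section

section

/-! P166: the limiting pressure. -/

open MeasureTheory ProbabilityTheory Matrix Filter Topology

namespace Vale.Agent.P166

open Vale.Agent.P166.Conc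

theorem full_formula
    [∀ N, MeasurableSpace (OG N)] [∀ N, BorelSpace (OG N)]
    (ν : (N : ℕ) → Measure (OG N)) [∀ N, IsProbabilityMeasure (ν N)]
    [∀ N, (ν N).IsMulLeftInvariant] {β : ℝ} (hβ : 0 < β) (μ : Measure ℝ)
    [IsProbabilityMeasure μ] (hμ : IsCompact μ.support) :
    ∃ p : ℝ, IsGLB (vals β μ) p ∧ ∀ Λ : (N : ℕ) → Fin N → ℝ, Admissible Λ μ →
      Tendsto (fun N => ∫ U, (pressure N β (U.1ᵀ * diagonal (Λ N) * U.1) - p) ^ 2 ∂(ν N))
        atTop (𝓝 0) ∧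
      (∀ ε > 0, Tendsto (fun N => (ν N).real
        {U | ε ≤ |pressure N β (U.1ᵀ * diagonal (Λ N) * U.1) - p|}) atTop (𝓝 0)) ∧
      ∀ (Ω : Type) [MeasurableSpace Ω] (P : Measure Ω) [IsProbabilityMeasure P]
        (W : (N : ℕ) → Ω → OG N), (∀ N, Measurable (W N)) → (∀ N, P.map (W N) = ν N) →
        ∀ᵐ ω ∂P, Tendsto (fun N => pressure N β ((W N ω).1ᵀ * diagonal (Λ N) * (W N ω).1))
          atTop (𝓝 p) := by
  have hU : F.UBf ν β := H.upper_fin ν hβ
  have hL : F.LBg ν β := L.lower_LBg ν hβ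
  obtain ⟨p, hp, hlim⟩ := F.mean_of_grid ν hβ hU hL μ hμ
  obtain ⟨p', hp', hfull⟩ := F.full_of_mean ν hβ μ hμ ⟨p, hp, hlim⟩
  have hpp : p' = p := hp'.unique hp
  rw [hpp] at hfull
  refine ⟨p, hp, fun Λ hΛ => ⟨(hfull Λ hΛ).1, (hfull Λ hΛ).2, ?_⟩⟩
  intro Ω _ P _ W hW hlaw
  exact F.as_of_mean ν hβ.le μ Λ hΛ (hlim Λ hΛ) P W (fun N => (hW N).aemeasurable) hlaw

end Vale.Agent.P166
end
end
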