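import Vale.Agent.P146.R3.X.Lin
import Vale.Agent.P146.R3.X.B6

/-! Almost sure convergence of the pressure of orthogonally invariant random matrices. -/

namespace Vale.Agent.P166.H295

open MeasureTheory Matrix Filter Topology Vale.Agent.P166.Conc
open scoped ENNReal

/-- Arrays, as a plain function type with its product topology and σ-algebra. -/
abbrev T (N : ℕ) := Fin N → Fin N → ℝ

section Det

variable {N : ℕ}

theorem continuous_pr (β : ℝ) : Continuous fun A : T N => pressure N β (Matrix.of A) := by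
  unfold pressure
  refine continuous_const.mul (Continuous.log ?_ fun A => ?_)
  · refine continuous_const.mul (continuous_finsetSum _ fun σ _ => Real.continuous_exp.comp ?_)
    refine continuous_const.mul ?_
    simp only [dotProduct, mulVec, Matrix.of_apply]
    fun_prop
  · have := pos_sum β (Matrix.of A)
    positivity

/-- Conjugation, on arrays. -/
def cj (A : T N) (U : OG N) : T N := fun i j => (U.1ᵀ * Matrix.of A * U.1) i j

theorem of_cj (A : T N) (U : OG N) : Matrix.of (cj A U) = U.1ᵀ * Matrix.of A * U.1 := rfl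

theorem continuous_cj : Continuous fun p : T N × OG N => cj p.1 p.2 := by
  unfold cj
  simp only [Matrix.mul_apply, Matrix.transpose_apply, Matrix.of_apply]
  refine continuous_pi fun i => continuous_pi fun j => continuous_finsetSum _ fun k _ => ?_
  have h0 : Continuous fun p : T N × OG N => (p.2.1 : Matrix (Fin N) (Fin N) ℝ) :=
    continuous_subtype_val.comp continuous_snd
  have h : ∀ a b : Fin N, Continuous fun p : T N × OG N => p.2.1 a b :=
    fun a b => h0.matrix_elem a b
  refine (continuous_finsetSum _ fun l _ => (h _ _).mul ?_).mul (h _ _)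
  exact (continuous_apply k).comp ((continuous_apply l).comp continuous_fst)

theorem isCompact_orth :
    IsCompact {A : T N | Matrix.of A ∈ orthogonalGroup (Fin N) ℝ} := by
  refine Metric.isCompact_of_isClosed_isBounded ?_ ?_
  · have h : {A : T N | Matrix.of A ∈ orthogonalGroup (Fin N) ℝ} =
        {A : T N | ∀ i j, ∑ k, A i k * A j k = (1 : Matrix (Fin N) (Fin N) ℝ) i j} := by
      ext A
      simp only [Set.mem_ofPred_eq, Matrix.mem_orthogonalGroup_iff, ← Matrix.ext_iff,
        Matrix.mul_apply, Matrix.transpose_apply, Matrix.of_apply]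
    rw [h]
    simp only [Set.ofPred_forall]
    refine isClosed_iInter fun i => isClosed_iInter fun j => isClosed_eq ?_ continuous_const
    fun_prop
  · rw [Metric.isBounded_iff_subset_closedBall (0 : T N)]
    refine ⟨1, fun A hA => ?_⟩
    rw [mem_closedBall_zero_iff, pi_norm_le_iff_of_nonneg zero_le_one]
    intro i
    rw [pi_norm_le_iff_of_nonneg zero_le_one]
    intro j
    have h1 := (Matrix.mem_orthogonalGroup_iff (Fin N) ℝ).1 hA
    have h2 : (Matrix.of A * (Matrix.of A)ᵀ) i i = (1 : Matrix (Fin N) (Fin N) ℝ) i i :=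
      congrFun (congrFun h1 i) i
    rw [Matrix.mul_apply, Matrix.one_apply_eq] at h2
    simp only [Matrix.transpose_apply, Matrix.of_apply] at h2
    have h3 : A i j * A i j ≤ ∑ k, A i k * A i k :=
      Finset.single_le_sum (f := fun k => A i k * A i k) (fun k _ => mul_self_nonneg _)
        (Finset.mem_univ j)
    rw [h2] at h3
    rw [Real.norm_eq_abs, abs_le_one_iff_mul_self_le_one]
    exact h3

theorem isCompact_spec (K : ℝ) : IsCompact {A : T N | Matrix.of A ∈ Spec N K} := by
  have h : {A : T N | Matrix.of A ∈ Spec N K} =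
      (fun p : T N × (Fin N → ℝ) => (fun i j => ((Matrix.of p.1)ᵀ * diagonal p.2 *
        (Matrix.of p.1)) i j : T N)) ''
        ({A : T N | Matrix.of A ∈ orthogonalGroup (Fin N) ℝ} ×ˢ
          (Set.univ.pi fun _ : Fin N => Set.Icc (-K) K)) := by
    ext A
    simp only [Spec, Set.mem_ofPred_eq, Set.mem_image, Set.mem_prod, Set.mem_univ_pi,
      Set.mem_Icc, Prod.exists]
    constructor
    · rintro ⟨V, a, ha, h⟩
      refine ⟨V.1, a, ⟨V.2, fun i => abs_le.1 (ha i)⟩, ?_⟩
      funext i j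
      exact (congrFun (congrFun h i) j).symm
    · rintro ⟨V, a, ⟨hV, ha⟩, h⟩
      refine ⟨⟨Matrix.of V, hV⟩, a, fun i => abs_le.2 (ha i), ?_⟩
      ext i j
      exact (congrFun (congrFun h i) j).symm
  rw [h]
  refine (isCompact_orth.prod (isCompact_univ_pi fun _ => isCompact_Icc)).image ?_
  have h1 : ∀ (p : T N × (Fin N → ℝ)) (i j : Fin N),
      ((Matrix.of p.1)ᵀ * diagonal p.2 * (Matrix.of p.1)) i j =
        ∑ k, p.1 k i * p.2 k * p.1 k j := by
    intro p i j
    rw [Matrix.mul_apply]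
    simp only [Matrix.mul_diagonal, Matrix.transpose_apply, Matrix.of_apply]
  simp only [h1]
  fun_prop

end Det

section Haar

variable {N : ℕ} [MeasurableSpace (OG N)] [BorelSpace (OG N)] (ν : Measure (OG N))

/-- The mean of the pressure over the orbit. -/
noncomputable def orb (β : ℝ) (A : T N) : ℝ :=
  ∫ V : OG N, pressure N β (V.1ᵀ * Matrix.of A * V.1) ∂ν

theorem measurable_orb [IsProbabilityMeasure ν] (β : ℝ) : Measurable (orb ν β) := by
  have h : Measurable fun p : T N × OG N => pressure N β (p.2.1ᵀ * Matrix.of p.1 * p.2.1) :=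
    ((continuous_pr β).comp continuous_cj).measurable
  exact (h.stronglyMeasurable.integral_prod_right').measurable

/-- The bad set. -/
def bad (β K ε : ℝ) : Set (T N) :=
  {A | Matrix.of A ∈ Spec N K ∧ ε ≤ |pressure N β (Matrix.of A) - orb ν β A|}

theorem measurableSet_bad [IsProbabilityMeasure ν] (β K ε : ℝ) :
    MeasurableSet (bad ν β K ε) := by
  refine ((isCompact_spec K).isClosed.measurableSet).inter ?_
  exact measurableSet_le measurable_const
    (((continuous_pr β).measurable.sub (measurable_orb ν β)).abs)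

omit [MeasurableSpace (OG N)] [BorelSpace (OG N)] in
theorem mul_conj (V U : OG N) (a : Fin N → ℝ) :
    U.1ᵀ * (V.1ᵀ * diagonal a * V.1) * U.1 = (V * U).1ᵀ * diagonal a * (V * U).1 := by
  have h : (V * U).1 = V.1 * U.1 := rfl
  rw [h, Matrix.transpose_mul]
  simp only [Matrix.mul_assoc]

theorem orb_eq [ν.IsMulLeftInvariant] (β : ℝ) (V : OG N) (a : Fin N → ℝ) :
    orb ν β (V.1ᵀ * diagonal a * V.1 : Matrix (Fin N) (Fin N) ℝ) =
      ∫ U : OG N, pressure N β (U.1ᵀ * diagonal a * U.1) ∂ν := by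
  unfold orb
  have h : ∀ U : OG N, pressure N β (U.1ᵀ * Matrix.of (V.1ᵀ * diagonal a * V.1) * U.1) =
      (fun W : OG N => pressure N β (W.1ᵀ * diagonal a * W.1)) (V * U) := fun U => by
    have h1 : (Matrix.of (V.1ᵀ * diagonal a * V.1) : Matrix (Fin N) (Fin N) ℝ) =
      V.1ᵀ * diagonal a * V.1 := rfl
    rw [h1, mul_conj]
  simp_rw [h]
  exact integral_mul_left_eq_self (μ := ν)
    (fun W : OG N => pressure N β (W.1ᵀ * diagonal a * W.1)) V

theorem tail_orbit {β K : ℝ} (hβ : 0 ≤ β) (hK : 0 ≤ K) : ∃ C : ℝ, 0 ≤ C ∧ ∀ (N : ℕ)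
    [MeasurableSpace (OG N)] [BorelSpace (OG N)] (ν : Measure (OG N)) [IsProbabilityMeasure ν]
    [ν.IsMulLeftInvariant], 0 < N → ∀ ε : ℝ, 0 < ε → ∀ A : T N,
    ν {U | cj A U ∈ bad ν β K ε} ≤
      ENNReal.ofReal (C / ε ^ 4 * (1 / (N * √N))) := by
  obtain ⟨C, hC, h4⟩ := F.fourth_tail hβ hK
  refine ⟨C, hC, fun N _ _ ν _ _ hN ε hε A => ?_⟩
  by_cases hA : Matrix.of A ∈ Spec N K
  · obtain ⟨V, a, ha, hVa⟩ := hA
    have h1 := h4 N ν a hN ha ε hε
    have h2 : {U : OG N | cj A U ∈ bad ν β K ε} ⊆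
        (fun U => V * U) ⁻¹' {U : OG N | ε ≤ |pressure N β (U.1ᵀ * diagonal a * U.1) -
          ∫ V : OG N, pressure N β (V.1ᵀ * diagonal a * V.1) ∂ν|} := by
      intro U hU
      have h3 := hU.2
      have h5 : cj A U =
          ((V * U).1ᵀ * diagonal a * (V * U).1 : Matrix (Fin N) (Fin N) ℝ) := by
        rw [← mul_conj, ← hVa]
        rfl
      rw [h5, orb_eq] at h3
      exact h3
    refine (measure_mono h2).trans ?_
    rw [measure_preimage_mul, ← ENNReal.ofReal_toReal (measure_ne_top ν _)]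
    exact ENNReal.ofReal_le_ofReal h1
  · have h2 : {U : OG N | cj A U ∈ bad ν β K ε} = ∅ := by
      refine Set.eq_empty_of_forall_notMem fun U hU => hA ?_
      obtain ⟨V, a, ha, hVa⟩ := hU.1
      have h3 : U.1ᵀ * Matrix.of A * U.1 = V.1ᵀ * diagonal a * V.1 := hVa
      refine ⟨V * U⁻¹, a, ha, ?_⟩
      have hU1 : U.1 * (U⁻¹).1 = 1 := congrArg Subtype.val (mul_inv_cancel U)
      have hU2 : (U⁻¹).1ᵀ * U.1ᵀ = 1 := by rw [← Matrix.transpose_mul, hU1, Matrix.transpose_one]
      rw [← mul_conj, ← h3]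
      calc Matrix.of A = 1 * Matrix.of A * 1 := by rw [Matrix.one_mul, Matrix.mul_one]
        _ = ((U⁻¹).1ᵀ * U.1ᵀ) * Matrix.of A * (U.1 * (U⁻¹).1) := by rw [hU1, hU2]
        _ = (U⁻¹).1ᵀ * (U.1ᵀ * Matrix.of A * U.1) * (U⁻¹).1 := by simp only [Matrix.mul_assoc]
    rw [h2, measure_empty]
    exact zero_le

attribute [local irreducible] cj in
theorem meas_pair {Ω : Type} [MeasurableSpace Ω] (J : Ω → T N) (hJ : Measurable J) :
    Measurable fun p : Ω × OG N => cj (J p.1) p.2 := by
  have hcj : Measurable fun p : T N × OG N => cj p.1 p.2 := continuous_cj.measurable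
  have h1 : Measurable fun p : Ω × OG N => (J p.1, p.2) :=
    (hJ.comp measurable_fst).prodMk measurable_snd
  exact hcj.comp h1

attribute [local irreducible] cj in
theorem tail_inv [IsProbabilityMeasure ν] {β K : ℝ} {ε : ℝ} {b : ℝ≥0∞}
    (hb : ∀ A : T N, ν {U | cj A U ∈ bad ν β K ε} ≤ b)
    {Ω : Type} [MeasurableSpace Ω] (Q : Measure Ω) [IsProbabilityMeasure Q]
    (J : Ω → T N) (hJ : Measurable J)
    (hinv : ∀ O : OG N, Q.map (fun ω => cj (J ω) O) = Q.map J) :
    Q {ω | J ω ∈ bad ν β K ε} ≤ b := by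
  have hbad := measurableSet_bad ν β K ε
  have hΦ := meas_pair J hJ
  generalize bad ν β K ε = S at *
  have hsm : MeasurableSet {p : Ω × OG N | cj (J p.1) p.2 ∈ S} := hΦ hbad
  have h1 : (Q.prod ν) {p : Ω × OG N | cj (J p.1) p.2 ∈ S} ≤ b := by
    rw [Measure.prod_apply hsm]
    calc ∫⁻ ω, ν (Prod.mk ω ⁻¹' {p : Ω × OG N | cj (J p.1) p.2 ∈ S}) ∂Q ≤ ∫⁻ _, b ∂Q :=
          lintegral_mono fun ω => hb (J ω)
      _ = b := by simp
  have h2 : (Q.prod ν) {p : Ω × OG N | cj (J p.1) p.2 ∈ S} = Q {ω | J ω ∈ S} := by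
    rw [Measure.prod_apply_symm hsm]
    have h3 : ∀ U : OG N, Q ((fun ω => (ω, U)) ⁻¹' {p : Ω × OG N | cj (J p.1) p.2 ∈ S}) =
        Q {ω | J ω ∈ S} := by
      intro U
      have h4 : Q.map (fun ω => cj (J ω) U) S = Q.map J S := by rw [hinv U]
      have h5 : Measurable fun ω => cj (J ω) U :=
        hΦ.comp (measurable_id.prodMk measurable_const)
      rw [Measure.map_apply h5 hbad, Measure.map_apply hJ hbad] at h4
      exact h4
    simp_rw [h3]
    simp
  rwa [h2] at h1

end Haar

section Inv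

variable [∀ N, MeasurableSpace (OG N)] [∀ N, BorelSpace (OG N)]
  (ν : (N : ℕ) → Measure (OG N)) [∀ N, IsProbabilityMeasure (ν N)]
  [∀ N, (ν N).IsMulLeftInvariant]

/-- **Almost sure convergence** of the pressures of an invariant ensemble, at one temperature. -/
theorem as_inv {β : ℝ} (hβ : 0 ≤ β) (μ : Measure ℝ) {p : ℝ}
    (hp : ∀ Λ : (N : ℕ) → Fin N → ℝ, Admissible Λ μ →
      Tendsto (fun N => ∫ U, pressure N β (U.1ᵀ * diagonal (Λ N) * U.1) ∂(ν N)) atTop (𝓝 p))
    {Ω : Type} [MeasurableSpace Ω] (Q : Measure Ω) [IsProbabilityMeasure Q]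
    (J : (N : ℕ) → Ω → Matrix (Fin N) (Fin N) ℝ) (hJ : InvariantEnsemble Q J μ) :
    ∀ᵐ ω ∂Q, Tendsto (fun N => pressure N β (J N ω)) atTop (𝓝 p) := by
  have key : ∀ K j : ℕ, ∀ᵐ ω ∂Q, ∀ᶠ N in atTop,
      ¬ ((fun i k => J N ω i k : T N) ∈ bad (ν N) β K (1 / ((j : ℝ) + 1))) := by
    intro K j
    obtain ⟨C, hC, hC4⟩ := tail_orbit (K := K) hβ (Nat.cast_nonneg K)
    set ε : ℝ := 1 / ((j : ℝ) + 1) with hε
    have hε0 : 0 < ε := by positivity
    set s : ℕ → Set Ω := fun N => {ω | 0 < N ∧ (fun i k => J N ω i k : T N) ∈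
      bad (ν N) β K ε} with hs
    have hsum : ∑' N, Q (s N) ≠ ⊤ := by
      have h1 : ∀ N, Q (s N) ≤ ENNReal.ofReal (C / ε ^ 4 * (1 / (N * √N))) := by
        intro N
        by_cases hN : 0 < N
        · have hJm : Measurable (fun ω => (fun i k => J N ω i k : T N)) :=
            measurable_pi_lambda _ fun i => measurable_pi_lambda _ fun j => hJ.meas N i j
          have h2 := tail_inv (ν N) (hC4 N (ν N) hN ε hε0) Q (fun ω => (fun i k => J N ω i k : T N))
            hJm (hJ.invariant N)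
          refine (measure_mono fun ω hω => ?_).trans h2
          exact hω.2
        · have h3 : s N = ∅ := by
            ext ω
            simp only [hs, hN, false_and, Set.ofPred_false, Set.mem_empty_iff_false]
          rw [h3, measure_empty]
          exact zero_le
      refine ne_top_of_le_ne_top ?_ (ENNReal.tsum_le_tsum h1)
      have hsm : Summable fun N : ℕ => C / ε ^ 4 * (1 / ((N : ℝ) * √N)) := by
        refine Summable.mul_left _ ?_
        have h4 := (Real.summable_one_div_nat_rpow (p := 3 / 2)).2 (by norm_num)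
        refine h4.congr fun N => ?_
        congr 1
        rcases Nat.eq_zero_or_pos N with rfl | hN
        · norm_num
        · have hN' : (0 : ℝ) < N := by exact_mod_cast hN
          rw [Real.sqrt_eq_rpow]
          nth_rewrite 2 [← Real.rpow_one (N : ℝ)]
          rw [← Real.rpow_add hN']
          norm_num
      exact hsm.tsum_ofReal_ne_top
    filter_upwards [ae_eventually_notMem hsum] with ω hω
    filter_upwards [hω, eventually_gt_atTop 0] with N h1 h2 h3
    exact h1 ⟨h2, h3⟩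
  have hall : ∀ᵐ ω ∂Q, ∀ K j : ℕ, ∀ᶠ N in atTop,
      ¬ ((fun i k => J N ω i k : T N) ∈ bad (ν N) β K (1 / ((j : ℝ) + 1))) :=
    ae_all_iff.2 fun K => ae_all_iff.2 fun j => key K j
  filter_upwards [hall, hJ.spectrum] with ω hω hsp
  obtain ⟨Λ, hΛ, hV⟩ := hsp
  obtain ⟨K, hK, hKb⟩ := exists_bound μ hΛ
  obtain ⟨K', hK'⟩ := exists_nat_ge K
  have hmean := hp Λ hΛ
  have horb : ∀ N, orb (ν N) β (fun i k => J N ω i k : T N) =
      ∫ U, pressure N β (U.1ᵀ * diagonal (Λ N) * U.1) ∂(ν N) := by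
    intro N
    obtain ⟨V, hV⟩ := hV N
    rw [← orb_eq (ν N) β V (Λ N), ← hV]
  have h1 : Tendsto (fun N => pressure N β (J N ω) -
      ∫ U, pressure N β (U.1ᵀ * diagonal (Λ N) * U.1) ∂(ν N)) atTop (𝓝 0) := by
    rw [Metric.tendsto_nhds]
    intro ε hε
    obtain ⟨j, hj⟩ := exists_nat_one_div_lt hε
    filter_upwards [hω K' j, hKb] with N hN hb
    rw [Real.dist_eq, sub_zero]
    by_contra hcon
    refine hN ⟨?_, ?_⟩
    · obtain ⟨V, hV⟩ := hV N
      exact ⟨V, Λ N, fun i => (hb i).trans hK', hV⟩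
    · rw [horb]
      exact hj.le.trans (not_lt.1 hcon)
  have h2 := h1.add hmean
  rw [zero_add] at h2
  exact h2.congr fun N => by ring

end Inv

end Vale.Agent.P166.H295
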