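import Vale.Agent.P146.R3.X.Conc
import Vale.Agent.P166.H295.Limit
import Vale.Agent.P166.H295.Exist

/-! The limit as a function of `β`: convexity, ground state energy, Gibbs energies. -/

namespace Vale.Agent.P166.H295

open MeasureTheory Matrix Filter Topology Vale.Agent.P166.Conc

section One

variable {N : ℕ}

theorem spec_conj (a : Fin N → ℝ) (U : OG N) {K : ℝ} (ha : ∀ i, |a i| ≤ K) :
    U.1ᵀ * diagonal a * U.1 ∈ Spec N K := ⟨U, a, ha, rfl⟩

theorem pr_N0 (β : ℝ) (J : Matrix (Fin 0) (Fin 0) ℝ) : pressure 0 β J = 0 := by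
  simp [pressure]

theorem pr_bdd (β : ℝ) (a : Fin N → ℝ) (U : OG N) :
    |pressure N β (U.1ᵀ * diagonal a * U.1)| ≤ (∑ i, |a i|) / 2 * |β| := by
  rcases Nat.eq_zero_or_pos N with rfl | hN
  · rw [pr_N0]
    simp
  · have h1 := pr_lip hN (spec_conj a U (K := ∑ i, |a i|) fun i =>
      Finset.single_le_sum (f := fun i => |a i|) (fun _ _ => abs_nonneg _) (Finset.mem_univ i)) β 0
    rwa [pr_zero hN, sub_zero, sub_zero] at h1

theorem continuous_prU (β : ℝ) (a : Fin N → ℝ) :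
    Continuous fun U : OG N => pressure N β (U.1ᵀ * diagonal a * U.1) :=
  (continuous_pr β).comp (continuous_cj.comp
    (Continuous.prodMk (continuous_const (y := (diagonal a : T N))) continuous_id))

theorem integrable_sq [MeasurableSpace (OG N)] [BorelSpace (OG N)] (ν : Measure (OG N))
    [IsProbabilityMeasure ν] (β p : ℝ) (a : Fin N → ℝ) :
    Integrable (fun U : OG N => (pressure N β (U.1ᵀ * diagonal a * U.1) - p) ^ 2) ν := by
  refine Conc.intg ν (((continuous_prU β a).sub continuous_const).pow 2).measurable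
    (((∑ i, |a i|) / 2 * |β| + |p|) ^ 2) fun U => ?_
  rw [abs_pow]
  exact pow_le_pow_left₀ (abs_nonneg _) ((abs_sub _ _).trans
    (add_le_add_left (pr_bdd β a U) _)) 2

end One

section Main

variable [∀ N, MeasurableSpace (OG N)] [∀ N, BorelSpace (OG N)]
  (ν : (N : ℕ) → Measure (OG N)) [∀ N, IsProbabilityMeasure (ν N)]
  [∀ N, (ν N).IsMulLeftInvariant]

/-- The defining properties of the limiting pressure. -/
structure IsP (μ : Measure ℝ) (P : ℝ → ℝ) : Prop where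
  zero : P 0 = 0
  glb : ∀ β, 0 < β → IsGLB (vals β μ) (P β)
  mean : ∀ β, 0 < β → ∀ Λ : (N : ℕ) → Fin N → ℝ, Admissible Λ μ →
    Tendsto (fun N => ∫ U, pressure N β (U.1ᵀ * diagonal (Λ N) * U.1) ∂(ν N)) atTop (𝓝 (P β))
  l2 : ∀ β, 0 ≤ β → ∀ Λ : (N : ℕ) → Fin N → ℝ, Admissible Λ μ →
    Tendsto (fun N => ∫ U, (pressure N β (U.1ᵀ * diagonal (Λ N) * U.1) - P β) ^ 2 ∂(ν N))
      atTop (𝓝 0)

theorem exists_P (μ : Measure ℝ) [IsProbabilityMeasure μ] (hμ : IsCompact μ.support) :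
    ∃ P : ℝ → ℝ, IsP ν μ P := by
  have h : ∀ β : ℝ, ∃ p : ℝ, (β = 0 → p = 0) ∧ (0 < β → IsGLB (vals β μ) p ∧
      ∀ Λ : (N : ℕ) → Fin N → ℝ, Admissible Λ μ →
        Tendsto (fun N => ∫ U, pressure N β (U.1ᵀ * diagonal (Λ N) * U.1) ∂(ν N)) atTop (𝓝 p) ∧
        Tendsto (fun N => ∫ U, (pressure N β (U.1ᵀ * diagonal (Λ N) * U.1) - p) ^ 2 ∂(ν N))
          atTop (𝓝 0)) := by
    intro β
    by_cases hβ : 0 < β
    · obtain ⟨p, hp, h1⟩ := full_formula ν hβ μ hμ
      obtain ⟨p', hp', h2⟩ := F.mean_of_grid ν hβ (H.upper_fin ν hβ) (L.lower_LBg ν hβ) μ hμ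
      have hpp : p' = p := hp'.unique hp
      rw [hpp] at h2
      exact ⟨p, fun h => absurd h hβ.ne', fun _ => ⟨hp, fun Λ hΛ => ⟨h2 Λ hΛ, (h1 Λ hΛ).1⟩⟩⟩
    · exact ⟨0, fun _ => rfl, fun h => absurd h hβ⟩
  choose P hP0 hP using h
  refine ⟨P, hP0 0 rfl, fun β hβ => (hP β hβ).1, fun β hβ Λ hΛ => ((hP β hβ).2 Λ hΛ).1, ?_⟩
  intro β hβ Λ hΛ
  rcases hβ.eq_or_lt with rfl | hβ
  · rw [hP0 0 rfl]
    refine (tendsto_const_nhds (x := (0 : ℝ))).congr fun N => ?_
    rcases Nat.eq_zero_or_pos N with rfl | hN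
    · simp_rw [pr_N0]
      simp
    · simp_rw [pr_zero hN]
      simp
  · exact ((hP β hβ).2 Λ hΛ).2

variable {ν}

/-- At finitely many temperatures, some matrices of the orbits realise the limits. -/
theorem IsP.exists_seq {μ : Measure ℝ} {P : ℝ → ℝ} (hP : IsP ν μ P)
    {Λ : (N : ℕ) → Fin N → ℝ} (hΛ : Admissible Λ μ) (S : Finset ℝ) (hS : ∀ β ∈ S, 0 ≤ β) :
    ∃ U : (N : ℕ) → OG N, ∀ β ∈ S,
      Tendsto (fun N => pressure N β ((U N).1ᵀ * diagonal (Λ N) * (U N).1)) atTop (𝓝 (P β)) := by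
  have h1 : ∀ N : ℕ, ∃ U : OG N, ∑ β ∈ S,
      (pressure N β (U.1ᵀ * diagonal (Λ N) * U.1) - P β) ^ 2 ≤
      ∫ U, ∑ β ∈ S, (pressure N β (U.1ᵀ * diagonal (Λ N) * U.1) - P β) ^ 2 ∂(ν N) := fun N =>
    exists_le_integral (integrable_finsetSum _ fun β _ => integrable_sq (ν N) β (P β) (Λ N))
  choose U hU using h1
  refine ⟨U, fun β hβ => ?_⟩
  have h2 : Tendsto (fun N => ∫ U, ∑ β ∈ S,
      (pressure N β (U.1ᵀ * diagonal (Λ N) * U.1) - P β) ^ 2 ∂(ν N)) atTop (𝓝 0) := by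
    have h3 : ∀ N, ∫ U, ∑ β ∈ S, (pressure N β (U.1ᵀ * diagonal (Λ N) * U.1) - P β) ^ 2 ∂(ν N) =
        ∑ β ∈ S, ∫ U, (pressure N β (U.1ᵀ * diagonal (Λ N) * U.1) - P β) ^ 2 ∂(ν N) := fun N =>
      integral_finsetSum _ fun β _ => integrable_sq (ν N) β (P β) (Λ N)
    simp_rw [h3]
    have h4 := tendsto_finsetSum S fun β hβ => hP.l2 β (hS β hβ) Λ hΛ
    simpa using h4
  have h3 : Tendsto (fun N => (pressure N β ((U N).1ᵀ * diagonal (Λ N) * (U N).1) - P β) ^ 2)
      atTop (𝓝 0) := by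
    refine squeeze_zero (fun N => sq_nonneg _) (fun N => ?_) h2
    refine le_trans ?_ (hU N)
    exact Finset.single_le_sum
      (f := fun β => (pressure N β ((U N).1ᵀ * diagonal (Λ N) * (U N).1) - P β) ^ 2)
      (fun _ _ => sq_nonneg _) hβ
  have h4 : Tendsto (fun N => pressure N β ((U N).1ᵀ * diagonal (Λ N) * (U N).1) - P β)
      atTop (𝓝 0) := by
    have h5 := (Real.continuous_sqrt.tendsto 0).comp h3
    rw [Real.sqrt_zero] at h5
    rw [tendsto_zero_iff_abs_tendsto_zero]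
    exact h5.congr fun N => by simp [Function.comp, Real.sqrt_sq_eq_abs]
  have h5 := h4.add_const (P β)
  rw [zero_add] at h5
  exact h5.congr fun N => by ring

/-- The limit is as good as its approximations. -/
theorem IsP.lim {μ : Measure ℝ} {P : ℝ → ℝ} (hP : IsP ν μ P)
    {Λ : (N : ℕ) → Fin N → ℝ} (hΛ : Admissible Λ μ) :
    ConvexOn ℝ (Set.Ici 0) P ∧ ∃ e C : ℝ, 0 ≤ C ∧ Lim P e C := by
  obtain ⟨K, hK, hKb⟩ := exists_bound μ hΛ
  have hspec : ∀ U : (N : ℕ) → OG N, ∀ᶠ N in atTop,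
      (U N).1ᵀ * diagonal (Λ N) * (U N).1 ∈ Spec N K := fun U => by
    filter_upwards [hKb] with N hN
    exact spec_conj (Λ N) (U N) hN
  refine ⟨⟨convex_Ici 0, ?_⟩, ?_⟩
  · intro x hx y hy a b ha hb hab
    simp only [smul_eq_mul, Set.mem_Ici] at hx hy ⊢
    obtain ⟨U, hU⟩ := hP.exists_seq hΛ {x, y, a * x + b * y} (by
      intro β hβ
      simp only [Finset.mem_insert, Finset.mem_singleton] at hβ
      rcases hβ with rfl | rfl | rfl
      · exact hx
      · exact hy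
      · positivity)
    have h1 := hU x (by simp)
    have h2 := hU y (by simp)
    have h3 := hU (a * x + b * y) (by simp)
    refine le_of_tendsto_of_tendsto h3 ((h1.const_mul a).add (h2.const_mul b)) ?_
    filter_upwards [eventually_gt_atTop 0] with N hN
    have t1 := pr_tangent hN (a * x + b * y) x ((U N).1ᵀ * diagonal (Λ N) * (U N).1)
    have t2 := pr_tangent hN (a * x + b * y) y ((U N).1ᵀ * diagonal (Λ N) * (U N).1)
    set s := gibbsEnergy N (a * x + b * y) ((U N).1ᵀ * diagonal (Λ N) * (U N).1)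
    set g := pressure N (a * x + b * y) ((U N).1ᵀ * diagonal (Λ N) * (U N).1)
    have t3 := add_le_add (mul_le_mul_of_nonneg_left t1 ha) (mul_le_mul_of_nonneg_left t2 hb)
    have t4 : a * (g + (x - (a * x + b * y)) * s) + b * (g + (y - (a * x + b * y)) * s) = g := by
      have : b = 1 - a := by linarith
      subst this
      ring
    rw [t4] at t3
    exact t3
  · have hcomp : ∀ β γ : ℝ, 0 < β → 0 < γ → P β / β ≤ (P γ + Real.log 2) / γ := by
      intro β γ hβ hγ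
      obtain ⟨U, hU⟩ := hP.exists_seq hΛ {β, γ} (by
        intro x hx
        simp only [Finset.mem_insert, Finset.mem_singleton] at hx
        rcases hx with rfl | rfl
        · exact hβ.le
        · exact hγ.le)
      have h1 := hU β (by simp)
      have h2 := hU γ (by simp)
      refine le_of_tendsto_of_tendsto (h1.div_const β) ((h2.add_const (Real.log 2)).div_const γ) ?_
      filter_upwards [eventually_gt_atTop 0] with N hN
      have t1 := pr_le_max hN hβ.le ((U N).1ᵀ * diagonal (Λ N) * (U N).1)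
      have t2 := max_le_pr hN γ ((U N).1ᵀ * diagonal (Λ N) * (U N).1)
      have t3 : pressure N β ((U N).1ᵀ * diagonal (Λ N) * (U N).1) / β ≤
          maxEnergy N ((U N).1ᵀ * diagonal (Λ N) * (U N).1) := by
        rw [div_le_iff₀ hβ]
        linarith
      refine t3.trans ?_
      rw [le_div_iff₀ hγ]
      linarith
    set e : ℝ := sSup {x | ∃ β : ℝ, 0 < β ∧ x = P β / β} with he
    have hbdd : BddAbove {x | ∃ β : ℝ, 0 < β ∧ x = P β / β} := by
      refine ⟨(P 1 + Real.log 2) / 1, ?_⟩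
      rintro x ⟨β, hβ, rfl⟩
      exact hcomp β 1 hβ one_pos
    refine ⟨e, K / 2, by positivity, hP.zero, ?_, ?_, ?_⟩
    · intro β γ hβ hγ
      obtain ⟨U, hU⟩ := hP.exists_seq hΛ {β, γ} (by
        intro x hx
        simp only [Finset.mem_insert, Finset.mem_singleton] at hx
        rcases hx with rfl | rfl
        · exact hβ
        · exact hγ)
      have h1 := hU β (by simp)
      have h2 := hU γ (by simp)
      refine le_of_tendsto (h1.sub h2).abs ?_
      filter_upwards [hspec U, eventually_gt_atTop 0] with N h3 hN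
      exact pr_lip hN h3 β γ
    · intro β hβ
      rcases hβ.eq_or_lt with rfl | hβ
      · rw [hP.zero, zero_mul]
      · have h1 : P β / β ≤ e := le_csSup hbdd ⟨β, hβ, rfl⟩
        rw [div_le_iff₀ hβ] at h1
        linarith
    · intro β hβ
      rcases hβ.eq_or_lt with rfl | hβ
      · rw [hP.zero, zero_mul]
        have := Real.log_pos one_lt_two
        linarith
      · have h1 : e ≤ (P β + Real.log 2) / β := by
          refine csSup_le ⟨P 1 / 1, 1, one_pos, rfl⟩ ?_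
          rintro x ⟨γ, hγ, rfl⟩
          exact hcomp γ β hγ hβ
        rw [le_div_iff₀ hβ] at h1
        linarith

/-- Deterministic sequences of matrices with bounded spectra are good. -/
theorem good_of_spec {A : (N : ℕ) → Matrix (Fin N) (Fin N) ℝ} {K : ℝ}
    (hA : ∀ᶠ N in atTop, A N ∈ Spec N K) :
    Good (fun N β => pressure N β (A N)) (fun N β => gibbsEnergy N β (A N))
      (fun N => maxEnergy N (A N)) (K / 2) := by
  refine ⟨?_, ?_, ?_, ?_, ?_⟩
  · filter_upwards [eventually_gt_atTop 0] with N hN β γ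
    exact pr_tangent hN β γ (A N)
  · filter_upwards [eventually_gt_atTop 0, hA] with N hN h β γ
    exact pr_lip hN h β γ
  · filter_upwards [eventually_gt_atTop 0] with N hN
    exact pr_zero hN (A N)
  · filter_upwards [eventually_gt_atTop 0] with N hN β hβ
    exact pr_le_max hN hβ (A N)
  · filter_upwards [eventually_gt_atTop 0] with N hN β _
    exact max_le_pr hN β (A N)

/-- **The almost sure statement** for orthogonally invariant ensembles. -/
theorem IsP.as_ensemble {μ : Measure ℝ} {P : ℝ → ℝ} (hP : IsP ν μ P) {e C : ℝ} (hC : 0 ≤ C)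
    (hL : Lim P e C) {Ω : Type} [MeasurableSpace Ω] (Q : Measure Ω) [IsProbabilityMeasure Q]
    (J : (N : ℕ) → Ω → Matrix (Fin N) (Fin N) ℝ) (hJ : InvariantEnsemble Q J μ) :
    ∀ᵐ ω ∂Q,
      (∀ B : ℝ, TendstoUniformlyOn (fun N β => pressure N β (J N ω)) P atTop (Set.Icc 0 B)) ∧
      Tendsto (fun N => maxEnergy N (J N ω)) atTop (𝓝 e) ∧
      ∀ β u : ℝ, 0 < β → HasDerivAt P u β →
        Tendsto (fun N => gibbsEnergy N β (J N ω)) atTop (𝓝 u) := by
  have h1 : ∀ᵐ ω ∂Q, ∀ q : ℚ, 0 < q →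
      Tendsto (fun N => pressure N (q : ℝ) (J N ω)) atTop (𝓝 (P q)) := by
    refine ae_all_iff.2 fun q => ?_
    by_cases hq : 0 < q
    · have hq' : (0 : ℝ) < q := by exact_mod_cast hq
      filter_upwards [as_inv ν hq'.le μ (hP.mean q hq') Q J hJ] with ω hω _
      exact hω
    · exact Eventually.of_forall fun ω h => absurd h hq
  filter_upwards [h1, hJ.spectrum] with ω hω hsp
  obtain ⟨Λ, hΛ, hV⟩ := hsp
  obtain ⟨K, hK, hKb⟩ := exists_bound μ hΛ
  have hspec : ∀ᶠ N in atTop, J N ω ∈ Spec N K := by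
    filter_upwards [hKb] with N hN
    obtain ⟨V, hV⟩ := hV N
    exact ⟨V, Λ N, hN, hV⟩
  have hg := (good_of_spec hspec).mono (le_max_left (K / 2) C)
  have hL' := hL.mono (le_max_right (K / 2) C)
  have hC' : 0 ≤ max (K / 2) C := hC.trans (le_max_right _ _)
  exact ⟨fun B => unif hC' hg hL' hω B, lim_max hC' hg hL' hω,
    fun β u hβ hu => lim_gibbs hC' hg hL' hω hβ hu⟩

/-- An abstract convergence in mean. -/
theorem IsP.mean_lim {μ : Measure ℝ} {P : ℝ → ℝ} (hP : IsP ν μ P)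
    {Λ : (N : ℕ) → Fin N → ℝ} (hΛ : Admissible Λ μ) (X : (N : ℕ) → OG N → ℝ)
    (hX : ∀ N U, 0 ≤ X N U)
    (h : ∀ ε > 0, ∃ (S : Finset ℝ) (C : ℝ), 0 ≤ C ∧ (∀ β ∈ S, 0 ≤ β) ∧
      ∀ᶠ N in atTop, ∀ U, X N U ≤
        ε + C * ∑ β ∈ S, (pressure N β (U.1ᵀ * diagonal (Λ N) * U.1) - P β) ^ 2) :
    Tendsto (fun N => ∫ U, X N U ∂(ν N)) atTop (𝓝 0) := by
  rw [Metric.tendsto_nhds]
  intro ε hε
  obtain ⟨S, C, hC, hS, hb⟩ := h (ε / 2) (half_pos hε)
  have hint : ∀ N, Integrable (fun U : OG N => ∑ β ∈ S,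
      (pressure N β (U.1ᵀ * diagonal (Λ N) * U.1) - P β) ^ 2) (ν N) := fun N =>
    integrable_finsetSum _ fun β _ => integrable_sq (ν N) β (P β) (Λ N)
  have h2 : Tendsto (fun N => C * ∫ U, ∑ β ∈ S,
      (pressure N β (U.1ᵀ * diagonal (Λ N) * U.1) - P β) ^ 2 ∂(ν N)) atTop (𝓝 (C * 0)) := by
    refine Tendsto.const_mul C ?_
    have h3 : ∀ N, ∫ U, ∑ β ∈ S, (pressure N β (U.1ᵀ * diagonal (Λ N) * U.1) - P β) ^ 2 ∂(ν N) =
        ∑ β ∈ S, ∫ U, (pressure N β (U.1ᵀ * diagonal (Λ N) * U.1) - P β) ^ 2 ∂(ν N) := fun N =>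
      integral_finsetSum _ fun β _ => integrable_sq (ν N) β (P β) (Λ N)
    simp_rw [h3]
    have h4 := tendsto_finsetSum S fun β hβ => hP.l2 β (hS β hβ) Λ hΛ
    simpa using h4
  rw [mul_zero, Metric.tendsto_nhds] at h2
  filter_upwards [hb, h2 (ε / 2) (half_pos hε)] with N h3 h4
  rw [Real.dist_eq, sub_zero] at h4 ⊢
  rw [abs_of_nonneg (integral_nonneg fun U => hX N U)]
  have h5 : ∫ U, X N U ∂(ν N) ≤ ∫ U, (ε / 2 + C * ∑ β ∈ S,
      (pressure N β (U.1ᵀ * diagonal (Λ N) * U.1) - P β) ^ 2) ∂(ν N) :=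
    integral_mono_of_nonneg (Eventually.of_forall fun U => hX N U)
      ((integrable_const _).add ((hint N).const_mul C)) (Eventually.of_forall fun U => h3 U)
  rw [integral_add (integrable_const _) ((hint N).const_mul C), integral_const_mul] at h5
  simp only [integral_const, probReal_univ, smul_eq_mul, one_mul] at h5
  have h6 := (abs_lt.1 h4).2
  linarith

/-- Mean square convergence of the ground state energy. -/
theorem IsP.l2_max {μ : Measure ℝ} {P : ℝ → ℝ} (hP : IsP ν μ P) {e C : ℝ}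
    (hL : Lim P e C) {Λ : (N : ℕ) → Fin N → ℝ} (hΛ : Admissible Λ μ) :
    Tendsto (fun N => ∫ U, (maxEnergy N (U.1ᵀ * diagonal (Λ N) * U.1) - e) ^ 2 ∂(ν N))
      atTop (𝓝 0) := by
  refine hP.mean_lim hΛ _ (fun N U => sq_nonneg _) fun ε hε => ?_
  have hlog : 0 < Real.log 2 := Real.log_pos one_lt_two
  set β : ℝ := 2 * (Real.log 2) ^ 2 / ε + 1 with hβ
  have hβ1 : 1 ≤ β := by
    have : 0 ≤ 2 * (Real.log 2) ^ 2 / ε := by positivity
    linarith
  have hβ0 : 0 < β := by linarith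
  refine ⟨{β}, 2, zero_le_two, by simpa using hβ0.le, ?_⟩
  filter_upwards [eventually_gt_atTop 0] with N hN U
  have h1 := err_max hβ0 (pr_le_max hN hβ0.le (U.1ᵀ * diagonal (Λ N) * U.1))
    (max_le_pr hN β (U.1ᵀ * diagonal (Λ N) * U.1)) (hL.up β hβ0.le) (hL.lo β hβ0.le)
  rw [Finset.sum_singleton]
  set g := pressure N β (U.1ᵀ * diagonal (Λ N) * U.1)
  set m := maxEnergy N (U.1ᵀ * diagonal (Λ N) * U.1)
  have h2 : (m - e) ^ 2 ≤ ((|g - P β| + Real.log 2) / β) ^ 2 := by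
    rw [← sq_abs (m - e)]
    exact pow_le_pow_left₀ (abs_nonneg _) h1 2
  refine h2.trans ?_
  have h3 : ((|g - P β| + Real.log 2) / β) ^ 2 ≤ (2 * (g - P β) ^ 2 + 2 * Real.log 2 ^ 2) / β := by
    rw [div_pow]
    have h4 : (|g - P β| + Real.log 2) ^ 2 ≤ 2 * (g - P β) ^ 2 + 2 * Real.log 2 ^ 2 := by
      rw [← sq_abs (g - P β)]
      nlinarith [sq_nonneg (|g - P β| - Real.log 2)]
    refine (div_le_div_of_nonneg_right h4 (sq_nonneg β)).trans ?_
    refine div_le_div_of_nonneg_left (by positivity) hβ0 ?_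
    nlinarith
  refine h3.trans ?_
  rw [div_le_iff₀ hβ0]
  have h4 : ε * β = 2 * Real.log 2 ^ 2 + ε := by rw [hβ]; field_simp
  have h5 : (ε + 2 * (g - P β) ^ 2) * β = ε * β + 2 * (g - P β) ^ 2 * β := by ring
  rw [h5, h4]
  have h6 : 2 * (g - P β) ^ 2 ≤ 2 * (g - P β) ^ 2 * β := by
    have : 0 ≤ 2 * (g - P β) ^ 2 := by positivity
    nlinarith
  linarith

/-- Mean square convergence of the Gibbs energy. -/
theorem IsP.l2_gibbs {μ : Measure ℝ} {P : ℝ → ℝ} (hP : IsP ν μ P)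
    {Λ : (N : ℕ) → Fin N → ℝ} (hΛ : Admissible Λ μ)
    {β u : ℝ} (hβ : 0 < β) (hu : HasDerivAt P u β) :
    Tendsto (fun N => ∫ U, (gibbsEnergy N β (U.1ᵀ * diagonal (Λ N) * U.1) - u) ^ 2 ∂(ν N))
      atTop (𝓝 0) := by
  refine hP.mean_lim hΛ _ (fun N U => sq_nonneg _) fun ε hε => ?_
  obtain ⟨δ, hδ, hδε⟩ : ∃ δ : ℝ, 0 < δ ∧ 4 * δ ^ 2 ≤ ε := by
    refine ⟨√ε / 2, by positivity, ?_⟩
    rw [div_pow, Real.sq_sqrt hε.le]
    linarith
  obtain ⟨h, hh0, hhβ, d1, d2⟩ := exists_h hβ hδ hu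
  refine ⟨{β, β + h, β - h}, 4 / h ^ 2, by positivity, ?_, ?_⟩
  · intro x hx
    simp only [Finset.mem_insert, Finset.mem_singleton] at hx
    rcases hx with rfl | rfl | rfl <;> linarith
  filter_upwards [eventually_gt_atTop 0] with N hN U
  have t1 := pr_tangent hN β (β + h) (U.1ᵀ * diagonal (Λ N) * U.1)
  have t2 := pr_tangent hN β (β - h) (U.1ᵀ * diagonal (Λ N) * U.1)
  rw [Finset.sum_insert (by
      simp only [Finset.mem_insert, Finset.mem_singleton, not_or]
      constructor <;> intro h <;> linarith),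
    Finset.sum_insert (by
      simp only [Finset.mem_singleton]
      intro h
      linarith), Finset.sum_singleton]
  set g0 := pressure N β (U.1ᵀ * diagonal (Λ N) * U.1)
  set g1 := pressure N (β + h) (U.1ᵀ * diagonal (Λ N) * U.1)
  set g2 := pressure N (β - h) (U.1ᵀ * diagonal (Λ N) * U.1)
  set s := gibbsEnergy N β (U.1ᵀ * diagonal (Λ N) * U.1)
  have h3 := err_gibbs (s := s) (g0 := g0) (g1 := g1) (g2 := g2) hh0
    (by linarith) (by linarith) d1 d2
  have h4 : (s - u) ^ 2 ≤ (δ + (|g0 - P β| + |g1 - P (β + h)| + |g2 - P (β - h)|) / h) ^ 2 := by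
    rw [← sq_abs (s - u)]
    exact pow_le_pow_left₀ (abs_nonneg _) h3 2
  refine h4.trans ?_
  have h5 : ∀ a b c d : ℝ, (d + (|a| + |b| + |c|) / h) ^ 2 ≤
      4 * d ^ 2 + 4 / h ^ 2 * (a ^ 2 + (b ^ 2 + c ^ 2)) := by
    intro a b c d
    have e1 : (d + (|a| + |b| + |c|) / h) = d + |a| / h + |b| / h + |c| / h := by ring
    have e2 : 4 / h ^ 2 * (a ^ 2 + (b ^ 2 + c ^ 2)) =
        4 * (|a| / h) ^ 2 + 4 * (|b| / h) ^ 2 + 4 * (|c| / h) ^ 2 := by
      rw [div_pow, div_pow, div_pow, sq_abs, sq_abs, sq_abs]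
      ring
    rw [e1, e2]
    nlinarith [sq_nonneg (d - |a| / h), sq_nonneg (d - |b| / h), sq_nonneg (d - |c| / h),
      sq_nonneg (|a| / h - |b| / h), sq_nonneg (|a| / h - |c| / h), sq_nonneg (|b| / h - |c| / h)]
  refine (h5 _ _ _ _).trans ?_
  linarith

/-- The matrices of the problem form an invariant ensemble. -/
theorem haar_ensemble {μ : Measure ℝ} {Λ : (N : ℕ) → Fin N → ℝ} (hΛ : Admissible Λ μ)
    {Ω : Type} [MeasurableSpace Ω] (Q : Measure Ω) [IsProbabilityMeasure Q]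
    (W : (N : ℕ) → Ω → OG N) (hW : ∀ N, Measurable (W N)) (hlaw : ∀ N, Q.map (W N) = ν N) :
    InvariantEnsemble Q (fun N ω => (W N ω).1ᵀ * diagonal (Λ N) * (W N ω).1) μ := by
  have hΨ : ∀ N, Measurable fun U : OG N => cj (diagonal (Λ N)) U := fun N =>
    (continuous_cj.comp
      (Continuous.prodMk (continuous_const (y := (diagonal (Λ N) : T N))) continuous_id)).measurable
  refine ⟨?_, ?_, ?_⟩
  · intro N i j
    have h1 : Measurable fun ω => cj (diagonal (Λ N)) (W N ω) := (hΨ N).comp (hW N)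
    exact (measurable_pi_apply j).comp ((measurable_pi_apply i).comp h1)
  · intro N O
    have := Conc.haar_right_inv (ν N)
    have h1 : (fun ω => (fun i j => (O.1ᵀ * ((W N ω).1ᵀ * diagonal (Λ N) * (W N ω).1) * O.1) i j :
        T N)) = (fun U : OG N => cj (diagonal (Λ N)) U) ∘ (fun U : OG N => U * O) ∘ W N := by
      funext ω
      funext i j
      rw [mul_conj]
      rfl
    have h2 : (fun ω => (fun i j => ((W N ω).1ᵀ * diagonal (Λ N) * (W N ω).1) i j : T N)) =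
        (fun U : OG N => cj (diagonal (Λ N)) U) ∘ W N := rfl
    rw [h1, h2, ← Measure.map_map (hΨ N) ((measurable_mul_const O).comp (hW N)),
      ← Measure.map_map (measurable_mul_const O) (hW N), ← Measure.map_map (hΨ N) (hW N),
      hlaw N, map_mul_right_eq_self]
  · exact Eventually.of_forall fun ω => ⟨Λ, hΛ, fun N => ⟨W N ω, rfl⟩⟩

end Main

end Vale.Agent.P166.H295
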