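import Vale.Agent.P166.H295.Defs
import Vale.Agent.P146.R3.X.B1

/-! Deterministic facts: convexity of the pressure in `β`, ground state and Gibbs energies. -/

namespace Vale.Agent.P166.H295

open MeasureTheory Matrix Filter Topology

variable {N : ℕ}

/-- The quadratic form. -/
noncomputable abbrev qf (J : Matrix (Fin N) (Fin N) ℝ) (σ : Fin N → ℝ) : ℝ := σ ⬝ᵥ (J *ᵥ σ)

theorem pos_sum (β : ℝ) (J : Matrix (Fin N) (Fin N) ℝ) :
    0 < ∑ σ ∈ cube N, Real.exp (β / 2 * qf J σ) :=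
  Finset.sum_pos (fun _ _ => Real.exp_pos _) (cube_nonempty N)

theorem pr_eq (hN : 0 < N) (β : ℝ) (J : Matrix (Fin N) (Fin N) ℝ) :
    pressure N β J = (1 / (N : ℝ)) * Real.log (∑ σ ∈ cube N, Real.exp (β / 2 * qf J σ)) -
      Real.log 2 := by
  unfold pressure
  rw [Real.log_mul (by positivity) (pos_sum β J).ne', Real.log_pow, Real.log_inv]
  have : (N : ℝ) ≠ 0 := by positivity
  field_simp
  ring

theorem pr_zero (hN : 0 < N) (J : Matrix (Fin N) (Fin N) ℝ) : pressure N 0 J = 0 := by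
  rw [pr_eq hN]
  have h : ∑ σ ∈ cube N, Real.exp (0 / 2 * qf J σ) = (2 : ℝ) ^ N := by
    simp only [zero_div, zero_mul, Real.exp_zero, Finset.sum_const, card_cube]
    simp
  rw [h, Real.log_pow]
  have : (N : ℝ) ≠ 0 := by positivity
  field_simp
  ring

/-- Supporting lines: the pressure is convex in `β` and the Gibbs energy is a subgradient. -/
theorem pr_tangent (hN : 0 < N) (β γ : ℝ) (J : Matrix (Fin N) (Fin N) ℝ) :
    pressure N β J + (γ - β) * gibbsEnergy N β J ≤ pressure N γ J := by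
  have h := log_sum_exp_tangent (cube N) (cube_nonempty N) (fun σ => β / 2 * qf J σ)
    (fun σ => γ / 2 * qf J σ)
  have hN' : (0 : ℝ) < N := by exact_mod_cast hN
  have e1 : (∑ s ∈ cube N, Real.exp (β / 2 * qf J s) * (γ / 2 * qf J s - β / 2 * qf J s)) =
      N * (γ - β) * ∑ s ∈ cube N, qf J s / (2 * (N : ℝ)) * Real.exp (β / 2 * qf J s) := by
    rw [Finset.mul_sum]
    refine Finset.sum_congr rfl fun s _ => ?_
    field_simp
  have e2 : (∑ s ∈ cube N, Real.exp (β / 2 * qf J s) * (γ / 2 * qf J s - β / 2 * qf J s)) /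
      (∑ s ∈ cube N, Real.exp (β / 2 * qf J s)) = N * ((γ - β) * gibbsEnergy N β J) := by
    rw [e1]
    unfold gibbsEnergy
    ring
  rw [e2] at h
  rw [pr_eq hN, pr_eq hN]
  have h2 : (1 / (N : ℝ)) * (Real.log (∑ s ∈ cube N, Real.exp (β / 2 * qf J s)) +
      N * ((γ - β) * gibbsEnergy N β J)) ≤
      (1 / (N : ℝ)) * Real.log (∑ s ∈ cube N, Real.exp (γ / 2 * qf J s)) :=
    mul_le_mul_of_nonneg_left h (by positivity)
  have h3 : (1 / (N : ℝ)) * (Real.log (∑ s ∈ cube N, Real.exp (β / 2 * qf J s)) +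
      N * ((γ - β) * gibbsEnergy N β J)) =
      (1 / (N : ℝ)) * Real.log (∑ s ∈ cube N, Real.exp (β / 2 * qf J s)) +
        (γ - β) * gibbsEnergy N β J := by
    field_simp
  rw [h3] at h2
  linarith

open Classical in
/-- The finite set of the values of the energy per spin. -/
noncomputable def maxFin (J : Matrix (Fin N) (Fin N) ℝ) : Finset ℝ :=
  (cube N).image fun σ => qf J σ / (2 * (N : ℝ))

theorem maxSet_eq (J : Matrix (Fin N) (Fin N) ℝ) :
    {x : ℝ | ∃ σ : Fin N → ℝ, (∀ i, σ i = -1 ∨ σ i = 1) ∧ x = σ ⬝ᵥ (J *ᵥ σ) / (2 * (N : ℝ))} =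
      (maxFin J : Set ℝ) := by
  ext x
  simp only [maxFin, Set.mem_ofPred_eq, Finset.coe_image, Set.mem_image, Finset.mem_coe,
    Fintype.mem_piFinset, Finset.mem_insert, Finset.mem_singleton]
  constructor
  · rintro ⟨σ, h1, h2⟩
    exact ⟨σ, h1, h2.symm⟩
  · rintro ⟨σ, h1, h2⟩
    exact ⟨σ, h1, h2.symm⟩

theorem maxEnergy_isGreatest (J : Matrix (Fin N) (Fin N) ℝ) :
    (∃ σ ∈ cube N, maxEnergy N J = qf J σ / (2 * (N : ℝ))) ∧
      ∀ σ ∈ cube N, qf J σ / (2 * (N : ℝ)) ≤ maxEnergy N J := by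
  have hne : (maxFin J).Nonempty := by
    obtain ⟨σ, hσ⟩ := cube_nonempty N
    refine ⟨qf J σ / (2 * (N : ℝ)), ?_⟩
    rw [maxFin, Finset.mem_image]
    exact ⟨σ, hσ, rfl⟩
  have h1 : maxEnergy N J = (maxFin J).max' hne := by
    unfold maxEnergy
    rw [maxSet_eq, hne.csSup_eq_max']
  constructor
  · have h2 := Finset.max'_mem _ hne
    rw [← h1] at h2
    rw [maxFin, Finset.mem_image] at h2
    obtain ⟨σ, hσ, h3⟩ := h2
    exact ⟨σ, hσ, h3.symm⟩
  · intro σ hσ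
    rw [h1]
    refine Finset.le_max' _ _ ?_
    rw [maxFin, Finset.mem_image]
    exact ⟨σ, hσ, rfl⟩

theorem pr_le_max (hN : 0 < N) {β : ℝ} (hβ : 0 ≤ β) (J : Matrix (Fin N) (Fin N) ℝ) :
    pressure N β J ≤ β * maxEnergy N J := by
  have hN' : (0 : ℝ) < N := by exact_mod_cast hN
  rw [pr_eq hN]
  have h1 : ∑ σ ∈ cube N, Real.exp (β / 2 * qf J σ) ≤
      (2 : ℝ) ^ N * Real.exp (N * (β * maxEnergy N J)) := by
    have : ∀ σ ∈ cube N, Real.exp (β / 2 * qf J σ) ≤ Real.exp (N * (β * maxEnergy N J)) := by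
      intro σ hσ
      apply Real.exp_le_exp.2
      have h2 := (maxEnergy_isGreatest J).2 σ hσ
      rw [div_le_iff₀ (by positivity)] at h2
      nlinarith
    have h3 := Finset.sum_le_sum this
    rw [Finset.sum_const, card_cube] at h3
    simpa only [nsmul_eq_mul, Nat.cast_pow, Nat.cast_ofNat] using h3
  have h2 := Real.log_le_log (pos_sum β J) h1
  rw [Real.log_mul (by positivity) (Real.exp_pos _).ne', Real.log_exp, Real.log_pow] at h2
  have h3 : (1 / (N : ℝ)) * Real.log (∑ σ ∈ cube N, Real.exp (β / 2 * qf J σ)) ≤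
      (1 / (N : ℝ)) * (N * Real.log 2 + N * (β * maxEnergy N J)) :=
    mul_le_mul_of_nonneg_left h2 (by positivity)
  have h4 : (1 / (N : ℝ)) * (N * Real.log 2 + N * (β * maxEnergy N J)) =
      Real.log 2 + β * maxEnergy N J := by field_simp
  linarith

theorem max_le_pr (hN : 0 < N) (β : ℝ) (J : Matrix (Fin N) (Fin N) ℝ) :
    β * maxEnergy N J - Real.log 2 ≤ pressure N β J := by
  have hN' : (0 : ℝ) < N := by exact_mod_cast hN
  rw [pr_eq hN]
  obtain ⟨⟨σ, hσ, h1⟩, -⟩ := maxEnergy_isGreatest J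
  have h2 : Real.exp (N * (β * maxEnergy N J)) ≤ ∑ σ ∈ cube N, Real.exp (β / 2 * qf J σ) := by
    have h3 : Real.exp (N * (β * maxEnergy N J)) = Real.exp (β / 2 * qf J σ) := by
      rw [h1]
      congr 1
      field_simp
    rw [h3]
    exact Finset.single_le_sum (f := fun σ => Real.exp (β / 2 * qf J σ))
      (fun _ _ => (Real.exp_pos _).le) hσ
  have h3 := Real.log_le_log (Real.exp_pos _) h2
  rw [Real.log_exp] at h3
  have h4 : (1 / (N : ℝ)) * (N * (β * maxEnergy N J)) ≤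
      (1 / (N : ℝ)) * Real.log (∑ σ ∈ cube N, Real.exp (β / 2 * qf J σ)) :=
    mul_le_mul_of_nonneg_left h3 (by positivity)
  have h5 : (1 / (N : ℝ)) * (N * (β * maxEnergy N J)) = β * maxEnergy N J := by field_simp
  linarith

/-- Matrices with spectrum in `[-K, K]`. -/
def Spec (N : ℕ) (K : ℝ) : Set (Matrix (Fin N) (Fin N) ℝ) :=
  {A | ∃ (V : orthogonalGroup (Fin N) ℝ) (a : Fin N → ℝ), (∀ i, |a i| ≤ K) ∧
    A = V.1ᵀ * diagonal a * V.1}

theorem qf_bound {K : ℝ} {J : Matrix (Fin N) (Fin N) ℝ} (hJ : J ∈ Spec N K)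
    {σ : Fin N → ℝ} (hσ : σ ∈ cube N) : |qf J σ| ≤ K * N := by
  obtain ⟨V, a, ha, rfl⟩ := hJ
  unfold qf
  rw [quad_form]
  calc |∑ i, a i * ((V.1 *ᵥ σ) i) ^ 2| ≤ ∑ i, |a i * ((V.1 *ᵥ σ) i) ^ 2| :=
        Finset.abs_sum_le_sum_abs _ _
    _ ≤ ∑ i, K * ((V.1 *ᵥ σ) i) ^ 2 := by
        apply Finset.sum_le_sum
        intro i _
        rw [abs_mul, abs_of_nonneg (sq_nonneg ((V.1 *ᵥ σ) i))]
        exact mul_le_mul_of_nonneg_right (ha i) (sq_nonneg _)
    _ = K * N := by rw [← Finset.mul_sum, norm_rot V hσ]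

theorem gibbs_bound (hN : 0 < N) {K : ℝ} {J : Matrix (Fin N) (Fin N) ℝ} (hJ : J ∈ Spec N K)
    (β : ℝ) : |gibbsEnergy N β J| ≤ K / 2 := by
  have hN' : (0 : ℝ) < N := by exact_mod_cast hN
  unfold gibbsEnergy
  rw [abs_div, abs_of_pos (pos_sum β J), div_le_iff₀ (pos_sum β J), Finset.mul_sum]
  refine (Finset.abs_sum_le_sum_abs _ _).trans (Finset.sum_le_sum fun σ hσ => ?_)
  rw [abs_mul, abs_of_pos (Real.exp_pos _)]
  refine mul_le_mul_of_nonneg_right ?_ (Real.exp_pos _).le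
  rw [abs_div, abs_of_pos (by positivity : (0 : ℝ) < 2 * N), div_le_iff₀ (by positivity)]
  have := qf_bound hJ hσ
  unfold qf at this
  linarith

theorem max_bound (hN : 0 < N) {K : ℝ} {J : Matrix (Fin N) (Fin N) ℝ} (hJ : J ∈ Spec N K) :
    |maxEnergy N J| ≤ K / 2 := by
  have hN' : (0 : ℝ) < N := by exact_mod_cast hN
  obtain ⟨⟨σ, hσ, h1⟩, -⟩ := maxEnergy_isGreatest J
  rw [h1, abs_div, abs_of_pos (by positivity : (0 : ℝ) < 2 * N), div_le_iff₀ (by positivity)]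
  have := qf_bound hJ hσ
  linarith

/-- Lipschitz bound in `β`. -/
theorem pr_lip (hN : 0 < N) {K : ℝ} {J : Matrix (Fin N) (Fin N) ℝ} (hJ : J ∈ Spec N K)
    (β γ : ℝ) : |pressure N β J - pressure N γ J| ≤ K / 2 * |β - γ| := by
  have h1 := pr_tangent hN β γ J
  have h2 := pr_tangent hN γ β J
  have b1 := gibbs_bound hN hJ β
  have b2 := gibbs_bound hN hJ γ
  have c1 : |(γ - β) * gibbsEnergy N β J| ≤ K / 2 * |β - γ| := by
    rw [abs_mul, abs_sub_comm γ β, mul_comm]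
    exact mul_le_mul_of_nonneg_right b1 (abs_nonneg _)
  have c2 : |(β - γ) * gibbsEnergy N γ J| ≤ K / 2 * |β - γ| := by
    rw [abs_mul, mul_comm]
    exact mul_le_mul_of_nonneg_right b2 (abs_nonneg _)
  rw [abs_le] at c1 c2 ⊢
  constructor <;> linarith [c1.1, c1.2, c2.1, c2.2]

end Vale.Agent.P166.H295
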